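import Crest.Agent.R238.AP0

/-!
# A priori estimates: three derivatives of `log det`, and adapted frames for a matrix
-/

set_option autoImplicit false

noncomputable section

open scoped ContDiff
open Set Filter Topology Matrix

namespace Crest.Agent.R238.AP

variable {ι : Type*} [Fintype ι] [DecidableEq ι]

/-- entrywise derivative of a matrix valued function -/
def MD (M : ℝ → Matrix ι ι ℝ) (M' : Matrix ι ι ℝ) (t : ℝ) : Prop :=
  ∀ i j, HasDerivAt (fun s => M s i j) (M' i j) t

section md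

variable {M N : ℝ → Matrix ι ι ℝ} {M' N' : Matrix ι ι ℝ} {t : ℝ}

omit [DecidableEq ι] in
theorem MD.mul (h : MD M M' t) (k : MD N N' t) :
    MD (fun s => M s * N s) (M' * N t + M t * N') t := by
  intro i j
  simp only [Matrix.mul_apply, Matrix.add_apply, ← Finset.sum_add_distrib]
  exact HasDerivAt.fun_sum fun l _ => (h i l).mul (k l j)

omit [DecidableEq ι] in
theorem MD.trace (h : MD M M' t) : HasDerivAt (fun s => (M s).trace) M'.trace t := by
  simp only [Matrix.trace, Matrix.diag_apply]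
  exact HasDerivAt.fun_sum fun l _ => h l l

/-- Jacobi's formula along a curve. -/
theorem MD.det (h : MD M M' t) :
    HasDerivAt (fun s => (M s).det) (((M t).adjugate * M').trace) t := by
  have h1 : ((M t).adjugate * M').trace = ∑ j, ((M t).updateCol j fun k => M' k j).det := by
    refine Finset.sum_congr rfl fun j _ => ?_
    rw [← Matrix.cramer_apply, Matrix.cramer_eq_adjugate_mulVec]
    rfl
  rw [h1]
  simp only [Matrix.det_apply']
  rw [Finset.sum_comm]
  refine HasDerivAt.fun_sum fun π _ => ?_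
  rw [← Finset.mul_sum]
  refine HasDerivAt.const_mul _ ?_
  convert HasDerivAt.fun_finsetProd (u := Finset.univ) (fun i _ => h (π i) i) using 1
  refine Finset.sum_congr rfl fun j _ => ?_
  rw [← Finset.mul_prod_erase Finset.univ _ (Finset.mem_univ j), Matrix.updateCol_self, smul_eq_mul,
    mul_comm]
  congr 1
  exact Finset.prod_congr rfl fun i hi => Matrix.updateCol_ne (Finset.ne_of_mem_erase hi)

theorem inv_eq_smul_adj (A : Matrix ι ι ℝ) : A⁻¹ = (A.det)⁻¹ • A.adjugate := by
  rw [Matrix.inv_def, Ring.inverse_eq_inv']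

theorem MD.logdet (h : MD M M' t) (hd : (M t).det ≠ 0) :
    HasDerivAt (fun s => Real.log (M s).det) (((M t)⁻¹ * M').trace) t := by
  refine (h.det.log hd).congr_deriv ?_
  rw [inv_eq_smul_adj, Matrix.smul_mul, Matrix.trace_smul, smul_eq_mul]
  field_simp

theorem MD.inv (h : MD M M' t) (hd : ∀ s, (M s).det ≠ 0) :
    MD (fun s => (M s)⁻¹) (-((M t)⁻¹ * M' * (M t)⁻¹)) t := by
  have hdiff : ∀ i j, DifferentiableAt ℝ (fun s => (M s)⁻¹ i j) t := by
    intro i j
    have e : (fun s => (M s)⁻¹ i j) =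
        fun s => ((M s).det)⁻¹ * ((M s).updateRow j (Pi.single i 1)).det := by
      funext s
      rw [inv_eq_smul_adj, Matrix.smul_apply, Matrix.adjugate_apply, smul_eq_mul]
    rw [e]
    have h2 : MD (fun s => (M s).updateRow j (Pi.single i 1)) (M'.updateRow j 0) t := by
      intro a b
      by_cases ha : a = j
      · subst ha
        simpa using hasDerivAt_const t ((Pi.single i (1 : ℝ) : ι → ℝ) b)
      · simpa [Matrix.updateRow_ne ha] using h a b
    exact (h.det.differentiableAt.fun_inv (hd t)).fun_mul h2.det.differentiableAt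
  set D : Matrix ι ι ℝ := Matrix.of fun i j => deriv (fun s => (M s)⁻¹ i j) t with hD
  have hN : MD (fun s => (M s)⁻¹) D t := fun i j => (hdiff i j).hasDerivAt
  have hone : ∀ s, (M s)⁻¹ * M s = 1 := fun s =>
    Matrix.nonsing_inv_mul _ (isUnit_iff_ne_zero.mpr (hd s))
  have hone' : M t * (M t)⁻¹ = 1 := Matrix.mul_nonsing_inv _ (isUnit_iff_ne_zero.mpr (hd t))
  have hz : D * M t + (M t)⁻¹ * M' = 0 := by
    ext i j
    have h1 := (hN.mul h) i j
    simp only [hone] at h1
    exact h1.unique (hasDerivAt_const t _)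
  have : D = -((M t)⁻¹ * M' * (M t)⁻¹) := by
    have h3 : (D * M t + (M t)⁻¹ * M') * (M t)⁻¹ = 0 := by rw [hz, Matrix.zero_mul]
    rw [Matrix.add_mul, Matrix.mul_assoc D, hone', Matrix.mul_one] at h3
    exact eq_neg_of_add_eq_zero_left h3
  rw [← this]
  exact hN

end md

/-- three derivatives of `log det` at a point where the matrix is the identity -/
theorem logdet3 {M0 M1 M2 M3 : ℝ → Matrix ι ι ℝ} {r0 r1 r2 r3 : ℝ → ℝ}
    (h1 : ∀ s, MD M0 (M1 s) s) (h2 : ∀ s, MD M1 (M2 s) s) (h3 : ∀ s, MD M2 (M3 s) s)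
    (hd : ∀ s, (M0 s).det ≠ 0) (hr : ∀ s, Real.log (M0 s).det = r0 s)
    (k1 : ∀ s, HasDerivAt r0 (r1 s) s) (k2 : ∀ s, HasDerivAt r1 (r2 s) s)
    (k3 : ∀ s, HasDerivAt r2 (r3 s) s) (hI : M0 0 = 1) :
    r1 0 = (M1 0).trace ∧ r2 0 = (M2 0).trace - (M1 0 * M1 0).trace ∧
      r3 0 = (M3 0).trace - 3 * (M1 0 * M2 0).trace + 2 * (M1 0 * M1 0 * M1 0).trace := by
  have hN := fun s => (h1 s).inv hd
  have e0 : r0 = fun s => Real.log (M0 s).det := funext fun s => (hr s).symm
  have e1 : r1 = fun s => ((M0 s)⁻¹ * M1 s).trace := by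
    funext s
    have := k1 s
    rw [e0] at this
    exact this.unique ((h1 s).logdet (hd s))
  have e2 : r2 = fun s => ((M0 s)⁻¹ * M2 s).trace -
      (((M0 s)⁻¹ * M1 s) * ((M0 s)⁻¹ * M1 s)).trace := by
    funext s
    have := k2 s
    rw [e1] at this
    rw [this.unique ((hN s).mul (h2 s)).trace]
    simp only [Matrix.trace_add, Matrix.neg_mul, Matrix.trace_neg, Matrix.mul_assoc]
    ring
  have e3 := k3 0
  rw [e2] at e3
  have hA := (hN 0).mul (h2 0)
  have e4 := e3.unique ((((hN 0).mul (h3 0)).trace).sub (hA.mul hA).trace)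
  refine ⟨by simp [e1, hI], by simp [e2, hI], ?_⟩
  rw [e4]
  simp only [hI, inv_one, Matrix.one_mul, Matrix.mul_one, Matrix.trace_add, Matrix.neg_mul,
    Matrix.mul_neg, Matrix.trace_neg, Matrix.add_mul, Matrix.mul_add, Matrix.mul_assoc]
  rw [Matrix.trace_mul_comm (M2 0) (M1 0)]
  ring

/-- an adapted frame for a positive definite matrix -/
theorem exists_frame_matrix (G : Matrix ι ι ℝ) (hG : G.PosDef) :
    ∃ (P : Matrix ι ι ℝ) (lam : ι → ℝ), (∀ i, 0 < lam i) ∧ Pᵀ * G * P = 1 ∧
      Pᵀ * P = Matrix.diagonal (fun i => (lam i)⁻¹) ∧ G.det = ∏ i, lam i ∧ P * Pᵀ * G = 1 := by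
  set U : Matrix ι ι ℝ := (hG.1.eigenvectorUnitary : Matrix ι ι ℝ) with hU
  set lam := hG.1.eigenvalues with hlam
  have hpos : ∀ i, 0 < lam i := hG.eigenvalues_pos
  have hUU : Uᵀ * U = 1 := by
    have := Unitary.coe_star_mul_self hG.1.eigenvectorUnitary
    simpa [star_eq_conjTranspose, conjTranspose_eq_transpose_of_trivial] using this
  have hD : Uᵀ * G * U = Matrix.diagonal lam := by
    have := hG.1.conjStarAlgAut_star_eigenvectorUnitary
    rw [Unitary.conjStarAlgAut_star_apply] at this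
    simpa [star_eq_conjTranspose, conjTranspose_eq_transpose_of_trivial] using this
  set S : Matrix ι ι ℝ := Matrix.diagonal fun i => (Real.sqrt (lam i))⁻¹ with hS
  have hP : (U * S)ᵀ * G * (U * S) = 1 := by
    have : (U * S)ᵀ * G * (U * S) = S * (Uᵀ * G * U) * S := by
      rw [Matrix.transpose_mul, hS, Matrix.diagonal_transpose]
      simp only [Matrix.mul_assoc]
    rw [this, hD, hS, Matrix.diagonal_mul_diagonal, Matrix.diagonal_mul_diagonal,
      ← Matrix.diagonal_one]
    congr 1
    funext i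
    have h1 := Real.sqrt_pos.mpr (hpos i)
    have h2 := Real.mul_self_sqrt (hpos i).le
    field_simp
    nlinarith
  refine ⟨U * S, lam, hpos, hP, ?_, ?_, ?_⟩
  · have : (U * S)ᵀ * (U * S) = S * (Uᵀ * U) * S := by
      rw [Matrix.transpose_mul, hS, Matrix.diagonal_transpose]
      simp only [Matrix.mul_assoc]
    rw [this, hUU, Matrix.mul_one, hS, Matrix.diagonal_mul_diagonal]
    congr 1
    funext i
    rw [← mul_inv, Real.mul_self_sqrt (hpos i).le]
  · simpa using hG.1.det_eq_prod_eigenvalues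
  · have := mul_eq_one_comm.mp hP
    rw [← this]
    simp only [Matrix.mul_assoc]

end Crest.Agent.R238.AP
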