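import Mathlib

/-!
# A priori estimates for the moment-measure Monge–Ampère equation: calculus toolkit

Directional derivatives `dd`, the Euler operator `eu`, second order jets of functions of one
variable (`Jet`), and the second derivative test.
-/

set_option autoImplicit false
set_option maxSynthPendingDepth 3

noncomputable section

open scoped ContDiff
open Set Filter Topology

namespace Crest.Agent.R238.AP

variable {E : Type*} [NormedAddCommGroup E] [NormedSpace ℝ E]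

/-- directional derivative -/
def dd (v : E) (f : E → ℝ) : E → ℝ := fun x => fderiv ℝ f x v

/-- Euler operator `x · D f` -/
def eu (f : E → ℝ) : E → ℝ := fun x => fderiv ℝ f x x

/-- smooth -/
abbrev Sm (f : E → ℝ) : Prop := ContDiff ℝ ∞ f

/-- second derivative as a bilinear map -/
def D2 (f : E → ℝ) (x : E) : E →L[ℝ] E →L[ℝ] ℝ := fderiv ℝ (fderiv ℝ f) x

/-- third derivative as a trilinear map -/
def D3 (f : E → ℝ) (x : E) : E →L[ℝ] E →L[ℝ] E →L[ℝ] ℝ := fderiv ℝ (D2 f) x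

variable {f g : E → ℝ}

theorem Sm.diff (hf : Sm f) : Differentiable ℝ f := ContDiff.differentiable hf (by simp)

theorem Sm.cd1 (hf : Sm f) : ContDiff ℝ ∞ (fderiv ℝ f) := ContDiff.fderiv_right (m := ∞) hf (by simp)

theorem Sm.cd2 (hf : Sm f) : ContDiff ℝ ∞ (D2 f) :=
  ContDiff.fderiv_right (m := ∞) hf.cd1 (by simp)

theorem Sm.cd3 (hf : Sm f) : ContDiff ℝ ∞ (D3 f) :=
  ContDiff.fderiv_right (m := ∞) hf.cd2 (by simp)

theorem Sm.dd (hf : Sm f) (v : E) : Sm (dd v f) := hf.cd1.clm_apply contDiff_const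

theorem Sm.eu (hf : Sm f) : Sm (eu f) := hf.cd1.clm_apply contDiff_id

theorem dd_dd (hf : Sm f) (a b x : E) : dd a (dd b f) x = D2 f x a b := by
  have h : HasFDerivAt (fderiv ℝ f) (D2 f x) x :=
    ((hf.cd1.differentiable (by simp)) x).hasFDerivAt
  have h2 := h.clm_apply (hasFDerivAt_const b x)
  show fderiv ℝ (fun y => fderiv ℝ f y b) x a = _
  rw [h2.fderiv]
  simp

theorem D2_symm (hf : Sm f) (x a b : E) : D2 f x a b = D2 f x b a :=
  (ContDiffAt.isSymmSndFDerivAt (hf.contDiffAt (x := x)) (by simp; norm_cast)) a b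

theorem dd_comm (hf : Sm f) (a b : E) : dd a (dd b f) = dd b (dd a f) := by
  funext x
  rw [dd_dd hf, dd_dd hf, D2_symm hf]

theorem dd_dd_dd (hf : Sm f) (a b c x : E) : dd a (dd b (dd c f)) x = D3 f x a b c := by
  have h : HasFDerivAt (D2 f) (D3 f x) x :=
    ((hf.cd2.differentiable (by simp)) x).hasFDerivAt
  have h2 := (h.clm_apply (hasFDerivAt_const b x)).clm_apply (hasFDerivAt_const c x)
  have e : dd b (dd c f) = fun y => D2 f y b c := funext fun y => dd_dd hf b c y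
  rw [e]
  show fderiv ℝ (fun y => D2 f y b c) x a = _
  rw [h2.fderiv]
  simp

theorem D3_symm12 (hf : Sm f) (x a b c : E) : D3 f x a b c = D3 f x b a c := by
  rw [← dd_dd_dd hf, ← dd_dd_dd hf, dd_comm (hf.dd c)]

theorem D3_symm23 (hf : Sm f) (x a b c : E) : D3 f x a b c = D3 f x a c b := by
  rw [← dd_dd_dd hf, ← dd_dd_dd hf, dd_comm hf b c]

theorem D3_eq_D2 (hf : Sm f) (x a b c : E) : D3 f x a b c = D2 (dd c f) x a b := by
  rw [← dd_dd_dd hf, dd_dd (hf.dd c)]

theorem dd_add (hf : Sm f) (hg : Sm g) (v : E) :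
    dd v (fun x => f x + g x) = fun x => dd v f x + dd v g x := by
  funext x
  show fderiv ℝ (fun x => f x + g x) x v = _
  rw [((hf.diff x).hasFDerivAt.fun_add (hg.diff x).hasFDerivAt).fderiv]
  rfl

theorem dd_sub (hf : Sm f) (hg : Sm g) (v : E) :
    dd v (fun x => f x - g x) = fun x => dd v f x - dd v g x := by
  funext x
  show fderiv ℝ (fun x => f x - g x) x v = _
  rw [((hf.diff x).hasFDerivAt.fun_sub (hg.diff x).hasFDerivAt).fderiv]
  rfl

theorem dd_cmul (hf : Sm f) (c : ℝ) (v : E) :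
    dd v (fun x => c * f x) = fun x => c * dd v f x := by
  funext x
  show fderiv ℝ (fun x => c * f x) x v = _
  rw [((hf.diff x).hasFDerivAt.const_mul c).fderiv]
  rfl

theorem dd_const (c : ℝ) (v : E) : dd v (fun _ : E => c) = fun _ => 0 := by
  funext x
  show fderiv ℝ (fun _ => c) x v = _
  simp

theorem eu_add (hf : Sm f) (hg : Sm g) (x : E) :
    eu (fun x => f x + g x) x = eu f x + eu g x := congrFun (dd_add hf hg x) x

theorem eu_sub (hf : Sm f) (hg : Sm g) (x : E) :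
    eu (fun x => f x - g x) x = eu f x - eu g x := congrFun (dd_sub hf hg x) x

theorem eu_cmul (hf : Sm f) (c : ℝ) (x : E) :
    eu (fun x => c * f x) x = c * eu f x := congrFun (dd_cmul hf c x) x

theorem eu_eq (f : E → ℝ) (x : E) : eu f x = dd x f x := rfl

theorem dd_eu (hf : Sm f) (v : E) : dd v (eu f) = fun x => eu (dd v f) x + dd v f x := by
  funext x
  have h : HasFDerivAt (fderiv ℝ f) (D2 f x) x :=
    ((hf.cd1.differentiable (by simp)) x).hasFDerivAt
  have h2 := h.clm_apply (hasFDerivAt_id x)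
  show fderiv ℝ (fun y => fderiv ℝ f y y) x v = _
  have h3 : fderiv ℝ (fun y => fderiv ℝ f y y) x = _ := h2.fderiv
  rw [h3, eu_eq, dd_dd hf, D2_symm hf x x v]
  simp [dd, add_comm]

theorem hasDerivAt_line (hf : Sm f) (x v : E) (s : ℝ) :
    HasDerivAt (fun t : ℝ => f (x + t • v)) (dd v f (x + s • v)) s := by
  have h1 : HasDerivAt (fun t : ℝ => x + t • v) v s := by
    simpa using ((hasDerivAt_id s).smul_const v).const_add x
  exact (hf.diff (x + s • v)).hasFDerivAt.comp_hasDerivAt s h1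

/-- `p` has the second order jet `(a₀, a₁, a₂)` at `0` (and is differentiable everywhere). -/
def Jet (p : ℝ → ℝ) (a0 a1 a2 : ℝ) : Prop :=
  p 0 = a0 ∧ ∃ p1 : ℝ → ℝ, (∀ s, HasDerivAt p (p1 s) s) ∧ p1 0 = a1 ∧ HasDerivAt p1 a2 0

section jet

variable {p r : ℝ → ℝ} {a0 a1 a2 b0 b1 b2 : ℝ}

theorem Jet.congr (h : Jet p a0 a1 a2) (h0 : a0 = b0) (h1 : a1 = b1) (h2 : a2 = b2) :
    Jet p b0 b1 b2 := by
  subst h0 h1 h2
  exact h

theorem Jet.congr_fun (h : Jet p a0 a1 a2) (e : ∀ s, r s = p s) : Jet r a0 a1 a2 := by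
  have : r = p := funext e
  rw [this]
  exact h

theorem Jet.const (c : ℝ) : Jet (fun _ => c) c 0 0 :=
  ⟨rfl, fun _ => 0, fun s => hasDerivAt_const s c, rfl, hasDerivAt_const 0 0⟩

theorem Jet.id : Jet (fun s => s) 0 1 0 :=
  ⟨rfl, fun _ => 1, fun s => hasDerivAt_id s, rfl, hasDerivAt_const 0 1⟩

theorem Jet.add (h : Jet p a0 a1 a2) (k : Jet r b0 b1 b2) :
    Jet (fun s => p s + r s) (a0 + b0) (a1 + b1) (a2 + b2) := by
  obtain ⟨h0, p1, hp, h1, h2⟩ := h
  obtain ⟨k0, r1, hr, k1, k2⟩ := k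
  exact ⟨by simp [h0, k0], fun s => p1 s + r1 s, fun s => (hp s).add (hr s), by simp [h1, k1],
    h2.add k2⟩

theorem Jet.sub (h : Jet p a0 a1 a2) (k : Jet r b0 b1 b2) :
    Jet (fun s => p s - r s) (a0 - b0) (a1 - b1) (a2 - b2) := by
  obtain ⟨h0, p1, hp, h1, h2⟩ := h
  obtain ⟨k0, r1, hr, k1, k2⟩ := k
  exact ⟨by simp [h0, k0], fun s => p1 s - r1 s, fun s => (hp s).sub (hr s), by simp [h1, k1],
    h2.sub k2⟩

theorem Jet.mul (h : Jet p a0 a1 a2) (k : Jet r b0 b1 b2) :
    Jet (fun s => p s * r s) (a0 * b0) (a1 * b0 + a0 * b1) (a2 * b0 + 2 * a1 * b1 + a0 * b2) := by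
  obtain ⟨h0, p1, hp, h1, h2⟩ := h
  obtain ⟨k0, r1, hr, k1, k2⟩ := k
  refine ⟨by simp [h0, k0], fun s => p1 s * r s + p s * r1 s, fun s => (hp s).mul (hr s),
    by simp [h0, k0, h1, k1], ?_⟩
  have := (h2.mul (hr 0)).add ((hp 0).mul k2)
  refine HasDerivAt.congr_deriv this ?_
  rw [h0, k0, h1, k1]
  ring

theorem Jet.line (hf : Sm f) (x v : E) :
    Jet (fun s => f (x + s • v)) (f x) (dd v f x) (dd v (dd v f) x) := by
  refine ⟨by simp, fun s => dd v f (x + s • v), fun s => hasDerivAt_line hf x v s, by simp, ?_⟩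
  simpa using hasDerivAt_line (hf.dd v) x v 0

/-- second derivative test -/
theorem Jet.max (h : Jet p a0 a1 a2) (hm : ∀ s, p s ≤ p 0) : a1 = 0 ∧ a2 ≤ 0 := by
  obtain ⟨-, p1, hp, h1, h2⟩ := h
  have hmax : IsLocalMax p 0 := Eventually.of_forall hm
  have e1 : p1 0 = 0 := hmax.hasDerivAt_eq_zero (hp 0)
  refine ⟨h1 ▸ e1, ?_⟩
  by_contra hneg
  push Not at hneg
  have hd : deriv p = p1 := funext fun s => (hp s).deriv
  have hmin : IsLocalMin p 0 := by
    refine isLocalMin_of_deriv_deriv_pos ?_ ?_ (hp 0).continuousAt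
    · rw [hd, h2.deriv]
      exact hneg
    · rw [hd, e1]
  have hev : p =ᶠ[𝓝 0] fun _ => p 0 := by
    filter_upwards [hmin] with s hs using le_antisymm (hm s) hs
  have hev2 : p1 =ᶠ[𝓝 0] fun _ => 0 := by
    filter_upwards [hev.eventuallyEq_nhds] with s hs
    exact (hp s).unique ((hasDerivAt_const s (p 0)).congr_of_eventuallyEq hs)
  have := h2.unique ((hasDerivAt_const (0 : ℝ) (0 : ℝ)).congr_of_eventuallyEq hev2)
  exact hneg.ne' this

end jet

/-- first and second order conditions at a global maximum -/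
theorem max_cond (hf : Sm f) {x : E} (hm : ∀ y, f y ≤ f x) (v : E) :
    dd v f x = 0 ∧ dd v (dd v f) x ≤ 0 :=
  (Jet.line hf x v).max fun s => by simpa using hm (x + s • v)

end Crest.Agent.R238.AP
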