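import Crest.Agent.R238.ASoft

/-!
# R238 / AGeom: from polyhedra to convex bodies (`n ≥ 2`)

`h_K u = sSup (⟪·,u⟫ '' K)` is positive on the sphere (`0` is an interior point of the symmetric
convex `K`), even and Lipschitz (continuous).  Take a dense sequence `u_j` of the (nonempty,
separable) sphere, `P_N(h) = poly (u ∘ Fin.val) h`.  `K ⊆ P_N(h_K)`, `L ⊆ P_N(h_L)`, and
`⋂_N P_N(h_K^{1-t}h_L^t) ⊆ M` := the set in the statement (density + continuity).
`gw δ` is the real part of the finite measure `volume.withDensity`; continuity from above gives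
`gw δ K^{1-t} gw δ L^t ≤ gw δ M ≤ volume M` (if `volume M = ⊤` there is nothing to prove), and
`gw δ K → volume.real K` as `δ → 0` (or `gw δ K ≥ e^{-δ r²/2} vol K` for `K ⊆ ball 0 r`).
-/

set_option autoImplicit false
open MeasureTheory Matrix Set Metric
open scoped RealInnerProductSpace ContDiff BigOperators

namespace Crest.Agent.R238

variable {n : ℕ}

/-- support function -/
noncomputable def ageom_h (K : Set (E n)) (u : E n) : ℝ := sSup ((fun y => ⟪y, u⟫) '' K)

theorem ageom_le {K : Set (E n)} (hK : IsCompact K) {y : E n} (hy : y ∈ K) (u : E n) : ⟪y, u⟫ ≤ ageom_h K u :=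
  le_csSup (hK.image (continuous_id.inner continuous_const)).bddAbove (mem_image_of_mem _ hy)

theorem ageom_cont {K : Set (E n)} (hK : IsCompact K) : Continuous (ageom_h K) :=
  hK.continuous_sSup (f := fun u y : E n => ⟪y, u⟫) (continuous_snd.inner continuous_fst)

theorem ageom_pos {K : Set (E n)} (hK : IsCompact K) (hv : Convex ℝ K) (hi : (interior K).Nonempty)
    (hs : ∀ x ∈ K, -x ∈ K) {u : E n} (hu : ‖u‖ = 1) : 0 < ageom_h K u := by
  obtain ⟨x, hx⟩ := hi
  obtain ⟨r, hr, hb⟩ := Metric.mem_nhds_iff.1 (mem_interior_iff_mem_nhds.1 hx)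
  have h1 : x + (r / 2) • u ∈ K := hb (by
    rw [mem_ball_iff_norm, add_sub_cancel_left, norm_smul, hu, Real.norm_eq_abs, abs_of_pos (half_pos hr)]
    linarith)
  have h2 := hv h1 (hs x (hb (mem_ball_self hr))) (a := 1 / 2) (b := 1 / 2) (by norm_num) (by norm_num)
    (by norm_num)
  have h3 := ageom_le hK h2 u
  rw [← smul_add, add_neg_cancel_comm, real_inner_smul_left, real_inner_smul_left, real_inner_self_eq_norm_sq,
    hu] at h3
  linarith

theorem ageom_sub {K : Set (E n)} (hK : IsCompact K) (hs : ∀ x ∈ K, -x ∈ K) {N : ℕ} (a : Fin N → E n) :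
    K ⊆ poly a fun j => ageom_h K (a j) := fun x hx j => by
  have h1 := ageom_le hK (hs x hx) (a j)
  rw [inner_neg_left] at h1
  exact abs_le.2 ⟨by linarith, ageom_le hK hx _⟩

theorem ageom_closed {N : ℕ} (a : Fin N → E n) (h : Fin N → ℝ) : IsClosed (poly a h) := by
  rw [poly, Set.ofPred_forall]
  exact isClosed_iInter fun j => isClosed_le (continuous_id.inner continuous_const).abs continuous_const

theorem ageom_int {δ : ℝ} (hδ : 0 < δ) : Integrable fun x : E n => Real.exp (-(δ / 2 * ‖x‖ ^ 2)) := by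
  have h := (GaussianFourier.integrable_cexp_neg_mul_sq_norm_add (V := E n) (b := ((δ / 2 : ℝ) : ℂ))
    (by simpa using hδ) 0 0).norm
  refine h.congr (ae_of_all _ fun x => ?_)
  simp only [zero_mul, add_zero, Complex.norm_exp]
  congr 1
  rw [← Complex.ofReal_pow, ← Complex.ofReal_neg, ← Complex.ofReal_mul, Complex.ofReal_re, neg_mul]

theorem ageom_gw0 (δ : ℝ) (A : Set (E n)) : 0 ≤ gw δ A := integral_nonneg fun _ => (Real.exp_pos _).le

theorem ageom_mono {δ : ℝ} (hδ : 0 < δ) {A B : Set (E n)} (h : A ⊆ B) : gw δ A ≤ gw δ B :=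
  setIntegral_mono_set (ageom_int hδ).integrableOn (ae_of_all _ fun _ => (Real.exp_pos _).le) h.eventuallyLE

theorem ageom_up {δ : ℝ} (hδ : 0 < δ) {A : Set (E n)} (h : volume A ≠ ⊤) : gw δ A ≤ volume.real A := by
  have := setIntegral_mono (ageom_int hδ).integrableOn (integrableOn_const (C := (1 : ℝ)) h) fun x =>
    Real.exp_le_one_iff.2 (neg_nonpos.2 (by positivity))
  simpa [gw] using this

theorem ageom_low {δ r : ℝ} (hδ : 0 < δ) {K : Set (E n)} (hK : IsCompact K) (h : K ⊆ closedBall 0 r) :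
    Real.exp (-(δ / 2 * r ^ 2)) * volume.real K ≤ gw δ K := by
  refine setIntegral_ge_of_const_le_real hK.measurableSet hK.measure_lt_top.ne (fun x hx => ?_)
    (ageom_int hδ).integrableOn
  have := mem_closedBall_zero_iff.1 (h hx)
  gcongr

theorem logBM_two (hn : 2 ≤ n)
    (K L : Set (EuclideanSpace ℝ (Fin n)))
    (hKc : IsCompact K) (hKv : Convex ℝ K) (hKi : (interior K).Nonempty) (hKs : ∀ x ∈ K, -x ∈ K)
    (hLc : IsCompact L) (hLv : Convex ℝ L) (hLi : (interior L).Nonempty) (hLs : ∀ x ∈ L, -x ∈ L)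
    (t : ℝ) (ht0 : 0 ≤ t) (ht1 : t ≤ 1) :
    volume K ^ (1 - t) * volume L ^ t ≤
      volume (⋂ u ∈ Metric.sphere (0 : EuclideanSpace ℝ (Fin n)) 1,
        {x : EuclideanSpace ℝ (Fin n) | inner ℝ x u ≤
          sSup ((fun y => inner ℝ y u) '' K) ^ (1 - t) * sSup ((fun y => inner ℝ y u) '' L) ^ t}) := by
  set M := ⋂ u ∈ Metric.sphere (0 : E n) 1, {x : E n | ⟪x, u⟫ ≤ ageom_h K u ^ (1 - t) * ageom_h L u ^ t} with hM
  change _ ≤ volume M
  rcases eq_or_ne (volume M) ⊤ with hfin | hfin
  · rw [hfin]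
    exact le_top
  have ht : 0 ≤ 1 - t := sub_nonneg.2 ht1
  have : NeZero n := ⟨by omega⟩
  have : Nonempty (Metric.sphere (0 : E n) 1) := (NormedSpace.sphere_nonempty.2 zero_le_one).to_subtype
  obtain ⟨u, hu⟩ := TopologicalSpace.exists_dense_seq (Metric.sphere (0 : E n) 1)
  have hu1 : ∀ j, ‖(u j : E n)‖ = 1 := fun j => mem_sphere_zero_iff_norm.1 (u j).2
  let P : ℕ → Set (E n) := fun N =>
    poly (fun j : Fin N => (u j : E n)) fun j => ageom_h K (u j) ^ (1 - t) * ageom_h L (u j) ^ t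
  have hPa : Antitone P := fun N N' h x hx j => hx (j.castLE h)
  have hPM : ⋂ N, P N ⊆ M := fun x hx => by
    refine mem_iInter₂.2 fun v hv => ?_
    refine hu.induction_on (p := fun v : Metric.sphere (0 : E n) 1 =>
      ⟪x, (v : E n)⟫ ≤ ageom_h K v ^ (1 - t) * ageom_h L v ^ t) ⟨v, hv⟩ ?_ fun j => ?_
    · exact isClosed_le (continuous_const.inner continuous_subtype_val)
        ((((ageom_cont hKc).comp continuous_subtype_val).rpow_const fun _ => Or.inr ht).mul
          (((ageom_cont hLc).comp continuous_subtype_val).rpow_const fun _ => Or.inr ht0))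
    · exact (le_abs_self _).trans (mem_iInter.1 hx (j + 1) (Fin.last j))
  obtain ⟨r, hr⟩ := (hKc.union hLc).isBounded.subset_closedBall 0
  have key : ∀ δ : ℝ, 0 < δ →
      Real.exp (-(δ / 2 * r ^ 2)) * (volume.real K ^ (1 - t) * volume.real L ^ t) ≤ volume.real M := by
    intro δ hδ
    have h1 : ∀ N, gw δ K ^ (1 - t) * gw δ L ^ t ≤ gw δ (P N) := fun N => by
      refine le_trans ?_ (poly_logconc hn hδ (fun j : Fin N => (u j : E n)) (fun j => ageom_h K (u j))
        (fun j => ageom_h L (u j)) (fun j => ageom_pos hKc hKv hKi hKs (hu1 j))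
        (fun j => ageom_pos hLc hLv hLi hLs (hu1 j)) ht0 ht1)
      exact mul_le_mul (Real.rpow_le_rpow (ageom_gw0 _ _) (ageom_mono hδ (ageom_sub hKc hKs _)) ht)
        (Real.rpow_le_rpow (ageom_gw0 _ _) (ageom_mono hδ (ageom_sub hLc hLs _)) ht0)
        (Real.rpow_nonneg (ageom_gw0 _ _) _) (Real.rpow_nonneg (ageom_gw0 _ _) _)
    have h2 : gw δ K ^ (1 - t) * gw δ L ^ t ≤ gw δ (⋂ N, P N) :=
      ge_of_tendsto' (tendsto_setIntegral_of_antitone (fun N => (ageom_closed _ _).measurableSet) hPa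
        ⟨0, (ageom_int hδ).integrableOn⟩) h1
    refine le_trans ?_ (h2.trans ((ageom_mono hδ hPM).trans (ageom_up hδ hfin)))
    have e0 := (Real.exp_pos (-(δ / 2 * r ^ 2)))
    calc _ = (Real.exp (-(δ / 2 * r ^ 2)) * volume.real K) ^ (1 - t) *
          (Real.exp (-(δ / 2 * r ^ 2)) * volume.real L) ^ t := by
          rw [Real.mul_rpow e0.le measureReal_nonneg, Real.mul_rpow e0.le measureReal_nonneg, mul_mul_mul_comm,
            ← Real.rpow_add e0, sub_add_cancel, Real.rpow_one]
      _ ≤ _ := mul_le_mul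
          (Real.rpow_le_rpow (by positivity) (ageom_low hδ hKc (subset_union_left.trans hr)) ht)
          (Real.rpow_le_rpow (by positivity) (ageom_low hδ hLc (subset_union_right.trans hr)) ht0)
          (by positivity) (Real.rpow_nonneg (ageom_gw0 _ _) _)
  have h3 : volume.real K ^ (1 - t) * volume.real L ^ t ≤ volume.real M := by
    have hc : Continuous fun δ : ℝ =>
        Real.exp (-(δ / 2 * r ^ 2)) * (volume.real K ^ (1 - t) * volume.real L ^ t) := by fun_prop
    have h4 := (hc.tendsto 0).mono_left (nhdsWithin_le_nhds (s := Ioi 0))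
    simp only [zero_div, zero_mul, neg_zero, Real.exp_zero, one_mul] at h4
    exact le_of_tendsto h4 (eventually_nhdsWithin_of_forall key)
  rw [← ofReal_measureReal hKc.measure_lt_top.ne, ← ofReal_measureReal hLc.measure_lt_top.ne,
    ← ofReal_measureReal hfin, ENNReal.ofReal_rpow_of_nonneg measureReal_nonneg ht,
    ENNReal.ofReal_rpow_of_nonneg measureReal_nonneg ht0, ← ENNReal.ofReal_mul (by positivity)]
  exact ENNReal.ofReal_le_ofReal h3

end Crest.Agent.R238
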