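import Crest.Agent.R238.Defs

/-!
# R238 / MatL: matrix lemmas about `Ell` (finite-dimensional linear algebra only)

Hints: `Ell c C M` with `0 < c` gives `M.PosDef`; use `Matrix.IsHermitian.spectral_theorem`
(or `PosDef` ⇒ `M = B * Bᵀ` with `B` invertible).  `exists_frame` is the work-horse.
-/

set_option autoImplicit false
open MeasureTheory Matrix Set Metric
open scoped RealInnerProductSpace ContDiff BigOperators

namespace Crest.Agent.R238

variable {n : ℕ}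

theorem matl_tr {M : Mat n} (h : ∀ i j, M i j = M j i) : Mᵀ = M := by
  ext i j
  exact h j i

theorem matl_herm {M : Mat n} (h : ∀ i j, M i j = M j i) : M.IsHermitian := by
  ext i j
  simpa using h j i

theorem matl_adj (M : Mat n) (v w : Fin n → ℝ) : v ⬝ᵥ (M *ᵥ w) = (Mᵀ *ᵥ v) ⬝ᵥ w := by
  rw [dotProduct_mulVec, mulVec_transpose]

theorem matl_sym {M : Mat n} (h : ∀ i j, M i j = M j i) (v w : Fin n → ℝ) :
    v ⬝ᵥ (M *ᵥ w) = w ⬝ᵥ (M *ᵥ v) := by
  rw [matl_adj, matl_tr h, dotProduct_comm]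

theorem matl_nn (v : Fin n → ℝ) : 0 ≤ v ⬝ᵥ v := Finset.sum_nonneg fun _ _ => mul_self_nonneg _

theorem matl_psd {c C : ℝ} {M : Mat n} (h : Ell c C M) (hc : 0 ≤ c) (v : Fin n → ℝ) :
    0 ≤ v ⬝ᵥ (M *ᵥ v) := (mul_nonneg hc (matl_nn v)).trans (h.lo v)

theorem matl_exp {M : Mat n} (h : ∀ i j, M i j = M j i) (v w : Fin n → ℝ) (s : ℝ) :
    (v + s • w) ⬝ᵥ (M *ᵥ (v + s • w))
      = v ⬝ᵥ (M *ᵥ v) + 2 * s * (v ⬝ᵥ (M *ᵥ w)) + s ^ 2 * (w ⬝ᵥ (M *ᵥ w)) := by
  simp only [mulVec_add, mulVec_smul, add_dotProduct, dotProduct_add, smul_dotProduct,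
    dotProduct_smul, smul_eq_mul]
  rw [matl_sym h w v]
  ring

theorem matl_single (M : Mat n) (i j : Fin n) :
    (Pi.single i 1 : Fin n → ℝ) ⬝ᵥ (M *ᵥ Pi.single j 1) = M i j := by
  simp

theorem matl_spec {S : Mat n} (hS : ∀ i j, S i j = S j i) : ∃ (V : Mat n) (k : Fin n → ℝ),
    V * Vᵀ = 1 ∧ Vᵀ * V = 1 ∧ S = V * diagonal k * Vᵀ := by
  have hH := matl_herm hS
  have hs : S = (hH.eigenvectorUnitary : Mat n) * diagonal hH.eigenvalues
      * star (hH.eigenvectorUnitary : Mat n) := hH.spectral_theorem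
  have e : star (hH.eigenvectorUnitary : Mat n) = (hH.eigenvectorUnitary : Mat n)ᵀ := by
    rw [star_eq_conjTranspose, conjTranspose_eq_transpose_of_trivial]
  refine ⟨hH.eigenvectorUnitary, hH.eigenvalues, ?_, ?_, by rw [← e]; exact hs⟩
  · rw [← e]
    exact (Unitary.mem_iff.1 hH.eigenvectorUnitary.2).2
  · rw [← e]
    exact (Unitary.mem_iff.1 hH.eigenvectorUnitary.2).1

theorem matl_diag {S V : Mat n} {k : Fin n → ℝ} (h2 : Vᵀ * V = 1) (h : S = V * diagonal k * Vᵀ) :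
    Vᵀ * S * V = diagonal k := by
  rw [h]
  calc Vᵀ * (V * diagonal k * Vᵀ) * V = (Vᵀ * V) * diagonal k * (Vᵀ * V) := by
        simp only [Matrix.mul_assoc]
    _ = diagonal k := by rw [h2, Matrix.one_mul, Matrix.mul_one]

theorem matl_specE {c C : ℝ} {t : Mat n} (ht : Ell c C t) : ∃ (V : Mat n) (k : Fin n → ℝ),
    V * Vᵀ = 1 ∧ Vᵀ * V = 1 ∧ t = V * diagonal k * Vᵀ ∧ ∀ i, c ≤ k i ∧ k i ≤ C := by
  obtain ⟨V, k, h1, h2, h3⟩ := matl_spec ht.symm
  refine ⟨V, k, h1, h2, h3, fun i => ?_⟩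
  have e1 : (V *ᵥ Pi.single i 1) ⬝ᵥ (V *ᵥ Pi.single i 1) = 1 := by
    rw [matl_adj, mulVec_mulVec, h2]
    simp
  have e2 : (V *ᵥ Pi.single i 1) ⬝ᵥ (t *ᵥ (V *ᵥ Pi.single i 1)) = k i := by
    rw [dotProduct_comm, matl_adj, mulVec_mulVec, mulVec_mulVec, matl_diag h2 h3]
    simp
  have a1 := ht.lo (V *ᵥ Pi.single i 1)
  have a2 := ht.hi (V *ᵥ Pi.single i 1)
  rw [e1, e2, mul_one] at a1 a2
  exact ⟨a1, a2⟩

theorem matl_nsq {Z : Mat n} (hZ : ∀ i j, Z i j = Z j i) : nsq Z = (Z * Z).trace := by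
  simp only [nsq, trace, diag, Matrix.mul_apply]
  refine Finset.sum_congr rfl fun i _ => Finset.sum_congr rfl fun j _ => ?_
  rw [hZ j i, sq]

theorem matl_tr_sq {c C : ℝ} {t Z : Mat n} (ht : Ell c C t) (hZ : ∀ i j, Z i j = Z j i) :
    ∃ (k : Fin n → ℝ) (W : Mat n), (∀ i, c ≤ k i ∧ k i ≤ C) ∧ nsq Z = nsq W ∧
      (t * Z * (t * Z)).trace = ∑ i, ∑ j, k i * k j * W i j ^ 2 := by
  obtain ⟨V, k, h1, -, h3, h4⟩ := matl_specE ht
  have hW : ∀ i j, (Vᵀ * Z * V) i j = (Vᵀ * Z * V) j i := fun i j => by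
    have : (Vᵀ * Z * V)ᵀ = Vᵀ * Z * V := by
      rw [transpose_mul, transpose_mul, transpose_transpose, matl_tr hZ, Matrix.mul_assoc]
    rw [← transpose_apply (Vᵀ * Z * V) j i, this]
  refine ⟨k, Vᵀ * Z * V, h4, ?_, ?_⟩
  · rw [matl_nsq hZ, matl_nsq hW]
    calc (Z * Z).trace = (Z * (V * Vᵀ) * Z * (V * Vᵀ)).trace := by simp only [h1, Matrix.mul_one]
      _ = ((Z * V * Vᵀ * Z * V) * Vᵀ).trace := by simp only [Matrix.mul_assoc]
      _ = (Vᵀ * (Z * V * Vᵀ * Z * V)).trace := trace_mul_comm _ _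
      _ = _ := by simp only [Matrix.mul_assoc]
  · calc (t * Z * (t * Z)).trace
        = (V * (diagonal k * Vᵀ * Z * V * diagonal k * Vᵀ * Z)).trace := by
          rw [h3]; simp only [Matrix.mul_assoc]
      _ = ((diagonal k * Vᵀ * Z * V * diagonal k * Vᵀ * Z) * V).trace := trace_mul_comm _ _
      _ = ((diagonal k * (Vᵀ * Z * V)) * (diagonal k * (Vᵀ * Z * V))).trace := by
          simp only [Matrix.mul_assoc]
      _ = _ := by
          generalize Vᵀ * Z * V = W at hW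
          simp only [trace, diag]
          refine Finset.sum_congr rfl fun i _ => ?_
          rw [Matrix.mul_apply]
          refine Finset.sum_congr rfl fun j _ => ?_
          rw [diagonal_mul, diagonal_mul, hW j i]
          ring

theorem Ell.transpose {c C : ℝ} {M : Mat n} (h : Ell c C M) : Mᵀ = M := by
  exact matl_tr h.symm

theorem Ell.posDef {c C : ℝ} {M : Mat n} (h : Ell c C M) (hc : 0 < c) : M.PosDef := by
  refine PosDef.of_dotProduct_mulVec_pos (matl_herm h.symm) fun x hx => ?_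
  have h1 : 0 < x ⬝ᵥ x := (matl_nn x).lt_of_ne fun e => hx (dotProduct_self_eq_zero.1 e.symm)
  exact (mul_pos hc h1).trans_le (h.lo x)

theorem Ell.det_pos {c C : ℝ} {M : Mat n} (h : Ell c C M) (hc : 0 < c) : 0 < M.det := by
  exact (h.posDef hc).det_pos

theorem Ell.mul_inv {c C : ℝ} {M : Mat n} (h : Ell c C M) (hc : 0 < c) : M * M⁻¹ = 1 := by
  exact Matrix.mul_nonsing_inv M (h.det_pos hc).ne'.isUnit

theorem Ell.inv_mul {c C : ℝ} {M : Mat n} (h : Ell c C M) (hc : 0 < c) : M⁻¹ * M = 1 := by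
  exact Matrix.nonsing_inv_mul M (h.det_pos hc).ne'.isUnit

theorem Ell.inv {c C : ℝ} {M : Mat n} (h : Ell c C M) (hc : 0 < c) (hC : c ≤ C) :
    Ell C⁻¹ c⁻¹ M⁻¹ := by
  have hC0 : 0 < C := hc.trans_le hC
  have e : ∀ v, M *ᵥ (M⁻¹ *ᵥ v) = v := fun v => by rw [mulVec_mulVec, h.mul_inv hc, one_mulVec]
  refine ⟨fun i j => ?_, fun v => ?_, fun v => ?_⟩
  · rw [← transpose_apply M⁻¹ j i, transpose_nonsing_inv, h.transpose]
  · have h1 := matl_psd h hc.le (v + (-C) • M⁻¹ *ᵥ v)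
    rw [matl_exp h.symm, e, dotProduct_comm (M⁻¹ *ᵥ v) v] at h1
    have h2 := h.hi v
    rw [inv_mul_le_iff₀ hC0]
    refine le_of_mul_le_mul_left ?_ hC0
    nlinarith
  · have h1 := matl_nn (v + (-c) • M⁻¹ *ᵥ v)
    simp only [add_dotProduct, dotProduct_add, smul_dotProduct, dotProduct_smul, smul_eq_mul] at h1
    have h2 := h.lo (M⁻¹ *ᵥ v)
    rw [e] at h2
    rw [dotProduct_comm (M⁻¹ *ᵥ v) v] at h1 h2
    rw [le_inv_mul_iff₀ hc]
    nlinarith [mul_le_mul_of_nonneg_left h2 hc.le]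

theorem Ell.entry_le {c C : ℝ} {M : Mat n} (h : Ell c C M) (hc : 0 ≤ c) (i j : Fin n) :
    |M i j| ≤ C := by
  have h1 := matl_psd h hc (Pi.single i 1 + (1 : ℝ) • Pi.single j 1)
  have h2 := matl_psd h hc (Pi.single i 1 + (-1 : ℝ) • Pi.single j 1)
  rw [matl_exp h.symm, matl_single, matl_single, matl_single] at h1 h2
  have h3 := h.hi (Pi.single i 1)
  have h4 := h.hi (Pi.single j 1)
  rw [matl_single] at h3 h4
  simp only [single_dotProduct, Pi.single_eq_same, mul_one] at h3 h4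
  rw [abs_le]
  constructor <;> linarith

theorem Ell.mulVec_sq {c C : ℝ} {M : Mat n} (h : Ell c C M) (hc : 0 ≤ c) (v : Fin n → ℝ) :
    (M *ᵥ v) ⬝ᵥ (M *ᵥ v) ≤ C ^ 2 * (v ⬝ᵥ v) := by
  set w := M *ᵥ v with hw
  have key : ∀ s : ℝ, 0 ≤ (v ⬝ᵥ w) * (s * s) + (2 * (w ⬝ᵥ w)) * s + w ⬝ᵥ (M *ᵥ w) := fun s => by
    have := matl_psd h hc (w + s • v)
    rw [matl_exp h.symm, ← hw] at this
    linarith
  have h1 := discrim_le_zero key
  unfold discrim at h1
  have h2 : (v ⬝ᵥ w) * (w ⬝ᵥ (M *ᵥ w)) ≤ (C * (v ⬝ᵥ v)) * (C * (w ⬝ᵥ w)) :=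
    mul_le_mul (h.hi v) (h.hi w) (matl_psd h hc w) ((matl_psd h hc v).trans (h.hi v))
  rcases (matl_nn w).eq_or_lt with h0 | h0
  · rw [← h0]
    exact mul_nonneg (sq_nonneg _) (matl_nn v)
  · refine le_of_mul_le_mul_left ?_ h0
    nlinarith

theorem Ell.convex {c C : ℝ} {A B : Mat n} (hA : Ell c C A) (hB : Ell c C B) {s : ℝ}
    (h0 : 0 ≤ s) (h1 : s ≤ 1) : Ell c C ((1 - s) • A + s • B) := by
  have h2 : 0 ≤ 1 - s := by linarith
  refine ⟨fun i j => ?_, fun v => ?_, fun v => ?_⟩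
  · simp only [Matrix.add_apply, Matrix.smul_apply, hA.symm i j, hB.symm i j]
  · simp only [add_mulVec, smul_mulVec, dotProduct_add, dotProduct_smul, smul_eq_mul]
    nlinarith [mul_le_mul_of_nonneg_left (hA.lo v) h2, mul_le_mul_of_nonneg_left (hB.lo v) h0]
  · simp only [add_mulVec, smul_mulVec, dotProduct_add, dotProduct_smul, smul_eq_mul]
    nlinarith [mul_le_mul_of_nonneg_left (hA.hi v) h2, mul_le_mul_of_nonneg_left (hB.hi v) h0]

/-- a frame in which `t` is the identity and `S` is diagonal -/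
theorem exists_frame {c C : ℝ} {t S : Mat n} (ht : Ell c C t) (hc : 0 < c)
    (hS : ∀ i j, S i j = S j i) :
    ∃ (B : Mat n) (k : Fin n → ℝ), t = B * Bᵀ ∧ Bᵀ * S * B = Matrix.diagonal k := by
  obtain ⟨U, d, -, -, h3, h4⟩ := matl_specE ht
  set R : Mat n := U * diagonal fun i => √(d i) with hR
  have hRR : R * Rᵀ = t := by
    have e : (diagonal fun i => √(d i)) * (diagonal fun i => √(d i)) = diagonal d := by
      rw [diagonal_mul_diagonal]
      congr 1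
      funext i
      exact Real.mul_self_sqrt (hc.le.trans (h4 i).1)
    rw [h3, ← e, hR, transpose_mul, diagonal_transpose]
    simp only [Matrix.mul_assoc]
  clear_value R
  have hW : ∀ i j, (Rᵀ * S * R) i j = (Rᵀ * S * R) j i := fun i j => by
    have : (Rᵀ * S * R)ᵀ = Rᵀ * S * R := by
      rw [transpose_mul, transpose_mul, transpose_transpose, matl_tr hS, Matrix.mul_assoc]
    rw [← transpose_apply (Rᵀ * S * R) j i, this]
  obtain ⟨V, k, g1, g2, g3⟩ := matl_spec hW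
  refine ⟨R * V, k, ?_, ?_⟩
  · rw [transpose_mul, ← hRR]
    calc R * Rᵀ = R * (V * Vᵀ) * Rᵀ := by rw [g1, Matrix.mul_one]
      _ = _ := by simp only [Matrix.mul_assoc]
  · rw [transpose_mul, ← matl_diag g2 g3]
    simp only [Matrix.mul_assoc]

theorem nsq_nonneg (M : Mat n) : 0 ≤ nsq M := by
  exact Finset.sum_nonneg fun _ _ => Finset.sum_nonneg fun _ _ => sq_nonneg _

theorem tr_sq_lo {c C : ℝ} {t Z : Mat n} (ht : Ell c C t) (hc : 0 < c)
    (hZ : ∀ i j, Z i j = Z j i) : c ^ 2 * nsq Z ≤ (t * Z * (t * Z)).trace := by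
  obtain ⟨k, W, h1, h2, h3⟩ := matl_tr_sq ht hZ
  rw [h2, h3, nsq, Finset.mul_sum]
  refine Finset.sum_le_sum fun i _ => ?_
  rw [Finset.mul_sum]
  refine Finset.sum_le_sum fun j _ => mul_le_mul_of_nonneg_right ?_ (sq_nonneg _)
  rw [sq]
  exact mul_le_mul (h1 i).1 (h1 j).1 hc.le (hc.le.trans (h1 i).1)

theorem tr_sq_hi {c C : ℝ} {t Z : Mat n} (ht : Ell c C t) (hc : 0 < c)
    (hZ : ∀ i j, Z i j = Z j i) : (t * Z * (t * Z)).trace ≤ C ^ 2 * nsq Z := by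
  obtain ⟨k, W, h1, h2, h3⟩ := matl_tr_sq ht hZ
  rw [h2, h3, nsq, Finset.mul_sum]
  refine Finset.sum_le_sum fun i _ => ?_
  rw [Finset.mul_sum]
  refine Finset.sum_le_sum fun j _ => mul_le_mul_of_nonneg_right ?_ (sq_nonneg _)
  rw [sq]
  exact mul_le_mul (h1 i).2 (h1 j).2 (hc.le.trans (h1 j).1)
    ((hc.le.trans (h1 i).1).trans (h1 i).2)

/-- `2 tr(tS tY) - tr(tS tS) ≤ tr(tY tY)` (expand `0 ≤ tr((t(Y-S))²)`) -/
theorem tr_cross {c C : ℝ} {t S Y : Mat n} (ht : Ell c C t) (hc : 0 < c)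
    (hS : ∀ i j, S i j = S j i) (hY : ∀ i j, Y i j = Y j i) :
    2 * (t * S * (t * Y)).trace - (t * S * (t * S)).trace ≤ (t * Y * (t * Y)).trace := by
  have h1 := tr_sq_lo (Z := Y - S) ht hc fun i j => by
    simp only [Matrix.sub_apply, hS i j, hY i j]
  have h2 : 0 ≤ c ^ 2 * nsq (Y - S) := mul_nonneg (sq_nonneg _) (nsq_nonneg _)
  simp only [Matrix.mul_sub, Matrix.sub_mul, trace_sub] at h1
  rw [trace_mul_comm (t * Y) (t * S)] at h1
  linarith

/-- with `y = S t a - z a`: `0 ≤ yᵀ t y` -/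
theorem ridge_cs {c C : ℝ} {t S : Mat n} (ht : Ell c C t) (hc : 0 < c)
    (hS : ∀ i j, S i j = S j i) (a : Fin n → ℝ) (z : ℝ) :
    2 * z * (a ⬝ᵥ ((t * S * t) *ᵥ a)) ≤
      a ⬝ᵥ ((t * S * t * S * t) *ᵥ a) + z ^ 2 * (a ⬝ᵥ (t *ᵥ a)) := by
  have h2 := matl_psd ht hc.le ((S * t) *ᵥ a + (-z) • a)
  rw [matl_exp ht.symm] at h2
  have e0 : (S * t)ᵀ = t * S := by rw [transpose_mul, ht.transpose, matl_tr hS]
  have e1 : ((S * t) *ᵥ a) ⬝ᵥ (t *ᵥ ((S * t) *ᵥ a)) = a ⬝ᵥ ((t * S * t * S * t) *ᵥ a) := by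
    rw [dotProduct_comm, matl_adj, e0, dotProduct_comm, mulVec_mulVec, mulVec_mulVec]
    simp only [Matrix.mul_assoc]
  have e2 : ((S * t) *ᵥ a) ⬝ᵥ (t *ᵥ a) = a ⬝ᵥ ((t * S * t) *ᵥ a) := by
    rw [dotProduct_comm, matl_adj, e0, dotProduct_comm, mulVec_mulVec]
  rw [e1, e2] at h2
  nlinarith

theorem tr_n_nonneg {c C : ℝ} {t S : Mat n} (ht : Ell c C t) (hc : 0 < c)
    (hS : ∀ i j, S i j = S j i) : 0 ≤ (t * S * t * S * t).trace := by
  refine Finset.sum_nonneg fun i _ => ?_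
  have := ridge_cs ht hc hS (Pi.single i 1) 0
  rw [matl_single, matl_single, matl_single] at this
  simpa using this

/-- crude entry bound for products -/
theorem entry_mul_le {A B : Mat n} {a b : ℝ} (hA : ∀ i j, |A i j| ≤ a) (hB : ∀ i j, |B i j| ≤ b)
    (i j : Fin n) : |(A * B) i j| ≤ n * a * b := by
  rw [Matrix.mul_apply]
  refine (Finset.abs_sum_le_sum_abs _ _).trans ?_
  calc ∑ k, |A i k * B k j| ≤ ∑ _k : Fin n, a * b := Finset.sum_le_sum fun k _ => by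
        rw [abs_mul]
        exact mul_le_mul (hA i k) (hB k j) (abs_nonneg _) ((abs_nonneg _).trans (hA i k))
    _ = n * a * b := by simp [mul_assoc]

theorem entry_le_sqrt_nsq (M : Mat n) (i j : Fin n) : |M i j| ≤ √(nsq M) := by
  refine Real.abs_le_sqrt ?_
  refine le_trans ?_ (Finset.single_le_sum (f := fun i => ∑ j, M i j ^ 2)
    (fun _ _ => Finset.sum_nonneg fun _ _ => sq_nonneg _) (Finset.mem_univ i))
  exact Finset.single_le_sum (f := fun j => M i j ^ 2) (fun _ _ => sq_nonneg _) (Finset.mem_univ j)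

end Crest.Agent.R238
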