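import Crest.Agent.R238.Calc
import Crest.Agent.R238.MatL

/-!
# R238 / PotL: elementary facts about `Pot`, `Cls`, `Quad`, `PolyG`
-/

set_option autoImplicit false
open MeasureTheory Matrix Set Metric
open scoped RealInnerProductSpace ContDiff BigOperators

namespace Crest.Agent.R238

variable {n : ℕ}

theorem potl_norm {f : E n → ℝ} (hf : PolyG f) :
    ∃ (K : ℝ) (k : ℕ), 0 ≤ K ∧ ∀ x, |f x| ≤ K * (1 + ‖x‖) ^ k := by
  obtain ⟨K, k, h⟩ := hf
  refine ⟨K, k, ?_, h⟩
  simpa using (abs_nonneg _).trans (h 0)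

theorem potl_one_le (x : E n) : 1 ≤ 1 + ‖x‖ := le_add_of_nonneg_right (norm_nonneg x)

theorem potl_dot (v w : E n) : v.ofLp ⬝ᵥ w.ofLp = ⟪v, w⟫ := by
  simp [PiLp.inner_apply, dotProduct, mul_comm]

theorem potl_dot_self (v : E n) : v.ofLp ⬝ᵥ v.ofLp = ‖v‖ ^ 2 := by
  rw [potl_dot, real_inner_self_eq_norm_sq]

theorem potl_even_cvx {g : E n → ℝ} (hg : ConvexOn ℝ univ g) (he : ∀ y, g (-y) = g y) (y : E n) :
    g 0 ≤ g y := by
  have h := hg.2 (mem_univ y) (mem_univ (-y)) (show (0 : ℝ) ≤ 1 / 2 by norm_num)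
    (show (0 : ℝ) ≤ 1 / 2 by norm_num) (by norm_num)
  rw [smul_neg, add_neg_cancel, he, smul_eq_mul] at h
  linarith

theorem potl_cvx_of_sub {g : E n → ℝ} {S : E n → E n} (h : ∀ x y, g x + ⟪S x, y - x⟫ ≤ g y) :
    ConvexOn ℝ univ g := by
  refine ⟨convex_univ, fun x _ y _ a b ha hb hab => ?_⟩
  have h1 := mul_le_mul_of_nonneg_left (h (a • x + b • y) x) ha
  have h2 := mul_le_mul_of_nonneg_left (h (a • x + b • y) y) hb
  have h3 : a * ⟪S (a • x + b • y), x - (a • x + b • y)⟫ + b * ⟪S (a • x + b • y), y - (a • x + b • y)⟫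
      = 0 := by
    rw [← real_inner_smul_right, ← real_inner_smul_right, ← inner_add_right]
    have : a • (x - (a • x + b • y)) + b • (y - (a • x + b • y)) =
        (1 - (a + b)) • (a • x + b • y) := by module
    rw [this, hab, sub_self, zero_smul, inner_zero_right]
  have h4 : a * g (a • x + b • y) + b * g (a • x + b • y) = g (a • x + b • y) := by
    rw [← add_mul, hab, one_mul]
  simp only [smul_eq_mul]
  linarith

theorem potl_norm_sq (x y : E n) : ‖y‖ ^ 2 = ‖x‖ ^ 2 + 2 * ⟪x, y - x⟫ + ‖y - x‖ ^ 2 := by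
  rw [← norm_add_sq_real, add_sub_cancel]

theorem potl_taylor {g g1 g2 : ℝ → ℝ} (h1 : ∀ t, HasDerivAt g (g1 t) t)
    (h2 : ∀ t, HasDerivAt g1 (g2 t) t) {m : ℝ} (hm : ∀ t, m ≤ g2 t) : m / 2 ≤ g 1 - g 0 - g1 0 := by
  have q1 : Monotone fun t => g1 t - m * t := by
    refine monotone_of_hasDerivAt_nonneg (f' := fun t => g2 t - m) (fun t => ?_) fun t => sub_nonneg.2 (hm t)
    exact ((h2 t).sub ((hasDerivAt_id t).const_mul m)).congr_deriv (by rw [mul_one])
  have q2 : MonotoneOn (fun t => g t - g1 0 * t - m / 2 * t ^ 2) (Ici 0) := by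
    have hd : ∀ t, HasDerivAt (fun t => g t - g1 0 * t - m / 2 * t ^ 2) (g1 t - g1 0 - m * t) t := by
      intro t
      have := ((h1 t).sub ((hasDerivAt_id t).const_mul (g1 0))).sub ((hasDerivAt_pow 2 t).const_mul (m / 2))
      refine this.congr_deriv ?_
      simp only [Nat.cast_ofNat, Nat.add_one_sub_one, pow_one]
      ring
    refine monotoneOn_of_hasDerivWithinAt_nonneg (convex_Ici 0)
      (fun t _ => (hd t).continuousAt.continuousWithinAt) (fun t _ => (hd t).hasDerivWithinAt) fun t ht => ?_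
    have := q1 (show (0 : ℝ) ≤ t from interior_subset ht)
    simp only at this
    linarith
  have := q2 (mem_Ici.2 le_rfl) (mem_Ici.2 zero_le_one) zero_le_one
  simp only at this
  linarith

theorem potl_line (x v : E n) (t : ℝ) : HasDerivAt (fun t : ℝ => x + t • v) v t := by
  simpa using ((hasDerivAt_id t).smul_const v).const_add x

theorem potl_line2 {φ : E n → ℝ} (hφ : ContDiff ℝ 2 φ) (x v w : E n) (t : ℝ) :
    HasDerivAt (fun t : ℝ => fderiv ℝ φ (x + t • v) w) (v.ofLp ⬝ᵥ (hess φ (x + t • v) *ᵥ w.ofLp)) t := by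
  simp only [fderiv_eq_sum φ]
  have h : ∀ j, HasDerivAt (fun t : ℝ => w j * pd j φ (x + t • v))
      (w j * ∑ i, v i * pd i (pd j φ) (x + t • v)) t := by
    intro j
    have h1 : Differentiable ℝ (pd j φ) :=
      (contDiff_pd (m := 1) hφ (by norm_num) j).differentiable one_ne_zero
    rw [← fderiv_eq_sum]
    exact ((h1 _).hasFDerivAt.comp_hasDerivAt t (potl_line x v t)).const_mul _
  refine (HasDerivAt.fun_sum fun j _ => h j).congr_deriv ?_
  simp only [dotProduct, mulVec, hess, of_apply, Finset.mul_sum]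
  rw [Finset.sum_comm]
  exact Finset.sum_congr rfl fun i _ => Finset.sum_congr rfl fun j _ => by ring

theorem potl_fderiv_grad (φ : E n → ℝ) (x v : E n) : fderiv ℝ φ x v = ⟪gradient φ x, v⟫ :=
  inner_gradient_left.symm

theorem PolyG.add {f g : E n → ℝ} (hf : PolyG f) (hg : PolyG g) : PolyG fun x => f x + g x := by
  obtain ⟨K, k, hK, h1⟩ := potl_norm hf
  obtain ⟨L, l, hL, h2⟩ := potl_norm hg
  refine ⟨K + L, k + l, fun x => (abs_add_le _ _).trans ?_⟩
  have a1 : (1 + ‖x‖) ^ k ≤ (1 + ‖x‖) ^ (k + l) := pow_le_pow_right₀ (potl_one_le x) (Nat.le_add_right _ _)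
  have a2 : (1 + ‖x‖) ^ l ≤ (1 + ‖x‖) ^ (k + l) := pow_le_pow_right₀ (potl_one_le x) (Nat.le_add_left _ _)
  have a3 := mul_le_mul_of_nonneg_left a1 hK
  have a4 := mul_le_mul_of_nonneg_left a2 hL
  linarith [h1 x, h2 x]

theorem PolyG.mul {f g : E n → ℝ} (hf : PolyG f) (hg : PolyG g) : PolyG fun x => f x * g x := by
  obtain ⟨K, k, hK, h1⟩ := potl_norm hf
  obtain ⟨L, l, hL, h2⟩ := potl_norm hg
  refine ⟨K * L, k + l, fun x => ?_⟩
  rw [abs_mul, pow_add]
  refine (mul_le_mul (h1 x) (h2 x) (abs_nonneg _) (by positivity)).trans (le_of_eq (by ring))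

theorem PolyG.sum {ι : Type*} (s : Finset ι) {f : ι → E n → ℝ} (hf : ∀ k ∈ s, PolyG (f k)) :
    PolyG fun x => ∑ k ∈ s, f k x := by
  classical
  induction s using Finset.induction_on with
  | empty => exact ⟨0, 0, fun x => by simp⟩
  | insert i s hi ih =>
    simp only [Finset.sum_insert hi]
    exact (hf i (Finset.mem_insert_self i s)).add (ih fun j hj => hf j (Finset.mem_insert_of_mem hj))

theorem PolyG.of_le {f g : E n → ℝ} (hg : PolyG g) (h : ∀ x, |f x| ≤ |g x|) : PolyG f := by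
  obtain ⟨K, k, h1⟩ := hg
  exact ⟨K, k, fun x => (h x).trans (h1 x)⟩

theorem polyG_of_bdd {f : E n → ℝ} {M : ℝ} (h : ∀ x, |f x| ≤ M) : PolyG f := by
  exact ⟨M, 0, fun x => by simpa using h x⟩

theorem polyG_norm : PolyG fun x : E n => ‖x‖ := by
  exact ⟨1, 1, fun x => by simp⟩

theorem polyG_coord (i : Fin n) : PolyG fun x : E n => x i := by
  refine polyG_norm.of_le fun x => ?_
  rw [abs_norm]
  exact PiLp.norm_apply_le x i

theorem polyG_inner (a : E n) : PolyG fun x : E n => ⟪x, a⟫ := by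
  refine ⟨‖a‖, 1, fun x => (abs_real_inner_le_norm x a).trans ?_⟩
  rw [pow_one, mul_comm]
  exact mul_le_mul_of_nonneg_left (by linarith) (norm_nonneg a)

theorem polyG_of_cs {f : E n → ℝ} (hf : Continuous f) (hc : HasCompactSupport f) : PolyG f := by
  obtain ⟨M, hM⟩ := hf.bounded_above_of_compact_support hc
  exact polyG_of_bdd hM

/-- Gaussian domination -/
theorem integrable_rho_of_lower {f h : E n → ℝ} (hf : AEStronglyMeasurable f volume) {a k : ℝ}
    {b : E n} (ha : 0 < a) (hlo : ∀ x, k + ⟪b, x⟫ + a / 2 * ‖x‖ ^ 2 ≤ f x)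
    (hm : AEStronglyMeasurable h volume) (hh : PolyG h) :
    Integrable fun x => rho f x * h x := by
  obtain ⟨K, m, hK, hb⟩ := potl_norm hh
  have hG : Integrable fun x : E n => Real.exp (-(a / 4) * ‖x‖ ^ 2) := by
    have h1 := (GaussianFourier.integrable_cexp_neg_mul_sq_norm_add (V := E n) (b := ((a / 4 : ℝ) : ℂ))
      (by rw [Complex.ofReal_re]; positivity) 0 0).norm
    refine h1.congr (Filter.Eventually.of_forall fun x => ?_)
    simp only [zero_mul, add_zero, Complex.norm_exp]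
    congr 1
    rw [← Complex.ofReal_pow, ← Complex.ofReal_neg, ← Complex.ofReal_mul, Complex.ofReal_re]
  refine Integrable.mono' (hG.const_mul (K * Real.exp (-k + (m + ‖b‖) ^ 2 / a)))
    ((Real.continuous_exp.comp_aestronglyMeasurable hf.neg).mul hm) (Filter.Eventually.of_forall fun x => ?_)
  rw [norm_mul, Real.norm_of_nonneg (rho_pos f x).le, Real.norm_eq_abs, rho]
  have h1 : (1 + ‖x‖) ^ m ≤ Real.exp (m * ‖x‖) := by
    rw [Real.exp_nat_mul]
    exact pow_le_pow_left₀ (by positivity) (by linarith [Real.add_one_le_exp ‖x‖]) m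
  have h2 : -f x + m * ‖x‖ ≤ -k + (m + ‖b‖) ^ 2 / a + -(a / 4) * ‖x‖ ^ 2 := by
    have h3 := hlo x
    have h4 := (abs_le.1 (abs_real_inner_le_norm b x)).1
    have h5 : (m + ‖b‖) ^ 2 / a + a / 4 * ‖x‖ ^ 2 - (m + ‖b‖) * ‖x‖ =
        ((m + ‖b‖) - a / 2 * ‖x‖) ^ 2 / a := by
      field_simp
      ring
    have h6 : 0 ≤ ((m + ‖b‖) - a / 2 * ‖x‖) ^ 2 / a := by positivity
    linarith
  calc Real.exp (-f x) * |h x| ≤ Real.exp (-f x) * (K * Real.exp (m * ‖x‖)) :=
        mul_le_mul_of_nonneg_left ((hb x).trans (mul_le_mul_of_nonneg_left h1 hK)) (Real.exp_pos _).le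
    _ = K * Real.exp (-f x + m * ‖x‖) := by rw [Real.exp_add]; ring
    _ ≤ K * Real.exp (-k + (m + ‖b‖) ^ 2 / a + -(a / 4) * ‖x‖ ^ 2) := by gcongr
    _ = _ := by rw [Real.exp_add]; ring

theorem Cls.continuous {c C : ℝ} {ψ : E n → ℝ} (h : Cls c C ψ) : Continuous ψ := by
  have h1 := continuousOn_univ.1 (h.lo.continuousOn isOpen_univ)
  have h2 : ψ = fun y => (ψ y - c / 2 * ‖y‖ ^ 2) + c / 2 * ‖y‖ ^ 2 := by funext y; ring
  rw [h2]
  exact h1.add (by fun_prop)

theorem Cls.lower {c C : ℝ} {ψ : E n → ℝ} (h : Cls c C ψ) (y : E n) :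
    c / 2 * ‖y‖ ^ 2 ≤ ψ y := by
  have h1 := potl_even_cvx h.lo (fun y => by rw [h.even, norm_neg]) y
  simp only [h.zero, norm_zero] at h1
  linarith

theorem Cls.upper {c C : ℝ} {ψ : E n → ℝ} (h : Cls c C ψ) (y : E n) :
    ψ y ≤ C / 2 * ‖y‖ ^ 2 := by
  have h1 := potl_even_cvx h.hi (fun y => by rw [h.even, norm_neg]) y
  simp only [h.zero, norm_zero] at h1
  linarith

theorem Cls.integrable {c C : ℝ} {ψ h : E n → ℝ} (hψ : Cls c C ψ) (hc : 0 < c)
    (hm : AEStronglyMeasurable h volume) (hh : PolyG h) : Integrable fun x => rho ψ x * h x := by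
  exact integrable_rho_of_lower hψ.continuous.aestronglyMeasurable (k := 0) (b := 0) hc
    (fun x => by simpa using hψ.lower x) hm hh

theorem Cls.integrable_rho {c C : ℝ} {ψ : E n → ℝ} (hψ : Cls c C ψ) (hc : 0 < c) :
    Integrable (rho ψ) := by
  simpa using hψ.integrable (h := fun _ => 1) hc aestronglyMeasurable_const
    (polyG_of_bdd (M := 1) fun _ => by simp)

theorem Cls.Z_pos {c C : ℝ} {ψ : E n → ℝ} (hψ : Cls c C ψ) (hc : 0 < c) : 0 < ∫ x, rho ψ x := by
  exact integral_exp_pos (hψ.integrable_rho hc)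

theorem cls_quad {c C : ℝ} (h : c ≤ C) : Cls c C fun y : E n => c / 2 * ‖y‖ ^ 2 := by
  refine ⟨by simp, fun y => by rw [norm_neg], by simpa using convexOn_const 0 convex_univ, ?_⟩
  have h1 := ((convexOn_univ_norm (E := E n)).pow (fun x _ => norm_nonneg x) 2).smul
    (show 0 ≤ C / 2 - c / 2 by linarith)
  refine h1.congr fun y _ => ?_
  simp only [Pi.pow_apply, smul_eq_mul]
  ring

theorem Pot.quad {α β : ℝ} {φ : E n → ℝ} (h : Pot α β φ) : Quad α β φ (gradient φ) := by
  have hd : Differentiable ℝ φ := h.cd.differentiable two_ne_zero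
  have l1 : ∀ (x v : E n) (t : ℝ), HasDerivAt (fun t : ℝ => φ (x + t • v)) (fderiv ℝ φ (x + t • v) v) t :=
    fun x v t => (hd _).hasFDerivAt.comp_hasDerivAt t (potl_line x v t)
  refine ⟨fun x => (hd x).hasGradientAt, fun x y => ?_, fun x y => ?_, fun x y => ?_⟩
  · have h1 := potl_taylor (l1 x (y - x)) (potl_line2 h.cd x (y - x) (y - x))
      (m := α * ‖y - x‖ ^ 2) fun t => by
        rw [← potl_dot_self]; exact (h.ell _).lo _
    simp only [one_smul, zero_smul, add_zero, add_sub_cancel, potl_fderiv_grad] at h1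
    linarith
  · have h1 := potl_taylor (fun t => (l1 x (y - x) t).neg)
      (fun t => (potl_line2 h.cd x (y - x) (y - x) t).neg) (m := -(β * ‖y - x‖ ^ 2)) fun t => by
        rw [← potl_dot_self]; exact neg_le_neg ((h.ell _).hi _)
    simp only [Pi.neg_apply, one_smul, zero_smul, add_zero, add_sub_cancel, potl_fderiv_grad] at h1
    linarith
  · set d := gradient φ x - gradient φ y with hdd
    have hβ : 0 ≤ β := h.apos.le.trans h.ale
    obtain ⟨t, -, ht⟩ := exists_hasDerivAt_eq_slope (fun t : ℝ => fderiv ℝ φ (y + t • (x - y)) d) _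
      zero_lt_one (fun t _ => (potl_line2 h.cd y (x - y) d t).continuousAt.continuousWithinAt)
      fun t _ => potl_line2 h.cd y (x - y) d t
    simp only [one_smul, zero_smul, add_zero, add_sub_cancel, potl_fderiv_grad, sub_zero, div_one] at ht
    rw [← inner_sub_left, ← hdd, real_inner_self_eq_norm_sq] at ht
    set w : E n := WithLp.toLp 2 (hess φ (y + t • (x - y)) *ᵥ d.ofLp) with hw
    have h1 : ‖w‖ ^ 2 ≤ (β * ‖d‖) ^ 2 := by
      rw [← potl_dot_self, mul_pow, ← potl_dot_self]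
      exact (h.ell _).mulVec_sq h.apos.le _
    have h2 : ‖w‖ ≤ β * ‖d‖ := (abs_le_of_sq_le_sq' h1 (by positivity)).2
    have h3 : ‖d‖ ^ 2 ≤ ‖x - y‖ * (β * ‖d‖) := by
      rw [← ht]
      exact (potl_dot (x - y) w).le.trans ((real_inner_le_norm _ _).trans
        (mul_le_mul_of_nonneg_left h2 (norm_nonneg _)))
    rcases (norm_nonneg d).eq_or_lt with h0 | h0
    · rw [← h0]; positivity
    · refine le_of_mul_le_mul_right ?_ h0
      linarith

theorem Pot.cvx_lo {α β : ℝ} {φ : E n → ℝ} (h : Pot α β φ) :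
    ConvexOn ℝ univ fun x => φ x - α / 2 * ‖x‖ ^ 2 := by
  refine potl_cvx_of_sub (S := fun x => gradient φ x - α • x) fun x y => ?_
  have h1 := h.quad.lo x y
  rw [inner_sub_left, real_inner_smul_left, potl_norm_sq x y]
  linarith

theorem Pot.cvx_hi {α β : ℝ} {φ : E n → ℝ} (h : Pot α β φ) :
    ConvexOn ℝ univ fun x => β / 2 * ‖x‖ ^ 2 - φ x := by
  refine potl_cvx_of_sub (S := fun x => β • x - gradient φ x) fun x y => ?_
  have h1 := h.quad.hi x y
  rw [inner_sub_left, real_inner_smul_left, potl_norm_sq x y]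
  linarith

theorem potl_grad_zero {α β : ℝ} {φ : E n → ℝ} (h : Pot α β φ) : gradient φ 0 = 0 := by
  ext i
  have h1 := pd_even h.even i 0
  rw [neg_zero, pd_of_hasGradientAt (h.quad.grad 0)] at h1
  simp only [PiLp.zero_apply]
  linarith

theorem potl_grad_le {α β : ℝ} {φ : E n → ℝ} (h : Pot α β φ) (x : E n) : ‖gradient φ x‖ ≤ β * ‖x‖ := by
  simpa [potl_grad_zero h] using h.quad.lip x 0

theorem Pot.lower {α β : ℝ} {φ : E n → ℝ} (h : Pot α β φ) (x : E n) :
    φ 0 + α / 2 * ‖x‖ ^ 2 ≤ φ x := by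
  have h1 := h.quad.lo 0 x
  rw [potl_grad_zero h, inner_zero_left, sub_zero] at h1
  linarith

theorem Pot.upper {α β : ℝ} {φ : E n → ℝ} (h : Pot α β φ) (x : E n) :
    φ x ≤ φ 0 + β / 2 * ‖x‖ ^ 2 := by
  have h1 := h.quad.hi 0 x
  rw [potl_grad_zero h, inner_zero_left, sub_zero x] at h1
  linarith

theorem Pot.pd_le {α β : ℝ} {φ : E n → ℝ} (h : Pot α β φ) (i : Fin n) (x : E n) :
    |pd i φ x| ≤ β * ‖x‖ := by
  rw [pd_of_hasGradientAt (h.quad.grad x)]
  exact (PiLp.norm_apply_le (gradient φ x) i).trans (potl_grad_le h x)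

theorem Pot.grad_sq {α β : ℝ} {φ : E n → ℝ} (h : Pot α β φ) (x : E n) :
    grad φ x ⬝ᵥ grad φ x ≤ β ^ 2 * ‖x‖ ^ 2 := by
  have h1 : grad φ x = (gradient φ x).ofLp := funext fun i => pd_of_hasGradientAt (h.quad.grad x) i
  rw [h1, potl_dot_self, ← mul_pow]
  exact pow_le_pow_left₀ (norm_nonneg _) (potl_grad_le h x) 2

theorem Pot.continuous_rho {α β : ℝ} {φ : E n → ℝ} (h : Pot α β φ) : Continuous (rho φ) := by
  exact Real.continuous_exp.comp h.cd.continuous.neg

theorem Pot.integrable {α β : ℝ} {φ h : E n → ℝ} (hP : Pot α β φ)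
    (hm : AEStronglyMeasurable h volume) (hh : PolyG h) : Integrable fun x => rho φ x * h x := by
  exact integrable_rho_of_lower hP.cd.continuous.aestronglyMeasurable (k := φ 0) (b := 0) hP.apos
    (fun x => by simpa using hP.lower x) hm hh

theorem Pot.integrable_rho {α β : ℝ} {φ : E n → ℝ} (hP : Pot α β φ) : Integrable (rho φ) := by
  simpa using hP.integrable (h := fun _ => 1) aestronglyMeasurable_const
    (polyG_of_bdd (M := 1) fun _ => by simp)

theorem Pot.Z_pos {α β : ℝ} {φ : E n → ℝ} (hP : Pot α β φ) : 0 < ∫ x, rho φ x := by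
  exact integral_exp_pos hP.integrable_rho

/-- `L²(ρ) ⊆ L¹(ρ)` -/
theorem Pot.integrable_of_sq {α β : ℝ} {φ h : E n → ℝ} (hP : Pot α β φ)
    (hm : AEStronglyMeasurable h volume) (h2 : Integrable fun x => rho φ x * h x ^ 2) :
    Integrable fun x => rho φ x * h x := by
  refine Integrable.mono' (hP.integrable_rho.add h2) (hP.continuous_rho.aestronglyMeasurable.mul hm)
    (Filter.Eventually.of_forall fun x => ?_)
  rw [norm_mul, Real.norm_of_nonneg (rho_pos φ x).le, Real.norm_eq_abs, Pi.add_apply, ← sq_abs (h x)]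
  have h1 : |h x| ≤ 1 + |h x| ^ 2 := by nlinarith [sq_nonneg (|h x| - 1), abs_nonneg (h x)]
  have := mul_le_mul_of_nonneg_left h1 (rho_pos φ x).le
  linarith

/-- two-sided bounds of the weight on balls -/
theorem Pot.rho_bounds {α β : ℝ} {φ : E n → ℝ} (hP : Pot α β φ) (x₀ : E n) (R : ℝ) :
    ∃ m M : ℝ, 0 < m ∧ m ≤ M ∧ (∀ x ∈ ball x₀ R, m ≤ rho φ x) ∧ ∀ x, rho φ x ≤ M := by
  have hβ : 0 ≤ β := hP.apos.le.trans hP.ale
  have hα := hP.apos
  refine ⟨Real.exp (-(φ 0 + β / 2 * (‖x₀‖ + |R|) ^ 2)), Real.exp (-φ 0), Real.exp_pos _,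
    Real.exp_le_exp.2 ?_, fun x hx => Real.exp_le_exp.2 ?_, fun x => Real.exp_le_exp.2 ?_⟩
  · have : 0 ≤ β / 2 * (‖x₀‖ + |R|) ^ 2 := by positivity
    linarith
  · have h1 : ‖x‖ ≤ ‖x₀‖ + |R| := by
      have h2 := norm_le_norm_add_norm_sub' x x₀
      rw [mem_ball_iff_norm] at hx
      linarith [le_abs_self R]
    have h3 : β / 2 * ‖x‖ ^ 2 ≤ β / 2 * (‖x₀‖ + |R|) ^ 2 := by gcongr
    linarith [hP.upper x]
  · have : 0 ≤ α / 2 * ‖x‖ ^ 2 := by positivity
    linarith [hP.lower x]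

theorem potl_lip {c C : ℝ} {f : E n → ℝ} {T : E n → E n} (h : Quad c C f T) :
    LipschitzWith C.toNNReal T := by
  refine LipschitzWith.of_dist_le_mul fun x y => ?_
  rw [dist_eq_norm, dist_eq_norm]
  exact (h.lip x y).trans (mul_le_mul_of_nonneg_right (Real.le_coe_toNNReal C) (norm_nonneg _))

theorem potl_jac_apply (T : E n → E n) (x v : E n) (i : Fin n) :
    fderiv ℝ T x v i = ∑ j, jac T x i j * v j := by
  have h1 : v = ∑ j, v j • ee j := by
    simpa [ee] using ((EuclideanSpace.basisFun (Fin n) ℝ).sum_repr v).symm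
  conv_lhs => rw [h1]
  simp [jac, mul_comm]

theorem potl_jac_form (T : E n → E n) (x v : E n) :
    v.ofLp ⬝ᵥ (jac T x *ᵥ v.ofLp) = ⟪fderiv ℝ T x v, v⟫ := by
  rw [real_inner_comm, ← potl_dot]
  congr 1
  funext i
  rw [potl_jac_apply]
  rfl

theorem potl_dir {T : E n → E n} {x : E n} (hx : DifferentiableAt ℝ T x) (v w : E n) :
    HasDerivAt (fun t : ℝ => ⟪T (x + t • v), w⟫) ⟪fderiv ℝ T x v, w⟫ 0 := by
  have h1 : HasFDerivAt T (fderiv ℝ T x) (x + (0 : ℝ) • v) := by simpa using hx.hasFDerivAt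
  simpa using (h1.comp_hasDerivAt 0 (potl_line x v 0)).inner ℝ (hasDerivAt_const 0 w)

theorem Quad.continuous {c C : ℝ} {f : E n → ℝ} {T : E n → E n} (h : Quad c C f T) :
    Continuous T := by
  exact (potl_lip h).continuous

theorem Quad.lipschitz {c C : ℝ} {f : E n → ℝ} {T : E n → E n} (h : Quad c C f T) :
    LipschitzWith C.toNNReal T := by
  exact potl_lip h

theorem Quad.contDiff {c C : ℝ} {f : E n → ℝ} {T : E n → E n} (h : Quad c C f T) :
    ContDiff ℝ 1 f := by
  refine contDiff_one_iff_fderiv.2 ⟨fun x => (h.grad x).differentiableAt, ?_⟩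
  have h1 : fderiv ℝ f = fun x => InnerProductSpace.toDual ℝ (E n) (T x) :=
    funext fun x => (h.grad x).hasFDerivAt.fderiv
  rw [h1]
  exact (InnerProductSpace.toDual ℝ (E n)).continuous.comp h.continuous

theorem Quad.pd {c C : ℝ} {f : E n → ℝ} {T : E n → E n} (h : Quad c C f T) (i : Fin n)
    (x : E n) : pd i f x = T x i := by
  exact pd_of_hasGradientAt (h.grad x) i

theorem Quad.mono {c C : ℝ} {f : E n → ℝ} {T : E n → E n} (h : Quad c C f T) (x y : E n) :
    c * ‖x - y‖ ^ 2 ≤ ⟪T x - T y, x - y⟫ ∧ ⟪T x - T y, x - y⟫ ≤ C * ‖x - y‖ ^ 2 := by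
  have h1 := h.lo x y
  have h2 := h.lo y x
  have h3 := h.hi x y
  have h4 := h.hi y x
  rw [← neg_sub x y, norm_neg, inner_neg_right] at h1 h3
  rw [inner_sub_left]
  constructor <;> linarith

theorem Quad.dq2_bounds {c C : ℝ} {f : E n → ℝ} {T : E n → E n} (h : Quad c C f T) (e : E n)
    {t : ℝ} (ht : t ≠ 0) (x : E n) : c * ‖e‖ ^ 2 ≤ dq2 f e t x ∧ dq2 f e t x ≤ C * ‖e‖ ^ 2 := by
  have h1 := h.lo x (x + t • e)
  have h2 := h.lo x (x - t • e)
  have h3 := h.hi x (x + t • e)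
  have h4 := h.hi x (x - t • e)
  rw [add_sub_cancel_left, norm_smul, mul_pow, Real.norm_eq_abs, sq_abs] at h1 h3
  rw [sub_sub_cancel_left, norm_neg, inner_neg_right, norm_smul, mul_pow, Real.norm_eq_abs, sq_abs] at h2 h4
  have ht2 : 0 < t ^ 2 := by positivity
  rw [dq2, le_div_iff₀ ht2, div_le_iff₀ ht2]
  constructor <;> linarith

theorem Quad.ae_diff {c C : ℝ} {f : E n → ℝ} {T : E n → E n} (h : Quad c C f T) :
    ∀ᵐ x : E n, DifferentiableAt ℝ T x := by
  exact h.lipschitz.ae_differentiableAt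

/-- symmetry from `second_derivative_symmetric_of_eventually`, bounds from `Quad.mono`. -/
theorem Quad.jac_ell {c C : ℝ} {f : E n → ℝ} {T : E n → E n} (h : Quad c C f T) {x : E n}
    (hx : DifferentiableAt ℝ T x) : Ell c C (jac T x) := by
  have hs : ∀ v : E n, Filter.Tendsto (fun t : ℝ => t⁻¹ • (⟪T (x + (0 + t) • v), v⟫ - ⟪T (x + (0 : ℝ) • v), v⟫))
      (nhdsWithin 0 (Ioi 0)) (nhds (v.ofLp ⬝ᵥ (jac T x *ᵥ v.ofLp))) := fun v => by
    rw [potl_jac_form]
    exact (potl_dir hx v v).tendsto_slope_zero_right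
  have hb : ∀ (v : E n) (t : ℝ), 0 < t →
      c * ‖v‖ ^ 2 ≤ t⁻¹ • (⟪T (x + (0 + t) • v), v⟫ - ⟪T (x + (0 : ℝ) • v), v⟫) ∧
      t⁻¹ • (⟪T (x + (0 + t) • v), v⟫ - ⟪T (x + (0 : ℝ) • v), v⟫) ≤ C * ‖v‖ ^ 2 := by
    intro v t ht
    have h1 := h.mono (x + t • v) x
    rw [add_sub_cancel_left, norm_smul, Real.norm_of_nonneg ht.le, real_inner_smul_right,
      inner_sub_left] at h1
    rw [zero_add, zero_smul, add_zero, smul_eq_mul, ← div_eq_inv_mul, le_div_iff₀ ht, div_le_iff₀ ht]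
    constructor
    · refine le_of_mul_le_mul_left ?_ ht
      linarith [h1.1]
    · refine le_of_mul_le_mul_left ?_ ht
      linarith [h1.2]
  refine ⟨fun i j => ?_, fun v => ?_, fun v => ?_⟩
  · have h1 := second_derivative_symmetric_of_eventually (f := f) (x := x)
      (f' := fun y => innerSL ℝ (T y)) (f'' := (innerSL ℝ).comp (fderiv ℝ T x))
      (Filter.Eventually.of_forall fun y => (h.grad y).hasFDerivAt)
      ((innerSL ℝ (E := E n)).hasFDerivAt.comp x hx.hasFDerivAt) (ee j) (ee i)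
    simpa [jac, ee, EuclideanSpace.inner_single_right] using h1
  · refine ge_of_tendsto (hs (WithLp.toLp 2 v)) ?_
    filter_upwards [self_mem_nhdsWithin] with t ht
    have := (hb (WithLp.toLp 2 v) t ht).1
    rwa [← potl_dot_self] at this
  · refine le_of_tendsto (hs (WithLp.toLp 2 v)) ?_
    filter_upwards [self_mem_nhdsWithin] with t ht
    have := (hb (WithLp.toLp 2 v) t ht).2
    rwa [← potl_dot_self] at this

/-- second differences converge to the Hessian at a point of differentiability of `T` -/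
theorem Quad.dq2_tendsto {c C : ℝ} {f : E n → ℝ} {T : E n → E n} (h : Quad c C f T) {x : E n}
    (hx : DifferentiableAt ℝ T x) (e : E n) :
    Filter.Tendsto (fun t => dq2 f e t x) (nhdsWithin 0 (Ioi 0))
      (nhds (e.ofLp ⬝ᵥ (jac T x *ᵥ e.ofLp))) := by
  have l1 : ∀ (v : E n) (t : ℝ), HasDerivAt (fun t : ℝ => f (x + t • v)) ⟪T (x + t • v), v⟫ t :=
    fun v t => (h.grad _).hasFDerivAt.comp_hasDerivAt t (potl_line x v t)
  have hg : ∀ t : ℝ, HasDerivAt (fun t : ℝ => f (x + t • e) + f (x + t • (-e)) - 2 * f x)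
      (⟪T (x + t • e), e⟫ + ⟪T (x + t • (-e)), -e⟫) t := fun t => ((l1 e t).add (l1 (-e) t)).sub_const _
  have hk := ((potl_dir hx e e).add (potl_dir hx (-e) (-e))).tendsto_slope_zero_right
  have e1 : (fun t => dq2 f e t x) = fun t : ℝ =>
      (f (x + t • e) + f (x + t • (-e)) - 2 * f x) / t ^ 2 := by
    funext t
    rw [dq2, smul_neg, ← sub_eq_add_neg]
  rw [e1, potl_jac_form]
  refine HasDerivAt.lhopital_zero_nhdsGT (g' := fun t => 2 * t) (Filter.Eventually.of_forall hg)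
    (Filter.Eventually.of_forall fun t => by simpa using hasDerivAt_pow 2 t) ?_ ?_ ?_ ?_
  · filter_upwards [self_mem_nhdsWithin] with t ht
    exact mul_ne_zero two_ne_zero (ne_of_gt ht)
  · have h1 := (hg 0).continuousAt.tendsto.mono_left (nhdsWithin_le_nhds (s := Ioi 0))
    simpa [two_mul] using h1
  · have h1 := ((continuous_pow 2).tendsto (0 : ℝ)).mono_left (nhdsWithin_le_nhds (s := Ioi 0))
    simpa using h1
  · have h1 := hk.const_mul (1 / 2)
    rw [map_neg, inner_neg_neg] at h1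
    have e2 : 1 / 2 * (⟪fderiv ℝ T x e, e⟫ + ⟪fderiv ℝ T x e, e⟫) = ⟪fderiv ℝ T x e, e⟫ := by ring
    rw [e2] at h1
    refine h1.congr fun t => ?_
    simp only [Pi.add_apply, zero_add, zero_smul, add_zero, inner_neg_right, smul_eq_mul]
    ring

theorem measurable_jac (T : E n → E n) (i j : Fin n) : Measurable fun x => jac T x i j := by
  exact (EuclideanSpace.proj i : E n →L[ℝ] ℝ).continuous.measurable.comp
    (measurable_fderiv_apply_const ℝ T (ee j))

theorem measurable_jac_inv (T : E n → E n) (i j : Fin n) :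
    Measurable fun x => (jac T x)⁻¹ i j := by
  have h0 : Measurable fun x => (fun a b => jac T x a b : Fin n → Fin n → ℝ) :=
    measurable_pi_lambda _ fun a => measurable_pi_lambda _ fun b => measurable_jac T a b
  have c1 : Continuous fun M : Fin n → Fin n → ℝ => (Matrix.of M).det :=
    Continuous.matrix_det continuous_id
  have c2 : Continuous fun M : Fin n → Fin n → ℝ => (Matrix.of M).adjugate i j :=
    (Continuous.matrix_adjugate continuous_id).matrix_elem i j
  have h1 := (c1.measurable.comp h0).inv.mul (c2.measurable.comp h0)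
  convert h1 using 2 with x
  rw [Matrix.inv_def, Ring.inverse_eq_inv']
  rfl

theorem jac_apply (T : E n → E n) (x v : E n) (i : Fin n) :
    fderiv ℝ T x v i = ∑ j, jac T x i j * v j := by
  exact potl_jac_apply T x v i

theorem det_jac (T : E n → E n) (x : E n) : (fderiv ℝ T x).det = (jac T x).det := by
  rw [ContinuousLinearMap.det, ← LinearMap.det_toMatrix (EuclideanSpace.basisFun (Fin n) ℝ).toBasis]
  congr 1

end Crest.Agent.R238
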