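import Crest.Agent.R238.EMol
import Crest.Agent.R238.PotL

/-!
# R238 / CLip: from a.e. bounds on the Jacobian to two-point bounds; Campanato

`lip_of_ae`: `f = G_i - Σ_j A_{ij} x_j` is Lipschitz with `|pd j f| ≤ η` a.e. on the ball;
`pd j (mol ε f) = mol ε (pd j f)` (`pd_mol_lip`) is bounded by `η` on `ball x₀ (r-ε)`
(`mol_close`), so `‖fderiv (mol ε f)‖ ≤ n η` there; mean value inequality on the convex ball, then
`ε → 0` (`mol_unif`).
`dq2_close`: `g(s) = u(x+se) + u(x-se) - 2u(x) - s² eᵀAe` has `g(0)=0`,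
`g'(s) = ⟪G(x+se) - G(x-se) - 2sAe, e⟫`, `|g'(s)| ≤ n · η' · 2s`.
`campanato`: for `x` in the ball let `A_r(x)` be the matrices; `|A_r - A_{r'}| ≤ 2K r^γ` for
`r' ≤ r` (test with `y = x + (r'/2) e_j`), so `A_r → A(x)`, `|A_r - A| ≤ 2K r^γ`, `G` is
differentiable at `x` with Jacobian `A(x)`; for `x,y` with `r = 2|x-y| ≤ r₀` both `A(x)`, `A(y)`
are within `K r^γ` of `A_r(x)`.
-/

set_option autoImplicit false
open MeasureTheory Matrix Set Metric
open scoped RealInnerProductSpace ContDiff BigOperators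

namespace Crest.Agent.R238

variable {n : ℕ}

/-- the linear functional `y ↦ ∑ j, A i j * y j` -/
noncomputable def clip_row (A : Mat n) (i : Fin n) : E n →L[ℝ] ℝ :=
  ∑ j, A i j • (EuclideanSpace.proj j : E n →L[ℝ] ℝ)

theorem clip_row_apply (A : Mat n) (i : Fin n) (y : E n) :
    clip_row A i y = ∑ j, A i j * y j := by
  simp [clip_row]

theorem clip_row_ee (A : Mat n) (i j : Fin n) : clip_row A i (ee j) = A i j := by
  rw [clip_row_apply]
  simp [ee]

theorem clip_norm_ee (j : Fin n) : ‖(ee j : E n)‖ = 1 := by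
  simp [ee]

theorem clip_abs_le (v : E n) (i : Fin n) : |v i| ≤ ‖v‖ := by
  simpa using PiLp.norm_apply_le v i

theorem clip_hasFDerivAt {G : E n → E n} {x : E n} (hG : DifferentiableAt ℝ G x) (A : Mat n)
    (i : Fin n) :
    HasFDerivAt (fun y => G y i - clip_row A i y)
      ((EuclideanSpace.proj i : E n →L[ℝ] ℝ).comp (fderiv ℝ G x) - clip_row A i) x := by
  have h1 : HasFDerivAt (fun y => G y i)
      ((EuclideanSpace.proj i : E n →L[ℝ] ℝ).comp (fderiv ℝ G x)) x :=
    (EuclideanSpace.proj i : E n →L[ℝ] ℝ).hasFDerivAt.comp x hG.hasFDerivAt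
  exact h1.sub (clip_row A i).hasFDerivAt

theorem clip_pd {G : E n → E n} {x : E n} (hG : DifferentiableAt ℝ G x) (A : Mat n)
    (i j : Fin n) : pd j (fun y => G y i - clip_row A i y) x = jac G x i j - A i j := by
  unfold pd
  rw [(clip_hasFDerivAt hG A i).fderiv]
  simp [jac, clip_row_ee]

theorem clip_diff (G : E n → E n) (A : Mat n) (i : Fin n) (x y : E n) :
    G x i - G y i - ∑ j, A i j * (x j - y j) =
      (G x i - clip_row A i x) - (G y i - clip_row A i y) := by
  rw [clip_row_apply, clip_row_apply]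
  simp only [mul_sub, Finset.sum_sub_distrib]
  ring

theorem clip_fderiv_le {f : E n → ℝ} {z : E n} {η : ℝ} (hη : 0 ≤ η) (h : ∀ j, |pd j f z| ≤ η) :
    ‖fderiv ℝ f z‖ ≤ n * η := by
  refine ContinuousLinearMap.opNorm_le_bound _ (by positivity) fun v => ?_
  rw [fderiv_eq_sum, Real.norm_eq_abs]
  calc |∑ i, v i * pd i f z| ≤ ∑ i, |v i * pd i f z| := Finset.abs_sum_le_sum_abs _ _
    _ ≤ ∑ _i : Fin n, η * ‖v‖ := by
        refine Finset.sum_le_sum fun i _ => ?_
        rw [abs_mul, mul_comm]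
        exact mul_le_mul (h i) (clip_abs_le v i) (abs_nonneg _) hη
    _ = n * η * ‖v‖ := by simp [mul_assoc]

theorem clip_locInt_pd {f : E n → ℝ} {K : NNReal} (hf : LipschitzWith K f) (j : Fin n) :
    LocallyIntegrable (pd j f) := by
  have hm : Measurable (pd j f) := measurable_fderiv_apply_const ℝ f (ee j)
  have hb : ∀ x, ‖pd j f x‖ ≤ (K : ℝ) := by
    intro x
    have h1 : ‖fderiv ℝ f x‖ ≤ K := norm_fderiv_le_of_lipschitz ℝ hf
    calc ‖pd j f x‖ ≤ ‖fderiv ℝ f x‖ * ‖(ee j : E n)‖ := (fderiv ℝ f x).le_opNorm _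
      _ ≤ K := by rw [clip_norm_ee, mul_one]; exact h1
  exact (locallyIntegrable_const (K : ℝ)).mono hm.aestronglyMeasurable
    (Filter.Eventually.of_forall fun x => by
      exact (hb x).trans (le_abs_self _))

/-- a Lipschitz function whose partial derivatives are a.e. small on a ball -/
theorem clip_scalar {f : E n → ℝ} {K : NNReal} (hf : LipschitzWith K f) {x₀ : E n} {r η : ℝ}
    (hη : 0 ≤ η) (h : ∀ᵐ x : E n, x ∈ ball x₀ r → ∀ j, |pd j f x| ≤ η) :
    ∀ x ∈ ball x₀ r, ∀ y ∈ ball x₀ r, |f x - f y| ≤ n * η * ‖x - y‖ := by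
  intro x hx y hy
  obtain ⟨ρ, hρ1, hρ2⟩ : ∃ ρ, max (dist x x₀) (dist y x₀) < ρ ∧ ρ < r :=
    exists_between (max_lt (mem_ball.1 hx) (mem_ball.1 hy))
  have hxρ : x ∈ ball x₀ ρ := mem_ball.2 ((le_max_left _ _).trans_lt hρ1)
  have hyρ : y ∈ ball x₀ ρ := mem_ball.2 ((le_max_right _ _).trans_lt hρ1)
  refine le_of_forall_pos_le_add fun δ hδ => ?_
  obtain ⟨ε₀, hε₀, hu⟩ := mol_unif hf.continuous (max ‖x‖ ‖y‖) (half_pos hδ)
  set ε := min ε₀ (r - ρ) with hεdef
  have hε : 0 < ε := lt_min hε₀ (by linarith)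
  have hε1 : ε ≤ ε₀ := min_le_left _ _
  have hε2 : ε ≤ r - ρ := min_le_right _ _
  have hcd : ContDiff ℝ ∞ (mol ε f) := contDiff_mol hε hf.continuous.locallyIntegrable
  have hbd : ∀ z ∈ ball x₀ ρ, ‖fderiv ℝ (mol ε f) z‖ ≤ n * η := by
    intro z hz
    refine clip_fderiv_le hη fun j => ?_
    rw [pd_mol_lip hε hf j]
    have := mol_close (m := 0) (η := η) (x := z) hε (clip_locInt_pd hf j) (by
      filter_upwards [h] with w hw hwz
      have hw0 : w ∈ ball x₀ r := by
        rw [mem_ball] at hwz hz ⊢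
        have := dist_triangle w z x₀
        linarith
      simpa using hw hw0 j)
    simpa using this
  have hmv := (convex_ball x₀ ρ).norm_image_sub_le_of_norm_fderiv_le (𝕜 := ℝ) (f := mol ε f)
    (fun z _ => (hcd.differentiable (by simp)).differentiableAt) hbd hyρ hxρ
  have h1 := hu ε hε hε1 x (le_max_left _ _)
  have h2 := hu ε hε hε1 y (le_max_right _ _)
  rw [Real.norm_eq_abs] at hmv
  have e : f x - f y = (mol ε f x - mol ε f y) - (mol ε f x - f x) + (mol ε f y - f y) := by ring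
  rw [e]
  have t1 := abs_add_le ((mol ε f x - mol ε f y) - (mol ε f x - f x)) (mol ε f y - f y)
  have t2 := abs_sub (mol ε f x - mol ε f y) (mol ε f x - f x)
  linarith

theorem lip_of_ae {G : E n → E n} {K : NNReal} (hG : LipschitzWith K G) {A : Mat n} {x₀ : E n}
    {r η : ℝ} (h : ∀ᵐ x : E n, x ∈ ball x₀ r → ∀ i j, |jac G x i j - A i j| ≤ η) :
    ∀ x ∈ ball x₀ r, ∀ y ∈ ball x₀ r, ∀ i,
      |G x i - G y i - ∑ j, A i j * (x j - y j)| ≤ n * η * ‖x - y‖ := by
  intro x hx y hy i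
  have hlip : LipschitzWith (‖(EuclideanSpace.proj i : E n →L[ℝ] ℝ)‖₊ * K + ‖clip_row A i‖₊)
      fun y => G y i - clip_row A i y :=
    (((EuclideanSpace.proj i : E n →L[ℝ] ℝ).lipschitz).comp hG).sub (clip_row A i).lipschitz
  have hae : ∀ᵐ z : E n, z ∈ ball x₀ r →
      ∀ j, |pd j (fun y => G y i - clip_row A i y) z| ≤ η := by
    filter_upwards [h, hG.ae_differentiableAt (μ := volume)] with z hz hd hzb j
    rw [clip_pd hd]
    exact hz hzb i j
  have hη : 0 ≤ η := by
    have hpos : 0 < volume (ball x₀ r) :=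
      isOpen_ball.measure_pos volume ⟨x, hx⟩
    have hfr : ∃ᵐ z : E n, z ∈ ball x₀ r := by
      rw [MeasureTheory.frequently_ae_mem_iff]
      exact hpos.ne'
    obtain ⟨z, hz1, hz2⟩ := (hfr.and_eventually h).exists
    exact (abs_nonneg _).trans (hz2 hz1 i i)
  rw [clip_diff]
  exact clip_scalar hlip hη hae x hx y hy

theorem dq2_close {c C : ℝ} {u : E n → ℝ} {G : E n → E n} (hq : Quad c C u G) {A : Mat n}
    {x₀ : E n} {r η : ℝ}
    (h : ∀ x ∈ ball x₀ r, ∀ y ∈ ball x₀ r, ∀ i,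
      |G x i - G y i - ∑ j, A i j * (x j - y j)| ≤ η * ‖x - y‖)
    {e x : E n} (he : ‖e‖ = 1) {t : ℝ} (ht : 0 < t) (h1 : x + t • e ∈ ball x₀ r)
    (h2 : x - t • e ∈ ball x₀ r) : |dq2 u e t x - e.ofLp ⬝ᵥ (A *ᵥ e.ofLp)| ≤ n * η := by
  set q : ℝ := e.ofLp ⬝ᵥ (A *ᵥ e.ofLp) with hqdef
  set g : ℝ → ℝ := fun s => u (x + s • e) + u (x - s • e) - 2 * u x - s ^ 2 * q with hg
  set g' : ℝ → ℝ := fun s => ⟪G (x + s • e), e⟫ - ⟪G (x - s • e), e⟫ - 2 * s * q with hg'
  have hder : ∀ s, HasDerivAt g (g' s) s := by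
    intro s
    have p1 : HasDerivAt (fun s : ℝ => x + s • e) e s := by
      simpa using ((hasDerivAt_id s).smul_const e).const_add x
    have p2 : HasDerivAt (fun s : ℝ => x - s • e) (-e) s := by
      simpa using ((hasDerivAt_id s).smul_const e).const_sub x
    have a1 := (hq.grad (x + s • e)).hasFDerivAt.comp_hasDerivAt s p1
    have a2 := (hq.grad (x - s • e)).hasFDerivAt.comp_hasDerivAt s p2
    have a3 : HasDerivAt (fun s : ℝ => s ^ 2 * q) (2 * s * q) s := by
      simpa using (hasDerivAt_pow 2 s).mul_const q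
    have := ((a1.add a2).sub_const (2 * u x)).sub a3
    have e0 : g' s = (InnerProductSpace.toDual ℝ (E n)) (G (x + s • e)) e +
        (InnerProductSpace.toDual ℝ (E n)) (G (x - s • e)) (-e) - 2 * s * q := by
      simp only [hg', InnerProductSpace.toDual_apply_apply, inner_neg_right]
      ring
    rw [e0]
    exact this
  have hmem : ∀ s ∈ Icc (0 : ℝ) t, x + s • e ∈ ball x₀ r ∧ x - s • e ∈ ball x₀ r := by
    intro s hs
    have ha : 0 ≤ (t + s) / (2 * t) := by have := hs.1; positivity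
    have hb : 0 ≤ (t - s) / (2 * t) := div_nonneg (by linarith [hs.2]) (by positivity)
    have hab : (t + s) / (2 * t) + (t - s) / (2 * t) = 1 := by field_simp; ring
    have hba : (t - s) / (2 * t) + (t + s) / (2 * t) = 1 := by linarith
    constructor
    · have := convex_ball x₀ r h1 h2 ha hb hab
      convert this using 1
      ext k
      simp only [PiLp.add_apply, PiLp.smul_apply, PiLp.sub_apply, smul_eq_mul]
      field_simp
      ring
    · have := convex_ball x₀ r h1 h2 hb ha hba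
      convert this using 1
      ext k
      simp only [PiLp.add_apply, PiLp.smul_apply, PiLp.sub_apply, smul_eq_mul]
      field_simp
      ring
  have hbd : ∀ s ∈ Icc (0 : ℝ) t, |g' s| ≤ 2 * s * (n * η) := by
    intro s hs
    obtain ⟨m1, m2⟩ := hmem s hs
    have hn : ‖(x + s • e) - (x - s • e)‖ = 2 * s := by
      have : (x + s • e) - (x - s • e) = (2 * s) • e := by
        rw [mul_smul, two_smul]; abel
      rw [this, norm_smul, he, mul_one, Real.norm_of_nonneg (by linarith [hs.1])]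
    have e1 : g' s = ∑ i, e i * (G (x + s • e) i - G (x - s • e) i -
        ∑ j, A i j * ((x + s • e) j - (x - s • e) j)) := by
      have hs2 : ∀ j, (x + s • e) j - (x - s • e) j = 2 * s * e j := by
        intro j
        simp only [PiLp.add_apply, PiLp.smul_apply, PiLp.sub_apply, smul_eq_mul]
        ring
      simp only [hs2]
      simp only [hg', hqdef, PiLp.inner_apply, dotProduct, mulVec, RCLike.inner_apply,
        conj_trivial, Finset.mul_sum]
      rw [← Finset.sum_sub_distrib, ← Finset.sum_sub_distrib]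
      refine Finset.sum_congr rfl fun i _ => ?_
      rw [mul_sub, mul_sub, Finset.mul_sum]
      congr 1
      refine Finset.sum_congr rfl fun j _ => ?_
      ring
    rw [e1]
    calc _ ≤ ∑ i, |e i * (G (x + s • e) i - G (x - s • e) i -
        ∑ j, A i j * ((x + s • e) j - (x - s • e) j))| := Finset.abs_sum_le_sum_abs _ _
      _ ≤ ∑ _i : Fin n, η * (2 * s) := by
        refine Finset.sum_le_sum fun i _ => ?_
        have b1 := h _ m1 _ m2 i
        rw [hn] at b1
        have b2 : |e i| ≤ 1 := he ▸ clip_abs_le e i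
        rw [abs_mul]
        calc _ ≤ 1 * (η * (2 * s)) := mul_le_mul b2 b1 (abs_nonneg _) zero_le_one
          _ = _ := one_mul _
      _ = 2 * s * (n * η) := by simp; ring
  have hg0 : g 0 = 0 := by simp [hg]; ring
  have key : ∀ σ : ℝ, |σ| = 1 → σ * g t ≤ t ^ 2 * (n * η) := by
    intro σ hσ
    have hd : ∀ s, HasDerivAt (fun s => s ^ 2 * (n * η) - σ * g s)
        (2 * s * (n * η) - σ * g' s) s := by
      intro s
      have a3 : HasDerivAt (fun s : ℝ => s ^ 2 * (n * η)) (2 * s * (n * η)) s := by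
        simpa using (hasDerivAt_pow 2 s).mul_const ((n : ℝ) * η)
      exact a3.sub ((hder s).const_mul σ)
    have hmono : MonotoneOn (fun s => s ^ 2 * (n * η) - σ * g s) (Icc 0 t) := by
      refine monotoneOn_of_deriv_nonneg (convex_Icc 0 t)
        (fun s _ => (hd s).continuousAt.continuousWithinAt)
        (fun s _ => (hd s).differentiableAt.differentiableWithinAt) fun s hs => ?_
      rw [(hd s).deriv]
      have b := hbd s (interior_subset hs)
      have b2 : σ * g' s ≤ |g' s| := by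
        calc σ * g' s ≤ |σ * g' s| := le_abs_self _
          _ = |g' s| := by rw [abs_mul, hσ, one_mul]
      linarith
    have := hmono (left_mem_Icc.2 ht.le) (right_mem_Icc.2 ht.le) ht.le
    simp only [hg0] at this
    linarith
  have k1 := key 1 (by simp)
  have k2 := key (-1) (by simp)
  have ht2 : 0 < t ^ 2 := by positivity
  have e2 : dq2 u e t x - q = g t / t ^ 2 := by
    simp only [dq2, hg]
    field_simp
  rw [e2, abs_div, abs_of_pos ht2, div_le_iff₀ ht2, abs_le]
  constructor <;> linarith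

/-- two-point closeness to `A` near a point of differentiability controls the Jacobian -/
theorem clip_jac_close {G : E n → E n} {A : Mat n} {x₀ z : E n} {r η : ℝ} (hη : 0 ≤ η)
    (hz : z ∈ ball x₀ r) (hd : DifferentiableAt ℝ G z)
    (h : ∀ x ∈ ball x₀ r, ∀ y ∈ ball x₀ r, ∀ i,
      |G x i - G y i - ∑ j, A i j * (x j - y j)| ≤ η * ‖x - y‖) (i j : Fin n) :
    |jac G z i j - A i j| ≤ η := by
  have h1 := (clip_hasFDerivAt hd A i).le_of_lip' hη (by
    filter_upwards [isOpen_ball.mem_nhds hz] with w hw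
    rw [Real.norm_eq_abs, ← clip_diff]
    exact h w hw z hz i)
  rw [← clip_pd hd A i j]
  unfold pd
  rw [(clip_hasFDerivAt hd A i).fderiv, ← Real.norm_eq_abs]
  refine (ContinuousLinearMap.le_opNorm _ _).trans ?_
  rw [clip_norm_ee, mul_one]
  exact h1

theorem clip_two {G : E n → E n} {A B : Mat n} {x : E n} {r η η' : ℝ} (hr : 0 < r)
    (hA : ∀ y ∈ ball x r, ∀ i, |G y i - G x i - ∑ j, A i j * (y j - x j)| ≤ η * ‖y - x‖)
    (hB : ∀ y ∈ ball x r, ∀ i, |G y i - G x i - ∑ j, B i j * (y j - x j)| ≤ η' * ‖y - x‖)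
    (i j : Fin n) : |A i j - B i j| ≤ η + η' := by
  have hn : ‖(x + (r / 2) • ee j) - x‖ = r / 2 := by
    rw [add_sub_cancel_left, norm_smul, clip_norm_ee, mul_one, Real.norm_of_nonneg (by linarith)]
  have hy : x + (r / 2) • ee j ∈ ball x r := by
    rw [mem_ball, dist_eq_norm, hn]; linarith
  have hs : ∀ M : Mat n, ∑ k, M i k * ((x + (r / 2) • ee j) k - x k) = M i j * (r / 2) := by
    intro M
    simp [ee]
  have a := hA _ hy i
  have b := hB _ hy i
  rw [hs, hn] at a b
  have h2 : 0 < r / 2 := by linarith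
  have : |A i j - B i j| * (r / 2) ≤ (η + η') * (r / 2) := by
    rw [← abs_of_pos h2, ← abs_mul, abs_of_pos h2]
    rw [abs_le] at a b ⊢
    constructor <;> nlinarith [a.1, a.2, b.1, b.2]
  exact le_of_mul_le_mul_right this h2

theorem clip_differentiableAt {G : E n → E n} {x : E n} {γ K r₀ : ℝ} (hγ : 0 < γ) (hK : 0 ≤ K)
    (hr : 0 < r₀)
    (h : ∀ r : ℝ, 0 < r → r ≤ r₀ → ∃ A : Mat n,
      ∀ y ∈ ball x r, ∀ i,
        |G y i - G x i - ∑ j, A i j * (y j - x j)| ≤ K * r ^ γ * ‖y - x‖) :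
    DifferentiableAt ℝ G x := by
  choose! A hA using h
  have hcmp : ∀ r r' : ℝ, 0 < r' → r' ≤ r → r ≤ r₀ → ∀ i j,
      |A r i j - A r' i j| ≤ 2 * K * r ^ γ := by
    intro r r' h0 h1 h2 i j
    have := clip_two (G := G) (x := x) h0
      (fun y hy => hA r (h0.trans_le h1) h2 y (ball_subset_ball h1 hy))
      (hA r' h0 (h1.trans h2)) i j
    have h3 : r' ^ γ ≤ r ^ γ := Real.rpow_le_rpow h0.le h1 hγ.le
    nlinarith [mul_le_mul_of_nonneg_left h3 hK]
  set ρ : ℕ → ℝ := fun k => r₀ / ((k : ℝ) + 1) with hρ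
  have hρpos : ∀ k, 0 < ρ k := fun k => by simp only [hρ]; positivity
  have hρle : ∀ k, ρ k ≤ r₀ := fun k =>
    div_le_self hr.le (by have : (0 : ℝ) ≤ k := Nat.cast_nonneg k; linarith)
  have hρanti : ∀ k m : ℕ, k ≤ m → ρ m ≤ ρ k := fun k m hkm =>
    div_le_div_of_nonneg_left hr.le (by positivity)
      (by have : (k : ℝ) ≤ m := Nat.cast_le.2 hkm; linarith)
  have hρ0 : Filter.Tendsto ρ Filter.atTop (nhds 0) := by
    have := (tendsto_one_div_add_atTop_nhds_zero_nat (𝕜 := ℝ)).const_mul r₀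
    simpa [hρ, div_eq_mul_inv] using this
  have hρ0' : Filter.Tendsto (fun k => ρ k ^ γ) Filter.atTop (nhds 0) := by
    have := hρ0.rpow_const (p := γ) (Or.inr hγ.le)
    simpa [Real.zero_rpow hγ.ne'] using this
  have hlim : ∀ i j, ∃ b : ℝ, Filter.Tendsto (fun k => A (ρ k) i j) Filter.atTop (nhds b) := by
    intro i j
    refine cauchySeq_tendsto_of_complete
      (cauchySeq_of_le_tendsto_0' (fun k => 2 * K * ρ k ^ γ) (fun k m hkm => ?_) ?_)
    · rw [Real.dist_eq]
      exact hcmp _ _ (hρpos m) (hρanti k m hkm) (hρle k) i j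
    · simpa using hρ0'.const_mul (2 * K)
  choose B hB using hlim
  have hAB : ∀ k i j, |A (ρ k) i j - B i j| ≤ 2 * K * ρ k ^ γ := by
    intro k i j
    refine le_of_tendsto ((tendsto_const_nhds.sub (hB i j)).abs) ?_
    filter_upwards [Filter.eventually_ge_atTop k] with m hm
    exact hcmp _ _ (hρpos m) (hρanti k m hm) (hρle k) i j
  rw [differentiableAt_euclidean]
  intro i
  refine (?_ : HasFDerivAt (fun y => G y i) (clip_row (Matrix.of B) i) x).differentiableAt
  rw [hasFDerivAt_iff_isLittleO, Asymptotics.isLittleO_iff]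
  intro c hc
  have hev : ∀ᶠ k in Filter.atTop, (K + n * (2 * K)) * ρ k ^ γ < c := by
    have := hρ0'.const_mul (K + n * (2 * K))
    rw [mul_zero] at this
    exact this.eventually (gt_mem_nhds hc)
  obtain ⟨k, hk⟩ := hev.exists
  filter_upwards [ball_mem_nhds x (hρpos k)] with y hy
  have a := hA _ (hρpos k) (hρle k) y hy i
  have e1 : G y i - G x i - clip_row (Matrix.of B) i (y - x) =
      (G y i - G x i - ∑ j, A (ρ k) i j * (y j - x j)) +
        ∑ j, (A (ρ k) i j - B i j) * (y - x) j := by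
    rw [clip_row_apply]
    simp only [Matrix.of_apply, PiLp.sub_apply, sub_mul, Finset.sum_sub_distrib]
    ring
  have b : |∑ j, (A (ρ k) i j - B i j) * (y - x) j| ≤ n * (2 * K * ρ k ^ γ * ‖y - x‖) := by
    calc _ ≤ ∑ j, |(A (ρ k) i j - B i j) * (y - x) j| := Finset.abs_sum_le_sum_abs _ _
      _ ≤ ∑ _j : Fin n, 2 * K * ρ k ^ γ * ‖y - x‖ := by
        refine Finset.sum_le_sum fun j _ => ?_
        rw [abs_mul]
        exact mul_le_mul (hAB k i j) (clip_abs_le _ j) (abs_nonneg _)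
          ((abs_nonneg _).trans (hAB k i j))
      _ = _ := by simp
  rw [Real.norm_eq_abs, e1]
  refine (abs_add_le _ _).trans ?_
  have hn := norm_nonneg (y - x)
  nlinarith [mul_le_mul_of_nonneg_right hk.le hn]

theorem campanato {G : E n → E n} {x₁ : E n} {γ K r₀ : ℝ} (hγ : 0 < γ) (hK : 0 ≤ K)
    (hr : 0 < r₀)
    (h : ∀ x₀ ∈ ball x₁ r₀, ∀ r : ℝ, 0 < r → r ≤ r₀ → ∃ A : Mat n,
      ∀ x ∈ ball x₀ r, ∀ y ∈ ball x₀ r, ∀ i,
        |G x i - G y i - ∑ j, A i j * (x j - y j)| ≤ K * r ^ γ * ‖x - y‖) :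
    (∀ x ∈ ball x₁ r₀, DifferentiableAt ℝ G x) ∧ ∃ K' : ℝ, 0 ≤ K' ∧
      ∀ x ∈ ball x₁ (r₀ / 4), ∀ y ∈ ball x₁ (r₀ / 4), ∀ i j,
        |jac G x i j - jac G y i j| ≤ K' * ‖x - y‖ ^ γ := by
  have hdiff : ∀ x ∈ ball x₁ r₀, DifferentiableAt ℝ G x := by
    intro x hx
    refine clip_differentiableAt hγ hK hr fun r h0 h1 => ?_
    obtain ⟨A, hA⟩ := h x hx r h0 h1
    exact ⟨A, fun y hy i => hA y hy x (mem_ball_self h0) i⟩
  refine ⟨hdiff, 2 * K * 2 ^ γ, by positivity, fun x hx y hy i j => ?_⟩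
  have hsub : ball x₁ (r₀ / 4) ⊆ ball x₁ r₀ := ball_subset_ball (by linarith)
  by_cases hxy : x = y
  · subst hxy
    simp only [sub_self, abs_zero]
    positivity
  have hpos : 0 < ‖x - y‖ := norm_pos_iff.2 (sub_ne_zero.2 hxy)
  have hlt : ‖x - y‖ < r₀ / 2 := by
    have := dist_triangle_right x y x₁
    rw [mem_ball] at hx hy
    rw [← dist_eq_norm]
    linarith
  obtain ⟨A, hA⟩ := h x (hsub hx) (2 * ‖x - y‖) (by positivity) (by linarith)
  have hη : 0 ≤ K * (2 * ‖x - y‖) ^ γ := by positivity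
  have hyb : y ∈ ball x (2 * ‖x - y‖) := by
    rw [mem_ball, dist_comm, dist_eq_norm]; linarith
  have a := clip_jac_close hη (mem_ball_self (by positivity)) (hdiff x (hsub hx)) hA i j
  have b := clip_jac_close hη hyb (hdiff y (hsub hy)) hA i j
  rw [Real.mul_rpow (by norm_num) hpos.le] at a b
  rw [abs_le] at a b ⊢
  constructor <;> nlinarith [a.1, a.2, b.1, b.2]

end Crest.Agent.R238
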