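import Crest.Agent.R238.CStep
import Crest.Agent.R238.CLip

/-!
# R238 / CIter: iteration of the Evans–Krylov step

`R_j = 4^{-j}/2`, `μ_j = Σ_k Msup u (e k) x₀ R_j` is antitone in `j` and lies in `[Nc, NC]`.
`ek_step` (with `4R = R_j`) + `lip_of_ae` + `dq2_close`: all second differences with stencil in
`B_{R_j}` are within `n² K (μ_j - μ_{j+1} + R_{j+1})` of `eᵀAe`, so for every `i ≥ j`
`μ_j - μ_i ≤ K' (μ_j - μ_{j+1} + R_{j+1})`, `K' = 2Nn²K + 1`.  With `T_j = μ_j - inf μ`: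
`T_{j+1} ≤ (1 - 1/K') T_j + R_{j+1}`, so `T_j ≤ K'' θ^j`, `θ = max(1 - 1/K', 1/2)`-ish `< 1`,
uniformly in `x₀`; `θ^j ≍ R_j^γ` with `0 < γ < 1` (decrease `γ` if necessary).  For general
`r ≤ 1/2` take `j` with `R_{j+1} < r ≤ R_j`.  Then `campanato` with `r₀ = 1/2`.
-/

set_option autoImplicit false
open MeasureTheory Matrix Set Metric
open scoped RealInnerProductSpace ContDiff BigOperators

namespace Crest.Agent.R238

variable {n : ℕ}

theorem citer_bdd {c C : ℝ} {u : E n → ℝ} {G : E n → E n} (hq : Quad c C u G) {e : E n}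
    (he : ‖e‖ = 1) (x₀ : E n) (r : ℝ) :
    BddAbove {t | ∃ h x, 0 < h ∧ x + h • e ∈ Metric.ball x₀ r ∧ x - h • e ∈ Metric.ball x₀ r ∧
      t = dq2 u e h x} := by
  refine ⟨C, ?_⟩
  rintro t ⟨h, x, hh, -, -, rfl⟩
  have := (hq.dq2_bounds e hh.ne' x).2
  simpa [he] using this

theorem citer_stencil {e : E n} (he : ‖e‖ = 1) (x₀ : E n) {r : ℝ} (hr : 0 < r) :
    x₀ + (r / 2) • e ∈ Metric.ball x₀ r ∧ x₀ - (r / 2) • e ∈ Metric.ball x₀ r := by
  constructor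
  · rw [mem_ball, dist_eq_norm, add_sub_cancel_left, norm_smul, he, Real.norm_eq_abs,
      abs_of_pos (by positivity)]
    linarith
  · rw [mem_ball, dist_eq_norm, sub_sub_cancel_left, norm_neg, norm_smul, he, Real.norm_eq_abs,
      abs_of_pos (by positivity)]
    linarith

theorem citer_le_Msup {c C : ℝ} {u : E n → ℝ} {G : E n → E n} (hq : Quad c C u G) {e : E n}
    (he : ‖e‖ = 1) {x₀ : E n} {r h : ℝ} {x : E n} (hh : 0 < h)
    (h1 : x + h • e ∈ Metric.ball x₀ r) (h2 : x - h • e ∈ Metric.ball x₀ r) :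
    dq2 u e h x ≤ Msup u e x₀ r :=
  le_csSup (citer_bdd hq he x₀ r) ⟨h, x, hh, h1, h2, rfl⟩

theorem citer_Msup_le {u : E n → ℝ} {e : E n} (he : ‖e‖ = 1) {x₀ : E n} {r b : ℝ} (hr : 0 < r)
    (hb : ∀ h x, 0 < h → x + h • e ∈ Metric.ball x₀ r → x - h • e ∈ Metric.ball x₀ r →
      dq2 u e h x ≤ b) : Msup u e x₀ r ≤ b := by
  refine csSup_le ⟨_, r / 2, x₀, by positivity, (citer_stencil he x₀ hr).1,
    (citer_stencil he x₀ hr).2, rfl⟩ ?_
  rintro t ⟨h, x, hh, h1, h2, rfl⟩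
  exact hb h x hh h1 h2

theorem citer_Msup_bounds {c C : ℝ} {u : E n → ℝ} {G : E n → E n} (hq : Quad c C u G) {e : E n}
    (he : ‖e‖ = 1) (x₀ : E n) {r : ℝ} (hr : 0 < r) :
    c ≤ Msup u e x₀ r ∧ Msup u e x₀ r ≤ C := by
  constructor
  · have h0 : 0 < r / 2 := by positivity
    have h1 := (hq.dq2_bounds e h0.ne' x₀).1
    have h2 := citer_le_Msup hq he h0 (citer_stencil he x₀ hr).1 (citer_stencil he x₀ hr).2
    rw [he] at h1
    linarith
  · refine citer_Msup_le he hr fun h x hh _ _ => ?_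
    have := (hq.dq2_bounds e hh.ne' x).2
    simpa [he] using this

theorem citer_Msup_mono {c C : ℝ} {u : E n → ℝ} {G : E n → E n} (hq : Quad c C u G) {e : E n}
    (he : ‖e‖ = 1) (x₀ : E n) {r r' : ℝ} (hr : 0 < r) (hrr : r ≤ r') :
    Msup u e x₀ r ≤ Msup u e x₀ r' :=
  citer_Msup_le he hr fun _ _ hh h1 h2 =>
    citer_le_Msup hq he hh (ball_subset_ball hrr h1) (ball_subset_ball hrr h2)

/-- oscillation of `Msup` from a two-point bound -/
theorem citer_osc {c C : ℝ} {u : E n → ℝ} {G : E n → E n} (hq : Quad c C u G) {A : Mat n}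
    {x₀ : E n} {R η : ℝ}
    (h : ∀ x ∈ ball x₀ R, ∀ y ∈ ball x₀ R, ∀ i,
      |G x i - G y i - ∑ j, A i j * (x j - y j)| ≤ η * ‖x - y‖)
    {e : E n} (he : ‖e‖ = 1) {r : ℝ} (hr : 0 < r) (hrR : r ≤ R) :
    Msup u e x₀ R - Msup u e x₀ r ≤ 2 * (n * η) := by
  have h1 : Msup u e x₀ R ≤ e.ofLp ⬝ᵥ (A *ᵥ e.ofLp) + n * η := by
    refine citer_Msup_le he (hr.trans_le hrR) fun t x ht h1 h2 => ?_
    have := (abs_le.1 (dq2_close hq h he ht h1 h2)).2
    linarith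
  have h0 : 0 < r / 2 := by positivity
  have hs := citer_stencil he x₀ hr
  have h2 := citer_le_Msup hq he h0 hs.1 hs.2
  have h3 := (abs_le.1 (dq2_close hq h he h0 (ball_subset_ball hrR hs.1)
    (ball_subset_ball hrR hs.2))).1
  linarith

/-- the geometric decay -/
theorem citer_decay (m : ℝ → ℝ) {K B : ℝ} (hK : 1 ≤ K) (hB : 0 ≤ B)
    (h0 : ∀ r, 0 < r → r ≤ 1 / 2 → m (1 / 2) - m r ≤ B)
    (hstep : ∀ R, 0 < R → R ≤ 1 / 8 → ∀ r, 0 < r → r ≤ R →
      m (4 * R) - m r ≤ K * (m (4 * R) - m R + R)) (j : ℕ) :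
    ∀ r, 0 < r → r ≤ 1 / 2 * (1 / 4) ^ j →
      m (1 / 2 * (1 / 4) ^ j) - m r ≤ (B + 2 * K) * (1 - 1 / (2 * K)) ^ j := by
  have hK0 : 0 < K := by linarith
  have hθ : (1 / 4 : ℝ) ≤ 1 - 1 / (2 * K) := by
    have : 1 / (2 * K) ≤ 1 / 2 := by
      apply one_div_le_one_div_of_le <;> linarith
    linarith
  induction j with
  | zero =>
    intro r hr hr'
    simp only [pow_zero, mul_one] at hr' ⊢
    have := h0 r hr hr'
    linarith
  | succ j ih =>
    intro r hr hr'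
    set R : ℝ := 1 / 2 * (1 / 4) ^ (j + 1) with hR
    have hp : (0 : ℝ) < (1 / 4) ^ j := by positivity
    have hp1 : ((1 / 4 : ℝ)) ^ j ≤ 1 := pow_le_one₀ (by norm_num) (by norm_num)
    have hRe : R = (1 / 4) ^ j / 8 := by rw [hR, pow_succ]; ring
    have h4 : 4 * R = 1 / 2 * (1 / 4) ^ j := by rw [hRe]; ring
    have hR0 : 0 < R := by rw [hRe]; positivity
    have hs := hstep R hR0 (by rw [hRe]; linarith) r hr hr'
    have hi := ih r hr (by rw [← h4]; linarith)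
    rw [← h4] at hi
    set θ : ℝ := 1 - 1 / (2 * K) with hθd
    have hθj : (1 / 4 : ℝ) ^ j ≤ θ ^ j := pow_le_pow_left₀ (by norm_num) hθ j
    have hθ0 : 0 ≤ θ ^ j := hp.le.trans hθj
    have hRθ : R ≤ θ ^ j := by rw [hRe]; linarith
    set a := m (4 * R) - m r with ha
    set b := m R - m r with hb
    have hab : m (4 * R) - m R = a - b := by rw [ha, hb]; ring
    rw [hab] at hs
    -- `K b ≤ (K - 1) a + K R`
    have h1 : K * b ≤ (K - 1) * ((B + 2 * K) * θ ^ j) + K * θ ^ j := by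
      have e1 : (K - 1) * a ≤ (K - 1) * ((B + 2 * K) * θ ^ j) :=
        mul_le_mul_of_nonneg_left hi (by linarith)
      have e2 : K * R ≤ K * θ ^ j := mul_le_mul_of_nonneg_left hRθ hK0.le
      nlinarith
    have h2 : K * ((B + 2 * K) * θ ^ (j + 1)) = (K - 1 / 2) * ((B + 2 * K) * θ ^ j) := by
      rw [pow_succ, hθd]; field_simp
    have h3 : K * b ≤ K * ((B + 2 * K) * θ ^ (j + 1)) := by
      rw [h2]
      have : 0 ≤ B * θ ^ j := mul_nonneg hB hθ0
      nlinarith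
    exact le_of_mul_le_mul_left h3 hK0

theorem citer_exponent {θ : ℝ} (h0 : 1 / 4 < θ) (h1 : θ < 1) :
    ∃ γ : ℝ, 0 < γ ∧ γ < 1 ∧ ∀ (j : ℕ) (r : ℝ), (1 / 4 : ℝ) ^ (j + 1) < 2 * r →
      θ ^ j ≤ 8 * r ^ γ := by
  have hθ : 0 < θ := by linarith
  have hγ0 : 0 < Real.logb (1 / 4) θ :=
    Real.logb_pos_of_base_lt_one (by norm_num) (by norm_num) hθ h1
  have hγ1 : Real.logb (1 / 4) θ < 1 := by
    rw [Real.logb_lt_iff_lt_rpow_of_base_lt_one (by norm_num) (by norm_num) hθ]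
    simpa using h0
  refine ⟨Real.logb (1 / 4) θ, hγ0, hγ1, fun j r hr => ?_⟩
  set γ := Real.logb (1 / 4) θ with hγ
  have hθe : (1 / 4 : ℝ) ^ γ = θ := Real.rpow_logb (by norm_num) (by norm_num) hθ
  have hp : (0 : ℝ) < (1 / 4) ^ j := by positivity
  have hr8 : (1 / 4 : ℝ) ^ j ≤ 8 * r := by rw [pow_succ] at hr; linarith
  have hr0 : 0 < r := by linarith
  calc θ ^ j = ((1 / 4 : ℝ) ^ j) ^ γ := by
        rw [← hθe, ← Real.rpow_natCast, ← Real.rpow_mul (by norm_num), mul_comm,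
          Real.rpow_mul (by norm_num), Real.rpow_natCast]
    _ ≤ (8 * r) ^ γ := Real.rpow_le_rpow hp.le hr8 hγ0.le
    _ = 8 ^ γ * r ^ γ := Real.mul_rpow (by norm_num) hr0.le
    _ ≤ 8 * r ^ γ := by
        have : (8 : ℝ) ^ γ ≤ 8 := by
          calc (8 : ℝ) ^ γ ≤ 8 ^ (1 : ℝ) :=
                Real.rpow_le_rpow_of_exponent_le (by norm_num) hγ1.le
            _ = 8 := Real.rpow_one _
        exact mul_le_mul_of_nonneg_right this (Real.rpow_nonneg hr0.le _)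

/-- the Campanato hypothesis near a given point -/
theorem citer_camp (hn : 2 ≤ n) {α β c C : ℝ} {φ u : E n → ℝ} {G : E n → E n}
    (hP : Pot α β φ) (hW : Weak φ c C u G) (x₁ : E n) :
    ∃ γ K : ℝ, 0 < γ ∧ γ < 1 ∧ 0 ≤ K ∧ ∀ x₀ ∈ ball x₁ (1 / 2), ∀ r : ℝ, 0 < r → r ≤ 1 / 2 →
      ∃ A : Mat n, ∀ x ∈ ball x₀ r, ∀ y ∈ ball x₀ r, ∀ i,
        |G x i - G y i - ∑ j, A i j * (x j - y j)| ≤ K * r ^ γ * ‖x - y‖ := by
  obtain ⟨N, e, K, hK, he, hstep⟩ := ek_step hn hP hW x₁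
  have hq := hW.quad
  have hC : 0 ≤ C := hW.cpos.le.trans hW.cle
  set K' : ℝ := N * (2 * (n * (n * K))) + 1 with hK'
  have hK1 : 1 ≤ K' := by
    have : 0 ≤ (N : ℝ) * (2 * (n * (n * K))) := by positivity
    linarith
  have hθ0 : (1 / 4 : ℝ) < 1 - 1 / (2 * K') := by
    have : 1 / (2 * K') ≤ 1 / 2 := by
      apply one_div_le_one_div_of_le <;> linarith
    linarith
  have hθ1 : 1 - 1 / (2 * K') < 1 := by
    have : 0 < 1 / (2 * K') := by positivity
    linarith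
  obtain ⟨γ, hγ0, hγ1, hγ⟩ := citer_exponent hθ0 hθ1
  refine ⟨γ, n * (K * ((N * C + 2 * K' + 1) * 8)), hγ0, hγ1, by positivity, ?_⟩
  intro x₀ hx₀ r hr hr2
  set m : ℝ → ℝ := fun s => ∑ k, Msup u (e k) x₀ s with hm
  have hsum : ∀ R : ℝ, (∑ k, (Msup u (e k) x₀ (4 * R) - Msup u (e k) x₀ R)) =
      m (4 * R) - m R := fun R => by simp only [hm, Finset.sum_sub_distrib]
  have hmono : ∀ s s' : ℝ, 0 < s → s ≤ s' → m s ≤ m s' := fun s s' hs hss =>
    Finset.sum_le_sum fun k _ => citer_Msup_mono hq (he k) x₀ hs hss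
  -- two-point form of the step
  have htwo : ∀ R : ℝ, 0 < R → R ≤ 1 / 8 → ∃ A : Mat n, ∀ x ∈ ball x₀ (4 * R),
      ∀ y ∈ ball x₀ (4 * R), ∀ i, |G x i - G y i - ∑ j, A i j * (x j - y j)| ≤
        n * (K * (m (4 * R) - m R + R)) * ‖x - y‖ := by
    intro R hR hR8
    obtain ⟨A, hA⟩ := hstep x₀ hx₀ R hR hR8
    rw [hsum] at hA
    exact ⟨A, lip_of_ae hq.lipschitz hA⟩
  have hdec := citer_decay m hK1 (B := N * C) (by positivity) ?_ ?_
  · obtain ⟨j, hj1, hj2⟩ := exists_nat_pow_near_of_lt_one (x := 2 * r) (y := (1 / 4 : ℝ))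
      (by positivity) (by linarith) (by norm_num) (by norm_num)
    have hp : (0 : ℝ) < (1 / 4) ^ j := by positivity
    have hp1 : ((1 / 4 : ℝ)) ^ j ≤ 1 := pow_le_one₀ (by norm_num) (by norm_num)
    obtain ⟨A, hA⟩ := htwo ((1 / 4) ^ j / 8) (by positivity) (by linarith)
    have h4 : 4 * ((1 / 4 : ℝ) ^ j / 8) = 1 / 2 * (1 / 4) ^ j := by ring
    rw [h4] at hA
    have hrr : r ≤ 1 / 2 * (1 / 4) ^ j := by linarith
    refine ⟨A, fun x hx y hy i => (hA x (ball_subset_ball hrr hx) y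
      (ball_subset_ball hrr hy) i).trans ?_⟩
    have h1 := hdec j ((1 / 4) ^ j / 8) (by positivity) (by linarith)
    have h2 := hγ j r hj1
    set θ : ℝ := 1 - 1 / (2 * K') with hθd
    have hθj : (1 / 4 : ℝ) ^ j ≤ θ ^ j := pow_le_pow_left₀ (by norm_num) hθ0.le j
    have h3 : m (1 / 2 * (1 / 4) ^ j) - m ((1 / 4) ^ j / 8) + (1 / 4) ^ j / 8 ≤
        (N * C + 2 * K' + 1) * (8 * r ^ γ) := by
      have e1 : (N * C + 2 * K' + 1) * θ ^ j ≤ (N * C + 2 * K' + 1) * (8 * r ^ γ) :=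
        mul_le_mul_of_nonneg_left h2 (by positivity)
      nlinarith
    refine mul_le_mul_of_nonneg_right ?_ (norm_nonneg _)
    calc n * (K * (m (1 / 2 * (1 / 4) ^ j) - m ((1 / 4) ^ j / 8) + (1 / 4) ^ j / 8))
        ≤ n * (K * ((N * C + 2 * K' + 1) * (8 * r ^ γ))) := by gcongr
      _ = _ := by ring
  · intro s hs _
    have h1 : m (1 / 2) ≤ N * C := by
      calc m (1 / 2) ≤ ∑ _k : Fin N, C :=
            Finset.sum_le_sum fun k _ => (citer_Msup_bounds hq (he k) x₀ (by norm_num)).2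
        _ = N * C := by simp
    have h2 : 0 ≤ m s := Finset.sum_nonneg fun k _ =>
      hW.cpos.le.trans (citer_Msup_bounds hq (he k) x₀ hs).1
    linarith
  · intro R hR hR8 s hs hsR
    obtain ⟨A, hA⟩ := htwo R hR hR8
    have hd : 0 ≤ m (4 * R) - m R + R := by
      have := hmono R (4 * R) hR (by linarith)
      linarith
    calc m (4 * R) - m s = ∑ k, (Msup u (e k) x₀ (4 * R) - Msup u (e k) x₀ s) := by
          simp only [hm, Finset.sum_sub_distrib]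
      _ ≤ ∑ _k : Fin N, 2 * (n * (n * (K * (m (4 * R) - m R + R)))) :=
          Finset.sum_le_sum fun k _ => citer_osc hq hA (he k) hs (by linarith)
      _ = N * (2 * (n * (n * K))) * (m (4 * R) - m R + R) := by
          simp only [Finset.sum_const, Finset.card_univ, Fintype.card_fin, nsmul_eq_mul]; ring
      _ ≤ K' * (m (4 * R) - m R + R) := by
          refine mul_le_mul_of_nonneg_right ?_ hd
          linarith

theorem locHol_of_weak (hn : 2 ≤ n) {α β c C : ℝ} {φ u : E n → ℝ} {G : E n → E n}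
    (hP : Pot α β φ) (hW : Weak φ c C u G) : LocHol G := by
  constructor
  · intro x₁
    obtain ⟨γ, K, hγ0, -, hK, h⟩ := citer_camp hn hP hW x₁
    exact (campanato hγ0 hK (by norm_num) h).1 x₁ (mem_ball_self (by norm_num))
  · intro x₁
    obtain ⟨γ, K, hγ0, hγ1, hK, h⟩ := citer_camp hn hP hW x₁
    obtain ⟨K', hK', h'⟩ := (campanato hγ0 hK (by norm_num) h).2
    exact ⟨γ, 1 / 2 / 4, K', hγ0, hγ1, by norm_num, hK', h'⟩

end Crest.Agent.R238
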