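import Crest.Agent.R238.DMain

/-!
# R238 / DMS: the smooth moment structure

`τ = (hess u)⁻¹ = (jac G)⁻¹`; entries are `C¹` (`adjugate/det`, `det > 0`); differentiate
`τ * hess u = 1` with `pdM_mul`: `pdM e τ = -τ * pdM e (hess u) * τ`.  A `C¹_c` function is
Lipschitz (`ContDiff.lipschitzWith_of_hasCompactSupport`).
-/

set_option autoImplicit false
open MeasureTheory Matrix Set Metric
open scoped RealInnerProductSpace ContDiff BigOperators

namespace Crest.Agent.R238

variable {n : ℕ}

theorem dms_det {A : E n → Mat n} (hA : ∀ i j, ContDiff ℝ 1 fun x => A x i j) :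
    ContDiff ℝ 1 fun x => (A x).det := by
  simp only [Matrix.det_apply']
  exact ContDiff.sum fun σ _ => contDiff_const.mul (contDiff_prod fun i _ => hA _ _)

theorem dms_adj {A : E n → Mat n} (hA : ∀ i j, ContDiff ℝ 1 fun x => A x i j) (i j : Fin n) :
    ContDiff ℝ 1 fun x => (A x).adjugate i j := by
  simp only [Matrix.adjugate_apply]
  refine dms_det fun a b => ?_
  by_cases h : a = j
  · subst h
    simp only [Matrix.updateRow_self]
    exact contDiff_const
  · simp only [Matrix.updateRow_ne h]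
    exact hA a b

theorem dms_inv {A : E n → Mat n} (hA : ∀ i j, ContDiff ℝ 1 fun x => A x i j)
    (hd : ∀ x, (A x).det ≠ 0) (i j : Fin n) : ContDiff ℝ 1 fun x => (A x)⁻¹ i j := by
  have : (fun x => (A x)⁻¹ i j) = fun x => ((A x).det)⁻¹ * (A x).adjugate i j := by
    funext x
    rw [Matrix.inv_def, Ring.inverse_eq_inv', Matrix.smul_apply, smul_eq_mul]
  rw [this]
  exact ((dms_det hA).inv hd).mul (dms_adj hA i j)

theorem dms_hess_eq {u : E n → ℝ} {c C : ℝ} {G : E n → E n} (hq : Quad c C u G)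
    (hG : Differentiable ℝ G) (h2 : ContDiff ℝ 2 u) (x : E n) : hess u x = jac G x := by
  ext i j
  rw [hess_symm h2 x i j]
  have h1 : pd i u = fun y => G y i := funext (hq.pd i)
  have h3 : HasFDerivAt (fun y => G y i)
      ((EuclideanSpace.proj (𝕜 := ℝ) i).comp (fderiv ℝ G x)) x :=
    (EuclideanSpace.proj (𝕜 := ℝ) i).hasFDerivAt.comp x (hG x).hasFDerivAt
  change pd j (pd i u) x = fderiv ℝ G x (ee j) i
  rw [h1, pd, h3.fderiv]
  rfl

theorem ms_of_c3 {φ u : E n → ℝ} {c C : ℝ} {G : E n → E n} (hW : Weak φ c C u G)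
    (hG : Differentiable ℝ G) (h3 : ContDiff ℝ 3 u) :
    MS φ C⁻¹ c⁻¹ (fun x => (hess u x)⁻¹) (fun x e => -pdM e (hess u) x) := by
  have h2 : ContDiff ℝ 2 u := h3.of_le (by norm_num)
  have hj := dms_hess_eq hW.quad hG h2
  have hell : ∀ x, Ell c C (hess u x) := fun x => by
    rw [hj]; exact hW.quad.jac_ell (hG x)
  have hH : ∀ i j, ContDiff ℝ 1 fun x => hess u x i j := contDiff_hess h3 (by norm_num)
  have hτ := dms_inv hH fun x => ((hell x).det_pos hW.cpos).ne'
  have hC : 0 < C := hW.cpos.trans_le hW.cle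
  refine ⟨inv_pos.2 hC, inv_anti₀ hW.cpos hW.cle, fun x => (hell x).inv hW.cpos hW.cle, hτ,
    fun x => by rw [hess_even hW.even], fun e i j => ?_, fun x e i j => ?_, fun x e i j => ?_,
    fun x e => ?_, fun N hN hc d => ?_⟩
  · exact (continuous_pd (hH i j) e).neg
  · simp only [Matrix.neg_apply]
    rw [pdM_hess_symm1 h3]
  · simp only [Matrix.neg_apply]
    rw [pdM_hess_symm2 h3]
  · have h1 := pdM_mul hτ hH e x
    have h0 : pdM e (fun y => (hess u y)⁻¹ * hess u y) x = 0 := by
      have : (fun y => (hess u y)⁻¹ * hess u y) = fun _ => (1 : Mat n) :=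
        funext fun y => (hell y).inv_mul hW.cpos
      rw [this]
      ext i j
      exact pd_const e _ x
    rw [h0] at h1
    have h4 : pdM e (fun x => (hess u x)⁻¹) x * hess u x = -((hess u x)⁻¹ * pdM e (hess u) x) :=
      eq_neg_of_add_eq_zero_left h1.symm
    calc pdM e (fun x => (hess u x)⁻¹) x
        = pdM e (fun x => (hess u x)⁻¹) x * hess u x * (hess u x)⁻¹ := by
          rw [Matrix.mul_assoc, (hell x).mul_inv hW.cpos, Matrix.mul_one]
      _ = _ := by rw [h4, Matrix.mul_neg, Matrix.neg_mul]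
  · obtain ⟨K, hK⟩ := hN.lipschitzWith_of_hasCompactSupport hc (by norm_num)
    simpa only [hj] using hW.stein N K hK hc d

end Crest.Agent.R238
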