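import Crest.Agent.R238.BMain
import Crest.Agent.R238.CIter
import Crest.Agent.R238.DMS

/-!
# R238 / DAll: existence of the smooth moment structure
-/

set_option autoImplicit false
open MeasureTheory Matrix Set Metric
open scoped RealInnerProductSpace ContDiff BigOperators

namespace Crest.Agent.R238

variable {n : ℕ}

theorem exists_MS (hn : 2 ≤ n) {α β : ℝ} {φ : E n → ℝ} (hP : Pot α β φ) :
    ∃ (c C : ℝ) (τ : E n → Mat n) (U : E n → Fin n → Mat n), MS φ c C τ U := by
  obtain ⟨c, C, u, G, hW⟩ := exists_weak hP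
  have hH := locHol_of_weak hn hP hW
  exact ⟨_, _, _, _, ms_of_c3 hW hH.1 (c3_of_locHol hP hW hH)⟩

end Crest.Agent.R238
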