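import Crest.Agent.R238.ARid
import Crest.Agent.R238.DAll

/-!
# R238 / ALog: log-concavity along a line of log-dilations

`a_s j = e^{-s z_j} a_j`, `F s = ∫ rho (ridge δ v a_s)`, `g_s = Σ z_j y_j v'(y_j)`,
`B_s = Σ z_j² (y_j v' + y_j² v'')` with `y_j = ⟪x, a_s j⟫`, `d/ds y_j = -z_j y_j`.
`hasDerivAt_integral_of_dominated_loc_of_deriv_le` twice (domination by
`K (1+|x|)² e^{-δ|x|²/2}`, `v ≥ 0`): `F' = ∫ρ g_s`, `F'' = ∫ρ (g_s² - B_s)`.  `ridge_var` +
`exists_MS` + `pot_ridge` give `F F'' ≤ F'²`, so `log F` is concave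
(`concaveOn_of_deriv2_nonpos`, or `F'/F` antitone).
-/

set_option autoImplicit false
open MeasureTheory Matrix Set Metric
open scoped RealInnerProductSpace ContDiff BigOperators

namespace Crest.Agent.R238

variable {n : ℕ}

/-- the dilated directions -/
noncomputable def alog_a {N : ℕ} (a : Fin N → E n) (z : Fin N → ℝ) (s : ℝ) : Fin N → E n :=
  fun j => Real.exp (-(s * z j)) • a j

/-- minus the first derivative of the potential -/
noncomputable def alog_g {N : ℕ} (v : ℝ → ℝ) (z : Fin N → ℝ) (a : Fin N → E n) (x : E n) : ℝ :=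
  ∑ j, z j * (⟪x, a j⟫ * deriv v ⟪x, a j⟫)

/-- the second derivative of the potential -/
noncomputable def alog_B {N : ℕ} (v : ℝ → ℝ) (z : Fin N → ℝ) (a : Fin N → E n) (x : E n) : ℝ :=
  ∑ j, z j ^ 2 * (⟪x, a j⟫ * deriv v ⟪x, a j⟫ + ⟪x, a j⟫ ^ 2 * deriv (deriv v) ⟪x, a j⟫)

section

variable {N : ℕ} {δ m : ℝ} {v : ℝ → ℝ}

theorem alog_cd1 (hv : Prof m v) : ContDiff ℝ 1 (deriv v) := by
  have h : ContDiff ℝ (1 + 1) v := by
    rw [one_add_one_eq_two]
    exact hv.cd
  exact (contDiff_succ_iff_deriv.1 h).2.2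

theorem alog_y (a : Fin N → E n) (z : Fin N → ℝ) (x : E n) (j : Fin N) (s : ℝ) :
    HasDerivAt (fun s => ⟪x, alog_a a z s j⟫) (-(z j * ⟪x, alog_a a z s j⟫)) s := by
  simp only [alog_a, inner_smul_right]
  have h := (((hasDerivAt_id s).mul_const (z j)).neg.exp).mul_const ⟪x, a j⟫
  refine h.congr_deriv ?_
  simp only [id, Pi.neg_apply]
  ring

theorem alog_d_rho (hv : Prof m v) (a : Fin N → E n) (z : Fin N → ℝ) (x : E n) (s : ℝ) :
    HasDerivAt (fun s => rho (ridge δ v (alog_a a z s)) x)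
      (rho (ridge δ v (alog_a a z s)) x * alog_g v z (alog_a a z s) x) s := by
  have hd : Differentiable ℝ v := hv.cd.differentiable (by norm_num)
  have h1 : HasDerivAt (fun s => ∑ j, v ⟪x, alog_a a z s j⟫)
      (∑ j, deriv v ⟪x, alog_a a z s j⟫ * -(z j * ⟪x, alog_a a z s j⟫)) s :=
    HasDerivAt.fun_sum fun j _ => (hd _).hasDerivAt.comp s (alog_y a z x j s)
  have h2 := (h1.const_add (δ / 2 * ‖x‖ ^ 2)).neg.exp
  refine h2.congr_deriv ?_
  simp only [rho, ridge, alog_g, Pi.neg_apply]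
  congr 1
  rw [← Finset.sum_neg_distrib]
  exact Finset.sum_congr rfl fun j _ => by ring

theorem alog_d_g (hv : Prof m v) (a : Fin N → E n) (z : Fin N → ℝ) (x : E n) (s : ℝ) :
    HasDerivAt (fun s => alog_g v z (alog_a a z s) x) (-alog_B v z (alog_a a z s) x) s := by
  have hd : Differentiable ℝ (deriv v) := (alog_cd1 hv).differentiable (by norm_num)
  have h1 : HasDerivAt (fun s => ∑ j, z j * (⟪x, alog_a a z s j⟫ * deriv v ⟪x, alog_a a z s j⟫))
      (∑ j, z j * (-(z j * ⟪x, alog_a a z s j⟫) * deriv v ⟪x, alog_a a z s j⟫ +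
        ⟪x, alog_a a z s j⟫ * (deriv (deriv v) ⟪x, alog_a a z s j⟫ * -(z j * ⟪x, alog_a a z s j⟫)))) s :=
    HasDerivAt.fun_sum fun j _ =>
      ((alog_y a z x j s).mul ((hd _).hasDerivAt.comp s (alog_y a z x j s))).const_mul (z j)
  refine h1.congr_deriv ?_
  simp only [alog_B]
  rw [← Finset.sum_neg_distrib]
  exact Finset.sum_congr rfl fun j _ => by ring

theorem alog_cont_g (hv : Prof m v) (z : Fin N → ℝ) (a : Fin N → E n) :
    Continuous (alog_g v z a) := by
  have h1 : Continuous (deriv v) := (alog_cd1 hv).continuous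
  unfold alog_g
  fun_prop

theorem alog_cont_B (hv : Prof m v) (z : Fin N → ℝ) (a : Fin N → E n) :
    Continuous (alog_B v z a) := by
  have h1 : Continuous (deriv v) := (alog_cd1 hv).continuous
  have h2 : Continuous (deriv (deriv v)) := (alog_cd1 hv).continuous_deriv le_rfl
  unfold alog_B
  fun_prop

theorem alog_inner_le {a : Fin N → E n} {K : ℝ} (hK : ∀ j, ‖a j‖ ≤ K) (x : E n) (j : Fin N) :
    |⟪x, a j⟫| ≤ K * ‖x‖ := by
  rw [mul_comm]
  exact (abs_real_inner_le_norm _ _).trans (mul_le_mul_of_nonneg_left (hK j) (norm_nonneg _))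

theorem alog_g_le (hv : Prof m v) (z : Fin N → ℝ) {a : Fin N → E n} {K : ℝ} (hK : ∀ j, ‖a j‖ ≤ K)
    (x : E n) : |alog_g v z a x| ≤ (∑ j, |z j|) * (K * ‖x‖ * m) := by
  rw [alog_g, Finset.sum_mul]
  refine (Finset.abs_sum_le_sum_abs _ _).trans (Finset.sum_le_sum fun j _ => ?_)
  rw [abs_mul, abs_mul]
  have h1 := alog_inner_le hK x j
  have h2 := hv.d1 ⟪x, a j⟫
  exact mul_le_mul_of_nonneg_left (mul_le_mul h1 h2 (abs_nonneg _) ((abs_nonneg _).trans h1))
    (abs_nonneg _)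

theorem alog_B_le (hv : Prof m v) (z : Fin N → ℝ) {a : Fin N → E n} {K : ℝ} (hK : ∀ j, ‖a j‖ ≤ K)
    (x : E n) : |alog_B v z a x| ≤ (∑ j, z j ^ 2) * (K * ‖x‖ * m + (K * ‖x‖) * (K * ‖x‖) * m) := by
  rw [alog_B, Finset.sum_mul]
  refine (Finset.abs_sum_le_sum_abs _ _).trans (Finset.sum_le_sum fun j _ => ?_)
  rw [abs_mul, abs_of_nonneg (sq_nonneg (z j))]
  refine mul_le_mul_of_nonneg_left ((abs_add_le _ _).trans (add_le_add ?_ ?_)) (sq_nonneg _)
  · rw [abs_mul]
    have h1 := alog_inner_le hK x j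
    exact mul_le_mul h1 (hv.d1 _) (abs_nonneg _) ((abs_nonneg _).trans h1)
  · have h1 := alog_inner_le hK x j
    have h0 := (abs_nonneg _).trans h1
    rw [abs_mul, abs_of_nonneg (hv.d2 _), sq, abs_mul]
    exact mul_le_mul (mul_le_mul h1 h1 (abs_nonneg _) h0) (hv.d2' _) (hv.d2 _) (mul_nonneg h0 h0)

theorem alog_a_le (a : Fin N → E n) (z : Fin N → ℝ) (s₀ : ℝ) :
    ∃ K : ℝ, ∀ s ∈ ball s₀ 1, ∀ j, ‖alog_a a z s j‖ ≤ K := by
  refine ⟨∑ j, Real.exp ((|s₀| + 1) * |z j|) * ‖a j‖, fun s hs j => ?_⟩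
  refine le_trans ?_ (Finset.single_le_sum (f := fun j => Real.exp ((|s₀| + 1) * |z j|) * ‖a j‖)
    (fun j _ => by positivity) (Finset.mem_univ j))
  rw [alog_a, norm_smul, Real.norm_eq_abs, abs_of_pos (Real.exp_pos _)]
  refine mul_le_mul_of_nonneg_right (Real.exp_le_exp.2 ?_) (norm_nonneg _)
  have h1 : |s| ≤ |s₀| + 1 := by
    have h2 : |s - s₀| < 1 := by simpa [Real.dist_eq] using hs
    have h3 := abs_add_le (s - s₀) s₀
    rw [sub_add_cancel] at h3
    linarith
  calc -(s * z j) ≤ |s * z j| := neg_le_abs _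
    _ = |s| * |z j| := abs_mul _ _
    _ ≤ _ := mul_le_mul_of_nonneg_right h1 (abs_nonneg _)

theorem alog_rho_le (hv : Prof m v) (a : Fin N → E n) (x : E n) :
    rho (ridge δ v a) x ≤ rho (fun x : E n => δ / 2 * ‖x‖ ^ 2) x := by
  refine Real.exp_le_exp.2 (neg_le_neg ?_)
  exact le_add_of_nonneg_right (Finset.sum_nonneg fun j _ => hv.nn _)

theorem alog_gauss (hδ : 0 < δ) {h : E n → ℝ} (hc : Continuous h) (hh : PolyG h) :
    Integrable fun x => rho (fun x : E n => δ / 2 * ‖x‖ ^ 2) x * h x :=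
  integrable_rho_of_lower (k := 0) (b := 0) (by fun_prop) hδ (fun x => by simp)
    hc.aestronglyMeasurable hh

theorem alog_polyG_const (k : ℝ) : PolyG fun _ : E n => k := polyG_of_bdd (M := |k|) fun _ => le_rfl

theorem alog_polyG_1 (k K m : ℝ) : PolyG fun x : E n => k * (K * ‖x‖ * m) :=
  (alog_polyG_const k).mul (((alog_polyG_const K).mul polyG_norm).mul (alog_polyG_const m))

theorem alog_polyG_2 (k K m : ℝ) :
    PolyG fun x : E n => k * (K * ‖x‖ * m + (K * ‖x‖) * (K * ‖x‖) * m) :=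
  (alog_polyG_const k).mul ((((alog_polyG_const K).mul polyG_norm).mul (alog_polyG_const m)).add
    ((((alog_polyG_const K).mul polyG_norm).mul ((alog_polyG_const K).mul polyG_norm)).mul
      (alog_polyG_const m)))

theorem alog_norm_le (a : Fin N → E n) (j : Fin N) : ‖a j‖ ≤ ∑ j, ‖a j‖ :=
  Finset.single_le_sum (f := fun j => ‖a j‖) (fun _ _ => norm_nonneg _) (Finset.mem_univ j)

theorem alog_polyG_g (hv : Prof m v) (z : Fin N → ℝ) (a : Fin N → E n) : PolyG (alog_g v z a) :=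
  (alog_polyG_1 _ _ m).of_le fun x => (alog_g_le hv z (alog_norm_le a) x).trans (le_abs_self _)

theorem alog_polyG_B (hv : Prof m v) (z : Fin N → ℝ) (a : Fin N → E n) : PolyG (alog_B v z a) :=
  (alog_polyG_2 _ _ m).of_le fun x => (alog_B_le hv z (alog_norm_le a) x).trans (le_abs_self _)

theorem alog_D1 (hδ : 0 < δ) (hv : Prof m v) (a : Fin N → E n) (z : Fin N → ℝ) (s : ℝ) :
    HasDerivAt (fun s => ∫ x, rho (ridge δ v (alog_a a z s)) x)
      (∫ x, rho (ridge δ v (alog_a a z s)) x * alog_g v z (alog_a a z s) x) s := by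
  obtain ⟨K, hK⟩ := alog_a_le a z s
  refine (hasDerivAt_integral_of_dominated_loc_of_deriv_le (ball_mem_nhds s one_pos)
    (F := fun s x => rho (ridge δ v (alog_a a z s)) x)
    (F' := fun s x => rho (ridge δ v (alog_a a z s)) x * alog_g v z (alog_a a z s) x)
    (bound := fun x => rho (fun x : E n => δ / 2 * ‖x‖ ^ 2) x * ((∑ j, |z j|) * (K * ‖x‖ * m)))
    (Filter.Eventually.of_forall fun r =>
      (pot_ridge hδ hv _).continuous_rho.aestronglyMeasurable)
    (pot_ridge hδ hv _).integrable_rho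
    ((pot_ridge hδ hv _).continuous_rho.mul (alog_cont_g hv z _)).aestronglyMeasurable
    (Filter.Eventually.of_forall fun x r hr => ?_)
    (alog_gauss hδ (by fun_prop) (alog_polyG_1 _ _ _))
    (Filter.Eventually.of_forall fun x r _ => alog_d_rho hv a z x r)).2
  rw [Real.norm_eq_abs, abs_mul, abs_of_pos (rho_pos _ _)]
  exact mul_le_mul (alog_rho_le hv _ x) (alog_g_le hv z (hK r hr) x) (abs_nonneg _) (rho_pos _ _).le

theorem alog_D2 (hδ : 0 < δ) (hv : Prof m v) (a : Fin N → E n) (z : Fin N → ℝ) (s : ℝ) :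
    HasDerivAt (fun s => ∫ x, rho (ridge δ v (alog_a a z s)) x * alog_g v z (alog_a a z s) x)
      (∫ x, rho (ridge δ v (alog_a a z s)) x *
        (alog_g v z (alog_a a z s) x * alog_g v z (alog_a a z s) x - alog_B v z (alog_a a z s) x)) s := by
  obtain ⟨K, hK⟩ := alog_a_le a z s
  refine (hasDerivAt_integral_of_dominated_loc_of_deriv_le (ball_mem_nhds s one_pos)
    (F := fun s x => rho (ridge δ v (alog_a a z s)) x * alog_g v z (alog_a a z s) x)
    (F' := fun s x => rho (ridge δ v (alog_a a z s)) x *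
      (alog_g v z (alog_a a z s) x * alog_g v z (alog_a a z s) x - alog_B v z (alog_a a z s) x))
    (bound := fun x => rho (fun x : E n => δ / 2 * ‖x‖ ^ 2) x *
      ((∑ j, |z j|) * (K * ‖x‖ * m) * ((∑ j, |z j|) * (K * ‖x‖ * m)) +
        (∑ j, z j ^ 2) * (K * ‖x‖ * m + (K * ‖x‖) * (K * ‖x‖) * m)))
    (Filter.Eventually.of_forall fun r =>
      ((pot_ridge hδ hv _).continuous_rho.mul (alog_cont_g hv z _)).aestronglyMeasurable)
    ((pot_ridge hδ hv _).integrable (alog_cont_g hv z _).aestronglyMeasurable (alog_polyG_g hv z _))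
    ((pot_ridge hδ hv _).continuous_rho.mul
      (((alog_cont_g hv z _).mul (alog_cont_g hv z _)).sub (alog_cont_B hv z _))).aestronglyMeasurable
    (Filter.Eventually.of_forall fun x r hr => ?_)
    (alog_gauss hδ (by fun_prop)
      (((alog_polyG_1 _ _ _).mul (alog_polyG_1 _ _ _)).add (alog_polyG_2 _ _ _)))
    (Filter.Eventually.of_forall fun x r _ => ?_)).2
  · rw [Real.norm_eq_abs, abs_mul, abs_of_pos (rho_pos _ _)]
    refine mul_le_mul (alog_rho_le hv _ x) ((abs_sub _ _).trans (add_le_add ?_ ?_)) (abs_nonneg _)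
      (rho_pos _ _).le
    · have h1 := alog_g_le hv z (hK r hr) x
      rw [abs_mul]
      exact mul_le_mul h1 h1 (abs_nonneg _) ((abs_nonneg _).trans h1)
    · exact alog_B_le hv z (hK r hr) x
  · refine ((alog_d_rho (δ := δ) hv a z x r).mul (alog_d_g hv a z x r)).congr_deriv ?_
    ring

/-- `F F'' ≤ F'²` -/
theorem alog_var (hn : 2 ≤ n) (hδ : 0 < δ) (hv : Prof m v) (a : Fin N → E n) (z : Fin N → ℝ) :
    (∫ x, rho (ridge δ v a) x * (alog_g v z a x * alog_g v z a x - alog_B v z a x)) *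
        (∫ x, rho (ridge δ v a) x) ≤
      (∫ x, rho (ridge δ v a) x * alog_g v z a x) * ∫ x, rho (ridge δ v a) x * alog_g v z a x := by
  have hP := pot_ridge hδ hv a
  obtain ⟨c, C, τ, U, hM⟩ := exists_MS hn hP
  have h : ∫ x, rho (ridge δ v a) x * (alog_g v z a x - mean (ridge δ v a) (alog_g v z a)) ^ 2 ≤
      ∫ x, rho (ridge δ v a) x * alog_B v z a x := ridge_var hδ hv a z hM
  have i0 := hP.integrable_rho
  have i1 := hP.integrable (alog_cont_g hv z a).aestronglyMeasurable (alog_polyG_g hv z a)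
  have i2 : Integrable fun x => rho (ridge δ v a) x * (alog_g v z a x * alog_g v z a x) :=
    hP.integrable ((alog_cont_g hv z a).mul (alog_cont_g hv z a)).aestronglyMeasurable
      ((alog_polyG_g hv z a).mul (alog_polyG_g hv z a))
  have i3 := hP.integrable (alog_cont_B hv z a).aestronglyMeasurable (alog_polyG_B hv z a)
  have hZ := hP.Z_pos
  set μ := mean (ridge δ v a) (alog_g v z a) with hμ
  have e1 : ∫ x, rho (ridge δ v a) x * (alog_g v z a x - μ) ^ 2 =
      (∫ x, rho (ridge δ v a) x * (alog_g v z a x * alog_g v z a x)) -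
        2 * μ * (∫ x, rho (ridge δ v a) x * alog_g v z a x) + μ ^ 2 * ∫ x, rho (ridge δ v a) x := by
    have i4 : Integrable fun x => rho (ridge δ v a) x * (alog_g v z a x * alog_g v z a x) -
        2 * μ * (rho (ridge δ v a) x * alog_g v z a x) := i2.sub (i1.const_mul _)
    rw [← integral_const_mul, ← integral_const_mul, ← integral_sub i2 (i1.const_mul _),
      ← integral_add i4 (i0.const_mul _)]
    exact integral_congr_ae (Filter.Eventually.of_forall fun x => by simp only []; ring)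
  have e2 : ∫ x, rho (ridge δ v a) x * (alog_g v z a x * alog_g v z a x - alog_B v z a x) =
      (∫ x, rho (ridge δ v a) x * (alog_g v z a x * alog_g v z a x)) -
        ∫ x, rho (ridge δ v a) x * alog_B v z a x := by
    rw [← integral_sub i2 i3]
    exact integral_congr_ae (Filter.Eventually.of_forall fun x => by simp only []; ring)
  have e3 : μ * ∫ x, rho (ridge δ v a) x = ∫ x, rho (ridge δ v a) x * alog_g v z a x := by
    rw [hμ, mean]
    exact div_mul_cancel₀ _ hZ.ne'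
  rw [e1] at h
  rw [e2, ← e3]
  rw [← e3] at h
  nlinarith [mul_le_mul_of_nonneg_right h hZ.le]

theorem alog_concave (hn : 2 ≤ n) (hδ : 0 < δ) (hv : Prof m v) (a : Fin N → E n) (z : Fin N → ℝ) :
    ConcaveOn ℝ univ fun s => Real.log (∫ x, rho (ridge δ v (alog_a a z s)) x) := by
  have hZ : ∀ s, 0 < ∫ x, rho (ridge δ v (alog_a a z s)) x := fun s => (pot_ridge hδ hv _).Z_pos
  have h1 : ∀ s, HasDerivAt (fun s => Real.log (∫ x, rho (ridge δ v (alog_a a z s)) x))
      ((∫ x, rho (ridge δ v (alog_a a z s)) x * alog_g v z (alog_a a z s) x) /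
        ∫ x, rho (ridge δ v (alog_a a z s)) x) s := fun s => (alog_D1 hδ hv a z s).log (hZ s).ne'
  refine Antitone.concaveOn_univ_of_deriv (fun s => (h1 s).differentiableAt) ?_
  rw [funext fun s => (h1 s).deriv]
  refine antitone_of_hasDerivAt_nonpos
    (fun s => (alog_D2 hδ hv a z s).fun_div (alog_D1 hδ hv a z s) (hZ s).ne') fun s => ?_
  exact div_nonpos_of_nonpos_of_nonneg (sub_nonpos.2 (alog_var hn hδ hv _ z)) (sq_nonneg _)

end

theorem ridge_logconc (hn : 2 ≤ n) {N : ℕ} {δ m : ℝ} {v : ℝ → ℝ} (hδ : 0 < δ) (hv : Prof m v)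
    (a : Fin N → E n) (z : Fin N → ℝ) {t : ℝ} (h0 : 0 ≤ t) (h1 : t ≤ 1) :
    (∫ x, rho (ridge δ v a) x) ^ (1 - t) *
        (∫ x, rho (ridge δ v fun j => Real.exp (-z j) • a j) x) ^ t ≤
      ∫ x, rho (ridge δ v fun j => Real.exp (-(t * z j)) • a j) x := by
  have hZ : ∀ b : Fin N → E n, 0 < ∫ x, rho (ridge δ v b) x := fun b => (pot_ridge hδ hv b).Z_pos
  have h := (alog_concave hn hδ hv a z).2 (mem_univ 0) (mem_univ 1) (sub_nonneg.2 h1) h0
    (sub_add_cancel 1 t)
  have e0 : alog_a a z 0 = a := by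
    funext j
    simp [alog_a]
  have e1 : alog_a a z 1 = fun j => Real.exp (-z j) • a j := by
    funext j
    simp [alog_a]
  simp only [smul_eq_mul, mul_zero, mul_one, zero_add, e0, e1] at h
  rw [Real.rpow_def_of_pos (hZ _), Real.rpow_def_of_pos (hZ _), ← Real.exp_add,
    ← Real.le_log_iff_exp_le (hZ _), mul_comm _ (1 - t), mul_comm _ t]
  exact h

end Crest.Agent.R238
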