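import Crest.Agent.R238.Defs

/-!
# R238 / AOne: the case `n = 1`

`K ⊆ {|x 0| ≤ a}`, `a = h_K(e₀) = h_K(-e₀) > 0`, so `volume K ≤ 2a` (`PiLp.volume_preserving_toLp`,
`Real.volume_pi_Icc`/`volume_pi_closedBall`, or `EuclideanSpace.volume_closedBall`: in dimension one
`{|x 0| ≤ a} = closedBall 0 a`); the sphere is `{±e₀}` so the set on the right contains
`closedBall 0 (a^{1-t} b^t)`, of volume `2 a^{1-t} b^t`.
-/

set_option autoImplicit false
open MeasureTheory Matrix Set Metric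
open scoped RealInnerProductSpace ContDiff BigOperators

namespace Crest.Agent.R238

variable {n : ℕ}

theorem aone_inner (y u : E 1) : |⟪y, u⟫| = ‖y‖ * ‖u‖ := by
  simp [EuclideanSpace.norm_eq, Real.sqrt_sq_eq_abs, PiLp.inner_apply, abs_mul, mul_comm]

theorem aone_rad {K : Set (E 1)} (hKc : IsCompact K) (hKi : (interior K).Nonempty)
    (hKs : ∀ x ∈ K, -x ∈ K) : ∃ a : ℝ, 0 ≤ a ∧ K ⊆ closedBall 0 a ∧
      ∀ u ∈ sphere (0 : E 1) 1, a ≤ sSup ((fun y => inner ℝ y u) '' K) := by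
  obtain ⟨y, hy, hmax⟩ := hKc.exists_isMaxOn (hKi.mono interior_subset) continuous_norm.continuousOn
  refine ⟨‖y‖, norm_nonneg _, fun x hx => mem_closedBall_zero_iff.2 (hmax hx), fun u hu => ?_⟩
  have hb : BddAbove ((fun y => inner ℝ y u) '' K) :=
    (hKc.image (continuous_id.inner continuous_const)).bddAbove
  have h1 := aone_inner y u
  rw [mem_sphere_zero_iff_norm.1 hu, mul_one] at h1
  rcases abs_cases ⟪y, u⟫ with h | h
  · exact le_csSup hb ⟨y, hy, by linarith [h.1]⟩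
  · exact le_csSup hb ⟨-y, hKs y hy, by simp only [inner_neg_left]; linarith [h.1]⟩

theorem logBM_one (hn : n = 1)
    (K L : Set (EuclideanSpace ℝ (Fin n)))
    (hKc : IsCompact K) (hKv : Convex ℝ K) (hKi : (interior K).Nonempty) (hKs : ∀ x ∈ K, -x ∈ K)
    (hLc : IsCompact L) (hLv : Convex ℝ L) (hLi : (interior L).Nonempty) (hLs : ∀ x ∈ L, -x ∈ L)
    (t : ℝ) (ht0 : 0 ≤ t) (ht1 : t ≤ 1) :
    volume K ^ (1 - t) * volume L ^ t ≤
      volume (⋂ u ∈ Metric.sphere (0 : EuclideanSpace ℝ (Fin n)) 1,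
        {x : EuclideanSpace ℝ (Fin n) | inner ℝ x u ≤
          sSup ((fun y => inner ℝ y u) '' K) ^ (1 - t) * sSup ((fun y => inner ℝ y u) '' L) ^ t}) := by
  subst hn
  obtain ⟨a, ha, hKa, ha'⟩ := aone_rad hKc hKi hKs
  obtain ⟨b, hb, hLb, hb'⟩ := aone_rad hLc hLi hLs
  have h1t : 0 ≤ 1 - t := by linarith
  have vol : ∀ r : ℝ, 0 ≤ r → volume (closedBall (0 : E 1) r) =
      ENNReal.ofReal r * volume (ball (0 : E 1) 1) := fun r hr => by
    rw [Measure.addHaar_closedBall _ _ hr]; simp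
  calc _ ≤ volume (closedBall (0 : E 1) a) ^ (1 - t) * volume (closedBall (0 : E 1) b) ^ t :=
        mul_le_mul' (ENNReal.rpow_le_rpow (measure_mono hKa) h1t)
          (ENNReal.rpow_le_rpow (measure_mono hLb) ht0)
    _ = volume (closedBall (0 : E 1) (a ^ (1 - t) * b ^ t)) := by
        rw [vol a ha, vol b hb, vol _ (by positivity), ENNReal.mul_rpow_of_nonneg _ _ h1t,
          ENNReal.mul_rpow_of_nonneg _ _ ht0, ENNReal.ofReal_rpow_of_nonneg ha h1t,
          ENNReal.ofReal_rpow_of_nonneg hb ht0, ENNReal.ofReal_mul (by positivity), mul_mul_mul_comm,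
          ← ENNReal.rpow_add_of_nonneg _ _ h1t ht0, sub_add_cancel, ENNReal.rpow_one]
    _ ≤ _ := by
        refine measure_mono fun x hx => mem_iInter₂.2 fun u hu => ?_
        have h1 := aone_inner x u
        rw [mem_sphere_zero_iff_norm.1 hu, mul_one] at h1
        refine ((le_abs_self _).trans (h1.le.trans (mem_closedBall_zero_iff.1 hx))).trans ?_
        exact mul_le_mul (Real.rpow_le_rpow ha (ha' u hu) h1t) (Real.rpow_le_rpow hb (hb' u hu) ht0)
          (by positivity) (Real.rpow_nonneg (ha.trans (ha' u hu)) _)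

end Crest.Agent.R238
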