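import Crest.Agent.R238.AP1

/-!
# A priori estimates: coordinates, adapted frames for a solution, differentiated equations
-/

set_option autoImplicit false
set_option maxSynthPendingDepth 3

noncomputable section

open scoped ContDiff
open Set Filter Topology Matrix

namespace Crest.Agent.R238.AP

variable {E : Type*} [NormedAddCommGroup E] [NormedSpace ℝ E]
variable {ι : Type*} [Fintype ι] [DecidableEq ι]

/-- the inner product for which `b` is orthonormal -/
def ip (b : Module.Basis ι ℝ E) : E →ₗ[ℝ] E →ₗ[ℝ] ℝ :=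
  LinearMap.mk₂ ℝ (fun z w => ∑ i, b.repr z i * b.repr w i)
    (fun z z' w => by simp [add_mul, Finset.sum_add_distrib])
    (fun c z w => by simp [Finset.mul_sum, mul_assoc])
    (fun z w w' => by simp [mul_add, Finset.sum_add_distrib])
    (fun c z w => by simp [Finset.mul_sum, mul_left_comm])

/-- `|x|²/2` -/
def qd (b : Module.Basis ι ℝ E) (x : E) : ℝ := ip b x x / 2

/-- Hessian matrix in a family of directions -/
def hess (v : ι → E) (u : E → ℝ) (x : E) : Matrix ι ι ℝ :=
  Matrix.of fun i j => dd (v i) (dd (v j) u) x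

variable (b : Module.Basis ι ℝ E)

omit [DecidableEq ι] in
theorem ip_apply (z w : E) : ip b z w = ∑ i, b.repr z i * b.repr w i := rfl

omit [DecidableEq ι] in
theorem ip_symm (z w : E) : ip b z w = ip b w z := by
  simp only [ip_apply, mul_comm]

omit [DecidableEq ι] in
theorem ip_nonneg (z : E) : 0 ≤ ip b z z := Finset.sum_nonneg fun _ _ => mul_self_nonneg _

omit [DecidableEq ι] in
theorem qd_nonneg (z : E) : 0 ≤ qd b z := div_nonneg (ip_nonneg b z) zero_le_two

omit [DecidableEq ι] in
theorem ip_pos {z : E} (hz : z ≠ 0) : 0 < ip b z z := by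
  refine lt_of_le_of_ne (ip_nonneg b z) fun h => hz ?_
  have h2 := (Finset.sum_eq_zero_iff_of_nonneg fun i _ => mul_self_nonneg (b.repr z i)).mp h.symm
  refine b.repr.injective ?_
  ext i
  simpa using h2 i (Finset.mem_univ i)

omit [DecidableEq ι] in
theorem ip_cs (z w : E) : ip b z w ^ 2 ≤ ip b z z * ip b w w := by
  simp only [ip_apply, ← sq]
  exact Finset.sum_mul_sq_le_sq_mul_sq _ _ _

theorem ip_basis (i j : ι) : ip b (b i) (b j) = if i = j then 1 else 0 := by
  simp [ip_apply, Finsupp.single_apply]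

theorem ip_comb (ξ η : ι → ℝ) : ip b (∑ k, ξ k • b k) (∑ k, η k • b k) = ∑ k, ξ k * η k := by
  simp [ip_apply, Finsupp.single_apply, mul_comm]

omit [DecidableEq ι] in
theorem bilin_comb (B : E →L[ℝ] E →L[ℝ] ℝ) (v : ι → E) (ξ η : ι → ℝ) :
    B (∑ k, ξ k • v k) (∑ k, η k • v k) = ∑ k, ∑ l, ξ k * η l * B (v k) (v l) := by
  simp only [map_sum, map_smul, _root_.sum_apply, _root_.smul_apply,
    smul_eq_mul, Finset.mul_sum]
  rw [Finset.sum_comm]
  exact Finset.sum_congr rfl fun k _ => Finset.sum_congr rfl fun l _ => by ring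

section fd

variable [FiniteDimensional ℝ E]

/-- `ip b · v` as a continuous linear map -/
def ipL (v : E) : E →L[ℝ] ℝ := LinearMap.toContinuousLinearMap (ip b v)

omit [DecidableEq ι] in
theorem ipL_apply (v x : E) : ipL b v x = ip b v x := rfl

omit [DecidableEq ι] in
theorem sm_ip (v : E) : Sm (fun x => ip b v x) := (ipL b v).contDiff

omit [DecidableEq ι] in
theorem dd_ip (v w : E) : dd w (fun x => ip b v x) = fun _ => ip b v w := by
  funext x
  exact congrArg (fun L : E →L[ℝ] ℝ => L w) (ipL b v).fderiv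

omit [FiniteDimensional ℝ E] in
theorem qd_eq : qd b = fun x => (1 / 2 : ℝ) * ∑ i, ip b (b i) x * ip b (b i) x := by
  funext x
  have : ∀ i, ip b (b i) x = b.repr x i := fun i => by
    simp [ip_apply, Finsupp.single_apply]
  simp only [this, qd, ip_apply b x x]
  ring

theorem sm_qd : Sm (qd b) := by
  rw [qd_eq]
  exact contDiff_const.mul (ContDiff.sum fun i _ => (sm_ip b _).mul (sm_ip b _))

theorem dd_qd (v : E) : dd v (qd b) = fun x => ip b v x := by
  funext x
  have h1 := hasDerivAt_line (sm_qd b) x v 0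
  have e : (fun t : ℝ => qd b (x + t • v)) =
      fun t => qd b x + t * ip b v x + t * t * (ip b v v / 2) := by
    funext t
    simp only [qd, map_add, map_smul, LinearMap.add_apply, LinearMap.smul_apply, smul_eq_mul,
      ip_symm b x v]
    ring
  rw [e] at h1
  have h2 : HasDerivAt (fun t : ℝ => qd b x + t * ip b v x + t * t * (ip b v v / 2))
      (ip b v x) 0 := by
    have := (((hasDerivAt_id (0 : ℝ)).mul_const (ip b v x)).const_add (qd b x)).add
      (((hasDerivAt_id (0 : ℝ)).mul (hasDerivAt_id (0 : ℝ))).mul_const (ip b v v / 2))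
    refine HasDerivAt.congr_deriv this ?_
    simp
  simpa using h1.unique h2

theorem D2_qd (x v w : E) : D2 (qd b) x v w = ip b w v := by
  rw [← dd_dd (sm_qd b), dd_qd, dd_ip]

theorem eu_qd (x : E) : eu (qd b) x = 2 * qd b x := by
  rw [eu_eq, dd_qd, qd]
  ring

omit [DecidableEq ι] in
theorem qd_coercive (r : ℝ) : ∀ᶠ x in cocompact E, r ≤ qd b x := by
  have : ProperSpace E := FiniteDimensional.proper_real E
  set K : ℝ := ∑ i, ‖b i‖ + 1 with hK
  have hK0 : 0 < K := by positivity
  have hb : ∀ x : E, ‖x‖ ≤ K * Real.sqrt (ip b x x) := by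
    intro x
    calc ‖x‖ = ‖∑ i, b.repr x i • b i‖ := by rw [b.sum_repr]
      _ ≤ ∑ i, ‖b.repr x i • b i‖ := norm_sum_le _ _
      _ ≤ ∑ i, ‖b i‖ * Real.sqrt (ip b x x) := by
        refine Finset.sum_le_sum fun i _ => ?_
        rw [norm_smul, mul_comm, Real.norm_eq_abs]
        refine mul_le_mul_of_nonneg_left (Real.abs_le_sqrt ?_) (norm_nonneg _)
        rw [ip_apply, sq]
        exact Finset.single_le_sum (f := fun j => b.repr x j * b.repr x j)
          (fun j _ => mul_self_nonneg _) (Finset.mem_univ i)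
      _ ≤ K * Real.sqrt (ip b x x) := by
        rw [← Finset.sum_mul]
        exact mul_le_mul_of_nonneg_right (by linarith) (Real.sqrt_nonneg _)
  filter_upwards [(tendsto_norm_cocompact_atTop (E := E)).eventually_ge_atTop
    (K * Real.sqrt (2 * r))] with x hx
  have h1 : Real.sqrt (2 * r) ≤ Real.sqrt (ip b x x) :=
    le_of_mul_le_mul_left (hx.trans (hb x)) hK0
  have h2 := (Real.sqrt_le_sqrt_iff (ip_nonneg b x)).mp h1
  unfold qd
  linarith

end fd

variable {b}

theorem hess_posDef {u : E → ℝ} (hu : Sm u) {c0 : ℝ} (hc0 : 0 < c0)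
    (hpos : ∀ x z, c0 * ip b z z ≤ D2 u x z z) (x : E) : (hess b u x).PosDef := by
  refine Matrix.PosDef.of_dotProduct_mulVec_pos ?_ fun ξ hξ => ?_
  · ext i j
    simp [hess, dd_dd hu, D2_symm hu x (b i) (b j)]
  · have h1 := hpos x (∑ k, ξ k • b k)
    rw [bilin_comb, ip_comb] at h1
    have h2 : 0 < ∑ k, ξ k * ξ k := by
      obtain ⟨k, hk⟩ := Function.ne_iff.mp hξ
      exact Finset.sum_pos' (fun k _ => mul_self_nonneg _)
        ⟨k, Finset.mem_univ k, mul_self_pos.mpr hk⟩
    have h3 : star ξ ⬝ᵥ (hess b u x) *ᵥ ξ = ∑ k, ∑ l, ξ k * ξ l * D2 u x (b k) (b l) := by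
      simp only [dotProduct, Matrix.mulVec, hess, Matrix.of_apply, dd_dd hu, star_trivial,
        Finset.mul_sum]
      exact Finset.sum_congr rfl fun k _ => Finset.sum_congr rfl fun l _ => by ring
    rw [h3]
    exact lt_of_lt_of_le (mul_pos hc0 h2) h1

variable (b) in
/-- an adapted frame at `x` for a solution of the Monge–Ampère equation -/
structure Frame (u φ : E → ℝ) (x : E) where
  v : ι → E
  lam : ι → ℝ
  pos : ∀ i, 0 < lam i
  orth : ∀ i j, D2 u x (v i) (v j) = if i = j then 1 else 0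
  nrm : ∀ i j, ip b (v i) (v j) = if i = j then (lam i)⁻¹ else 0
  det : Real.log (hess b u x).det = ∑ i, Real.log (lam i)
  span : ∀ z, ∑ i, D2 u x z (v i) • v i = z
  e1 : ∀ e, eu (dd e u) x - dd e φ x = ∑ i, D3 u x (v i) (v i) e
  e2 : ∀ e, eu (dd e (dd e u)) x + D2 u x e e - D2 φ x e e =
    ∑ i, D2 (dd e (dd e u)) x (v i) (v i) - ∑ i, ∑ j, D3 u x (v i) (v j) e ^ 2
  e3 : ∀ e, eu (dd e (dd e (dd e u))) x + 2 * D3 u x e e e - D3 φ x e e e =
    ∑ i, D2 (dd e (dd e (dd e u))) x (v i) (v i) -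
      3 * ∑ i, ∑ j, D3 u x (v i) (v j) e * D2 (dd e (dd e u)) x (v i) (v j) +
      2 * ∑ i, ∑ j, ∑ k, D3 u x (v i) (v j) e * D3 u x (v j) (v k) e * D3 u x (v k) (v i) e

theorem dd_comm3 {u : E → ℝ} (hu : Sm u) (e a c : E) :
    dd e (dd a (dd c u)) = dd a (dd c (dd e u)) := by
  rw [dd_comm (hu.dd c) e a, dd_comm hu e c]

theorem exists_frame {u φ : E → ℝ} (hu : Sm u) (hφ : Sm φ) {c0 : ℝ} (hc0 : 0 < c0)
    (hpos : ∀ x z, c0 * ip b z z ≤ D2 u x z z)
    (hma : ∀ x, Real.log (hess b u x).det = eu u x - u x - φ x) (x : E) :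
    Nonempty (Frame b u φ x) := by
  obtain ⟨P, lam, hl, hP, hPP, hdet, hinv⟩ := exists_frame_matrix _ (hess_posDef hu hc0 hpos x)
  set v : ι → E := fun i => ∑ k, P k i • b k with hv
  have hH : ∀ y, hess v u y = Pᵀ * hess b u y * P := by
    intro y
    ext i j
    simp only [hess, Matrix.of_apply, dd_dd hu, hv, bilin_comb, Matrix.mul_apply,
      Matrix.transpose_apply, Finset.sum_mul]
    rw [Finset.sum_comm]
    exact Finset.sum_congr rfl fun k _ => Finset.sum_congr rfl fun l _ => by ring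
  have hI : hess v u x = 1 := by rw [hH, hP]
  have hdP : P.det ≠ 0 := by
    intro h
    have := congrArg Matrix.det hP
    simp [h] at this
  have hdH : ∀ y, (hess b u y).det ≠ 0 := fun y => (hess_posDef hu hc0 hpos y).det_pos.ne'
  have hdv : ∀ y, (hess v u y).det = (hess b u y).det * (P.det * P.det) := by
    intro y
    rw [hH, Matrix.det_mul, Matrix.det_mul, Matrix.det_transpose]
    ring
  set κ := Real.log (P.det * P.det) with hκ
  set ρ : E → ℝ := fun y => eu u y - u y - φ y + κ with hρ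
  have hρs : Sm ρ := ((hu.eu.sub hu).sub hφ).add contDiff_const
  have hlog : ∀ y, Real.log (hess v u y).det = ρ y := by
    intro y
    rw [hdv, Real.log_mul (hdH y) (mul_ne_zero hdP hdP), hma]
  have key : ∀ e : E, dd e ρ x = ∑ i, D3 u x (v i) (v i) e ∧
      dd e (dd e ρ) x = ∑ i, D2 (dd e (dd e u)) x (v i) (v i) -
        ∑ i, ∑ j, D3 u x (v i) (v j) e ^ 2 ∧
      dd e (dd e (dd e ρ)) x = ∑ i, D2 (dd e (dd e (dd e u))) x (v i) (v i) -
      3 * ∑ i, ∑ j, D3 u x (v i) (v j) e * D2 (dd e (dd e u)) x (v i) (v j) +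
      2 * ∑ i, ∑ j, ∑ k, D3 u x (v i) (v j) e * D3 u x (v j) (v k) e * D3 u x (v k) (v i) e := by
    intro e
    have hM : ∀ (f : E → ℝ), Sm f → ∀ s, MD (fun t : ℝ => hess v f (x + t • e))
        (hess v (dd e f) (x + s • e)) s := by
      intro f hf s i j
      have := hasDerivAt_line ((hf.dd (v j)).dd (v i)) x e s
      rw [dd_comm3 hf] at this
      exact this
    have h := logdet3 (M0 := fun t : ℝ => hess v u (x + t • e))
      (M1 := fun t : ℝ => hess v (dd e u) (x + t • e))
      (M2 := fun t : ℝ => hess v (dd e (dd e u)) (x + t • e))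
      (M3 := fun t : ℝ => hess v (dd e (dd e (dd e u))) (x + t • e))
      (r0 := fun t : ℝ => ρ (x + t • e)) (r1 := fun t : ℝ => dd e ρ (x + t • e))
      (r2 := fun t : ℝ => dd e (dd e ρ) (x + t • e))
      (r3 := fun t : ℝ => dd e (dd e (dd e ρ)) (x + t • e))
      (hM u hu) (hM _ (hu.dd e)) (hM _ ((hu.dd e).dd e))
      (fun s => by rw [hdv]; exact mul_ne_zero (hdH _) (mul_ne_zero hdP hdP))
      (fun s => hlog _) (hasDerivAt_line hρs x e) (hasDerivAt_line (hρs.dd e) x e)
      (hasDerivAt_line ((hρs.dd e).dd e) x e) (by simpa using hI)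
    simp only [zero_smul, add_zero, Matrix.trace, Matrix.diag_apply, Matrix.mul_apply, hess,
      Matrix.of_apply, dd_dd_dd hu, dd_dd ((hu.dd e).dd e), dd_dd (((hu.dd e).dd e).dd e),
      Finset.sum_mul] at h
    obtain ⟨h1, h2, h3⟩ := h
    refine ⟨h1, ?_, ?_⟩
    · rw [h2]
      congr 1
      refine Finset.sum_congr rfl fun i _ => Finset.sum_congr rfl fun j _ => ?_
      rw [D3_symm12 hu x (v j) (v i), sq]
    · rw [h3]
      congr 2
      · congr 1
        refine Finset.sum_congr rfl fun i _ => Finset.sum_congr rfl fun j _ => ?_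
        rw [D2_symm ((hu.dd e).dd e) x (v j) (v i)]
      · exact Finset.sum_congr rfl fun i _ => Finset.sum_comm
  have d1 : ∀ e, dd e ρ = fun y => eu (dd e u) y - dd e φ y := by
    intro e
    rw [hρ, dd_add ((hu.eu.sub hu).sub hφ) contDiff_const, dd_sub (hu.eu.sub hu) hφ,
      dd_sub hu.eu hu, dd_eu hu, dd_const]
    funext y
    ring
  have d2 : ∀ e, dd e (dd e ρ) =
      fun y => eu (dd e (dd e u)) y + dd e (dd e u) y - dd e (dd e φ) y := by
    intro e
    rw [d1, dd_sub (hu.dd e).eu (hφ.dd e), dd_eu (hu.dd e)]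
  have d3 : ∀ e, dd e (dd e (dd e ρ)) = fun y => eu (dd e (dd e (dd e u))) y +
      2 * dd e (dd e (dd e u)) y - dd e (dd e (dd e φ)) y := by
    intro e
    rw [d2, dd_sub (((hu.dd e).dd e).eu.add ((hu.dd e).dd e)) ((hφ.dd e).dd e),
      dd_add ((hu.dd e).dd e).eu ((hu.dd e).dd e), dd_eu ((hu.dd e).dd e)]
    funext y
    ring
  refine ⟨⟨v, lam, hl, fun i j => ?_, fun i j => ?_, ?_, fun z => ?_, fun e => ?_, fun e => ?_,
    fun e => ?_⟩⟩
  · have := congrFun (congrFun hI i) j
    rw [← dd_dd hu]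
    simpa [hess, Matrix.one_apply] using this
  · have := congrFun (congrFun hPP i) j
    rw [hv, ip_comb]
    simpa [Matrix.mul_apply, Matrix.diagonal_apply] using this
  · rw [hdet, Real.log_prod fun i _ => (hl i).ne']
  · have h1 : ∀ i, D2 u x z (v i) = ∑ k, ∑ l, b.repr z k * P l i * hess b u x k l := by
      intro i
      conv_lhs => rw [← b.sum_repr z]
      rw [hv, bilin_comb]
      simp only [hess, Matrix.of_apply, dd_dd hu]
    have hs : ∀ k l, hess b u x k l = hess b u x l k := fun k l => by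
      simp only [hess, Matrix.of_apply, dd_dd hu, D2_symm hu x (b k) (b l)]
    conv_rhs => rw [← b.sum_repr z]
    simp only [h1]
    simp only [hv, Finset.smul_sum, smul_smul]
    rw [Finset.sum_comm]
    refine Finset.sum_congr rfl fun m _ => ?_
    rw [← Finset.sum_smul]
    congr 1
    have h2 : ∀ k, ∑ l, (∑ i, P m i * P l i) * hess b u x l k = if m = k then 1 else 0 := by
      intro k
      have := congrFun (congrFun hinv m) k
      simpa [Matrix.mul_apply, Matrix.one_apply] using this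
    calc ∑ i, (∑ k, ∑ l, b.repr z k * P l i * hess b u x k l) * P m i
        = ∑ k, b.repr z k * ∑ l, (∑ i, P m i * P l i) * hess b u x l k := by
          simp only [Finset.sum_mul, Finset.mul_sum]
          rw [Finset.sum_comm]
          refine Finset.sum_congr rfl fun k _ => ?_
          rw [Finset.sum_comm]
          refine Finset.sum_congr rfl fun l _ => Finset.sum_congr rfl fun i _ => ?_
          rw [hs k l]
          ring
      _ = b.repr z m := by simp [h2]
  · rw [← (key e).1, d1]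
  · rw [← (key e).2.1, d2, ← dd_dd hu, ← dd_dd hφ]
  · rw [← (key e).2.2, d3, ← dd_dd_dd hu, ← dd_dd_dd hφ]

end Crest.Agent.R238.AP
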