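import Crest.Agent.R238.AP2

/-!
# A priori estimates: maximum principle, the barrier at infinity
-/

set_option autoImplicit false
set_option maxSynthPendingDepth 3

noncomputable section

open scoped ContDiff
open Set Filter Topology Matrix

namespace Crest.Agent.R238.AP

variable {E : Type*} [NormedAddCommGroup E] [NormedSpace ℝ E]
variable {ι : Type*} [Fintype ι] [DecidableEq ι]

section jet

variable {p : ℝ → ℝ} {a0 a1 a2 b0 b1 b2 : ℝ}

theorem Jet.unique (h : Jet p a0 a1 a2) (k : Jet p b0 b1 b2) : a1 = b1 ∧ a2 = b2 := by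
  obtain ⟨-, p1, hp, h1, h2⟩ := h
  obtain ⟨-, r1, hr, k1, k2⟩ := k
  have e : p1 = r1 := funext fun s => (hp s).unique (hr s)
  subst e
  exact ⟨h1.symm.trans k1, h2.unique k2⟩

theorem Jet.log (h : Jet p a0 a1 a2) (hp0 : ∀ s, p s ≠ 0) :
    Jet (fun s => Real.log (p s)) (Real.log a0) (a1 / a0) (a2 / a0 - a1 ^ 2 / a0 ^ 2) := by
  obtain ⟨h0, p1, hp, h1, h2⟩ := h
  refine ⟨by simp [h0], fun s => p1 s / p s, fun s => (hp s).log (hp0 s), by simp [h0, h1], ?_⟩
  refine HasDerivAt.congr_deriv (h2.div (hp 0) (hp0 0)) ?_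
  have := hp0 0
  rw [h0] at this
  rw [h0, h1]
  field_simp

theorem Jet.exp (h : Jet p a0 a1 a2) :
    Jet (fun s => Real.exp (p s)) (Real.exp a0) (Real.exp a0 * a1)
      (Real.exp a0 * (a2 + a1 ^ 2)) := by
  obtain ⟨h0, p1, hp, h1, h2⟩ := h
  refine ⟨by simp [h0], fun s => Real.exp (p s) * p1 s, fun s => (hp s).exp, by simp [h0, h1], ?_⟩
  refine HasDerivAt.congr_deriv ((hp 0).exp.mul h2) ?_
  rw [h0, h1]
  ring

end jet

theorem D2_sub {f g : E → ℝ} (hf : Sm f) (hg : Sm g) (x v w : E) :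
    D2 (fun y => f y - g y) x v w = D2 f x v w - D2 g x v w := by
  rw [← dd_dd (hf.sub hg), dd_sub hf hg, dd_sub (hf.dd w) (hg.dd w), ← dd_dd hf, ← dd_dd hg]

theorem D2_add {f g : E → ℝ} (hf : Sm f) (hg : Sm g) (x v w : E) :
    D2 (fun y => f y + g y) x v w = D2 f x v w + D2 g x v w := by
  rw [← dd_dd (hf.add hg), dd_add hf hg, dd_add (hf.dd w) (hg.dd w), ← dd_dd hf, ← dd_dd hg]

theorem D2_cmul {f : E → ℝ} (hf : Sm f) (c : ℝ) (x v w : E) :
    D2 (fun y => c * f y) x v w = c * D2 f x v w := by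
  rw [← dd_dd (contDiff_const.mul hf), dd_cmul hf, dd_cmul (hf.dd w), ← dd_dd hf]

variable [FiniteDimensional ℝ E] {b : Module.Basis ι ℝ E}

/-- the maximum principle for `L = ∑ ∂_{v i} ∂_{v i} - x · D` -/
theorem mp {w : E → ℝ} (hw : Sm w) {M m K : ℝ} (hb : ∀ x, w x ≤ M)
    (h : ∀ x, ∃ v : ι → E, ∑ i, ip b (v i) (v i) ≤ K ∧
      w x - m ≤ ∑ i, D2 w x (v i) (v i) - eu w x) (x : E) : w x ≤ m := by
  have key : ∀ ε : ℝ, 0 < ε → w x ≤ m + ε * (K + qd b x) := by
    intro ε hε
    set f : E → ℝ := fun y => w y - ε * qd b y with hf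
    have hq : Sm (fun y => ε * qd b y) := contDiff_const.mul (sm_qd b)
    have hfs : Sm f := hw.sub hq
    obtain ⟨x0, hx0⟩ : ∃ x0, ∀ y, f y ≤ f x0 := by
      refine hfs.continuous.exists_forall_ge' 0 ?_
      filter_upwards [qd_coercive b ((M - f 0) / ε)] with y hy
      have := (div_le_iff₀ hε).mp hy
      have h2 := hb y
      simp only [hf] at this ⊢
      nlinarith
    obtain ⟨v, hv, hL⟩ := h x0
    have h1 : eu w x0 = ε * (2 * qd b x0) := by
      have := (max_cond hfs hx0 x0).1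
      rw [← eu_eq, hf, eu_sub hw hq, eu_cmul (sm_qd b), eu_qd] at this
      linarith
    have h2 : ∑ i, D2 w x0 (v i) (v i) ≤ ε * K := by
      refine le_trans (Finset.sum_le_sum fun i _ => ?_)
        ((Finset.mul_sum _ _ _).symm.le.trans (mul_le_mul_of_nonneg_left hv hε.le))
      have := (max_cond hfs hx0 (v i)).2
      rw [dd_dd hfs, hf, D2_sub hw hq, D2_cmul (sm_qd b), D2_qd] at this
      linarith
    have h3 := hx0 x
    have h4 := mul_nonneg hε.le (qd_nonneg b x0)
    simp only [hf] at h3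
    nlinarith
  refine le_of_forall_pos_le_add fun δ hδ => ?_
  have hp : 0 < |K + qd b x| + 1 := by positivity
  refine (key (δ / (|K + qd b x| + 1)) (by positivity)).trans ?_
  have : δ / (|K + qd b x| + 1) * (K + qd b x) ≤ δ := by
    rw [div_mul_eq_mul_div, div_le_iff₀ hp]
    nlinarith [le_abs_self (K + qd b x)]
  linarith

variable (b) in
/-- the barrier `(A + |x|²/2)^(-1/4)` -/
def bar (A : ℝ) (x : E) : ℝ := Real.exp (-(1 / 4) * Real.log (A + qd b x))

theorem sm_bar {A : ℝ} (hA : 0 < A) : Sm (bar b A) :=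
  (contDiff_const.mul ((contDiff_const.add (sm_qd b)).log fun x =>
    (add_pos_of_pos_of_nonneg hA (qd_nonneg b x)).ne')).exp

theorem bar_jet {A : ℝ} (hA : 0 < A) (x v : E) :
    dd v (bar b A) x = bar b A x * (-(1 / 4) * (ip b v x / (A + qd b x))) ∧
      D2 (bar b A) x v v = bar b A x * (-(1 / 4) * (ip b v v / (A + qd b x) -
        ip b v x ^ 2 / (A + qd b x) ^ 2) + (-(1 / 4) * (ip b v x / (A + qd b x))) ^ 2) := by
  have h1 := ((Jet.const A).add (Jet.line (sm_qd b) x v)).log fun s =>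
    (add_pos_of_pos_of_nonneg hA (qd_nonneg b _)).ne'
  have h2 := ((Jet.const (-(1 / 4))).mul h1).exp
  have h3 := (Jet.line (sm_bar (b := b) hA) x v).unique h2
  rw [dd_dd (sm_bar hA), dd_dd (sm_qd b), D2_qd, dd_qd] at h3
  simp only [zero_add, zero_mul, mul_zero, add_zero] at h3
  exact h3

theorem bar_super {K : ℝ} (hK : 0 ≤ K) (x : E) (v : ι → E) (hv : ∑ i, ip b (v i) (v i) ≤ K) :
    ∑ i, D2 (bar b (3 * K + 1)) x (v i) (v i) - eu (bar b (3 * K + 1)) x ≤
      3 / 4 * bar b (3 * K + 1) x := by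
  set A := 3 * K + 1 with hAdef
  have hA : 0 < A := by positivity
  have hq := qd_nonneg b x
  set s := A + qd b x with hs
  have hs0 : 0 < s := by positivity
  have hβ : 0 < bar b A x := Real.exp_pos _
  have h1 : -eu (bar b A) x ≤ 1 / 2 * bar b A x := by
    rw [eu_eq, (bar_jet hA x x).1]
    have : ip b x x / s ≤ 2 := by
      rw [div_le_iff₀ hs0]
      have : ip b x x = 2 * qd b x := by unfold qd; ring
      linarith
    nlinarith
  have h2 : ∀ i, D2 (bar b A) x (v i) (v i) ≤ bar b A x * (5 / 8 / A * ip b (v i) (v i)) := by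
    intro i
    rw [(bar_jet hA x (v i)).2]
    refine mul_le_mul_of_nonneg_left ?_ hβ.le
    have hn := ip_nonneg b (v i)
    have hcs := ip_cs b (v i) x
    have e : ip b x x = 2 * qd b x := by unfold qd; ring
    have h3 : ip b (v i) x ^ 2 / s ^ 2 ≤ 2 / A * ip b (v i) (v i) := by
      rw [div_le_iff₀ (by positivity), div_mul_eq_mul_div, div_mul_eq_mul_div, le_div_iff₀ hA]
      have h5 : qd b x * A ≤ s ^ 2 := by rw [hs]; nlinarith
      calc ip b (v i) x ^ 2 * A ≤ ip b (v i) (v i) * (2 * qd b x) * A := by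
            rw [← e]; exact mul_le_mul_of_nonneg_right hcs hA.le
        _ = 2 * ip b (v i) (v i) * (qd b x * A) := by ring
        _ ≤ 2 * ip b (v i) (v i) * s ^ 2 := mul_le_mul_of_nonneg_left h5 (by positivity)
    have h4 : 0 ≤ ip b (v i) (v i) / s := by positivity
    have e2 : (-(1 / 4) * (ip b (v i) x / s)) ^ 2 = 1 / 16 * (ip b (v i) x ^ 2 / s ^ 2) := by
      ring_nf
    have e3 : 5 / 8 / A * ip b (v i) (v i) = 5 / 16 * (2 / A * ip b (v i) (v i)) := by ring
    rw [e2, e3]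
    linarith
  have h3 : ∑ i, D2 (bar b A) x (v i) (v i) ≤ bar b A x * (5 / 8 / A * K) := by
    refine (Finset.sum_le_sum fun i _ => h2 i).trans ?_
    rw [← Finset.mul_sum, ← Finset.mul_sum]
    exact mul_le_mul_of_nonneg_left (mul_le_mul_of_nonneg_left hv (by positivity)) hβ.le
  have h4 : 5 / 8 / A * K ≤ 1 / 4 := by
    rw [div_mul_eq_mul_div, div_le_iff₀ hA]
    linarith
  nlinarith

/-- the maximum principle with decay at infinity -/
theorem mp_far {K : ℝ} (r0 : ℝ) (hK : 0 ≤ K) {δ : ℝ} (hδ : 0 < δ) :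
    ∃ r : ℝ, ∀ {w : E → ℝ}, Sm w → ∀ {M m : ℝ}, 0 ≤ m → (∀ x, w x ≤ M) →
      (∀ x, ∃ v : ι → E, ∑ i, ip b (v i) (v i) ≤ K ∧
        w x - m ≤ ∑ i, D2 w x (v i) (v i) - eu w x ∧
        (r0 ≤ qd b x → w x ≤ ∑ i, D2 w x (v i) (v i) - eu w x)) →
      ∀ x, r ≤ qd b x → w x ≤ m * δ := by
  set A := 3 * K + 1 with hAdef
  have hA : 0 < A := by positivity
  set β0 := Real.exp (-(1 / 4) * Real.log (A + r0)) with hβ0
  have hβ0p : 0 < β0 := Real.exp_pos _
  refine ⟨Real.exp (-4 * Real.log (δ * β0 / 4)), fun {w} hw {M m} hm hb h x hx => ?_⟩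
  have hB : Sm (fun y => m * (4 / β0) * bar b A y) := contDiff_const.mul (sm_bar hA)
  have hpos : ∀ y, 0 < bar b A y := fun y => Real.exp_pos _
  have h1 : w x - m * (4 / β0) * bar b A x ≤ 0 := by
    refine mp (b := b) (K := K) (M := M) (hw.sub hB) (fun y => ?_) (fun y => ?_) x
    · have := hb y
      have h2 : 0 ≤ m * (4 / β0) * bar b A y := by have := hpos y; positivity
      linarith
    · obtain ⟨v, hv, h1, h2⟩ := h y
      refine ⟨v, hv, ?_⟩
      have h3 := mul_le_mul_of_nonneg_left (bar_super (b := b) hK y v hv)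
        (show 0 ≤ m * (4 / β0) by positivity)
      simp only [D2_sub hw hB, D2_cmul (sm_bar hA), eu_sub hw hB, eu_cmul (sm_bar hA),
        Finset.sum_sub_distrib, ← Finset.mul_sum]
      have h4 : 0 ≤ m * (4 / β0) * bar b A y := by have := hpos y; positivity
      by_cases hy : r0 ≤ qd b y
      · have := h2 hy
        nlinarith
      · have h5 : β0 ≤ bar b A y := by
          refine Real.exp_le_exp.mpr ?_
          have := Real.log_le_log (add_pos_of_pos_of_nonneg hA (qd_nonneg b y))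
            (show A + qd b y ≤ A + r0 by linarith)
          linarith
        have h6 : 4 * m ≤ m * (4 / β0) * bar b A y := by
          have : m * (4 / β0) * β0 ≤ m * (4 / β0) * bar b A y :=
            mul_le_mul_of_nonneg_left h5 (by positivity)
          have e : m * (4 / β0) * β0 = 4 * m := by field_simp
          linarith
        nlinarith
  have h2 : bar b A x ≤ δ * β0 / 4 := by
    have h3 : -4 * Real.log (δ * β0 / 4) ≤ Real.log (A + qd b x) := by
      rw [Real.le_log_iff_exp_le (add_pos_of_pos_of_nonneg hA (qd_nonneg b x))]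
      linarith
    calc bar b A x ≤ Real.exp (Real.log (δ * β0 / 4)) := Real.exp_le_exp.mpr (by linarith)
      _ = δ * β0 / 4 := Real.exp_log (by positivity)
  have h3 : m * (4 / β0) * bar b A x ≤ m * (4 / β0) * (δ * β0 / 4) :=
    mul_le_mul_of_nonneg_left h2 (by positivity)
  have e : m * (4 / β0) * (δ * β0 / 4) = m * δ := by field_simp
  linarith

end Crest.Agent.R238.AP
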