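import Crest.Agent.R238.AP3

/-!
# A priori estimates: second order bounds, and `D²u → 1` at infinity
-/

set_option autoImplicit false
set_option maxSynthPendingDepth 3

noncomputable section

open scoped ContDiff
open Set Filter Topology Matrix

namespace Crest.Agent.R238.AP

variable {E : Type*} [NormedAddCommGroup E] [NormedSpace ℝ E]
variable {ι : Type*} [Fintype ι] [DecidableEq ι]

/-- qualitative hypotheses on the solution -/
structure Hyp (b : Module.Basis ι ℝ E) (u φ : E → ℝ) (c0 C0 : ℝ) : Prop where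
  su : Sm u
  sφ : Sm φ
  c0_pos : 0 < c0
  lo : ∀ x z, c0 * ip b z z ≤ D2 u x z z
  hi : ∀ x z, D2 u x z z ≤ C0 * ip b z z
  d3 : ∀ x z, D3 u x z z z ^ 2 ≤ C0 * ip b z z ^ 3
  ma : ∀ x, Real.log (hess b u x).det = eu u x - u x - φ x

/-- quantitative hypotheses on the data -/
structure Data (b : Module.Basis ι ℝ E) (φ : E → ℝ) (K r0 : ℝ) : Prop where
  K1 : 1 ≤ K
  cvx : ∀ x z, 0 ≤ D2 φ x z z
  hi : ∀ x z, D2 φ x z z ≤ K * ip b z z
  d3 : ∀ x z, D3 φ x z z z ^ 2 ≤ K * ip b z z ^ 3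
  bd : ∀ x, |φ x - qd b x| ≤ K
  bde : ∀ x, -K ≤ (φ x - qd b x) + (eu φ x - 2 * qd b x)
  far2 : ∀ x, r0 ≤ qd b x → ∀ z, D2 φ x z z ≤ ip b z z
  far0 : ∀ x, r0 ≤ qd b x → φ x = qd b x
  far1 : ∀ x, r0 ≤ qd b x → eu φ x = 2 * qd b x

variable {b : Module.Basis ι ℝ E} {u φ : E → ℝ} {c0 C0 K r0 : ℝ} {x : E}

theorem Hyp.frame (H : Hyp b u φ c0 C0) (x : E) : Nonempty (Frame b u φ x) :=
  exists_frame H.su H.sφ H.c0_pos H.lo H.ma x

theorem Frame.lam_ge (F : Frame b u φ x) {c : ℝ} (h : ∀ z, c * ip b z z ≤ D2 u x z z) (i : ι) :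
    c ≤ F.lam i := by
  have := h (F.v i)
  rw [F.orth, F.nrm, if_pos rfl, if_pos rfl, ← div_eq_mul_inv, div_le_iff₀ (F.pos i)] at this
  linarith

theorem Frame.lam_le (F : Frame b u φ x) {C : ℝ} (h : ∀ z, D2 u x z z ≤ C * ip b z z) (i : ι) :
    F.lam i ≤ C := by
  have := h (F.v i)
  rw [F.orth, F.nrm, if_pos rfl, if_pos rfl, ← div_eq_mul_inv, le_div_iff₀ (F.pos i)] at this
  linarith

theorem Frame.sum_ip (F : Frame b u φ x) : ∑ i, ip b (F.v i) (F.v i) = ∑ i, (F.lam i)⁻¹ :=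
  Finset.sum_congr rfl fun i _ => by rw [F.nrm, if_pos rfl]

theorem Frame.sum_ip_le (F : Frame b u φ x) {c : ℝ} (hc : 0 < c)
    (h : ∀ z, c * ip b z z ≤ D2 u x z z) :
    ∑ i, ip b (F.v i) (F.v i) ≤ Fintype.card ι * c⁻¹ := by
  rw [F.sum_ip]
  refine (Finset.sum_le_sum fun i _ => inv_anti₀ hc (F.lam_ge h i)).trans ?_
  simp

theorem Frame.D2_comb (F : Frame b u φ x) (ξ η : ι → ℝ) :
    D2 u x (∑ k, ξ k • F.v k) (∑ k, η k • F.v k) = ∑ k, ξ k * η k := by
  rw [bilin_comb]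
  simp [F.orth]

theorem Frame.ip_comb (F : Frame b u φ x) (ξ : ι → ℝ) :
    ip b (∑ k, ξ k • F.v k) (∑ k, ξ k • F.v k) = ∑ k, ξ k * ξ k * (F.lam k)⁻¹ := by
  simp only [map_sum, map_smul, LinearMap.sum_apply, LinearMap.smul_apply, smul_eq_mul, F.nrm,
    mul_ite, mul_zero, Finset.sum_ite_eq', Finset.mem_univ, if_true]
  exact Finset.sum_congr rfl fun k _ => by ring

theorem Frame.lower (F : Frame b u φ x) {C m : ℝ} (hC : 1 ≤ C)
    (h : ∀ z, D2 u x z z ≤ C * ip b z z) (hm : -m ≤ Real.log (hess b u x).det) (z : E) :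
    Real.exp (-m - Fintype.card ι * Real.log C) * ip b z z ≤ D2 u x z z := by
  set c := Real.exp (-m - Fintype.card ι * Real.log C) with hc
  have hc0 : 0 < c := Real.exp_pos _
  have hlam : ∀ i, c ≤ F.lam i := by
    intro i
    rw [hc, ← Real.le_log_iff_exp_le (F.pos i)]
    have h1 : ∑ j ∈ Finset.univ.erase i, Real.log (F.lam j) ≤ Fintype.card ι * Real.log C := by
      refine (Finset.sum_le_sum fun j _ => Real.log_le_log (F.pos j) (F.lam_le h j)).trans ?_
      rw [Finset.sum_const, nsmul_eq_mul]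
      refine mul_le_mul_of_nonneg_right ?_ (Real.log_nonneg hC)
      exact_mod_cast Finset.card_le_univ _
    rw [F.det, ← Finset.add_sum_erase _ _ (Finset.mem_univ i)] at hm
    linarith
  rw [← F.span z, F.D2_comb, F.ip_comb, Finset.mul_sum]
  refine Finset.sum_le_sum fun k _ => ?_
  have h1 : c * (F.lam k)⁻¹ ≤ 1 := by
    rw [← div_eq_mul_inv, div_le_one (F.pos k)]
    exact hlam k
  nlinarith [mul_self_nonneg (D2 u x z (F.v k))]

theorem Frame.L_dd (F : Frame b u φ x) (hu : Sm u) (e : E) :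
    dd e (dd e u) x - D2 φ x e e ≤
      ∑ i, D2 (dd e (dd e u)) x (F.v i) (F.v i) - eu (dd e (dd e u)) x := by
  have h1 := F.e2 e
  have h2 : 0 ≤ ∑ i, ∑ j, D3 u x (F.v i) (F.v j) e ^ 2 :=
    Finset.sum_nonneg fun i _ => Finset.sum_nonneg fun j _ => sq_nonneg _
  rw [dd_dd hu]
  linarith

variable [FiniteDimensional ℝ E]

variable (b u) in
/-- `-(x · Du - u - |x|²/2)` -/
def nq (x : E) : ℝ := qd b x - (eu u x - u x)

theorem sm_nq (hu : Sm u) : Sm (nq b u) := (sm_qd b).sub (hu.eu.sub hu)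

theorem Frame.L_nq (F : Frame b u φ x) (hu : Sm u)
    (hma : Real.log (hess b u x).det = eu u x - u x - φ x) :
    nq b u x + ((φ x - qd b x) + (eu φ x - 2 * qd b x)) ≤
      ∑ i, D2 (nq b u) x (F.v i) (F.v i) - eu (nq b u) x := by
  have d1 : ∀ v, dd v (nq b u) = fun y => ip b v y - eu (dd v u) y := by
    intro v
    unfold nq
    rw [dd_sub (sm_qd b) (hu.eu.sub hu), dd_sub hu.eu hu, dd_eu hu, dd_qd]
    funext y
    ring
  have d2 : ∀ v, D2 (nq b u) x v v = ip b v v - (D3 u x v v x + D2 u x v v) := by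
    intro v
    rw [← dd_dd (sm_nq hu), d1, dd_sub (sm_ip b v) (hu.dd v).eu, dd_ip, dd_eu (hu.dd v)]
    simp only
    rw [eu_eq, dd_dd_dd hu, dd_dd hu, D3_symm12 hu x x v v, D3_symm23 hu x v x v]
  have h1 := F.e1 x
  have h2 : ∑ i, (1 - (F.lam i)⁻¹) ≤ ∑ i, Real.log (F.lam i) :=
    Finset.sum_le_sum fun i _ => Real.one_sub_inv_le_log_of_pos (F.pos i)
  have h3 : ∑ i, D2 (nq b u) x (F.v i) (F.v i) =
      -(∑ i, (1 - (F.lam i)⁻¹)) - ∑ i, D3 u x (F.v i) (F.v i) x := by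
    rw [← Finset.sum_neg_distrib, ← Finset.sum_sub_distrib]
    refine Finset.sum_congr rfl fun i _ => ?_
    rw [d2, F.orth, F.nrm, if_pos rfl, if_pos rfl]
    ring
  have h4 : ip b x x = 2 * qd b x := by unfold qd; ring
  have h5 := F.det
  rw [h3, ← h1, eu_eq (nq b u), d1, eu_eq φ]
  simp only [nq]
  linarith

theorem Hyp.upper (H : Hyp b u φ c0 C0) (D : Data b φ K r0) (x z : E) :
    D2 u x z z ≤ K * ip b z z := by
  rw [← dd_dd H.su]
  refine mp (b := b) (M := C0 * ip b z z) (K := Fintype.card ι * c0⁻¹) ((H.su.dd z).dd z)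
    (fun y => ?_) (fun y => ?_) x
  · rw [dd_dd H.su]
    exact H.hi y z
  · obtain ⟨F⟩ := H.frame y
    refine ⟨F.v, F.sum_ip_le H.c0_pos (H.lo y), ?_⟩
    have := F.L_dd H.su z
    have := D.hi y z
    linarith

omit [FiniteDimensional ℝ E] in
theorem Hyp.nq_bd (H : Hyp b u φ c0 C0) (D : Data b φ K r0) (y : E) :
    nq b u y ≤ K - Fintype.card ι * Real.log c0 := by
  obtain ⟨F⟩ := H.frame y
  have h1 : ∑ _i : ι, Real.log c0 ≤ ∑ i, Real.log (F.lam i) :=
    Finset.sum_le_sum fun i _ => Real.log_le_log H.c0_pos (F.lam_ge (H.lo y) i)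
  rw [Finset.sum_const, nsmul_eq_mul, Finset.card_univ, ← F.det, H.ma] at h1
  have h2 := (abs_le.mp (D.bd y)).1
  unfold nq
  linarith

theorem Hyp.lower (H : Hyp b u φ c0 C0) (D : Data b φ K r0) (x z : E) :
    Real.exp (-(2 * K) - Fintype.card ι * Real.log K) * ip b z z ≤ D2 u x z z := by
  obtain ⟨F⟩ := H.frame x
  refine F.lower D.K1 (H.upper D x) ?_ z
  have h1 : nq b u x ≤ K := by
    refine mp (b := b) (K := Fintype.card ι * c0⁻¹) (sm_nq H.su) (H.nq_bd D) (fun y => ?_) x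
    obtain ⟨F⟩ := H.frame y
    refine ⟨F.v, F.sum_ip_le H.c0_pos (H.lo y), ?_⟩
    have := F.L_nq H.su (H.ma y)
    have := D.bde y
    linarith
  have h2 := (abs_le.mp (D.bd x)).2
  rw [H.ma]
  unfold nq at h1
  linarith

/-- `D²u → 1` at infinity, uniformly -/
theorem far_est (b : Module.Basis ι ℝ E) (K r0 : ℝ) {η : ℝ} (hη : 0 < η) :
    ∃ r : ℝ, ∀ (u φ : E → ℝ) (c0 C0 : ℝ), Hyp b u φ c0 C0 → Data b φ K r0 → ∀ x, r ≤ qd b x →
      ∀ z, (1 - η) * ip b z z ≤ D2 u x z z ∧ D2 u x z z ≤ (1 + η) * ip b z z := by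
  set c := Real.exp (-(2 * K) - Fintype.card ι * Real.log K) with hc
  have hc0 : 0 < c := Real.exp_pos _
  set N : ℝ := (Fintype.card ι : ℝ) with hN
  have hN0 : 0 ≤ N := Nat.cast_nonneg _
  set δ := η / (N + 1) with hδ
  have hδ0 : 0 < δ := by positivity
  have hK1 : 0 < |K| + 1 := by positivity
  obtain ⟨r, hr⟩ := mp_far (b := b) (K := N * c⁻¹) r0 (by positivity)
    (show 0 < δ / (|K| + 1) by positivity)
  refine ⟨max r r0, fun u φ c0 C0 H D x hx z => ?_⟩
  have hK0 : 0 ≤ K := zero_le_one.trans D.K1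
  have hKδ : K * (δ / (|K| + 1)) ≤ δ := by
    rw [← mul_div_assoc, div_le_iff₀ hK1]
    nlinarith [le_abs_self K]
  have hup : ∀ z, D2 u x z z ≤ (1 + δ) * ip b z z := by
    intro z
    have hz := ip_nonneg b z
    have hs : Sm (fun _ : E => ip b z z) := contDiff_const
    have h1 := hr (w := fun y => dd z (dd z u) y - ip b z z) (((H.su.dd z).dd z).sub hs)
      (M := C0 * ip b z z) (m := K * ip b z z) (by positivity) (fun y => ?_) (fun y => ?_) x
      ((le_max_left _ _).trans hx)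
    · rw [dd_dd H.su] at h1
      nlinarith
    · rw [dd_dd H.su]
      have := H.hi y z
      linarith
    · obtain ⟨F⟩ := H.frame y
      have h2 := F.L_dd H.su z
      have e1 : ∀ v, D2 (fun y => dd z (dd z u) y - ip b z z) y v v = D2 (dd z (dd z u)) y v v := by
        intro v
        rw [D2_sub ((H.su.dd z).dd z) hs, ← dd_dd hs, dd_const, dd_const, sub_zero]
      have e2 : eu (fun y => dd z (dd z u) y - ip b z z) y = eu (dd z (dd z u)) y := by
        rw [eu_sub ((H.su.dd z).dd z) hs, eu_eq (fun _ => ip b z z), dd_const, sub_zero]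
      refine ⟨F.v, F.sum_ip_le hc0 (H.lower D y), ?_, fun hy => ?_⟩
      · simp only [e1, e2]
        have := D.hi y z
        linarith
      · simp only [e1, e2]
        have := D.far2 y hy z
        linarith
  have hnq : nq b u x ≤ K * (δ / (|K| + 1)) := by
    refine hr (sm_nq H.su) hK0 (H.nq_bd D) (fun y => ?_) x ((le_max_left _ _).trans hx)
    obtain ⟨F⟩ := H.frame y
    have h2 := F.L_nq H.su (H.ma y)
    refine ⟨F.v, F.sum_ip_le hc0 (H.lower D y), ?_, fun hy => ?_⟩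
    · have := D.bde y
      linarith
    · rw [D.far0 y hy, D.far1 y hy] at h2
      linarith
  have hz := ip_nonneg b z
  have hδη : δ * (N + 1) = η := by rw [hδ]; field_simp
  refine ⟨?_, (hup z).trans (mul_le_mul_of_nonneg_right (by nlinarith) hz)⟩
  obtain ⟨F⟩ := H.frame x
  have h3 := F.lower (C := 1 + δ) (m := δ) (by linarith) hup (by
    rw [H.ma, D.far0 x ((le_max_right _ _).trans hx)]
    unfold nq at hnq
    linarith) z
  refine le_trans (mul_le_mul_of_nonneg_right ?_ hz) h3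
  have h4 := Real.add_one_le_exp (-δ - N * Real.log (1 + δ))
  have h5 : Real.log (1 + δ) ≤ δ := by
    have := Real.log_le_sub_one_of_pos (show 0 < 1 + δ by linarith)
    linarith
  have h6 := mul_le_mul_of_nonneg_left h5 hN0
  nlinarith

end Crest.Agent.R238.AP
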