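import Crest.Agent.R238.AP4

/-!
# A priori estimates: Calabi's third order estimate

We maximise `u_eee² / u_ee³ - ε |x|²/2` over `x` and `e`; at the maximum the direction `e` is
moved parallelly along the frame vectors.
-/

set_option autoImplicit false
set_option maxSynthPendingDepth 3

noncomputable section

open scoped ContDiff
open Set Filter Topology Matrix

namespace Crest.Agent.R238.AP

variable {E : Type*} [NormedAddCommGroup E] [NormedSpace ℝ E]
variable {ι : Type*} [Fintype ι] [DecidableEq ι]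
variable {b : Module.Basis ι ℝ E} {u φ : E → ℝ} {c0 C0 K r0 : ℝ} {x : E}

theorem D2_zero_left (f : E → ℝ) (x w : E) : D2 f x 0 w = 0 := by simp

theorem dd_zero (f : E → ℝ) : dd 0 f = fun _ => 0 := by
  funext x
  simp [dd]

/-- jet of `s ↦ D²u(x + s v)(e + s w, e + s w)` -/
theorem jet_b (hu : Sm u) (x e v w : E) :
    Jet (fun s => D2 u (x + s • v) (e + s • w) (e + s • w)) (D2 u x e e)
      (D3 u x v e e + 2 * D2 u x w e)
      (D2 (dd e (dd e u)) x v v + 4 * D3 u x v w e + 2 * D2 u x w w) := by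
  have h0 := Jet.line ((hu.dd e).dd e) x v
  have h1 := Jet.line ((hu.dd e).dd w) x v
  have h2 := Jet.line ((hu.dd w).dd w) x v
  have h := (h0.add (((Jet.const 2).mul Jet.id).mul h1)).add ((Jet.id.mul Jet.id).mul h2)
  refine (h.congr_fun fun s => ?_).congr ?_ ?_ ?_
  · simp only [dd_dd hu, map_add, map_smul, _root_.add_apply, _root_.smul_apply, smul_eq_mul,
      D2_symm hu _ e w]
    ring
  · simp [dd_dd hu]
  · simp [dd_dd hu, dd_dd_dd hu]
  · simp only [dd_dd hu, dd_dd_dd hu, dd_dd ((hu.dd e).dd e)]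
    ring

/-- jet of `s ↦ D³u(x + s v)(e + s w, e + s w, e + s w)` -/
theorem jet_a (hu : Sm u) (x e v w : E) :
    Jet (fun s => D3 u (x + s • v) (e + s • w) (e + s • w) (e + s • w)) (D3 u x e e e)
      (dd v (dd e (dd e (dd e u))) x + 3 * D3 u x w e e)
      (D2 (dd e (dd e (dd e u))) x v v + 6 * D2 (dd e (dd e u)) x v w + 6 * D3 u x w w e) := by
  have h0 := Jet.line (((hu.dd e).dd e).dd e) x v
  have h1 := Jet.line (((hu.dd e).dd e).dd w) x v
  have h2 := Jet.line (((hu.dd e).dd w).dd w) x v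
  have h3 := Jet.line (((hu.dd w).dd w).dd w) x v
  have h := ((h0.add (((Jet.const 3).mul Jet.id).mul h1)).add
    ((((Jet.const 3).mul Jet.id).mul Jet.id).mul h2)).add
    (((Jet.id.mul Jet.id).mul Jet.id).mul h3)
  refine (h.congr_fun fun s => ?_).congr ?_ ?_ ?_
  · simp only [dd_dd_dd hu, map_add, map_smul, _root_.add_apply, _root_.smul_apply, smul_eq_mul,
      D3_symm12 hu _ e w, D3_symm23 hu _ w e w, D3_symm23 hu _ e e w]
    ring
  · simp [dd_dd_dd hu]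
  · simp [dd_dd_dd hu]
  · simp only [dd_dd_dd hu, dd_dd ((hu.dd e).dd e), dd_dd (((hu.dd e).dd e).dd e)]
    ring

variable [FiniteDimensional ℝ E]

/-- first and second order conditions along the line `(x + s v, e + s w)` -/
theorem cal_line (hu : Sm u) {ε : ℝ} {e : E} (he : D2 u x e e = 1)
    (hmax : ∀ y z, D3 u y z z z ^ 2 ≤
      (D3 u x e e e ^ 2 + ε * (qd b y - qd b x)) * D2 u y z z ^ 3) (v w : E)
    {a a1 a2 b1 b2 : ℝ} (ha : a = D3 u x e e e)
    (ha1 : a1 = dd v (dd e (dd e (dd e u))) x + 3 * D3 u x w e e)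
    (ha2 : a2 = D2 (dd e (dd e (dd e u))) x v v + 6 * D2 (dd e (dd e u)) x v w +
      6 * D3 u x w w e)
    (hb1 : b1 = D3 u x v e e + 2 * D2 u x w e)
    (hb2 : b2 = D2 (dd e (dd e u)) x v v + 4 * D3 u x v w e + 2 * D2 u x w w) :
    2 * a * a1 - ε * ip b v x - 3 * a ^ 2 * b1 = 0 ∧
      2 * a1 ^ 2 + 2 * a * a2 - ε * ip b v v - 6 * ε * ip b v x * b1 -
        a ^ 2 * (3 * b2 + 6 * b1 ^ 2) ≤ 0 := by
  have ja := jet_a hu x e v w
  have jb := jet_b hu x e v w
  have jq := Jet.line (sm_qd b) x v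
  rw [dd_dd (sm_qd b), D2_qd, dd_qd] at jq
  rw [← ha, ← ha1, ← ha2] at ja
  rw [← hb1, ← hb2, he] at jb
  have h := ((ja.mul ja).sub (((Jet.const (a ^ 2)).add
    ((Jet.const ε).mul (jq.sub (Jet.const (qd b x))))).mul ((jb.mul jb).mul jb))).max
    fun s => by
      have := hmax (x + s • v) (e + s • w)
      simp only [zero_smul, add_zero, he, ← ha] at this ⊢
      nlinarith
  obtain ⟨h1, h2⟩ := h
  constructor <;> nlinarith

/-- the estimate at the maximum point -/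
theorem cal_point (hu : Sm u) (F : Frame b u φ x) {ε K1 : ℝ} (hε : 0 ≤ ε) {e : E}
    (he : D2 u x e e = 1) (hpos : 0 ≤ D3 u x e e e) (hcvx : 0 ≤ D2 φ x e e)
    (hK1 : ∑ i, ip b (F.v i) (F.v i) ≤ K1) (hK0 : 0 ≤ K1)
    (hmax : ∀ y z, D3 u y z z z ^ 2 ≤
      (D3 u x e e e ^ 2 + ε * (qd b y - qd b x)) * D2 u y z z ^ 3) :
    D3 u x e e e ^ 2 ≤ 4 * D3 φ x e e e ^ 2 + 2 * ε * K1 := by
  set a := D3 u x e e e with ha
  rcases hpos.eq_or_lt with h0 | hapos
  · rw [← h0]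
    have := mul_nonneg hε hK0
    nlinarith [sq_nonneg (D3 φ x e e e)]
  have hl := fun v w => cal_line (b := b) hu he hmax v w ha rfl rfl rfl rfl
  -- variations of the direction only
  have hdir : ∀ w, D3 u x w e e = a * D2 u x w e ∧
      12 * a * D3 u x w w e ≤ 6 * a ^ 2 * D2 u x w w + 6 * a ^ 2 * D2 u x w e ^ 2 := by
    intro w
    obtain ⟨h1, h2⟩ := hl 0 w
    simp only [dd_zero, map_zero, _root_.zero_apply, LinearMap.zero_apply, zero_add, mul_zero,
      sub_zero, zero_mul, add_zero] at h1 h2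
    have h3 : D3 u x w e e = a * D2 u x w e := by
      have : a * (D3 u x w e e - a * D2 u x w e) = 0 := by linarith
      rcases mul_eq_zero.mp this with h | h
      · exact absurd h hapos.ne'
      · linarith
    refine ⟨h3, ?_⟩
    rw [h3] at h2
    nlinarith
  set η : ι → ℝ := fun k => D2 u x e (F.v k) with hη
  set ξ : ι → ℝ := fun k => D2 u x x (F.v k) with hξ
  set t : ι → ι → ℝ := fun i k => D3 u x (F.v i) (F.v k) e with ht
  set B : ι → ι → ℝ := fun i k => D2 (dd e (dd e u)) x (F.v i) (F.v k) with hB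
  have tsymm : ∀ i k, t i k = t k i := fun i k => D3_symm12 hu x _ _ _
  have hes : ∑ k, η k • F.v k = e := F.span e
  have hxs : ∑ k, ξ k • F.v k = x := F.span x
  have hηη : ∑ k, η k * η k = 1 := by rw [← F.D2_comb, hes, he]
  have hve : ∀ i, D2 u x (F.v i) e = η i := fun i => D2_symm hu x _ _
  have hvee : ∀ i, D3 u x (F.v i) e e = a * η i := fun i => by rw [(hdir _).1, hve]
  have hD3 : ∀ y z : ι → ℝ, D3 u x (∑ k, y k • F.v k) (∑ k, z k • F.v k) e =
      ∑ k, ∑ l, y k * z l * t k l := by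
    intro y z
    rw [D3_eq_D2 hu, bilin_comb]
    simp only [← D3_eq_D2 hu, ht]
  have hD2e : ∀ y : ι → ℝ, D2 u x (∑ k, y k • F.v k) e = ∑ k, y k * η k := by
    intro y
    conv_lhs => rw [← hes]
    rw [F.D2_comb]
  have hquad : ∀ y : ι → ℝ, ∑ k, ∑ l, y k * y l * t k l ≤ a * ∑ k, y k * y k := by
    intro y
    have h1 := (hdir (∑ k, y k • F.v k)).2
    rw [hD3, F.D2_comb, hD2e] at h1
    have h2 : (∑ k, y k * η k) ^ 2 ≤ (∑ k, y k ^ 2) * ∑ k, η k ^ 2 :=
      Finset.sum_mul_sq_le_sq_mul_sq _ _ _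
    simp only [sq] at h2
    rw [hηη, mul_one, ← sq] at h2
    have h3 : a * (∑ k, ∑ l, y k * y l * t k l) ≤ a * (a * ∑ k, y k * y k) := by nlinarith
    exact le_of_mul_le_mul_left h3 hapos
  have hte : ∀ i, ∑ k, t i k * η k = a * η i := by
    intro i
    rw [← hvee, ← congrArg (fun y => D3 u x (F.v i) y e) hes]
    simp only [map_sum, map_smul, _root_.sum_apply, _root_.smul_apply, smul_eq_mul]
    exact Finset.sum_congr rfl fun k _ => mul_comm _ _
  -- parallel variations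
  set w : ι → E := fun i => ∑ k, (-(1 / 2) * t i k) • F.v k with hw
  have w1 : ∀ i, D2 u x (w i) e = -(1 / 2) * (a * η i) := by
    intro i
    rw [hw, hD2e, ← hte, Finset.mul_sum]
    exact Finset.sum_congr rfl fun k _ => by ring
  have w2 : ∀ i, D3 u x (w i) e e = -(1 / 2) * (a ^ 2 * η i) := by
    intro i
    rw [(hdir _).1, w1]
    ring
  have w3 : ∀ i, D2 (dd e (dd e u)) x (F.v i) (w i) = -(1 / 2) * ∑ k, t i k * B i k := by
    intro i
    simp only [hw, map_sum, map_smul, smul_eq_mul, Finset.mul_sum, hB]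
    exact Finset.sum_congr rfl fun k _ => by ring
  have w4 : ∀ i, D3 u x (w i) (w i) e = 1 / 4 * ∑ k, ∑ l, t i k * t k l * t l i := by
    intro i
    rw [hw, hD3]
    simp only [Finset.mul_sum]
    refine Finset.sum_congr rfl fun k _ => Finset.sum_congr rfl fun l _ => ?_
    rw [tsymm l i]
    ring
  have w5 : ∀ i, D3 u x (F.v i) (w i) e = -(1 / 2) * ∑ k, t i k ^ 2 := by
    intro i
    simp only [hw, map_sum, map_smul, _root_.sum_apply, _root_.smul_apply, smul_eq_mul,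
      Finset.mul_sum]
    exact Finset.sum_congr rfl fun k _ => by simp only [ht]; ring
  have w6 : ∀ i, D2 u x (w i) (w i) = 1 / 4 * ∑ k, t i k ^ 2 := by
    intro i
    rw [hw, F.D2_comb, Finset.mul_sum]
    exact Finset.sum_congr rfl fun k _ => by ring
  have hi1 : ∀ i, 2 * a * (dd (F.v i) (dd e (dd e (dd e u))) x - 3 / 2 * (a ^ 2 * η i)) =
      ε * ip b (F.v i) x := by
    intro i
    have := (hl (F.v i) (w i)).1
    rw [w1, w2, hvee] at this
    linarith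
  have hi2 : ∀ i, 2 * a * (D2 (dd e (dd e (dd e u))) x (F.v i) (F.v i) -
      3 * ∑ k, t i k * B i k + 3 / 2 * ∑ k, ∑ l, t i k * t k l * t l i) -
      3 * a ^ 2 * (B i i - 3 / 2 * ∑ k, t i k ^ 2) ≤ ε * ip b (F.v i) (F.v i) := by
    intro i
    have := (hl (F.v i) (w i)).2
    rw [w1, w2, w3, w4, w5, w6, hvee] at this
    simp only [hB] at this ⊢
    nlinarith [sq_nonneg (dd (F.v i) (dd e (dd e (dd e u))) x + 3 * (-(1 / 2) * (a ^ 2 * η i)))]
  set P : ℝ := ∑ k, ξ k * η k with hP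
  have s1 : 2 * a * (eu (dd e (dd e (dd e u))) x - 3 / 2 * (a ^ 2 * P)) = ε * ip b x x := by
    have e1 : eu (dd e (dd e (dd e u))) x = ∑ k, ξ k * dd (F.v k) (dd e (dd e (dd e u))) x := by
      show fderiv ℝ _ x x = _
      conv_lhs => rw [← congrArg (fderiv ℝ (dd e (dd e (dd e u))) x) hxs]
      simp only [map_sum, map_smul, smul_eq_mul]
      rfl
    have e2 : ip b x x = ∑ k, ξ k * ip b (F.v k) x := by
      conv_lhs => rw [← congrArg (fun y => ip b y x) hxs]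
      simp only [map_sum, map_smul, LinearMap.sum_apply, LinearMap.smul_apply, smul_eq_mul]
    rw [e1, e2, hP]
    simp only [Finset.mul_sum, ← Finset.sum_sub_distrib]
    refine Finset.sum_congr rfl fun k _ => ?_
    have := hi1 k
    linear_combination ξ k * this
  have s2 : eu (dd e (dd e u)) x = a * P := by
    rw [eu_eq, dd_dd_dd hu, (hdir x).1, hP, ← hD2e, hxs]
  have s3 : 2 * a * (∑ i, D2 (dd e (dd e (dd e u))) x (F.v i) (F.v i) -
      3 * ∑ i, ∑ k, t i k * B i k + 3 / 2 * ∑ i, ∑ k, ∑ l, t i k * t k l * t l i) -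
      3 * a ^ 2 * (∑ i, B i i - 3 / 2 * ∑ i, ∑ k, t i k ^ 2) ≤ ε * K1 := by
    have h1 := Finset.sum_le_sum fun i (_ : i ∈ Finset.univ) => hi2 i
    simp only [Finset.sum_sub_distrib, Finset.sum_add_distrib, ← Finset.mul_sum] at h1
    exact h1.trans (mul_le_mul_of_nonneg_left hK1 hε)
  have s4 : ∑ i, ∑ k, ∑ l, t i k * t k l * t l i ≤ a * ∑ i, ∑ k, t i k ^ 2 := by
    rw [Finset.mul_sum]
    refine Finset.sum_le_sum fun i _ => ?_
    have := hquad (t i)
    simp only [← sq] at this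
    refine le_trans (le_of_eq ?_) this
    refine Finset.sum_congr rfl fun k _ => Finset.sum_congr rfl fun l _ => ?_
    rw [tsymm l i]
    ring
  have e2 := F.e2 e
  have e3 := F.e3 e
  rw [s2, he] at e2
  rw [← ha] at e3
  have hS : 0 ≤ ∑ i, ∑ k, t i k ^ 2 :=
    Finset.sum_nonneg fun i _ => Finset.sum_nonneg fun j _ => sq_nonneg _
  have hxx := mul_nonneg hε (ip_nonneg b x)
  set S2 := ∑ i, ∑ k, t i k ^ 2
  set S3 := ∑ i, ∑ k, ∑ l, t i k * t k l * t l i
  have e2' : ∑ i, B i i = a * P + 1 - D2 φ x e e + S2 := by linarith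
  have e3' : ∑ i, D2 (dd e (dd e (dd e u))) x (F.v i) (F.v i) - 3 * ∑ i, ∑ k, t i k * B i k =
      eu (dd e (dd e (dd e u))) x + 2 * a - D3 φ x e e e - 2 * S3 := by linarith
  rw [e2', e3'] at s3
  have f1 : a * S3 ≤ a * (a * S2) := mul_le_mul_of_nonneg_left s4 hapos.le
  have f2 : 0 ≤ a ^ 2 * D2 φ x e e := mul_nonneg (sq_nonneg _) hcvx
  have f3 : 0 ≤ a ^ 2 * S2 := mul_nonneg (sq_nonneg _) hS
  have f4 : a ^ 2 - 2 * a * D3 φ x e e e ≤ ε * K1 := by nlinarith
  nlinarith [sq_nonneg (a - 2 * D3 φ x e e e)]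

omit [FiniteDimensional ℝ E] [DecidableEq ι] [Fintype ι] in
theorem D3_smul (f : E → ℝ) (x z : E) (s : ℝ) :
    D3 f x (s • z) (s • z) (s • z) = s ^ 3 * D3 f x z z z := by
  simp only [map_smul, _root_.smul_apply, smul_eq_mul]
  ring

omit [FiniteDimensional ℝ E] [DecidableEq ι] [Fintype ι] in
theorem D2_smul (f : E → ℝ) (x z : E) (s : ℝ) :
    D2 f x (s • z) (s • z) = s ^ 2 * D2 f x z z := by
  simp only [map_smul, _root_.smul_apply, smul_eq_mul]
  ring

/-- existence of the maximum point -/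
theorem Hyp.exists_cal_max (H : Hyp b u φ c0 C0) {ε : ℝ} (hε : 0 < ε) {z1 : E} (hz1 : z1 ≠ 0) :
    ∃ x e, D2 u x e e = 1 ∧ 0 ≤ D3 u x e e e ∧ ∀ y z, D3 u y z z z ^ 2 ≤
      (D3 u x e e e ^ 2 + ε * (qd b y - qd b x)) * D2 u y z z ^ 3 := by
  have : ProperSpace E := FiniteDimensional.proper_real E
  have hu := H.su
  have hD2 : ∀ y z, z ≠ 0 → 0 < D2 u y z z := fun y z hz =>
    lt_of_lt_of_le (mul_pos H.c0_pos (ip_pos b hz)) (H.lo y z)
  set G : E × E → ℝ := fun p => D3 u p.1 p.2 p.2 p.2 ^ 2 / D2 u p.1 p.2 p.2 ^ 3 - ε * qd b p.1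
    with hG
  have hne : ∀ z ∈ Metric.sphere (0 : E) 1, z ≠ 0 := fun z hz h => by simp [h] at hz
  have hbd : ∀ y z, z ≠ 0 → D3 u y z z z ^ 2 / D2 u y z z ^ 3 ≤ C0 / c0 ^ 3 := by
    intro y z hz
    have h1 := ip_pos b hz
    have h2 := H.d3 y z
    have hC0 : 0 ≤ C0 := by
      by_contra h
      have := mul_neg_of_neg_of_pos (not_le.mp h) (pow_pos h1 3)
      nlinarith [sq_nonneg (D3 u y z z z)]
    have h3 : (c0 * ip b z z) ^ 3 ≤ D2 u y z z ^ 3 :=
      pow_le_pow_left₀ (mul_pos H.c0_pos h1).le (H.lo y z) 3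
    rw [div_le_div_iff₀ (pow_pos (hD2 y z hz) 3) (pow_pos H.c0_pos 3)]
    calc D3 u y z z z ^ 2 * c0 ^ 3 ≤ C0 * ip b z z ^ 3 * c0 ^ 3 :=
          mul_le_mul_of_nonneg_right h2 (pow_pos H.c0_pos 3).le
      _ = C0 * (c0 * ip b z z) ^ 3 := by ring
      _ ≤ _ := mul_le_mul_of_nonneg_left h3 hC0
  set z2 : E := ‖z1‖⁻¹ • z1 with hz2
  have hz2s : z2 ∈ Metric.sphere (0 : E) 1 := by
    simp [hz2, norm_smul, inv_mul_cancel₀ (norm_ne_zero_iff.mpr hz1)]
  obtain ⟨T, hT, hTc⟩ := mem_cocompact.mp (qd_coercive b ((C0 / c0 ^ 3 - G (0, z2)) / ε))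
  have hcomp : IsCompact ((insert 0 T) ×ˢ Metric.sphere (0 : E) 1) :=
    (hT.insert 0).prod (isCompact_sphere 0 1)
  have hcont : ContinuousOn G ((insert 0 T) ×ˢ Metric.sphere (0 : E) 1) := by
    have c3 : Continuous fun p : E × E => D3 u p.1 p.2 p.2 p.2 :=
      (((hu.cd3.continuous.comp continuous_fst).clm_apply continuous_snd).clm_apply
        continuous_snd).clm_apply continuous_snd
    have c2 : Continuous fun p : E × E => D2 u p.1 p.2 p.2 :=
      ((hu.cd2.continuous.comp continuous_fst).clm_apply continuous_snd).clm_apply continuous_snd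
    refine ContinuousOn.sub ((c3.pow 2).continuousOn.div (c2.pow 3).continuousOn fun p hp =>
      (pow_pos (hD2 _ _ (hne _ hp.2)) 3).ne') ?_
    exact (continuous_const.mul ((sm_qd b).continuous.comp continuous_fst)).continuousOn
  obtain ⟨⟨x0, z0⟩, hp0, hmax⟩ := hcomp.exists_isMaxOn ⟨(0, z2), mem_insert _ _, hz2s⟩ hcont
  have hall : ∀ y, ∀ z ∈ Metric.sphere (0 : E) 1, G (y, z) ≤ G (x0, z0) := by
    intro y z hz
    by_cases hy : y ∈ T
    · exact hmax (show (y, z) ∈ (insert 0 T) ×ˢ Metric.sphere (0 : E) 1 from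
        ⟨mem_insert_of_mem _ hy, hz⟩)
    · have h1 : G (0, z2) ≤ G (x0, z0) :=
        hmax (show ((0 : E), z2) ∈ (insert 0 T) ×ˢ Metric.sphere (0 : E) 1 from
          ⟨mem_insert _ _, hz2s⟩)
      have h2 : (C0 / c0 ^ 3 - G (0, z2)) / ε ≤ qd b y := hTc hy
      rw [div_le_iff₀ hε] at h2
      have h3 := hbd y z (hne z hz)
      have h4 : G (y, z) = D3 u y z z z ^ 2 / D2 u y z z ^ 3 - ε * qd b y := rfl
      linarith
  have hz0 := hD2 x0 z0 (hne _ hp0.2)
  set s := (Real.sqrt (D2 u x0 z0 z0))⁻¹ with hs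
  have hs2 : s ^ 2 * D2 u x0 z0 z0 = 1 := by
    rw [hs, inv_pow, Real.sq_sqrt hz0.le, inv_mul_cancel₀ hz0.ne']
  have hs6 : (s ^ 3 * D3 u x0 z0 z0 z0) ^ 2 = D3 u x0 z0 z0 z0 ^ 2 / D2 u x0 z0 z0 ^ 3 := by
    rw [eq_div_iff (pow_pos hz0 3).ne']
    calc _ = D3 u x0 z0 z0 z0 ^ 2 * (s ^ 2 * D2 u x0 z0 z0) ^ 3 := by ring
      _ = _ := by rw [hs2]; ring
  have fin : ∀ y z, D3 u y z z z ^ 2 ≤
      ((s ^ 3 * D3 u x0 z0 z0 z0) ^ 2 + ε * (qd b y - qd b x0)) * D2 u y z z ^ 3 := by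
    intro y z
    by_cases hz : z = 0
    · simp [hz]
    have hn : 0 < ‖z‖ := norm_pos_iff.mpr hz
    have h1 := hall y (‖z‖⁻¹ • z) (by simp [norm_smul, inv_mul_cancel₀ hn.ne'])
    simp only [hG, D3_smul, D2_smul] at h1
    have h2 : (‖z‖⁻¹ ^ 3 * D3 u y z z z) ^ 2 / (‖z‖⁻¹ ^ 2 * D2 u y z z) ^ 3 =
        D3 u y z z z ^ 2 / D2 u y z z ^ 3 := by
      have := (hD2 y z hz).ne'
      field_simp
    rw [h2] at h1
    rw [hs6, ← div_le_iff₀ (pow_pos (hD2 y z hz) 3)]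
    linarith
  by_cases hsign : 0 ≤ s ^ 3 * D3 u x0 z0 z0 z0
  · refine ⟨x0, s • z0, by rw [D2_smul, hs2], by rwa [D3_smul], fun y z => ?_⟩
    rw [D3_smul]
    exact fin y z
  · refine ⟨x0, (-s) • z0, by rw [D2_smul, neg_sq, hs2], ?_, fun y z => ?_⟩
    · rw [D3_smul]
      nlinarith
    · rw [D3_smul, show ((-s) ^ 3 * D3 u x0 z0 z0 z0) ^ 2 = (s ^ 3 * D3 u x0 z0 z0 z0) ^ 2 by ring]
      exact fin y z

/-- Calabi's estimate -/
theorem Hyp.calabi (H : Hyp b u φ c0 C0) (D : Data b φ K r0) {c : ℝ} (hc : 0 < c)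
    (hlo : ∀ x z, c * ip b z z ≤ D2 u x z z) (x z : E) :
    D3 u x z z z ^ 2 ≤ 4 * (K * c⁻¹ ^ 3) * K ^ 3 * ip b z z ^ 3 := by
  by_cases hz : z = 0
  · simp [hz]
  have hK : 0 ≤ K := zero_le_one.trans D.K1
  set K1 : ℝ := (Fintype.card ι : ℝ) * c⁻¹ with hK1
  have hK10 : 0 ≤ K1 := by positivity
  have hD : 0 ≤ D2 u x z z := (mul_nonneg hc.le (ip_nonneg b z)).trans (hlo x z)
  have key : ∀ ε : ℝ, 0 < ε → D3 u x z z z ^ 2 ≤
      4 * (K * c⁻¹ ^ 3) * D2 u x z z ^ 3 + ε * ((2 * K1 + qd b x) * D2 u x z z ^ 3) := by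
    intro ε hε
    obtain ⟨x0, e, he, hpos, hmax⟩ := H.exists_cal_max hε hz
    obtain ⟨F⟩ := H.frame x0
    have h1 := cal_point H.su F hε.le he hpos (D.cvx x0 e) (F.sum_ip_le hc (hlo x0)) hK10 hmax
    have h2 : ip b e e ≤ c⁻¹ := by
      have := hlo x0 e
      rw [he] at this
      rw [← one_mul c⁻¹, ← div_eq_mul_inv, le_div_iff₀ hc]
      linarith
    have h3 : D3 φ x0 e e e ^ 2 ≤ K * c⁻¹ ^ 3 :=
      (D.d3 x0 e).trans (mul_le_mul_of_nonneg_left (pow_le_pow_left₀ (ip_nonneg b e) h2 3) hK)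
    have h4 := mul_nonneg hε.le (qd_nonneg b x0)
    refine (hmax x z).trans ?_
    rw [← mul_assoc ε, ← add_mul]
    refine mul_le_mul_of_nonneg_right ?_ (pow_nonneg hD 3)
    nlinarith
  have h1 : D3 u x z z z ^ 2 ≤ 4 * (K * c⁻¹ ^ 3) * D2 u x z z ^ 3 := by
    refine le_of_forall_pos_le_add fun δ hδ => ?_
    set W := (2 * K1 + qd b x) * D2 u x z z ^ 3
    have hp : 0 < |W| + 1 := by positivity
    refine (key (δ / (|W| + 1)) (by positivity)).trans ?_
    have : δ / (|W| + 1) * W ≤ δ := by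
      rw [div_mul_eq_mul_div, div_le_iff₀ hp]
      nlinarith [le_abs_self W]
    linarith
  refine h1.trans ?_
  rw [mul_assoc (4 * (K * c⁻¹ ^ 3)), ← mul_pow]
  exact mul_le_mul_of_nonneg_left (pow_le_pow_left₀ hD (H.upper D x z) 3) (by positivity)

omit [FiniteDimensional ℝ E] [DecidableEq ι] [Fintype ι] in
/-- polarisation -/
theorem D3_polar (hu : Sm u) (x p q r : E) :
    24 * D3 u x p q r = D3 u x (p + q + r) (p + q + r) (p + q + r) -
      D3 u x (p + q - r) (p + q - r) (p + q - r) - D3 u x (p - q + r) (p - q + r) (p - q + r) +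
      D3 u x (p - q - r) (p - q - r) (p - q - r) := by
  have s1 := D3_symm12 hu x
  have s2 := D3_symm23 hu x
  simp only [map_add, map_sub, _root_.add_apply, _root_.sub_apply]
  rw [s1 q p r, s1 r p q, s1 r q p, s2 q r p, s1 q p r, s2 p r q]
  ring

end Crest.Agent.R238.AP
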