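import Mathlib

/-!
# R238/AnDefs: definitions for the analytic input of log-Brunn–Minkowski (helper97 route)

Continuity method for the moment-measure Monge–Ampère equation
`log det (1 + D²h) = x·Dh - h - φ₀` (that is `u = |x|²/2 + h`, `φ = |x|²/2 + φ₀`,
`log det D²u = x·Du - u - φ`) in the Hölder space `C^{1/2}_b`, with the Mehler semigroup.
-/

set_option autoImplicit false

namespace Crest.Agent.R238.An

open MeasureTheory Matrix
open scoped ContDiff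

noncomputable section

abbrev E (n : ℕ) := EuclideanSpace ℝ (Fin n)
abbrev Mat (n : ℕ) := Matrix (Fin n) (Fin n) ℝ

variable {n : ℕ}

/-- basis vector -/
def ev (i : Fin n) : E n := EuclideanSpace.single i 1

/-- partial derivative -/
def pd (i : Fin n) (f : E n → ℝ) : E n → ℝ := fun x => fderiv ℝ f x (ev i)

/-- iterated partial derivative -/
def pdl : List (Fin n) → (E n → ℝ) → E n → ℝ
  | [], f => f
  | i :: l, f => pd i (pdl l f)

/-- Hessian matrix -/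
def hess (f : E n → ℝ) (x : E n) : Mat n := Matrix.of fun i j => pd i (pd j f) x

/-- Euler operator `x·Df` -/
def eul (f : E n → ℝ) (x : E n) : ℝ := fderiv ℝ f x x

/-- `a : D²f - x·Df` -/
def Lop (a : E n → Mat n) (f : E n → ℝ) (x : E n) : ℝ :=
  (∑ i, ∑ j, a x i j * pd i (pd j f) x) - eul f x

/-- Ornstein–Uhlenbeck operator `Δ f - x·Df` -/
def L0 (f : E n → ℝ) (x : E n) : ℝ := (∑ i, pd i (pd i f) x) - eul f x

def IsEven (f : E n → ℝ) : Prop := ∀ x, f (-x) = f x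

def Bd (f : E n → ℝ) (M : ℝ) : Prop := ∀ x, |f x| ≤ M

/-- `1/2`-Hölder -/
def Hol (f : E n → ℝ) (K : ℝ) : Prop := ∀ x y, |f x - f y| ≤ K * √‖x - y‖

/-- `1/2`-Hölder at small scales, Lipschitz at large scales, at the point `y₀` -/
def HolAt (f : E n → ℝ) (y₀ : E n) (K : ℝ) : Prop :=
  ∀ y, |f y - f y₀| ≤ K * (√‖y - y₀‖ + ‖y - y₀‖)

def HolL (f : E n → ℝ) (K : ℝ) : Prop := ∀ y₀, HolAt f y₀ K

/-- continuous of polynomial growth -/
structure PG (f : E n → ℝ) : Prop where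
  cont : Continuous f
  bd : ∃ (C : ℝ) (N : ℕ), ∀ x, |f x| ≤ C * (1 + ‖x‖) ^ N

/-- smooth, all partial derivatives of polynomial growth -/
structure PS (f : E n → ℝ) : Prop where
  smooth : ContDiff ℝ ∞ f
  pg : ∀ l, PG (pdl l f)

/-- smooth, all partial derivatives bounded -/
structure Cb (f : E n → ℝ) : Prop where
  smooth : ContDiff ℝ ∞ f
  bd : ∀ l, ∃ M, Bd (pdl l f) M

/-- smooth, all partial derivatives of order `≥ 2` bounded -/
structure G2 (f : E n → ℝ) : Prop where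
  smooth : ContDiff ℝ ∞ f
  cb : ∀ i j, Cb (pd i (pd j f))

/-- `C²` with second derivatives bounded by `M` -/
structure C2 (v : E n → ℝ) (M : ℝ) : Prop where
  c2 : ContDiff ℝ 2 v
  bd : ∀ i j, Bd (pd i (pd j v)) M

/-- the Hölder classes `C^{m,1/2}_b` -/
def CH : ℕ → (E n → ℝ) → Prop
  | 0, f => ∃ M K, Bd f M ∧ Hol f K
  | m + 1, f => (∃ M K, Bd f M ∧ Hol f K) ∧ Differentiable ℝ f ∧ ∀ i, CH m (pd i f)

/-- symmetric with spectrum in `[lo, hi]` -/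
def Ell (a : Mat n) (lo hi : ℝ) : Prop :=
  a.IsSymm ∧ ∀ ξ : Fin n → ℝ, lo * (ξ ⬝ᵥ ξ) ≤ ξ ⬝ᵥ a *ᵥ ξ ∧ ξ ⬝ᵥ a *ᵥ ξ ≤ hi * (ξ ⬝ᵥ ξ)

/-- the linear map of a matrix -/
def lin (B : Mat n) (x : E n) : E n := WithLp.toLp 2 (B *ᵥ x.ofLp)

/-- standard Gaussian density -/
def gk (z : E n) : ℝ := (2 * Real.pi) ^ (-(n : ℝ) / 2) * Real.exp (-‖z‖ ^ 2 / 2)

/-- Gaussian weights -/
def Wt (w : E n → ℝ) : Prop := ∃ p, PS p ∧ w = fun z => p z * gk z

def conv (w F : E n → ℝ) (s : ℝ) (x : E n) : ℝ := ∫ z, F (x + s • z) * w z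

/-- standard deviation of the Mehler kernel -/
def sd (t : ℝ) : ℝ := √(1 - Real.exp (-2 * t))

/-- Mehler semigroup -/
def Pt (t : ℝ) (F : E n → ℝ) (x : E n) : ℝ := conv gk F (sd t) (Real.exp (-t) • x)

/-- Gaussian mean -/
def mean (F : E n → ℝ) : ℝ := ∫ z, F z * gk z

/-- resolvent: `(L0 + c) (Rk c F) = F - mean F` for even `F`, `0 ≤ c ≤ 1` -/
def Rk (c : ℝ) (F : E n → ℝ) (x : E n) : ℝ :=
  -∫ t in Set.Ioi (0 : ℝ), Real.exp (c * t) * (Pt t F x - mean F)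

/-- `D²u` for `u = |x|²/2 + h` -/
def gm (h : E n → ℝ) (x : E n) : Mat n := 1 + hess h x

/-- the Stein kernel -/
def tau (h : E n → ℝ) (x : E n) : Mat n := (gm h x)⁻¹

/-- data `φ₀` -/
structure Dat (φ₀ : E n → ℝ) (B R₀ : ℝ) : Prop where
  cb : Cb φ₀
  even : IsEven φ₀
  supp : ∀ x, R₀ ≤ ‖x‖ → φ₀ x = 0
  bd : ∀ l : List (Fin n), l.length ≤ 3 → Bd (pdl l φ₀) B
  bde : Bd (eul φ₀) B
  psd : ∀ x (ξ : Fin n → ℝ), 0 ≤ ξ ⬝ᵥ gm φ₀ x *ᵥ ξ

/-- smooth solutions of the Monge–Ampère equation -/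
structure Sol (φ₀ h : E n → ℝ) : Prop where
  g2 : G2 h
  even : IsEven h
  ell : ∃ c C, 0 < c ∧ ∀ x, Ell (gm h x) c C
  qbd : ∃ M, Bd (fun x => eul h x - h x) M
  eqn : ∀ x, Real.log (gm h x).det = eul h x - h x - φ₀ x

/-- quantitative bounds; `R η` is the radius outside which `D²u` is `η`-close to `1` -/
structure Qnt (h : E n → ℝ) (c C : ℝ) (R : ℝ → ℝ) : Prop where
  ell : ∀ x, Ell (gm h x) c C
  d3 : ∀ i j k, Bd (pd i (pd j (pd k h))) C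
  far : ∀ η, 0 < η → ∀ x, R η ≤ ‖x‖ → Ell (gm h x) (1 - η) (1 + η)

/-- density `e^{-φ}` -/
def dens (φ₀ : E n → ℝ) (x : E n) : ℝ := Real.exp (-(‖x‖ ^ 2 / 2 + φ₀ x))

/-- unnormalised expectation -/
def Ex (φ₀ f : E n → ℝ) : ℝ := ∫ x, f x * dens φ₀ x

/-- `T F = F + (a - 1) : D² (Rk c F)`, so that `T F = (L_a + c) (Rk c F) + mean F` -/
def Tf (a : E n → Mat n) (c : ℝ) (F : E n → ℝ) (x : E n) : ℝ :=
  F x + ∑ i, ∑ j, (a x i j - (1 : Mat n) i j) * pd i (pd j (Rk c F)) x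

def Onto (a : E n → Mat n) (c : ℝ) : Prop :=
  ∀ f, IsEven f → CH 0 f → ∃ F, IsEven F ∧ CH 0 F ∧ ∀ x, Tf a c F x = f x

/-- a-priori lower bound for `Tf` -/
def Low (a : E n → Mat n) (c C₀ : ℝ) : Prop :=
  ∀ F, IsEven F → CH 0 F → ∀ M, Bd (Tf a c F) M → Hol (Tf a c F) M →
    Bd F (C₀ * M) ∧ Hol F (C₀ * M)

/-- Calabi's quantity `|D³u|²_τ` -/
def cal (h : E n → ℝ) (x : E n) : ℝ :=
  ∑ i, ∑ j, tau h x i j *
    (tau h x * hess (pd i h) x * (tau h x * hess (pd j h) x)).trace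

end

end Crest.Agent.R238.An
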