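import Crest.Agent.R238.AP5
import Crest.Agent.R238.AnDefs

/-!
# A priori estimates: translation to the definitions of `AnDefs`
-/

set_option autoImplicit false
set_option maxSynthPendingDepth 3

noncomputable section

open scoped ContDiff
open Set Filter Topology Matrix

namespace Crest.Agent.R238.AP

section general

variable {E : Type*} [NormedAddCommGroup E] [NormedSpace ℝ E]
variable {ι : Type*} [Fintype ι] [DecidableEq ι] (b : Module.Basis ι ℝ E)

omit [DecidableEq ι] in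
theorem sum_abs_sq_le (z : E) : (∑ i, |b.repr z i|) ^ 2 ≤ Fintype.card ι * ip b z z := by
  have := Finset.sum_mul_sq_le_sq_mul_sq Finset.univ (fun _ : ι => (1 : ℝ)) fun i => |b.repr z i|
  simpa [ip_apply, sq] using this

omit [DecidableEq ι] in
theorem D2_le_of_entries {f : E → ℝ} {x : E} {M : ℝ} (h : ∀ i j, |D2 f x (b i) (b j)| ≤ M)
    (hM : 0 ≤ M) (z : E) : D2 f x z z ≤ Fintype.card ι * M * ip b z z := by
  have h1 : D2 f x z z ≤ M * (∑ i, |b.repr z i|) ^ 2 := by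
    conv_lhs => rw [← b.sum_repr z]
    rw [bilin_comb, sq, Finset.sum_mul_sum, Finset.mul_sum]
    refine Finset.sum_le_sum fun i _ => ?_
    rw [Finset.mul_sum]
    refine Finset.sum_le_sum fun j _ => (le_abs_self _).trans ?_
    rw [abs_mul, abs_mul, mul_comm]
    exact mul_le_mul_of_nonneg_right (h i j) (by positivity)
  have h2 := mul_le_mul_of_nonneg_left (sum_abs_sq_le b z) hM
  linarith

omit [DecidableEq ι] in
theorem D3_le_of_entries {f : E → ℝ} {x : E} {M : ℝ}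
    (h : ∀ i j k, |D3 f x (b i) (b j) (b k)| ≤ M) (z : E) :
    D3 f x z z z ^ 2 ≤ Fintype.card ι ^ 3 * M ^ 2 * ip b z z ^ 3 := by
  set S := ∑ i, |b.repr z i| with hS
  have hS0 : 0 ≤ S := Finset.sum_nonneg fun i _ => abs_nonneg _
  have e : D3 f x z z z =
      ∑ i, ∑ j, ∑ k, b.repr z i * b.repr z j * b.repr z k * D3 f x (b i) (b j) (b k) := by
    have e1 : D3 f x z z z = ∑ i, b.repr z i * D3 f x (b i) z z := by
      rw [← congrArg (fun y => D3 f x y z z) (b.sum_repr z)]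
      simp only [map_sum, map_smul, _root_.sum_apply, _root_.smul_apply, smul_eq_mul]
    rw [e1]
    refine Finset.sum_congr rfl fun i _ => ?_
    rw [← congrArg (fun y => D3 f x (b i) y y) (b.sum_repr z)]
    simp only [bilin_comb, Finset.mul_sum]
    exact Finset.sum_congr rfl fun j _ => Finset.sum_congr rfl fun k _ => by ring
  have h1 : |D3 f x z z z| ≤ |M| * S ^ 3 := by
    have e2 : |M| * S ^ 3 = ∑ i, ∑ j, ∑ k, |b.repr z i| * |b.repr z j| * |b.repr z k| * |M| := by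
      simp only [← Finset.sum_mul, ← Finset.mul_sum, ← hS]
      ring
    rw [e, e2]
    refine (Finset.abs_sum_le_sum_abs _ _).trans (Finset.sum_le_sum fun i _ => ?_)
    refine (Finset.abs_sum_le_sum_abs _ _).trans (Finset.sum_le_sum fun j _ => ?_)
    refine (Finset.abs_sum_le_sum_abs _ _).trans (Finset.sum_le_sum fun k _ => ?_)
    rw [abs_mul, abs_mul, abs_mul]
    exact mul_le_mul_of_nonneg_left ((h i j k).trans (le_abs_self _)) (by positivity)
  have h2 : D3 f x z z z ^ 2 ≤ (|M| * S ^ 3) ^ 2 := by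
    rw [← sq_abs]
    exact pow_le_pow_left₀ (abs_nonneg _) h1 2
  have h3 : (S ^ 2) ^ 3 ≤ (Fintype.card ι * ip b z z) ^ 3 :=
    pow_le_pow_left₀ (sq_nonneg _) (sum_abs_sq_le b z) 3
  calc _ ≤ (|M| * S ^ 3) ^ 2 := h2
    _ = M ^ 2 * (S ^ 2) ^ 3 := by rw [mul_pow, sq_abs]; ring
    _ ≤ M ^ 2 * (Fintype.card ι * ip b z z) ^ 3 := mul_le_mul_of_nonneg_left h3 (sq_nonneg _)
    _ = _ := by ring

omit [DecidableEq ι] in
theorem ip_add_le (p q : E) : ip b (p + q) (p + q) ≤ 2 * ip b p p + 2 * ip b q q := by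
  have := ip_nonneg b (p - q)
  simp only [map_add, map_sub, LinearMap.add_apply, LinearMap.sub_apply] at this ⊢
  linarith

omit [DecidableEq ι] in
theorem ip_sub_le (p q : E) : ip b (p - q) (p - q) ≤ 2 * ip b p p + 2 * ip b q q := by
  have := ip_nonneg b (p + q)
  simp only [map_add, map_sub, LinearMap.add_apply, LinearMap.sub_apply] at this ⊢
  linarith

theorem D3_entry_le {u : E → ℝ} (hu : Sm u) {x : E} {M : ℝ} (hM : 0 ≤ M)
    (h : ∀ z, D3 u x z z z ^ 2 ≤ M * ip b z z ^ 3) (i j k : ι) :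
    |D3 u x (b i) (b j) (b k)| ≤ 6 * Real.sqrt M := by
  have h1 : ∀ z, ip b z z ≤ 10 → |D3 u x z z z| ≤ 32 * Real.sqrt M := by
    intro z hz
    refine abs_le_of_sq_le_sq' ?_ (by positivity) |> abs_le.mpr
    rw [mul_pow, Real.sq_sqrt hM]
    have := pow_le_pow_left₀ (ip_nonneg b z) hz 3
    nlinarith [h z]
  have hb : ∀ i, ip b (b i) (b i) = 1 := fun i => by rw [ip_basis, if_pos rfl]
  have a1 := ip_add_le b (b i) (b j)
  have a2 := ip_sub_le b (b i) (b j)
  have k1 := abs_le.mp (h1 _ (by linarith [ip_add_le b (b i + b j) (b k), hb i, hb j, hb k]) :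
    |D3 u x (b i + b j + b k) _ _| ≤ _)
  have k2 := abs_le.mp (h1 _ (by linarith [ip_sub_le b (b i + b j) (b k), hb i, hb j, hb k]) :
    |D3 u x (b i + b j - b k) _ _| ≤ _)
  have k3 := abs_le.mp (h1 _ (by linarith [ip_add_le b (b i - b j) (b k), hb i, hb j, hb k]) :
    |D3 u x (b i - b j + b k) _ _| ≤ _)
  have k4 := abs_le.mp (h1 _ (by linarith [ip_sub_le b (b i - b j) (b k), hb i, hb j, hb k]) :
    |D3 u x (b i - b j - b k) _ _| ≤ _)
  have := D3_polar hu x (b i) (b j) (b k)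
  have hs := Real.sqrt_nonneg M
  rw [abs_le]
  constructor <;> linarith [k1.1, k1.2, k2.1, k2.2, k3.1, k3.2, k4.1, k4.2]

variable [FiniteDimensional ℝ E]

theorem D2_qd_add {h : E → ℝ} (hh : Sm h) (x z w : E) :
    D2 (fun y => qd b y + h y) x z w = ip b w z + D2 h x z w := by
  rw [D2_add (sm_qd b) hh, D2_qd]

theorem D3_qd_add {h : E → ℝ} (hh : Sm h) (x p q r : E) :
    D3 (fun y => qd b y + h y) x p q r = D3 h x p q r := by
  rw [← dd_dd_dd ((sm_qd b).add hh), ← dd_dd_dd hh, dd_add (sm_qd b) hh, dd_qd,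
    dd_add (sm_ip b r) (hh.dd r), dd_ip, dd_add contDiff_const ((hh.dd r).dd q), dd_const]
  simp

end general

open An

variable {n : ℕ}

/-- the standard basis -/
def sb (n : ℕ) : Module.Basis (Fin n) ℝ (An.E n) := (EuclideanSpace.basisFun (Fin n) ℝ).toBasis

theorem sb_apply (i : Fin n) : sb n i = ev i := by simp [sb, ev]

theorem sb_repr (z : An.E n) (i : Fin n) : (sb n).repr z i = z i := by simp [sb]

theorem ip_sb (z : An.E n) : ip (sb n) z z = z.ofLp ⬝ᵥ z.ofLp := by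
  simp [ip_apply, sb_repr, dotProduct]

theorem qd_sb (z : An.E n) : qd (sb n) z = ‖z‖ ^ 2 / 2 := by
  rw [qd, EuclideanSpace.norm_sq_eq]
  simp [ip_apply, sb_repr, sq]

theorem pd_eq (i : Fin n) (f : An.E n → ℝ) : An.pd i f = dd (sb n i) f := by
  rw [sb_apply]
  rfl

theorem hess_sb {h : An.E n → ℝ} (hh : Sm h) (x : An.E n) :
    AP.hess (sb n) (fun y => qd (sb n) y + h y) x = gm h x := by
  ext i j
  simp only [AP.hess, gm, An.hess, Matrix.of_apply, Matrix.add_apply, pd_eq,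
    dd_dd ((sm_qd (sb n)).add hh), D2_qd_add _ hh, dd_dd hh, ip_basis, Matrix.one_apply, eq_comm]

theorem quad_sb {h : An.E n → ℝ} (hh : Sm h) (x z : An.E n) :
    D2 (fun y => qd (sb n) y + h y) x z z = z.ofLp ⬝ᵥ gm h x *ᵥ z.ofLp := by
  rw [← hess_sb hh]
  conv_lhs => rw [← (sb n).sum_repr z]
  rw [bilin_comb]
  simp only [dotProduct, Matrix.mulVec, AP.hess, Matrix.of_apply, dd_dd ((sm_qd (sb n)).add hh),
    sb_repr, Finset.mul_sum]
  exact Finset.sum_congr rfl fun i _ => Finset.sum_congr rfl fun j _ => by ring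

theorem ell_of {h : An.E n → ℝ} (hh : Sm h) {x : An.E n} {lo hi : ℝ}
    (H : ∀ z, lo * ip (sb n) z z ≤ D2 (fun y => qd (sb n) y + h y) x z z ∧
      D2 (fun y => qd (sb n) y + h y) x z z ≤ hi * ip (sb n) z z) : Ell (gm h x) lo hi := by
  refine ⟨?_, fun ξ => ?_⟩
  · rw [← hess_sb hh]
    ext i j
    simp only [Matrix.transpose_apply, AP.hess, Matrix.of_apply, dd_comm ((sm_qd (sb n)).add hh)
      (sb n j)]
  · have := H (WithLp.toLp 2 ξ)
    rwa [quad_sb hh, ip_sb] at this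

theorem data_of {φ₀ : An.E n → ℝ} {B R₀ : ℝ} (D : Dat φ₀ B R₀) :
    Data (sb n) (fun y => qd (sb n) y + φ₀ y) (1 + n * |B| + n ^ 3 * B ^ 2 + 2 * |B|)
      ((|R₀| + 1) ^ 2 / 2) := by
  have hs : Sm φ₀ := D.cb.smooth
  have hB := abs_nonneg B
  have hB' := le_abs_self B
  have p1 : (0 : ℝ) ≤ n * |B| := by positivity
  have p2 : (0 : ℝ) ≤ n ^ 3 * B ^ 2 := by positivity
  have heu : ∀ x, eu (fun y => qd (sb n) y + φ₀ y) x = 2 * qd (sb n) x + eul φ₀ x := fun x => by
    rw [eu_add (sm_qd _) hs, eu_qd]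
    rfl
  have hev : ∀ x : An.E n, (|R₀| + 1) ^ 2 / 2 ≤ qd (sb n) x → φ₀ =ᶠ[𝓝 x] fun _ => 0 := by
    intro x hx
    rw [qd_sb] at hx
    have h1 : R₀ < ‖x‖ := by
      have : |R₀| + 1 ≤ ‖x‖ := by
        refine abs_le_of_sq_le_sq' (by linarith) (norm_nonneg _) |>.2
      linarith [le_abs_self R₀]
    filter_upwards [(isOpen_lt continuous_const continuous_norm).mem_nhds h1] with y hy
    exact D.supp y (le_of_lt hy)
  refine ⟨by linarith, fun x z => ?_, fun x z => ?_, fun x z => ?_, fun x => ?_, fun x => ?_,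
    fun x hx z => ?_, fun x hx => ?_, fun x hx => ?_⟩
  · rw [quad_sb hs]
    exact D.psd x _
  · rw [D2_qd_add _ hs]
    have := D2_le_of_entries (sb n) (f := φ₀) (x := x) (M := |B|) (fun i j => by
      have := D.bd [i, j] (by simp) x
      rw [← dd_dd hs, ← pd_eq, ← pd_eq]
      exact this.trans hB') hB z
    rw [Fintype.card_fin] at this
    nlinarith [ip_nonneg (sb n) z]
  · rw [D3_qd_add _ hs]
    have := D3_le_of_entries (sb n) (f := φ₀) (x := x) (M := B) (fun i j k => by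
      have := D.bd [i, j, k] (by simp) x
      rw [← dd_dd_dd hs, ← pd_eq, ← pd_eq, ← pd_eq]
      exact this) z
    rw [Fintype.card_fin] at this
    exact this.trans (mul_le_mul_of_nonneg_right (by linarith) (pow_nonneg (ip_nonneg _ _) 3))
  · have : |φ₀ x| ≤ B := D.bd [] (by simp) x
    rw [add_sub_cancel_left]
    linarith
  · have h1 : |φ₀ x| ≤ B := D.bd [] (by simp) x
    have h2 := D.bde x
    rw [heu]
    linarith [(abs_le.mp h1).1, (abs_le.mp h2).1]
  · rw [D2_qd_add _ hs]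
    have h1 : fderiv ℝ φ₀ =ᶠ[𝓝 x] fun _ => 0 := (hev x hx).fderiv.trans
      (Eventually.of_forall fun y => by simp)
    have h2 : D2 φ₀ x = 0 := by
      rw [D2, h1.fderiv_eq]
      simp
    simp [h2]
  · simp [(hev x hx).eq_of_nhds]
  · rw [heu, eul, (hev x hx).fderiv_eq]
    simp

theorem hyp_of {φ₀ h : An.E n → ℝ} (hφ : Sm φ₀) (S : An.Sol φ₀ h) :
    ∃ c0 C0, Hyp (sb n) (fun y => qd (sb n) y + h y) (fun y => qd (sb n) y + φ₀ y) c0 C0 := by
  have hs : Sm h := S.g2.smooth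
  obtain ⟨c, C, hc, hE⟩ := S.ell
  choose M hM using fun p : Fin n × Fin n × Fin n => (S.g2.cb p.2.1 p.2.2).bd [p.1]
  set M3 := ∑ p, |M p| with hM3
  have h3 : ∀ x i j k, |D3 h x (sb n i) (sb n j) (sb n k)| ≤ M3 := by
    intro x i j k
    have := hM (i, j, k) x
    rw [← dd_dd_dd hs, ← pd_eq, ← pd_eq, ← pd_eq]
    exact (this.trans (le_abs_self _)).trans
      (Finset.single_le_sum (f := fun p => |M p|) (fun p _ => abs_nonneg _) (Finset.mem_univ _))
  refine ⟨c, max C (n ^ 3 * M3 ^ 2), (sm_qd _).add hs, (sm_qd _).add hφ, hc, fun x z => ?_,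
    fun x z => ?_, fun x z => ?_, fun x => ?_⟩
  · rw [quad_sb hs, ip_sb]
    exact ((hE x).2 _).1
  · refine le_trans ?_ (mul_le_mul_of_nonneg_right (le_max_left _ _) (ip_nonneg _ _))
    rw [quad_sb hs, ip_sb]
    exact ((hE x).2 _).2
  · rw [D3_qd_add _ hs]
    have := D3_le_of_entries (sb n) (h3 x) z
    rw [Fintype.card_fin] at this
    exact this.trans (mul_le_mul_of_nonneg_right (le_max_right _ _) (pow_nonneg (ip_nonneg _ _) 3))
  · rw [hess_sb hs, S.eqn, eu_add (sm_qd _) hs, eu_qd]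
    have : eul h x = eu h x := rfl
    linarith

theorem apriori_main (B R₀ : ℝ) :
    ∃ (c C : ℝ) (R : ℝ → ℝ), 0 < c ∧ 0 < C ∧
      ∀ φ₀ h : An.E n → ℝ, Dat φ₀ B R₀ → An.Sol φ₀ h → Qnt h c C R := by
  set K : ℝ := 1 + n * |B| + n ^ 3 * B ^ 2 + 2 * |B| with hK
  have hK0 : 0 < K := by positivity
  set c := Real.exp (-(2 * K) - Fintype.card (Fin n) * Real.log K) with hc
  have hc0 : 0 < c := Real.exp_pos _
  set M := 4 * (K * c⁻¹ ^ 3) * K ^ 3 with hM
  have hM0 : 0 ≤ M := by positivity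
  have hs0 := Real.sqrt_nonneg M
  choose r hr using fun (η : ℝ) (hη : 0 < η) => far_est (sb n) K ((|R₀| + 1) ^ 2 / 2) hη
  refine ⟨c, K + 6 * Real.sqrt M, fun η => if hη : 0 < η then Real.sqrt (2 * r η hη) else 0, hc0,
    by positivity, fun φ₀ h D S => ?_⟩
  have hs : Sm h := S.g2.smooth
  have D' := data_of D
  obtain ⟨c0, C0, H⟩ := hyp_of D.cb.smooth S
  refine ⟨fun x => ell_of hs fun z => ⟨H.lower D' x z, (H.upper D' x z).trans
    (mul_le_mul_of_nonneg_right (by linarith) (ip_nonneg _ _))⟩, fun i j k x => ?_,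
    fun η hη x hx => ell_of hs (hr η hη _ _ _ _ H D' x ?_)⟩
  · have := D3_entry_le (sb n) H.su hM0 (H.calabi D' hc0 (H.lower D') x) i j k
    rw [D3_qd_add _ hs, ← dd_dd_dd hs, ← pd_eq, ← pd_eq, ← pd_eq] at this
    linarith
  · simp only [dif_pos hη] at hx
    have := (Real.sqrt_le_iff.mp hx).2
    rw [qd_sb]
    linarith

end Crest.Agent.R238.AP
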