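import Crest.Agent.R238.FAbs

/-!
# R238 / ARid: the variance inequality for ridge potentials

`y_j = ⟪x, a_j⟫`, `hess φ = δ·1 + Σ v''(y_j) a_j a_jᵀ` (`hess_ridge`), `g₁ = Σ z_j (y_j v'(y_j) - v(y_j))`
with `∇g₁ = Σ z_j y_j v''(y_j) a_j`, `g₂ = Σ z_j v(y_j)`, `b₁ = Σ z_j² y_j² v''(y_j)`,
`b₂ = Σ z_j² v''(y_j) a_jᵀ τ a_j`.  `h1`: `2 z y v'' ⟨ξ,a⟩ ≤ v''(⟨ξ,a⟩² + z²y²)`; `h2`: `ridge_cs`,
`tr_n_nonneg`.  `∫ρ v''(y_j) a_jᵀτa_j = ∫ρ y_j v'(y_j)`: `stein_poly` with `N = v'(y_j)`, contract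
with `a_j`.
-/

set_option autoImplicit false
open MeasureTheory Matrix Set Metric
open scoped RealInnerProductSpace ContDiff BigOperators

namespace Crest.Agent.R238

variable {n : ℕ}

theorem arid_inner (x a : E n) : ⟪x, a⟫ = ∑ d, a d * x d := by
  simp [PiLp.inner_apply]

theorem arid_cd {k : WithTop ℕ∞} {g : ℝ → ℝ} (hg : ContDiff ℝ k g) (a : E n) :
    ContDiff ℝ k fun y : E n => g ⟪y, a⟫ :=
  hg.comp (contDiff_id.inner ℝ contDiff_const)

theorem arid_cont {g : ℝ → ℝ} (hg : Continuous g) (a : E n) : Continuous fun y : E n => g ⟪y, a⟫ :=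
  hg.comp (continuous_id.inner continuous_const)

theorem arid_diff {g : ℝ → ℝ} (hg : Differentiable ℝ g) (a : E n) :
    Differentiable ℝ fun y : E n => g ⟪y, a⟫ :=
  hg.comp (differentiable_id.inner ℝ (differentiable_const a))

theorem arid_pd {g : ℝ → ℝ} (hg : Differentiable ℝ g) (a x : E n) (i : Fin n) :
    pd i (fun y => g ⟪y, a⟫) x = deriv g ⟪x, a⟫ * a i := by
  rw [pd_comp (f := fun y : E n => ⟪y, a⟫) i (hg _).hasDerivAt
    ((differentiable_id.inner ℝ (differentiable_const a)) x), pd_inner]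

theorem arid_pd_sum {N : ℕ} {g : ℝ → ℝ} (hg : Differentiable ℝ g) (a : Fin N → E n) (z : Fin N → ℝ)
    (x : E n) (i : Fin n) :
    pd i (fun y => ∑ j, z j * g ⟪y, a j⟫) x = ∑ j, z j * (deriv g ⟪x, a j⟫ * a j i) := by
  rw [pd_sum _ i fun j _ => (arid_diff hg (a j) x).const_mul (z j)]
  exact Finset.sum_congr rfl fun j _ => by rw [pd_const_mul, arid_pd hg]

theorem arid_v1 {m : ℝ} {v : ℝ → ℝ} (hv : Prof m v) : ContDiff ℝ 1 (deriv v) :=
  ContDiff.deriv' (n := 1) hv.cd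

theorem arid_v2 {m : ℝ} {v : ℝ → ℝ} (hv : Prof m v) : Continuous (deriv (deriv v)) :=
  (arid_v1 hv).continuous_deriv le_rfl

theorem arid_odd {m : ℝ} {v : ℝ → ℝ} (hv : Prof m v) (y : ℝ) : deriv v (-y) = -deriv v y := by
  have h := deriv_comp_neg v y
  rw [show (fun x => v (-x)) = v from funext hv.even] at h
  rw [h, neg_neg]

/-- the matrix `δ·1 + Σ w_j a_j a_jᵀ` -/
def aridM {N : ℕ} (δ : ℝ) (w : Fin N → ℝ) (a : Fin N → E n) : Mat n :=
  Matrix.of fun i k => (if i = k then δ else 0) + ∑ j, w j * (a j i * a j k)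

theorem arid_tr {N : ℕ} (δ : ℝ) (w : Fin N → ℝ) (a : Fin N → E n) (X : Mat n) :
    (aridM δ w a * X).trace = δ * X.trace + ∑ j, w j * ((a j).ofLp ⬝ᵥ (X *ᵥ (a j).ofLp)) := by
  simp only [Matrix.trace, Matrix.diag, Matrix.mul_apply, aridM, Matrix.of_apply, add_mul, ite_mul,
    zero_mul, Finset.sum_add_distrib, Finset.sum_ite_eq, Finset.mem_univ, if_true, dotProduct,
    Matrix.mulVec, Finset.mul_sum, Finset.sum_mul]
  congr 1
  rw [Finset.sum_comm]
  conv_rhs => rw [Finset.sum_comm]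
  refine Finset.sum_congr rfl fun k _ => ?_
  rw [Finset.sum_comm]
  exact Finset.sum_congr rfl fun j _ => Finset.sum_congr rfl fun i _ => by ring

theorem arid_quad {N : ℕ} (δ : ℝ) (w : Fin N → ℝ) (a : Fin N → E n) (ξ : Fin n → ℝ) :
    ξ ⬝ᵥ (aridM δ w a *ᵥ ξ) = δ * (ξ ⬝ᵥ ξ) + ∑ j, w j * (ξ ⬝ᵥ (a j).ofLp) ^ 2 := by
  simp only [aridM, Matrix.of_apply, add_mul, ite_mul, mul_add,
    zero_mul, Finset.sum_add_distrib, Finset.sum_ite_eq, Finset.mem_univ, if_true, dotProduct,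
    Matrix.mulVec, Finset.mul_sum, Finset.sum_mul, sq]
  congr 1
  · exact Finset.sum_congr rfl fun i _ => by ring
  · conv_rhs => rw [Finset.sum_comm]
    refine Finset.sum_congr rfl fun i _ => ?_
    rw [Finset.sum_comm]
    exact Finset.sum_congr rfl fun j _ => Finset.sum_congr rfl fun k _ => by ring

theorem arid_hess_sum {N : ℕ} {m : ℝ} {v : ℝ → ℝ} (hv : Prof m v) (a : Fin N → E n) (z : Fin N → ℝ)
    (x : E n) : hess (fun y => ∑ j, z j * v ⟪y, a j⟫) x =
      aridM 0 (fun j => z j * deriv (deriv v) ⟪x, a j⟫) a := by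
  ext i k
  have e : pd k (fun y => ∑ j, z j * v ⟪y, a j⟫) = fun y => ∑ j, (z j * a j k) * deriv v ⟪y, a j⟫ := by
    funext y
    rw [arid_pd_sum (hv.cd.differentiable (by norm_num))]
    exact Finset.sum_congr rfl fun j _ => by ring
  simp only [hess, aridM, Matrix.of_apply, ite_self, zero_add]
  rw [e, arid_pd_sum ((arid_v1 hv).differentiable (by norm_num))]
  exact Finset.sum_congr rfl fun j _ => by ring

theorem hess_ridge {N : ℕ} {δ m : ℝ} {v : ℝ → ℝ} (hv : Prof m v) (a : Fin N → E n) (x : E n)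
    (i k : Fin n) : hess (ridge δ v a) x i k =
      (if i = k then δ else 0) + ∑ j, deriv (deriv v) ⟪x, a j⟫ * (a j i * a j k) := by
  have d1 : Differentiable ℝ v := hv.cd.differentiable (by norm_num)
  have d2 : Differentiable ℝ (deriv v) := (arid_v1 hv).differentiable (by norm_num)
  have e : pd k (ridge δ v a) = fun y => δ * y k + ∑ j, a j k * deriv v ⟪y, a j⟫ := by
    funext y
    have h1 : DifferentiableAt ℝ (fun y : E n => δ / 2 * ‖y‖ ^ 2) y :=
      ((contDiff_norm_sq ℝ (n := 1)).differentiable (by norm_num) y).const_mul _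
    have h2 : DifferentiableAt ℝ (fun y : E n => ∑ j, v ⟪y, a j⟫) y :=
      DifferentiableAt.fun_sum fun j _ => arid_diff d1 (a j) y
    have h3 := arid_pd_sum d1 a (fun _ => 1) y k
    simp only [one_mul] at h3
    unfold ridge
    rw [pd_add k h1 h2, pd_const_mul, pd_normSq, h3]
    congr 1
    · ring
    · exact Finset.sum_congr rfl fun j _ => mul_comm _ _
  have h4 : DifferentiableAt ℝ (fun y : E n => δ * y k) x :=
    (((contDiff_coord (m := 1) k).differentiable (by norm_num)) x).const_mul _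
  have h5 : DifferentiableAt ℝ (fun y : E n => ∑ j, a j k * deriv v ⟪y, a j⟫) x :=
    DifferentiableAt.fun_sum fun j _ => (arid_diff d2 (a j) x).const_mul _
  simp only [hess, Matrix.of_apply]
  rw [e, pd_add i h4 h5, pd_const_mul, pd_coord, arid_pd_sum d2, mul_ite, mul_one, mul_zero]
  congr 1
  exact Finset.sum_congr rfl fun j _ => by ring

theorem arid_hess {N : ℕ} {δ m : ℝ} {v : ℝ → ℝ} (hv : Prof m v) (a : Fin N → E n) (x : E n) :
    hess (ridge δ v a) x = aridM δ (fun j => deriv (deriv v) ⟪x, a j⟫) a := by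
  ext i k
  exact hess_ridge hv a x i k

theorem arid_cs (ξ : Fin n → ℝ) (a : E n) : (ξ ⬝ᵥ a.ofLp) ^ 2 ≤ ‖a‖ ^ 2 * (ξ ⬝ᵥ ξ) := by
  have h := Finset.sum_mul_sq_le_sq_mul_sq Finset.univ ξ a.ofLp
  rw [EuclideanSpace.real_norm_sq_eq, mul_comm]
  simpa only [dotProduct, sq] using h

theorem pot_ridge {N : ℕ} {δ m : ℝ} {v : ℝ → ℝ} (hδ : 0 < δ) (hv : Prof m v) (a : Fin N → E n) :
    Pot δ (δ + m * ∑ j, ‖a j‖ ^ 2) (ridge δ v a) := by
  have hm : 0 ≤ m := (abs_nonneg _).trans (hv.d1 0)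
  refine ⟨hδ, le_add_of_nonneg_right (by positivity), ?_, fun x => ?_, fun x => ⟨fun i k => ?_,
    fun ξ => ?_, fun ξ => ?_⟩⟩
  · exact (contDiff_const.mul (contDiff_norm_sq ℝ)).add
      (ContDiff.sum fun j _ => arid_cd hv.cd (a j))
  · simp only [ridge, norm_neg, inner_neg_left, hv.even]
  · rw [hess_ridge hv, hess_ridge hv]
    simp only [eq_comm (a := i), mul_comm (a _ i)]
  · rw [arid_hess hv, arid_quad]
    exact le_add_of_nonneg_right (Finset.sum_nonneg fun j _ => mul_nonneg (hv.d2 _) (sq_nonneg _))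
  · rw [arid_hess hv, arid_quad, add_mul, Finset.mul_sum, Finset.sum_mul]
    refine add_le_add le_rfl (Finset.sum_le_sum fun j _ => ?_)
    rw [mul_assoc]
    exact mul_le_mul (hv.d2' _) (arid_cs ξ (a j)) (sq_nonneg _) hm

theorem arid_pc (k : ℝ) : PolyG fun _ : E n => k := polyG_of_bdd (M := |k|) fun _ => le_rfl

theorem arid_p1 {m : ℝ} {v : ℝ → ℝ} (hv : Prof m v) (a : E n) :
    PolyG fun x : E n => deriv v ⟪x, a⟫ := polyG_of_bdd fun _ => hv.d1 _

theorem arid_p2 {m : ℝ} {v : ℝ → ℝ} (hv : Prof m v) (a : E n) :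
    PolyG fun x : E n => deriv (deriv v) ⟪x, a⟫ :=
  polyG_of_bdd (M := m) fun _ => by rw [abs_of_nonneg (hv.d2 _)]; exact hv.d2' _

theorem arid_psq {f : E n → ℝ} (hf : PolyG f) : PolyG fun x => f x ^ 2 := by
  simpa only [sq] using hf.mul hf

section
variable {α β c C m : ℝ} {φ : E n → ℝ} {τ : E n → Mat n} {U : E n → Fin n → Mat n} {v : ℝ → ℝ}

theorem arid_pτ (hM : MS φ c C τ U) (a : E n) (d : Fin n) :
    PolyG (fun x => ∑ e, τ x d e * a e) ∧ Continuous fun x => ∑ e, τ x d e * a e :=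
  ⟨PolyG.sum _ fun e _ => (polyG_of_bdd fun x => hM.entry_le x d e).mul (arid_pc _),
    continuous_finsetSum _ fun e _ => (hM.continuous d e).mul continuous_const⟩

theorem arid_pq (hM : MS φ c C τ U) (a : E n) :
    PolyG (fun x => a.ofLp ⬝ᵥ (τ x *ᵥ a.ofLp)) ∧ Continuous fun x => a.ofLp ⬝ᵥ (τ x *ᵥ a.ofLp) :=
  ⟨PolyG.sum _ fun d _ => (arid_pc _).mul (arid_pτ hM a d).1,
    continuous_finsetSum _ fun d _ => continuous_const.mul (arid_pτ hM a d).2⟩

theorem arid_stein (hP : Pot α β φ) (hM : MS φ c C τ U) (hv : Prof m v) (a : E n) :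
    ∫ x, rho φ x * (deriv (deriv v) ⟪x, a⟫ * (a.ofLp ⬝ᵥ (τ x *ᵥ a.ofLp))) =
      ∫ x, rho φ x * (⟪x, a⟫ * deriv v ⟪x, a⟫) := by
  have d2 : Differentiable ℝ (deriv v) := (arid_v1 hv).differentiable (by norm_num)
  have e : ∀ e, pd e (fun y : E n => deriv v ⟪y, a⟫) = fun x => deriv (deriv v) ⟪x, a⟫ * a e :=
    fun e => funext fun x => arid_pd d2 a x e
  have h := fun d => stein_poly hP hM (arid_cd (arid_v1 hv) a) (arid_p1 hv a)
    (fun i => by rw [e]; exact (arid_p2 hv a).mul (arid_pc _)) d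
  simp only [e] at h
  have i1 : ∀ d, Integrable fun x => a d * (rho φ x * (x d * deriv v ⟪x, a⟫)) := fun d =>
    (hP.integrable (((contDiff_coord (m := 0) d).continuous.mul
      (arid_cont (arid_v1 hv).continuous a)).aestronglyMeasurable)
      ((polyG_coord d).mul (arid_p1 hv a))).const_mul _
  have i2 : ∀ d, Integrable fun x =>
      a d * (rho φ x * ∑ e, τ x d e * (deriv (deriv v) ⟪x, a⟫ * a e)) := fun d =>
    (hP.integrable (continuous_finsetSum _ fun e _ => (hM.continuous d e).mul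
      ((arid_cont (arid_v2 hv) a).mul continuous_const)).aestronglyMeasurable
      (PolyG.sum _ fun e _ => (polyG_of_bdd fun x => hM.entry_le x d e).mul
        ((arid_p2 hv a).mul (arid_pc _)))).const_mul _
  calc ∫ x, rho φ x * (deriv (deriv v) ⟪x, a⟫ * (a.ofLp ⬝ᵥ (τ x *ᵥ a.ofLp)))
      = ∫ x, ∑ d, a d * (rho φ x * ∑ e, τ x d e * (deriv (deriv v) ⟪x, a⟫ * a e)) := by
        refine integral_congr_ae (Filter.Eventually.of_forall fun x => ?_)
        simp only [dotProduct, Matrix.mulVec, Finset.mul_sum]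
        exact Finset.sum_congr rfl fun d _ => Finset.sum_congr rfl fun e _ => by ring
    _ = ∑ d, a d * ∫ x, rho φ x * ∑ e, τ x d e * (deriv (deriv v) ⟪x, a⟫ * a e) := by
        rw [integral_finsetSum _ fun d _ => i2 d]
        exact Finset.sum_congr rfl fun d _ => integral_const_mul _ _
    _ = ∑ d, a d * ∫ x, rho φ x * (x d * deriv v ⟪x, a⟫) :=
        Finset.sum_congr rfl fun d _ => by rw [h d]
    _ = ∫ x, ∑ d, a d * (rho φ x * (x d * deriv v ⟪x, a⟫)) := by
        rw [integral_finsetSum _ fun d _ => i1 d]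
        exact Finset.sum_congr rfl fun d _ => (integral_const_mul _ _).symm
    _ = _ := by
        refine integral_congr_ae (Filter.Eventually.of_forall fun x => ?_)
        beta_reduce
        generalize deriv v ⟪x, a⟫ = t
        rw [arid_inner, Finset.sum_mul, Finset.mul_sum]
        exact Finset.sum_congr rfl fun d _ => by ring

end

theorem ridge_var {N : ℕ} {δ m c C : ℝ} {v : ℝ → ℝ} (hδ : 0 < δ) (hv : Prof m v)
    (a : Fin N → E n) (z : Fin N → ℝ) {τ : E n → Mat n} {U : E n → Fin n → Mat n}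
    (hM : MS (ridge δ v a) c C τ U) :
    ∫ x, rho (ridge δ v a) x * ((∑ j, z j * (⟪x, a j⟫ * deriv v ⟪x, a j⟫)) -
        mean (ridge δ v a) fun y => ∑ j, z j * (⟪y, a j⟫ * deriv v ⟪y, a j⟫)) ^ 2 ≤
      ∫ x, rho (ridge δ v a) x * ∑ j, z j ^ 2 *
        (⟪x, a j⟫ * deriv v ⟪x, a j⟫ + ⟪x, a j⟫ ^ 2 * deriv (deriv v) ⟪x, a j⟫) := by
  have hP := pot_ridge hδ hv a
  have d1 : Differentiable ℝ v := hv.cd.differentiable (by norm_num)
  have d2 : Differentiable ℝ (deriv v) := (arid_v1 hv).differentiable (by norm_num)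
  have cI : ∀ j, Continuous fun x : E n => ⟪x, a j⟫ := fun j => continuous_id.inner continuous_const
  have c1 : ∀ j, Continuous fun x : E n => deriv v ⟪x, a j⟫ := fun j =>
    arid_cont (arid_v1 hv).continuous _
  have c2 : ∀ j, Continuous fun x : E n => deriv (deriv v) ⟪x, a j⟫ := fun j => arid_cont (arid_v2 hv) _
  set w : ℝ → ℝ := fun y => y * deriv v y - v y with hw
  have hw1 : ContDiff ℝ 1 w := (contDiff_id.mul (arid_v1 hv)).sub (hv.cd.of_le (by norm_num))
  have hwd : ∀ y, deriv w y = y * deriv (deriv v) y := fun y => by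
    have := (((hasDerivAt_id' y).fun_mul (d2 y).hasDerivAt).fun_sub (d1 y).hasDerivAt).deriv
    rw [hw, this]; ring
  have eg : ∀ x : E n, ∑ j, z j * w ⟪x, a j⟫ + ∑ j, z j * v ⟪x, a j⟫ =
      ∑ j, z j * (⟪x, a j⟫ * deriv v ⟪x, a j⟫) := fun x => by
    rw [← Finset.sum_add_distrib]
    exact Finset.sum_congr rfl fun j _ => by simp only [hw]; ring
  have i1 : ∀ j, Integrable fun x => rho (ridge δ v a) x * (⟪x, a j⟫ ^ 2 * deriv (deriv v) ⟪x, a j⟫) :=
    fun j => hP.integrable (((cI j).pow 2).mul (c2 j)).aestronglyMeasurable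
      ((arid_psq (polyG_inner _)).mul (arid_p2 hv _))
  have i2 : ∀ j, Integrable fun x => rho (ridge δ v a) x *
      (deriv (deriv v) ⟪x, a j⟫ * ((a j).ofLp ⬝ᵥ (τ x *ᵥ (a j).ofLp))) :=
    fun j => hP.integrable ((c2 j).mul (arid_pq hM _).2).aestronglyMeasurable
      ((arid_p2 hv _).mul (arid_pq hM _).1)
  have i3 : ∀ j, Integrable fun x => rho (ridge δ v a) x * (⟪x, a j⟫ * deriv v ⟪x, a j⟫) :=
    fun j => hP.integrable ((cI j).mul (c1 j)).aestronglyMeasurable
      ((polyG_inner _).mul (arid_p1 hv _))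
  have es : ∀ (f : Fin N → E n → ℝ), (fun x => rho (ridge δ v a) x * ∑ j, z j ^ 2 * f j x) =
      fun x => ∑ j, z j ^ 2 * (rho (ridge δ v a) x * f j x) := fun f => funext fun x => by
    rw [Finset.mul_sum]
    exact Finset.sum_congr rfl fun j _ => by ring
  have is : ∀ {f : Fin N → E n → ℝ}, (∀ j, Integrable fun x => rho (ridge δ v a) x * f j x) →
      (Integrable fun x => rho (ridge δ v a) x * ∑ j, z j ^ 2 * f j x) ∧
      ∫ x, rho (ridge δ v a) x * ∑ j, z j ^ 2 * f j x =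
        ∑ j, z j ^ 2 * ∫ x, rho (ridge δ v a) x * f j x := fun {f} hf => by
    rw [es f]
    refine ⟨integrable_finsetSum _ fun j _ => (hf j).const_mul _, ?_⟩
    rw [integral_finsetSum _ fun j _ => (hf j).const_mul _]
    exact Finset.sum_congr rfl fun j _ => integral_const_mul _ _
  have main := abs_var hP hM (g₁ := fun x => ∑ j, z j * w ⟪x, a j⟫)
    (g₂ := fun x => ∑ j, z j * v ⟪x, a j⟫)
    (b₁ := fun x => ∑ j, z j ^ 2 * (⟪x, a j⟫ ^ 2 * deriv (deriv v) ⟪x, a j⟫))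
    (b₂ := fun x => ∑ j, z j ^ 2 * (deriv (deriv v) ⟪x, a j⟫ * ((a j).ofLp ⬝ᵥ (τ x *ᵥ (a j).ofLp))))
    (ContDiff.sum fun j _ => contDiff_const.mul (arid_cd hw1 _))
    (ContDiff.sum fun j _ => contDiff_const.mul (arid_cd hv.cd _))
    (fun x => by rw [eg, eg]; simp only [inner_neg_left, arid_odd hv, neg_mul_neg])
    (by
      simp only [eg]
      exact hP.integrable ((continuous_finsetSum _ fun j _ =>
        continuous_const.mul ((cI j).mul (c1 j))).pow 2).aestronglyMeasurable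
        (arid_psq (PolyG.sum _ fun j _ => (arid_pc _).mul ((polyG_inner _).mul (arid_p1 hv _)))))
    (by
      simp only [arid_pd_sum d1]
      exact hP.integrable (continuous_finsetSum _ fun i _ => (continuous_finsetSum _ fun j _ =>
        continuous_const.mul ((c1 j).mul continuous_const)).pow 2).aestronglyMeasurable
        (PolyG.sum _ fun i _ => arid_psq (PolyG.sum _ fun j _ =>
          (arid_pc _).mul ((arid_p1 hv _).mul (arid_pc _)))))
    (is i1).1 (is i2).1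
    (fun x ξ => by
      have e : ξ ⬝ᵥ grad (fun x => ∑ j, z j * w ⟪x, a j⟫) x =
          ∑ j, z j * (⟪x, a j⟫ * deriv (deriv v) ⟪x, a j⟫) * (ξ ⬝ᵥ (a j).ofLp) := by
        simp only [grad, dotProduct, arid_pd_sum (hw1.differentiable (by norm_num)), hwd,
          Finset.mul_sum]
        rw [Finset.sum_comm]
        exact Finset.sum_congr rfl fun j _ => Finset.sum_congr rfl fun i _ => by ring
      rw [e, arid_hess hv, arid_quad, add_assoc, ← Finset.sum_add_distrib, Finset.mul_sum]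
      have h0 : 0 ≤ ξ ⬝ᵥ ξ := Finset.sum_nonneg fun i _ => mul_self_nonneg _
      refine le_add_of_nonneg_of_le (mul_nonneg hδ.le h0) (Finset.sum_le_sum fun j _ => ?_)
      nlinarith [mul_nonneg (hv.d2 ⟪x, a j⟫) (sq_nonneg (ξ ⬝ᵥ (a j).ofLp - z j * ⟪x, a j⟫))])
    (fun x S hS => by
      rw [Matrix.trace_mul_comm, arid_hess_sum hv, arid_hess hv, arid_tr, arid_tr, zero_mul, zero_add,
        add_assoc, ← Finset.sum_add_distrib, Finset.mul_sum]
      refine le_add_of_nonneg_of_le (mul_nonneg hδ.le (tr_n_nonneg (hM.ell x) hM.cpos hS))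
        (Finset.sum_le_sum fun j _ => ?_)
      nlinarith [mul_le_mul_of_nonneg_left (ridge_cs (hM.ell x) hM.cpos hS (a j).ofLp (z j))
        (hv.d2 ⟪x, a j⟫)])
  simp only [eg] at main
  refine main.trans (le_of_eq ?_)
  have i4 : ∀ j, Integrable fun x => rho (ridge δ v a) x *
      (⟪x, a j⟫ * deriv v ⟪x, a j⟫ + ⟪x, a j⟫ ^ 2 * deriv (deriv v) ⟪x, a j⟫) := fun j => by
    simp only [mul_add]
    exact (i3 j).add (i1 j)
  rw [(is i1).2, (is i2).2, (is i4).2, ← Finset.sum_add_distrib]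
  refine Finset.sum_congr rfl fun j _ => ?_
  rw [arid_stein hP hM hv]
  simp only [mul_add]
  rw [integral_add (i3 j) (i1 j)]
  ring

end Crest.Agent.R238
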