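import Crest.Agent.R238.ALog

/-!
# R238 / ASoft: from soft profiles to polyhedra

`v_M y = log((cosh M + cosh(M y))/(cosh M + 1))` is a `Prof (M + M²)`:
`v' = M sinh(My)/(cosh M + cosh My)`, `v'' = M²(cosh M cosh My + 1)/(cosh M + cosh My)²`.
`e^{-v_M y} → 1` for `|y| < 1`, `→ 0` for `|y| > 1`, always `≤ 1`; the sets `|⟪x,a⟫| = 1` are null
(`Measure.addHaar_affineSubspace`, or `Measure.addHaar_submodule` + translation).  Dominated
convergence: `∫ rho (ridge δ v_M a') → gw δ (poly a' 1)`.  Apply `ridge_logconc` with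
`a' j = (h₀ j)⁻¹ • a j`, `z j = log (h₁ j / h₀ j)`.
-/

set_option autoImplicit false
open MeasureTheory Matrix Set Metric
open scoped RealInnerProductSpace ContDiff BigOperators

namespace Crest.Agent.R238

variable {n : ℕ}

/-- the soft profile actually used: `log (1 + ε cosh (M y))`; with `ε = e^{-M}/M` the weight
`e^{-v}` converges to the indicator of `|y| ≤ 1` at EVERY point, so no null sets are needed. -/
noncomputable def asoft_v (ε M y : ℝ) : ℝ := Real.log (1 + ε * Real.cosh (M * y))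

theorem asoft_pos {ε : ℝ} (hε : 0 ≤ ε) (M y : ℝ) : 0 < 1 + ε * Real.cosh (M * y) := by
  have := Real.cosh_pos (M * y)
  positivity

theorem asoft_d1 {ε : ℝ} (hε : 0 ≤ ε) (M y : ℝ) : HasDerivAt (asoft_v ε M)
    (ε * (Real.sinh (M * y) * M) / (1 + ε * Real.cosh (M * y))) y := by
  have h1 : HasDerivAt (fun y => M * y) M y := by simpa using (hasDerivAt_id y).const_mul M
  exact ((h1.cosh.const_mul ε).const_add 1).log (asoft_pos hε M y).ne'

theorem asoft_deriv {ε : ℝ} (hε : 0 ≤ ε) (M : ℝ) : deriv (asoft_v ε M) =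
    fun y => ε * (Real.sinh (M * y) * M) / (1 + ε * Real.cosh (M * y)) :=
  funext fun y => (asoft_d1 hε M y).deriv

theorem asoft_d2 {ε : ℝ} (hε : 0 ≤ ε) (M y : ℝ) : deriv (deriv (asoft_v ε M)) y =
    M ^ 2 * ((ε * Real.cosh (M * y) + ε ^ 2) / (1 + ε * Real.cosh (M * y)) ^ 2) := by
  have h1 : HasDerivAt (fun y => M * y) M y := by simpa using (hasDerivAt_id y).const_mul M
  have h2 := ((h1.sinh.mul_const M).const_mul ε).div ((h1.cosh.const_mul ε).const_add 1)
    (asoft_pos hε M y).ne'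
  rw [asoft_deriv hε]
  refine h2.deriv.trans ?_
  have h3 := Real.cosh_sq (M * y)
  have h4 := (asoft_pos hε M y).ne'
  field_simp
  linear_combination (ε ^ 2 * M ^ 2) * h3

theorem asoft_prof {ε M : ℝ} (hε : 0 ≤ ε) (hε1 : ε ≤ 1) (hM : 0 ≤ M) :
    Prof (M + M ^ 2) (asoft_v ε M) where
  cd := by
    refine ContDiff.log ?_ fun y => (asoft_pos hε M y).ne'
    exact contDiff_const.add (contDiff_const.mul
      (Real.contDiff_cosh.comp (contDiff_const.mul contDiff_id)))
  even y := by simp [asoft_v]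
  nn y := Real.log_nonneg (by have := Real.cosh_pos (M * y); nlinarith)
  d1 y := by
    rw [asoft_deriv hε]
    have h0 := asoft_pos hε M y
    have h1 : |Real.sinh (M * y)| ≤ Real.cosh (M * y) := by
      refine abs_le_of_sq_le_sq' ?_ (Real.cosh_pos _).le |> abs_le.2
      rw [Real.cosh_sq]
      linarith
    beta_reduce
    rw [abs_div, abs_of_pos h0, div_le_iff₀ h0, abs_mul, abs_mul, abs_of_nonneg hε, abs_of_nonneg hM]
    have h2 : ε * |Real.sinh (M * y)| ≤ ε * Real.cosh (M * y) := mul_le_mul_of_nonneg_left h1 hε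
    have h3 := mul_le_mul_of_nonneg_left h2 hM
    have h4 : 0 ≤ M ^ 2 * (1 + ε * Real.cosh (M * y)) := by positivity
    nlinarith
  d2 y := by
    rw [asoft_d2 hε]
    have := Real.cosh_pos (M * y)
    positivity
  d2' y := by
    rw [asoft_d2 hε]
    have h0 := asoft_pos hε M y
    have h1 : 0 ≤ ε * Real.cosh (M * y) := mul_nonneg hε (Real.cosh_pos _).le
    have h2 : (ε * Real.cosh (M * y) + ε ^ 2) / (1 + ε * Real.cosh (M * y)) ^ 2 ≤ 1 := by
      rw [div_le_one (by positivity)]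
      nlinarith
    have h3 := mul_le_mul_of_nonneg_left h2 (sq_nonneg M)
    linarith

theorem asoft_exp {ε : ℝ} (hε : 0 ≤ ε) (M y : ℝ) :
    Real.exp (-asoft_v ε M y) = (1 + ε * Real.cosh (M * y))⁻¹ := by
  rw [Real.exp_neg, asoft_v, Real.exp_log (asoft_pos hε M y)]

/-- the parameter `ε(M) = e^{-M}/M` -/
noncomputable def asoft_e (M : ℝ) : ℝ := Real.exp (-M) / M

theorem asoft_e_nonneg {M : ℝ} (hM : 0 ≤ M) : 0 ≤ asoft_e M := div_nonneg (Real.exp_pos _).le hM

theorem asoft_e_le {M : ℝ} (hM : 1 ≤ M) : asoft_e M ≤ 1 := by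
  rw [asoft_e, div_le_one (by linarith)]
  exact (Real.exp_le_one_iff.2 (by linarith)).trans hM

theorem asoft_in {y : ℝ} (hy : |y| ≤ 1) :
    Filter.Tendsto (fun M => Real.exp (-asoft_v (asoft_e M) M y)) Filter.atTop (nhds 1) := by
  have h1 : Filter.Tendsto (fun M => asoft_e M * Real.cosh (M * y)) Filter.atTop (nhds 0) := by
    refine squeeze_zero' ?_ ?_ tendsto_inv_atTop_zero
    · filter_upwards [Filter.eventually_ge_atTop 0] with M hM
      exact mul_nonneg (asoft_e_nonneg hM) (Real.cosh_pos _).le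
    · filter_upwards [Filter.eventually_gt_atTop 0] with M hM
      have h2 : Real.cosh (M * y) ≤ Real.exp M := by
        have a1 := abs_le.1 hy
        have a2 : Real.exp (M * y) ≤ Real.exp M := Real.exp_le_exp.2 (by nlinarith)
        have a3 : Real.exp (-(M * y)) ≤ Real.exp M := Real.exp_le_exp.2 (by nlinarith)
        rw [Real.cosh_eq]
        linarith
      calc asoft_e M * Real.cosh (M * y) ≤ asoft_e M * Real.exp M :=
            mul_le_mul_of_nonneg_left h2 (asoft_e_nonneg hM.le)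
        _ = M⁻¹ := by
          rw [asoft_e, Real.exp_neg]
          field_simp
  have h2 := (h1.const_add 1).inv₀ (by norm_num)
  simp only [add_zero, inv_one] at h2
  refine h2.congr' ?_
  filter_upwards [Filter.eventually_ge_atTop 0] with M hM
  rw [asoft_exp (asoft_e_nonneg hM)]

theorem asoft_out {y : ℝ} (hy : ¬ |y| ≤ 1) :
    Filter.Tendsto (fun M => Real.exp (-asoft_v (asoft_e M) M y)) Filter.atTop (nhds 0) := by
  have hc : 0 < |y| - 1 := by linarith [not_le.1 hy]
  have h1 : Filter.Tendsto (fun M => 1 + asoft_e M * Real.cosh (M * y)) Filter.atTop Filter.atTop := by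
    have h0 : Filter.Tendsto (fun M : ℝ => M * ((|y| - 1) ^ 2 / 4)) Filter.atTop Filter.atTop :=
      Filter.tendsto_id.atTop_mul_const (by positivity)
    refine Filter.tendsto_atTop_mono' _ ?_ h0
    filter_upwards [Filter.eventually_gt_atTop 0] with M hM
    have h2 : Real.exp (M * |y|) / 2 ≤ Real.cosh (M * y) := by
      rw [← Real.cosh_abs, abs_mul, abs_of_pos hM, Real.cosh_eq]
      linarith [Real.exp_pos (-(M * |y|))]
    have h3 : (M * (|y| - 1)) ^ 2 / 2 ≤ Real.exp (M * (|y| - 1)) := by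
      have a1 : 0 ≤ M * (|y| - 1) := by positivity
      have := Real.quadratic_le_exp_of_nonneg a1
      linarith
    have h4 : asoft_e M * (Real.exp (M * |y|) / 2) = Real.exp (M * (|y| - 1)) / (2 * M) := by
      rw [asoft_e, mul_sub, mul_one, Real.exp_sub, Real.exp_neg]
      field_simp
    have h5 := mul_le_mul_of_nonneg_left h2 (asoft_e_nonneg hM.le)
    have h6 : M * ((|y| - 1) ^ 2 / 4) ≤ Real.exp (M * (|y| - 1)) / (2 * M) := by
      rw [le_div_iff₀ (by positivity)]
      calc M * ((|y| - 1) ^ 2 / 4) * (2 * M) = (M * (|y| - 1)) ^ 2 / 2 := by ring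
        _ ≤ _ := h3
    linarith
  refine h1.inv_tendsto_atTop.congr' ?_
  filter_upwards [Filter.eventually_ge_atTop 0] with M hM
  rw [asoft_exp (asoft_e_nonneg hM)]
  rfl

theorem asoft_gauss {δ : ℝ} (hδ : 0 < δ) :
    Integrable fun x : E n => Real.exp (-(δ / 2 * ‖x‖ ^ 2)) := by
  have h := (GaussianFourier.integrable_cexp_neg_mul_sq_norm_add (V := E n) (b := ((δ / 2 : ℝ) : ℂ))
    (by rw [Complex.ofReal_re]; positivity) 0 0).norm
  refine h.congr (Filter.Eventually.of_forall fun x => ?_)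
  simp only [zero_mul, add_zero, Complex.norm_exp]
  congr 1
  rw [← Complex.ofReal_pow, ← Complex.ofReal_neg, ← Complex.ofReal_mul, Complex.ofReal_re, neg_mul]

theorem asoft_rho {N : ℕ} (δ : ℝ) (v : ℝ → ℝ) (a : Fin N → E n) (x : E n) :
    rho (ridge δ v a) x = Real.exp (-(δ / 2 * ‖x‖ ^ 2)) * ∏ j, Real.exp (-v ⟪x, a j⟫) := by
  rw [rho, ridge, neg_add, Real.exp_add, ← Real.exp_sum, Finset.sum_neg_distrib]

theorem asoft_closed {N : ℕ} (a : Fin N → E n) (h : Fin N → ℝ) : IsClosed (poly a h) := by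
  have : poly a h = ⋂ j, {x : E n | |⟪x, a j⟫| ≤ h j} := by
    ext x
    simp [poly]
  rw [this]
  exact isClosed_iInter fun j => isClosed_le (by fun_prop) continuous_const

theorem asoft_lim {N : ℕ} {δ : ℝ} (hδ : 0 < δ) (a : Fin N → E n) :
    Filter.Tendsto (fun M => ∫ x, rho (ridge δ (asoft_v (asoft_e M) M) a) x) Filter.atTop
      (nhds (gw δ (poly a fun _ => 1))) := by
  rw [gw, ← integral_indicator (asoft_closed a _).measurableSet]
  refine tendsto_integral_filter_of_dominated_convergence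
    (fun x => Real.exp (-(δ / 2 * ‖x‖ ^ 2))) ?_ ?_ (asoft_gauss hδ) ?_
  · filter_upwards [Filter.eventually_ge_atTop 1] with M hM
    have hv := (asoft_prof (asoft_e_nonneg (by linarith)) (asoft_e_le hM)
      (show 0 ≤ M by linarith)).cd.continuous
    refine Continuous.aestronglyMeasurable ?_
    unfold rho ridge
    fun_prop
  · filter_upwards [Filter.eventually_ge_atTop 1] with M hM
    refine Filter.Eventually.of_forall fun x => ?_
    have hv := (asoft_prof (asoft_e_nonneg (by linarith)) (asoft_e_le hM)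
      (show 0 ≤ M by linarith)).nn
    rw [rho, Real.norm_of_nonneg (Real.exp_pos _).le, Real.exp_le_exp, ridge, neg_le_neg_iff]
    exact le_add_of_nonneg_right (Finset.sum_nonneg fun j _ => hv _)
  · refine Filter.Eventually.of_forall fun x => ?_
    simp only [asoft_rho]
    classical
    have h1 : Filter.Tendsto (fun M => ∏ j, Real.exp (-asoft_v (asoft_e M) M ⟪x, a j⟫)) Filter.atTop
        (nhds (∏ j, if |⟪x, a j⟫| ≤ 1 then (1 : ℝ) else 0)) := by
      refine tendsto_finset_prod _ fun j _ => ?_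
      split_ifs with hj
      · exact asoft_in hj
      · exact asoft_out hj
    have h2 := h1.const_mul (Real.exp (-(δ / 2 * ‖x‖ ^ 2)))
    have h3 : (poly a fun _ => (1 : ℝ)).indicator (fun x => Real.exp (-(δ / 2 * ‖x‖ ^ 2))) x =
        Real.exp (-(δ / 2 * ‖x‖ ^ 2)) * ∏ j, if |⟪x, a j⟫| ≤ 1 then (1 : ℝ) else 0 := by
      by_cases hx : x ∈ poly a fun _ => (1 : ℝ)
      · rw [indicator_of_mem hx, Finset.prod_eq_one fun j _ => if_pos (hx j), mul_one]
      · rw [indicator_of_notMem hx]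
        obtain ⟨j, hj⟩ := not_forall.1 hx
        rw [Finset.prod_eq_zero (Finset.mem_univ j) (if_neg hj), mul_zero]
    rw [h3]
    exact h2

theorem asoft_poly {N : ℕ} (a : Fin N → E n) {h : Fin N → ℝ} (p : ∀ j, 0 < h j) :
    poly (fun j => (h j)⁻¹ • a j) (fun _ => 1) = poly a h := by
  ext x
  refine forall_congr' fun j => ?_
  rw [real_inner_smul_right, abs_mul, abs_of_pos (inv_pos.2 (p j)), inv_mul_le_iff₀ (p j), mul_one]

theorem poly_logconc (hn : 2 ≤ n) {N : ℕ} {δ : ℝ} (hδ : 0 < δ) (a : Fin N → E n)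
    (h₀ h₁ : Fin N → ℝ) (p₀ : ∀ j, 0 < h₀ j) (p₁ : ∀ j, 0 < h₁ j) {t : ℝ} (h0 : 0 ≤ t)
    (h1 : t ≤ 1) :
    gw δ (poly a h₀) ^ (1 - t) * gw δ (poly a h₁) ^ t ≤
      gw δ (poly a fun j => h₀ j ^ (1 - t) * h₁ j ^ t) := by
  have pt : ∀ j, 0 < h₀ j ^ (1 - t) * h₁ j ^ t := fun j =>
    mul_pos (Real.rpow_pos_of_pos (p₀ j) _) (Real.rpow_pos_of_pos (p₁ j) _)
  have e1 : (fun j => Real.exp (-Real.log (h₁ j / h₀ j)) • (h₀ j)⁻¹ • a j) =
      fun j => (h₁ j)⁻¹ • a j := by
    funext j
    have := p₀ j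
    have := p₁ j
    rw [smul_smul, Real.exp_neg, Real.exp_log (by positivity)]
    congr 1
    field_simp
  have e2 : (fun j => Real.exp (-(t * Real.log (h₁ j / h₀ j))) • (h₀ j)⁻¹ • a j) =
      fun j => (h₀ j ^ (1 - t) * h₁ j ^ t)⁻¹ • a j := by
    funext j
    have a0 := p₀ j
    have a1 := p₁ j
    rw [smul_smul, Real.exp_neg, mul_comm t, ← Real.rpow_def_of_pos (by positivity),
      Real.div_rpow a1.le a0.le, Real.rpow_sub a0, Real.rpow_one]
    congr 1
    have := Real.rpow_pos_of_pos a0 t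
    have := Real.rpow_pos_of_pos a1 t
    field_simp
  have l0 := asoft_lim hδ fun j => (h₀ j)⁻¹ • a j
  have l1 := asoft_lim hδ fun j => (h₁ j)⁻¹ • a j
  have l2 := asoft_lim hδ fun j => (h₀ j ^ (1 - t) * h₁ j ^ t)⁻¹ • a j
  rw [asoft_poly a p₀] at l0
  rw [asoft_poly a p₁] at l1
  rw [asoft_poly a pt] at l2
  refine le_of_tendsto_of_tendsto
    ((l0.rpow_const (Or.inr (sub_nonneg.2 h1))).mul (l1.rpow_const (Or.inr h0))) l2 ?_
  filter_upwards [Filter.eventually_ge_atTop 1] with M hM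
  have := ridge_logconc hn hδ (asoft_prof (asoft_e_nonneg (by linarith)) (asoft_e_le hM)
    (show 0 ≤ M by linarith)) (fun j => (h₀ j)⁻¹ • a j) (fun j => Real.log (h₁ j / h₀ j)) h0 h1
  rw [e1, e2] at this
  exact this

end Crest.Agent.R238
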