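import Crest.Agent.R238.AnDefs

/-!
# R238/AnMat TASK: elementary matrix facts about `Ell` (no spectral theorem needed except `det_pos`: use `Matrix.PosDef`)
-/

set_option autoImplicit false

namespace Crest.Agent.R238.An

open MeasureTheory Matrix Set Filter Topology
open scoped ContDiff

noncomputable section

variable {n : ℕ}

theorem amat_nn (ξ : Fin n → ℝ) : 0 ≤ ξ ⬝ᵥ ξ := Finset.sum_nonneg fun _ _ => mul_self_nonneg _

theorem amat_symm {a : Mat n} (h : a.IsSymm) (ξ ζ : Fin n → ℝ) : ζ ⬝ᵥ a *ᵥ ξ = ξ ⬝ᵥ a *ᵥ ζ := by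
  rw [dotProduct_mulVec, ← mulVec_transpose, h.eq, dotProduct_comm]

theorem amat_exp {a : Mat n} (h : a.IsSymm) (ξ ζ : Fin n → ℝ) (t : ℝ) :
    (ξ + t • ζ) ⬝ᵥ a *ᵥ (ξ + t • ζ) = ξ ⬝ᵥ a *ᵥ ξ + 2 * t * (ξ ⬝ᵥ a *ᵥ ζ) + t ^ 2 * (ζ ⬝ᵥ a *ᵥ ζ) := by
  simp only [mulVec_add, mulVec_smul, add_dotProduct, dotProduct_add, smul_dotProduct, dotProduct_smul,
    smul_eq_mul, amat_symm h ξ ζ]
  ring

theorem amat_entry {K : Mat n} {η : ℝ} (hs : K.IsSymm)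
    (h : ∀ ξ : Fin n → ℝ, -(η * (ξ ⬝ᵥ ξ)) ≤ ξ ⬝ᵥ K *ᵥ ξ ∧ ξ ⬝ᵥ K *ᵥ ξ ≤ η * (ξ ⬝ᵥ ξ)) (i j : Fin n) :
    |K i j| ≤ η := by
  have e : ∀ (M : Mat n) (i j : Fin n), (Pi.single i 1 : Fin n → ℝ) ⬝ᵥ M *ᵥ Pi.single j 1 = M i j := by
    intro M i j
    simp
  have e1 := fun t => amat_exp hs (Pi.single i 1) (Pi.single j 1) t
  have e2 := fun t => amat_exp (isSymm_one (n := Fin n) (α := ℝ)) (Pi.single i 1) (Pi.single j 1) t
  simp only [e] at e1 e2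
  simp only [one_mulVec, one_apply_eq] at e2
  have h1 := h (Pi.single i 1 + (1 : ℝ) • Pi.single j 1)
  have h2 := h (Pi.single i 1 + (-1 : ℝ) • Pi.single j 1)
  rw [e1, e2] at h1 h2
  rw [abs_le]
  constructor <;> linarith [h1.1, h1.2, h2.1, h2.2]

theorem Ell.mono {a : Mat n} {lo hi lo' hi' : ℝ} (h : Ell a lo hi) (h1 : lo' ≤ lo) (h2 : hi ≤ hi') :
    Ell a lo' hi' := by
  refine ⟨h.1, fun ξ => ⟨le_trans ?_ (h.2 ξ).1, (h.2 ξ).2.trans ?_⟩⟩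
  · exact mul_le_mul_of_nonneg_right h1 (amat_nn ξ)
  · exact mul_le_mul_of_nonneg_right h2 (amat_nn ξ)

theorem Ell.one : Ell (1 : Mat n) 1 1 := by
  refine ⟨isSymm_one, fun ξ => ?_⟩
  rw [one_mulVec, one_mul]
  exact ⟨le_rfl, le_rfl⟩

theorem Ell.posDef {a : Mat n} {lo hi : ℝ} (h : Ell a lo hi) (hlo : 0 < lo) : a.PosDef := by
  refine PosDef.of_dotProduct_mulVec_pos ?_ fun x hx => ?_
  · rw [IsHermitian, conjTranspose_eq_transpose_of_trivial]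
    exact h.1
  · rw [star_trivial]
    refine lt_of_lt_of_le (mul_pos hlo ?_) (h.2 x).1
    exact lt_of_le_of_ne (amat_nn x) fun h0 => hx (dotProduct_self_eq_zero.1 h0.symm)

theorem Ell.det_pos {a : Mat n} {lo hi : ℝ} (h : Ell a lo hi) (hlo : 0 < lo) : 0 < a.det := by
  exact (h.posDef hlo).det_pos

theorem Ell.mul_inv {a : Mat n} {lo hi : ℝ} (h : Ell a lo hi) (hlo : 0 < lo) : a * a⁻¹ = 1 := by
  exact mul_nonsing_inv a (h.det_pos hlo).ne'.isUnit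

theorem Ell.inv_mul {a : Mat n} {lo hi : ℝ} (h : Ell a lo hi) (hlo : 0 < lo) : a⁻¹ * a = 1 := by
  exact nonsing_inv_mul a (h.det_pos hlo).ne'.isUnit

/-- test with `e_i ± e_j` -/
theorem Ell.abs_le {a : Mat n} {lo hi : ℝ} (h : Ell a lo hi) (hlo : 0 ≤ lo) (i j : Fin n) :
    |a i j| ≤ hi := by
  refine amat_entry h.1 (fun ξ => ⟨?_, (h.2 ξ).2⟩) i j
  have := mul_nonneg hlo (amat_nn ξ)
  linarith [(h.2 ξ).1, (h.2 ξ).2]

/-- test with `e_i`, `e_i ± e_j` -/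
theorem Ell.abs_sub_one {a : Mat n} {η : ℝ} (h : Ell a (1 - η) (1 + η)) (i j : Fin n) :
    |a i j - (1 : Mat n) i j| ≤ η := by
  refine amat_entry (K := a - 1) (h.1.sub isSymm_one) (fun ξ => ?_) i j
  rw [sub_mulVec, dotProduct_sub, one_mulVec]
  constructor <;> linarith [(h.2 ξ).1, (h.2 ξ).2]

/-- Cauchy–Schwarz for a PSD form -/
theorem Ell.cs {a : Mat n} {lo hi : ℝ} (h : Ell a lo hi) (hlo : 0 ≤ lo) (ξ ζ : Fin n → ℝ) :
    (ξ ⬝ᵥ a *ᵥ ζ) ^ 2 ≤ (ξ ⬝ᵥ a *ᵥ ξ) * (ζ ⬝ᵥ a *ᵥ ζ) := by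
  have h1 := discrim_le_zero (a := ζ ⬝ᵥ a *ᵥ ζ) (b := 2 * (ξ ⬝ᵥ a *ᵥ ζ)) (c := ξ ⬝ᵥ a *ᵥ ξ) fun t => by
    have h2 := (mul_nonneg hlo (amat_nn _)).trans (h.2 (ξ + t • ζ)).1
    rw [amat_exp h.1] at h2
    linarith
  rw [discrim] at h1
  linarith

/-- with `η = a⁻¹ ξ`: `ξ a⁻¹ ξ = η a η ≥ lo |η|²` and `ξ·η ≤ |ξ||η|` give the upper bound;
`|ξ|⁴ = (ξ a η)² ≤ (ξ a ξ)(η a η)` gives the lower bound -/
theorem Ell.inv {a : Mat n} {lo hi : ℝ} (h : Ell a lo hi) (hlo : 0 < lo) (hhi : 0 < hi) :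
    Ell a⁻¹ hi⁻¹ lo⁻¹ := by
  refine ⟨h.1.inv, fun ξ => ?_⟩
  obtain ⟨ζ, hζ⟩ : ∃ ζ, ζ = a⁻¹ *ᵥ ξ := ⟨_, rfl⟩
  have e1 : a *ᵥ ζ = ξ := by rw [hζ, mulVec_mulVec, h.mul_inv hlo, one_mulVec]
  have h1 := h.cs hlo.le ξ ζ
  have h2 := (Ell.one (n := n)).cs zero_le_one ξ ζ
  have h3 := (h.2 ζ).1
  have h4 := (h.2 ξ).2
  rw [e1, dotProduct_comm ζ ξ] at h1 h3
  simp only [one_mulVec] at h2
  rw [← hζ]
  have h5 := amat_nn ξ
  have h6 := amat_nn ζ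
  have h7 : 0 ≤ ξ ⬝ᵥ ζ := (mul_nonneg hlo.le h6).trans h3
  generalize ξ ⬝ᵥ ζ = q at *
  generalize ξ ⬝ᵥ ξ = s at *
  generalize ζ ⬝ᵥ ζ = r at *
  generalize ξ ⬝ᵥ a *ᵥ ξ = w at *
  constructor
  · rw [inv_mul_le_iff₀ hhi]
    rcases h5.eq_or_lt with rfl | h8
    · positivity
    · refine le_of_mul_le_mul_left ?_ h8
      have := mul_le_mul_of_nonneg_right h4 h7
      nlinarith
  · rw [le_inv_mul_iff₀ hlo]
    rcases h7.eq_or_lt with rfl | h8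
    · rwa [mul_zero]
    · refine le_of_mul_le_mul_left ?_ h8
      have h9 := mul_le_mul_of_nonneg_left h3 h5
      have h10 := mul_le_mul_of_nonneg_left h2 hlo.le
      nlinarith

theorem abs_quad_le {K : Mat n} {δ : ℝ} (hK : ∀ i j, |K i j| ≤ δ) (ξ : Fin n → ℝ) :
    |ξ ⬝ᵥ K *ᵥ ξ| ≤ n * δ * (ξ ⬝ᵥ ξ) := by
  have e : ξ ⬝ᵥ K *ᵥ ξ = ∑ i, ∑ j, ξ i * (K i j * ξ j) := by
    simp only [dotProduct, mulVec, Finset.mul_sum]
  have e2 : n * δ * (ξ ⬝ᵥ ξ) = ∑ i : Fin n, ∑ j : Fin n, (δ / 2 * (ξ i * ξ i) + δ / 2 * (ξ j * ξ j)) := by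
    simp only [dotProduct, Finset.sum_add_distrib, Finset.sum_const, Finset.card_univ, Fintype.card_fin,
      nsmul_eq_mul, ← Finset.mul_sum]
    ring
  rw [e, e2]
  refine (Finset.abs_sum_le_sum_abs _ _).trans (Finset.sum_le_sum fun i _ =>
    (Finset.abs_sum_le_sum_abs _ _).trans (Finset.sum_le_sum fun j _ => ?_))
  have h1 := hK i j
  have h2 := (abs_nonneg _).trans h1
  have h3 := mul_le_mul_of_nonneg_right h1 (mul_nonneg (abs_nonneg (ξ i)) (abs_nonneg (ξ j)))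
  have h4 := mul_nonneg h2 (sq_nonneg (|ξ i| - |ξ j|))
  rw [abs_mul, abs_mul, ← abs_mul_abs_self (ξ i), ← abs_mul_abs_self (ξ j)]
  nlinarith

theorem Ell.add_small {a K : Mat n} {lo hi δ : ℝ} (h : Ell a lo hi) (hs : K.IsSymm)
    (hK : ∀ i j, |K i j| ≤ δ) : Ell (a + K) (lo - n * δ) (hi + n * δ) := by
  refine ⟨h.1.add hs, fun ξ => ?_⟩
  have h1 := _root_.abs_le.1 (abs_quad_le hK ξ)
  rw [add_mulVec, dotProduct_add]
  constructor <;> linarith [(h.2 ξ).1, (h.2 ξ).2, h1.1, h1.2]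

theorem Ell.convex {a b : Mat n} {lo hi s : ℝ} (ha : Ell a lo hi) (hb : Ell b lo hi) (h0 : 0 ≤ s)
    (h1 : s ≤ 1) : Ell (a + s • (b - a)) lo hi := by
  refine ⟨ha.1.add ((hb.1.sub ha.1).smul s), fun ξ => ?_⟩
  rw [add_mulVec, dotProduct_add, smul_mulVec, dotProduct_smul, sub_mulVec, dotProduct_sub, smul_eq_mul]
  have h2 := sub_nonneg.2 h1
  constructor
  · nlinarith [mul_le_mul_of_nonneg_left (ha.2 ξ).1 h2, mul_le_mul_of_nonneg_left (hb.2 ξ).1 h0]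
  · nlinarith [mul_le_mul_of_nonneg_left (ha.2 ξ).2 h2, mul_le_mul_of_nonneg_left (hb.2 ξ).2 h0]

theorem amat_hi {a : Mat n} {lo hi : ℝ} (h : Ell a lo hi) (i : Fin n) : lo ≤ hi := by
  have h1 := (h.2 (Pi.single i 1)).1.trans (h.2 (Pi.single i 1)).2
  simpa using h1

theorem amat_mul {a b : Mat n} {s t : ℝ} (ha : ∀ i j, |a i j| ≤ s) (hb : ∀ i j, |b i j| ≤ t) (i j : Fin n) :
    |(a * b) i j| ≤ n * (s * t) := by
  rw [mul_apply]
  refine (Finset.abs_sum_le_sum_abs _ _).trans ((Finset.sum_le_sum (g := fun _ => s * t) fun l _ => ?_).trans_eq ?_)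
  · rw [abs_mul]
    exact mul_le_mul (ha _ _) (hb _ _) (abs_nonneg _) ((abs_nonneg _).trans (ha i l))
  · simp

/-- `a⁻¹ - b⁻¹ = a⁻¹ (b - a) b⁻¹` -/
theorem Ell.inv_sub {a b : Mat n} {lo hi δ : ℝ} (ha : Ell a lo hi) (hb : Ell b lo hi)
    (hlo : 0 < lo) (h : ∀ i j, |a i j - b i j| ≤ δ) (i j : Fin n) :
    |a⁻¹ i j - b⁻¹ i j| ≤ n * (n * (lo⁻¹ * (lo⁻¹ * δ))) := by
  have hhi := hlo.trans_le (amat_hi ha i)
  have e : a⁻¹ - b⁻¹ = a⁻¹ * ((b - a) * b⁻¹) := by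
    rw [sub_mul, hb.mul_inv hlo, mul_sub, mul_one, ← mul_assoc, ha.inv_mul hlo, one_mul]
  have h1 := (ha.inv hlo hhi).abs_le (inv_nonneg.2 hhi.le)
  have h2 := (hb.inv hlo hhi).abs_le (inv_nonneg.2 hhi.le)
  have h3 := amat_mul h1 (amat_mul (a := b - a) (fun i j => by rw [Matrix.sub_apply, abs_sub_comm]; exact h i j) h2) i j
  rw [← e, Matrix.sub_apply] at h3
  exact h3.trans_eq (by ring)

/-- far smallness passes to the inverse -/
theorem Ell.inv_sub_one {a : Mat n} {η : ℝ} (h : Ell a (1 - η) (1 + η)) (h0 : 0 ≤ η)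
    (h1 : η ≤ 1 / 2) (i j : Fin n) : |a⁻¹ i j - (1 : Mat n) i j| ≤ 2 * η := by
  refine ((h.inv (by linarith) (by linarith)).mono ?_ ?_).abs_sub_one i j
  · rw [inv_eq_one_div, le_div_iff₀ (by linarith)]
    nlinarith
  · rw [inv_eq_one_div, div_le_iff₀ (by linarith)]
    nlinarith

/-- entrywise integral of elliptic matrices -/
theorem Ell.integral {a : ℝ → Mat n} {lo hi : ℝ} (hc : ∀ i j, ContinuousOn (fun s => a s i j) (Icc 0 1))
    (h : ∀ s ∈ Icc (0 : ℝ) 1, Ell (a s) lo hi) :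
    Ell (Matrix.of fun i j => ∫ s in (0 : ℝ)..1, a s i j) lo hi := by
  have hi' : ∀ i j, IntervalIntegrable (fun s => a s i j) volume 0 1 := fun i j =>
    (hc i j).intervalIntegrable_of_Icc zero_le_one
  refine ⟨IsSymm.ext fun i j => ?_, fun ξ => ?_⟩
  · refine intervalIntegral.integral_congr fun s hs => ?_
    rw [uIcc_of_le zero_le_one] at hs
    exact (h s hs).1.apply i j
  · have e : ∀ M : Mat n, ξ ⬝ᵥ M *ᵥ ξ = ∑ i, ∑ j, ξ i * ξ j * M i j := fun M => by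
      simp only [dotProduct, mulVec, Finset.mul_sum]
      exact Finset.sum_congr rfl fun i _ => Finset.sum_congr rfl fun j _ => by ring
    have hq : ContinuousOn (fun s => ξ ⬝ᵥ a s *ᵥ ξ) (Icc 0 1) := by
      simp only [e]
      exact continuousOn_finsetSum _ fun i _ => continuousOn_finsetSum _ fun j _ => (hc i j).const_mul _
    have e2 : ξ ⬝ᵥ (Matrix.of fun i j => ∫ s in (0 : ℝ)..1, a s i j) *ᵥ ξ = ∫ s in (0 : ℝ)..1, ξ ⬝ᵥ a s *ᵥ ξ := by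
      simp only [e, of_apply]
      rw [intervalIntegral.integral_finsetSum fun i _ =>
        (continuousOn_finsetSum _ fun j _ => (hc i j).const_mul _).intervalIntegrable_of_Icc zero_le_one]
      refine Finset.sum_congr rfl fun i _ => ?_
      rw [intervalIntegral.integral_finsetSum fun j _ => (hi' i j).const_mul _]
      exact Finset.sum_congr rfl fun j _ => (intervalIntegral.integral_const_mul _ _).symm
    have hq' := hq.intervalIntegrable_of_Icc (μ := volume) zero_le_one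
    have h1 := intervalIntegral.integral_mono_on zero_le_one intervalIntegrable_const hq' fun s hs => ((h s hs).2 ξ).1
    have h2 := intervalIntegral.integral_mono_on zero_le_one hq' intervalIntegrable_const fun s hs => ((h s hs).2 ξ).2
    rw [intervalIntegral.integral_const, sub_zero, one_smul] at h1 h2
    rw [e2]
    exact ⟨h1, h2⟩

theorem trace_mul_eq (a b : Mat n) (hb : b.IsSymm) :
    (a * b).trace = ∑ i, ∑ j, a i j * b i j := by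
  simp only [trace, diag_apply, mul_apply]
  exact Finset.sum_congr rfl fun i _ => Finset.sum_congr rfl fun j _ => by rw [hb.apply i j]

end

end Crest.Agent.R238.An
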