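import Crest.Agent.R238.AnCH
import Crest.Agent.R238.AnMat

/-!
# R238/AnInv TASK: derivatives of the inverse matrix and of `log det`
-/

set_option autoImplicit false

namespace Crest.Agent.R238.An

open MeasureTheory Matrix Set Filter Topology
open scoped ContDiff

noncomputable section

variable {n : ℕ}

/-- Jacobi's formula along a curve.  E.g. `det (a s) = det (a t) * det (1 + (a t)⁻¹ (a s - a t))` and
the derivative of `det` at `1` is the trace (`Matrix.det_apply'`, or multilinearity in the rows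
`Matrix.detRowAlternating`, or `Matrix.det_one_add_smul`). -/
theorem hasDerivAt_det {a : ℝ → Mat n} {a' : Mat n} {t : ℝ}
    (h : ∀ i j, HasDerivAt (fun s => a s i j) (a' i j) t) (hd : (a t).det ≠ 0) :
    HasDerivAt (fun s => (a s).det) ((a t).det * ((a t)⁻¹ * a').trace) t := by
  have h1 : HasDerivAt (fun s => ∑ σ : Equiv.Perm (Fin n), ((Equiv.Perm.sign σ : ℤ) : ℝ) * ∏ i, a s (σ i) i)
      (∑ σ : Equiv.Perm (Fin n), ((Equiv.Perm.sign σ : ℤ) : ℝ) *
        ∑ i, (∏ j ∈ Finset.univ.erase i, a t (σ j) j) • a' (σ i) i) t :=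
    HasDerivAt.fun_sum fun σ _ => (HasDerivAt.fun_finsetProd fun i _ => h (σ i) i).const_mul _
  have h2 : ∀ i, ((a t).adjugate * a') i i =
      ∑ σ : Equiv.Perm (Fin n), ((Equiv.Perm.sign σ : ℤ) : ℝ) *
        ((∏ j ∈ Finset.univ.erase i, a t (σ j) j) • a' (σ i) i) := by
    intro i
    have e1 : ((a t).adjugate * a') i i = ((a t).adjugate *ᵥ fun k => a' k i) i := rfl
    rw [e1, ← Matrix.cramer_eq_adjugate_mulVec, Matrix.cramer_apply, Matrix.det_apply']
    refine Finset.sum_congr rfl fun σ _ => ?_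
    congr 1
    rw [← Finset.prod_erase_mul _ _ (Finset.mem_univ i), smul_eq_mul, Matrix.updateCol_self]
    congr 1
    exact Finset.prod_congr rfl fun j hj => Matrix.updateCol_ne (Finset.ne_of_mem_erase hj)
  have h3 : (a t).det * ((a t)⁻¹ * a').trace = ((a t).adjugate * a').trace := by
    rw [Matrix.inv_def, Ring.inverse_eq_inv', Matrix.smul_mul, Matrix.trace_smul, smul_eq_mul, ← mul_assoc,
      mul_inv_cancel₀ hd, one_mul]
  rw [h3]
  simp only [Matrix.det_apply']
  convert h1 using 1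
  simp only [Matrix.trace, Matrix.diag, h2, Finset.mul_sum]
  exact Finset.sum_comm

theorem hasDerivAt_logdet {a : ℝ → Mat n} {a' : Mat n} {t : ℝ}
    (h : ∀ i j, HasDerivAt (fun s => a s i j) (a' i j) t) (hd : (a t).det ≠ 0) :
    HasDerivAt (fun s => Real.log (a s).det) ((a t)⁻¹ * a').trace t := by
  have h1 := (hasDerivAt_det h hd).log hd
  rwa [mul_div_cancel_left₀ _ hd] at h1

theorem contDiff_det {g : E n → Mat n} {m : WithTop ℕ∞} (hg : ∀ i j, ContDiff ℝ m fun x => g x i j) :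
    ContDiff ℝ m fun x => (g x).det := by
  simp only [Matrix.det_apply']
  exact ContDiff.sum fun σ _ => contDiff_const.mul (contDiff_prod fun i _ => hg (σ i) i)

/-- `g⁻¹ = det⁻¹ • adjugate` -/
theorem contDiff_inv {g : E n → Mat n} {m : WithTop ℕ∞} (hg : ∀ i j, ContDiff ℝ m fun x => g x i j)
    (hd : ∀ x, (g x).det ≠ 0) (i j : Fin n) : ContDiff ℝ m fun x => (g x)⁻¹ i j := by
  have e : (fun x => (g x)⁻¹ i j) =
      fun x => ((g x).det)⁻¹ * ((g x).updateRow j (Pi.single i 1)).det := by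
    funext x
    rw [Matrix.inv_def, Ring.inverse_eq_inv', Matrix.smul_apply, smul_eq_mul, Matrix.adjugate_apply]
  rw [e]
  refine ((contDiff_det hg).inv hd).mul (contDiff_det fun k l => ?_)
  by_cases hk : k = j
  · subst hk
    simp only [Matrix.updateRow_self]
    exact contDiff_const
  · simp only [Matrix.updateRow_ne hk]
    exact hg k l

theorem continuousOn_inv_curve {a : ℝ → Mat n} {s : Set ℝ}
    (hc : ∀ i j, ContinuousOn (fun t => a t i j) s) (hd : ∀ t ∈ s, (a t).det ≠ 0) (i j : Fin n) :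
    ContinuousOn (fun t => (a t)⁻¹ i j) s := by
  rw [continuousOn_iff_continuous_domRestrict]
  have h1 : Continuous fun t : s => a t :=
    continuous_matrix fun k l => continuousOn_iff_continuous_domRestrict.1 (hc k l)
  have e : s.domRestrict (fun t => (a t)⁻¹ i j) = fun t : s => ((a t).det)⁻¹ * (a t).adjugate i j := by
    funext t
    show (a t)⁻¹ i j = _
    rw [Matrix.inv_def, Ring.inverse_eq_inv', Matrix.smul_apply, smul_eq_mul]
  rw [e]
  exact (h1.matrix_det.inv₀ fun t => hd t t.2).mul (h1.matrix_adjugate.matrix_elem i j)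

/-- differentiate `g⁻¹ g = 1` -/
theorem pd_inv {g : E n → Mat n} (hg : ∀ i j, ContDiff ℝ 1 fun x => g x i j)
    (hd : ∀ x, (g x).det ≠ 0) (k i j : Fin n) (x : E n) :
    pd k (fun x => (g x)⁻¹ i j) x =
      -∑ a, ∑ b, (g x)⁻¹ i a * pd k (fun x => g x a b) x * (g x)⁻¹ b j := by
  have hi : ∀ i j, Differentiable ℝ fun x => (g x)⁻¹ i j := fun i j =>
    (contDiff_inv hg hd i j).differentiable one_ne_zero
  have hgd : ∀ i j, Differentiable ℝ fun x => g x i j := fun i j => (hg i j).differentiable one_ne_zero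
  have hu : ∀ x, IsUnit (g x).det := fun x => isUnit_iff_ne_zero.2 (hd x)
  set P : Mat n := Matrix.of fun i j => pd k (fun x => (g x)⁻¹ i j) x with hP
  set Q : Mat n := Matrix.of fun i j => pd k (fun x => g x i j) x with hQ
  have h1 : P * g x + (g x)⁻¹ * Q = 0 := by
    ext i b
    have e : (fun y => ∑ a, (g y)⁻¹ i a * g y a b) = fun _ => (1 : Mat n) i b := by
      funext y
      rw [← Matrix.mul_apply, Matrix.nonsing_inv_mul _ (hu y)]
    have h2 := congrFun (pd_sum Finset.univ (f := fun a y => (g y)⁻¹ i a * g y a b) k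
      fun a _ => (hi i a).mul (hgd a b)) x
    rw [e, pd_const] at h2
    simp only [Matrix.add_apply, Matrix.mul_apply, hP, hQ, Matrix.of_apply, Matrix.zero_apply,
      ← Finset.sum_add_distrib]
    refine Eq.trans ?_ h2.symm
    exact Finset.sum_congr rfl fun a _ => (pd_mul_at k (hi i a x) (hgd a b x)).symm
  have h2 : P = -((g x)⁻¹ * Q * (g x)⁻¹) := by
    have h3 : P * g x = -((g x)⁻¹ * Q) := eq_neg_of_add_eq_zero_left h1
    rw [← Matrix.neg_mul, ← h3, Matrix.mul_assoc, Matrix.mul_nonsing_inv _ (hu x), Matrix.mul_one]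
  have h3 := congrFun (congrFun h2 i) j
  simp only [hP, hQ, Matrix.of_apply, Matrix.neg_apply, Matrix.mul_apply, Finset.sum_mul] at h3
  rw [h3, Finset.sum_comm]

theorem contDiff_logdet {g : E n → Mat n} {m : WithTop ℕ∞}
    (hg : ∀ i j, ContDiff ℝ m fun x => g x i j) (hd : ∀ x, (g x).det ≠ 0) :
    ContDiff ℝ m fun x => Real.log (g x).det := by
  exact (contDiff_det hg).log hd

theorem pd_logdet {g : E n → Mat n} (hg : ∀ i j, ContDiff ℝ 1 fun x => g x i j)
    (hd : ∀ x, (g x).det ≠ 0) (k : Fin n) (x : E n) :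
    pd k (fun x => Real.log (g x).det) x = ∑ i, ∑ j, (g x)⁻¹ i j * pd k (fun x => g x j i) x := by
  have h1 := hasDerivAt_ev ((contDiff_logdet hg hd).differentiable one_ne_zero) x k 0
  have h2 := hasDerivAt_logdet (a := fun s : ℝ => g (x + s • ev k))
    (a' := Matrix.of fun i j => pd k (fun x => g x i j) (x + (0 : ℝ) • ev k)) (t := 0)
    (fun i j => hasDerivAt_ev ((hg i j).differentiable one_ne_zero) x k 0) (hd _)
  have h3 := h1.unique h2
  simp only [zero_smul, add_zero] at h3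
  rw [h3]
  simp only [Matrix.trace, Matrix.diag, Matrix.mul_apply, Matrix.of_apply]

/-- mean value form: FTC along `s ↦ a + s (b - a)` -/
theorem logdet_sub {a b : Mat n} {lo hi : ℝ} (ha : Ell a lo hi) (hb : Ell b lo hi) (hlo : 0 < lo) :
    Real.log b.det - Real.log a.det =
      ∑ i, ∑ j, (∫ s in (0 : ℝ)..1, (a + s • (b - a))⁻¹ i j) * (b i j - a i j) := by
  have hs : (b - a).IsSymm := hb.1.sub ha.1
  have hd : ∀ s ∈ Icc (0 : ℝ) 1, (a + s • (b - a)).det ≠ 0 := fun s hs =>
    ((ha.convex hb hs.1 hs.2).det_pos hlo).ne'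
  have hc : ∀ i j, ContinuousOn (fun s : ℝ => (a + s • (b - a))⁻¹ i j) (Icc 0 1) := by
    refine continuousOn_inv_curve (a := fun s : ℝ => a + s • (b - a)) (fun i j => ?_) hd
    simp only [Matrix.add_apply, Matrix.smul_apply, smul_eq_mul]
    fun_prop
  have hI : ∀ i j, IntervalIntegrable (fun s : ℝ => (a + s • (b - a))⁻¹ i j * (b i j - a i j)) volume 0 1 :=
    fun i j => ContinuousOn.intervalIntegrable (by
      rw [uIcc_of_le zero_le_one]
      exact (hc i j).mul continuousOn_const)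
  have h1 := intervalIntegral.integral_eq_sub_of_hasDerivAt (a := (0 : ℝ)) (b := 1)
    (f := fun s : ℝ => Real.log (a + s • (b - a)).det)
    (f' := fun s : ℝ => ∑ i, ∑ j, (a + s • (b - a))⁻¹ i j * (b i j - a i j)) (fun s hs' => ?_) ?_
  · simp only [one_smul, zero_smul, add_zero, add_sub_cancel] at h1
    rw [← h1, intervalIntegral.integral_finsetSum fun i _ => ?_]
    · refine Finset.sum_congr rfl fun i _ => ?_
      rw [intervalIntegral.integral_finsetSum fun j _ => hI i j]
      exact Finset.sum_congr rfl fun j _ => intervalIntegral.integral_mul_const _ _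
    · refine ContinuousOn.intervalIntegrable ?_
      rw [uIcc_of_le zero_le_one]
      exact continuousOn_finsetSum _ fun j _ => (hc i j).mul continuousOn_const
  · rw [uIcc_of_le zero_le_one] at hs'
    have h2 := hasDerivAt_logdet (a := fun s : ℝ => a + s • (b - a)) (a' := b - a) (t := s) (fun i j => ?_)
      (hd s hs')
    · rw [trace_mul_eq _ _ hs] at h2
      simpa only [Matrix.sub_apply] using h2
    · simp only [Matrix.add_apply, Matrix.smul_apply, smul_eq_mul]
      simpa using ((hasDerivAt_id s).mul_const ((b - a) i j)).const_add (a i j)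
  · refine ContinuousOn.intervalIntegrable ?_
    rw [uIcc_of_le zero_le_one]
    exact continuousOn_finsetSum _ fun i _ => continuousOn_finsetSum _ fun j _ =>
      (hc i j).mul continuousOn_const

/-- induction on `m`; `m = 0` by `Ell.inv_sub`, `Ell.inv`, `Ell.abs_le`; step by `pd_inv` -/
theorem CH.inv {m : ℕ} {g : E n → Mat n} {lo hi : ℝ} (hg : ∀ i j, CH m fun x => g x i j)
    (he : ∀ x, Ell (g x) lo hi) (hlo : 0 < lo) (i j : Fin n) : CH m fun x => (g x)⁻¹ i j := by
  have he' : ∀ x, Ell (g x) lo (max hi 1) := fun x => (he x).mono le_rfl (le_max_left _ _)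
  have hhi : 0 < max hi 1 := lt_max_of_lt_right one_pos
  have h0 : ∀ i j, CH 0 fun x => (g x)⁻¹ i j := by
    intro i j
    obtain ⟨M, -, hM⟩ := CH.exists_unif (f := fun p : Fin n × Fin n => fun x => g x p.1 p.2)
      fun p => (hg p.1 p.2).zero
    refine ⟨lo⁻¹, n * (n * (lo⁻¹ * (lo⁻¹ * M))), fun x => ((he' x).inv hlo hhi).abs_le (by positivity) i j,
      fun x y => ?_⟩
    have := (he x).inv_sub (he y) hlo (fun k l => (hM (k, l)).2 x y) i j
    calc _ ≤ _ := this
      _ = _ := by ring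
  induction m generalizing i j with
  | zero => exact h0 i j
  | succ m ih =>
    have h1 : ∀ i j, ContDiff ℝ 1 fun x => g x i j := fun i j =>
      (hg i j).contDiff.of_le (by exact_mod_cast Nat.le_add_left 1 m)
    have hd : ∀ x, (g x).det ≠ 0 := fun x => ((he x).det_pos hlo).ne'
    refine ⟨h0 i j, (contDiff_inv h1 hd i j).differentiable one_ne_zero, fun k => ?_⟩
    rw [funext (pd_inv h1 hd k i j)]
    exact CH.neg (CH.sum _ fun a _ => CH.sum _ fun b _ =>
      ((ih (fun i j => (hg i j).pred) i a).mul ((hg a b).2.2 k)).mul (ih (fun i j => (hg i j).pred) b j))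

theorem G2.cb_gm {h : E n → ℝ} (hh : G2 h) (i j : Fin n) : Cb fun x => gm h x i j := by
  exact (Cb.const ((1 : Mat n) i j)).add (hh.cb i j)

theorem pd_gm (h : E n → ℝ) (k i j : Fin n) :
    pd k (fun x => gm h x i j) = pd k (pd i (pd j h)) := by
  have e : (fun x => gm h x i j) = fun x => pd i (pd j h) x + (1 : Mat n) i j := by
    funext x
    exact add_comm _ _
  rw [e, pd_add_const]

theorem Sol.det_pos {φ₀ h : E n → ℝ} (hs : Sol φ₀ h) (x : E n) : 0 < (gm h x).det := by
  obtain ⟨c, C, hc, he⟩ := hs.ell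
  exact (he x).det_pos hc

theorem Sol.cb_tau {φ₀ h : E n → ℝ} (hs : Sol φ₀ h) (i j : Fin n) : Cb fun x => tau h x i j := by
  obtain ⟨c, C, hc, he⟩ := hs.ell
  exact Cb.of_ch fun m => CH.inv (fun i j => (hs.g2.cb_gm i j).ch m) he hc i j

theorem Sol.tau_symm {φ₀ h : E n → ℝ} (hs : Sol φ₀ h) (x : E n) : (tau h x).IsSymm := by
  obtain ⟨c, C, hc, he⟩ := hs.ell
  exact (((he x).mono le_rfl (le_max_left C 1)).inv hc (lt_max_of_lt_right one_pos)).1

theorem Sol.tau_even {φ₀ h : E n → ℝ} (hs : Sol φ₀ h) (i j : Fin n) :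
    IsEven fun x => tau h x i j := by
  intro x
  have e : gm h (-x) = gm h x := by
    ext k l
    exact congrArg (fun t => (1 : Mat n) k l + t) (hs.even.pd_pd k l x)
  simp only [tau, e]

theorem Sol.tau_ell {φ₀ h : E n → ℝ} (hs : Sol φ₀ h) :
    ∃ c C, 0 < c ∧ ∀ x, Ell (tau h x) c C := by
  obtain ⟨c, C, hc, he⟩ := hs.ell
  have hC : 0 < max C 1 := lt_max_of_lt_right one_pos
  exact ⟨(max C 1)⁻¹, c⁻¹, inv_pos.2 hC, fun x => ((he x).mono le_rfl (le_max_left C 1)).inv hc hC⟩

/-- quantitative bounds on `τ` -/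
theorem Qnt.tau_bounds (c C : ℝ) (hc : 0 < c) (hC : 0 < C) :
    ∃ K, 0 ≤ K ∧ ∀ (φ₀ h : E n → ℝ) (R : ℝ → ℝ), Sol φ₀ h → Qnt h c C R →
      (∀ x, Ell (tau h x) C⁻¹ c⁻¹) ∧ (∀ i j, Bd (fun x => tau h x i j) K ∧ Hol (fun x => tau h x i j) K) ∧
      ∀ η, 0 < η → η ≤ 1 / 2 → ∀ x, R η ≤ ‖x‖ → ∀ i j, |tau h x i j - (1 : Mat n) i j| ≤ 2 * η := by
  refine ⟨2 * c⁻¹ + n * (n * (c⁻¹ * (c⁻¹ * (n * C)))), by positivity, fun φ₀ h R hs hq => ?_⟩
  have h1 : ∀ x, Ell (tau h x) C⁻¹ c⁻¹ := fun x => (hq.ell x).inv hc hC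
  have h2 : ∀ i j, Bd (fun x => tau h x i j) c⁻¹ := fun i j x => (h1 x).abs_le (by positivity) i j
  refine ⟨h1, fun i j => ⟨(h2 i j).mono ?_, Hol.of_lip (h2 i j) (by positivity) fun x y => ?_⟩,
    fun η h0 hη x hx i j => (hq.far η h0 x hx).inv_sub_one h0.le hη i j⟩
  · have h3 : (0 : ℝ) ≤ n * (n * (c⁻¹ * (c⁻¹ * (n * C)))) := by positivity
    have h4 : 0 < c⁻¹ := by positivity
    linarith
  · have h3 : ∀ k l, |gm h x k l - gm h y k l| ≤ n * C * ‖x - y‖ := fun k l =>
      abs_sub_le_of_pd (f := fun x => gm h x k l)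
        ((hs.g2.cb_gm k l).smooth.differentiable (by simp)) (fun m => by rw [pd_gm]; exact hq.d3 m k l) x y
    have := (hq.ell x).inv_sub (hq.ell y) hc h3 i j
    calc _ ≤ _ := this
      _ = _ := by ring

end

end Crest.Agent.R238.An
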