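import Crest.Agent.R238.AnMat

/-!
# R238/AnMat2 TASK: spectral facts (`Matrix.IsHermitian.spectral_theorem`, eigenvalues lie in `[lo,hi]`)
-/

set_option autoImplicit false

namespace Crest.Agent.R238.An

open MeasureTheory Matrix Set Filter Topology
open scoped ContDiff

noncomputable section

variable {n : ℕ}

theorem m2_quad (U : Mat n) (l : Fin n → ℝ) (ξ : Fin n → ℝ) :
    ξ ⬝ᵥ (U * diagonal l * Uᵀ) *ᵥ ξ = ∑ i, l i * (Uᵀ *ᵥ ξ) i ^ 2 := by
  rw [← mulVec_mulVec, ← mulVec_mulVec, dotProduct_mulVec, ← mulVec_transpose]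
  simp only [dotProduct, mulVec_diagonal]
  exact Finset.sum_congr rfl fun i _ => by ring

theorem m2_norm {U : Mat n} (hU : U * Uᵀ = 1) (ξ : Fin n → ℝ) : ξ ⬝ᵥ ξ = ∑ i, (Uᵀ *ᵥ ξ) i ^ 2 := by
  have h := m2_quad U (fun _ => 1) ξ
  rw [diagonal_one, Matrix.mul_one, hU, one_mulVec] at h
  simpa using h

theorem m2_symm (U : Mat n) (l : Fin n → ℝ) : (U * diagonal l * Uᵀ).IsSymm := by
  unfold Matrix.IsSymm
  rw [transpose_mul, transpose_mul, transpose_transpose, diagonal_transpose, Matrix.mul_assoc]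

theorem m2_ell {U : Mat n} (hU : U * Uᵀ = 1) {l : Fin n → ℝ} {lo hi : ℝ} (hl : ∀ i, lo ≤ l i ∧ l i ≤ hi) :
    Ell (U * diagonal l * Uᵀ) lo hi := by
  refine ⟨m2_symm U l, fun ξ => ?_⟩
  rw [m2_quad, m2_norm hU, Finset.mul_sum, Finset.mul_sum]
  exact ⟨Finset.sum_le_sum fun i _ => mul_le_mul_of_nonneg_right (hl i).1 (sq_nonneg _),
    Finset.sum_le_sum fun i _ => mul_le_mul_of_nonneg_right (hl i).2 (sq_nonneg _)⟩

theorem m2_mul {U : Mat n} (hU : Uᵀ * U = 1) (l m : Fin n → ℝ) :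
    U * diagonal l * Uᵀ * (U * diagonal m * Uᵀ) = U * diagonal (fun i => l i * m i) * Uᵀ := by
  rw [← diagonal_mul_diagonal]
  calc U * diagonal l * Uᵀ * (U * diagonal m * Uᵀ)
      = U * diagonal l * (Uᵀ * U) * diagonal m * Uᵀ := by simp only [Matrix.mul_assoc]
    _ = _ := by rw [hU]; simp only [Matrix.mul_assoc, Matrix.one_mul]

theorem m2_trace {U : Mat n} (hU : Uᵀ * U = 1) (l : Fin n → ℝ) : (U * diagonal l * Uᵀ).trace = ∑ i, l i := by
  rw [trace_mul_cycle, hU, Matrix.one_mul, trace_diagonal]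

theorem m2_det {U : Mat n} (hU : U * Uᵀ = 1) (l : Fin n → ℝ) : (U * diagonal l * Uᵀ).det = ∏ i, l i := by
  have h : U.det * Uᵀ.det = 1 := by rw [← det_mul, hU, det_one]
  rw [det_mul, det_mul, det_diagonal]
  calc U.det * (∏ i, l i) * Uᵀ.det = U.det * Uᵀ.det * ∏ i, l i := by ring
    _ = _ := by rw [h, one_mul]

/-- the spectral theorem -/
theorem m2_spec {a : Mat n} {lo hi : ℝ} (h : Ell a lo hi) :
    ∃ (U : Mat n) (l : Fin n → ℝ), U * Uᵀ = 1 ∧ Uᵀ * U = 1 ∧ a = U * diagonal l * Uᵀ ∧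
      ∀ i, lo ≤ l i ∧ l i ≤ hi := by
  have hA : a.IsHermitian := by
    unfold Matrix.IsHermitian
    rw [conjTranspose_eq_transpose_of_trivial]
    exact h.1
  have hs : star (hA.eigenvectorUnitary : Mat n) = (hA.eigenvectorUnitary : Mat n)ᵀ := by
    rw [star_eq_conjTranspose, conjTranspose_eq_transpose_of_trivial]
  have h1 : (hA.eigenvectorUnitary : Mat n) * (hA.eigenvectorUnitary : Mat n)ᵀ = 1 := by
    rw [← hs]; exact Unitary.coe_mul_star_self _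
  have h2 : (hA.eigenvectorUnitary : Mat n)ᵀ * (hA.eigenvectorUnitary : Mat n) = 1 := by
    rw [← hs]; exact Unitary.coe_star_mul_self _
  have h3 : a = (hA.eigenvectorUnitary : Mat n) * diagonal hA.eigenvalues * (hA.eigenvectorUnitary : Mat n)ᵀ := by
    have := hA.spectral_theorem
    rw [Unitary.conjStarAlgAut_apply, hs] at this
    simpa using this
  refine ⟨_, _, h1, h2, h3, fun i => ?_⟩
  generalize (hA.eigenvectorUnitary : Mat n) = U at h1 h2 h3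
  generalize hA.eigenvalues = l at h3
  have hξ : Uᵀ *ᵥ (U *ᵥ Pi.single i 1) = Pi.single i 1 := by rw [mulVec_mulVec, h2, one_mulVec]
  have h4 := h.2 (U *ᵥ Pi.single i 1)
  rw [m2_norm h1, h3, m2_quad, hξ] at h4
  have e1 : ∑ j, (Pi.single i (1 : ℝ) : Fin n → ℝ) j ^ 2 = 1 := by
    rw [Finset.sum_eq_single i] <;> simp +contextual
  have e2 : ∑ j, l j * (Pi.single i (1 : ℝ) : Fin n → ℝ) j ^ 2 = l i := by
    rw [Finset.sum_eq_single i] <;> simp +contextual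
  rw [e1, e2, mul_one, mul_one] at h4
  exact h4

theorem m2_tr (U K : Mat n) (hK : K.IsSymm) (l : Fin n → ℝ) :
    (U * diagonal l * Uᵀ * K * (U * diagonal l * Uᵀ * K)).trace =
      ∑ i, ∑ j, l i * l j * (Uᵀ * K * U) i j ^ 2 := by
  have hs : ∀ i j, (Uᵀ * K * U) j i = (Uᵀ * K * U) i j := by
    intro i j
    have : (Uᵀ * K * U)ᵀ = Uᵀ * K * U := by
      rw [transpose_mul, transpose_mul, transpose_transpose, hK.eq, Matrix.mul_assoc]
    exact congrFun (congrFun this i) j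
  have e : U * diagonal l * Uᵀ * K * (U * diagonal l * Uᵀ * K)
      = U * (diagonal l * (Uᵀ * K * U) * (diagonal l * (Uᵀ * K))) := by simp only [Matrix.mul_assoc]
  have e' : diagonal l * (Uᵀ * K * U) * (diagonal l * (Uᵀ * K)) * U
      = diagonal l * (Uᵀ * K * U) * (diagonal l * (Uᵀ * K * U)) := by simp only [Matrix.mul_assoc]
  rw [e, trace_mul_comm, e']
  generalize Uᵀ * K * U = M at hs
  simp only [trace, diag_apply, Matrix.mul_apply (M := diagonal l * M), diagonal_mul]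
  refine Finset.sum_congr rfl fun i _ => Finset.sum_congr rfl fun j _ => ?_
  rw [hs i j]
  ring

theorem m2_BB (B : Mat n) (f : Fin n → Fin n → ℝ) :
    ∑ i, ∑ j, (B * Bᵀ) i j * f i j = ∑ p, ∑ i, ∑ j, B i p * B j p * f i j := by
  simp only [Matrix.mul_apply, transpose_apply, Finset.sum_mul]
  symm
  rw [Finset.sum_comm]
  refine Finset.sum_congr rfl fun i _ => ?_
  rw [Finset.sum_comm]

theorem m2_quad' (A : Mat n) (ξ : Fin n → ℝ) : ξ ⬝ᵥ A *ᵥ ξ = ∑ i, ∑ j, ξ i * ξ j * A i j := by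
  simp only [dotProduct, mulVec, Finset.mul_sum]
  exact Finset.sum_congr rfl fun i _ => Finset.sum_congr rfl fun j _ => by ring

/-- a symmetric square root with bounds: `B = U diag(√λ) Uᵀ` satisfies `Ell B √lo √hi`
(or `CFC.sqrt`); entries by `Ell.abs_le`, inverse by `Ell.inv`. -/
theorem exists_root (lo hi : ℝ) (hlo : 0 < lo) :
    ∃ b : ℝ, 1 ≤ b ∧ ∀ a : Mat n, Ell a lo hi → ∃ B B' : Mat n, B * Bᵀ = a ∧ B * B' = 1 ∧ B' * B = 1 ∧
      (∀ i j, |B i j| ≤ b) ∧ ∀ i j, |B' i j| ≤ b := by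
  have h0 := Real.sqrt_nonneg hi
  have h0' : 0 ≤ (√lo)⁻¹ := by positivity
  refine ⟨1 + √hi + (√lo)⁻¹, by linarith, fun a h => ?_⟩
  obtain ⟨U, l, h1, h2, h3, hl⟩ := m2_spec h
  have hpos : ∀ i, 0 < l i := fun i => hlo.trans_le (hl i).1
  have hs : ∀ i, 0 < √(l i) := fun i => Real.sqrt_pos.2 (hpos i)
  have hB : Ell (U * diagonal (fun i => √(l i)) * Uᵀ) 0 √hi :=
    m2_ell h1 fun i => ⟨(hs i).le, Real.sqrt_le_sqrt (hl i).2⟩
  have hB' : Ell (U * diagonal (fun i => (√(l i))⁻¹) * Uᵀ) 0 (√lo)⁻¹ :=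
    m2_ell h1 fun i => ⟨(inv_pos.2 (hs i)).le,
      inv_anti₀ (Real.sqrt_pos.2 hlo) (Real.sqrt_le_sqrt (hl i).1)⟩
  refine ⟨_, _, ?_, ?_, ?_, fun i j => (hB.abs_le le_rfl i j).trans (by linarith),
    fun i j => (hB'.abs_le le_rfl i j).trans (by linarith)⟩
  · rw [hB.1.eq, m2_mul h2, h3]
    simp only [Real.mul_self_sqrt (hpos _).le]
  · rw [m2_mul h2]
    simp only [mul_inv_cancel₀ (hs _).ne', diagonal_one, Matrix.mul_one, h1]
  · rw [m2_mul h2]
    simp only [inv_mul_cancel₀ (hs _).ne', diagonal_one, Matrix.mul_one, h1]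

theorem exists_root0 {a : Mat n} {hi : ℝ} (h : Ell a 0 hi) : ∃ B : Mat n, B * Bᵀ = a := by
  obtain ⟨U, l, -, h2, h3, hl⟩ := m2_spec h
  refine ⟨U * diagonal (fun i => √(l i)) * Uᵀ, ?_⟩
  rw [(m2_symm U _).eq, m2_mul h2, h3]
  simp only [Real.mul_self_sqrt (hl _).1]

/-- `1 - 1/λ ≤ log λ` for each eigenvalue -/
theorem sub_trace_inv_le {a : Mat n} {lo hi : ℝ} (h : Ell a lo hi) (hlo : 0 < lo) :
    (n : ℝ) - a⁻¹.trace ≤ Real.log a.det := by
  obtain ⟨U, l, h1, h2, h3, hl⟩ := m2_spec h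
  have hpos : ∀ i, 0 < l i := fun i => hlo.trans_le (hl i).1
  have hinv : a⁻¹ = U * diagonal (fun i => (l i)⁻¹) * Uᵀ := by
    apply Matrix.inv_eq_right_inv
    rw [h3, m2_mul h2]
    simp only [mul_inv_cancel₀ (hpos _).ne', diagonal_one, Matrix.mul_one, h1]
  rw [hinv, m2_trace h2, h3, m2_det h1, Real.log_prod fun i _ => (hpos i).ne']
  have e : (n : ℝ) - ∑ i, (l i)⁻¹ = ∑ i, (1 - (l i)⁻¹) := by
    simp [Finset.sum_sub_distrib]
  rw [e]
  exact Finset.sum_le_sum fun i _ => Real.one_sub_inv_le_log_of_pos (hpos i)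

/-- `λ_i = det / ∏_{j ≠ i} λ_j ≥ e^{-β} / hi^n` -/
theorem Ell.of_logdet {a : Mat n} {lo hi β : ℝ} (h : Ell a lo hi) (hlo : 0 < lo) (hhi : 1 ≤ hi)
    (hd : -β ≤ Real.log a.det) : Ell a (Real.exp (-β) / hi ^ n) hi := by
  obtain ⟨U, l, h1, h2, h3, hl⟩ := m2_spec h
  have hpos : ∀ i, 0 < l i := fun i => hlo.trans_le (hl i).1
  rw [h3, m2_det h1] at hd
  have hP : 0 < ∏ i, l i := Finset.prod_pos fun i _ => hpos i
  have hd' : Real.exp (-β) ≤ ∏ i, l i := (Real.le_log_iff_exp_le hP).1 hd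
  rw [h3]
  refine m2_ell h1 fun i => ⟨?_, (hl i).2⟩
  rw [div_le_iff₀ (by positivity)]
  refine hd'.trans ?_
  rw [← Finset.mul_prod_erase _ _ (Finset.mem_univ i)]
  refine mul_le_mul_of_nonneg_left ?_ (hpos i).le
  calc ∏ j ∈ Finset.univ.erase i, l j ≤ ∏ _j ∈ Finset.univ.erase i, hi :=
        Finset.prod_le_prod (fun j _ => (hpos j).le) fun j _ => (hl j).2
    _ = hi ^ (Finset.univ.erase i).card := Finset.prod_const _
    _ ≤ hi ^ n := pow_le_pow_right₀ hhi ((Finset.card_le_univ _).trans (by simp))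

/-- `tr (τ G τ G) = |BᵀGB|² ≥ 0` -/
theorem trace_sq_nonneg {τ G : Mat n} {hi : ℝ} (h : Ell τ 0 hi) (hG : G.IsSymm) :
    0 ≤ (τ * G * (τ * G)).trace := by
  obtain ⟨U, l, -, -, h3, hl⟩ := m2_spec h
  rw [h3, m2_tr U G hG]
  exact Finset.sum_nonneg fun i _ => Finset.sum_nonneg fun j _ =>
    mul_nonneg (mul_nonneg (hl i).1 (hl j).1) (sq_nonneg _)

/-- `tr (τ K τ K) ≥ lo² |K|²`: `tr (τ K τ K) = ∑ λ_i λ_j (UᵀKU)_ij²` -/
theorem trace_sq_ge {τ K : Mat n} {lo hi : ℝ} (h : Ell τ lo hi) (hlo : 0 ≤ lo) (hK : K.IsSymm) :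
    lo ^ 2 * ∑ i, ∑ j, K i j ^ 2 ≤ (τ * K * (τ * K)).trace := by
  obtain ⟨U, l, h1, -, h3, hl⟩ := m2_spec h
  have e := m2_tr U K hK fun _ => 1
  rw [diagonal_one, Matrix.mul_one, h1, Matrix.one_mul, trace_mul_eq K K hK] at e
  have e' : ∑ i, ∑ j, K i j ^ 2 = ∑ i, ∑ j, (Uᵀ * K * U) i j ^ 2 := by
    simpa only [sq, one_mul] using e
  rw [h3, m2_tr U K hK, e', Finset.mul_sum]
  refine Finset.sum_le_sum fun i _ => ?_
  rw [Finset.mul_sum]
  refine Finset.sum_le_sum fun j _ => mul_le_mul_of_nonneg_right ?_ (sq_nonneg _)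
  rw [sq]
  exact mul_le_mul (hl i).1 (hl j).1 hlo (hlo.trans (hl i).1)

/-- `a : A ≤ 0` for `a ≥ 0`, `A ≤ 0` -/
theorem dot_nonpos {a A : Mat n} {hi : ℝ} (h : Ell a 0 hi)
    (hA : ∀ ξ : Fin n → ℝ, ξ ⬝ᵥ A *ᵥ ξ ≤ 0) : ∑ i, ∑ j, a i j * A i j ≤ 0 := by
  obtain ⟨B, rfl⟩ := exists_root0 h
  refine (m2_BB B fun i j => A i j).trans_le ?_
  refine Finset.sum_nonpos fun p _ => ?_
  have := hA fun i => B i p
  rwa [m2_quad'] at this

/-- Calabi's quantity controls the entries: for a family `G i` of symmetric matrices, with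
`τ = B Bᵀ`, `∑ τ_ij tr(τ G_i τ G_j) = ∑_p tr (τ G'_p τ G'_p)`, `G'_p = ∑_i B_ip G_i`; apply
`trace_sq_ge`, then `∑_p (∑_i B_ip G_i a b)² = (G_· a b)ᵀ τ (G_· a b) ≥ lo ∑_i (G i a b)²`. -/
theorem cal_ge {τ : Mat n} {G : Fin n → Mat n} {lo hi : ℝ} (h : Ell τ lo hi) (hlo : 0 ≤ lo)
    (hG : ∀ i, (G i).IsSymm) :
    lo ^ 3 * ∑ i, ∑ a, ∑ b, G i a b ^ 2 ≤ ∑ i, ∑ j, τ i j * (τ * G i * (τ * G j)).trace := by
  obtain ⟨B, hB⟩ := exists_root0 (h.mono hlo le_rfl)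
  have e1 : ∑ i, ∑ j, τ i j * (τ * G i * (τ * G j)).trace
      = ∑ p, (τ * (∑ i, B i p • G i) * (τ * ∑ i, B i p • G i)).trace := by
    have := m2_BB B fun i j => (τ * G i * (τ * G j)).trace
    rw [hB] at this
    rw [this]
    refine Finset.sum_congr rfl fun p _ => ?_
    simp only [Matrix.mul_sum, Matrix.sum_mul, trace_sum, Matrix.mul_smul, Matrix.smul_mul, trace_smul,
      smul_eq_mul, Finset.mul_sum]
    rw [Finset.sum_comm]
    exact Finset.sum_congr rfl fun i _ => Finset.sum_congr rfl fun j _ => by ring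
  have hs : ∀ p, (∑ i, B i p • G i).IsSymm := by
    intro p
    unfold Matrix.IsSymm
    rw [transpose_sum]
    exact Finset.sum_congr rfl fun i _ => by rw [transpose_smul, (hG i).eq]
  have e2 : ∀ a b, lo * ∑ i, G i a b ^ 2 ≤ ∑ p, (∑ i, B i p • G i) a b ^ 2 := by
    intro a b
    have h1 := (h.2 fun i => G i a b).1
    have h2 := m2_quad B (fun _ => 1) fun i => G i a b
    rw [diagonal_one, Matrix.mul_one, hB] at h2
    rw [h2] at h1
    simpa only [dotProduct, sq, one_mul, mulVec, transpose_apply, Matrix.sum_apply, Matrix.smul_apply,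
      smul_eq_mul] using h1
  rw [e1]
  calc lo ^ 3 * ∑ i, ∑ a, ∑ b, G i a b ^ 2 = lo ^ 2 * ∑ a, ∑ b, lo * ∑ i, G i a b ^ 2 := by
        have : ∑ i, ∑ a, ∑ b, G i a b ^ 2 = ∑ a, ∑ b, ∑ i, G i a b ^ 2 := by
          rw [Finset.sum_comm]
          exact Finset.sum_congr rfl fun a _ => Finset.sum_comm
        rw [this]
        simp only [← Finset.mul_sum]
        ring
    _ ≤ lo ^ 2 * ∑ a, ∑ b, ∑ p, (∑ i, B i p • G i) a b ^ 2 :=
        mul_le_mul_of_nonneg_left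
          (Finset.sum_le_sum fun a _ => Finset.sum_le_sum fun b _ => e2 a b) (sq_nonneg _)
    _ = ∑ p, lo ^ 2 * ∑ a, ∑ b, (∑ i, B i p • G i) a b ^ 2 := by
        rw [← Finset.mul_sum]
        congr 1
        symm
        rw [Finset.sum_comm]
        exact Finset.sum_congr rfl fun a _ => Finset.sum_comm
    _ ≤ _ := Finset.sum_le_sum fun p _ => trace_sq_ge h hlo (hs p)

end

end Crest.Agent.R238.An
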