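import Crest.Agent.R238.AnLin
import Crest.Agent.R238.AnInv
import Crest.Agent.R238.AnMat2
import Crest.Agent.R238.AP6

/-!
# R238/AnAP (helper65): a priori estimates by the maximum principle
-/

set_option autoImplicit false

namespace Crest.Agent.R238.An

open MeasureTheory Matrix Set Filter Topology
open scoped ContDiff

noncomputable section

variable {n : ℕ}

theorem apriori (B R₀ : ℝ) :
    ∃ (c C : ℝ) (R : ℝ → ℝ), 0 < c ∧ 0 < C ∧
      ∀ φ₀ h : E n → ℝ, Dat φ₀ B R₀ → Sol φ₀ h → Qnt h c C R :=
  AP.apriori_main B R₀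

end

end Crest.Agent.R238.An
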