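import Crest.Agent.R238.AnIBP

/-!
# R238/AnBoch TASK: Bochner identity for `L = τ:D² - x·D` (smooth `k` of polynomial growth).
Write `D_d F = ∑_e τ_de pd e F`, `δ(A) = ∑_d (x_d A_d - D_d A_d)`; `stein` applied to `F G` says
`Ex(G (x_d F - D_d F)) = Ex(F D_d G)`.  `D_d x_e = τ_de`, `D_d D_e = D_e D_d` (because
`∑_a τ_da pd a τ_eb` is symmetric in `d,e`: `pd_inv` and symmetry of third derivatives).
With `A_d = pd d k`, `δ(A) = -L k` and
`Ex(δ(A)²) = ∑ Ex(A_d D_d δ(A)) = ∑ Ex(A_d (τ_de A_e + x_e D_d A_e - D_e D_d A_e)) = ∑ Ex(τ_de A_d A_e) + ∑ Ex(D_e A_d D_d A_e)`.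
(The abstract version is in R238/Key*.lean (structure FS); use it if convenient.)
-/

set_option autoImplicit false

namespace Crest.Agent.R238.An

open MeasureTheory Matrix Set Filter Topology
open scoped ContDiff

noncomputable section

variable {n : ℕ}

variable {φ₀ h k : E n → ℝ}

/-- `D_d F = ∑_e τ_de ∂_e F` -/
def anbD (h : E n → ℝ) (d : Fin n) (F : E n → ℝ) : E n → ℝ := fun x => ∑ e, tau h x d e * pd e F x

theorem anb_diff {F : E n → ℝ} (hF : PS F) : Differentiable ℝ F := hF.smooth.differentiable (by simp)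

theorem anb_ps (hs : Sol φ₀ h) {F : E n → ℝ} (hF : PS F) (d : Fin n) : PS (anbD h d F) :=
  PS.sum _ fun e _ => (hs.cb_tau d e).ps.mul (hF.pd e)

theorem anb_mul {F G : E n → ℝ} (hF : PS F) (hG : PS G) (d : Fin n) (x : E n) :
    anbD h d (fun y => F y * G y) x = anbD h d F x * G x + F x * anbD h d G x := by
  simp only [anbD, pd_mul _ (anb_diff hF) (anb_diff hG), Finset.sum_mul, Finset.mul_sum,
    ← Finset.sum_add_distrib]
  exact Finset.sum_congr rfl fun e _ => by ring

theorem anb_sub {F G : E n → ℝ} (hF : PS F) (hG : PS G) (d : Fin n) (x : E n) :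
    anbD h d (fun y => F y - G y) x = anbD h d F x - anbD h d G x := by
  simp only [anbD, pd_sub _ (anb_diff hF) (anb_diff hG), mul_sub, Finset.sum_sub_distrib]

theorem anb_sum {F : Fin n → E n → ℝ} (hF : ∀ e, PS (F e)) (d : Fin n) (x : E n) :
    anbD h d (fun y => ∑ e, F e y) x = ∑ e, anbD h d (F e) x := by
  simp only [anbD, pd_sum _ _ fun e _ => anb_diff (hF e), Finset.mul_sum]
  exact Finset.sum_comm

theorem anb_coord (d e : Fin n) (x : E n) : anbD h d (fun y => y e) x = tau h x d e := by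
  simp [anbD, pd_coord, Matrix.one_apply]

theorem anb_adj (hφ : Cb φ₀) (hs : Sol φ₀ h) {F G : E n → ℝ} (hF : PS F) (hG : PS G) (d : Fin n) :
    Ex φ₀ (fun x => G x * (x d * F x - anbD h d F x)) = Ex φ₀ (fun x => F x * anbD h d G x) := by
  have h1 := stein hφ hs (anb_diff (hF.mul hG)) (hF.mul hG).to_pg
    (fun i => ((hF.mul hG).pd i).to_pg) d
  change _ = Ex φ₀ (anbD h d fun y => F y * G y) at h1
  rw [funext (anb_mul hF hG d), Ex_add hφ ((anb_ps hs hF d).mul hG).to_pg
    (hF.mul (anb_ps hs hG d)).to_pg] at h1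
  have h2 := Ex_sub hφ ((PS.coord d).mul (hF.mul hG)).to_pg ((anb_ps hs hF d).mul hG).to_pg
  have e : (fun x : E n => G x * (x d * F x - anbD h d F x)) =
      fun x => x d * (F x * G x) - anbD h d F x * G x := by
    funext x; ring
  rw [e, h2, h1]
  ring

theorem anb_tau (hs : Sol φ₀ h) (d e b : Fin n) (x : E n) :
    anbD h d (fun y => tau h y e b) x =
      -∑ a, ∑ p, ∑ q, tau h x d a * tau h x e p * pd a (pd p (pd q h)) x * tau h x q b := by
  have hg : ∀ i j, ContDiff ℝ 1 fun x => gm h x i j := fun i j =>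
    (hs.g2.cb_gm i j).smooth.of_le (by norm_cast)
  simp only [anbD, tau, pd_inv hg (fun x => (hs.det_pos x).ne'), pd_gm, mul_neg, Finset.mul_sum,
    Finset.sum_neg_distrib, mul_assoc]

theorem anb_tau_comm (hs : Sol φ₀ h) (d e b : Fin n) (x : E n) :
    anbD h d (fun y => tau h y e b) x = anbD h e (fun y => tau h y d b) x := by
  rw [anb_tau hs, anb_tau hs, Finset.sum_comm]
  congr 1
  refine Finset.sum_congr rfl fun a _ => Finset.sum_congr rfl fun p _ =>
    Finset.sum_congr rfl fun q _ => ?_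
  rw [pd_comm ((smooth_pd q hs.g2.smooth).of_le (by norm_cast)) p a]
  ring

theorem anb_comm (hs : Sol φ₀ h) {F : E n → ℝ} (hF : PS F) (d e : Fin n) (x : E n) :
    anbD h d (anbD h e F) x = anbD h e (anbD h d F) x := by
  have key : ∀ d e, anbD h d (anbD h e F) x =
      ∑ b, anbD h d (fun y => tau h y e b) x * pd b F x +
        ∑ b, ∑ a, tau h x e b * (tau h x d a * pd a (pd b F) x) := by
    intro d e
    change anbD h d (fun y => ∑ b, tau h y e b * pd b F y) x = _
    rw [anb_sum (fun b => (hs.cb_tau e b).ps.mul (hF.pd b)), ← Finset.sum_add_distrib]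
    refine Finset.sum_congr rfl fun b _ => ?_
    rw [anb_mul (hs.cb_tau e b).ps (hF.pd b), ← Finset.mul_sum]
    rfl
  rw [key, key, Finset.sum_comm (f := fun b a => tau h x e b * (tau h x d a * pd a (pd b F) x))]
  congr 1
  · exact Finset.sum_congr rfl fun b _ => by rw [anb_tau_comm hs]
  · refine Finset.sum_congr rfl fun a _ => Finset.sum_congr rfl fun b _ => ?_
    rw [pd_comm (hF.smooth.of_le (by norm_cast)) a b]
    ring

theorem anb_L (hk : PS k) (x : E n) :
    Lop (tau h) k x = -∑ d, (x d * pd d k x - anbD h d (pd d k) x) := by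
  rw [Lop, eul_eq_sum, Finset.sum_sub_distrib, neg_sub]
  congr 1
  refine Finset.sum_congr rfl fun a _ => Finset.sum_congr rfl fun b _ => ?_
  rw [pd_comm (hk.smooth.of_le (by norm_cast)) a b]

theorem anb_div (hφ : Cb φ₀) (hs : Sol φ₀ h) (hk : PS k) {G : E n → ℝ} (hG : PS G) :
    Ex φ₀ (fun x => G x * Lop (tau h) k x) = -∑ d, Ex φ₀ (fun x => pd d k x * anbD h d G x) := by
  simp only [anb_L hk, mul_neg, Finset.mul_sum]
  rw [Ex_neg, Ex_sum _ hφ fun d _ =>
    (hG.mul (((PS.coord d).mul (hk.pd d)).sub (anb_ps hs (hk.pd d) d))).to_pg]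
  simp only [anb_adj hφ hs (hk.pd _) hG]

theorem boch_sym (hφ : Cb φ₀) (hs : Sol φ₀ h) (hk : PS k) :
    Ex φ₀ (fun x => k x * Lop (tau h) k x) =
      -Ex φ₀ (fun x => ∑ i, ∑ j, tau h x i j * (pd i k x * pd j k x)) := by
  rw [anb_div hφ hs hk hk, ← Ex_sum _ hφ fun d _ => ((hk.pd d).mul (anb_ps hs hk d)).to_pg]
  congr 2
  funext x
  refine Finset.sum_congr rfl fun a _ => ?_
  rw [anbD, Finset.mul_sum]
  exact Finset.sum_congr rfl fun b _ => by ring

theorem bochner (hφ : Cb φ₀) (hs : Sol φ₀ h) (hk : PS k) :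
    Ex φ₀ (fun x => Lop (tau h) k x ^ 2) =
      Ex φ₀ (fun x => ∑ i, ∑ j, tau h x i j * (pd i k x * pd j k x)) +
        Ex φ₀ (fun x => (tau h x * hess k x * (tau h x * hess k x)).trace) := by
  have hA : ∀ e, PS fun x : E n => x e * pd e k x - anbD h e (pd e k) x := fun e =>
    ((PS.coord e).mul (hk.pd e)).sub (anb_ps hs (hk.pd e) e)
  have hδ : PS fun x : E n => ∑ e, (x e * pd e k x - anbD h e (pd e k) x) := PS.sum _ fun e _ => hA e
  have h1 := anb_div hφ hs hk hδ
  have e1 : (fun x => Lop (tau h) k x ^ 2) = fun x =>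
      -((∑ e, (x e * pd e k x - anbD h e (pd e k) x)) * Lop (tau h) k x) := by
    funext x
    rw [sq, ← neg_mul, ← anb_L hk]
  rw [e1, Ex_neg, h1, neg_neg]
  have hB : ∀ d e, PS (anbD h d (pd e k)) := fun d e => anb_ps hs (hk.pd e) d
  have p1 : ∀ d e, PS fun x => tau h x d e * (pd d k x * pd e k x) := fun d e =>
    (hs.cb_tau d e).ps.mul ((hk.pd d).mul (hk.pd e))
  have p2 : ∀ d e, PS fun x : E n => pd d k x *
      (x e * anbD h d (pd e k) x - anbD h e (anbD h d (pd e k)) x) := fun d e =>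
    (hk.pd d).mul (((PS.coord e).mul (hB d e)).sub (anb_ps hs (hB d e) e))
  have h2 : ∀ d, Ex φ₀ (fun x => pd d k x *
      anbD h d (fun x : E n => ∑ e, (x e * pd e k x - anbD h e (pd e k) x)) x) =
      Ex φ₀ (fun x => ∑ e, tau h x d e * (pd d k x * pd e k x)) +
        Ex φ₀ (fun x => ∑ e, anbD h d (pd e k) x * anbD h e (pd d k) x) := by
    intro d
    rw [Ex_sum _ hφ fun e _ => (p1 d e).to_pg, Ex_sum _ hφ fun e _ => ((hB d e).mul (hB e d)).to_pg,
      ← Finset.sum_add_distrib]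
    simp only [← anb_adj hφ hs (hB d _) (hk.pd d), ← Ex_add hφ (p1 d _).to_pg (p2 d _).to_pg]
    rw [← Ex_sum _ hφ fun e _ => ((p1 d e).add (p2 d e)).to_pg]
    congr 1
    funext x
    rw [anb_sum hA, Finset.mul_sum]
    refine Finset.sum_congr rfl fun e _ => ?_
    rw [anb_sub ((PS.coord e).mul (hk.pd e)) (hB e e), anb_mul (PS.coord e) (hk.pd e), anb_coord,
      anb_comm hs (hk.pd e) d e]
    ring
  simp only [h2]
  rw [Finset.sum_add_distrib, ← Ex_sum _ hφ fun d _ => (PS.sum _ fun e _ => p1 d e).to_pg,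
    ← Ex_sum _ hφ fun d _ => (PS.sum _ fun e _ => (hB d e).mul (hB e d)).to_pg]
  congr 2

end

end Crest.Agent.R238.An
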