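import Crest.Agent.R238.AnCls

/-!
# R238/AnCH TASK: Hölder classes `CH m`
-/

set_option autoImplicit false

namespace Crest.Agent.R238.An

open MeasureTheory Matrix Set Filter Topology
open scoped ContDiff

noncomputable section

variable {n : ℕ}

theorem Bd.nonneg {f : E n → ℝ} {M : ℝ} (h : Bd f M) : 0 ≤ M := by
  exact (abs_nonneg _).trans (h 0)

theorem Bd.mono {f : E n → ℝ} {M M' : ℝ} (h : Bd f M) (hM : M ≤ M') : Bd f M' := by
  exact fun x => (h x).trans hM

theorem Hol.mono {f : E n → ℝ} {K K' : ℝ} (h : Hol f K) (hK : K ≤ K') : Hol f K' := by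
  exact fun x y => (h x y).trans (mul_le_mul_of_nonneg_right hK (Real.sqrt_nonneg _))

theorem Hol.max {f : E n → ℝ} {K : ℝ} (h : Hol f K) : Hol f (max K 0) := by
  exact h.mono (le_max_left _ _)

theorem Hol.cont {f : E n → ℝ} {K : ℝ} (h : Hol f K) : Continuous f := by
  refine continuous_iff_continuousAt.2 fun y => ?_
  rw [ContinuousAt, tendsto_iff_norm_sub_tendsto_zero]
  have hc : Continuous fun x : E n => K * √‖x - y‖ := by fun_prop
  have ht := hc.tendsto y
  simp only [sub_self, norm_zero, Real.sqrt_zero, mul_zero] at ht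
  exact squeeze_zero (fun _ => norm_nonneg _) (fun x => h x y) ht

theorem Hol.holL {f : E n → ℝ} {K : ℝ} (h : Hol f K) (hK : 0 ≤ K) : HolL f K := by
  intro y₀ y
  refine (h y y₀).trans (mul_le_mul_of_nonneg_left ?_ hK)
  linarith [norm_nonneg (y - y₀)]

theorem HolL.of_lip {f : E n → ℝ} {K : ℝ} (hK : 0 ≤ K) (h : ∀ x y, |f x - f y| ≤ K * ‖x - y‖) :
    HolL f K := by
  intro y₀ y
  refine (h y y₀).trans (mul_le_mul_of_nonneg_left ?_ hK)
  linarith [Real.sqrt_nonneg ‖y - y₀‖]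

theorem HolL.add {f g : E n → ℝ} {K K' : ℝ} (hf : HolL f K) (hg : HolL g K') :
    HolL (fun x => f x + g x) (K + K') := by
  intro y₀ y
  have h1 := hf y₀ y
  have h2 := hg y₀ y
  have e : f y + g y - (f y₀ + g y₀) = (f y - f y₀) + (g y - g y₀) := by ring
  beta_reduce
  rw [e, add_mul]
  exact (abs_add_le _ _).trans (add_le_add h1 h2)

theorem HolL.sub {f g : E n → ℝ} {K K' : ℝ} (hf : HolL f K) (hg : HolL g K') :
    HolL (fun x => f x - g x) (K + K') := by
  intro y₀ y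
  have h1 := hf y₀ y
  have h2 := hg y₀ y
  have e : f y - g y - (f y₀ - g y₀) = (f y - f y₀) - (g y - g y₀) := by ring
  beta_reduce
  rw [e, add_mul]
  exact (abs_sub _ _).trans (add_le_add h1 h2)

theorem HolL.mono {f : E n → ℝ} {K K' : ℝ} (hf : HolL f K) (h : K ≤ K') : HolL f K' := by
  intro y₀ y
  exact (hf y₀ y).trans (mul_le_mul_of_nonneg_right h
    (add_nonneg (Real.sqrt_nonneg _) (norm_nonneg _)))

theorem Hol.add {f g : E n → ℝ} {K K' : ℝ} (hf : Hol f K) (hg : Hol g K') :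
    Hol (fun x => f x + g x) (K + K') := by
  intro x y
  have e : f x + g x - (f y + g y) = (f x - f y) + (g x - g y) := by ring
  beta_reduce
  rw [e, add_mul]
  exact (abs_add_le _ _).trans (add_le_add (hf x y) (hg x y))

theorem Hol.sub {f g : E n → ℝ} {K K' : ℝ} (hf : Hol f K) (hg : Hol g K') :
    Hol (fun x => f x - g x) (K + K') := by
  intro x y
  have e : f x - g x - (f y - g y) = (f x - f y) - (g x - g y) := by ring
  beta_reduce
  rw [e, add_mul]
  exact (abs_sub _ _).trans (add_le_add (hf x y) (hg x y))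

theorem Hol.const (c : ℝ) : Hol (fun _ : E n => c) 0 := by
  intro x y
  simp

theorem Hol.const_mul {f : E n → ℝ} {K : ℝ} (hf : Hol f K) (c : ℝ) :
    Hol (fun x => c * f x) (|c| * K) := by
  intro x y
  beta_reduce
  rw [← mul_sub, abs_mul, mul_assoc]
  exact mul_le_mul_of_nonneg_left (hf x y) (abs_nonneg _)

theorem Hol.mul {f g : E n → ℝ} {M K M' K' : ℝ} (bf : Bd f M) (hf : Hol f K) (bg : Bd g M')
    (hg : Hol g K') : Hol (fun x => f x * g x) (M * K' + K * M') := by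
  intro x y
  have e : f x * g x - f y * g y = f x * (g x - g y) + (f x - f y) * g y := by ring
  have h1 : |f x * (g x - g y)| ≤ M * (K' * √‖x - y‖) := by
    rw [abs_mul]
    exact mul_le_mul (bf x) (hg x y) (abs_nonneg _) bf.nonneg
  have h2 : |(f x - f y) * g y| ≤ (K * √‖x - y‖) * M' := by
    rw [abs_mul]
    exact mul_le_mul (hf x y) (bg y) (abs_nonneg _) ((abs_nonneg _).trans (hf x y))
  beta_reduce
  rw [e]
  refine (abs_add_le _ _).trans ((add_le_add h1 h2).trans (le_of_eq ?_))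
  ring

theorem Hol.sum {ι : Type*} (s : Finset ι) {f : ι → E n → ℝ} {K : ℝ} (hf : ∀ k ∈ s, Hol (f k) K) :
    Hol (fun x => ∑ k ∈ s, f k x) (s.card * K) := by
  intro x y
  beta_reduce
  rw [← Finset.sum_sub_distrib]
  refine (Finset.abs_sum_le_sum_abs _ _).trans ?_
  refine (Finset.sum_le_sum fun k hk => hf k hk x y).trans (le_of_eq ?_)
  simp [mul_assoc]

theorem Bd.sum {ι : Type*} (s : Finset ι) {f : ι → E n → ℝ} {K : ℝ} (hf : ∀ k ∈ s, Bd (f k) K) :
    Bd (fun x => ∑ k ∈ s, f k x) (s.card * K) := by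
  intro x
  refine (Finset.abs_sum_le_sum_abs _ _).trans ?_
  refine (Finset.sum_le_sum fun k hk => hf k hk x).trans (le_of_eq ?_)
  simp

theorem Bd.mul {f g : E n → ℝ} {M M' : ℝ} (bf : Bd f M) (bg : Bd g M') :
    Bd (fun x => f x * g x) (M * M') := by
  intro x
  beta_reduce
  rw [abs_mul]
  exact mul_le_mul (bf x) (bg x) (abs_nonneg _) bf.nonneg

theorem Hol.transl {f : E n → ℝ} {K : ℝ} (hf : Hol f K) (a : E n) : Hol (fun x => f (x + a)) K := by
  intro x y
  have := hf (x + a) (y + a)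
  rwa [add_sub_add_right_eq_sub] at this

/-- bounded + Lipschitz: `‖x-y‖ ≤ 1` use Lipschitz, else the bound -/
theorem Hol.of_lip {f : E n → ℝ} {M L : ℝ} (bf : Bd f M) (hL : 0 ≤ L)
    (h : ∀ x y, |f x - f y| ≤ L * ‖x - y‖) : Hol f (2 * M + L) := by
  intro x y
  have hM := bf.nonneg
  have hs := Real.sqrt_nonneg ‖x - y‖
  have hq : √‖x - y‖ * √‖x - y‖ = ‖x - y‖ := Real.mul_self_sqrt (norm_nonneg _)
  rw [add_mul]
  rcases le_total (√‖x - y‖) 1 with h1 | h1
  · have h2 : ‖x - y‖ ≤ √‖x - y‖ := by nlinarith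
    have h3 := mul_le_mul_of_nonneg_left h2 hL
    have h4 : 0 ≤ 2 * M * √‖x - y‖ := by positivity
    linarith [h x y]
  · have h2 : |f x - f y| ≤ 2 * M := (abs_sub _ _).trans (by linarith [bf x, bf y])
    have h3 : 2 * M * 1 ≤ 2 * M * √‖x - y‖ := mul_le_mul_of_nonneg_left h1 (by positivity)
    have h4 : 0 ≤ L * √‖x - y‖ := by positivity
    linarith

/-- the optimal constants -/
theorem exists_min_bd {ι : Type*} [Finite ι] {f : ι → E n → ℝ} {M : ℝ} (h : ∀ k, Bd (f k) M) :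
    ∃ M₀, 0 ≤ M₀ ∧ (∀ k, Bd (f k) M₀) ∧ ∀ M', 0 ≤ M' → (∀ k, Bd (f k) M') → M₀ ≤ M' := by
  let S : Set ℝ := {M' | 0 ≤ M' ∧ ∀ k, Bd (f k) M'}
  have hne : S.Nonempty := ⟨Max.max M 0, le_max_right _ _, fun k => (h k).mono (le_max_left _ _)⟩
  have hb : BddBelow S := ⟨0, fun _ hx => hx.1⟩
  refine ⟨sInf S, le_csInf hne fun _ hx => hx.1, fun k x => le_csInf hne fun _ hx => hx.2 k x,
    fun M' h0 h1 => csInf_le hb ⟨h0, h1⟩⟩

theorem exists_min_hol {ι : Type*} [Finite ι] {f : ι → E n → ℝ} {K : ℝ} (h : ∀ k, Hol (f k) K) :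
    ∃ K₀, 0 ≤ K₀ ∧ (∀ k, Hol (f k) K₀) ∧ ∀ K', 0 ≤ K' → (∀ k, Hol (f k) K') → K₀ ≤ K' := by
  let S : Set ℝ := {M' | 0 ≤ M' ∧ ∀ k, Hol (f k) M'}
  have hne : S.Nonempty := ⟨Max.max K 0, le_max_right _ _, fun k => (h k).max⟩
  have hb : BddBelow S := ⟨0, fun _ hx => hx.1⟩
  refine ⟨sInf S, le_csInf hne fun _ hx => hx.1, fun k x y => ?_,
    fun M' h0 h1 => csInf_le hb ⟨h0, h1⟩⟩
  rcases (Real.sqrt_nonneg ‖x - y‖).eq_or_lt with h0 | h0
  · have := h k x y
    rw [← h0, mul_zero] at this ⊢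
    exact this
  · rw [← div_le_iff₀ h0]
    exact le_csInf hne fun _ hx => (div_le_iff₀ h0).2 (hx.2 k x y)

theorem CH.zero {m : ℕ} {f : E n → ℝ} (h : CH m f) : CH 0 f := by
  cases m with
  | zero => exact h
  | succ m => exact h.1

theorem CH.exists_common {f : E n → ℝ} (h : CH 0 f) : ∃ M, 0 ≤ M ∧ Bd f M ∧ Hol f M := by
  obtain ⟨M, K, hM, hK⟩ := h
  exact ⟨Max.max M K, le_max_of_le_left hM.nonneg, hM.mono (le_max_left _ _),
    hK.mono (le_max_right _ _)⟩

theorem CH.exists_unif {ι : Type*} [Finite ι] {f : ι → E n → ℝ} (h : ∀ k, CH 0 (f k)) :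
    ∃ M, 0 ≤ M ∧ ∀ k, Bd (f k) M ∧ Hol (f k) M := by
  choose M h0 hb hh using fun k => (h k).exists_common
  obtain ⟨C, hC⟩ := (Set.finite_range M).bddAbove
  refine ⟨Max.max C 0, le_max_right _ _, fun k => ?_⟩
  have : M k ≤ Max.max C 0 := le_max_of_le_left (hC ⟨k, rfl⟩)
  exact ⟨(hb k).mono this, (hh k).mono this⟩

theorem CH.pred {m : ℕ} {f : E n → ℝ} (h : CH (m + 1) f) : CH m f := by
  induction m generalizing f with
  | zero => exact h.1
  | succ m ih => exact ⟨h.1, h.2.1, fun i => ih (h.2.2 i)⟩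

theorem CH.of_le {m k : ℕ} {f : E n → ℝ} (h : CH m f) (hk : k ≤ m) : CH k f := by
  induction hk with
  | refl => exact h
  | step _ ih => exact ih h.pred

theorem CH.contDiff {m : ℕ} {f : E n → ℝ} (h : CH m f) : ContDiff ℝ m f := by
  induction m generalizing f with
  | zero =>
    obtain ⟨M, K, -, hK⟩ := h
    simpa using hK.cont
  | succ m ih => exact contDiff_succ_of_pd h.2.1 fun i => ih (h.2.2 i)

theorem CH.const (m : ℕ) (c : ℝ) : CH m (fun _ : E n => c) := by
  have h0 : ∀ c : ℝ, CH 0 (fun _ : E n => c) := fun c => ⟨|c|, 0, fun _ => le_rfl, Hol.const c⟩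
  induction m generalizing c with
  | zero => exact h0 c
  | succ m ih =>
    refine ⟨h0 c, differentiable_const c, fun i => ?_⟩
    rw [pd_const]
    exact ih 0

theorem CH.add {m : ℕ} {f g : E n → ℝ} (hf : CH m f) (hg : CH m g) :
    CH m (fun x => f x + g x) := by
  have h0 : ∀ {f g : E n → ℝ}, CH 0 f → CH 0 g → CH 0 (fun x => f x + g x) := by
    rintro f g ⟨M, K, hM, hK⟩ ⟨M', K', hM', hK'⟩
    exact ⟨M + M', K + K', fun x => (abs_add_le _ _).trans (add_le_add (hM x) (hM' x)), hK.add hK'⟩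
  induction m generalizing f g with
  | zero => exact h0 hf hg
  | succ m ih =>
    refine ⟨h0 hf.zero hg.zero, hf.2.1.add hg.2.1, fun i => ?_⟩
    rw [pd_add i hf.2.1 hg.2.1]
    exact ih (hf.2.2 i) (hg.2.2 i)

theorem CH.neg {m : ℕ} {f : E n → ℝ} (hf : CH m f) : CH m (fun x => -f x) := by
  have h0 : ∀ {f : E n → ℝ}, CH 0 f → CH 0 (fun x => -f x) := by
    rintro f ⟨M, K, hM, hK⟩
    refine ⟨M, K, fun x => by simpa using hM x, fun x y => ?_⟩
    beta_reduce
    rw [← neg_sub', abs_neg]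
    exact hK x y
  induction m generalizing f with
  | zero => exact h0 hf
  | succ m ih =>
    refine ⟨h0 hf.zero, hf.2.1.neg, fun i => ?_⟩
    rw [pd_neg]
    exact ih (hf.2.2 i)

theorem CH.sub {m : ℕ} {f g : E n → ℝ} (hf : CH m f) (hg : CH m g) :
    CH m (fun x => f x - g x) := by
  simpa only [sub_eq_add_neg] using hf.add hg.neg

theorem CH.mul {m : ℕ} {f g : E n → ℝ} (hf : CH m f) (hg : CH m g) :
    CH m (fun x => f x * g x) := by
  have h0 : ∀ {f g : E n → ℝ}, CH 0 f → CH 0 g → CH 0 (fun x => f x * g x) := by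
    rintro f g ⟨M, K, hM, hK⟩ ⟨M', K', hM', hK'⟩
    exact ⟨_, _, hM.mul hM', Hol.mul hM hK hM' hK'⟩
  induction m generalizing f g with
  | zero => exact h0 hf hg
  | succ m ih =>
    refine ⟨h0 hf.zero hg.zero, hf.2.1.mul hg.2.1, fun i => ?_⟩
    rw [pd_mul i hf.2.1 hg.2.1]
    exact (ih (hf.2.2 i) hg.pred).add (ih hf.pred (hg.2.2 i))

theorem CH.sum {ι : Type*} (s : Finset ι) {m : ℕ} {f : ι → E n → ℝ} (hf : ∀ k ∈ s, CH m (f k)) :
    CH m (fun x => ∑ k ∈ s, f k x) := by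
  classical
  induction s using Finset.induction_on with
  | empty => simpa using CH.const m 0
  | insert a s ha ih =>
    simp only [Finset.sum_insert ha]
    exact (hf a (Finset.mem_insert_self _ _)).add (ih fun k hk => hf k (Finset.mem_insert_of_mem hk))

theorem Cb.ch {f : E n → ℝ} (hf : Cb f) (m : ℕ) : CH m f := by
  have h0 : ∀ {f : E n → ℝ}, Cb f → CH 0 f := by
    intro f hf
    obtain ⟨M, hM⟩ := hf.bd0
    choose N hN using fun i => (hf.pd i).bd0
    obtain ⟨C, hC⟩ := (Set.finite_range N).bddAbove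
    have hb : ∀ i, Bd (An.pd i f) (Max.max C 0) := fun i =>
      (hN i).mono (le_max_of_le_left (hC ⟨i, rfl⟩))
    exact ⟨M, _, hM, Hol.of_lip hM (mul_nonneg (Nat.cast_nonneg n) (le_max_right C 0))
      (abs_sub_le_of_pd (hf.smooth.differentiable (by simp)) hb)⟩
  induction m generalizing f with
  | zero => exact h0 hf
  | succ m ih => exact ⟨h0 hf, hf.smooth.differentiable (by simp), fun i => ih (hf.pd i)⟩

theorem Cb.of_ch {f : E n → ℝ} (hf : ∀ m, CH m f) : Cb f := by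
  refine Cb.of_closed (fun f => ∀ m, CH m f) (fun f hf => ⟨(hf 1).2.1, ?_⟩)
    (fun f hf i m => (hf (m + 1)).2.2 i) hf
  obtain ⟨M, K, hM, -⟩ := hf 0
  exact ⟨M, hM⟩

theorem G2.of_ch {v : E n → ℝ} (hv : ContDiff ℝ 2 v) (h : ∀ m i j, CH m (An.pd i (An.pd j v))) :
    G2 v := by
  refine ⟨contDiff_infty.2 fun m => ?_, fun i j => Cb.of_ch fun m => h m i j⟩
  have h2 : ContDiff ℝ (m + 1 + 1 : ℕ) v :=
    contDiff_succ_of_pd (hv.differentiable (by norm_num)) fun j =>
      contDiff_succ_of_pd ((c1_pd j hv).differentiable (by norm_num)) fun i => (h m i j).contDiff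
  exact h2.of_le (by exact_mod_cast (by omega : m ≤ m + 1 + 1))

theorem contDiff_three_of_ch {v : E n → ℝ} (hv : ContDiff ℝ 2 v)
    (h : ∀ i j, CH 1 (pd i (pd j v))) : ContDiff ℝ 3 v := by
  have h2 : ContDiff ℝ (1 + 1 + 1 : ℕ) v :=
    contDiff_succ_of_pd (hv.differentiable (by norm_num)) fun j =>
      contDiff_succ_of_pd ((c1_pd j hv).differentiable (by norm_num)) fun i => (h i j).contDiff
  exact_mod_cast h2

end

end Crest.Agent.R238.An
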