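import Crest.Agent.R238.AnDefs

/-!
# R238/AnCalc TASK: calculus of partial derivatives (all routine Mathlib)
-/

set_option autoImplicit false

namespace Crest.Agent.R238.An

open MeasureTheory Matrix Set Filter Topology
open scoped ContDiff

noncomputable section

variable {n : ℕ}

theorem norm_ev (i : Fin n) : ‖(ev i : E n)‖ = 1 := by
  simp [ev]

theorem ev_apply (i j : Fin n) : (ev i : E n) j = (1 : Mat n) i j := by
  simp [ev, Matrix.one_apply, eq_comm]

theorem abs_apply_le (x : E n) (i : Fin n) : |x i| ≤ ‖x‖ := by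
  exact PiLp.norm_apply_le x i

theorem norm_le_sum (x : E n) : ‖x‖ ≤ ∑ i, |x i| := by
  rw [EuclideanSpace.norm_eq]
  refine Real.sqrt_le_iff.2 ⟨Finset.sum_nonneg fun i _ => abs_nonneg _, ?_⟩
  simpa using Finset.sum_sq_le_sq_sum_of_nonneg (s := Finset.univ) (f := fun i => |x i|)
    fun i _ => abs_nonneg _

theorem norm_sq_eq_dot (x : E n) : ‖x‖ ^ 2 = x.ofLp ⬝ᵥ x.ofLp := by
  rw [EuclideanSpace.real_norm_sq_eq]
  simp [dotProduct, sq]

theorem ancalc_sum (v : E n) : v = ∑ i, v i • ev i := by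
  ext j
  simp [ev, Pi.single_apply]

theorem fderiv_eq_sum (f : E n → ℝ) (x v : E n) : fderiv ℝ f x v = ∑ i, v i * pd i f x := by
  conv_lhs => rw [ancalc_sum v]
  simp [pd]

theorem eul_eq_sum (f : E n → ℝ) (x : E n) : eul f x = ∑ i, x i * pd i f x := by
  exact fderiv_eq_sum f x x

theorem pd_const (i : Fin n) (c : ℝ) : pd i (fun _ : E n => c) = fun _ => 0 := by
  funext x; simp [pd]

theorem pd_coord (i j : Fin n) : pd i (fun x : E n => x j) = fun _ => (1 : Mat n) i j := by
  funext x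
  have : fderiv ℝ (fun x : E n => x j) x = EuclideanSpace.proj j :=
    (EuclideanSpace.proj j : E n →L[ℝ] ℝ).fderiv
  simp only [pd, this]
  exact ev_apply i j

theorem contDiff_coord (j : Fin n) {m : WithTop ℕ∞} : ContDiff ℝ m (fun x : E n => x j) := by
  exact (EuclideanSpace.proj j : E n →L[ℝ] ℝ).contDiff

theorem pd_normSq (i : Fin n) : pd i (fun x : E n => ‖x‖ ^ 2) = fun x => 2 * x i := by
  funext x
  simp only [pd, (hasStrictFDerivAt_norm_sq x).hasFDerivAt.fderiv]
  simp [ev, EuclideanSpace.inner_single_right]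

theorem pd_add_at {f g : E n → ℝ} {x : E n} (i : Fin n) (hf : DifferentiableAt ℝ f x)
    (hg : DifferentiableAt ℝ g x) : pd i (fun y => f y + g y) x = pd i f x + pd i g x := by
  simp only [pd, fderiv_fun_add hf hg]; rfl

theorem pd_mul_at {f g : E n → ℝ} {x : E n} (i : Fin n) (hf : DifferentiableAt ℝ f x)
    (hg : DifferentiableAt ℝ g x) :
    pd i (fun y => f y * g y) x = pd i f x * g x + f x * pd i g x := by
  simp only [pd, fderiv_fun_mul hf hg]
  simp [mul_comm, add_comm]

theorem pd_add {f g : E n → ℝ} (i : Fin n) (hf : Differentiable ℝ f) (hg : Differentiable ℝ g) :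
    pd i (fun y => f y + g y) = fun x => pd i f x + pd i g x := by
  exact funext fun x => pd_add_at i (hf x) (hg x)

theorem pd_sub {f g : E n → ℝ} (i : Fin n) (hf : Differentiable ℝ f) (hg : Differentiable ℝ g) :
    pd i (fun y => f y - g y) = fun x => pd i f x - pd i g x := by
  funext x
  simp only [pd, fderiv_fun_sub (hf x) (hg x)]; rfl

theorem pd_mul {f g : E n → ℝ} (i : Fin n) (hf : Differentiable ℝ f) (hg : Differentiable ℝ g) :
    pd i (fun y => f y * g y) = fun x => pd i f x * g x + f x * pd i g x := by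
  exact funext fun x => pd_mul_at i (hf x) (hg x)

theorem ancalc_fderiv_mul (c : ℝ) (f : E n → ℝ) (x : E n) :
    fderiv ℝ (fun y => c * f y) x = c • fderiv ℝ f x :=
  congrFun (fderiv_const_smul_field (𝕜 := ℝ) (f := f) c) x

/-- no differentiability needed (`fderiv_const_smul_field`-style, or case `c = 0`) -/
theorem pd_const_mul (i : Fin n) (c : ℝ) (f : E n → ℝ) :
    pd i (fun y => c * f y) = fun x => c * pd i f x := by
  funext x
  simp only [pd, ancalc_fderiv_mul]; rfl

theorem pd_neg (i : Fin n) (f : E n → ℝ) : pd i (fun y => -f y) = fun x => -pd i f x := by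
  funext x
  simp only [pd, fderiv_fun_neg]; rfl

theorem pd_add_const (i : Fin n) (f : E n → ℝ) (c : ℝ) : pd i (fun y => f y + c) = pd i f := by
  funext x
  simp only [pd, fderiv_add_const]

theorem pd_sum {ι : Type*} (s : Finset ι) {f : ι → E n → ℝ} (i : Fin n)
    (hf : ∀ k ∈ s, Differentiable ℝ (f k)) :
    pd i (fun y => ∑ k ∈ s, f k y) = fun x => ∑ k ∈ s, pd i (f k) x := by
  funext x
  simp only [pd, fderiv_fun_sum fun k hk => hf k hk x]
  simp

theorem pd_comp {f : E n → ℝ} {x : E n} {σ : ℝ → ℝ} {σ' : ℝ} (i : Fin n)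
    (hf : DifferentiableAt ℝ f x) (hσ : HasDerivAt σ σ' (f x)) :
    pd i (fun y => σ (f y)) x = σ' * pd i f x := by
  have := (hσ.comp_hasFDerivAt x hf.hasFDerivAt).fderiv
  simp only [pd]
  erw [this]; rfl

theorem pd_congr {f g : E n → ℝ} {x : E n} (i : Fin n) (h : f =ᶠ[𝓝 x] g) : pd i f x = pd i g x := by
  simp only [pd, h.fderiv_eq]

theorem contDiff_pd {f : E n → ℝ} {m : ℕ} (i : Fin n) (hf : ContDiff ℝ (m + 1 : ℕ) f) :
    ContDiff ℝ m (pd i f) := by
  exact (hf.fderiv_right (m := m) (by simp)).clm_apply contDiff_const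

theorem smooth_pd {f : E n → ℝ} (i : Fin n) (hf : ContDiff ℝ ∞ f) : ContDiff ℝ ∞ (pd i f) := by
  exact (hf.fderiv_right (m := ∞) (by simp)).clm_apply contDiff_const

theorem smooth_pdl {f : E n → ℝ} (l : List (Fin n)) (hf : ContDiff ℝ ∞ f) :
    ContDiff ℝ ∞ (pdl l f) := by
  induction l with
  | nil => exact hf
  | cons i l ih => exact smooth_pd i ih

theorem pdl_append (l l' : List (Fin n)) (f : E n → ℝ) : pdl (l ++ l') f = pdl l (pdl l' f) := by
  induction l with
  | nil => rfl
  | cons i l ih => simp only [List.cons_append, pdl, ih]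

theorem c1_pd {f : E n → ℝ} (i : Fin n) (hf : ContDiff ℝ 2 f) : ContDiff ℝ 1 (pd i f) := by
  exact (hf.fderiv_right (m := 1) (by norm_num)).clm_apply contDiff_const

theorem c2_pd {f : E n → ℝ} (i : Fin n) (hf : ContDiff ℝ 3 f) : ContDiff ℝ 2 (pd i f) := by
  exact (hf.fderiv_right (m := 2) (by norm_num)).clm_apply contDiff_const

theorem cont_pd {f : E n → ℝ} (i : Fin n) (hf : ContDiff ℝ 1 f) : Continuous (pd i f) := by
  exact (hf.continuous_fderiv (by norm_num)).clm_apply continuous_const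

/-- `fderiv f = ∑ pd i f • proj i`, `contDiff_succ_iff_fderiv` -/
theorem contDiff_succ_of_pd {f : E n → ℝ} {m : ℕ} (hf : Differentiable ℝ f)
    (h : ∀ i, ContDiff ℝ m (pd i f)) : ContDiff ℝ (m + 1 : ℕ) f := by
  have e : fderiv ℝ f = fun x => ∑ i, pd i f x • (EuclideanSpace.proj i : E n →L[ℝ] ℝ) := by
    funext x; ext v
    rw [fderiv_eq_sum]
    simp [mul_comm]
  rw [Nat.cast_succ, contDiff_succ_iff_fderiv]
  refine ⟨hf, by simp, ?_⟩
  rw [e]
  exact ContDiff.sum fun i _ => (h i).smul contDiff_const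

theorem ancalc_pd_pd {f : E n → ℝ} (hf : ContDiff ℝ 2 f) (i j : Fin n) (x : E n) :
    pd i (pd j f) x = fderiv ℝ (fderiv ℝ f) x (ev i) (ev j) := by
  have d : DifferentiableAt ℝ (fderiv ℝ f) x :=
    (hf.fderiv_right (m := 1) (by norm_num)).differentiable (by norm_num) x
  have : pd j f = fun y => fderiv ℝ f y (ev j) := rfl
  rw [pd, this, fderiv_clm_apply d (differentiableAt_const _)]
  simp

/-- `ContDiffAt.isSymmSndFDerivAt` -/
theorem pd_comm {f : E n → ℝ} (hf : ContDiff ℝ 2 f) (i j : Fin n) :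
    pd i (pd j f) = pd j (pd i f) := by
  funext x
  rw [ancalc_pd_pd hf, ancalc_pd_pd hf]
  exact (hf.contDiffAt.isSymmSndFDerivAt (by simp)).eq _ _

theorem hess_isSymm {f : E n → ℝ} (hf : ContDiff ℝ 2 f) (x : E n) : (hess f x).IsSymm := by
  ext i j
  simp only [hess, Matrix.transpose_apply, Matrix.of_apply, pd_comm hf i j]

theorem smooth_eul {f : E n → ℝ} (hf : ContDiff ℝ ∞ f) : ContDiff ℝ ∞ (eul f) := by
  exact (hf.fderiv_right (m := ∞) (by simp)).clm_apply contDiff_id

theorem c1_eul {f : E n → ℝ} (hf : ContDiff ℝ 2 f) : ContDiff ℝ 1 (eul f) := by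
  exact (hf.fderiv_right (m := 1) (by norm_num)).clm_apply contDiff_id

theorem pd_eul {f : E n → ℝ} (hf : ContDiff ℝ 2 f) (i : Fin n) :
    pd i (eul f) = fun x => pd i f x + eul (pd i f) x := by
  have e : eul f = fun x => ∑ j, x j * pd j f x := funext (eul_eq_sum f)
  have d1 : ∀ j : Fin n, Differentiable ℝ (fun x : E n => x j) := fun j =>
    (contDiff_coord j (m := 1)).differentiable (by norm_num)
  have d2 : ∀ j : Fin n, Differentiable ℝ (pd j f) := fun j => (c1_pd j hf).differentiable (by norm_num)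
  rw [e, pd_sum (f := fun j (x : E n) => x j * pd j f x) _ i fun j _ => (d1 j).mul (d2 j)]
  funext x
  have : ∀ j, pd i (fun x : E n => x j * pd j f x) x =
      (1 : Mat n) i j * pd j f x + x j * pd j (pd i f) x := fun j => by
    rw [pd_mul_at i (d1 j x) (d2 j x), pd_coord, pd_comm hf i j]
  rw [Finset.sum_congr rfl fun j _ => this j, Finset.sum_add_distrib, eul_eq_sum]
  simp [Matrix.one_apply]

theorem hasDerivAt_line {f : E n → ℝ} (hf : Differentiable ℝ f) (x v : E n) (t : ℝ) :
    HasDerivAt (fun t : ℝ => f (x + t • v)) (∑ i, v i * pd i f (x + t • v)) t := by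
  rw [← fderiv_eq_sum]
  have : HasDerivAt (fun t : ℝ => x + t • v) v t := by
    simpa using ((hasDerivAt_id t).smul_const v).const_add x
  exact (hf _).hasFDerivAt.comp_hasDerivAt t this

theorem hasDerivAt_ev {f : E n → ℝ} (hf : Differentiable ℝ f) (x : E n) (i : Fin n) (t : ℝ) :
    HasDerivAt (fun t : ℝ => f (x + t • ev i)) (pd i f (x + t • ev i)) t := by
  have : HasDerivAt (fun t : ℝ => x + t • ev i) (ev i) t := by
    simpa using ((hasDerivAt_id t).smul_const (ev i)).const_add x
  exact (hf _).hasFDerivAt.comp_hasDerivAt t this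

/-- mean value inequality along a segment -/
theorem abs_sub_le_seg {f : E n → ℝ} (hf : Differentiable ℝ f) {x y : E n} {M : ℝ}
    (h : ∀ ξ ∈ segment ℝ x y, ∀ i, |pd i f ξ| ≤ M) : |f x - f y| ≤ n * M * ‖x - y‖ := by
  have key : ∀ ξ ∈ segment ℝ x y, ‖fderiv ℝ f ξ‖ ≤ n * M := by
    intro ξ hξ
    have h0 : 0 ≤ n * M := by
      have := Finset.sum_le_sum fun i (_ : i ∈ Finset.univ) => (abs_nonneg _).trans (h ξ hξ i)
      simpa using this
    refine ContinuousLinearMap.opNorm_le_bound _ h0 fun v => ?_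
    rw [fderiv_eq_sum, Real.norm_eq_abs]
    refine (Finset.abs_sum_le_sum_abs _ _).trans ?_
    have : ∀ i ∈ Finset.univ, |v i * pd i f ξ| ≤ M * ‖v‖ := fun i _ => by
      rw [abs_mul, mul_comm]
      exact mul_le_mul (h ξ hξ i) (abs_apply_le v i) (abs_nonneg _) ((abs_nonneg _).trans (h ξ hξ i))
    refine (Finset.sum_le_sum this).trans (le_of_eq ?_)
    simp [mul_assoc]
  exact (convex_segment x y).norm_image_sub_le_of_norm_fderiv_le (fun ξ _ => hf ξ) key
    (right_mem_segment ℝ x y) (left_mem_segment ℝ x y)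

theorem abs_sub_le_of_pd {f : E n → ℝ} (hf : Differentiable ℝ f) {M : ℝ}
    (h : ∀ i, Bd (pd i f) M) (x y : E n) : |f x - f y| ≤ n * M * ‖x - y‖ := by
  exact abs_sub_le_seg hf fun ξ _ i => h i ξ

theorem pd_transl (i : Fin n) (f : E n → ℝ) (a : E n) :
    pd i (fun x => f (x + a)) = fun x => pd i f (x + a) := by
  funext x
  simp only [pd, fderiv_comp_add_right]

theorem pd_smul (i : Fin n) {f : E n → ℝ} (hf : Differentiable ℝ f) (r : ℝ) :
    pd i (fun x => f (r • x)) = fun x => r * pd i f (r • x) := by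
  funext x
  have h1 : HasFDerivAt (fun x : E n => r • x) (r • ContinuousLinearMap.id ℝ (E n)) x :=
    (hasFDerivAt_id x).const_smul r
  have := ((hf (r • x)).hasFDerivAt.comp x h1).fderiv
  simp only [pd]
  erw [this]
  simp

theorem ancalc_pd_neg (i : Fin n) (f : E n → ℝ) (x : E n) :
    pd i (fun y => f (-y)) x = -pd i f (-x) := by
  have := (ContinuousLinearEquiv.neg ℝ : E n ≃L[ℝ] E n).comp_right_fderiv (f := f) (x := x)
  simp only [pd]
  erw [this]
  simp

theorem IsEven.pd_neg {f : E n → ℝ} (hf : IsEven f) (i : Fin n) (x : E n) :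
    pd i f (-x) = -pd i f x := by
  have h := ancalc_pd_neg i f x
  rw [show (fun y => f (-y)) = f from funext hf] at h
  linarith

theorem IsEven.pd_zero {f : E n → ℝ} (hf : IsEven f) (i : Fin n) : pd i f 0 = 0 := by
  have := hf.pd_neg i 0
  rw [neg_zero] at this
  linarith

theorem IsEven.pd_pd {f : E n → ℝ} (hf : IsEven f) (i j : Fin n) : IsEven (pd i (pd j f)) := by
  intro x
  have h := ancalc_pd_neg i (pd j f) x
  rw [show (fun y => pd j f (-y)) = fun y => -pd j f y from funext (hf.pd_neg j), An.pd_neg] at h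
  linarith

theorem IsEven.eul {f : E n → ℝ} (hf : IsEven f) : IsEven (eul f) := by
  intro x
  rw [eul_eq_sum, eul_eq_sum]
  refine Finset.sum_congr rfl fun i _ => ?_
  rw [hf.pd_neg]; simp

theorem L0_eq_Lop (f : E n → ℝ) : L0 f = Lop (fun _ => 1) f := by
  funext x
  simp [L0, Lop, Matrix.one_apply]

theorem Lop_add {f g : E n → ℝ} (a : E n → Mat n) (hf : ContDiff ℝ 2 f) (hg : ContDiff ℝ 2 g)
    (x : E n) : Lop a (fun y => f y + g y) x = Lop a f x + Lop a g x := by
  have d1 := hf.differentiable (by norm_num)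
  have d2 := hg.differentiable (by norm_num)
  have d3 := fun j => (c1_pd j hf).differentiable (by norm_num)
  have d4 := fun j => (c1_pd j hg).differentiable (by norm_num)
  simp only [Lop, eul_eq_sum, pd_add _ d1 d2, pd_add _ (d3 _) (d4 _), mul_add, Finset.sum_add_distrib]
  ring

theorem Lop_sub {f g : E n → ℝ} (a : E n → Mat n) (hf : ContDiff ℝ 2 f) (hg : ContDiff ℝ 2 g)
    (x : E n) : Lop a (fun y => f y - g y) x = Lop a f x - Lop a g x := by
  have d1 := hf.differentiable (by norm_num)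
  have d2 := hg.differentiable (by norm_num)
  have d3 := fun j => (c1_pd j hf).differentiable (by norm_num)
  have d4 := fun j => (c1_pd j hg).differentiable (by norm_num)
  simp only [Lop, eul_eq_sum, pd_sub _ d1 d2, pd_sub _ (d3 _) (d4 _), mul_sub, Finset.sum_sub_distrib]
  ring

theorem Lop_const_mul (a : E n → Mat n) (c : ℝ) (f : E n → ℝ) (x : E n) :
    Lop a (fun y => c * f y) x = c * Lop a f x := by
  simp only [Lop, eul_eq_sum, pd_const_mul, mul_sub, Finset.mul_sum, mul_left_comm c]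

theorem Lop_add_const (a : E n → Mat n) (c : ℝ) (f : E n → ℝ) (x : E n) :
    Lop a (fun y => f y + c) x = Lop a f x := by
  simp only [Lop, eul_eq_sum, pd_add_const]

theorem Lop_sum {ι : Type*} (s : Finset ι) {f : ι → E n → ℝ} (a : E n → Mat n)
    (hf : ∀ k ∈ s, ContDiff ℝ 2 (f k)) (x : E n) :
    Lop a (fun y => ∑ k ∈ s, f k y) x = ∑ k ∈ s, Lop a (f k) x := by
  have d1 : ∀ k ∈ s, Differentiable ℝ (f k) := fun k hk => (hf k hk).differentiable (by norm_num)
  have d3 : ∀ j, ∀ k ∈ s, Differentiable ℝ (pd j (f k)) := fun j k hk =>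
    (c1_pd j (hf k hk)).differentiable (by norm_num)
  simp only [Lop, eul_eq_sum, pd_sum s _ d1, pd_sum s _ (d3 _), Finset.mul_sum, Finset.sum_sub_distrib]
  congr 1
  · rw [Finset.sum_comm (s := s)]
    exact Finset.sum_congr rfl fun i _ => Finset.sum_comm
  · exact Finset.sum_comm

end

end Crest.Agent.R238.An
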