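import Crest.Agent.R238.AnCalc

/-!
# R238/AnCls TASK: closure properties of `PG`, `PS`, `Cb`, `G2`.
For products use induction on the list with the statement generalised over both factors
(`pdl (l ++ [i]) f = pdl l (pd i f)`, induct from the right or on the length).
-/

set_option autoImplicit false

namespace Crest.Agent.R238.An

open MeasureTheory Matrix Set Filter Topology
open scoped ContDiff

noncomputable section

variable {n : ℕ}

theorem ancls_nonneg {f : E n → ℝ} {C : ℝ} {N : ℕ} (h : ∀ x, |f x| ≤ C * (1 + ‖x‖) ^ N) : 0 ≤ C := by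
  have := h 0
  simp only [norm_zero, add_zero, one_pow, mul_one] at this
  exact (abs_nonneg _).trans this

theorem ancls_one_le (x : E n) (N : ℕ) : 1 ≤ (1 + ‖x‖) ^ N :=
  one_le_pow₀ (le_add_of_nonneg_right (norm_nonneg x))

theorem ancls_mono {f : E n → ℝ} {C : ℝ} {N M : ℕ} (h : ∀ x, |f x| ≤ C * (1 + ‖x‖) ^ N) (hM : N ≤ M)
    (x : E n) : |f x| ≤ C * (1 + ‖x‖) ^ M :=
  (h x).trans (mul_le_mul_of_nonneg_left
    (pow_le_pow_right₀ (le_add_of_nonneg_right (norm_nonneg x)) hM) (ancls_nonneg h))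

theorem ancls_sqrt (r : ℝ) (hr : 0 ≤ r) : √r ≤ 1 + r :=
  Real.sqrt_le_iff.2 ⟨by linarith, by nlinarith⟩

theorem PG.const (c : ℝ) : PG (fun _ : E n => c) := ⟨continuous_const, |c|, 0, fun _ => by simp⟩

theorem PG.coord (i : Fin n) : PG (fun x : E n => x i) := ⟨(contDiff_coord i (m := 0)).continuous, 1, 1, fun x => by
    have := abs_apply_le x i
    simp only [pow_one, one_mul]
    linarith⟩

theorem PG.norm : PG (fun x : E n => ‖x‖) := ⟨continuous_norm, 1, 1, fun x => by simp⟩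

theorem PG.add {f g : E n → ℝ} (hf : PG f) (hg : PG g) : PG (fun x => f x + g x) := by
  obtain ⟨C, N, h⟩ := hf.bd
  obtain ⟨C', N', h'⟩ := hg.bd
  refine ⟨hf.cont.add hg.cont, C + C', N + N', fun x => ?_⟩
  have h1 := ancls_mono h (Nat.le_add_right N N') x
  have h2 := ancls_mono h' (Nat.le_add_left N' N) x
  have h3 := abs_add_le (f x) (g x)
  linarith

theorem PG.sub {f g : E n → ℝ} (hf : PG f) (hg : PG g) : PG (fun x => f x - g x) := by
  obtain ⟨C, N, h⟩ := hf.bd
  obtain ⟨C', N', h'⟩ := hg.bd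
  refine ⟨hf.cont.sub hg.cont, C + C', N + N', fun x => ?_⟩
  have h1 := ancls_mono h (Nat.le_add_right N N') x
  have h2 := ancls_mono h' (Nat.le_add_left N' N) x
  have h3 := abs_sub (f x) (g x)
  linarith

theorem PG.neg {f : E n → ℝ} (hf : PG f) : PG (fun x => -f x) := by
  obtain ⟨C, N, h⟩ := hf.bd
  exact ⟨hf.cont.neg, C, N, fun x => by rw [abs_neg]; exact h x⟩

theorem PG.abs {f : E n → ℝ} (hf : PG f) : PG (fun x => |f x|) := by
  obtain ⟨C, N, h⟩ := hf.bd
  exact ⟨hf.cont.abs, C, N, fun x => by rw [abs_abs]; exact h x⟩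

theorem PG.mul {f g : E n → ℝ} (hf : PG f) (hg : PG g) : PG (fun x => f x * g x) := by
  obtain ⟨C, N, h⟩ := hf.bd
  obtain ⟨C', N', h'⟩ := hg.bd
  refine ⟨hf.cont.mul hg.cont, C * C', N + N', fun x => ?_⟩
  rw [abs_mul]
  refine (mul_le_mul (h x) (h' x) (abs_nonneg _) ((abs_nonneg _).trans (h x))).trans (le_of_eq ?_)
  ring

theorem PG.pow {f : E n → ℝ} (hf : PG f) (k : ℕ) : PG (fun x => f x ^ k) := by
  induction k with
  | zero => simpa using PG.const (n := n) 1
  | succ k ih => simpa only [pow_succ] using ih.mul hf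

theorem PG.sum {ι : Type*} (s : Finset ι) {f : ι → E n → ℝ} (hf : ∀ k ∈ s, PG (f k)) :
    PG (fun x => ∑ k ∈ s, f k x) := by
  classical
  induction s using Finset.induction_on with
  | empty => simpa using PG.const (n := n) 0
  | insert a s ha ih =>
    simp only [Finset.sum_insert ha]
    exact (hf a (Finset.mem_insert_self _ _)).add (ih fun k hk => hf k (Finset.mem_insert_of_mem hk))

theorem PG.of_bd {f : E n → ℝ} {M : ℝ} (hc : Continuous f) (hf : Bd f M) : PG f := ⟨hc, M, 0, fun x => by simpa using hf x⟩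

theorem PG.affine {f : E n → ℝ} (hf : PG f) (x : E n) (s : ℝ) : PG (fun z => f (x + s • z)) := by
  obtain ⟨C, N, h⟩ := hf.bd
  refine ⟨hf.cont.comp (by fun_prop), C * (1 + ‖x‖ + |s|) ^ N, N, fun z => (h _).trans ?_⟩
  rw [mul_assoc, ← mul_pow]
  refine mul_le_mul_of_nonneg_left (pow_le_pow_left₀ (by positivity) ?_ N) (ancls_nonneg h)
  have h1 := norm_add_le x (s • z)
  rw [norm_smul, Real.norm_eq_abs] at h1
  have h2 : 0 ≤ ‖x‖ * ‖z‖ := by positivity
  nlinarith [norm_nonneg z, abs_nonneg s]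

theorem PG.sqrt_norm : PG (fun x : E n => √‖x‖) := ⟨continuous_norm.sqrt, 1, 1, fun x => by
    rw [abs_of_nonneg (Real.sqrt_nonneg _), pow_one, one_mul]
    exact ancls_sqrt _ (norm_nonneg x)⟩

theorem PG.of_holL {f : E n → ℝ} {K : ℝ} (hf : HolL f K) : PG f := by
  refine ⟨continuous_iff_continuousAt.2 fun y₀ => ?_, |f 0| + 2 * |K|, 1, fun x => ?_⟩
  · rw [ContinuousAt, tendsto_iff_norm_sub_tendsto_zero]
    have hc : Continuous fun y : E n => K * (√‖y - y₀‖ + ‖y - y₀‖) := by fun_prop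
    have := hc.tendsto y₀
    simp only [sub_self, norm_zero, Real.sqrt_zero, add_zero, mul_zero] at this
    exact squeeze_zero (fun _ => norm_nonneg _) (fun y => hf y₀ y) this
  · have h1 := hf 0 x
    rw [sub_zero] at h1
    have h2 := ancls_sqrt _ (norm_nonneg x)
    have h3 : K * (√‖x‖ + ‖x‖) ≤ |K| * (2 * (1 + ‖x‖)) :=
      mul_le_mul (le_abs_self K) (by linarith) (by positivity) (abs_nonneg K)
    have h4 : |f x| ≤ |f 0| + |f x - f 0| := by
      have := abs_add_le (f 0) (f x - f 0)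
      rwa [add_sub_cancel] at this
    have h5 : 0 ≤ |f 0| * ‖x‖ := by positivity
    rw [pow_one]
    nlinarith

theorem ancls_diff {f : E n → ℝ} (hf : ContDiff ℝ ∞ f) : Differentiable ℝ f :=
  hf.differentiable (by simp)

theorem ancls_snoc (l : List (Fin n)) (i : Fin n) (f : E n → ℝ) :
    pdl (l ++ [i]) f = pdl l (An.pd i f) := pdl_append l [i] f

theorem ancls_closed (Q S : (E n → ℝ) → Prop) (h1 : ∀ f, S f → Differentiable ℝ f ∧ Q f)
    (h2 : ∀ f, S f → ∀ i, S (An.pd i f)) {f : E n → ℝ} (hf : S f) :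
    ContDiff ℝ ∞ f ∧ ∀ l, Q (pdl l f) := by
  constructor
  · have : ∀ (m : ℕ) (g : E n → ℝ), S g → ContDiff ℝ m g := by
      intro m
      induction m with
      | zero => exact fun g hg => contDiff_zero.2 (h1 g hg).1.continuous
      | succ m ih => exact fun g hg => contDiff_succ_of_pd (h1 g hg).1 fun i => ih _ (h2 g hg i)
    exact contDiff_infty.2 fun m => this m f hf
  · have : ∀ l, S (pdl l f) := by
      intro l
      induction l with
      | nil => exact hf
      | cons i l ih => exact h2 _ ih i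
    exact fun l => (h1 _ (this l)).2

theorem ancls_pdl_add {f g : E n → ℝ} (hf : ContDiff ℝ ∞ f) (hg : ContDiff ℝ ∞ g) (l : List (Fin n)) :
    pdl l (fun x => f x + g x) = fun x => pdl l f x + pdl l g x := by
  induction l with
  | nil => rfl
  | cons i l ih =>
    simp only [pdl]
    rw [ih, pd_add i (ancls_diff (smooth_pdl l hf)) (ancls_diff (smooth_pdl l hg))]

theorem ancls_pdl_neg (f : E n → ℝ) (l : List (Fin n)) :
    pdl l (fun x => -f x) = fun x => -pdl l f x := by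
  induction l with
  | nil => rfl
  | cons i l ih =>
    simp only [pdl]
    rw [ih, An.pd_neg]

theorem ancls_pdl_const (c : ℝ) (l : List (Fin n)) : ∃ c' : ℝ, pdl l (fun _ : E n => c) = fun _ => c' := by
  induction l with
  | nil => exact ⟨c, rfl⟩
  | cons i l ih =>
    obtain ⟨c', h⟩ := ih
    exact ⟨0, by simp only [pdl]; rw [h, pd_const]⟩

theorem ancls_mul (Q : (E n → ℝ) → Prop)
    (hadd : ∀ f g, Q f → Q g → Q fun x => f x + g x) (hmul : ∀ f g, Q f → Q g → Q fun x => f x * g x)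
    (l : List (Fin n)) : ∀ f g : E n → ℝ, ContDiff ℝ ∞ f → ContDiff ℝ ∞ g → (∀ l, Q (pdl l f)) →
      (∀ l, Q (pdl l g)) → Q (pdl l fun x => f x * g x) := by
  induction l using List.reverseRecOn with
  | nil => exact fun f g _ _ h1 h2 => hmul f g (h1 []) (h2 [])
  | append_singleton l i ih =>
    intro f g hf hg h1 h2
    have e := ancls_pdl_add (f := fun x => An.pd i f x * g x) (g := fun x => f x * An.pd i g x)
      ((smooth_pd i hf).mul hg) (hf.mul (smooth_pd i hg)) l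
    rw [ancls_snoc, pd_mul i (ancls_diff hf) (ancls_diff hg), e]
    exact hadd _ _
      (ih _ _ (smooth_pd i hf) hg (fun l => by rw [← ancls_snoc]; exact h1 _) h2)
      (ih _ _ hf (smooth_pd i hg) h1 (fun l => by rw [← ancls_snoc]; exact h2 _))

theorem ancls_pg_of_pd {f : E n → ℝ} (hd : Differentiable ℝ f) (h : ∀ i, PG (An.pd i f)) : PG f := by
  obtain ⟨C, N, hC⟩ := (PG.sum Finset.univ fun i _ => (h i).abs).bd
  have C0 := ancls_nonneg hC
  refine ⟨hd.continuous, |f 0| + n * C, N + 1, fun x => ?_⟩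
  have h1 : |f x - f 0| ≤ n * (C * (1 + ‖x‖) ^ N) * ‖x - 0‖ := by
    refine abs_sub_le_seg hd fun ξ hξ i => ?_
    have h2 : ‖ξ‖ ≤ ‖x‖ := by
      have := (convex_closedBall (0 : E n) ‖x‖).segment_subset (by simp : x ∈ _) (by simp : (0 : E n) ∈ _) hξ
      simpa using this
    have h3 : |An.pd i f ξ| ≤ ∑ j, |An.pd j f ξ| :=
      Finset.single_le_sum (f := fun j => |An.pd j f ξ|) (fun j _ => abs_nonneg _) (Finset.mem_univ i)
    refine h3.trans ((le_abs_self _).trans ((hC ξ).trans ?_))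
    exact mul_le_mul_of_nonneg_left (pow_le_pow_left₀ (by positivity) (by linarith) N) C0
  rw [sub_zero] at h1
  have h4 : |f x| ≤ |f 0| + |f x - f 0| := by
    have := abs_add_le (f 0) (f x - f 0)
    rwa [add_sub_cancel] at this
  have h5 := mul_le_mul_of_nonneg_left (ancls_one_le x (N + 1)) (abs_nonneg (f 0))
  have h6 : n * (C * (1 + ‖x‖) ^ N) * ‖x‖ ≤ n * C * (1 + ‖x‖) ^ (N + 1) := by
    have : 0 ≤ n * (C * (1 + ‖x‖) ^ N) := by positivity
    rw [pow_succ]
    nlinarith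
  nlinarith

theorem ancls_bd_add {f g : E n → ℝ} (hf : ∃ M, Bd f M) (hg : ∃ M, Bd g M) :
    ∃ M, Bd (fun x => f x + g x) M := by
  obtain ⟨M, h⟩ := hf
  obtain ⟨M', h'⟩ := hg
  exact ⟨M + M', fun x => (abs_add_le _ _).trans (add_le_add (h x) (h' x))⟩

theorem ancls_bd_mul {f g : E n → ℝ} (hf : ∃ M, Bd f M) (hg : ∃ M, Bd g M) :
    ∃ M, Bd (fun x => f x * g x) M := by
  obtain ⟨M, h⟩ := hf
  obtain ⟨M', h'⟩ := hg
  refine ⟨M * M', fun x => ?_⟩
  show |f x * g x| ≤ M * M'
  rw [abs_mul]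
  exact mul_le_mul (h x) (h' x) (abs_nonneg _) ((abs_nonneg _).trans (h x))

theorem PS.to_pg {f : E n → ℝ} (hf : PS f) : PG f := hf.pg []

theorem PS.pd {f : E n → ℝ} (hf : PS f) (i : Fin n) : PS (pd i f) := ⟨smooth_pd i hf.smooth, fun l => by rw [← ancls_snoc]; exact hf.pg _⟩

/-- coinduction principle -/
theorem PS.of_closed (S : (E n → ℝ) → Prop) (h1 : ∀ f, S f → Differentiable ℝ f ∧ PG f)
    (h2 : ∀ f, S f → ∀ i, S (An.pd i f)) {f : E n → ℝ} (hf : S f) : PS f := ⟨(ancls_closed PG S h1 h2 hf).1, (ancls_closed PG S h1 h2 hf).2⟩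

theorem PS.of_pd {f : E n → ℝ} (hd : Differentiable ℝ f) (hg : PG f) (h : ∀ i, PS (An.pd i f)) :
    PS f := by
  refine PS.of_closed (fun g => g = f ∨ PS g) ?_ ?_ (Or.inl rfl)
  · rintro g (rfl | hg')
    · exact ⟨hd, hg⟩
    · exact ⟨ancls_diff hg'.smooth, hg'.to_pg⟩
  · rintro g (rfl | hg') i
    · exact Or.inr (h i)
    · exact Or.inr (hg'.pd i)

theorem PS.const (c : ℝ) : PS (fun _ : E n => c) := by
  refine ⟨contDiff_const, fun l => ?_⟩
  obtain ⟨c', h⟩ := ancls_pdl_const (n := n) c l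
  rw [h]
  exact PG.const c' 

theorem PS.coord (i : Fin n) : PS (fun x : E n => x i) := by
  refine PS.of_pd (ancls_diff (contDiff_coord i)) (PG.coord i) fun j => ?_
  rw [pd_coord]
  exact PS.const _

theorem PS.add {f g : E n → ℝ} (hf : PS f) (hg : PS g) : PS (fun x => f x + g x) := ⟨hf.smooth.add hg.smooth, fun l => by
    rw [ancls_pdl_add hf.smooth hg.smooth]
    exact (hf.pg l).add (hg.pg l)⟩

theorem PS.neg {f : E n → ℝ} (hf : PS f) : PS (fun x => -f x) := ⟨hf.smooth.neg, fun l => by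
    rw [ancls_pdl_neg]
    exact (hf.pg l).neg⟩

theorem PS.sub {f g : E n → ℝ} (hf : PS f) (hg : PS g) : PS (fun x => f x - g x) := by
  simpa only [sub_eq_add_neg] using hf.add hg.neg

theorem PS.mul {f g : E n → ℝ} (hf : PS f) (hg : PS g) : PS (fun x => f x * g x) := ⟨hf.smooth.mul hg.smooth, fun l =>
    ancls_mul PG (fun _ _ => PG.add) (fun _ _ => PG.mul) l f g hf.smooth hg.smooth hf.pg hg.pg⟩

theorem PS.sum {ι : Type*} (s : Finset ι) {f : ι → E n → ℝ} (hf : ∀ k ∈ s, PS (f k)) :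
    PS (fun x => ∑ k ∈ s, f k x) := by
  classical
  induction s using Finset.induction_on with
  | empty => simpa using PS.const (n := n) 0
  | insert a s ha ih =>
    simp only [Finset.sum_insert ha]
    exact (hf a (Finset.mem_insert_self _ _)).add (ih fun k hk => hf k (Finset.mem_insert_of_mem hk))

theorem PS.eul {f : E n → ℝ} (hf : PS f) : PS (eul f) := by
  have e : An.eul f = fun x => ∑ i, x i * An.pd i f x := funext (eul_eq_sum f)
  rw [e]
  exact PS.sum Finset.univ fun i _ => (PS.coord i).mul (hf.pd i)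

theorem Cb.ps {f : E n → ℝ} (hf : Cb f) : PS f := ⟨hf.smooth, fun l => by
    obtain ⟨M, h⟩ := hf.bd l
    exact PG.of_bd (smooth_pdl l hf.smooth).continuous h⟩

theorem Cb.bd0 {f : E n → ℝ} (hf : Cb f) : ∃ M, Bd f M := hf.bd []

theorem Cb.pd {f : E n → ℝ} (hf : Cb f) (i : Fin n) : Cb (pd i f) := ⟨smooth_pd i hf.smooth, fun l => by rw [← ancls_snoc]; exact hf.bd _⟩

theorem Cb.of_closed (S : (E n → ℝ) → Prop) (h1 : ∀ f, S f → Differentiable ℝ f ∧ ∃ M, Bd f M)
    (h2 : ∀ f, S f → ∀ i, S (An.pd i f)) {f : E n → ℝ} (hf : S f) : Cb f := ⟨(ancls_closed (fun f => ∃ M, Bd f M) S h1 h2 hf).1,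
    (ancls_closed (fun f => ∃ M, Bd f M) S h1 h2 hf).2⟩

theorem Cb.const (c : ℝ) : Cb (fun _ : E n => c) := by
  refine ⟨contDiff_const, fun l => ?_⟩
  obtain ⟨c', h⟩ := ancls_pdl_const (n := n) c l
  rw [h]
  exact ⟨|c'|, fun _ => le_rfl⟩

theorem Cb.add {f g : E n → ℝ} (hf : Cb f) (hg : Cb g) : Cb (fun x => f x + g x) := ⟨hf.smooth.add hg.smooth, fun l => by
    rw [ancls_pdl_add hf.smooth hg.smooth]
    exact ancls_bd_add (hf.bd l) (hg.bd l)⟩

theorem Cb.neg {f : E n → ℝ} (hf : Cb f) : Cb (fun x => -f x) := ⟨hf.smooth.neg, fun l => by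
    rw [ancls_pdl_neg]
    obtain ⟨M, h⟩ := hf.bd l
    exact ⟨M, fun x => by
      show |-pdl l f x| ≤ M
      rw [abs_neg]
      exact h x⟩⟩

theorem Cb.sub {f g : E n → ℝ} (hf : Cb f) (hg : Cb g) : Cb (fun x => f x - g x) := by
  simpa only [sub_eq_add_neg] using hf.add hg.neg

theorem Cb.mul {f g : E n → ℝ} (hf : Cb f) (hg : Cb g) : Cb (fun x => f x * g x) := ⟨hf.smooth.mul hg.smooth, fun l =>
    ancls_mul (fun f => ∃ M, Bd f M) (fun _ _ => ancls_bd_add) (fun _ _ => ancls_bd_mul) l f g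
      hf.smooth hg.smooth hf.bd hg.bd⟩

theorem Cb.sum {ι : Type*} (s : Finset ι) {f : ι → E n → ℝ} (hf : ∀ k ∈ s, Cb (f k)) :
    Cb (fun x => ∑ k ∈ s, f k x) := by
  classical
  induction s using Finset.induction_on with
  | empty => simpa using Cb.const (n := n) 0
  | insert a s ha ih =>
    simp only [Finset.sum_insert ha]
    exact (hf a (Finset.mem_insert_self _ _)).add (ih fun k hk => hf k (Finset.mem_insert_of_mem hk))

theorem ancls_supp {f : E n → ℝ} {R : ℝ} (h : ∀ x, R ≤ ‖x‖ → f x = 0) (l : List (Fin n)) :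
    ∀ x, R < ‖x‖ → pdl l f x = 0 := by
  induction l with
  | nil => exact fun x hx => h x hx.le
  | cons i l ih =>
    intro x hx
    have e : pdl l f =ᶠ[𝓝 x] fun _ => (0 : ℝ) := by
      filter_upwards [(isOpen_lt continuous_const continuous_norm).mem_nhds hx] with y hy
      exact ih y hy
    simp only [pdl]
    rw [pd_congr i e, pd_const]

/-- smooth with compact support -/
theorem Cb.of_supp {f : E n → ℝ} (hf : ContDiff ℝ ∞ f) {R : ℝ} (h : ∀ x, R ≤ ‖x‖ → f x = 0) :
    Cb f := by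
  refine ⟨hf, fun l => ?_⟩
  obtain ⟨M, hM⟩ := (isCompact_closedBall (0 : E n) R).exists_bound_of_continuousOn
    (smooth_pdl l hf).continuous.continuousOn
  refine ⟨max M 0, fun x => ?_⟩
  rcases le_or_gt ‖x‖ R with hx | hx
  · exact (hM x (by simpa using hx)).trans (le_max_left _ _)
  · rw [ancls_supp h l x hx, abs_zero]
    exact le_max_right _ _

theorem pdl_supp {f : E n → ℝ} {R : ℝ} (h : ∀ x, R ≤ ‖x‖ → f x = 0) (l : List (Fin n)) :
    ∀ x, R + 1 ≤ ‖x‖ → pdl l f x = 0 := fun x hx => ancls_supp h l x (by linarith)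

theorem Cb.g2 {f : E n → ℝ} (hf : Cb f) : G2 f := ⟨hf.smooth, fun i j => (hf.pd j).pd i⟩

theorem G2.pd {f : E n → ℝ} (hf : G2 f) (i : Fin n) : G2 (pd i f) := ⟨smooth_pd i hf.smooth, fun j k => (hf.cb k i).pd j⟩

theorem G2.ps {f : E n → ℝ} (hf : G2 f) : PS f := by
  have h1 : ∀ j, PS (An.pd j f) := fun j =>
    PS.of_pd (ancls_diff (smooth_pd j hf.smooth))
      (ancls_pg_of_pd (ancls_diff (smooth_pd j hf.smooth)) fun i => (hf.cb i j).ps.to_pg)
      fun i => (hf.cb i j).ps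
  exact PS.of_pd (ancls_diff hf.smooth) (ancls_pg_of_pd (ancls_diff hf.smooth) fun j => (h1 j).to_pg) h1

theorem G2.add {f g : E n → ℝ} (hf : G2 f) (hg : G2 g) : G2 (fun x => f x + g x) := by
  refine ⟨hf.smooth.add hg.smooth, fun i j => ?_⟩
  rw [pd_add j (ancls_diff hf.smooth) (ancls_diff hg.smooth),
    pd_add i (ancls_diff (smooth_pd j hf.smooth)) (ancls_diff (smooth_pd j hg.smooth))]
  exact (hf.cb i j).add (hg.cb i j)

theorem G2.sub {f g : E n → ℝ} (hf : G2 f) (hg : G2 g) : G2 (fun x => f x - g x) := by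
  refine ⟨hf.smooth.sub hg.smooth, fun i j => ?_⟩
  rw [pd_sub j (ancls_diff hf.smooth) (ancls_diff hg.smooth),
    pd_sub i (ancls_diff (smooth_pd j hf.smooth)) (ancls_diff (smooth_pd j hg.smooth))]
  exact (hf.cb i j).sub (hg.cb i j)

theorem G2.add_const {f : E n → ℝ} (hf : G2 f) (c : ℝ) : G2 (fun x => f x + c) := by
  refine ⟨hf.smooth.add contDiff_const, fun i j => ?_⟩
  rw [pd_add_const]
  exact hf.cb i j

end

end Crest.Agent.R238.An
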