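import Crest.Agent.R238.AnG1

/-!
# R238/AnG2 TASK: differentiating `conv` in `x` (kernel side and function side), continuity
-/

set_option autoImplicit false

namespace Crest.Agent.R238.An

open MeasureTheory Matrix Set Filter Topology
open scoped ContDiff

noncomputable section

variable {n : ℕ}

/-- the common majorant -/
theorem ang2_bd {w F : E n → ℝ} (hw : Wt w) (hF : PG F) {R : ℝ} (hR : 0 ≤ R) :
    ∃ (N : ℕ) (b : E n → ℝ), Integrable b ∧ (∀ z, 0 ≤ b z) ∧ ∀ (x a z : E n) (s : ℝ), ‖a‖ ≤ R → |s| ≤ R →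
      |F (x + s • z) * w (a + z)| ≤ (1 + ‖x‖) ^ N * b z := by
  obtain ⟨C, N, h1⟩ := hF.bd
  obtain ⟨C', N', h2, h3⟩ := hw.le
  have h0 : 0 ≤ C := by simpa using (abs_nonneg _).trans (h1 0)
  refine ⟨N, _, (integrable_poly_gauss (N + N') (b := 1 / 4) (by norm_num)).const_mul
    (C * (1 + R) ^ N * (C' * (1 + R) ^ N' * Real.exp (R ^ 2 / 2))), fun z => by positivity,
    fun x a z s ha hs => ?_⟩
  have a1 : 1 + ‖x + s • z‖ ≤ (1 + ‖x‖) * ((1 + R) * (1 + ‖z‖)) := by
    have := (norm_add_le x (s • z)).trans (add_le_add_right ((norm_smul s z).trans_le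
      (mul_le_mul_of_nonneg_right hs (norm_nonneg z))) _)
    nlinarith [norm_nonneg x, norm_nonneg z, mul_nonneg hR (norm_nonneg z), mul_nonneg hR (norm_nonneg x),
      mul_nonneg (norm_nonneg x) (norm_nonneg z), mul_nonneg (norm_nonneg x) (mul_nonneg hR (norm_nonneg z))]
  have a2 : 1 + ‖a + z‖ ≤ (1 + R) * (1 + ‖z‖) := by
    nlinarith [norm_add_le a z, mul_nonneg hR (norm_nonneg z)]
  have a3 : Real.exp (-(1 / 2) * ‖a + z‖ ^ 2) ≤ Real.exp (R ^ 2 / 2) * Real.exp (-(1 / 4) * ‖z‖ ^ 2) := by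
    have b1 : ‖z‖ ≤ ‖a + z‖ + R := by
      have := norm_sub_le (a + z) a
      rw [add_sub_cancel_left] at this
      linarith
    rw [← Real.exp_add, Real.exp_le_exp]
    nlinarith [pow_le_pow_left₀ (norm_nonneg _) b1 2, sq_nonneg (‖a + z‖ - R)]
  rw [abs_mul]
  calc _ ≤ C * ((1 + ‖x‖) * ((1 + R) * (1 + ‖z‖))) ^ N *
        (C' * ((1 + R) * (1 + ‖z‖)) ^ N' * (Real.exp (R ^ 2 / 2) * Real.exp (-(1 / 4) * ‖z‖ ^ 2))) :=
      mul_le_mul ((h1 _).trans (by gcongr)) ((h3 _).trans (by gcongr)) (abs_nonneg _) (by positivity)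
    _ = _ := by simp only [mul_pow, pow_add]; ring

/-- differentiation under the integral sign -/
theorem ang2_diff {Φ : E n → E n → ℝ} {Ψ : Fin n → E n → E n → ℝ} (h1 : ∀ z, Differentiable ℝ fun x => Φ x z)
    (h2 : ∀ x, Integrable (Φ x)) (h3 : ∀ i x z, pd i (fun x => Φ x z) x = Ψ i x z)
    (h4 : ∀ i x, AEStronglyMeasurable (Ψ i x) volume)
    (h5 : ∀ i (R : ℝ), 0 ≤ R → ∃ b, Integrable b ∧ ∀ x z, ‖x‖ ≤ R → |Ψ i x z| ≤ b z) :
    Differentiable ℝ (fun x => ∫ z, Φ x z) ∧ ∀ i, pd i (fun x => ∫ z, Φ x z) = fun x => ∫ z, Ψ i x z := by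
  have e : ∀ x z, fderiv ℝ (fun x => Φ x z) x = ∑ i, Ψ i x z • EuclideanSpace.proj (𝕜 := ℝ) i := fun x z => by
    ext v
    simp [fderiv_eq_sum, h3, mul_comm]
  have key : ∀ x, Integrable (fun z => fderiv ℝ (fun x => Φ x z) x) ∧
      HasFDerivAt (fun x => ∫ z, Φ x z) (∫ z, fderiv ℝ (fun x => Φ x z) x) x := fun x => by
    choose b hb hb' using fun i => h5 i (‖x‖ + 1) (by positivity)
    have a1 : AEStronglyMeasurable (fun z => fderiv ℝ (fun x => Φ x z) x) volume := by
      simp only [e]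
      exact Finset.aestronglyMeasurable_fun_sum _ fun i _ => (h4 i x).smul_const _
    have a2 : ∀ z, ∀ y ∈ Metric.ball x 1, ‖fderiv ℝ (fun x => Φ x z) y‖ ≤ ∑ i, b i z := fun z y hy => by
      refine ContinuousLinearMap.opNorm_le_bound _ (Finset.sum_nonneg fun i _ => (abs_nonneg _).trans
        (hb' i x z (by linarith))) fun v => ?_
      rw [fderiv_eq_sum, Finset.sum_mul]
      refine (norm_sum_le _ _).trans (Finset.sum_le_sum fun i _ => ?_)
      have := hb' i y z (norm_le_norm_add_const_of_dist_le (Metric.mem_ball.1 hy).le)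
      rw [h3, Real.norm_eq_abs, abs_mul, mul_comm]
      exact mul_le_mul this (abs_apply_le v i) (abs_nonneg _) ((abs_nonneg _).trans this)
    have a3 := integrable_finsetSum Finset.univ fun i _ => hb i
    exact ⟨a3.mono' a1 (.of_forall fun z => a2 z x (Metric.mem_ball_self one_pos)),
      hasFDerivAt_integral_of_dominated_of_fderiv_le (Metric.ball_mem_nhds x one_pos)
        (.of_forall fun y => (h2 y).1) (h2 x) a1 (.of_forall a2) a3 (.of_forall fun z y _ => (h1 z y).hasFDerivAt)⟩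
  refine ⟨fun x => (key x).2.differentiableAt, fun i => funext fun x => ?_⟩
  rw [pd, (key x).2.fderiv, ContinuousLinearMap.integral_apply (key x).1]
  exact congrArg _ (funext fun z => h3 i x z)

theorem ang2_shift (w F : E n → ℝ) {s : ℝ} (hs : 0 < s) (x : E n) :
    conv w F s x = ∫ z, F (0 + s • z) * w (-s⁻¹ • x + z) := by
  rw [← integral_add_left_eq_self _ (s⁻¹ • x)]
  simp [conv, smul_smul, hs.ne']

theorem ang2_ker {w F : E n → ℝ} (hw : Wt w) (hF : PG F) {s : ℝ} (hs : 0 < s) :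
    Differentiable ℝ (conv w F s) ∧ ∀ i, pd i (conv w F s) = fun x => -s⁻¹ * conv (pd i w) F s x := by
  have hd := hw.smooth.differentiable (by simp)
  have hc : ∀ {w : E n → ℝ}, Wt w → ∀ x : E n, Continuous fun z => F (0 + s • z) * w (-s⁻¹ • x + z) :=
    fun hw x => (hF.affine 0 s).cont.mul (hw.smooth.continuous.comp (continuous_const.add continuous_id))
  have hb : ∀ {w : E n → ℝ}, Wt w → ∀ R : ℝ, 0 ≤ R → ∃ b, Integrable b ∧ ∀ x z : E n, ‖x‖ ≤ R →
      |F (0 + s • z) * w (-s⁻¹ • x + z)| ≤ b z := fun hw R hR => by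
    obtain ⟨N, b, b1, -, b2⟩ := ang2_bd hw hF (R := s⁻¹ * R + s) (by positivity)
    refine ⟨b, b1, fun x z hx => (b2 0 _ z s ?_ ?_).trans_eq (by simp)⟩
    · rw [norm_smul, norm_neg, Real.norm_of_nonneg (by positivity)]
      exact (mul_le_mul_of_nonneg_left hx (by positivity)).trans (by linarith)
    · rw [abs_of_pos hs]
      exact le_add_of_nonneg_left (by positivity)
  simp only [funext (ang2_shift _ F hs), ← integral_const_mul]
  refine ang2_diff (fun z => by fun_prop) (fun x => ?_) (fun i x z => ?_)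
    (fun i x => ((hc (hw.pd i) x).const_mul _).aestronglyMeasurable) fun i R hR => ?_
  · obtain ⟨b, b1, b2⟩ := hb hw ‖x‖ (norm_nonneg _)
    exact b1.mono' (hc hw x).aestronglyMeasurable (.of_forall fun z => b2 x z le_rfl)
  · rw [pd_const_mul, pd_smul i (f := fun y => w (y + z)) (by fun_prop), pd_transl]
    exact mul_left_comm _ _ _
  · obtain ⟨b, b1, b2⟩ := hb (hw.pd i) R hR
    exact ⟨_, b1.const_mul |-s⁻¹|, fun x z hx => (abs_mul _ _).trans_le
      (mul_le_mul_of_nonneg_left (b2 x z hx) (abs_nonneg _))⟩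

theorem ang2_fun {w F : E n → ℝ} (hw : Wt w) (hF : Differentiable ℝ F) (h0 : PG F)
    (h1 : ∀ i, PG (pd i F)) (s : ℝ) :
    Differentiable ℝ (conv w F s) ∧ ∀ i, pd i (conv w F s) = conv w (pd i F) s := by
  refine ang2_diff (fun z => by fun_prop) (hw.integrable_conv h0 s) (fun i x z => ?_)
    (fun i x => (hw.integrable_conv (h1 i) s x).1) fun i R hR => ?_
  · simp only [mul_comm _ (w z), pd_const_mul, pd_transl]
  · obtain ⟨N, b, b1, b2, b3⟩ := ang2_bd hw (h1 i) (abs_nonneg s)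
    refine ⟨_, b1.const_mul ((1 + R) ^ N), fun x z hx => ?_⟩
    have := b3 x 0 z s (by simp) le_rfl
    rw [zero_add] at this
    exact this.trans (by have := b2 z; gcongr)

/-- dominated convergence, `continuous_of_dominated` on balls (or `continuousAt_of_dominated`) -/
theorem continuous_conv {w F : E n → ℝ} (hw : Wt w) (hF : PG F) :
    Continuous (fun p : ℝ × E n => conv w F p.1 p.2) := by
  refine continuous_iff_continuousAt.2 fun p => ?_
  obtain ⟨N, b, b1, b2, b3⟩ := ang2_bd hw hF (R := ‖p‖ + 1) (by positivity)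
  have hc := hF.cont
  refine continuousAt_of_dominated (.of_forall fun q => (hw.integrable_conv hF q.1 q.2).1)
    ((continuous_norm.continuousAt.eventually_lt_const (lt_add_one ‖p‖)).mono fun q hq => .of_forall fun z => ?_)
    (b1.const_mul ((1 + (‖p‖ + 1)) ^ N)) (.of_forall fun z => by fun_prop)
  have := b3 q.2 0 z q.1 (by simp; positivity) ((norm_fst_le q).trans hq.le)
  rw [zero_add] at this
  exact this.trans (by have := b2 z; have := (norm_snd_le q).trans hq.le; gcongr)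

theorem PG.conv {w F : E n → ℝ} (hw : Wt w) (hF : PG F) (s : ℝ) : PG (conv w F s) := by
  obtain ⟨N, b, b1, b2, b3⟩ := ang2_bd hw hF (abs_nonneg s)
  refine ⟨(continuous_conv hw hF).comp (Continuous.prodMk_right s), ∫ z, b z, N, fun x => ?_⟩
  rw [mul_comm, ← integral_const_mul]
  exact norm_integral_le_of_norm_le (f := fun z => F (x + s • z) * w z) (b1.const_mul _)
    (.of_forall fun z => by simpa only [zero_add, Real.norm_eq_abs] using b3 x 0 z s (by simp) le_rfl)

/-- change of variables `y = x + s z`: `conv w F s x = (s^n)⁻¹ ∫ F y * w (s⁻¹ • (y - x))`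
(`Measure.integral_comp_smul`, `integral_add_left_eq_self`) -/
theorem conv_eq {w F : E n → ℝ} {s : ℝ} (hs : 0 < s) (x : E n) :
    conv w F s x = (s ^ n)⁻¹ * ∫ y, F y * w (s⁻¹ • (y - x)) := by
  have := Measure.integral_comp_smul_of_nonneg volume (fun y => F (x + y) * w (s⁻¹ • y)) s (hR := hs.le)
  rw [← integral_add_left_eq_self _ x]
  simpa [conv, smul_smul, hs.ne'] using this

/-- kernel side: `hasFDerivAt_integral_of_dominated_of_fderiv_le` for the formula `conv_eq`;
for `‖x' - x‖ < 1`: `‖s⁻¹(y-x')‖² ≥ s⁻²(‖y - x‖²/2 - 1)`, `Wt.le` for the weights `pd i w`. -/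
theorem differentiable_conv {w F : E n → ℝ} (hw : Wt w) (hF : PG F) {s : ℝ} (hs : 0 < s) :
    Differentiable ℝ (conv w F s) := by
  exact (ang2_ker hw hF hs).1

theorem pd_conv {w F : E n → ℝ} (hw : Wt w) (hF : PG F) {s : ℝ} (hs : 0 < s) (i : Fin n) :
    pd i (conv w F s) = fun x => -s⁻¹ * conv (pd i w) F s x := by
  exact (ang2_ker hw hF hs).2 i

/-- `PS.of_closed` with `S f := ∃ c w, Wt w ∧ f = fun x => c * conv w F s x` -/
theorem PS.conv {w F : E n → ℝ} (hw : Wt w) (hF : PG F) {s : ℝ} (hs : 0 < s) :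
    PS (conv w F s) := by
  refine PS.of_closed (fun f => ∃ c w, Wt w ∧ f = fun x => c * An.conv w F s x) ?_ ?_ ⟨1, w, hw, by simp⟩
  · rintro _ ⟨c, w, hw, rfl⟩
    exact ⟨(differentiable_conv hw hF hs).const_mul c, (PG.const c).mul (PG.conv hw hF s)⟩
  · rintro _ ⟨c, w, hw, rfl⟩ i
    exact ⟨c * -s⁻¹, _, hw.pd i, by simp only [pd_const_mul, pd_conv hw hF hs, mul_assoc]⟩

/-- function side (any `s`) -/
theorem differentiable_conv' {w F : E n → ℝ} (hw : Wt w) (hF : Differentiable ℝ F) (h0 : PG F)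
    (h1 : ∀ i, PG (pd i F)) (s : ℝ) : Differentiable ℝ (conv w F s) := by
  exact (ang2_fun hw hF h0 h1 s).1

theorem pd_conv' {w F : E n → ℝ} (hw : Wt w) (hF : Differentiable ℝ F) (h0 : PG F)
    (h1 : ∀ i, PG (pd i F)) (s : ℝ) (i : Fin n) : pd i (conv w F s) = conv w (pd i F) s := by
  exact (ang2_fun hw hF h0 h1 s).2 i

theorem tendsto_conv {F : E n → ℝ} (hF : PG F) (x : E n) :
    Tendsto (fun s => conv gk F s x) (𝓝 0) (𝓝 (F x)) := by
  exact ((continuous_conv Wt.gk hF).comp (Continuous.prodMk_left x)).tendsto' 0 _ (conv_zero F x)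

end

end Crest.Agent.R238.An
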