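import Crest.Agent.R238.AnBoch
import Crest.Agent.R238.AnG2

/-!
# R238/AnE2 TASK: the `L²` estimate for `C²` functions
-/

set_option autoImplicit false

namespace Crest.Agent.R238.An

open MeasureTheory Matrix Set Filter Topology
open scoped ContDiff

noncomputable section

variable {n : ℕ}

variable {φ₀ h k : E n → ℝ}

/-- a family converging pointwise as `s → 0` with a uniform polynomial bound -/
structure ane2_Cv (F : ℝ → E n → ℝ) (F₀ : E n → ℝ) : Prop where
  cont : ∀ s, Continuous (F s)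
  bd : ∃ (C : ℝ) (N : ℕ), ∀ s, |s| ≤ 1 → ∀ x, |F s x| ≤ C * (1 + ‖x‖) ^ N
  lim : ∀ x, Tendsto (fun s => F s x) (𝓝 0) (𝓝 (F₀ x))

theorem ane2_const {F : E n → ℝ} (hF : PG F) : ane2_Cv (fun _ => F) F := by
  obtain ⟨C, N, h⟩ := hF.bd
  exact ⟨fun _ => hF.cont, ⟨C, N, fun _ _ => h⟩, fun _ => tendsto_const_nhds⟩

theorem ane2_add {F G : ℝ → E n → ℝ} {F₀ G₀ : E n → ℝ} (hF : ane2_Cv F F₀) (hG : ane2_Cv G G₀) :
    ane2_Cv (fun s x => F s x + G s x) (fun x => F₀ x + G₀ x) := by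
  obtain ⟨C, N, h⟩ := hF.bd
  obtain ⟨C', N', h'⟩ := hG.bd
  refine ⟨fun s => (hF.cont s).add (hG.cont s), ⟨C + C', N + N', fun s hs x => ?_⟩,
    fun x => (hF.lim x).add (hG.lim x)⟩
  have h1 := ancls_mono (h s hs) (Nat.le_add_right N N') x
  have h2 := ancls_mono (h' s hs) (Nat.le_add_left N' N) x
  have := abs_add_le (F s x) (G s x)
  linarith [add_mul C C' ((1 + ‖x‖) ^ (N + N'))]

theorem ane2_mul {F G : ℝ → E n → ℝ} {F₀ G₀ : E n → ℝ} (hF : ane2_Cv F F₀) (hG : ane2_Cv G G₀) :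
    ane2_Cv (fun s x => F s x * G s x) (fun x => F₀ x * G₀ x) := by
  obtain ⟨C, N, h⟩ := hF.bd
  obtain ⟨C', N', h'⟩ := hG.bd
  refine ⟨fun s => (hF.cont s).mul (hG.cont s), ⟨C * C', N + N', fun s hs x => ?_⟩,
    fun x => (hF.lim x).mul (hG.lim x)⟩
  rw [abs_mul, pow_add]
  calc |F s x| * |G s x| ≤ (C * (1 + ‖x‖) ^ N) * (C' * (1 + ‖x‖) ^ N') :=
        mul_le_mul (h s hs x) (h' s hs x) (abs_nonneg _) ((abs_nonneg _).trans (h s hs x))
    _ = _ := by ring

theorem ane2_sub {F G : ℝ → E n → ℝ} {F₀ G₀ : E n → ℝ} (hF : ane2_Cv F F₀) (hG : ane2_Cv G G₀) :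
    ane2_Cv (fun s x => F s x - G s x) (fun x => F₀ x - G₀ x) := by
  have := ane2_add hF (ane2_mul (ane2_const (PG.const (-1))) hG)
  simpa [sub_eq_add_neg] using this

theorem ane2_sum {ι : Type*} (t : Finset ι) {F : ι → ℝ → E n → ℝ} {F₀ : ι → E n → ℝ}
    (hF : ∀ k ∈ t, ane2_Cv (F k) (F₀ k)) :
    ane2_Cv (fun s x => ∑ k ∈ t, F k s x) (fun x => ∑ k ∈ t, F₀ k x) := by
  classical
  induction t using Finset.induction_on with
  | empty => simpa using ane2_const (n := n) (PG.const 0)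
  | insert a t ha ih =>
    simp only [Finset.sum_insert ha]
    exact ane2_add (hF a (Finset.mem_insert_self _ _))
      (ih fun k hk => hF k (Finset.mem_insert_of_mem hk))

theorem ane2_conv {F : E n → ℝ} (hF : PG F) : ane2_Cv (fun s => conv gk F s) F := by
  obtain ⟨N, b, hb, hb0, h⟩ := ang2_bd (n := n) Wt.gk hF zero_le_one
  refine ⟨fun s => (PG.conv Wt.gk hF s).cont, ⟨∫ z, b z, N, fun s hs x => ?_⟩,
    fun x => tendsto_conv hF x⟩
  have h1 : ‖∫ z, F (x + s • z) * gk z‖ ≤ ∫ z, (1 + ‖x‖) ^ N * b z := by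
    refine norm_integral_le_of_norm_le (hb.const_mul _) (Eventually.of_forall fun z => ?_)
    have := h x 0 z s (by simp) hs
    rw [zero_add] at this
    exact this
  rw [integral_const_mul, mul_comm] at h1
  exact h1

theorem ane2_tendsto {F : ℝ → E n → ℝ} {F₀ : E n → ℝ} (hφ : Cb φ₀) (hF : ane2_Cv F F₀) :
    Tendsto (fun s => Ex φ₀ (F s)) (𝓝 0) (𝓝 (Ex φ₀ F₀)) := by
  obtain ⟨C, N, h⟩ := hF.bd
  have hd : Continuous (dens φ₀) := (wt_dens hφ).smooth.continuous
  have hp : PG (fun x : E n => C * (1 + ‖x‖) ^ N) :=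
    (PG.const C).mul (((PG.const 1).add PG.norm).pow N)
  unfold Ex
  refine tendsto_integral_filter_of_dominated_convergence
    (fun x => C * (1 + ‖x‖) ^ N * dens φ₀ x)
    (Eventually.of_forall fun s => ((hF.cont s).mul hd).aestronglyMeasurable) ?_
    (Ex_integrable hφ hp) (Eventually.of_forall fun x => (hF.lim x).mul_const _)
  have : ∀ᶠ s : ℝ in 𝓝 0, |s| ≤ 1 := by
    have h1 : ∀ᶠ s : ℝ in 𝓝 0, s ∈ Icc (-1 : ℝ) 1 := Icc_mem_nhds (by norm_num) (by norm_num)
    exact h1.mono fun s hs => abs_le.2 hs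
  refine this.mono fun s hs => Eventually.of_forall fun x => ?_
  rw [Real.norm_eq_abs, abs_mul, abs_of_pos (dens_pos φ₀ x)]
  exact mul_le_mul_of_nonneg_right (h s hs x) (dens_pos φ₀ x).le

theorem ane2_trace (a : E n → Mat n) (k : E n → ℝ) (x : E n) :
    (a x * hess k x * (a x * hess k x)).trace =
      ∑ i, ∑ j, (∑ p, a x i p * pd p (pd j k) x) * (∑ q, a x j q * pd q (pd i k) x) := by
  simp only [Matrix.trace, Matrix.diag_apply, Matrix.mul_apply, hess, Matrix.of_apply]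

theorem ane2_Lop (a : E n → Mat n) (k : E n → ℝ) (x : E n) :
    Lop a k x = (∑ i, ∑ j, a x i j * pd i (pd j k) x) - ∑ i, x i * pd i k x := by
  rw [Lop, eul_eq_sum]

theorem ane2_ps {M c m : ℝ} (hφ : Cb φ₀) (hs : Sol φ₀ h) (hk : PS k) (hk2 : C2 k M) (hc : c ≤ 1) :
    Ex φ₀ (fun x => (tau h x * hess k x * (tau h x * hess k x)).trace) ≤
      Ex φ₀ (fun x => (Lop (tau h) k x + c * k x + m) * Lop (tau h) k x) := by
  have hL := hk2.pg_Lop hs
  have h1 := bochner hφ hs hk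
  have h2 := boch_sym hφ hs hk
  have h3 := Ex_Lop hφ hs hk2
  have h4 : Ex φ₀ (fun x => (Lop (tau h) k x + c * k x + m) * Lop (tau h) k x) =
      Ex φ₀ (fun x => Lop (tau h) k x ^ 2) + c * Ex φ₀ (fun x => k x * Lop (tau h) k x) +
        m * Ex φ₀ (Lop (tau h) k) := by
    have p1 : PG (fun x => c * (k x * Lop (tau h) k x)) := (PG.const c).mul (hk.to_pg.mul hL)
    have p2 : PG (fun x => m * Lop (tau h) k x) := (PG.const m).mul hL
    rw [← Ex_const_mul, ← Ex_const_mul, ← Ex_add hφ (hL.pow 2) p1, ← Ex_add hφ ((hL.pow 2).add p1) p2]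
    congr 1
    funext x
    ring
  have h5 : 0 ≤ Ex φ₀ (fun x => ∑ i, ∑ j, tau h x i j * (pd i k x * pd j k x)) := by
    obtain ⟨lo, hi, hlo, he⟩ := hs.tau_ell
    refine Ex_nonneg fun x => ?_
    have h6 := ((he x).2 fun i => pd i k x).1
    have h7 := mul_nonneg hlo.le (amat_nn fun i => pd i k x)
    rw [m2_quad'] at h6
    refine (h7.trans h6).trans (le_of_eq ?_)
    exact Finset.sum_congr rfl fun i _ => Finset.sum_congr rfl fun j _ => by ring
  rw [h4, h1, h2, h3]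
  nlinarith [mul_nonneg (sub_nonneg.2 hc) h5]

/-- `k_s = conv gk k s` is `PS` (`PS.conv`), `pd i k_s = conv gk (pd i k) s` etc. (`pd_conv'`), converging
pointwise as `s → 0+` (`tendsto_conv`) with bounds `|D²k_s| ≤ M`, `|D k_s| ≤ C(1+‖x‖)`,
`|k_s| ≤ C (1+‖x‖)²` for `0 < s ≤ 1` (`C2.pd_lip` applied to `k_s`, continuity of `s ↦ conv gk _ s 0`
on `[0,1]`).  For `PS k` the inequality is `bochner`, `boch_sym`, `Ex_Lop`:
`Ex((Lk+ck+m) Lk) = Ex tr + (1-c) Ex(τ Dk Dk)`.  Dominated convergence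
(`tendsto_integral_filter_of_dominated_convergence`) on both sides. -/
theorem e2 {M c m : ℝ} (hφ : Cb φ₀) (hs : Sol φ₀ h) (hk : C2 k M) (hc : c ≤ 1) :
    Ex φ₀ (fun x => (tau h x * hess k x * (tau h x * hess k x)).trace) ≤
      Ex φ₀ (fun x => (Lop (tau h) k x + c * k x + m) * Lop (tau h) k x) := by
  have hd : Differentiable ℝ k := hk.c2.differentiable (by norm_num)
  have hd1 : ∀ j, Differentiable ℝ (pd j k) := fun j => (c1_pd j hk.c2).differentiable (by norm_num)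
  have e1 : ∀ s i, pd i (conv gk k s) = conv gk (pd i k) s := fun s i =>
    pd_conv' Wt.gk hd hk.pg hk.pg_pd s i
  have e2 : ∀ s i j, pd i (pd j (conv gk k s)) = conv gk (pd i (pd j k)) s := fun s i j => by
    rw [e1, pd_conv' Wt.gk (hd1 j) (hk.pg_pd j) (fun i => hk.pg_pd2 i j) s i]
  have hτ : ∀ i j, ane2_Cv (fun _ x => tau h x i j) (fun x => tau h x i j) := fun i j =>
    ane2_const (hs.cb_tau i j).ps.to_pg
  have c0 := ane2_conv hk.pg
  have c1 : ∀ i, ane2_Cv (fun s => pd i (conv gk k s)) (pd i k) := fun i => by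
    simp only [e1]
    exact ane2_conv (hk.pg_pd i)
  have c2 : ∀ i j, ane2_Cv (fun s => pd i (pd j (conv gk k s))) (pd i (pd j k)) := fun i j => by
    simp only [e2]
    exact ane2_conv (hk.pg_pd2 i j)
  have cL : ane2_Cv (fun s => Lop (tau h) (conv gk k s)) (Lop (tau h) k) := by
    have := ane2_sub
      (ane2_sum Finset.univ fun i _ => ane2_sum Finset.univ fun j _ => ane2_mul (hτ i j) (c2 i j))
      (ane2_sum Finset.univ fun i _ => ane2_mul (ane2_const (PG.coord i)) (c1 i))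
    convert this using 1
    · funext s x
      exact ane2_Lop _ _ _
    · funext x
      exact ane2_Lop _ _ _
  have cT : ane2_Cv
      (fun s x => (tau h x * hess (conv gk k s) x * (tau h x * hess (conv gk k s) x)).trace)
      (fun x => (tau h x * hess k x * (tau h x * hess k x)).trace) := by
    have := ane2_sum Finset.univ fun i _ => ane2_sum Finset.univ fun j _ => ane2_mul
      (ane2_sum Finset.univ fun p _ => ane2_mul (hτ i p) (c2 p j))
      (ane2_sum Finset.univ fun q _ => ane2_mul (hτ j q) (c2 q i))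
    convert this using 1
    · funext s x
      exact ane2_trace _ _ _
    · funext x
      exact ane2_trace _ _ _
  have cR := ane2_mul (ane2_add (ane2_add cL (ane2_mul (ane2_const (PG.const c)) c0))
    (ane2_const (PG.const m))) cL
  have t1 := (ane2_tendsto hφ cT).mono_left (nhdsWithin_le_nhds (s := Ioi 0))
  have t2 := (ane2_tendsto hφ cR).mono_left (nhdsWithin_le_nhds (s := Ioi 0))
  refine le_of_tendsto_of_tendsto t1 t2 ?_
  filter_upwards [self_mem_nhdsWithin] with s hs0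
  have hps : PS (conv gk k s) := PS.conv Wt.gk hk.pg hs0
  have hc2 : C2 (conv gk k s) M := ⟨hps.smooth.of_le (WithTop.coe_le_coe.2 le_top), fun i j x => by
    rw [e2]
    exact abs_conv_gk_le (hk.bd i j) s x⟩
  exact ane2_ps hφ hs hps hc2 hc

/-- `trace_sq_ge`, `e2`, `|L k| ≤ n² hi M + n² M ‖x‖²` (`Ell.abs_le`, `C2.abs_eul_even`), `Ex_moment` -/
theorem l2_bound (B lo hi : ℝ) (hlo : 0 < lo) : ∃ C, 0 ≤ C ∧
    ∀ (φ₀ h k : E n → ℝ) (M Mf c m : ℝ), Cb φ₀ → Bd φ₀ B → Sol φ₀ h → (∀ x, Ell (tau h x) lo hi) →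
      C2 k M → IsEven k → c ≤ 1 → Bd (fun x => Lop (tau h) k x + c * k x + m) Mf →
      ∀ i j, Ex φ₀ (fun x => pd i (pd j k) x ^ 2) ≤ C * Mf * M := by
  obtain ⟨Cm, hCm, hm⟩ := Ex_moment (n := n) B
  refine ⟨(lo ^ 2)⁻¹ * ((n : ℝ) * n * (|hi| + 1) * Cm), by positivity, ?_⟩
  intro φ₀ h k M Mf c m hφ hB hs he hk hev hc hf i j
  have hM : 0 ≤ M := (hk.bd i j).nonneg
  have hMf : 0 ≤ Mf := hf.nonneg
  have hL := hk.pg_Lop hs
  have hτ : ∀ i j, PG (fun x => tau h x i j) := fun i j => (hs.cb_tau i j).ps.to_pg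
  have pT : PG (fun x => (tau h x * hess k x * (tau h x * hess k x)).trace) := by
    simp only [ane2_trace]
    exact PG.sum _ fun i _ => PG.sum _ fun j _ =>
      (PG.sum _ fun p _ => (hτ i p).mul (hk.pg_pd2 p j)).mul
        (PG.sum _ fun q _ => (hτ j q).mul (hk.pg_pd2 q i))
  have h1 : Ex φ₀ (fun x => lo ^ 2 * pd i (pd j k) x ^ 2) ≤
      Ex φ₀ (fun x => (tau h x * hess k x * (tau h x * hess k x)).trace) := by
    refine Ex_mono hφ ((PG.const _).mul ((hk.pg_pd2 i j).pow 2)) pT fun x => ?_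
    refine le_trans ?_ (trace_sq_ge (he x) hlo.le (hess_isSymm hk.c2 x))
    refine mul_le_mul_of_nonneg_left ?_ (sq_nonneg _)
    calc pd i (pd j k) x ^ 2 = hess k x i j ^ 2 := rfl
      _ ≤ ∑ j, hess k x i j ^ 2 :=
        Finset.single_le_sum (f := fun j => hess k x i j ^ 2) (fun _ _ => sq_nonneg _)
          (Finset.mem_univ j)
      _ ≤ ∑ i, ∑ j, hess k x i j ^ 2 :=
        Finset.single_le_sum (f := fun i => ∑ j, hess k x i j ^ 2)
          (fun _ _ => Finset.sum_nonneg fun _ _ => sq_nonneg _) (Finset.mem_univ i)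
  have h2 := e2 (m := m) hφ hs hk hc
  have pq : PG (fun x : E n => 1 + ‖x‖ ^ 2) := (PG.const 1).add (PG.norm.pow 2)
  have h3 : Ex φ₀ (fun x => (Lop (tau h) k x + c * k x + m) * Lop (tau h) k x) ≤
      Ex φ₀ (fun x => (Mf * ((n : ℝ) * n * (|hi| + 1) * M)) * (1 + ‖x‖ ^ 2)) := by
    refine Ex_mono hφ (((hL.add ((PG.const c).mul hk.pg)).add (PG.const m)).mul hL)
      ((PG.const _).mul pq) fun x => ?_
    have a1 : |∑ i, ∑ j, tau h x i j * pd i (pd j k) x| ≤ n * (n * (|hi| * M)) := by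
      refine (Finset.abs_sum_le_sum_abs _ _).trans ?_
      refine (Finset.sum_le_card_nsmul _ _ (n * (|hi| * M)) fun a _ => ?_).trans (by simp)
      refine (Finset.abs_sum_le_sum_abs _ _).trans ?_
      refine (Finset.sum_le_card_nsmul _ _ (|hi| * M) fun b _ => ?_).trans (by simp)
      rw [abs_mul]
      exact mul_le_mul (((he x).abs_le hlo.le a b).trans (le_abs_self hi)) (hk.bd a b x)
        (abs_nonneg _) (abs_nonneg _)
    have a2 := hk.abs_eul_even hev x
    have a3 : |Lop (tau h) k x| ≤ (n : ℝ) * n * (|hi| + 1) * M * (1 + ‖x‖ ^ 2) := by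
      have a4 : |Lop (tau h) k x| ≤ n * (n * (|hi| * M)) + n * (n * M) * ‖x‖ ^ 2 :=
        (abs_sub _ _).trans (add_le_add a1 a2)
      have a5 : 0 ≤ (n : ℝ) * n * M := by positivity
      have a6 : 0 ≤ (n : ℝ) * n * M * (|hi| * ‖x‖ ^ 2) := by positivity
      nlinarith
    calc _ ≤ |(Lop (tau h) k x + c * k x + m) * Lop (tau h) k x| := le_abs_self _
      _ = |Lop (tau h) k x + c * k x + m| * |Lop (tau h) k x| := abs_mul _ _
      _ ≤ Mf * ((n : ℝ) * n * (|hi| + 1) * M * (1 + ‖x‖ ^ 2)) :=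
        mul_le_mul (hf x) a3 (abs_nonneg _) hMf
      _ = _ := by ring
  rw [Ex_const_mul] at h1 h3
  have h4 := mul_le_mul_of_nonneg_left (hm φ₀ hφ hB)
    (show 0 ≤ Mf * ((n : ℝ) * n * (|hi| + 1) * M) by positivity)
  have h5 := ((h1.trans h2).trans h3).trans h4
  have hl2 : 0 < lo ^ 2 := by positivity
  rw [mul_assoc, mul_assoc, le_inv_mul_iff₀ hl2]
  exact h5.trans (le_of_eq (by ring))

end

end Crest.Agent.R238.An
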