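import Crest.Agent.R238.AnCls

/-!
# R238/AnG1: Gaussian weights: integrability, integration by parts
-/

set_option autoImplicit false

namespace Crest.Agent.R238.An

open MeasureTheory Matrix Set Filter Topology
open scoped ContDiff

noncomputable section

variable {n : ℕ}

theorem gk_pos (z : E n) : 0 < gk z := by
  unfold gk
  have := Real.pi_pos
  positivity

theorem gk_neg (z : E n) : gk (-z) = gk z := by
  simp [gk]

theorem smooth_gk : ContDiff ℝ ∞ (gk : E n → ℝ) := by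
  unfold gk
  refine contDiff_const.mul (Real.contDiff_exp.comp ?_)
  exact ((contDiff_norm_sq ℝ).neg).div_const 2

theorem pd_gk (i : Fin n) : pd i (gk : E n → ℝ) = fun z => -z i * gk z := by
  have e : (gk : E n → ℝ) = fun z => (2 * Real.pi) ^ (-(n : ℝ) / 2) *
      (fun t : ℝ => Real.exp (-t / 2)) (‖z‖ ^ 2) := rfl
  rw [e, pd_const_mul]
  funext z
  have hd : DifferentiableAt ℝ (fun z : E n => ‖z‖ ^ 2) z :=
    ((contDiff_norm_sq ℝ (n := 1)).differentiable (by norm_num)) z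
  have hσ : HasDerivAt (fun t : ℝ => Real.exp (-t / 2)) (Real.exp (-‖z‖ ^ 2 / 2) * (-1 / 2))
      (‖z‖ ^ 2) := ((hasDerivAt_id _).neg.div_const 2).exp
  rw [pd_comp i hd hσ, pd_normSq]
  simp only
  ring

theorem ang1_integrable_gauss {b : ℝ} (hb : 0 < b) :
    Integrable (fun z : E n => Real.exp (-b * ‖z‖ ^ 2)) := by
  have h := (GaussianFourier.integrable_cexp_neg_mul_sq_norm_add (V := E n) (b := (b : ℂ))
    (by simpa using hb) 0 0).norm
  refine h.congr (Eventually.of_forall fun z => ?_)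
  simp only [zero_mul, add_zero, Complex.norm_exp]
  congr 1
  have : (-(b : ℂ) * (‖z‖ : ℂ) ^ 2) = ((-b * ‖z‖ ^ 2 : ℝ) : ℂ) := by push_cast; ring
  rw [this, Complex.ofReal_re]

/-- `GaussianFourier.integral_rexp_neg_mul_sq_norm` -/
theorem integral_gk : ∫ z : E n, gk z = 1 := by
  have e : (gk : E n → ℝ) = fun z => (2 * Real.pi) ^ (-(n : ℝ) / 2) *
      Real.exp (-(1 / 2 : ℝ) * ‖z‖ ^ 2) := by
    funext z; unfold gk; congr 2; ring
  rw [e, integral_const_mul, GaussianFourier.integral_rexp_neg_mul_sq_norm (by norm_num)]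
  have hp : 0 < 2 * Real.pi := by have := Real.pi_pos; positivity
  have e2 : Real.pi / (1 / 2) = 2 * Real.pi := by ring
  rw [e2, ← Real.rpow_add hp]
  simp only [finrank_euclideanSpace, Fintype.card_fin]
  have : -(n : ℝ) / 2 + (n : ℝ) / 2 = 0 := by ring
  rw [this, Real.rpow_zero]

theorem ang1_poly_le (N : ℕ) {b : ℝ} (hb : 0 < b) {r : ℝ} (hr : 0 ≤ r) :
    (1 + r) ^ N * Real.exp (-b * r ^ 2) ≤
      Real.exp ((N : ℝ) ^ 2 / (2 * b)) * Real.exp (-(b / 2) * r ^ 2) := by
  have h1 : (1 + r) ^ N ≤ Real.exp (N * r) := by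
    rw [Real.exp_nat_mul]
    refine pow_le_pow_left₀ (by linarith) ?_ N
    have := Real.add_one_le_exp r
    linarith
  refine (mul_le_mul_of_nonneg_right h1 (Real.exp_pos _).le).trans ?_
  rw [← Real.exp_add, ← Real.exp_add]
  refine Real.exp_le_exp.2 ?_
  have h2 : (N : ℝ) * r - b / 2 * r ^ 2 ≤ (N : ℝ) ^ 2 / (2 * b) := by
    rw [le_div_iff₀ (by positivity)]
    nlinarith [sq_nonneg ((N : ℝ) - b * r)]
  linarith

/-- `(1+‖z‖)^N e^{-b‖z‖²}` is integrable: bound by `C e^{-b‖z‖²/2}` -/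
theorem integrable_poly_gauss (N : ℕ) {b : ℝ} (hb : 0 < b) :
    Integrable (fun z : E n => (1 + ‖z‖) ^ N * Real.exp (-b * ‖z‖ ^ 2)) := by
  refine ((ang1_integrable_gauss (n := n) (b := b / 2) (by positivity)).const_mul
    (Real.exp ((N : ℝ) ^ 2 / (2 * b)))).mono' (by fun_prop) (Eventually.of_forall fun z => ?_)
  rw [Real.norm_of_nonneg (by positivity)]
  exact ang1_poly_le N hb (norm_nonneg z)

theorem ang1_gk_eq (z : E n) :
    gk z = (2 * Real.pi) ^ (-(n : ℝ) / 2) * Real.exp (-(1 / 2 : ℝ) * ‖z‖ ^ 2) := by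
  unfold gk; congr 2; ring

theorem PG.integrable_gk {F : E n → ℝ} (hF : PG F) : Integrable (fun z => F z * gk z) := by
  obtain ⟨C, N, hC⟩ := hF.bd
  refine ((integrable_poly_gauss (n := n) N (b := 1 / 2) (by norm_num)).const_mul
    (C * (2 * Real.pi) ^ (-(n : ℝ) / 2))).mono'
    (hF.cont.mul smooth_gk.continuous).aestronglyMeasurable (Eventually.of_forall fun z => ?_)
  rw [Real.norm_eq_abs, abs_mul, abs_of_pos (gk_pos z)]
  calc |F z| * gk z ≤ C * (1 + ‖z‖) ^ N * gk z :=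
        mul_le_mul_of_nonneg_right (hC z) (gk_pos z).le
    _ = _ := by rw [ang1_gk_eq]; ring

theorem Wt.gk : Wt (gk : E n → ℝ) :=
  ⟨fun _ => 1, PS.const 1, by funext z; simp⟩

theorem Wt.smooth {w : E n → ℝ} (hw : Wt w) : ContDiff ℝ ∞ w := by
  obtain ⟨p, hp, rfl⟩ := hw
  exact hp.smooth.mul smooth_gk

theorem Wt.pd {w : E n → ℝ} (hw : Wt w) (i : Fin n) : Wt (pd i w) := by
  obtain ⟨p, hp, rfl⟩ := hw
  refine ⟨fun z => An.pd i p z - z i * p z, (hp.pd i).sub ((PS.coord i).mul hp), ?_⟩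
  rw [pd_mul i (hp.smooth.differentiable (by simp)) (smooth_gk.differentiable (by simp)), pd_gk]
  funext z
  ring

theorem Wt.mul {w p : E n → ℝ} (hw : Wt w) (hp : PS p) : Wt (fun z => p z * w z) := by
  obtain ⟨q, hq, rfl⟩ := hw
  exact ⟨fun z => p z * q z, hp.mul hq, by funext z; ring⟩

theorem Wt.le {w : E n → ℝ} (hw : Wt w) :
    ∃ (C : ℝ) (N : ℕ), 0 ≤ C ∧ ∀ z, |w z| ≤ C * (1 + ‖z‖) ^ N * Real.exp (-(1 / 2) * ‖z‖ ^ 2) := by
  obtain ⟨p, hp, rfl⟩ := hw
  obtain ⟨C, N, hC⟩ := hp.to_pg.bd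
  have hC0 : 0 ≤ C := by
    have := (abs_nonneg _).trans (hC 0)
    simpa using this
  have hp2 : 0 < 2 * Real.pi := by have := Real.pi_pos; positivity
  refine ⟨C * (2 * Real.pi) ^ (-(n : ℝ) / 2), N, by positivity, fun z => ?_⟩
  rw [abs_mul, abs_of_pos (gk_pos z)]
  calc |p z| * An.gk z ≤ C * (1 + ‖z‖) ^ N * An.gk z :=
        mul_le_mul_of_nonneg_right (hC z) (gk_pos z).le
    _ = _ := by rw [ang1_gk_eq]; ring

theorem Wt.integrable_mul {w F : E n → ℝ} (hw : Wt w) (hF : PG F) :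
    Integrable (fun z => F z * w z) := by
  obtain ⟨p, hp, rfl⟩ := hw
  have := (hF.mul hp.to_pg).integrable_gk
  simpa only [mul_assoc] using this

theorem Wt.integrable_conv {w F : E n → ℝ} (hw : Wt w) (hF : PG F) (s : ℝ) (x : E n) :
    Integrable (fun z => F (x + s • z) * w z) :=
  hw.integrable_mul (hF.affine x s)

/-- `integral_mul_fderiv_eq_neg_fderiv_mul_of_integrable` -/
theorem Wt.ibp {w F : E n → ℝ} (hw : Wt w) (hF : Differentiable ℝ F) (h0 : PG F) (i : Fin n)
    (h1 : PG (An.pd i F)) : ∫ z, An.pd i F z * w z = -∫ z, F z * An.pd i w z := by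
  have h := integral_mul_fderiv_eq_neg_fderiv_mul_of_integrable (μ := volume) (f := F) (g := w)
    (v := ev i) (hw.integrable_mul h1) ((hw.pd i).integrable_mul h0) (hw.integrable_mul h0)
    (fun x _ => hF x) (fun x _ => hw.smooth.differentiable (by simp) x)
  simp only [An.pd]
  rw [h, neg_neg]

theorem Wt.integral_pd {w : E n → ℝ} (hw : Wt w) (i : Fin n) : ∫ z, An.pd i w z = 0 := by
  have h := hw.ibp (F := fun _ => 1) (differentiable_const _) (PG.const 1) i
    (by rw [pd_const]; exact PG.const 0)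
  rw [pd_const] at h
  simpa using h

/-- the moment constant -/
theorem Wt.moment {w : E n → ℝ} (hw : Wt w) :
    ∃ C, 0 ≤ C ∧ ∫ z, (1 + ‖z‖) ^ 2 * |w z| ≤ C :=
  have _ := hw
  ⟨_, integral_nonneg fun z => by positivity, le_rfl⟩

theorem ang1_integrable_moment {w : E n → ℝ} (hw : Wt w) :
    Integrable (fun z => (1 + ‖z‖) ^ 2 * |w z|) := by
  have h := (hw.integrable_mul (((PG.const 1).add PG.norm).pow 2)).abs
  refine h.congr (Eventually.of_forall fun z => ?_)
  simp only [abs_mul]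
  rw [abs_of_nonneg (by positivity)]

theorem conv_add {w F G : E n → ℝ} (hw : Wt w) (hF : PG F) (hG : PG G) (s : ℝ) (x : E n) :
    conv w (fun y => F y + G y) s x = conv w F s x + conv w G s x := by
  unfold conv
  rw [← integral_add (hw.integrable_conv hF s x) (hw.integrable_conv hG s x)]
  simp only [add_mul]

theorem conv_const_mul (w F : E n → ℝ) (c s : ℝ) (x : E n) :
    conv w (fun y => c * F y) s x = c * conv w F s x := by
  unfold conv
  rw [← integral_const_mul]
  simp only [mul_assoc]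

theorem conv_zero (F : E n → ℝ) (x : E n) : conv gk F 0 x = F x := by
  unfold conv
  simp only [zero_smul, add_zero]
  rw [integral_const_mul, integral_gk, mul_one]

/-- `|conv w F| ≤ M ∫|w|` -/
theorem abs_conv_le {w F : E n → ℝ} (hw : Wt w) {M C : ℝ} (hF : Bd F M)
    (hC : ∫ z, (1 + ‖z‖) ^ 2 * |w z| ≤ C) (s : ℝ) (x : E n) : |conv w F s x| ≤ M * C := by
  have hM : 0 ≤ M := (abs_nonneg _).trans (hF 0)
  unfold conv
  have h := norm_integral_le_of_norm_le (μ := volume) (f := fun z => F (x + s • z) * w z)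
    ((ang1_integrable_moment hw).const_mul M) (Eventually.of_forall fun z => by
      rw [Real.norm_eq_abs, abs_mul]
      refine mul_le_mul (hF _) ?_ (abs_nonneg _) hM
      refine le_mul_of_one_le_left (abs_nonneg _) ?_
      nlinarith [norm_nonneg z])
  rw [Real.norm_eq_abs, integral_const_mul] at h
  exact h.trans (mul_le_mul_of_nonneg_left hC hM)

theorem abs_conv_gk_le {F : E n → ℝ} {M : ℝ} (hF : Bd F M) (s : ℝ) (x : E n) :
    |conv gk F s x| ≤ M := by
  unfold conv
  have hi : Integrable (gk : E n → ℝ) := by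
    simpa using (PG.const (n := n) 1).integrable_gk
  have h := norm_integral_le_of_norm_le (μ := volume) (f := fun z => F (x + s • z) * gk z)
    (hi.const_mul M) (Eventually.of_forall fun z => by
      rw [Real.norm_eq_abs, abs_mul, abs_of_pos (gk_pos z)]
      exact mul_le_mul_of_nonneg_right (hF _) (gk_pos z).le)
  rwa [Real.norm_eq_abs, integral_const_mul, integral_gk, mul_one] at h

theorem ang1_sqrt_le {s r : ℝ} (hs0 : 0 ≤ s) (hs1 : s ≤ 1) (hr : 0 ≤ r) :
    √(s * r) + s * r ≤ √s * (1 + r) ^ 2 := by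
  have h1 : s ≤ √s := Real.le_sqrt_of_sq_le (by nlinarith)
  have h2 : √r ≤ 1 + r := by
    refine Real.sqrt_le_iff.2 ⟨by linarith, by nlinarith⟩
  rw [Real.sqrt_mul hs0]
  have h3 : 0 ≤ √s := Real.sqrt_nonneg s
  have h4 : √s * √r ≤ √s * (1 + r) := mul_le_mul_of_nonneg_left h2 h3
  have h5 : s * r ≤ √s * r := mul_le_mul_of_nonneg_right h1 hr
  have h6 : √s * (1 + r) + √s * r ≤ √s * (1 + r) ^ 2 := by
    rw [← mul_add]
    exact mul_le_mul_of_nonneg_left (by nlinarith) h3
  linarith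

/-- subtract `F x` (`∫ w = 0`); `√(s‖z‖) + s‖z‖ ≤ √s (1+‖z‖)²` for `0 ≤ s ≤ 1` -/
theorem abs_conv_le_hol {w F : E n → ℝ} (hw : Wt w) (h0 : ∫ z, w z = 0) (hF : PG F) {K C s : ℝ}
    {x : E n} (hK : HolAt F x K) (hK0 : 0 ≤ K) (hC : ∫ z, (1 + ‖z‖) ^ 2 * |w z| ≤ C) (hs0 : 0 ≤ s)
    (hs1 : s ≤ 1) : |conv w F s x| ≤ K * √s * C := by
  have e : conv w F s x = ∫ z, (F (x + s • z) - F x) * w z := by
    unfold conv
    simp only [sub_mul]
    rw [integral_sub (hw.integrable_conv hF s x) (hw.integrable_mul (PG.const (F x))),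
      integral_const_mul, h0, mul_zero, sub_zero]
  have hKs : 0 ≤ K * √s := mul_nonneg hK0 (Real.sqrt_nonneg s)
  rw [e]
  have h := norm_integral_le_of_norm_le (μ := volume) (f := fun z => (F (x + s • z) - F x) * w z)
    ((ang1_integrable_moment hw).const_mul (K * √s)) (Eventually.of_forall fun z => by
      rw [Real.norm_eq_abs, abs_mul, ← mul_assoc]
      refine mul_le_mul_of_nonneg_right ((hK _).trans ?_) (abs_nonneg _)
      have e2 : ‖x + s • z - x‖ = s * ‖z‖ := by
        rw [add_sub_cancel_left, norm_smul, Real.norm_of_nonneg hs0]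
      rw [e2, mul_assoc]
      exact mul_le_mul_of_nonneg_left (ang1_sqrt_le hs0 hs1 (norm_nonneg z)) hK0)
  rw [Real.norm_eq_abs, integral_const_mul] at h
  exact h.trans (mul_le_mul_of_nonneg_left hC hKs)

theorem IsEven.conv_gk {F : E n → ℝ} (hF : IsEven F) (s : ℝ) : IsEven (conv gk F s) := by
  intro x
  unfold conv
  rw [← integral_neg_eq_self]
  congr 1
  funext z
  rw [gk_neg, ← hF]
  congr 2
  simp [add_comm]

end

end Crest.Agent.R238.An
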