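import Crest.Agent.R238.AnG4

/-!
# R238/AnG3 TASK: time derivative of the Mehler semigroup; decay for even functions
-/

set_option autoImplicit false

namespace Crest.Agent.R238.An

open MeasureTheory Matrix Set Filter Topology
open scoped ContDiff

noncomputable section

variable {n : ℕ}

theorem ang3_pd2_gk (i : Fin n) (z : E n) : pd i (pd i gk) z = (z i ^ 2 - 1) * gk z := by
  have hd : Differentiable ℝ (gk : E n → ℝ) := smooth_gk.differentiable (by simp)
  have hc : Differentiable ℝ (fun z : E n => z i) :=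
    (contDiff_coord i (m := 1)).differentiable (by simp)
  rw [pd_gk, pd_mul i hc.fun_neg hd, pd_neg, pd_coord, pd_gk]
  simp only [Matrix.one_apply_eq]
  ring

theorem ang3_sum (F : E n → ℝ) (hF : PG F) (s : ℝ) (x : E n) :
    ∑ i, conv (pd i (pd i gk)) F s x = ∫ z, F (x + s • z) * ((‖z‖ ^ 2 - n) * gk z) := by
  unfold conv
  rw [← integral_finsetSum _ fun i _ => ((Wt.gk.pd i).pd i).integrable_conv hF s x]
  refine integral_congr_ae (Eventually.of_forall fun z => ?_)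
  simp only [ang3_pd2_gk]
  rw [← Finset.mul_sum, ← Finset.sum_mul, Finset.sum_sub_distrib, EuclideanSpace.real_norm_sq_eq]
  simp

theorem ang3_scale (F : E n → ℝ) (x : E n) (s : ℝ) {r : ℝ} (hr : 0 < r) :
    ∫ z, F (x + s • z) * (r ^ n * gk (r • z)) = conv gk F (s / r) x := by
  have h := Measure.integral_comp_smul_of_nonneg volume
    (fun y : E n => F (x + (s / r) • y) * gk y) r (hR := hr.le)
  simp only [smul_smul, div_mul_cancel₀ _ hr.ne', finrank_euclideanSpace, Fintype.card_fin,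
    smul_eq_mul] at h
  have e : ∀ z : E n, F (x + s • z) * (r ^ n * gk (r • z)) = r ^ n * (F (x + s • z) * gk (r • z)) :=
    fun z => by ring
  simp only [e]
  rw [integral_const_mul, h, conv, ← mul_assoc, mul_inv_cancel₀ (by positivity), one_mul]

theorem ang3_ker (z : E n) (r : ℝ) : HasDerivAt (fun r : ℝ => r ^ n * gk (r • z))
    ((n * r ^ (n - 1) - r ^ n * (r * ‖z‖ ^ 2)) * gk (r • z)) r := by
  have e : ∀ r : ℝ, gk (r • z) = (2 * Real.pi) ^ (-(n : ℝ) / 2) * Real.exp (-(r ^ 2 * ‖z‖ ^ 2) / 2) :=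
    fun r => by simp [gk, norm_smul, mul_pow]
  simp only [e]
  have h1 : HasDerivAt (fun r : ℝ => -(r ^ 2 * ‖z‖ ^ 2) / 2) (-(r * ‖z‖ ^ 2)) r := by
    have := (((hasDerivAt_pow 2 r).mul_const (‖z‖ ^ 2)).fun_neg).div_const 2
    refine this.congr_deriv ?_
    simp only [Nat.cast_ofNat, Nat.add_one_sub_one, pow_one]
    ring
  have h2 := (hasDerivAt_pow n r).fun_mul (h1.exp.const_mul ((2 * Real.pi) ^ (-(n : ℝ) / 2)))
  refine h2.congr_deriv ?_
  ring

theorem ang3_G {F : E n → ℝ} (hF : PG F) (s : ℝ) (x : E n) :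
    HasDerivAt (fun r : ℝ => ∫ z, F (x + s • z) * (r ^ n * gk (r • z)))
      (-∑ i, conv (pd i (pd i gk)) F s x) 1 := by
  obtain ⟨C, N, hC⟩ := (hF.affine x s).bd
  have hC0 : 0 ≤ C := ancls_nonneg hC
  have hc : Continuous fun z : E n => F (x + s • z) := (hF.affine x s).cont
  have hg : Continuous (gk : E n → ℝ) := smooth_gk.continuous
  have hp : 0 < (2 * Real.pi) ^ (-(n : ℝ) / 2) := by have := Real.pi_pos; positivity
  have key := hasDerivAt_integral_of_dominated_loc_of_deriv_le (μ := volume) (x₀ := (1 : ℝ))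
    (F := fun r z => F (x + s • z) * (r ^ n * gk (r • z)))
    (F' := fun r z => F (x + s • z) * ((n * r ^ (n - 1) - r ^ n * (r * ‖z‖ ^ 2)) * gk (r • z)))
    (s := Ioo (1 / 2) 2) (Ioo_mem_nhds (by norm_num) (by norm_num))
    (Eventually.of_forall fun r => (hc.mul (continuous_const.mul
      (hg.comp (continuous_const_smul r)))).aestronglyMeasurable)
    (by simpa using Wt.gk.integrable_conv hF s x)
    (hc.mul (Continuous.mul (by fun_prop) (hg.comp (continuous_const_smul 1)))).aestronglyMeasurable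
    (bound := fun z => C * ((n + 2) * 2 ^ n * (2 * Real.pi) ^ (-(n : ℝ) / 2)) *
      ((1 + ‖z‖) ^ (N + 2) * Real.exp (-(1 / 8) * ‖z‖ ^ 2)))
    (Eventually.of_forall fun z r hr => ?_)
    ((integrable_poly_gauss (N + 2) (by norm_num)).const_mul _)
    (Eventually.of_forall fun z r _ => (ang3_ker z r).const_mul _)
  · refine key.2.congr_deriv ?_
    rw [ang3_sum F hF, ← integral_neg]
    refine integral_congr_ae (Eventually.of_forall fun z => ?_)
    simp only [one_pow, one_smul]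
    ring
  · have r0 : 0 ≤ r := by linarith [hr.1]
    have a1 : r ^ (n - 1) ≤ 2 ^ n :=
      (pow_le_pow_left₀ r0 hr.2.le _).trans (pow_le_pow_right₀ (by norm_num) (Nat.sub_le _ _))
    have a2 : r ^ n ≤ 2 ^ n := pow_le_pow_left₀ r0 hr.2.le _
    have z0 := norm_nonneg z
    have a3 : |n * r ^ (n - 1) - r ^ n * (r * ‖z‖ ^ 2)| ≤ (n + 2) * 2 ^ n * (1 + ‖z‖) ^ 2 := by
      have b1 : (n : ℝ) * r ^ (n - 1) ≤ n * 2 ^ n * (1 + ‖z‖) ^ 2 := by
        calc (n : ℝ) * r ^ (n - 1) ≤ n * 2 ^ n * 1 := by rw [mul_one]; gcongr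
          _ ≤ _ := by gcongr; nlinarith
      have b2 : r ^ n * (r * ‖z‖ ^ 2) ≤ 2 * 2 ^ n * (1 + ‖z‖) ^ 2 := by
        calc r ^ n * (r * ‖z‖ ^ 2) ≤ 2 ^ n * (2 * (1 + ‖z‖) ^ 2) := by
              gcongr
              · exact hr.2.le
              · linarith
          _ = _ := by ring
      have b3 : 0 ≤ (n : ℝ) * r ^ (n - 1) := by positivity
      have b4 : 0 ≤ r ^ n * (r * ‖z‖ ^ 2) := by positivity
      rw [abs_le]
      constructor <;> nlinarith
    have a4 : gk (r • z) ≤ (2 * Real.pi) ^ (-(n : ℝ) / 2) * Real.exp (-(1 / 8) * ‖z‖ ^ 2) := by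
      unfold gk
      gcongr
      rw [norm_smul, Real.norm_of_nonneg r0, mul_pow]
      have : 1 / 4 ≤ r ^ 2 := by nlinarith [hr.1]
      nlinarith [mul_le_mul_of_nonneg_right this (sq_nonneg ‖z‖)]
    rw [Real.norm_eq_abs, abs_mul, abs_mul, abs_of_pos (gk_pos _)]
    calc _ ≤ C * (1 + ‖z‖) ^ N * ((n + 2) * 2 ^ n * (1 + ‖z‖) ^ 2 *
          ((2 * Real.pi) ^ (-(n : ℝ) / 2) * Real.exp (-(1 / 8) * ‖z‖ ^ 2))) := by
          have := gk_pos (r • z)
          gcongr
          exact hC z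
      _ = _ := by ring

/-- Use `conv_eq`: `(s^n)⁻¹ ∫ F y * gk (s⁻¹ (y-x))`, `hasDerivAt_integral_of_dominated_loc_of_deriv_le`
on `(s/2, 2s)`; the derivative is `s⁻¹ ∫ F(x+sz) (|z|² - n) gk z` and
`pd i (pd i gk) z = (z i ^ 2 - 1) gk z` (`pd_gk`, `pd_mul`). -/
theorem hasDerivAt_conv_s {F : E n → ℝ} (hF : PG F) {s : ℝ} (hs : 0 < s) (x : E n) :
    HasDerivAt (fun s => conv gk F s x) (s⁻¹ * ∑ i, conv (pd i (pd i gk)) F s x) s := by
  have h1 : HasDerivAt (fun u : ℝ => s / u) (-s⁻¹) s := by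
    have := (hasDerivAt_inv hs.ne').const_mul s
    simp only [div_eq_mul_inv]
    refine this.congr_deriv ?_
    field_simp
  have h2 := ang3_G hF s x
  rw [← div_self hs.ne'] at h2
  have h3 := h2.comp s h1
  refine (h3.congr_of_eventuallyEq ?_).congr_deriv (by ring)
  filter_upwards [Ioi_mem_nhds hs] with u hu
  have hu0 : 0 < u := hu
  simp only [Function.comp]
  rw [ang3_scale F x s (div_pos hs hu0)]
  congr 1
  field_simp

/-- joint differentiability in `(s,x)`: `hasStrictFDerivAt_uncurry_coprod` with `hasDerivAt_conv_s`,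
`differentiable_conv`, `pd_conv`, `fderiv_eq_sum`, `continuous_conv`; then the chain rule. -/
theorem hasDerivAt_conv_curve {F : E n → ℝ} (hF : PG F) {s : ℝ → ℝ} {γ : ℝ → E n} {s' t : ℝ}
    {γ' : E n} (hs : HasDerivAt s s' t) (hγ : HasDerivAt γ γ' t) (h0 : 0 < s t) :
    HasDerivAt (fun t => conv gk F (s t) (γ t))
      (s' * ((s t)⁻¹ * ∑ i, conv (pd i (pd i gk)) F (s t) (γ t)) +
        ∑ i, γ' i * (-(s t)⁻¹ * conv (pd i gk) F (s t) (γ t))) t := by
  set f₁ : ℝ → E n → ℝ →L[ℝ] ℝ := fun u y =>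
    (u⁻¹ * ∑ i, conv (pd i (pd i gk)) F u y) • ContinuousLinearMap.id ℝ ℝ with hf₁
  set f₂ : ℝ → E n → E n →L[ℝ] ℝ := fun u y =>
    ∑ i, (-u⁻¹ * conv (pd i gk) F u y) • EuclideanSpace.proj (𝕜 := ℝ) i with hf₂
  have hpos : ∀ᶠ v : ℝ × E n in 𝓝 (s t, γ t), 0 < v.1 :=
    continuous_fst.continuousAt.eventually (Ioi_mem_nhds h0)
  have hinv : ContinuousAt (fun v : ℝ × E n => v.1⁻¹) (s t, γ t) :=
    continuous_fst.continuousAt.inv₀ h0.ne'
  have hc2 : ContinuousAt (fun v : ℝ × E n => ∑ i, (-v.1⁻¹ * conv (pd i gk) F v.1 v.2) •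
      (EuclideanSpace.proj (𝕜 := ℝ) i : E n →L[ℝ] ℝ)) (s t, γ t) :=
    tendsto_finsetSum _ fun i _ =>
      ((hinv.neg.mul (continuous_conv (Wt.gk.pd i) hF).continuousAt).smul continuousAt_const)
  have key := hasStrictFDerivAt_uncurry_coprod (𝕜 := ℝ) (u := (s t, γ t))
    (f := fun u y => conv gk F u y) (f₁ := f₁) (f₂ := f₂)
    (hpos.mono fun v hv => by
      refine (hasDerivAt_conv_s hF hv v.2).hasFDerivAt.congr_fderiv ?_
      ext
      simp [hf₁, Function.HasUncurry.uncurry])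
    (hpos.mono fun v hv => by
      refine (differentiable_conv Wt.gk hF hv v.2).hasFDerivAt.congr_fderiv ?_
      ext w
      simp [hf₂, Function.HasUncurry.uncurry, fderiv_eq_sum, pd_conv Wt.gk hF hv, mul_comm])
    ((hinv.mul (continuous_finsetSum _ fun i _ =>
      continuous_conv ((Wt.gk.pd i).pd i) hF).continuousAt).smul continuousAt_const)
    hc2
  have h2 := key.hasFDerivAt.comp_hasDerivAt t (hs.prodMk hγ)
  refine h2.congr_deriv ?_
  simp [hf₁, hf₂, Function.HasUncurry.uncurry, mul_comm]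

/-- `sd' = e^{-2t}/sd`, `pd_Pt`, `pd2_Pt`, `eul_eq_sum` -/
theorem hasDerivAt_Pt {F : E n → ℝ} (hF : PG F) {t : ℝ} (ht : 0 < t) (x : E n) :
    HasDerivAt (fun t => Pt t F x) (L0 (Pt t F) x) t := by
  have h0 := sd_pos ht
  have hq := sd_sq ht.le
  have h1 : HasDerivAt sd (Real.exp (-2 * t) / sd t) t := by
    have a : HasDerivAt (fun t : ℝ => 1 - Real.exp (-2 * t)) (-(Real.exp (-2 * t) * -2)) t := by
      have := (((hasDerivAt_id t).const_mul (-2)).exp).const_sub 1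
      simpa using this
    have b := a.sqrt (by rw [← hq]; positivity)
    refine b.congr_deriv ?_
    change _ / (2 * sd t) = _
    field_simp
  have h2 : HasDerivAt (fun t : ℝ => Real.exp (-t) • x) (-Real.exp (-t) • x) t := by
    have := ((hasDerivAt_neg t).exp).smul_const x
    simpa using this
  refine (hasDerivAt_conv_curve hF h1 h2 h0).congr_deriv ?_
  rw [L0, eul_eq_sum]
  simp only [pd2_Pt hF ht]
  simp only [pd_Pt hF ht]
  have e : Real.exp (-2 * t) = Real.exp (-t) ^ 2 := by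
    rw [← Real.exp_nat_mul]; congr 1; push_cast; ring
  rw [Finset.mul_sum, Finset.mul_sum, sub_eq_add_neg, ← Finset.sum_neg_distrib]
  congr 1
  · refine Finset.sum_congr rfl fun i _ => ?_
    rw [e]; field_simp
  · refine Finset.sum_congr rfl fun i _ => ?_
    simp only [PiLp.smul_apply, smul_eq_mul]
    field_simp

/-- `|Pt t F x - Pt t F 0|` by `C2.abs_sub_even` + `Pt_bd_sup` + `sd_sq_ge'`;
`Pt t F 0 - mean F = conv gk F (sd t) 0 - conv gk F 1 0` by the mean value inequality with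
`hasDerivAt_conv_s` on `[sd t, 1]`, `1 - sd t ≤ 1 - sd t ^ 2 = e^{-2t}`. -/
theorem Pt_decay : ∃ C, 0 ≤ C ∧ ∀ (F : E n → ℝ) (M : ℝ), Continuous F → Bd F M → IsEven F →
    ∀ t, 1 ≤ t → ∀ x, |Pt t F x - mean F| ≤ C * M * (Real.exp (-2 * t) * (1 + ‖x‖ ^ 2)) ∧
      ∀ i, |pd i (Pt t F) x| ≤ C * M * (Real.exp (-2 * t) * ‖x‖) := by
  obtain ⟨C₁, hC₁, h1⟩ := Pt_bd_sup (n := n)
  choose Cm hCm hm using fun i : Fin n => ((Wt.gk.pd i).pd i).moment
  have hS : 0 ≤ ∑ i, Cm i := Finset.sum_nonneg fun i _ => hCm i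
  refine ⟨n * (n * (2 * C₁)) + n * (2 * C₁) + 2 * ∑ i, Cm i, by positivity,
    fun F M hc hb he t ht x => ?_⟩
  have hM := hb.nonneg
  have hF := PG.of_bd hc hb
  have t0 : 0 < t := by linarith
  have hs := sd_pos t0
  have hq := sd_sq_ge' ht
  have hq' := sd_sq t0.le
  have hs1 := sd_le_one t
  set e := Real.exp (-2 * t) with he'
  have e0 : 0 < e := Real.exp_pos _
  have hC2 : C2 (Pt t F) (2 * C₁ * M * e) := by
    refine ⟨(smooth_Pt hF t0).of_le (by norm_cast), fun i j y => ?_⟩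
    refine (h1 F M hc hb t t0 y i j).2.trans ?_
    have : e / sd t ^ 2 ≤ 2 * e := by
      rw [div_le_iff₀ (by positivity)]; nlinarith
    calc C₁ * M * (e / sd t ^ 2) ≤ C₁ * M * (2 * e) := by gcongr
      _ = _ := by ring
  have x0 := norm_nonneg x
  constructor
  · have a1 := hC2.abs_sub_even (he.Pt t) x
    have hs2 : 1 / 2 ≤ sd t := by nlinarith
    have a2 : ‖conv gk F 1 0 - conv gk F (sd t) 0‖ ≤ 2 * (∑ i, Cm i) * M * ‖1 - sd t‖ := by
      refine (convex_Icc (sd t) 1).norm_image_sub_le_of_norm_hasDerivWithin_le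
        (f := fun s => conv gk F s 0) (f' := fun s => s⁻¹ * ∑ i, conv (pd i (pd i gk)) F s 0)
        (fun s hs' => (hasDerivAt_conv_s hF (hs.trans_le hs'.1) 0).hasDerivWithinAt)
        (fun s hs' => ?_) ⟨le_rfl, hs1⟩ ⟨hs1, le_rfl⟩
      have s0 : 0 < s := hs.trans_le hs'.1
      have b1 : s⁻¹ ≤ 2 := by
        rw [inv_le_comm₀ s0 (by norm_num)]; linarith [hs'.1]
      have b2 : |∑ i, conv (pd i (pd i gk)) F s 0| ≤ (∑ i, Cm i) * M := by
        rw [Finset.sum_mul]
        refine (Finset.abs_sum_le_sum_abs _ _).trans (Finset.sum_le_sum fun i _ => ?_)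
        rw [mul_comm]
        exact abs_conv_le ((Wt.gk.pd i).pd i) hb (hm i) s 0
      rw [Real.norm_eq_abs, abs_mul, abs_of_pos (inv_pos.2 s0), mul_assoc]
      gcongr
    have a3 : Pt t F 0 = conv gk F (sd t) 0 := by simp [Pt]
    have a4 : ‖1 - sd t‖ ≤ e := by
      rw [Real.norm_of_nonneg (by linarith)]; nlinarith
    rw [← mean_eq, ← a3, Real.norm_eq_abs, abs_sub_comm] at a2
    have a5 : |Pt t F 0 - mean F| ≤ 2 * (∑ i, Cm i) * M * e :=
      a2.trans (mul_le_mul_of_nonneg_left a4 (by positivity))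
    have a6 := abs_sub_le (Pt t F x) (Pt t F 0) (mean F)
    have p1 : 0 ≤ (n : ℝ) * (n * (2 * C₁)) * M * e := by positivity
    have p2 : 0 ≤ (n : ℝ) * (2 * C₁) * M * (e * (1 + ‖x‖ ^ 2)) := by positivity
    have p3 : 0 ≤ 2 * (∑ i, Cm i) * M * e * ‖x‖ ^ 2 := by positivity
    nlinarith
  · intro i
    refine (hC2.abs_pd_even (he.Pt t) i x).trans ?_
    have p1 : 0 ≤ (n : ℝ) * (n * (2 * C₁)) * M * (e * ‖x‖) := by positivity
    have p3 : 0 ≤ 2 * (∑ i, Cm i) * M * (e * ‖x‖) := by positivity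
    nlinarith

end

end Crest.Agent.R238.An
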