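import Crest.Agent.R238.AnCalc

/-!
# R238/AnLin TASK: linear changes of variables; growth of `C2` functions
-/

set_option autoImplicit false

namespace Crest.Agent.R238.An

open MeasureTheory Matrix Set Filter Topology
open scoped ContDiff

noncomputable section

variable {n : ℕ}

theorem lin_apply (B : Mat n) (x : E n) (i : Fin n) : lin B x i = ∑ j, B i j * x j := by
  rfl

theorem lin_one (x : E n) : lin (1 : Mat n) x = x := by
  simp [lin]

theorem lin_mul (A B : Mat n) (x : E n) : lin (A * B) x = lin A (lin B x) := by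
  simp [lin]

theorem lin_sub (B : Mat n) (x y : E n) : lin B (x - y) = lin B x - lin B y := by
  simp [lin, mulVec_sub]

theorem lin_add (B : Mat n) (x y : E n) : lin B (x + y) = lin B x + lin B y := by
  simp [lin, mulVec_add]

theorem lin_smul (B : Mat n) (r : ℝ) (x : E n) : lin B (r • x) = r • lin B x := by
  simp [lin, mulVec_smul]

theorem lin_segment (B : Mat n) {x y ξ : E n} (h : ξ ∈ segment ℝ x y) :
    lin B ξ ∈ segment ℝ (lin B x) (lin B y) := by
  obtain ⟨a, b, ha, hb, hab, rfl⟩ := h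
  exact ⟨a, b, ha, hb, hab, by rw [lin_add, lin_smul, lin_smul]⟩

theorem norm_lin_le {B : Mat n} {b : ℝ} (hB : ∀ i j, |B i j| ≤ b) (x : E n) :
    ‖lin B x‖ ≤ n * (n * b) * ‖x‖ := by
  have h : ∀ i, |lin B x i| ≤ n * b * ‖x‖ := fun i => by
    rw [lin_apply]
    refine (Finset.abs_sum_le_sum_abs _ _).trans ?_
    refine (Finset.sum_le_card_nsmul _ _ (b * ‖x‖) fun j _ => ?_).trans_eq (by simp [mul_assoc])
    rw [abs_mul]
    exact mul_le_mul (hB i j) (abs_apply_le x j) (abs_nonneg _) ((abs_nonneg _).trans (hB i j))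
  refine (norm_le_sum _).trans ?_
  exact (Finset.sum_le_card_nsmul _ _ _ fun i _ => h i).trans_eq (by simp [mul_assoc])

/-- `lin B` as a continuous linear map -/
def linL (B : Mat n) : E n →L[ℝ] E n :=
  LinearMap.toContinuousLinearMap
    { toFun := lin B, map_add' := lin_add B, map_smul' := lin_smul B }

theorem fderiv_lin {f : E n → ℝ} (hf : Differentiable ℝ f) (B : Mat n) (x v : E n) :
    fderiv ℝ (fun x => f (lin B x)) x v = fderiv ℝ f (lin B x) (lin B v) := by
  have h : HasFDerivAt (fun x => f (lin B x)) ((fderiv ℝ f (lin B x)).comp (linL B)) x :=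
    (hf (lin B x)).hasFDerivAt.comp x (linL B).hasFDerivAt
  rw [h.fderiv]
  rfl

theorem contDiff_lin (B : Mat n) {m : WithTop ℕ∞} : ContDiff ℝ m (lin B) := by
  exact (linL B).contDiff

theorem pd_lin {f : E n → ℝ} (hf : Differentiable ℝ f) (B : Mat n) (i : Fin n) :
    pd i (fun x => f (lin B x)) = fun x => ∑ j, B j i * pd j f (lin B x) := by
  funext x
  rw [pd, fderiv_lin hf, fderiv_eq_sum]
  refine Finset.sum_congr rfl fun j _ => ?_
  rw [lin_apply]
  simp [ev_apply, one_apply]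

theorem eul_lin {f : E n → ℝ} (hf : Differentiable ℝ f) (B : Mat n) (x : E n) :
    eul (fun x => f (lin B x)) x = eul f (lin B x) := by
  exact fderiv_lin hf B x x

theorem hess_lin {f : E n → ℝ} (hf : ContDiff ℝ 2 f) (B : Mat n) (x : E n) :
    hess (fun x => f (lin B x)) x = Bᵀ * hess f (lin B x) * B := by
  have hd : ∀ k, Differentiable ℝ (pd k f) := fun k => (c1_pd k hf).differentiable one_ne_zero
  have hl : Differentiable ℝ (lin B) := (contDiff_lin B (m := 1)).differentiable one_ne_zero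
  ext i j
  rw [hess, of_apply, pd_lin (hf.differentiable two_ne_zero),
    pd_sum Finset.univ (f := fun k x => B k j * pd k f (lin B x)) i
      fun k _ => ((hd k).comp hl).const_mul _, mul_apply]
  refine Finset.sum_congr rfl fun k _ => ?_
  rw [pd_const_mul, pd_lin (hd k), mul_apply, mul_comm]
  rfl

/-- `a' : D²(f∘B) = (B a' Bᵀ) : D²f` -/
theorem Lop_lin {f : E n → ℝ} (hf : ContDiff ℝ 2 f) (B : Mat n) (a a' : E n → Mat n) (x : E n)
    (h : a (lin B x) = B * a' x * Bᵀ) :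
    Lop a' (fun x => f (lin B x)) x = Lop a f (lin B x) := by
  have e : ∀ A H : Mat n, ∑ i, ∑ j, A i j * H i j = (Aᵀ * H).trace := fun A H => by
    rw [Finset.sum_comm]
    rfl
  have e1 := e (a' x) (hess (fun x => f (lin B x)) x)
  have e2 := e (a (lin B x)) (hess f (lin B x))
  rw [hess_lin hf, ← Matrix.mul_assoc, trace_mul_comm] at e1
  rw [h, transpose_mul, transpose_mul, transpose_transpose] at e2
  have e3 := hess_lin hf B x
  rw [Lop, Lop, eul_lin (hf.differentiable two_ne_zero), h]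
  congr 1
  calc _ = ∑ i, ∑ j, a' x i j * (Bᵀ * hess f (lin B x) * B) i j := by rw [← e3]; rfl
    _ = _ := by
      rw [e1]
      refine Eq.trans ?_ e2.symm
      simp only [Matrix.mul_assoc]

theorem C2.nonneg {v : E n → ℝ} {M : ℝ} (hv : C2 v M) (hn : 0 < n) : 0 ≤ M := by
  exact (abs_nonneg _).trans (hv.bd ⟨0, hn⟩ ⟨0, hn⟩ 0)

theorem C2.mono {v : E n → ℝ} {M M' : ℝ} (hv : C2 v M) (h : M ≤ M') : C2 v M' := by
  exact ⟨hv.c2, fun i j x => (hv.bd i j x).trans h⟩

theorem C2.pd_lip {v : E n → ℝ} {M : ℝ} (hv : C2 v M) (i : Fin n) (x y : E n) :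
    |pd i v x - pd i v y| ≤ n * M * ‖x - y‖ := by
  exact abs_sub_le_of_pd ((c1_pd i hv.c2).differentiable one_ne_zero) (fun j => hv.bd j i) x y

theorem C2.pg_pd2 {v : E n → ℝ} {M : ℝ} (hv : C2 v M) (i j : Fin n) : PG (pd i (pd j v)) := by
  exact ⟨cont_pd i (c1_pd j hv.c2), M, 0, fun x => by simpa using hv.bd i j x⟩

theorem C2.pd_growth {v : E n → ℝ} {M : ℝ} (hv : C2 v M) :
    ∃ K, 0 ≤ K ∧ ∀ i x, |pd i v x| ≤ K * (1 + ‖x‖) := by
  refine ⟨∑ i, |pd i v 0| + |n * M|, by positivity, fun i x => ?_⟩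
  have h1 := hv.pd_lip i x 0
  have h2 : |pd i v 0| ≤ ∑ i, |pd i v 0| :=
    Finset.single_le_sum (f := fun i => |pd i v 0|) (fun _ _ => abs_nonneg _) (Finset.mem_univ i)
  have h3 := abs_sub_abs_le_abs_sub (pd i v x) (pd i v 0)
  have h4 := mul_le_mul_of_nonneg_right (le_abs_self (n * M)) (norm_nonneg x)
  rw [sub_zero] at h1
  have h5 : 0 ≤ (∑ i, |pd i v 0|) * ‖x‖ := by positivity
  nlinarith [abs_nonneg (n * M)]

theorem abs_eul_le {v : E n → ℝ} {x : E n} {K : ℝ} (h : ∀ i, |pd i v x| ≤ K) :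
    |eul v x| ≤ n * (‖x‖ * K) := by
  rw [eul_eq_sum]
  refine (Finset.abs_sum_le_sum_abs _ _).trans ?_
  refine (Finset.sum_le_card_nsmul _ _ (‖x‖ * K) fun i _ => ?_).trans_eq (by simp)
  rw [abs_mul]
  exact mul_le_mul (abs_apply_le x i) (h i) (abs_nonneg _) (norm_nonneg _)

theorem norm_le_of_seg {x ξ : E n} (h : ξ ∈ segment ℝ x 0) : ‖ξ‖ ≤ ‖x‖ := by
  simpa using segment_subset_closedBall_right x 0 h

theorem C2.pg_pd {v : E n → ℝ} {M : ℝ} (hv : C2 v M) (i : Fin n) : PG (pd i v) := by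
  obtain ⟨K, -, h⟩ := hv.pd_growth
  exact ⟨cont_pd i (hv.c2.of_le one_le_two), K, 1, fun x => by simpa using h i x⟩

/-- mean value along the segment `[0,x]` (`abs_sub_le_seg`) -/
theorem C2.pg {v : E n → ℝ} {M : ℝ} (hv : C2 v M) : PG v := by
  obtain ⟨K, hK, h⟩ := hv.pd_growth
  refine ⟨hv.c2.continuous, |v 0| + n * K, 2, fun x => ?_⟩
  have h1 := abs_sub_le_seg (hv.c2.differentiable two_ne_zero) (x := x) (y := 0)
    (M := K * (1 + ‖x‖)) fun ξ hξ i => (h i ξ).trans (by gcongr; exact norm_le_of_seg hξ)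
  rw [sub_zero] at h1
  have h2 := abs_sub_abs_le_abs_sub (v x) (v 0)
  have h3 : 0 ≤ n * K * (1 + ‖x‖) := by positivity
  have h4 : 0 ≤ |v 0| * (2 * ‖x‖ + ‖x‖ ^ 2) := by positivity
  nlinarith

theorem C2.pg_eul {v : E n → ℝ} {M : ℝ} (hv : C2 v M) : PG (eul v) := by
  obtain ⟨K, hK, h⟩ := hv.pd_growth
  refine ⟨(c1_eul hv.c2).continuous, n * K, 2, fun x => ?_⟩
  have h1 := abs_eul_le fun i => h i x
  have h3 : 0 ≤ n * K * (1 + ‖x‖) := by positivity
  nlinarith

theorem C2.pg_L0 {v : E n → ℝ} {M : ℝ} (hv : C2 v M) : PG (L0 v) := by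
  obtain ⟨h1, C, N, h2⟩ := hv.pg_eul
  refine ⟨(continuous_finsetSum _ fun i _ => (hv.pg_pd2 i i).cont).sub h1, n * |M| + C, N,
    fun x => ?_⟩
  have h3 : |∑ i, pd i (pd i v) x| ≤ n * |M| := by
    refine (Finset.abs_sum_le_sum_abs _ _).trans ?_
    exact (Finset.sum_le_card_nsmul _ _ |M| fun i _ =>
      (hv.bd i i x).trans (le_abs_self M)).trans_eq (by simp)
  have h4 : (1 : ℝ) ≤ (1 + ‖x‖) ^ N := one_le_pow₀ (by linarith [norm_nonneg x])
  have h5 := mul_le_mul_of_nonneg_left h4 (by positivity : 0 ≤ n * |M|)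
  have h6 := abs_sub (∑ i, pd i (pd i v) x) (eul v x)
  have h7 := h2 x
  rw [L0]
  linarith

theorem C2.abs_pd_even {v : E n → ℝ} {M : ℝ} (hv : C2 v M) (he : IsEven v) (i : Fin n) (x : E n) :
    |pd i v x| ≤ n * M * ‖x‖ := by
  simpa [he.pd_zero i] using hv.pd_lip i x 0

theorem C2.abs_eul_even {v : E n → ℝ} {M : ℝ} (hv : C2 v M) (he : IsEven v) (x : E n) :
    |eul v x| ≤ n * (n * M) * ‖x‖ ^ 2 := by
  exact (abs_eul_le fun i => hv.abs_pd_even he i x).trans_eq (by ring)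

theorem C2.abs_sub_even {v : E n → ℝ} {M : ℝ} (hv : C2 v M) (he : IsEven v) (x : E n) :
    |v x - v 0| ≤ n * (n * M) * ‖x‖ ^ 2 := by
  have h1 := abs_sub_le_seg (hv.c2.differentiable two_ne_zero) (x := x) (y := 0)
    (M := n * M * ‖x‖) fun ξ hξ i => (hv.abs_pd_even he i ξ).trans (by
      have := hv.nonneg i.pos
      gcongr
      exact norm_le_of_seg hξ)
  rw [sub_zero] at h1
  exact h1.trans_eq (by ring)

theorem C2.comp_lin {v : E n → ℝ} {M b : ℝ} (hv : C2 v M) {B : Mat n} (hB : ∀ i j, |B i j| ≤ b) :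
    C2 (fun x => v (lin B x)) (n * (n * (b * (b * M)))) := by
  refine ⟨hv.c2.comp (contDiff_lin B), fun i j x => ?_⟩
  have hb : 0 ≤ b := (abs_nonneg _).trans (hB i j)
  have e := congrFun (congrFun (hess_lin hv.c2 B x) i) j
  rw [hess, of_apply] at e
  rw [e, mul_apply]
  refine (Finset.abs_sum_le_sum_abs _ _).trans ?_
  refine (Finset.sum_le_card_nsmul _ _ (n * (b * M) * b) fun k _ => ?_).trans_eq
    (by rw [nsmul_eq_mul, Finset.card_fin]; ring)
  rw [abs_mul]
  refine mul_le_mul ?_ (hB k j) (abs_nonneg _) (by have := hv.nonneg i.pos; positivity)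
  rw [mul_apply]
  refine (Finset.abs_sum_le_sum_abs _ _).trans ?_
  refine (Finset.sum_le_card_nsmul _ _ (b * M) fun l _ => ?_).trans_eq (by simp)
  rw [abs_mul]
  exact mul_le_mul (hB l i) (hv.bd l k _) (abs_nonneg _) hb

theorem G2.c2 {v : E n → ℝ} (hv : G2 v) : ∃ M, C2 v M := by
  choose M hM using fun i j => (hv.cb i j).bd []
  refine ⟨∑ i, ∑ j, |M i j|, contDiff_infty.1 hv.smooth 2, fun i j x => ?_⟩
  refine ((hM i j x).trans (le_abs_self _)).trans ?_
  exact (Finset.single_le_sum (f := fun j => |M i j|) (fun _ _ => abs_nonneg _)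
    (Finset.mem_univ j)).trans (Finset.single_le_sum (f := fun i => ∑ j, |M i j|)
      (fun _ _ => by positivity) (Finset.mem_univ i))

end

end Crest.Agent.R238.An
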