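import Crest.Agent.R238.AnG2
import Crest.Agent.R238.AnLin
import Crest.Agent.R238.AnCH

/-!
# R238/AnG4 TASK: the Mehler semigroup: derivative formulas and pointwise bounds
-/

set_option autoImplicit false

namespace Crest.Agent.R238.An

open MeasureTheory Matrix Set Filter Topology
open scoped ContDiff

noncomputable section

variable {n : ℕ}

theorem sd_sq {t : ℝ} (ht : 0 ≤ t) : sd t ^ 2 = 1 - Real.exp (-2 * t) := by
  exact Real.sq_sqrt (sub_nonneg.2 (Real.exp_le_one_iff.2 (by linarith)))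

theorem sd_pos {t : ℝ} (ht : 0 < t) : 0 < sd t := by
  exact Real.sqrt_pos.2 (sub_pos.2 (Real.exp_lt_one_iff.2 (by linarith)))

theorem sd_nonneg (t : ℝ) : 0 ≤ sd t := by
  exact Real.sqrt_nonneg _

theorem sd_le_one (t : ℝ) : sd t ≤ 1 := by
  exact Real.sqrt_le_one.2 (by linarith [Real.exp_pos (-2 * t)])

theorem sd_zero : sd 0 = 0 := by
  simp [sd]

theorem continuous_sd : Continuous sd := by
  unfold sd
  fun_prop

theorem ang4_exp {t : ℝ} (h0 : 0 ≤ t) : Real.exp (-2 * t) * (1 + 2 * t) ≤ 1 := by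
  have h1 := Real.add_one_le_exp (2 * t)
  have h2 : Real.exp (-2 * t) * Real.exp (2 * t) = 1 := by
    rw [← Real.exp_add]; simp
  nlinarith [Real.exp_pos (-2 * t)]

/-- `e^{2t} ≥ 1 + 2t`, so `1 - e^{-2t} ≥ 2t/(1+2t) ≥ t/2` on `[0,1]` -/
theorem sd_sq_ge {t : ℝ} (h0 : 0 ≤ t) (h1 : t ≤ 1) : t / 2 ≤ sd t ^ 2 := by
  rw [sd_sq h0]
  have h2 := ang4_exp h0
  have h3 : 0 < 1 + 2 * t := by linarith
  refine le_of_mul_le_mul_right ?_ h3
  nlinarith

theorem sd_sq_ge' {t : ℝ} (h1 : 1 ≤ t) : 1 / 2 ≤ sd t ^ 2 := by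
  rw [sd_sq (by linarith)]
  have h2 := ang4_exp (t := t) (by linarith)
  nlinarith [Real.exp_pos (-2 * t)]

theorem smooth_Pt {F : E n → ℝ} (hF : PG F) {t : ℝ} (ht : 0 < t) : ContDiff ℝ ∞ (Pt t F) := by
  exact (PS.conv Wt.gk hF (sd_pos ht)).smooth.comp (contDiff_id.const_smul (Real.exp (-t)))

theorem ang4_pd {w F : E n → ℝ} (hw : Wt w) (hF : PG F) {s : ℝ} (hs : 0 < s) (a r : ℝ) (i : Fin n) :
    pd i (fun x => a * conv w F s (r • x)) = fun x => -(a * (r / s)) * conv (pd i w) F s (r • x) := by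
  rw [pd_const_mul, pd_smul i (differentiable_conv hw hF hs), pd_conv hw hF hs]
  funext x
  ring

/-- `pd_smul`, `pd_conv` -/
theorem pd_Pt {F : E n → ℝ} (hF : PG F) {t : ℝ} (ht : 0 < t) (i : Fin n) :
    pd i (Pt t F) = fun x =>
      -(Real.exp (-t) / sd t) * conv (pd i gk) F (sd t) (Real.exp (-t) • x) := by
  have h := ang4_pd Wt.gk hF (sd_pos ht) 1 (Real.exp (-t)) i
  simp only [one_mul] at h
  exact h

theorem pd2_Pt {F : E n → ℝ} (hF : PG F) {t : ℝ} (ht : 0 < t) (i j : Fin n) :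
    pd i (pd j (Pt t F)) = fun x =>
      (Real.exp (-t) / sd t) ^ 2 * conv (pd i (pd j gk)) F (sd t) (Real.exp (-t) • x) := by
  rw [pd_Pt hF ht, ang4_pd (Wt.gk.pd j) hF (sd_pos ht)]
  funext x
  ring

theorem pd3_Pt {F : E n → ℝ} (hF : PG F) {t : ℝ} (ht : 0 < t) (i j k : Fin n) :
    pd i (pd j (pd k (Pt t F))) = fun x =>
      -(Real.exp (-t) / sd t) ^ 3 *
        conv (pd i (pd j (pd k gk))) F (sd t) (Real.exp (-t) • x) := by
  rw [pd2_Pt hF ht, ang4_pd ((Wt.gk.pd k).pd j) hF (sd_pos ht)]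
  funext x
  ring

theorem ang4_cont {w F : E n → ℝ} (hw : Wt w) (hF : PG F) (x : E n) :
    Continuous fun t : ℝ => conv w F (sd t) (Real.exp (-t) • x) :=
  (continuous_conv hw hF).comp (f := fun t : ℝ => (sd t, Real.exp (-t) • x))
    (continuous_sd.prodMk (by fun_prop))

theorem ang4_cw : ContinuousOn (fun t : ℝ => Real.exp (-t) / sd t) (Ioi 0) :=
  (by fun_prop : Continuous fun t : ℝ => Real.exp (-t)).continuousOn.div continuous_sd.continuousOn
    fun _ ht => (sd_pos ht).ne'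

theorem continuous_Pt {F : E n → ℝ} (hF : PG F) (x : E n) : Continuous (fun t => Pt t F x) := by
  exact ang4_cont Wt.gk hF x

theorem Pt_zero (F : E n → ℝ) (x : E n) : Pt 0 F x = F x := by
  simp [Pt, sd_zero, conv_zero]

theorem continuousOn_pd_Pt {F : E n → ℝ} (hF : PG F) (i : Fin n) (x : E n) :
    ContinuousOn (fun t => pd i (Pt t F) x) (Ioi 0) := by
  refine (ang4_cw.neg.mul (ang4_cont (Wt.gk.pd i) hF x).continuousOn).congr fun t ht => ?_
  rw [pd_Pt hF ht]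
  rfl

theorem continuousOn_pd2_Pt {F : E n → ℝ} (hF : PG F) (i j : Fin n) (x : E n) :
    ContinuousOn (fun t => pd i (pd j (Pt t F)) x) (Ioi 0) := by
  refine ((ang4_cw.pow 2).mul (ang4_cont ((Wt.gk.pd j).pd i) hF x).continuousOn).congr fun t ht => ?_
  rw [pd2_Pt hF ht]
  rfl

theorem IsEven.Pt {F : E n → ℝ} (hF : IsEven F) (t : ℝ) : IsEven (Pt t F) := by
  intro x
  simp only [An.Pt, smul_neg]
  exact hF.conv_gk _ _

theorem mean_eq (F : E n → ℝ) : mean F = conv gk F 1 0 := by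
  simp [mean, conv]

theorem abs_mean_le {F : E n → ℝ} {M : ℝ} (hF : Bd F M) : |mean F| ≤ M := by
  rw [mean_eq]
  exact abs_conv_gk_le hF _ _

theorem abs_Pt_le {F : E n → ℝ} {M : ℝ} (hF : Bd F M) (t : ℝ) (x : E n) : |Pt t F x| ≤ M := by
  exact abs_conv_gk_le hF _ _

theorem ang4_mom {ι : Type} [Fintype ι] {w : ι → E n → ℝ} (hw : ∀ k, Wt (w k)) :
    ∃ C, 0 ≤ C ∧ ∀ k, ∫ z, (1 + ‖z‖) ^ 2 * |w k z| ≤ C := by
  choose C h0 h1 using fun k => (hw k).moment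
  exact ⟨∑ k, C k, Finset.sum_nonneg fun k _ => h0 k, fun k =>
    (h1 k).trans (Finset.single_le_sum (fun k _ => h0 k) (Finset.mem_univ k))⟩

theorem ang4_sq (t : ℝ) : Real.exp (-t) ^ 2 = Real.exp (-2 * t) := by
  rw [sq, ← Real.exp_add]
  congr 1
  ring

/-- `Wt.moment` for the finitely many weights, `abs_conv_le` -/
theorem Pt_bd_sup : ∃ C, 0 ≤ C ∧ ∀ (F : E n → ℝ) (M : ℝ), Continuous F → Bd F M → ∀ t, 0 < t →
    ∀ x i j, |pd i (Pt t F) x| ≤ C * M * (Real.exp (-t) / sd t) ∧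
      |pd i (pd j (Pt t F)) x| ≤ C * M * (Real.exp (-2 * t) / sd t ^ 2) := by
  obtain ⟨C1, c1, h1⟩ := ang4_mom (w := fun i : Fin n => pd i gk) fun i => Wt.gk.pd i
  obtain ⟨C2, c2, h2⟩ := ang4_mom (w := fun p : Fin n × Fin n => pd p.1 (pd p.2 gk)) fun p => (Wt.gk.pd p.2).pd p.1
  refine ⟨C1 + C2, by positivity, fun F M hc hb t ht x i j => ?_⟩
  have hP := PG.of_bd hc hb
  have hM := hb.nonneg
  have s0 := sd_pos ht
  have w0 : 0 < Real.exp (-t) / sd t := div_pos (Real.exp_pos _) s0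
  constructor
  · rw [pd_Pt hP ht]
    simp only [abs_mul, abs_neg, abs_of_pos w0]
    have b1 := abs_conv_le (Wt.gk.pd i) hb ((h1 i).trans (le_add_of_nonneg_right c2)) (sd t) (Real.exp (-t) • x)
    have b2 := mul_le_mul_of_nonneg_left b1 w0.le
    linarith
  · rw [pd2_Pt hP ht, ← ang4_sq, ← div_pow]
    simp only [abs_mul, abs_of_pos (pow_pos w0 2)]
    have b1 := abs_conv_le ((Wt.gk.pd j).pd i) hb ((h2 (i, j)).trans (le_add_of_nonneg_left c1)) (sd t)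
      (Real.exp (-t) • x)
    have b2 := mul_le_mul_of_nonneg_left b1 (pow_pos w0 2).le
    linarith

/-- `abs_conv_le_hol`, `Wt.integral_pd`, `e^{-3t} ≤ e^{-2t}` -/
theorem Pt_bd_hol : ∃ C, 0 ≤ C ∧ ∀ (F : E n → ℝ) (K : ℝ), 0 ≤ K → Hol F K → ∀ t, 0 < t →
    ∀ x i j k, |pd i (pd j (Pt t F)) x| ≤ C * K * (Real.exp (-2 * t) * (√(sd t) / sd t ^ 2)) ∧
      |pd i (pd j (pd k (Pt t F))) x| ≤ C * K * (Real.exp (-2 * t) * (√(sd t) / sd t ^ 3)) := by
  obtain ⟨C2, c2, h2⟩ := ang4_mom (w := fun p : Fin n × Fin n => pd p.1 (pd p.2 gk)) fun p => (Wt.gk.pd p.2).pd p.1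
  obtain ⟨C3, c3, h3⟩ := ang4_mom (w := fun p : Fin n × Fin n × Fin n => pd p.1 (pd p.2.1 (pd p.2.2 gk)))
    fun p => ((Wt.gk.pd p.2.2).pd p.2.1).pd p.1
  refine ⟨C2 + C3, by positivity, fun F K hK hh t ht x i j k => ?_⟩
  have hL := hh.holL hK
  have hP := PG.of_holL hL
  have s0 := sd_pos ht
  have w0 : 0 < Real.exp (-t) / sd t := div_pos (Real.exp_pos _) s0
  constructor
  · rw [pd2_Pt hP ht]
    simp only [abs_mul, abs_of_pos (pow_pos w0 2)]
    have b1 := abs_conv_le_hol ((Wt.gk.pd j).pd i) ((Wt.gk.pd j).integral_pd i) hP (hL (Real.exp (-t) • x)) hK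
      ((h2 (i, j)).trans (le_add_of_nonneg_right c3)) s0.le (sd_le_one t)
    refine (mul_le_mul_of_nonneg_left b1 (pow_pos w0 2).le).trans (le_of_eq ?_)
    rw [div_pow, ang4_sq]
    ring
  · rw [pd3_Pt hP ht]
    simp only [abs_mul, abs_neg, abs_of_pos (pow_pos w0 3)]
    have b1 := abs_conv_le_hol (((Wt.gk.pd k).pd j).pd i) (((Wt.gk.pd k).pd j).integral_pd i) hP
      (hL (Real.exp (-t) • x)) hK ((h3 (i, j, k)).trans (le_add_of_nonneg_left c2)) s0.le (sd_le_one t)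
    refine (mul_le_mul_of_nonneg_left b1 (pow_pos w0 3).le).trans ?_
    have b2 : Real.exp (-t) ^ 3 ≤ Real.exp (-2 * t) := by
      rw [← Real.exp_nat_mul]
      exact Real.exp_le_exp.2 (by push_cast; linarith)
    have b3 := mul_le_mul_of_nonneg_left b2 (show 0 ≤ (C2 + C3) * K * (√(sd t) / sd t ^ 3) by positivity)
    rw [div_pow]
    refine le_trans (le_of_eq ?_) (b3.trans (le_of_eq ?_)) <;> ring

end

end Crest.Agent.R238.An
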