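import Crest.Agent.R238.AnG4

/-!
# R238/AnG5 TASK: time integrals; differentiation under the time integral
-/

set_option autoImplicit false

namespace Crest.Agent.R238.An

open MeasureTheory Matrix Set Filter Topology
open scoped ContDiff

noncomputable section

variable {n : ℕ}

theorem ang5_ge {t : ℝ} (ht : 0 < t) : t / (1 + t) ≤ sd t ^ 2 := by
  rw [sd_sq ht.le]
  have h1 : 1 + t ≤ Real.exp (2 * t) := by linarith [Real.add_one_le_exp (2 * t)]
  have h2 : Real.exp (-2 * t) ≤ 1 / (1 + t) := by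
    rw [neg_mul, Real.exp_neg, ← one_div]
    exact one_div_le_one_div_of_le (by linarith) h1
  have h3 : t / (1 + t) = 1 - 1 / (1 + t) := by field_simp; ring
  linarith

theorem ang5_bd {t q : ℝ} (ht : 0 < t) (hq : 0 ≤ q) : sd t ^ (-(2 * q)) ≤ t ^ (-q) * (1 + t) ^ q := by
  have h0 := sd_pos ht
  have e : sd t ^ (-(2 * q)) = (sd t ^ 2) ^ (-q) := by
    rw [← Real.rpow_natCast, ← Real.rpow_mul h0.le]; congr 1; push_cast; ring
  rw [e]
  refine (Real.rpow_le_rpow_of_nonpos (by positivity) (ang5_ge ht) (by linarith)).trans (le_of_eq ?_)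
  rw [Real.div_rpow ht.le (by linarith), Real.rpow_neg (by linarith : (0 : ℝ) ≤ 1 + t), div_inv_eq_mul]

theorem ang5_bd2 {t q : ℝ} (ht : 0 < t) (hq : 0 ≤ q) (hq2 : q ≤ 2) :
    Real.exp (-t) * sd t ^ (-(2 * q)) ≤ 2 * t ^ (-q) := by
  have h1 := ang5_bd ht hq
  have h2 : (1 + t) ^ q ≤ (1 + t) ^ (2 : ℝ) := Real.rpow_le_rpow_of_exponent_le (by linarith) hq2
  rw [Real.rpow_two] at h2
  have h3 := Real.quadratic_le_exp_of_nonneg ht.le
  have h4 : Real.exp (-t) * Real.exp t = 1 := by rw [← Real.exp_add]; simp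
  have h5 := Real.exp_pos (-t)
  have h6 : 0 < t ^ (-q) := Real.rpow_pos_of_pos ht _
  have h7 : Real.exp (-t) * (1 + t) ^ q ≤ 2 := by nlinarith
  calc Real.exp (-t) * sd t ^ (-(2 * q)) ≤ Real.exp (-t) * (t ^ (-q) * (1 + t) ^ q) :=
        mul_le_mul_of_nonneg_left h1 h5.le
    _ = (Real.exp (-t) * (1 + t) ^ q) * t ^ (-q) := by ring
    _ ≤ 2 * t ^ (-q) := mul_le_mul_of_nonneg_right h7 h6.le

theorem ang5_int {q : ℝ} (hq : 0 ≤ q) (hq1 : q < 1) :
    IntegrableOn (fun t => Real.exp (-t) * sd t ^ (-(2 * q))) (Ioi 0) := by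
  have hi := (integrableOn_rpow_mul_exp_neg_mul_rpow (s := -q) (p := 1) (b := 1 / 2) (by linarith) one_pos
    (by norm_num)).const_mul 2
  have hm : Measurable fun t => Real.exp (-t) * sd t ^ (-(2 * q)) :=
    (Real.measurable_exp.comp measurable_neg).mul (continuous_sd.measurable.pow_const _)
  refine Integrable.mono' hi hm.aestronglyMeasurable ((ae_restrict_iff' measurableSet_Ioi).2
    (Eventually.of_forall fun t ht => ?_))
  have ht : 0 < t := ht
  have h0 := sd_pos ht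
  rw [Real.norm_of_nonneg (by positivity), Real.rpow_one]
  have h1 := ang5_bd ht hq
  have h2 : (1 + t) ^ q ≤ (1 + t) ^ (1 : ℝ) := Real.rpow_le_rpow_of_exponent_le (by linarith) hq1.le
  rw [Real.rpow_one] at h2
  have h3 := Real.add_one_le_exp (t / 2)
  have h4 : Real.exp (-t) * Real.exp (t / 2) = Real.exp (-(1 / 2) * t) := by
    rw [← Real.exp_add]; congr 1; ring
  have h5 := Real.exp_pos (-t)
  have h6 : 0 < t ^ (-q) := Real.rpow_pos_of_pos ht _
  have h7 : Real.exp (-t) * (1 + t) ^ q ≤ 2 * Real.exp (-(1 / 2) * t) := by nlinarith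
  calc Real.exp (-t) * sd t ^ (-(2 * q)) ≤ Real.exp (-t) * (t ^ (-q) * (1 + t) ^ q) :=
        mul_le_mul_of_nonneg_left h1 h5.le
    _ = t ^ (-q) * (Real.exp (-t) * (1 + t) ^ q) := by ring
    _ ≤ t ^ (-q) * (2 * Real.exp (-(1 / 2) * t)) := mul_le_mul_of_nonneg_left h7 h6.le
    _ = 2 * (t ^ (-q) * Real.exp (-(1 / 2) * t)) := by ring

theorem ang5_e0 {s : ℝ} (hs : 0 < s) : s ^ (-(2 * (1 / 2 : ℝ))) = s⁻¹ := by
  norm_num [Real.rpow_neg_one]

theorem ang5_e1 {s : ℝ} (hs : 0 < s) (k : ℕ) : √s / s ^ k = s ^ (-(2 * ((k : ℝ) / 2 - 1 / 4))) := by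
  rw [Real.sqrt_eq_rpow, ← Real.rpow_natCast, ← Real.rpow_sub hs]
  congr 1; ring

theorem ang5_two {ψ : ℝ → ℝ} {A B b : ℝ} (hb : 0 < b) (hψ : IntegrableOn ψ (Ioi 0))
    (h1 : ∀ t, 0 < t → |ψ t| ≤ A * t ^ (-(3 / 4) : ℝ)) (h2 : ∀ t, 0 < t → |ψ t| ≤ B * t ^ (-(5 / 4) : ℝ)) :
    |∫ t in Ioi (0 : ℝ), ψ t| ≤ 4 * A * b + 4 * B / b := by
  have ha : 0 < b ^ 4 := by positivity
  have e1 : (b ^ 4) ^ (-(3 / 4) + 1 : ℝ) = b := by
    rw [← Real.rpow_natCast, ← Real.rpow_mul hb.le]; norm_num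
  have e2 : (b ^ 4) ^ (-(5 / 4) + 1 : ℝ) = b⁻¹ := by
    rw [← Real.rpow_natCast, ← Real.rpow_mul hb.le, ← Real.rpow_neg_one]; norm_num
  rw [← Ioc_union_Ioi_eq_Ioi ha.le, setIntegral_union (Ioc_disjoint_Ioi le_rfl) measurableSet_Ioi
    (hψ.mono_set Ioc_subset_Ioi_self) (hψ.mono_set (Ioi_subset_Ioi ha.le))]
  refine (abs_add_le _ _).trans (add_le_add ?_ ?_)
  · have i1 : IntegrableOn (fun t : ℝ => t ^ (-(3 / 4) : ℝ)) (Ioc 0 (b ^ 4)) :=
      (intervalIntegral.intervalIntegrable_rpow' (by norm_num : (-1 : ℝ) < -(3 / 4))).1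
    have := norm_integral_le_of_norm_le (f := ψ) (i1.const_mul A) ((ae_restrict_iff' measurableSet_Ioc).2
      (Eventually.of_forall fun t ht => h1 t ht.1))
    rw [integral_const_mul, ← intervalIntegral.integral_of_le ha.le, ← intervalIntegral.integral_of_le ha.le,
      integral_rpow (Or.inl (by norm_num)), e1, Real.zero_rpow (by norm_num)] at this
    rw [← intervalIntegral.integral_of_le ha.le]
    refine this.trans (le_of_eq ?_)
    ring
  · have i1 := integrableOn_Ioi_rpow_of_lt (by norm_num : (-(5 / 4) : ℝ) < -1) ha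
    have := norm_integral_le_of_norm_le (f := ψ) (i1.const_mul B) ((ae_restrict_iff' measurableSet_Ioi).2
      (Eventually.of_forall fun t ht => h2 t (ha.trans ht)))
    rw [integral_const_mul, integral_Ioi_rpow_of_lt (by norm_num) ha, e2] at this
    refine this.trans (le_of_eq ?_)
    field_simp
    ring

theorem ang5_w1 {t : ℝ} (ht : 0 < t) : Real.exp (-t) * (√(sd t) / sd t ^ 2) ≤ 2 * t ^ (-(3 / 4) : ℝ) := by
  rw [ang5_e1 (sd_pos ht)]
  have := ang5_bd2 (q := 3 / 4) ht (by norm_num) (by norm_num)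
  convert this using 4
  norm_num

theorem ang5_w2 {t : ℝ} (ht : 0 < t) : Real.exp (-t) * (√(sd t) / sd t ^ 3) ≤ 2 * t ^ (-(5 / 4) : ℝ) := by
  rw [ang5_e1 (sd_pos ht)]
  have := ang5_bd2 (q := 5 / 4) ht (by norm_num) (by norm_num)
  convert this using 4
  norm_num

theorem ang5_w3 {t : ℝ} (ht : 0 < t) : Real.exp (-t) / sd t ^ 2 ≤ 2 * t ^ (-(5 / 4) : ℝ) := by
  refine le_trans ?_ (ang5_w2 ht)
  have h0 := sd_pos ht
  have h1 : sd t ≤ √(sd t) := Real.le_sqrt_of_sq_le (by nlinarith [sd_le_one t])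
  rw [div_eq_mul_inv]
  refine mul_le_mul_of_nonneg_left ?_ (Real.exp_pos _).le
  rw [le_div_iff₀ (by positivity)]
  calc (sd t ^ 2)⁻¹ * sd t ^ 3 = sd t := by field_simp
    _ ≤ _ := h1

/-- on `(0,1]`: `≤ (t/2)^{-1/2}` (`intervalIntegral.integrableOn_Ioo_rpow_iff` / \
`intervalIntegrable_rpow'`), on `[1,∞)`: `≤ 2 e^{-t}` -/
theorem integrableOn_w0 : IntegrableOn (fun t => Real.exp (-t) / sd t) (Ioi 0) := by
  refine (ang5_int (q := 1 / 2) (by norm_num) (by norm_num)).congr_fun (fun t ht => ?_) measurableSet_Ioi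
  show Real.exp (-t) * sd t ^ (-(2 * (1 / 2 : ℝ))) = Real.exp (-t) / sd t
  rw [ang5_e0 (sd_pos ht), div_eq_mul_inv]

theorem integrableOn_w0' : IntegrableOn (fun t => 1 / sd t) (Ioc 0 1) := by
  have hi := (integrableOn_w0.mono_set (Ioc_subset_Ioi_self : Ioc (0 : ℝ) 1 ⊆ Ioi 0)).const_mul (Real.exp 1)
  have hm : Measurable fun t => 1 / sd t := measurable_const.div continuous_sd.measurable
  refine Integrable.mono' hi hm.aestronglyMeasurable ((ae_restrict_iff' measurableSet_Ioc).2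
    (Eventually.of_forall fun t ht => ?_))
  have h0 := sd_pos ht.1
  rw [Real.norm_of_nonneg (by positivity), ← mul_div_assoc, ← Real.exp_add]
  exact div_le_div_of_nonneg_right (Real.one_le_exp (by linarith [ht.2])) h0.le

/-- `√s/s² = s^{-3/2} ≤ (t/2)^{-3/4}` on `(0,1]` -/
theorem integrableOn_w1 :
    IntegrableOn (fun t => Real.exp (-t) * (√(sd t) / sd t ^ 2)) (Ioi 0) := by
  refine (ang5_int (q := 3 / 4) (by norm_num) (by norm_num)).congr_fun (fun t ht => ?_) measurableSet_Ioi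
  simp only [ang5_e1 (sd_pos ht)]
  norm_num

/-- For `ρ ≥ 1` use the first bound on all of `(0,∞)`.  For `ρ < 1` split at `ρ²` and `1`:
`∫_0^{ρ²} (t/2)^{-3/4} ≤ C √ρ`, `ρ ∫_{ρ²}^1 (t/2)^{-5/4} ≤ C √ρ`, `ρ ∫_1^∞ C e^{-t} ≤ C √ρ`. -/
theorem int_split : ∃ C, 0 ≤ C ∧ ∀ (ψ : ℝ → ℝ) (K ρ : ℝ), 0 ≤ K → 0 < ρ → IntegrableOn ψ (Ioi 0) →
    (∀ t, 0 < t → |ψ t| ≤ K * (Real.exp (-t) * (√(sd t) / sd t ^ 2))) →
    (∀ t, 0 < t → |ψ t| ≤ K * ρ * (Real.exp (-t) * (√(sd t) / sd t ^ 3))) →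
    |∫ t in Ioi (0 : ℝ), ψ t| ≤ C * K * √ρ := by
  refine ⟨16, by norm_num, fun ψ K ρ hK hρ hψ h1 h2 => ?_⟩
  have hb : 0 < √ρ := Real.sqrt_pos.2 hρ
  have := ang5_two (A := 2 * K) (B := 2 * K * ρ) hb hψ
    (fun t ht => (h1 t ht).trans (by nlinarith [mul_le_mul_of_nonneg_left (ang5_w1 ht) hK]))
    (fun t ht => (h2 t ht).trans (by
      nlinarith [mul_le_mul_of_nonneg_left (ang5_w2 ht) (mul_nonneg hK hρ.le)]))
  refine this.trans (le_of_eq ?_)
  have e : 4 * (2 * K * ρ) / √ρ = 8 * K * √ρ := by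
    rw [div_eq_iff hb.ne', mul_assoc (8 * K), Real.mul_self_sqrt hρ.le]; ring
  rw [e]; ring

/-- split at a small `η ≤ 1`; on `[η,∞)`, `sd t ^ 2 ≥ η/2` -/
theorem int_split' (ε : ℝ) (hε : 0 < ε) : ∃ C, 0 ≤ C ∧ ∀ (ψ : ℝ → ℝ) (K M : ℝ), 0 ≤ K → 0 ≤ M →
    IntegrableOn ψ (Ioi 0) →
    (∀ t, 0 < t → |ψ t| ≤ K * (Real.exp (-t) * (√(sd t) / sd t ^ 2))) →
    (∀ t, 0 < t → |ψ t| ≤ M * (Real.exp (-t) / sd t ^ 2)) →
    |∫ t in Ioi (0 : ℝ), ψ t| ≤ ε * K + C * M := by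
  refine ⟨64 / ε, by positivity, fun ψ K M hK hM hψ h1 h2 => ?_⟩
  have := ang5_two (A := 2 * K) (B := 2 * M) (b := ε / 8) (by positivity) hψ
    (fun t ht => (h1 t ht).trans (by nlinarith [mul_le_mul_of_nonneg_left (ang5_w1 ht) hK]))
    (fun t ht => (h2 t ht).trans (by nlinarith [mul_le_mul_of_nonneg_left (ang5_w3 ht) hM]))
  refine this.trans (le_of_eq ?_)
  field_simp
  ring

/-- `hasFDerivAt_integral_of_dominated_of_fderiv_le` with `μ = volume.restrict (Ioi 0)`;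
`fderiv ℝ (Φ t) x = ∑ i, pd i (Φ t) x • proj i` (`fderiv_eq_sum`), norm `≤ n * b t`. -/
theorem pd_integral {Φ : ℝ → E n → ℝ} (hd : ∀ t, 0 < t → Differentiable ℝ (Φ t))
    (hc1 : ∀ i x, ContinuousOn (fun t => pd i (Φ t) x) (Ioi 0))
    (hi : ∀ x, IntegrableOn (fun t => Φ t x) (Ioi 0))
    (hb : ∀ R : ℝ, ∃ b : ℝ → ℝ, IntegrableOn b (Ioi 0) ∧
      ∀ t, 0 < t → ∀ x : E n, ‖x‖ ≤ R → ∀ i, |pd i (Φ t) x| ≤ b t) :
    Differentiable ℝ (fun x => ∫ t in Ioi (0 : ℝ), Φ t x) ∧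
      ∀ i x, IntegrableOn (fun t => pd i (Φ t) x) (Ioi 0) ∧
        pd i (fun x => ∫ t in Ioi (0 : ℝ), Φ t x) x = ∫ t in Ioi (0 : ℝ), pd i (Φ t) x := by
  have hfd : ∀ t x, fderiv ℝ (Φ t) x = ∑ i, pd i (Φ t) x • (EuclideanSpace.proj i : E n →L[ℝ] ℝ) := fun t x => by
    ext v
    rw [fderiv_eq_sum]
    simp [mul_comm]
  have hm : ∀ i x, AEStronglyMeasurable (fun t => pd i (Φ t) x) (volume.restrict (Ioi 0)) := fun i x =>
    (hc1 i x).aestronglyMeasurable measurableSet_Ioi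
  have hm' : ∀ x, AEStronglyMeasurable (fun t => fderiv ℝ (Φ t) x) (volume.restrict (Ioi 0)) := fun x => by
    simp only [hfd]
    exact Finset.aestronglyMeasurable_fun_sum _ fun i _ => (hm i x).smul_const _
  have hbd : ∀ {b : ℝ} {t : ℝ} {x : E n}, (∀ i, |pd i (Φ t) x| ≤ b) → ‖fderiv ℝ (Φ t) x‖ ≤ n * b :=
    fun {b t x} h => by
      rw [hfd]
      refine (norm_sum_le _ _).trans ?_
      have : ∀ i ∈ (Finset.univ : Finset (Fin n)),
          ‖pd i (Φ t) x • (EuclideanSpace.proj i : E n →L[ℝ] ℝ)‖ ≤ b := fun i _ => by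
        rw [norm_smul, Real.norm_eq_abs]
        have h1 : ‖(EuclideanSpace.proj i : E n →L[ℝ] ℝ)‖ ≤ 1 :=
          ContinuousLinearMap.opNorm_le_bound _ zero_le_one fun v => by
            simpa using abs_apply_le v i
        exact (mul_le_of_le_one_right (abs_nonneg _) h1).trans (h i)
      simpa using Finset.sum_le_card_nsmul _ _ _ this
  have key : ∀ x : E n, IntegrableOn (fun t => fderiv ℝ (Φ t) x) (Ioi 0) ∧
      HasFDerivAt (fun x => ∫ t in Ioi (0 : ℝ), Φ t x) (∫ t in Ioi (0 : ℝ), fderiv ℝ (Φ t) x) x := fun x => by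
    obtain ⟨b, hb1, hb2⟩ := hb (‖x‖ + 1)
    have hball : ∀ y ∈ Metric.ball x 1, ‖y‖ ≤ ‖x‖ + 1 := fun y hy => by
      have := norm_le_norm_add_norm_sub' y x
      rw [mem_ball_iff_norm] at hy
      linarith
    refine ⟨Integrable.mono' (hb1.const_mul n) (hm' x) ((ae_restrict_iff' measurableSet_Ioi).2
      (Eventually.of_forall fun t ht => hbd (hb2 t ht x (by linarith)))), ?_⟩
    exact hasFDerivAt_integral_of_dominated_of_fderiv_le (F := fun x t => Φ t x)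
      (F' := fun x t => fderiv ℝ (Φ t) x) (bound := fun t => n * b t) (Metric.ball_mem_nhds x one_pos)
      (Eventually.of_forall fun y => (hi y).aestronglyMeasurable) (hi x) (hm' x)
      ((ae_restrict_iff' measurableSet_Ioi).2
        (Eventually.of_forall fun t ht y hy => hbd (hb2 t ht y (hball y hy))))
      (hb1.const_mul n)
      ((ae_restrict_iff' measurableSet_Ioi).2
        (Eventually.of_forall fun t ht y _ => (hd t ht y).hasFDerivAt))
  refine ⟨fun x => (key x).2.differentiableAt, fun i x => ⟨?_, ?_⟩⟩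
  · exact (ContinuousLinearMap.apply ℝ ℝ (ev i)).integrable_comp (key x).1
  · unfold pd
    rw [(key x).2.fderiv, ContinuousLinearMap.integral_apply (key x).1]

end

end Crest.Agent.R238.An
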