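import Crest.Agent.R238.AnG1
import Crest.Agent.R238.AnLin
import Crest.Agent.R238.AnInv
import Crest.Agent.R238.AnMat2

/-!
# R238/AnIBP TASK: integration against `e^{-φ}`, Stein identity, local `L²` interpolation
-/

set_option autoImplicit false

namespace Crest.Agent.R238.An

open MeasureTheory Matrix Set Filter Topology
open scoped ContDiff

noncomputable section

variable {n : ℕ}

variable {φ₀ h F G : E n → ℝ}

theorem dens_pos (φ₀ : E n → ℝ) (x : E n) : 0 < dens φ₀ x := Real.exp_pos _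

theorem anibp_hd (t : ℝ) : HasDerivAt (fun t : ℝ => Real.exp (-t)) (-Real.exp (-t)) t := by
  simpa using (hasDerivAt_neg t).exp

theorem anibp_cb (hφ : Cb φ₀) (c : ℝ) : Cb fun x => c * Real.exp (-φ₀ x) := by
  have hd : Differentiable ℝ fun x => Real.exp (-φ₀ x) := (ancls_diff hφ.smooth).neg.exp
  refine Cb.of_closed (fun f => ∃ p, Cb p ∧ f = fun x => p x * Real.exp (-φ₀ x)) ?_ ?_
    ⟨fun _ => c, Cb.const c, rfl⟩
  · rintro f ⟨p, hp, rfl⟩
    refine ⟨(ancls_diff hp.smooth).mul hd, ancls_bd_mul hp.bd0 ?_⟩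
    obtain ⟨M, hM⟩ := hφ.bd0
    refine ⟨Real.exp M, fun x => ?_⟩
    show |Real.exp (-φ₀ x)| ≤ Real.exp M
    rw [abs_of_pos (Real.exp_pos _)]
    exact Real.exp_le_exp.2 (by linarith [(abs_le.1 (hM x)).1])
  · rintro f ⟨p, hp, rfl⟩ i
    refine ⟨fun x => An.pd i p x - p x * An.pd i φ₀ x, (hp.pd i).sub (hp.mul (hφ.pd i)), ?_⟩
    rw [pd_mul i (ancls_diff hp.smooth) hd]
    funext x
    rw [pd_comp (σ := fun t => Real.exp (-t)) i (ancls_diff hφ.smooth x) (anibp_hd _)]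
    ring

/-- `dens φ₀ = (c e^{-φ₀}) gk`; `exp (-φ₀)` is `Cb` (`Cb.of_closed` with
`S f := ∃ p, Cb p ∧ f = p * exp (-φ₀)`), hence `PS` -/
theorem wt_dens (hφ : Cb φ₀) : Wt (dens φ₀) := by
  refine ⟨fun x => ((2 * Real.pi) ^ (-(n : ℝ) / 2))⁻¹ * Real.exp (-φ₀ x), (anibp_cb hφ _).ps, ?_⟩
  funext x
  have h0 : (2 * Real.pi) ^ (-(n : ℝ) / 2) ≠ 0 := (Real.rpow_pos_of_pos (by positivity) _).ne'
  unfold dens gk
  rw [show -(‖x‖ ^ 2 / 2 + φ₀ x) = -φ₀ x + -‖x‖ ^ 2 / 2 by ring, Real.exp_add]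
  field_simp

theorem pd_dens (hφ : Cb φ₀) (i : Fin n) :
    pd i (dens φ₀) = fun x => -(x i + pd i φ₀ x) * dens φ₀ x := by
  funext x
  have d1 : Differentiable ℝ fun y : E n => (1 / 2 : ℝ) * ‖y‖ ^ 2 :=
    (differentiable_id.norm_sq ℝ).const_mul _
  have d2 := ancls_diff hφ.smooth
  have e : dens φ₀ = fun y => (fun t => Real.exp (-t)) ((1 / 2 : ℝ) * ‖y‖ ^ 2 + φ₀ y) := by
    funext y
    unfold dens
    congr 1
    ring
  rw [e, pd_comp (σ := fun t => Real.exp (-t)) (f := fun y => (1 / 2 : ℝ) * ‖y‖ ^ 2 + φ₀ y) i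
    ((d1 x).add (d2 x)) (anibp_hd _), pd_add_at i (d1 x) (d2 x), pd_const_mul, pd_normSq]
  ring

theorem Ex_integrable (hφ : Cb φ₀) (hF : PG F) : Integrable (fun x => F x * dens φ₀ x) := (wt_dens hφ).integrable_mul hF

theorem Ex_add (hφ : Cb φ₀) (hF : PG F) (hG : PG G) :
    Ex φ₀ (fun x => F x + G x) = Ex φ₀ F + Ex φ₀ G := by
  unfold Ex
  rw [← integral_add (Ex_integrable hφ hF) (Ex_integrable hφ hG)]
  simp only [add_mul]

theorem Ex_sub (hφ : Cb φ₀) (hF : PG F) (hG : PG G) :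
    Ex φ₀ (fun x => F x - G x) = Ex φ₀ F - Ex φ₀ G := by
  unfold Ex
  rw [← integral_sub (Ex_integrable hφ hF) (Ex_integrable hφ hG)]
  simp only [sub_mul]

theorem Ex_const_mul (c : ℝ) (F : E n → ℝ) : Ex φ₀ (fun x => c * F x) = c * Ex φ₀ F := by
  unfold Ex
  rw [← integral_const_mul]
  simp only [mul_assoc]

theorem Ex_neg (F : E n → ℝ) : Ex φ₀ (fun x => -F x) = -Ex φ₀ F := by
  unfold Ex
  rw [← integral_neg]
  simp only [neg_mul]

theorem Ex_sum {ι : Type*} (s : Finset ι) {f : ι → E n → ℝ} (hφ : Cb φ₀) (hf : ∀ k ∈ s, PG (f k)) :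
    Ex φ₀ (fun x => ∑ k ∈ s, f k x) = ∑ k ∈ s, Ex φ₀ (f k) := by
  unfold Ex
  rw [← integral_finsetSum s fun k hk => Ex_integrable hφ (hf k hk)]
  simp only [Finset.sum_mul]

theorem Ex_mono (hφ : Cb φ₀) (hF : PG F) (hG : PG G) (h : ∀ x, F x ≤ G x) : Ex φ₀ F ≤ Ex φ₀ G := integral_mono (Ex_integrable hφ hF) (Ex_integrable hφ hG) fun x =>
    mul_le_mul_of_nonneg_right (h x) (dens_pos φ₀ x).le

theorem Ex_nonneg (h : ∀ x, 0 ≤ F x) : 0 ≤ Ex φ₀ F := integral_nonneg fun x => mul_nonneg (h x) (dens_pos φ₀ x).le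

theorem Ex_one_pos (hφ : Cb φ₀) : 0 < Ex φ₀ (fun _ => 1) := by
  have := Ex_integrable hφ (PG.const 1)
  unfold Ex
  simp only [one_mul] at this ⊢
  exact integral_exp_pos this

/-- `Wt.ibp`, `pd_dens` -/
theorem Ex_pd (hφ : Cb φ₀) (hd : Differentiable ℝ F) (h0 : PG F) (i : Fin n) (h1 : PG (pd i F)) :
    Ex φ₀ (pd i F) = Ex φ₀ (fun x => (x i + pd i φ₀ x) * F x) := by
  unfold Ex
  rw [(wt_dens hφ).ibp hd h0 i h1, pd_dens hφ, ← integral_neg]
  congr 1
  funext x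
  ring

/-- `∑_e pd e τ_de = -∑ τ_da g_{ab,e} τ_be = -∑_a τ_da pd a (log det g)` (`pd_inv`, `pd_logdet`, symmetry
of third derivatives), and `pd a (log det g) = ∑_p x_p h_{pa} - pd a φ₀ = ∑_p x_p g_{pa} - (x_a + pd a φ₀)`
by the equation (`pd_eul`). -/
theorem div_tau (hφ : Cb φ₀) (hs : Sol φ₀ h) (d : Fin n) (x : E n) :
    ∑ e, pd e (fun x => tau h x d e) x = -x d + ∑ a, tau h x d a * (x a + pd a φ₀ x) := by
  have hsm := hs.g2.smooth
  have c2 : ContDiff ℝ 2 h := hsm.of_le (by norm_cast)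
  have c2' : ∀ b, ContDiff ℝ 2 (pd b h) := fun b => (smooth_pd b hsm).of_le (by norm_cast)
  have hg : ∀ i j, ContDiff ℝ 1 fun x => gm h x i j := fun i j =>
    (hs.g2.cb_gm i j).smooth.of_le (by norm_cast)
  have hd : ∀ x, (gm h x).det ≠ 0 := fun x => (hs.det_pos x).ne'
  have hinv : tau h x * gm h x = 1 := Matrix.nonsing_inv_mul _ (hd x).isUnit
  have e1 : ∑ e, pd e (fun x => tau h x d e) x =
      -∑ a, tau h x d a * pd a (fun x => Real.log (gm h x).det) x := by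
    have : ∀ e, pd e (fun x => tau h x d e) x =
        -∑ a, ∑ b, tau h x d a * pd a (pd e (pd b h)) x * tau h x b e := fun e => by
      have := pd_inv hg hd e d e x
      simp only [pd_gm] at this
      simp only [pd_comm (c2' _) _ e]
      exact this
    simp only [this, pd_logdet hg hd, pd_gm, Finset.sum_neg_distrib, Finset.mul_sum]
    congr 1
    rw [Finset.sum_comm]
    refine Finset.sum_congr rfl fun a _ => ?_
    rw [Finset.sum_comm]
    refine Finset.sum_congr rfl fun b _ => Finset.sum_congr rfl fun e _ => ?_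
    unfold tau
    ring
  have e2 : ∀ a, pd a (fun x => Real.log (gm h x).det) x =
      (gm h x *ᵥ x.ofLp) a - (x a + pd a φ₀ x) := fun a => by
    have d1 : Differentiable ℝ (eul h) := ancls_diff (smooth_eul hsm)
    have d2 : Differentiable ℝ h := ancls_diff hsm
    have d3 : Differentiable ℝ φ₀ := ancls_diff hφ.smooth
    rw [show (fun x => Real.log (gm h x).det) = fun x => eul h x - h x - φ₀ x from funext hs.eqn,
      pd_sub (f := fun x => eul h x - h x) a (d1.sub d2) d3, pd_sub a d1 d2, pd_eul c2]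
    have e4 : (gm h x *ᵥ x.ofLp) a = x a + ∑ i, x i * pd i (pd a h) x := by
      rw [gm, Matrix.add_mulVec, Matrix.one_mulVec, Pi.add_apply]
      congr 1
      show ∑ i, pd a (pd i h) x * x i = _
      exact Finset.sum_congr rfl fun i _ => by rw [pd_comm c2 a i, mul_comm]
    simp only [eul_eq_sum, e4]
    ring
  have e3 : ∑ a, tau h x d a * (gm h x *ᵥ x.ofLp) a = x d := by
    have : (tau h x *ᵥ (gm h x *ᵥ x.ofLp)) d = x d := by
      rw [Matrix.mulVec_mulVec, hinv, Matrix.one_mulVec]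
    exact this
  rw [e1]
  simp only [e2, mul_sub, Finset.sum_sub_distrib, e3]
  ring

/-- Stein: `Ex_pd` for `τ_de F`, sum over `e`, `div_tau` -/
theorem stein (hφ : Cb φ₀) (hs : Sol φ₀ h) (hd : Differentiable ℝ F) (h0 : PG F)
    (h1 : ∀ i, PG (pd i F)) (d : Fin n) :
    Ex φ₀ (fun x => x d * F x) = Ex φ₀ (fun x => ∑ e, tau h x d e * pd e F x) := by
  have t0 : ∀ e, PG fun x => tau h x d e := fun e => (hs.cb_tau d e).ps.to_pg
  have t1 : ∀ e, PG (pd e fun x => tau h x d e) := fun e => ((hs.cb_tau d e).pd e).ps.to_pg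
  have td : ∀ e, Differentiable ℝ fun x => tau h x d e := fun e => ancls_diff (hs.cb_tau d e).smooth
  have e0 : ∀ e, pd e (fun x => tau h x d e * F x) =
      fun x => pd e (fun x => tau h x d e) x * F x + tau h x d e * pd e F x := fun e => pd_mul e (td e) hd
  have p0 : ∀ e, PG (pd e fun x => tau h x d e * F x) := fun e => by
    rw [e0]
    exact ((t1 e).mul h0).add ((t0 e).mul (h1 e))
  have pA' : ∀ e, PG fun x => (x e + pd e φ₀ x) * (tau h x d e * F x) := fun e =>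
    ((PG.coord e).add (hφ.pd e).ps.to_pg).mul ((t0 e).mul h0)
  have pA : PG fun x => ∑ e, (x e + pd e φ₀ x) * (tau h x d e * F x) := PG.sum _ fun e _ => pA' e
  have pB : PG fun x => ∑ e, tau h x d e * pd e F x := PG.sum _ fun e _ => (t0 e).mul (h1 e)
  have pC : PG fun x => x d * F x := (PG.coord d).mul h0
  have k1 : Ex φ₀ (fun x => ∑ e, pd e (fun x => tau h x d e * F x) x) =
      Ex φ₀ fun x => ∑ e, (x e + pd e φ₀ x) * (tau h x d e * F x) := by
    rw [Ex_sum Finset.univ hφ fun e _ => p0 e, Ex_sum Finset.univ hφ fun e _ => pA' e]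
    exact Finset.sum_congr rfl fun e _ => Ex_pd hφ ((td e).mul hd) ((t0 e).mul h0) e (p0 e)
  have k2 : (fun x => ∑ e, pd e (fun x => tau h x d e * F x) x) = fun x =>
      (∑ e, (x e + pd e φ₀ x) * (tau h x d e * F x)) + ((∑ e, tau h x d e * pd e F x) - x d * F x) := by
    funext x
    simp only [e0, Finset.sum_add_distrib]
    rw [← Finset.sum_mul, div_tau hφ hs d x, add_mul, Finset.sum_mul]
    have : ∑ a, tau h x d a * (x a + pd a φ₀ x) * F x = ∑ e, (x e + pd e φ₀ x) * (tau h x d e * F x) :=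
      Finset.sum_congr rfl fun a _ => by ring
    rw [this]
    ring
  rw [k2, Ex_add hφ pA (pB.sub pC), Ex_sub hφ pB pC] at k1
  linarith

theorem C2.pg_Lop {v : E n → ℝ} {M : ℝ} (hs : Sol φ₀ h) (hv : C2 v M) : PG (Lop (tau h) v) := (PG.sum Finset.univ fun i _ => PG.sum Finset.univ fun j _ =>
    (hs.cb_tau i j).ps.to_pg.mul (hv.pg_pd2 i j)).sub hv.pg_eul

/-- `stein` with `F = pd d v`, symmetry of `τ` -/
theorem Ex_Lop {v : E n → ℝ} {M : ℝ} (hφ : Cb φ₀) (hs : Sol φ₀ h) (hv : C2 v M) :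
    Ex φ₀ (Lop (tau h) v) = 0 := by
  have pI : ∀ i, PG fun x => ∑ j, tau h x i j * pd i (pd j v) x := fun i =>
    PG.sum Finset.univ fun j _ => (hs.cb_tau i j).ps.to_pg.mul (hv.pg_pd2 i j)
  have e : Lop (tau h) v = fun x => (∑ i, ∑ j, tau h x i j * pd i (pd j v) x) - ∑ i, x i * pd i v x := by
    funext x
    rw [Lop, eul_eq_sum]
  have pJ : ∀ i, PG fun x : E n => x i * pd i v x := fun i => (PG.coord i).mul (hv.pg_pd i)
  rw [e, Ex_sub hφ (PG.sum _ fun i _ => pI i) (PG.sum _ fun i _ => pJ i),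
    Ex_sum Finset.univ hφ fun i _ => pI i, Ex_sum Finset.univ hφ fun i _ => pJ i, sub_eq_zero]
  refine Finset.sum_congr rfl fun i _ => ?_
  rw [stein hφ hs ((c1_pd i hv.c2).differentiable one_ne_zero) (hv.pg_pd i) (fun j => hv.pg_pd2 j i) i]
  simp only [pd_comm hv.c2 i]

/-- `dens φ₀ ≤ e^B e^{-|x|²/2}` -/
theorem Ex_moment (B : ℝ) : ∃ C, 0 ≤ C ∧ ∀ φ₀ : E n → ℝ, Cb φ₀ → Bd φ₀ B →
    Ex φ₀ (fun x => 1 + ‖x‖ ^ 2) ≤ C := by
  have hi := (integrable_poly_gauss (n := n) 2 (b := 1 / 2) (by norm_num)).const_mul (Real.exp B)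
  refine ⟨∫ z : E n, Real.exp B * ((1 + ‖z‖) ^ 2 * Real.exp (-(1 / 2) * ‖z‖ ^ 2)),
    integral_nonneg fun z => by positivity, fun φ₀ _ hB => ?_⟩
  refine integral_mono_of_nonneg (Eventually.of_forall fun x => mul_nonneg (by positivity) (dens_pos φ₀ x).le) hi
    (Eventually.of_forall fun x => ?_)
  have h1 : dens φ₀ x ≤ Real.exp B * Real.exp (-(1 / 2) * ‖x‖ ^ 2) := by
    unfold dens
    rw [← Real.exp_add]
    exact Real.exp_le_exp.2 (by linarith [(abs_le.1 (hB x)).1])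
  have h2 : 1 + ‖x‖ ^ 2 ≤ (1 + ‖x‖) ^ 2 := by nlinarith [norm_nonneg x]
  have := mul_le_mul h2 h1 (dens_pos φ₀ x).le (by positivity)
  linarith

/-- with `δ = min 1 ε²`: on `closedBall x δ`, `|G y| ≥ |G x| - ε N`, `dens ≥ e^{-(R+1)²/2 - B}`;
so `Ex G² ≥ c (|G x| - εN)²` when `|G x| ≥ εN` (`Measure.addHaar_closedBall_center`) -/
theorem local_L2 (B R ε : ℝ) (hε : 0 < ε) : ∃ C, 0 ≤ C ∧ ∀ (φ₀ G : E n → ℝ) (N : ℝ), Cb φ₀ →
    Bd φ₀ B → PG G → 0 ≤ N → Hol G N → ∀ x, ‖x‖ ≤ R →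
    |G x| ≤ ε * N + C * √(Ex φ₀ (fun y => G y ^ 2)) := by
  set δ := min 1 (ε ^ 2) with hδ
  have δ0 : 0 < δ := lt_min one_pos (by positivity)
  set V := volume.real (Metric.closedBall (0 : E n) δ) with hV
  have V0 : 0 < V := ENNReal.toReal_pos (Metric.measure_closedBall_pos volume _ δ0).ne'
    measure_closedBall_lt_top.ne
  set m := Real.exp (-((|R| + 1) ^ 2 / 2 + B)) with hm
  have m0 : 0 < m := Real.exp_pos _
  have c0 : 0 < √(V * m) := Real.sqrt_pos.2 (mul_pos V0 m0)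
  refine ⟨(√(V * m))⁻¹, by positivity, fun φ₀ G N hφ hB hG hN hH x hx => ?_⟩
  have s0 : 0 ≤ (√(V * m))⁻¹ * √(Ex φ₀ fun y => G y ^ 2) := by positivity
  rcases le_or_gt |G x| (ε * N) with h | h
  · linarith
  set t := |G x| - ε * N with ht
  have t0 : 0 < t := by linarith
  have hi : Integrable (indicator (Metric.closedBall x δ) fun _ => t ^ 2 * m) :=
    (integrableOn_const measure_closedBall_lt_top.ne).integrable_indicator measurableSet_closedBall
  have h1 : ∫ y, indicator (Metric.closedBall x δ) (fun _ => t ^ 2 * m) y ≤ Ex φ₀ fun y => G y ^ 2 := by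
    refine integral_mono hi (Ex_integrable hφ (hG.pow 2)) fun y => ?_
    by_cases hy : y ∈ Metric.closedBall x δ
    · rw [indicator_of_mem hy]
      have a1 : ‖x - y‖ ≤ δ := by rwa [← dist_eq_norm, dist_comm]
      have a2 : √‖x - y‖ ≤ ε := Real.sqrt_le_iff.2 ⟨hε.le, a1.trans (min_le_right _ _)⟩
      have a3 : |G x - G y| ≤ N * ε := (hH x y).trans (mul_le_mul_of_nonneg_left a2 hN)
      have a4 : t ≤ |G y| := by
        have := abs_sub_abs_le_abs_sub (G x) (G y)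
        linarith
      have a5 : t ^ 2 ≤ G y ^ 2 := by
        rw [← sq_abs (G y)]
        exact pow_le_pow_left₀ t0.le a4 2
      have a6 : ‖y‖ ≤ |R| + 1 := by
        have b1 := norm_sub_norm_le y x
        rw [norm_sub_rev] at b1
        have b2 : δ ≤ 1 := min_le_left _ _
        linarith [le_abs_self R]
      have a7 : m ≤ dens φ₀ y := by
        have b1 : ‖y‖ ^ 2 ≤ (|R| + 1) ^ 2 := pow_le_pow_left₀ (norm_nonneg _) a6 2
        exact Real.exp_le_exp.2 (by linarith [(abs_le.1 (hB y)).2])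
      exact mul_le_mul a5 a7 m0.le (sq_nonneg _)
    · rw [indicator_of_notMem hy]
      exact mul_nonneg (sq_nonneg _) (dens_pos φ₀ y).le
  have hVx : volume.real (Metric.closedBall x δ) = V := by
    rw [hV, Measure.real, Measure.real, Measure.addHaar_closedBall_center]
  rw [integral_indicator_const _ measurableSet_closedBall, hVx, smul_eq_mul] at h1
  have h2 : t * √(V * m) ≤ √(Ex φ₀ fun y => G y ^ 2) := by
    refine Real.le_sqrt_of_sq_le ?_
    rw [mul_pow, Real.sq_sqrt (mul_pos V0 m0).le]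
    linarith
  have h3 : t ≤ (√(V * m))⁻¹ * √(Ex φ₀ fun y => G y ^ 2) := by
    rw [← div_eq_inv_mul, le_div_iff₀ c0]
    exact h2
  linarith

end

end Crest.Agent.R238.An
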