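import Crest.Agent.R238.AnT

/-!
# R238/AnIFT TASK: the quantitative implicit function step in the Banach algebra `Y n`.
`Θ (M, a) = det (1 + M) * exp a` on `(Fin n → Fin n → Y n) × Y n` is `C¹`, with strict derivative
`(M,a) ↦ tr M + a` at `0` (`theta_approx`).  `Λ F = (τ K(F), F - tr K(F))` is linear with norm bounded in terms of
`Kτ`; `f = Θ ∘ Λ`, `f 0 = 1`, `Θ'(0) Λ F = ∑ τ_ik K_ki + F - ∑ K_ii = T F` (`pd_comm`).
`ApproximatesLinearOn.surjOn_closedBall_of_nonlinearRightInverse` (with `T.toNonlinearRightInverse` or a hand-made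
`NonlinearRightInverse` of constant `2 C₀`), target `exp (-ψ)`, `‖exp (-ψ) - 1‖` small by continuity of `exp` at `0`.
-/

set_option autoImplicit false

namespace Crest.Agent.R238.An

open MeasureTheory Matrix Set Filter Topology
open scoped ContDiff

noncomputable section

variable {n : ℕ}

section Alg
variable {A : Type} [NormedCommRing A] [NormedAlgebra ℝ A]

/-- the entry map -/
def anift_P (i j : Fin n) : (Fin n → Fin n → A) →L[ℝ] A :=
  (ContinuousLinearMap.proj j : (Fin n → A) →L[ℝ] A).comp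
    (ContinuousLinearMap.proj i : (Fin n → Fin n → A) →L[ℝ] (Fin n → A))

theorem anift_P_apply (i j : Fin n) (M : Fin n → Fin n → A) : anift_P i j M = M i j := rfl

omit [NormedAlgebra ℝ A] in
theorem anift_perm {σ : Equiv.Perm (Fin n)} (hσ : σ ≠ 1) (i : Fin n) :
    ∏ j ∈ Finset.univ.erase i, (1 : Matrix (Fin n) (Fin n) A) (σ j) j = 0 := by
  by_contra h
  have h1 : ∀ j, j ≠ i → σ j = j := by
    intro j hj
    by_contra h2
    exact h (Finset.prod_eq_zero (i := j) (by simp [hj]) (Matrix.one_apply_ne h2))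
  refine hσ (Equiv.ext fun j => ?_)
  by_cases hj : j = i
  · subst hj
    by_contra h2
    have h3 : σ j ≠ j := h2
    exact h3 (σ.injective (h1 _ h3))
  · exact h1 j hj

theorem anift_det : ∃ D : (Fin n → Fin n → A) →L[ℝ] A, (∀ M, D M = ∑ i, M i i) ∧
    HasStrictFDerivAt (fun M : Fin n → Fin n → A => (1 + Matrix.of M).det) D 0 := by
  have h1 : ∀ σ : Equiv.Perm (Fin n), HasStrictFDerivAt
      (fun M : Fin n → Fin n → A => ∏ i, ((1 : Matrix (Fin n) (Fin n) A) (σ i) i + anift_P (σ i) i M))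
      (∑ i, (∏ j ∈ Finset.univ.erase i, ((1 : Matrix (Fin n) (Fin n) A) (σ j) j +
        anift_P (σ j) j (0 : Fin n → Fin n → A))) • anift_P (σ i) i) 0 := fun σ =>
    HasStrictFDerivAt.finsetProd (g := fun i M => (1 : Matrix (Fin n) (Fin n) A) (σ i) i + anift_P (σ i) i M)
      fun i _ => HasStrictFDerivAt.const_add ((1 : Matrix (Fin n) (Fin n) A) (σ i) i)
        (ContinuousLinearMap.hasStrictFDerivAt (anift_P (A := A) (σ i) i))
  have h2 := HasStrictFDerivAt.fun_sum (u := Finset.univ) fun σ _ =>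
    (h1 σ).const_mul (((Equiv.Perm.sign σ : ℤ) : A))
  refine ⟨_, fun M => ?_, h2.congr_of_eventuallyEq (Eventually.of_forall fun M => ?_)⟩
  · rw [ContinuousLinearMap.sum_apply, Finset.sum_eq_single 1]
    · have e : ∀ i : Fin n, ∏ j ∈ Finset.univ.erase i, ((1 : Matrix (Fin n) (Fin n) A) ((1 : Equiv.Perm (Fin n)) j) j +
          anift_P ((1 : Equiv.Perm (Fin n)) j) j (0 : Fin n → Fin n → A)) = 1 := fun i =>
        Finset.prod_eq_one fun j _ => by
          rw [map_zero, add_zero]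
          exact Matrix.one_apply_eq j
      simp only [e]
      simp [anift_P_apply]
    · intro σ _ hσ
      simp [ContinuousLinearMap.sum_apply, anift_perm hσ]
    · simp
  · simp only [Matrix.det_apply', Matrix.add_apply, Matrix.of_apply, anift_P_apply]

theorem anift_theta [CompleteSpace A] (ε : ℝ) (hε : 0 < ε) : ∃ r, 0 < r ∧
    ∀ (M M' : Fin n → Fin n → A) (a a' : A), ‖M‖ ≤ r → ‖M'‖ ≤ r → ‖a‖ ≤ r → ‖a'‖ ≤ r →
      ‖(1 + Matrix.of M).det * NormedSpace.exp a - (1 + Matrix.of M').det * NormedSpace.exp a' -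
        ((∑ i, (M i i - M' i i)) + (a - a'))‖ ≤ ε * (‖M - M'‖ + ‖a - a'‖) := by
  obtain ⟨D, hD, h1⟩ := anift_det (n := n) (A := A)
  have h2 : HasStrictFDerivAt (fun p : (Fin n → Fin n → A) × A => (1 + Matrix.of p.1).det)
      (D.comp (ContinuousLinearMap.fst ℝ _ _)) 0 :=
    HasStrictFDerivAt.comp (f := fun p : (Fin n → Fin n → A) × A => p.1) (0 : (Fin n → Fin n → A) × A) h1
      hasStrictFDerivAt_fst
  have h3 : HasStrictFDerivAt (fun p : (Fin n → Fin n → A) × A => NormedSpace.exp p.2)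
      ((1 : A →L[ℝ] A).comp (ContinuousLinearMap.snd ℝ _ _)) 0 :=
    HasStrictFDerivAt.comp (f := fun p : (Fin n → Fin n → A) × A => p.2) (0 : (Fin n → Fin n → A) × A)
      (hasStrictFDerivAt_exp_zero (𝕂 := ℝ)) hasStrictFDerivAt_snd
  have h4 := (h2.mul h3).isLittleO.def hε
  obtain ⟨r, hr, h5⟩ := Metric.eventually_nhds_iff.1 h4
  refine ⟨r / 2, by positivity, fun M M' a a' hM hM' ha ha' => ?_⟩
  have h6 := @h5 ((M, a), (M', a')) (by
    simp only [Prod.dist_eq, Prod.fst_zero, Prod.snd_zero, dist_zero_right, max_lt_iff, Prod.norm_def]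
    refine ⟨⟨?_, ?_⟩, ?_, ?_⟩ <;> linarith)
  have e : Matrix.of (0 : Fin n → Fin n → A) = 0 := rfl
  simp only [Pi.mul_apply, Prod.fst_zero, Prod.snd_zero, e, add_zero, Matrix.det_one, NormedSpace.exp_zero, one_smul,
    ContinuousLinearMap.add_apply, ContinuousLinearMap.comp_apply, ContinuousLinearMap.coe_fst',
    ContinuousLinearMap.coe_snd', Prod.mk_sub_mk, ContinuousLinearMap.one_apply, hD, Pi.sub_apply] at h6
  rw [add_comm (a - a')] at h6
  refine h6.trans (mul_le_mul_of_nonneg_left ?_ hε.le)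
  rw [Prod.norm_def]
  exact max_le (le_add_of_nonneg_right (norm_nonneg _)) (le_add_of_nonneg_left (norm_nonneg _))

theorem anift_exp [CompleteSpace A] (ε : ℝ) (hε : 0 < ε) : ∃ r, 0 < r ∧
    ∀ a : A, ‖a‖ < r → ‖NormedSpace.exp a - 1‖ < ε := by
  have h := (hasStrictFDerivAt_exp_zero (𝕂 := ℝ) (𝔸 := A)).continuousAt
  obtain ⟨r, hr, h1⟩ := Metric.continuousAt_iff.1 h ε hε
  refine ⟨r, hr, fun a ha => ?_⟩
  have := @h1 a (by simpa using ha)
  simpa [dist_eq_norm] using this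

end Alg

/-- the determinant is a polynomial (`Matrix.det_apply'`, `ContDiff.sum/prod`), derivative at `0` along
`t • M` by `Matrix.det_one_add_smul`; `exp` is analytic (`NormedSpace.exp_analytic`/`hasStrictFDerivAt_exp_zero`) -/
theorem theta_approx (ε : ℝ) (hε : 0 < ε) : ∃ r, 0 < r ∧
    ∀ (M M' : Fin n → Fin n → Y n) (a a' : Y n), ‖M‖ ≤ r → ‖M'‖ ≤ r → ‖a‖ ≤ r → ‖a'‖ ≤ r →
      ‖(1 + Matrix.of M).det * NormedSpace.exp a - (1 + Matrix.of M').det * NormedSpace.exp a' -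
        ((∑ i, (M i i - M' i i)) + (a - a'))‖ ≤ ε * (‖M - M'‖ + ‖a - a'‖) := by
  exact anift_theta ε hε

theorem ift (C₀ Kτ δ : ℝ) (hC : 0 < C₀) (hδ : 0 < δ) : ∃ ρ, 0 < ρ ∧
    ∀ (τ : E n → Mat n) (ψ : E n → ℝ), (∀ i j, IsEven fun x => τ x i j) →
      (∀ i j, Bd (fun x => τ x i j) Kτ ∧ Hol (fun x => τ x i j) Kτ) → 0 ≤ Kτ →
      Low τ 1 C₀ → Onto τ 1 → IsEven ψ → Bd ψ ρ → Hol ψ ρ →
      ∃ F, IsEven F ∧ CH 0 F ∧
        (∀ i j, Bd (pd i (pd j (Rk 1 F))) δ ∧ Hol (pd i (pd j (Rk 1 F))) δ) ∧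
        ∀ x, (1 + τ x * hess (Rk 1 F) x).det * Real.exp (F x - (hess (Rk 1 F) x).trace) =
          Real.exp (-ψ x) := by
  obtain ⟨C, hC0, hKK⟩ := exists_KK (n := n)
  obtain ⟨K, hK, hKv⟩ := hKK 1 zero_le_one le_rfl
  set Λ : ℝ := n * (2 * |Kτ| * C) + (1 + n * C) with hΛ
  have hΛ1 : n * (2 * |Kτ| * C) ≤ Λ := le_add_of_nonneg_right (by positivity)
  have hΛ2 : 1 + n * C ≤ Λ := le_add_of_nonneg_left (by positivity)
  have hΛ0 : 0 < Λ := by positivity
  obtain ⟨r, hr, hθ⟩ := theta_approx (n := n) (1 / (4 * C₀ * Λ)) (by positivity)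
  set R : ℝ := min (r / Λ) (δ / (C + 1)) with hR
  have hR0 : 0 < R := lt_min (by positivity) (by positivity)
  have hR1 : Λ * R ≤ r := by
    have := min_le_left (r / Λ) (δ / (C + 1))
    rwa [← hR, le_div_iff₀ hΛ0, mul_comm] at this
  have hR2 : C * R ≤ δ := by
    have := min_le_right (r / Λ) (δ / (C + 1))
    rw [← hR, le_div_iff₀ (by positivity)] at this
    nlinarith
  obtain ⟨ρ, hρ, hexp⟩ := anift_exp (A := Y n) (R / (4 * C₀)) (by positivity)
  refine ⟨ρ / 4, by positivity, fun τ ψ hτe hτ hKτ hl ho hψe hψb hψh => ?_⟩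
  have hτc : ∀ i j, CH 0 fun x => τ x i j := fun i j => ⟨Kτ, Kτ, (hτ i j).1, (hτ i j).2⟩
  obtain ⟨T, hT, hTs⟩ := exists_equiv zero_le_one le_rfl hC hτe hτc hl ho
  set t : Fin n → Fin n → Y n := fun i j => Y.mk _ (hτe i j) (hτc i j) with ht
  have htn : ∀ i j, ‖t i j‖ ≤ 2 * |Kτ| := by
    intro i j
    have := Y.norm_le (t i j) hKτ (hτ i j).1 (hτ i j).2
    rw [abs_of_nonneg hKτ]; linarith
  set M : Y n → Fin n → Fin n → Y n := fun F i j => ∑ k, t i k * K k j F with hM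
  set a : Y n → Y n := fun F => F - ∑ i, K i i F with ha
  have Msub : ∀ F G, M F - M G = M (F - G) := by
    intro F G
    funext i j
    simp only [hM, Pi.sub_apply, map_sub, mul_sub, Finset.sum_sub_distrib]
  have asub : ∀ F G, a F - a G = a (F - G) := by
    intro F G
    simp only [ha, map_sub, Finset.sum_sub_distrib]
    ring
  have Mn : ∀ F, ‖M F‖ ≤ n * (2 * |Kτ| * C) * ‖F‖ := by
    intro F
    refine (pi_norm_le_iff_of_nonneg (by positivity)).2 fun i =>
      (pi_norm_le_iff_of_nonneg (by positivity)).2 fun j => (norm_sum_le _ _).trans ?_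
    have : ∀ k ∈ Finset.univ, ‖t i k * K k j F‖ ≤ 2 * |Kτ| * C * ‖F‖ := fun k _ => by
      refine (norm_mul_le _ _).trans ?_
      rw [mul_assoc _ C]
      exact mul_le_mul (htn i k) (hK k j F) (norm_nonneg _) (by positivity)
    have h2 := Finset.sum_le_card_nsmul _ _ _ this
    simpa [mul_assoc] using h2
  have an : ∀ F, ‖a F‖ ≤ (1 + n * C) * ‖F‖ := by
    intro F
    refine (norm_sub_le _ _).trans ?_
    have h2 := Finset.sum_le_card_nsmul Finset.univ (fun i => ‖K i i F‖) _ fun i _ => hK i i F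
    have h3 := norm_sum_le Finset.univ fun i => K i i F
    simp only [Finset.card_univ, Fintype.card_fin, nsmul_eq_mul] at h2
    nlinarith
  have lin : ∀ F, (∑ i, M F i i) + a F = T F := by
    intro F
    refine Y.ext' fun x => ?_
    have c2 := Rk_c2 F.even F.ch zero_le_one le_rfl
    rw [hT]
    simp only [hM, ha, ht, Y.val_add, Y.val_sub, Y.val_sum, Y.val_mul, Y.val_mk, hKv, Tf, sub_mul,
      Finset.sum_sub_distrib, Matrix.one_apply, ite_mul, one_mul, zero_mul, Finset.sum_ite_eq, Finset.mem_univ,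
      if_true]
    have : ∀ i k, pd k (pd i (Rk 1 F.val)) x = pd i (pd k (Rk 1 F.val)) x := fun i k => by rw [pd_comm c2]
    simp only [this]
    ring
  set f : Y n → Y n := fun F => (1 + Matrix.of (M F)).det * NormedSpace.exp (a F) with hf
  set c : NNReal := ⟨1 / (4 * C₀), by positivity⟩ with hc
  have happ : ApproximatesLinearOn f (T : Y n →L[ℝ] Y n) (Metric.closedBall 0 R) c := by
    intro F hF G hG
    rw [mem_closedBall_zero_iff] at hF hG
    have b1 : ∀ F : Y n, ‖F‖ ≤ R → ‖M F‖ ≤ r := fun F hF =>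
      (Mn F).trans ((mul_le_mul hΛ1 hF (norm_nonneg _) hΛ0.le).trans hR1)
    have b2 : ∀ F : Y n, ‖F‖ ≤ R → ‖a F‖ ≤ r := fun F hF =>
      (an F).trans ((mul_le_mul hΛ2 hF (norm_nonneg _) hΛ0.le).trans hR1)
    have h1 := hθ (M F) (M G) (a F) (a G) (b1 F hF) (b1 G hG) (b2 F hF) (b2 G hG)
    have h2 : (∑ i, (M F i i - M G i i)) + (a F - a G) = T (F - G) := by
      rw [← lin, ← Msub, asub]; rfl
    rw [h2, Msub, asub] at h1
    refine h1.trans ?_
    have h3 : ‖M (F - G)‖ + ‖a (F - G)‖ ≤ Λ * ‖F - G‖ := by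
      rw [hΛ, add_mul]; exact add_le_add (Mn _) (an _)
    calc _ ≤ 1 / (4 * C₀ * Λ) * (Λ * ‖F - G‖) := mul_le_mul_of_nonneg_left h3 (by positivity)
      _ = 1 / (4 * C₀) * ‖F - G‖ := by field_simp
  let N : (T : Y n →L[ℝ] Y n).NonlinearRightInverse :=
    ⟨T.symm, ⟨2 * C₀, by positivity⟩, hTs, fun y => T.apply_symm_apply y⟩
  have hsurj := happ.surjOn_closedBall_of_nonlinearRightInverse N hR0.le Subset.rfl
  set p : Y n := Y.mk ψ hψe ⟨_, _, hψb, hψh⟩ with hp
  have hpn : ‖-p‖ < ρ := by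
    have := Y.norm_le p (by positivity) hψb hψh
    rw [norm_neg]; linarith
  have f0 : f 0 = 1 := by
    have e1 : Matrix.of (M 0) = 0 := by
      ext i j; simp [hM]
    have e2 : a 0 = 0 := by simp [ha]
    simp only [hf, e1, e2, add_zero, Matrix.det_one, NormedSpace.exp_zero, mul_one]
  have hmem : NormedSpace.exp (-p) ∈ Metric.closedBall (f 0) ((((N.nnnorm : NNReal) : ℝ)⁻¹ - c) * R) := by
    rw [f0, Metric.mem_closedBall, dist_eq_norm]
    refine (hexp _ hpn).le.trans (le_of_eq ?_)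
    change R / (4 * C₀) = ((2 * C₀)⁻¹ - 1 / (4 * C₀)) * R
    field_simp
    ring
  obtain ⟨F, hF, hFe⟩ := hsurj hmem
  rw [mem_closedBall_zero_iff] at hF
  refine ⟨F.val, F.even, F.ch, fun i j => ?_, fun x => ?_⟩
  · have h1 : ‖K i j F‖ ≤ δ := (hK i j F).trans ((mul_le_mul_of_nonneg_left hF hC0).trans hR2)
    rw [← hKv]
    exact ⟨(Y.bd _).mono h1, (Y.hol _).mono h1⟩
  · have h1 := congrArg (fun G : Y n => G.val x) hFe
    simp only [hf, Y.val_mul, Y.val_exp, Y.val_det, Y.val_neg] at h1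
    refine Eq.trans ?_ h1
    congr 2
    · ext i j
      simp only [Matrix.add_apply, Matrix.of_apply, Y.val_add, hM, ht, Y.val_sum, Y.val_mul, Y.val_mk, hKv,
        Matrix.mul_apply, hess, Matrix.one_apply]
      split_ifs <;> simp
    · simp only [ha, Y.val_sub, Y.val_sum, hKv, Matrix.trace, Matrix.diag, hess, Matrix.of_apply]

end

end Crest.Agent.R238.An
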