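import Crest.Agent.R238.AnG2
import Crest.Agent.R238.AnLin
import Crest.Agent.R238.AnCH

/-!
# R238/AnInt TASK: interpolation; `C^{1,1/2}` from difference quotients
-/

set_option autoImplicit false

namespace Crest.Agent.R238.An

open MeasureTheory Matrix Set Filter Topology
open scoped ContDiff

noncomputable section

variable {n : ℕ}

theorem anint_tele {F : E n → ℝ} {c : ℝ} (h : ∀ (i : Fin n) (t : ℝ) (z : E n), |F (z + t • ev i) - F z| ≤ c * |t|)
    (z v : E n) : |F (z + v) - F z| ≤ n * |c| * ‖v‖ := by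
  have key : ∀ s : Finset (Fin n), |F (z + ∑ i ∈ s, v i • ev i) - F z| ≤ s.card * |c| * ‖v‖ := by
    intro s
    induction s using Finset.induction_on with
    | empty => simp
    | insert i s hi ih =>
      rw [Finset.sum_insert hi, Finset.card_insert_of_notMem hi, add_comm (v i • ev i), ← add_assoc]
      have h1 := h i (v i) (z + ∑ i ∈ s, v i • ev i)
      have h2 : c * |v i| ≤ |c| * ‖v‖ := mul_le_mul (le_abs_self c) (abs_apply_le v i) (abs_nonneg _) (abs_nonneg _)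
      have h3 := abs_sub_le (F (z + ∑ i ∈ s, v i • ev i + v i • ev i)) (F (z + ∑ i ∈ s, v i • ev i)) (F z)
      push_cast
      linarith
  have := key Finset.univ
  rwa [← ancalc_sum, Finset.card_univ, Fintype.card_fin] at this

theorem anint_sqrt (k : ℕ) (h : E n) : √‖((1 / 2 : ℝ) ^ k) • h‖ ≤ (3 / 4) ^ k * √‖h‖ := by
  rw [norm_smul, Real.norm_of_nonneg (by positivity), Real.sqrt_mul (by positivity)]
  refine mul_le_mul_of_nonneg_right (Real.sqrt_le_iff.2 ⟨by positivity, ?_⟩) (Real.sqrt_nonneg _)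
  rw [← pow_mul, mul_comm, pow_mul]
  exact pow_le_pow_left₀ (by norm_num) (by norm_num) k

theorem anint_core {G : E n → ℝ} {L K : ℝ} (hK : 0 ≤ K) (h1 : ∀ x h, |G (x + h) - G x| ≤ L * ‖h‖)
    (h2 : ∀ x y h, |G (x + h) - G x - (G (y + h) - G y)| ≤ K * ‖h‖ * √‖x - y‖) (x : E n) :
    DifferentiableAt ℝ G x := by
  set u : ℕ → E n → ℝ := fun k h => 2 ^ k * (G (x + ((1 / 2 : ℝ) ^ k) • h) - G x) with hu
  have hn : ∀ (k : ℕ) (h : E n), 2 ^ k * ‖((1 / 2 : ℝ) ^ k) • h‖ = ‖h‖ := by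
    intro k h
    rw [norm_smul, Real.norm_of_nonneg (by positivity), ← mul_assoc, ← mul_pow]
    norm_num
  have hadd : ∀ (k : ℕ) (a b : E n), |u k (a + b) - (u k a + u k b)| ≤ K * ‖b‖ * √‖a‖ * (3 / 4) ^ k := by
    intro k a b
    have e : u k (a + b) - (u k a + u k b) = 2 ^ k * (G (x + ((1 / 2 : ℝ) ^ k) • a + ((1 / 2 : ℝ) ^ k) • b) -
        G (x + ((1 / 2 : ℝ) ^ k) • a) - (G (x + ((1 / 2 : ℝ) ^ k) • b) - G x)) := by
      simp only [hu, smul_add, add_assoc]
      ring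
    have h3 := h2 (x + ((1 / 2 : ℝ) ^ k) • a) x (((1 / 2 : ℝ) ^ k) • b)
    rw [add_sub_cancel_left] at h3
    rw [e, abs_mul, abs_of_pos (by positivity)]
    calc _ ≤ 2 ^ k * (K * ‖((1 / 2 : ℝ) ^ k) • b‖ * √‖((1 / 2 : ℝ) ^ k) • a‖) :=
          mul_le_mul_of_nonneg_left h3 (by positivity)
      _ = K * ‖b‖ * √‖((1 / 2 : ℝ) ^ k) • a‖ := by rw [← hn k b]; ring
      _ ≤ K * ‖b‖ * ((3 / 4) ^ k * √‖a‖) := mul_le_mul_of_nonneg_left (anint_sqrt k a) (by positivity)
      _ = _ := by ring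
  have hstep : ∀ (h : E n) (k : ℕ), dist (u k h) (u (k + 1) h) ≤ K * ‖h‖ * √‖h‖ * (3 / 4) ^ k := by
    intro h k
    have e1 : h = (1 / 2 : ℝ) • h + (1 / 2 : ℝ) • h := by module
    have e2 : u (k + 1) h = u k ((1 / 2 : ℝ) • h) + u k ((1 / 2 : ℝ) • h) := by
      simp only [hu, smul_smul, pow_succ]
      ring
    have h3 := hadd k ((1 / 2 : ℝ) • h) ((1 / 2 : ℝ) • h)
    rw [← e1, ← e2] at h3
    have h4 : ‖(1 / 2 : ℝ) • h‖ ≤ ‖h‖ := by
      rw [norm_smul, Real.norm_of_nonneg (by norm_num)]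
      linarith [norm_nonneg h]
    rw [Real.dist_eq]
    refine h3.trans ?_
    gcongr
  have hlim : ∀ h, ∃ a, Tendsto (fun k => u k h) atTop (𝓝 a) := fun h =>
    cauchySeq_tendsto_of_complete (cauchySeq_of_le_geometric (3 / 4) _ (by norm_num) (hstep h))
  choose φ hφ using hlim
  have hφadd : ∀ a b, φ (a + b) = φ a + φ b := by
    intro a b
    have t1 := ((hφ (a + b)).sub ((hφ a).add (hφ b))).abs
    have t2 : Tendsto (fun k : ℕ => K * ‖b‖ * √‖a‖ * (3 / 4 : ℝ) ^ k) atTop (𝓝 (K * ‖b‖ * √‖a‖ * 0)) :=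
      (tendsto_pow_atTop_nhds_zero_of_lt_one (by norm_num) (by norm_num)).const_mul _
    have := le_of_tendsto_of_tendsto' t1 t2 fun k => hadd k a b
    rw [mul_zero] at this
    exact sub_eq_zero.1 (abs_nonpos_iff.1 this)
  have hφbd : ∀ a, ‖AddMonoidHom.mk' φ hφadd a‖ ≤ L * ‖a‖ := by
    intro a
    refine le_of_tendsto' (hφ a).abs fun k => ?_
    simp only [hu]
    rw [abs_mul, abs_of_pos (by positivity), ← hn k a, mul_left_comm]
    exact mul_le_mul_of_nonneg_left (h1 _ _) (by positivity)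
  refine HasFDerivAt.differentiableAt (f' := (AddMonoidHom.mk' φ hφadd).toRealLinearMap
    (AddMonoidHomClass.continuous_of_bound _ L hφbd)) ?_
  rw [hasFDerivAt_iff_isLittleO_nhds_zero, Asymptotics.isLittleO_iff]
  intro c hc
  have t : Tendsto (fun h : E n => 4 * K * √‖h‖) (𝓝 0) (𝓝 0) := by
    have : Continuous fun h : E n => 4 * K * √‖h‖ := by fun_prop
    simpa using this.tendsto 0
  filter_upwards [t.eventually (gt_mem_nhds hc)] with h hh
  have h3 := dist_le_of_le_geometric_of_tendsto₀ (3 / 4) _ (by norm_num) (hstep h) (hφ h)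
  simp only [hu, pow_zero, one_smul, one_mul, Real.dist_eq] at h3
  refine le_trans h3 ?_
  have := mul_le_mul_of_nonneg_right hh.le (norm_nonneg h)
  calc K * ‖h‖ * √‖h‖ / (1 - 3 / 4) = 4 * K * √‖h‖ * ‖h‖ := by ring
    _ ≤ _ := this

/-- `pd j v (x + δ e_i) - pd j v x = δ * pd i (pd j v) ξ` (`hasDerivAt_ev`, mean value theorem), so
`|v_ij x| ≤ 2 M₁/δ + N √δ` -/
theorem interp (ε : ℝ) (hε : 0 < ε) : ∃ C, 0 ≤ C ∧ ∀ (v : E n → ℝ) (M₁ N : ℝ), ContDiff ℝ 2 v →
    (∀ i, Bd (pd i v) M₁) → 0 ≤ N → (∀ i j, Hol (pd i (pd j v)) N) →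
    ∀ i j, Bd (pd i (pd j v)) (ε * N + C * M₁) := by
  refine ⟨2 / ε ^ 2, by positivity, fun v M₁ N hv hM hN hH i j x => ?_⟩
  have hd := (c1_pd j hv).differentiable one_ne_zero
  have hδ : 0 < ε ^ 2 := by positivity
  obtain ⟨t, ht, e⟩ := exists_hasDerivAt_eq_slope (fun t : ℝ => pd j v (x + t • ev i))
    (fun t => pd i (pd j v) (x + t • ev i)) hδ
    (fun t _ => (hasDerivAt_ev hd x i t).continuousAt.continuousWithinAt) fun t _ => hasDerivAt_ev hd x i t
  have h1 : |pd i (pd j v) (x + t • ev i)| ≤ 2 / ε ^ 2 * M₁ := by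
    rw [e, sub_zero, abs_div, abs_of_pos hδ, div_mul_eq_mul_div]
    refine div_le_div_of_nonneg_right ((abs_sub _ _).trans ?_) hδ.le
    linarith [hM j (x + ε ^ 2 • ev i), hM j (x + (0 : ℝ) • ev i)]
  have h2 := hH i j x (x + t • ev i)
  have h3 : √‖x - (x + t • ev i)‖ ≤ ε := by
    rw [sub_add_cancel_left, norm_neg, norm_smul, norm_ev, mul_one, Real.norm_of_nonneg ht.1.le]
    exact Real.sqrt_le_iff.2 ⟨hε.le, ht.2.le⟩
  have h4 := mul_le_mul_of_nonneg_left h3 hN
  have h5 := abs_add_le (pd i (pd j v) x - pd i (pd j v) (x + t • ev i)) (pd i (pd j v) (x + t • ev i))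
  rw [sub_add_cancel] at h5
  linarith

/-- One proof: `q t x = (G (x + t e_i) - G x)/t`.  `q t x` is the average of `q (t/m) (x + k (t/m) e_i)`,
so `|q t x - q (t/m) x| ≤ K √|t|`; also `q (-t) x = q t (x - t e_i)`; with continuity in `t` this gives a
Cauchy family as `t → 0`, limit `D i x`, `|q t x - D i x| ≤ 3 K √|t|`, `Bd (D i) L`, `Hol (D i) K`.
Fréchet differentiability: telescoping over the coordinates,
`|G (x+h) - G x - ∑ h_i D i x| ≤ C ‖h‖ √‖h‖`.
Another proof: `G_s = conv gk G s` is smooth (`PS.conv`), inherits `h1`, `h2`;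
`|pd i G_s x - q t x| ≤ K√|t| + C K √s`, so `pd i G_s` is uniformly Cauchy;
`hasFDerivAt_of_tendstoUniformly`, `tendsto_conv`. -/
theorem mix {G : E n → ℝ} {L K : ℝ} (hG : PG G) (hK : 0 ≤ K)
    (h1 : ∀ (i : Fin n) (t : ℝ) (x : E n), |G (x + t • ev i) - G x| ≤ L * |t|)
    (h2 : ∀ (i : Fin n) (t : ℝ) (x y : E n),
      |G (x + t • ev i) - G x - (G (y + t • ev i) - G y)| ≤ K * |t| * √‖x - y‖) :
    Differentiable ℝ G ∧ ∀ i, Bd (pd i G) L ∧ Hol (pd i G) K := by
  have hd : Differentiable ℝ G := by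
    refine anint_core (L := n * |L|) (K := n * K) (by positivity) (anint_tele h1) fun x y h => ?_
    have := anint_tele (F := fun z => G z - G (z - (x - y))) (c := K * √‖x - y‖) (fun i t z => by
      have h3 := h2 i t z (z - (x - y))
      rw [sub_sub_cancel] at h3
      rw [← sub_add_eq_add_sub]
      refine le_of_eq_of_le (congrArg _ (by ring)) (h3.trans_eq (by ring))) x h
    rw [← sub_add_eq_add_sub, sub_sub_cancel, abs_of_nonneg (a := K * √‖x - y‖) (by positivity)] at this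
    exact le_of_eq_of_le (congrArg _ (by ring)) (this.trans_eq (by ring))
  have hD : ∀ i x, HasDerivAt (fun t : ℝ => G (x + t • ev i)) (pd i G x) 0 := fun i x => by
    simpa using hasDerivAt_ev hd x i 0
  refine ⟨hd, fun i => ⟨fun x => ?_, fun x y => ?_⟩⟩
  · have hL : 0 ≤ L := by simpa using (abs_nonneg _).trans (h1 i 1 x)
    exact (hD i x).le_of_lip' hL (Eventually.of_forall fun t => by simpa using h1 i t x)
  · refine ((hD i x).sub (hD i y)).le_of_lip' (by positivity) (Eventually.of_forall fun t => ?_)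
    simp only [Pi.sub_apply, zero_smul, add_zero, sub_zero, Real.norm_eq_abs]
    exact le_of_eq_of_le (congrArg _ (by ring)) ((h2 i t x y).trans_eq (by ring))

end

end Crest.Agent.R238.An
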