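import Crest.Agent.R238.KeyC

/-! # R238 / Key : the key inequality, final forms (owner helper48)

`K : KD ι A` (file `KeyB`), `K.ff s = L(L s + s)`, `K.ξ s a`, `K.κ s a d = ∑ e, τ a e * H s e d`, `K.H k i j = D i (D j k)`.
Also available: `K.stein`, `K.E_L`, `K.E_L_mul`, `K.L_symm`, `K.E_L_mul_L`, `K.E_L1_mul_L` (file `KeyB`). -/

set_option autoImplicit false

open Finset

namespace Crest.Agent.R238.Key

section Tr
variable {ι : Type} [Fintype ι] {A : Type} [CommRing A]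

theorem ip2_eq_trace (T S G : Matrix ι ι A) (hT : ∀ i j, T i j = T j i) (hG : ∀ i j, G i j = G j i) :
    ip2 (fun i j => T i j) (fun i j => T i j) (fun i j => S i j) (fun i j => G i j) =
      (T * S * T * G).trace := by
  simp only [ip2, Matrix.trace, Matrix.diag, Matrix.mul_apply, sum_mul]
  rw [sum4, sum4]
  refine Fintype.sum_equiv ⟨fun p => (p.2.2.1, p.2.2.2, p.2.1, p.1),
    fun p => (p.2.2.2, p.2.2.1, p.1, p.2.1), fun _ => rfl, fun _ => rfl⟩ _ _ ?_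
  rintro ⟨a, b, a', b'⟩
  simp only [Equiv.coe_fn_mk]
  rw [hT a a', hG a' b']; ring

theorem ip2_eq_trace' (H T S : Matrix ι ι A) (hH : ∀ i j, H i j = H j i) (hT : ∀ i j, T i j = T j i)
    (hS : ∀ i j, S i j = S j i) :
    ip2 (fun i j => H i j) (fun i j => T i j) (fun a d => ∑ e, T a e * S e d) (fun a d => ∑ e, T a e * S e d) =
      (H * T * S * T * S * T).trace := by
  simp only [ip2, Matrix.trace, Matrix.diag, Matrix.mul_apply, sum_mul, mul_sum]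
  rw [sum6, sum6]
  refine Fintype.sum_equiv
    ⟨fun p => (p.2.2.1, p.2.2.2.2.1, p.2.2.2.1, p.2.1, p.2.2.2.2.2, p.1),
    fun p => (p.2.2.2.2.2, p.2.2.2.1, p.1, p.2.2.1, p.2.1, p.2.2.2.2.1),
    fun _ => rfl, fun _ => rfl⟩ _ _ ?_
  rintro ⟨a, b, a', b', f, e⟩
  simp only [Equiv.coe_fn_mk]
  rw [hH a a', hT a' f, hS f b']; ring

end Tr

namespace KD
variable {ι A : Type} [Fintype ι] [DecidableEq ι] [CommRing A] [Algebra ℝ A] (K : KD ι A)

/-- points: evaluation homomorphisms, `E` is positive, `τ ≥ 0` -/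
structure Pts (P : Type) where
  ev : P → A →+* ℝ
  pos : ∀ F, (∀ p, 0 ≤ ev p F) → 0 ≤ K.E F
  psd : ∀ p (v : ι → ℝ), 0 ≤ ∑ i, ∑ j, v i * ev p (K.τ i j) * v j

variable {K} {P : Type}

theorem Pts.psd' (X : K.Pts P) (p : P) : PSD (fun i j => X.ev p (K.τ i j)) :=
  ⟨fun i j => congrArg (X.ev p) (K.τ_symm i j), X.psd p⟩

theorem Pts.mono (X : K.Pts P) {F G : A} (h : ∀ p, X.ev p F ≤ X.ev p G) : K.E F ≤ K.E G := by
  have := X.pos (G - F) fun p => by rw [map_sub]; linarith [h p]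
  rw [map_sub] at this; linarith

theorem Pts.E_ip2_nonneg (X : K.Pts P) (Y : ι → ι → A) : 0 ≤ K.E (ip2 K.τ K.τ Y Y) :=
  X.pos _ fun p => by rw [map_ip2]; exact ip2_nonneg (X.psd' p) (X.psd' p) _

theorem Pts.E_ip3_nonneg (X : K.Pts P) (Y : ι → ι → ι → A) : 0 ≤ K.E (ip3 K.τ Y Y) :=
  X.pos _ fun p => by rw [map_ip3]; exact ip3_nonneg (X.psd' p) _

theorem E_two_mul (F : A) : K.E (2 * F) = 2 * K.E F := by
  rw [two_mul, map_add, two_mul]

/-- KEY (3): `E f² ≥ E⟨Hξ,ξ⟩ + E tr(H τSτSτ)` -/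
theorem key (X : K.Pts P) (s : A) :
    K.E (∑ a, ∑ b, K.H K.φ a b * K.ξ s a * K.ξ s b) + K.E (ip2 (K.H K.φ) K.τ (K.κ s) (K.κ s)) ≤
      K.E (K.ff s * K.ff s) := by
  have h1 := X.E_ip2_nonneg (fun a b => K.Ω s a b - K.H s a b)
  rw [ip2_sub_left, ip2_sub_right, ip2_sub_right, ip2_comm K.τ_symm K.τ_symm (K.Ω s) (K.H s)] at h1
  simp only [map_sub] at h1
  have h2 := X.E_ip3_nonneg (fun a b c => K.N s a b c + K.N s c b a)
  rw [← K.stepD, E_two_mul, map_sub, E_two_mul] at h2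
  rw [K.stepA, K.stepC]
  have h3 := K.stepB s
  linarith

theorem E_ff_mul (s g : A) : K.E (K.ff s * g) = K.E (∑ a, K.ξ s a * K.D a g) := by
  rw [ff_eq, sum_mul, map_sum, map_sum]
  exact sum_congr rfl fun a _ => K.fx.E_δ_mul a _ _

theorem E_ff_mul' (s g : A) : K.E (K.ff s * g) = K.E (ip2 K.τ K.τ (K.H s) (K.H g)) := by
  unfold ff
  rw [L_symm, E_L1_mul_L]

theorem E_ff (s : A) : K.E (K.ff s) = 0 := K.E_L _

/-- Stein for a Hessian: `E tr(τ D²ψ) = E[x · Dψ]` -/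
theorem E_tr_τH (ψ : A) : K.E (∑ a, ∑ b, K.τ a b * K.H ψ a b) = K.E (∑ a, K.x a * K.D a ψ) := by
  have := K.E_L ψ
  unfold L at this
  rw [map_sub] at this
  unfold H
  linarith

/-- the two pointwise quantities that have to be bounded above -/
theorem key_split (X : K.Pts P) (s g1 g2 : A) :
    2 * K.E (K.ff s * (g1 + g2)) - K.E (K.ff s * K.ff s) ≤
      K.E (2 * ∑ a, K.ξ s a * K.D a g1 - ∑ a, ∑ b, K.H K.φ a b * K.ξ s a * K.ξ s b) +
      K.E (2 * ip2 K.τ K.τ (K.H s) (K.H g2) - ip2 (K.H K.φ) K.τ (K.κ s) (K.κ s)) := by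
  have := key X s
  rw [mul_add, map_add, E_ff_mul s g1, E_ff_mul' s g2, map_sub, map_sub, E_two_mul, E_two_mul]
  linarith

/-- pointwise bound of the first quantity -/
theorem pt1 (e : A →+* ℝ) (s g1 : A) {al : ℝ}
    (h : ∀ v : ι → ℝ, 2 * ∑ a, v a * e (K.D a g1) ≤ ∑ a, ∑ b, v a * e (K.H K.φ a b) * v b + al) :
    e (2 * ∑ a, K.ξ s a * K.D a g1 - ∑ a, ∑ b, K.H K.φ a b * K.ξ s a * K.ξ s b) ≤ al := by
  have h1 := h fun a => e (K.ξ s a)
  simp only [map_sub, map_mul, map_sum, map_ofNat]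
  have : ∑ a, ∑ b, e (K.H K.φ a b) * e (K.ξ s a) * e (K.ξ s b) =
      ∑ a, ∑ b, e (K.ξ s a) * e (K.H K.φ a b) * e (K.ξ s b) :=
    sum_congr rfl fun a _ => sum_congr rfl fun b _ => by ring
  linarith

/-- pointwise bound of the second quantity (`T = τ`, `Hm = D²φ`, `G = D²g2` at the point) -/
theorem pt2 (e : A →+* ℝ) (s g2 : A) {be : ℝ} (T Hm G : Matrix ι ι ℝ) (hT : ∀ i j, T i j = e (K.τ i j))
    (hH : ∀ i j, Hm i j = e (K.H K.φ i j)) (hG : ∀ i j, G i j = e (K.H g2 i j))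
    (h : ∀ S : Matrix ι ι ℝ, S.IsSymm →
      2 * (T * S * T * G).trace ≤ (Hm * T * S * T * S * T).trace + be) :
    e (2 * ip2 K.τ K.τ (K.H s) (K.H g2) - ip2 (K.H K.φ) K.τ (K.κ s) (K.κ s)) ≤ be := by
  have sT : ∀ i j, T i j = T j i := fun i j => by rw [hT, hT, K.τ_symm]
  have sH : ∀ i j, Hm i j = Hm j i := fun i j => by rw [hH, hH, K.H_symm]
  have sG : ∀ i j, G i j = G j i := fun i j => by rw [hG, hG, K.H_symm]
  have sS : ∀ i j, (Matrix.of fun i j => e (K.H s i j)) i j = (Matrix.of fun i j => e (K.H s i j)) j i :=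
    fun i j => by simp only [Matrix.of_apply]; rw [K.H_symm]
  have h1 := h (Matrix.of fun i j => e (K.H s i j)) (Matrix.IsSymm.ext fun i j => sS j i)
  rw [← ip2_eq_trace _ _ _ sT sG, ← ip2_eq_trace' _ _ _ sH sT sS] at h1
  rw [map_sub, map_mul, map_ip2, map_ip2, map_ofNat]
  simp only [κ_eq, map_sum, map_mul]
  simp only [hT, hH, hG, Matrix.of_apply] at h1
  linarith

/-- KEY, general form -/
theorem key_gen (X : K.Pts P) (s g1 g2 al be : A)
    (h1 : ∀ p (v : ι → ℝ), 2 * ∑ a, v a * X.ev p (K.D a g1) ≤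
      ∑ a, ∑ b, v a * X.ev p (K.H K.φ a b) * v b + X.ev p al)
    (h2 : ∀ p (S : Matrix ι ι ℝ), S.IsSymm →
      2 * ((Matrix.of fun i j => X.ev p (K.τ i j)) * S * (Matrix.of fun i j => X.ev p (K.τ i j)) *
        (Matrix.of fun i j => X.ev p (K.H g2 i j))).trace ≤
      ((Matrix.of fun i j => X.ev p (K.H K.φ i j)) * (Matrix.of fun i j => X.ev p (K.τ i j)) * S *
        (Matrix.of fun i j => X.ev p (K.τ i j)) * S * (Matrix.of fun i j => X.ev p (K.τ i j))).trace +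
        X.ev p be) :
    2 * K.E (K.ff s * (g1 + g2)) - K.E (K.ff s * K.ff s) ≤ K.E al + K.E be :=
  (key_split X s g1 g2).trans (add_le_add (X.mono fun p => pt1 _ s g1 (h1 p))
    (X.mono fun p => pt2 _ s g2 _ _ _ (fun _ _ => rfl) (fun _ _ => rfl) (fun _ _ => rfl) (h2 p)))

theorem one_piece (X : K.Pts P) (s ψ : A) (z : ℝ)
    (hψ : ∀ p (v : ι → ℝ), 0 ≤ ∑ a, ∑ b, v a * X.ev p (K.H ψ a b) * v b) :
    2 * z * K.E (K.ff s * ∑ a, K.x a * K.D a ψ) ≤
      K.E (∑ a, ∑ b, K.H ψ a b * K.ξ s a * K.ξ s b) + K.E (ip2 (K.H ψ) K.τ (K.κ s) (K.κ s)) +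
        z ^ 2 * K.E (∑ a, K.x a * K.D a ψ + ∑ a, ∑ b, K.x a * K.H ψ a b * K.x b) := by
  set c : A := algebraMap ℝ A z with hc
  have Ec : ∀ F, K.E (c * F) = z * K.E F := fun F => by
    rw [hc, ← Algebra.smul_def, map_smul, smul_eq_mul]
  have hP : ∀ p, PSD (fun i j => X.ev p (K.H ψ i j)) := fun p =>
    ⟨fun i j => congrArg (X.ev p) (K.H_symm ψ i j), hψ p⟩
  have e0 : K.E (K.ff s * ∑ a, K.x a * K.D a ψ) =
      K.E (∑ a, ∑ b, K.ξ s a * K.H ψ a b * K.x b) + K.E (ip2 K.τ K.τ (K.H s) (K.H ψ)) := by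
    rw [← E_ff_mul', E_ff_mul, E_ff_mul, ← map_add, ← sum_add_distrib]
    congr 1
    refine sum_congr rfl fun a _ => ?_
    rw [map_sum]
    simp only [K.leib, K.Dx, sum_add_distrib, ite_mul, one_mul, zero_mul, sum_ite_eq, mem_univ, if_true,
      mul_add, mul_sum, H]
    rw [add_comm]
    congr 1
    exact sum_congr rfl fun b _ => by ring
  have i1 : 0 ≤ K.E (∑ a, ∑ b, (K.ξ s a - c * K.x a) * K.H ψ a b * (K.ξ s b - c * K.x b)) :=
    X.pos _ fun p => by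
      simp only [map_sum, map_mul]
      exact hψ p _
  have e1 : ∑ a, ∑ b, (K.ξ s a - c * K.x a) * K.H ψ a b * (K.ξ s b - c * K.x b) =
      ∑ a, ∑ b, K.H ψ a b * K.ξ s a * K.ξ s b - c * (∑ a, ∑ b, K.ξ s a * K.H ψ a b * K.x b) -
        c * (∑ a, ∑ b, K.ξ s a * K.H ψ a b * K.x b) + c * (c * ∑ a, ∑ b, K.x a * K.H ψ a b * K.x b) := by
    have : ∑ a, ∑ b, K.ξ s a * K.H ψ a b * K.x b = ∑ a, ∑ b, K.x a * K.H ψ a b * K.ξ s b := by
      rw [sum_comm]
      exact sum_congr rfl fun a _ => sum_congr rfl fun b _ => by rw [K.H_symm ψ b a]; ring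
    nth_rewrite 2 [this]
    simp only [mul_sum, ← sum_sub_distrib, ← sum_add_distrib]
    exact sum_congr rfl fun a _ => sum_congr rfl fun b _ => by ring
  rw [e1, map_add, map_sub, map_sub, Ec, Ec, Ec] at i1
  have i2 : 0 ≤ K.E (ip2 (K.H ψ) K.τ (fun a b => K.κ s a b - if a = b then c else 0)
      (fun a b => K.κ s a b - if a = b then c else 0)) :=
    X.pos _ fun p => by rw [map_ip2]; exact ip2_nonneg (hP p) (X.psd' p) _
  have e2 : ip2 (K.H ψ) K.τ (K.κ s) (fun a b => if a = b then c else 0) =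
      c * ip2 K.τ K.τ (K.H s) (K.H ψ) := by
    simp only [ip2, mul_ite, mul_zero, sum_ite_eq, mem_univ, if_true, κ_eq, mul_sum, sum_mul]
    rw [sum4, sum4]
    refine Fintype.sum_equiv ⟨fun p => (p.2.2.2, p.2.1, p.1, p.2.2.1),
      fun p => (p.2.2.1, p.2.1, p.2.2.2, p.1), fun _ => rfl, fun _ => rfl⟩ _ _ ?_
    rintro ⟨a, b, a', e⟩
    simp only [Equiv.coe_fn_mk]
    rw [K.τ_symm e a]; ring
  have e3 : ip2 (K.H ψ) K.τ (fun a b => if a = b then c else 0) (fun a b => if a = b then c else 0) =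
      c * (c * ∑ a, ∑ b, K.τ a b * K.H ψ a b) := by
    simp only [ip2, mul_ite, ite_mul, mul_zero, zero_mul, sum_ite_eq, mem_univ, if_true, mul_sum,
      sum_ite_irrel, sum_const_zero]
    exact sum_congr rfl fun a _ => sum_congr rfl fun b _ => by ring
  rw [ip2_sub_left, ip2_sub_right, ip2_sub_right,
    ip2_comm (K.H_symm ψ) K.τ_symm (fun a b => if a = b then c else 0) (K.κ s), e2, e3] at i2
  simp only [map_sub, Ec, E_tr_τH] at i2
  rw [e0, map_add]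
  nlinarith

/-- KEY (4): `φ = ∑ ψ_j` (Hessians), each `ψ_j` convex, `g = ∑ z_j x·Dψ_j`. -/
theorem key4 (X : K.Pts P) {J : Type} [Fintype J] (ψ : J → A) (z : J → ℝ)
    (hsum : ∀ a b, K.H K.φ a b = ∑ j, K.H (ψ j) a b)
    (hψ : ∀ j p (v : ι → ℝ), 0 ≤ ∑ a, ∑ b, v a * X.ev p (K.H (ψ j) a b) * v b) (s : A) :
    2 * K.E (K.ff s * ∑ j, z j • ∑ a, K.x a * K.D a (ψ j)) - K.E (K.ff s * K.ff s) ≤
      ∑ j, z j ^ 2 * K.E (∑ a, K.x a * K.D a (ψ j) + ∑ a, ∑ b, K.x a * K.H (ψ j) a b * K.x b) := by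
  have h := key X s
  have h1 := sum_le_sum fun j (_ : j ∈ univ) => one_piece X s (ψ j) (z j) (hψ j)
  have e1 : ∑ a, ∑ b, K.H K.φ a b * K.ξ s a * K.ξ s b =
      ∑ j, ∑ a, ∑ b, K.H (ψ j) a b * K.ξ s a * K.ξ s b := by
    simp only [hsum, sum_mul]
    rw [sum_comm (s := (univ : Finset J))]
    refine sum_congr rfl fun a _ => ?_
    rw [sum_comm (s := (univ : Finset J))]
  have e2 : ip2 (K.H K.φ) K.τ (K.κ s) (K.κ s) = ∑ j, ip2 (K.H (ψ j)) K.τ (K.κ s) (K.κ s) := by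
    simp only [ip2, hsum, sum_mul]
    rw [sum_comm (s := (univ : Finset J))]
    refine sum_congr rfl fun a _ => ?_
    rw [sum_comm (s := (univ : Finset J))]
    refine sum_congr rfl fun a _ => ?_
    rw [sum_comm (s := (univ : Finset J))]
    refine sum_congr rfl fun a _ => ?_
    rw [sum_comm (s := (univ : Finset J))]
  have e3 : 2 * K.E (K.ff s * ∑ j, z j • ∑ a, K.x a * K.D a (ψ j)) =
      ∑ j, 2 * z j * K.E (K.ff s * ∑ a, K.x a * K.D a (ψ j)) := by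
    rw [mul_sum, map_sum, mul_sum]
    refine sum_congr rfl fun j _ => ?_
    rw [mul_smul_comm, map_smul, smul_eq_mul]; ring
  rw [e1, e2, map_sum, map_sum] at h
  rw [sum_add_distrib, sum_add_distrib] at h1
  rw [e3]
  linarith

end KD

end Crest.Agent.R238.Key
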