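import Crest.Agent.R238.AnInv
import Crest.Agent.R238.AnG1
import Crest.Agent.R238.Key

/-!
# R238/AnKD: instantiation of the abstract KEY structure with the algebra of `PS` functions (helper48)
-/

set_option autoImplicit false

namespace Crest.Agent.R238.An

open MeasureTheory Matrix Set Filter Topology
open scoped ContDiff

noncomputable section

variable {n : ℕ}

/-- the algebra of smooth functions all of whose derivatives have polynomial growth -/
def PSA (n : ℕ) : Subalgebra ℝ (E n → ℝ) where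
  carrier := {f | PS f}
  mul_mem' := fun hf hg => PS.mul hf hg
  add_mem' := fun hf hg => PS.add hf hg
  algebraMap_mem' := fun c => PS.const c

theorem PSA.ps (f : PSA n) : PS (f : E n → ℝ) := f.2

theorem PSA.diff (f : PSA n) : Differentiable ℝ (f : E n → ℝ) := ancls_diff (PSA.ps f).smooth

theorem PSA.c2 (f : PSA n) : ContDiff ℝ 2 (f : E n → ℝ) := contDiff_infty.mp (PSA.ps f).smooth 2

/-- partial derivative on the algebra -/
def DA (i : Fin n) : PSA n →ₗ[ℝ] PSA n where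
  toFun f := ⟨pd i f, (PSA.ps f).pd i⟩
  map_add' f g := Subtype.ext (pd_add i (PSA.diff f) (PSA.diff g))
  map_smul' c f := Subtype.ext (pd_const_mul i c f)

@[simp] theorem DA_coe (i : Fin n) (f : PSA n) : (DA i f : E n → ℝ) = pd i f := rfl

/-- evaluation at a point -/
def evA (x : E n) : PSA n →+* ℝ := (Pi.evalRingHom (fun _ => ℝ) x).comp (PSA n).val.toRingHom

@[simp] theorem evA_apply (x : E n) (f : PSA n) : evA x f = (f : E n → ℝ) x := rfl

theorem evA_mk (x : E n) (f : E n → ℝ) (hf : f ∈ PSA n) : evA x ⟨f, hf⟩ = f x := rfl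

/-- moment-measure data -/
structure MD (φ u : E n → ℝ) : Prop where
  pφ : PS φ
  pu : PS u
  int : ∀ F, PG F → Integrable (fun x => F x * Real.exp (-φ x))
  pτ : ∀ i j, PS fun x => (hess u x)⁻¹ i j
  pos : ∀ x, (hess u x).PosDef
  ma : ∃ c, ∀ x, Real.log (hess u x).det = eul u x - u x - φ x + c

namespace MD
variable {φ u : E n → ℝ} (h : MD φ u)
include h

theorem pd_exp (i : Fin n) : pd i (fun x => Real.exp (-φ x)) = fun x => -pd i φ x * Real.exp (-φ x) := by
  funext x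
  have := pd_comp (f := φ) (x := x) (σ := fun t => Real.exp (-t)) i (ancls_diff h.pφ.smooth x)
    ((hasDerivAt_neg (φ x)).exp)
  rw [this]; ring

/-- integration by parts against `e^{-φ}` -/
theorem ibp {F : E n → ℝ} (hF : Differentiable ℝ F) (h0 : PG F) (i : Fin n) (h1 : PG (pd i F)) :
    ∫ x, pd i F x * Real.exp (-φ x) = ∫ x, pd i φ x * F x * Real.exp (-φ x) := by
  have hd : Differentiable ℝ fun x => Real.exp (-φ x) := (ancls_diff h.pφ.smooth).neg.exp
  have e : ∀ x, fderiv ℝ (fun x => Real.exp (-φ x)) x (ev i) = -pd i φ x * Real.exp (-φ x) :=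
    fun x => congrFun (h.pd_exp i) x
  have i2 : Integrable fun x => F x * fderiv ℝ (fun x => Real.exp (-φ x)) x (ev i) := by
    simp only [e, ← mul_assoc]
    exact h.int _ (h0.mul (h.pφ.pd i).to_pg.neg)
  have := integral_mul_fderiv_eq_neg_fderiv_mul_of_integrable (μ := volume) (f := F)
    (g := fun x => Real.exp (-φ x)) (v := ev i) (h.int _ h1) i2 (h.int _ h0) (fun x _ => hF x)
    (fun x _ => hd x)
  simp only [e] at this
  simp only [pd] at this ⊢
  rw [← neg_eq_iff_eq_neg.mpr this, ← integral_neg]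
  congr 1; funext x; ring

/-- the expectation -/
def EA : PSA n →ₗ[ℝ] ℝ where
  toFun f := ∫ x, (f : E n → ℝ) x * Real.exp (-φ x)
  map_add' f g := by
    rw [← integral_add (h.int _ (PSA.ps f).to_pg) (h.int _ (PSA.ps g).to_pg)]
    congr 1; funext x
    simp only [Subalgebra.coe_add, Pi.add_apply]; ring
  map_smul' c f := by
    simp only [RingHom.id_apply, smul_eq_mul]
    rw [← integral_const_mul]
    congr 1; funext x
    simp only [Subalgebra.coe_smul, Pi.smul_apply, smul_eq_mul]; ring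

theorem det_ne (x : E n) : (hess u x).det ≠ 0 := (h.pos x).det_pos.ne'

theorem τ_symm (x : E n) (i j : Fin n) : (hess u x)⁻¹ i j = (hess u x)⁻¹ j i := by
  have := (h.pos x).inv.isHermitian.apply j i
  simpa using this

theorem ma' (k : Fin n) (x : E n) : ∑ i, ∑ j, (hess u x)⁻¹ i j * pd i (pd j (pd k u)) x =
    ∑ i, x i * pd i (pd k u) x - pd k φ x := by
  obtain ⟨c, hc⟩ := h.ma
  have su := h.pu.smooth
  have c2 : ∀ {f : E n → ℝ}, ContDiff ℝ ∞ f → ContDiff ℝ 2 f := fun hf => contDiff_infty.mp hf 2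
  have h1 := pd_logdet (g := hess u)
    (fun i j => contDiff_infty.mp (smooth_pd i (smooth_pd j su)) 1) h.det_ne k x
  have h2 : (fun x => Real.log (hess u x).det) = fun x => (eul u x - u x - φ x) + c := funext hc
  rw [h2, pd_add_const, pd_sub (f := fun x => eul u x - u x) k
      ((ancls_diff (smooth_eul su)).sub (ancls_diff su)) (ancls_diff h.pφ.smooth),
    pd_sub k (ancls_diff (smooth_eul su)) (ancls_diff su), pd_eul (c2 su)] at h1
  simp only [eul_eq_sum] at h1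
  have h3 : ∀ i j, pd k (fun x => hess u x j i) = pd i (pd j (pd k u)) := by
    intro i j
    change pd k (pd j (pd i u)) = _
    rw [pd_comm (c2 (smooth_pd i su)) k j, pd_comm (c2 su) k i, pd_comm (c2 (smooth_pd k su)) j i]
  simp only [h3] at h1
  linarith

/-- the KEY structure -/
def kd : Key.KD (Fin n) (PSA n) where
  D := DA
  leib i f g := Subtype.ext (pd_mul i (PSA.diff f) (PSA.diff g))
  comm i j f := Subtype.ext (pd_comm (PSA.c2 f) i j)
  E := h.EA
  φ := ⟨φ, h.pφ⟩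
  ibp i F := h.ibp (PSA.diff F) (PSA.ps F).to_pg i ((PSA.ps F).pd i).to_pg
  x i := ⟨fun x => x i, PS.coord i⟩
  Dx i j := by
    apply Subtype.ext
    change pd i (fun x : E n => x j) = _
    rw [pd_coord]
    funext x
    by_cases hij : i = j <;> simp [hij, Matrix.one_apply]
  u := ⟨u, h.pu⟩
  τ i j := ⟨fun x => (hess u x)⁻¹ i j, h.pτ i j⟩
  τ_symm i j := Subtype.ext (funext fun x => h.τ_symm x i j)
  τ_inv i j := by
    apply Subtype.ext
    funext x
    have := congrFun (congrFun (Matrix.nonsing_inv_mul (hess u x) (Ne.isUnit (h.det_ne x))) i) j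
    rw [Matrix.mul_apply] at this
    rw [← evA_apply, map_sum]
    refine this.trans ?_
    by_cases hij : i = j <;> simp [hij, Matrix.one_apply]
  ma k := by
    apply Subtype.ext
    funext x
    rw [← evA_apply, ← evA_apply]
    simp only [map_sum, map_sub, map_mul]
    exact h.ma' k x

/-- the points -/
def pts : h.kd.Pts (E n) where
  ev := evA
  pos _ hF := integral_nonneg fun x => mul_nonneg (hF x) (Real.exp_pos _).le
  psd x v := (Key.psd_of_posSemidef (h.pos x).inv.posSemidef).2 v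

theorem E_eq (f : PSA n) : h.kd.E f = ∫ x, evA x f * Real.exp (-φ x) := rfl

theorem ev_D (x : E n) (i : Fin n) (f : PSA n) : evA x (h.kd.D i f) = pd i f x := rfl
theorem coe_D (i : Fin n) (f : PSA n) : (h.kd.D i f : E n → ℝ) = pd i f := rfl
theorem ev_H (x : E n) (i j : Fin n) (f : PSA n) : evA x (h.kd.H f i j) = pd i (pd j f) x := rfl
theorem ev_τ (x : E n) (i j : Fin n) : evA x (h.kd.τ i j) = (hess u x)⁻¹ i j := rfl
theorem ev_x (x : E n) (i : Fin n) : evA x (h.kd.x i) = x i := rfl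
theorem coe_φ : (h.kd.φ : E n → ℝ) = φ := rfl

theorem ev_L (x : E n) (f : PSA n) : evA x (h.kd.L f) = Lop (fun y => (hess u y)⁻¹) f x := by
  simp only [Key.KD.L, map_sub, map_sum, map_mul, Lop, eul_eq_sum]
  rfl

theorem coe_L (f : PSA n) : (h.kd.L f : E n → ℝ) = Lop (fun y => (hess u y)⁻¹) f :=
  funext fun x => h.ev_L x f

theorem ps_L {k : E n → ℝ} (hk : PS k) : PS (Lop (fun y => (hess u y)⁻¹) k) := by
  have := PSA.ps (h.kd.L ⟨k, hk⟩)
  rwa [coe_L] at this

theorem ev_ff (x : E n) (s : PSA n) : evA x (h.kd.ff s) =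
    Lop (fun y => (hess u y)⁻¹) (fun y => Lop (fun y => (hess u y)⁻¹) s y + (s : E n → ℝ) y) x := by
  unfold Key.KD.ff
  rw [ev_L]
  congr 1
  funext y
  rw [← h.ev_L]
  rfl

theorem ev_ip2 (x : E n) (f g : PSA n) : evA x (Key.ip2 h.kd.τ h.kd.τ (h.kd.H f) (h.kd.H g)) =
    ((hess u x)⁻¹ * hess f x * ((hess u x)⁻¹ * hess g x)).trace := by
  rw [Key.map_ip2, ← Matrix.mul_assoc]
  exact Key.ip2_eq_trace (hess u x)⁻¹ (hess f x) (hess g x) (h.τ_symm x)
    (fun i j => congrFun (pd_comm (PSA.c2 g) i j) x)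

/-- `E (L k) = 0` -/
theorem int_L {k : E n → ℝ} (hk : PS k) :
    ∫ x, Lop (fun y => (hess u y)⁻¹) k x * Real.exp (-φ x) = 0 := by
  have := h.kd.E_L ⟨k, hk⟩
  simp only [E_eq] at this
  simpa only [ev_L] using this

/-- Dirichlet form -/
theorem dirichlet {k g : E n → ℝ} (hk : PS k) (hg : PS g) :
    ∫ x, Lop (fun y => (hess u y)⁻¹) k x * g x * Real.exp (-φ x) =
      -∫ x, (∑ i, ∑ j, (hess u x)⁻¹ i j * pd i k x * pd j g x) * Real.exp (-φ x) := by
  have := h.kd.E_L_mul ⟨k, hk⟩ ⟨g, hg⟩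
  simp only [E_eq] at this
  simpa only [map_mul, map_sum, ev_L, ev_D, ev_τ, evA_mk] using this

theorem L_symm {k g : E n → ℝ} (hk : PS k) (hg : PS g) :
    ∫ x, Lop (fun y => (hess u y)⁻¹) k x * g x * Real.exp (-φ x) =
      ∫ x, k x * Lop (fun y => (hess u y)⁻¹) g x * Real.exp (-φ x) := by
  have := h.kd.L_symm ⟨k, hk⟩ ⟨g, hg⟩
  simp only [E_eq] at this
  simpa only [map_mul, ev_L, evA_mk] using this

/-- Bochner formula -/
theorem bochner {k g : E n → ℝ} (hk : PS k) (hg : PS g) :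
    ∫ x, Lop (fun y => (hess u y)⁻¹) k x * Lop (fun y => (hess u y)⁻¹) g x * Real.exp (-φ x) =
      (∫ x, ((hess u x)⁻¹ * hess k x * ((hess u x)⁻¹ * hess g x)).trace * Real.exp (-φ x)) +
      ∫ x, (∑ i, ∑ j, (hess u x)⁻¹ i j * pd i k x * pd j g x) * Real.exp (-φ x) := by
  have := h.kd.E_L_mul_L ⟨k, hk⟩ ⟨g, hg⟩
  simp only [E_eq] at this
  simpa only [map_mul, map_sum, ev_L, ev_D, ev_τ, ev_ip2] using this

/-- Stein identity -/
theorem stein {F : E n → ℝ} (hF : PS F) (d : Fin n) :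
    ∫ x, (∑ e, (hess u x)⁻¹ d e * pd e F x) * Real.exp (-φ x) = ∫ x, x d * F x * Real.exp (-φ x) := by
  have := h.kd.stein d ⟨F, hF⟩
  simp only [E_eq] at this
  simpa only [Key.KD.a_apply, map_mul, map_sum, ev_D, ev_τ, ev_x, evA_mk] using this

/-- Stein identity for a Hessian -/
theorem stein_hess {ψ : E n → ℝ} (hψ : PS ψ) :
    ∫ x, (∑ a, ∑ b, (hess u x)⁻¹ a b * pd a (pd b ψ) x) * Real.exp (-φ x) =
      ∫ x, eul ψ x * Real.exp (-φ x) := by
  have := Key.KD.E_tr_τH (K := h.kd) ⟨ψ, hψ⟩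
  simp only [E_eq] at this
  simpa only [map_mul, map_sum, ev_D, ev_τ, ev_x, ev_H, eul_eq_sum] using this

/-- KEY, general form, `al`, `be` arbitrary integrable functions -/
theorem key_gen {s g1 g2 al be : E n → ℝ} (hs : PS s) (h1 : PS g1) (h2 : PS g2)
    (ial : Integrable fun x => al x * Real.exp (-φ x)) (ibe : Integrable fun x => be x * Real.exp (-φ x))
    (hal : ∀ x (v : Fin n → ℝ), 2 * ∑ a, v a * pd a g1 x ≤ ∑ a, ∑ b, v a * pd a (pd b φ) x * v b + al x)
    (hbe : ∀ x (S : Mat n), S.IsSymm → 2 * ((hess u x)⁻¹ * S * (hess u x)⁻¹ * hess g2 x).trace ≤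
      (hess φ x * (hess u x)⁻¹ * S * (hess u x)⁻¹ * S * (hess u x)⁻¹).trace + be x) :
    2 * (∫ x, Lop (fun y => (hess u y)⁻¹) (fun y => Lop (fun y => (hess u y)⁻¹) s y + s y) x *
        (g1 x + g2 x) * Real.exp (-φ x)) -
      ∫ x, Lop (fun y => (hess u y)⁻¹) (fun y => Lop (fun y => (hess u y)⁻¹) s y + s y) x ^ 2 *
        Real.exp (-φ x) ≤ (∫ x, al x * Real.exp (-φ x)) + ∫ x, be x * Real.exp (-φ x) := by
  have hk := Key.KD.key_split h.pts ⟨s, hs⟩ ⟨g1, h1⟩ ⟨g2, h2⟩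
  have e1 : ∀ (F : PSA n) (a : E n → ℝ), (Integrable fun x => a x * Real.exp (-φ x)) →
      (∀ x, evA x F ≤ a x) → h.kd.E F ≤ ∫ x, a x * Real.exp (-φ x) := fun F a ia hle =>
    integral_mono (h.int _ (PSA.ps F).to_pg) ia fun x =>
      mul_le_mul_of_nonneg_right (hle x) (Real.exp_pos _).le
  refine le_trans (le_of_eq ?_) (hk.trans (add_le_add
    (e1 _ al ial fun x => Key.KD.pt1 (K := h.kd) (evA x) _ _ (hal x))
    (e1 _ be ibe fun x => Key.KD.pt2 (K := h.kd) (evA x) _ _ (hess u x)⁻¹ (hess φ x) (hess g2 x)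
      (fun _ _ => rfl) (fun _ _ => rfl) (fun _ _ => rfl) (hbe x))))
  simp only [E_eq]
  simp only [map_mul, map_add, ev_ff, evA_mk, sq]

/-- KEY (4) -/
theorem key4 {J : Type} [Fintype J] {ψ : J → E n → ℝ} (hψ : ∀ j, PS (ψ j)) (z : J → ℝ)
    (hsum : ∀ a b x, pd a (pd b φ) x = ∑ j, pd a (pd b (ψ j)) x)
    (hc : ∀ j x (v : Fin n → ℝ), 0 ≤ ∑ a, ∑ b, v a * pd a (pd b (ψ j)) x * v b) {s : E n → ℝ} (hs : PS s) :
    2 * (∫ x, Lop (fun y => (hess u y)⁻¹) (fun y => Lop (fun y => (hess u y)⁻¹) s y + s y) x *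
        (∑ j, z j * eul (ψ j) x) * Real.exp (-φ x)) -
      ∫ x, Lop (fun y => (hess u y)⁻¹) (fun y => Lop (fun y => (hess u y)⁻¹) s y + s y) x ^ 2 *
        Real.exp (-φ x) ≤ ∑ j, z j ^ 2 *
      ∫ x, (eul (ψ j) x + ∑ a, ∑ b, x a * pd a (pd b (ψ j)) x * x b) * Real.exp (-φ x) := by
  have hk := Key.KD.key4 h.pts (fun j => ⟨ψ j, hψ j⟩) z
    (fun a b => Subtype.ext (funext fun x => by
      rw [← evA_apply, ← evA_apply, map_sum]; exact hsum a b x)) hc ⟨s, hs⟩
  have es : ∀ x (c : ℝ) (F : PSA n), evA x (c • F) = c * evA x F := fun _ _ _ => rfl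
  simp only [E_eq] at hk
  simpa only [map_mul, map_add, map_sum, es, ev_ff, ev_x, ev_D, ev_H, sq, eul_eq_sum] using hk

end MD

theorem ps_q : PS (fun x : E n => ‖x‖ ^ 2 / 2) := by
  have : (fun x : E n => ‖x‖ ^ 2 / 2) = fun x => (1 / 2) * ∑ i, x i * x i := by
    funext x
    rw [norm_sq_eq_dot]; simp only [dotProduct]; ring
  rw [this]
  exact (PS.const _).mul (PS.sum _ fun i _ => (PS.coord i).mul (PS.coord i))

theorem pd_q (i : Fin n) : pd i (fun x : E n => ‖x‖ ^ 2 / 2) = fun x => x i := by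
  have : (fun x : E n => ‖x‖ ^ 2 / 2) = fun x => (1 / 2) * ‖x‖ ^ 2 := by funext x; ring
  rw [this, pd_const_mul, pd_normSq]
  funext x; ring

theorem pd_q_add {f : E n → ℝ} (hf : ContDiff ℝ ∞ f) (i : Fin n) :
    pd i (fun x : E n => ‖x‖ ^ 2 / 2 + f x) = fun x => x i + pd i f x := by
  rw [pd_add i (ancls_diff ps_q.smooth) (ancls_diff hf), pd_q]

theorem hess_q_add {f : E n → ℝ} (hf : ContDiff ℝ ∞ f) (x : E n) :
    hess (fun x : E n => ‖x‖ ^ 2 / 2 + f x) x = gm f x := by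
  ext i j
  simp only [hess, gm, Matrix.of_apply, Matrix.add_apply]
  rw [pd_q_add hf, pd_add i (ancls_diff (PS.coord j).smooth) (ancls_diff (smooth_pd j hf)), pd_coord]

theorem eul_q_add {f : E n → ℝ} (hf : ContDiff ℝ ∞ f) (x : E n) :
    eul (fun x : E n => ‖x‖ ^ 2 / 2 + f x) x = ‖x‖ ^ 2 + eul f x := by
  simp only [eul_eq_sum, pd_q_add hf, mul_add, Finset.sum_add_distrib]
  simp only [norm_sq_eq_dot, dotProduct]

theorem integrable_dens {φ₀ F : E n → ℝ} (hc : Continuous φ₀) {B : ℝ} (hB : Bd φ₀ B) (hF : PG F) :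
    Integrable fun x => F x * dens φ₀ x := by
  obtain ⟨C, N, hC⟩ := hF.bd
  have hC0 := ancls_nonneg hC
  refine ((integrable_poly_gauss (n := n) N (b := 1 / 2) (by norm_num)).const_mul (C * Real.exp B)).mono'
    (hF.cont.mul (by unfold dens; fun_prop)).aestronglyMeasurable (Eventually.of_forall fun x => ?_)
  have h1 : dens φ₀ x ≤ Real.exp B * Real.exp (-(1 / 2) * ‖x‖ ^ 2) := by
    rw [← Real.exp_add]
    apply Real.exp_le_exp.mpr
    have := (abs_le.mp (hB x)).1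
    linarith
  have h2 : 0 < dens φ₀ x := Real.exp_pos _
  rw [Real.norm_eq_abs, abs_mul, abs_of_pos h2]
  calc |F x| * dens φ₀ x ≤ (C * (1 + ‖x‖) ^ N) * (Real.exp B * Real.exp (-(1 / 2) * ‖x‖ ^ 2)) :=
        mul_le_mul (hC x) h1 h2.le (by positivity)
    _ = _ := by ring

theorem Sol.md {φ₀ h : E n → ℝ} (hs : Sol φ₀ h) (hφ : Cb φ₀) :
    MD (fun x => ‖x‖ ^ 2 / 2 + φ₀ x) (fun x => ‖x‖ ^ 2 / 2 + h x) where
  pφ := ps_q.add hφ.ps
  pu := ps_q.add hs.g2.ps
  int F hF := by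
    obtain ⟨B, hB⟩ := hφ.bd0
    exact integrable_dens hφ.smooth.continuous hB hF
  pτ i j := by
    simp only [hess_q_add hs.g2.smooth]
    exact (hs.cb_tau i j).ps
  pos x := by
    obtain ⟨c, C, hc, he⟩ := hs.ell
    rw [hess_q_add hs.g2.smooth]
    exact (he x).posDef hc
  ma := ⟨0, fun x => by
    rw [hess_q_add hs.g2.smooth, eul_q_add hs.g2.smooth, hs.eqn]; ring⟩

theorem Sol.tau_eq {φ₀ h : E n → ℝ} (hs : Sol φ₀ h) :
    (fun y => (hess (fun x : E n => ‖x‖ ^ 2 / 2 + h x) y)⁻¹) = tau h := by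
  funext y; rw [hess_q_add hs.g2.smooth]; rfl

theorem Sol.tau_eq' {φ₀ h : E n → ℝ} (hs : Sol φ₀ h) (y : E n) :
    (hess (fun x : E n => ‖x‖ ^ 2 / 2 + h x) y)⁻¹ = tau h y := congrFun hs.tau_eq y

theorem Sol.ps_L {φ₀ h k : E n → ℝ} (hs : Sol φ₀ h) (hφ : Cb φ₀) (hk : PS k) : PS (Lop (tau h) k) := by
  have := (hs.md hφ).ps_L hk
  rwa [hs.tau_eq] at this

theorem Sol.ex_L {φ₀ h k : E n → ℝ} (hs : Sol φ₀ h) (hφ : Cb φ₀) (hk : PS k) :
    Ex φ₀ (Lop (tau h) k) = 0 := by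
  have := (hs.md hφ).int_L hk
  rwa [hs.tau_eq] at this

theorem Sol.dirichlet {φ₀ h k g : E n → ℝ} (hs : Sol φ₀ h) (hφ : Cb φ₀) (hk : PS k) (hg : PS g) :
    Ex φ₀ (fun x => Lop (tau h) k x * g x) =
      -Ex φ₀ (fun x => ∑ i, ∑ j, tau h x i j * pd i k x * pd j g x) := by
  have := (hs.md hφ).dirichlet hk hg
  rw [hs.tau_eq] at this
  simp only [hs.tau_eq'] at this
  exact this

theorem Sol.bochner {φ₀ h k g : E n → ℝ} (hs : Sol φ₀ h) (hφ : Cb φ₀) (hk : PS k) (hg : PS g) :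
    Ex φ₀ (fun x => Lop (tau h) k x * Lop (tau h) g x) =
      Ex φ₀ (fun x => (tau h x * hess k x * (tau h x * hess g x)).trace) +
      Ex φ₀ (fun x => ∑ i, ∑ j, tau h x i j * pd i k x * pd j g x) := by
  have := (hs.md hφ).bochner hk hg
  rw [hs.tau_eq] at this
  simp only [hs.tau_eq'] at this
  exact this

end

end Crest.Agent.R238.An
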