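import Crest.Agent.R238.AnRk1

/-!
# R238/AnRk2 TASK: bounds for `D² Rk`, the resolvent equation
-/

set_option autoImplicit false

namespace Crest.Agent.R238.An

open MeasureTheory Matrix Set Filter Topology
open scoped ContDiff

noncomputable section

variable {n : ℕ}

variable {F : E n → ℝ} {c : ℝ}

theorem anrk2_exp {c t : ℝ} (h1 : c ≤ 1) (ht : 0 < t) :
    Real.exp (c * t) * Real.exp (-2 * t) ≤ Real.exp (-t) := by
  rw [← Real.exp_add, Real.exp_le_exp]
  nlinarith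

theorem anrk2_le {c t A w y : ℝ} (h1 : c ≤ 1) (ht : 0 < t) (hA : 0 ≤ A) (hw : 0 ≤ w)
    (h : |y| ≤ A * (Real.exp (-2 * t) * w)) :
    |Real.exp (c * t) * y| ≤ A * (Real.exp (-t) * w) := by
  rw [abs_mul, abs_of_pos (Real.exp_pos _)]
  calc Real.exp (c * t) * |y| ≤ Real.exp (c * t) * (A * (Real.exp (-2 * t) * w)) :=
        mul_le_mul_of_nonneg_left h (Real.exp_pos _).le
    _ = A * (Real.exp (c * t) * Real.exp (-2 * t) * w) := by ring
    _ ≤ _ := mul_le_mul_of_nonneg_left (mul_le_mul_of_nonneg_right (anrk2_exp h1 ht) hw) hA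

theorem anrk2_pg (hF : CH 0 F) : PG F := by
  obtain ⟨M, K, hb, hK⟩ := hF
  exact PG.of_bd hK.cont hb

/-- sup bound: `pd2_Rk`, `Pt_bd_hol`, `integrableOn_w1`; Hölder bound: `int_split` with
`ψ t = e^{ct}(D²P_tF x - D²P_tF y)`, second bound by `abs_sub_le_of_pd` and the third-derivative
bound of `Pt_bd_hol` -/
theorem Rk_bd : ∃ C, 0 ≤ C ∧ ∀ (F : E n → ℝ) (c K : ℝ), IsEven F → CH 0 F → 0 ≤ c → c ≤ 1 → 0 ≤ K →
    Hol F K → ∀ i j, Bd (pd i (pd j (Rk c F))) (C * K) ∧ Hol (pd i (pd j (Rk c F))) (C * K) := by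
  obtain ⟨C₁, hC₁, h1⟩ := Pt_bd_hol (n := n)
  obtain ⟨C₂, hC₂, h2⟩ := int_split
  set W := ∫ t in Ioi (0 : ℝ), Real.exp (-t) * (√(sd t) / sd t ^ 2) with hW
  have hw : ∀ t, 0 ≤ √(sd t) / sd t ^ 2 := fun t => by positivity
  have hw3 : ∀ t, 0 ≤ √(sd t) / sd t ^ 3 := fun t => by have := sd_nonneg t; positivity
  have hW0 : 0 ≤ W := integral_nonneg fun t => mul_nonneg (Real.exp_pos _).le (hw t)
  refine ⟨C₁ * W + C₂ * ((2 + n) * C₁), by positivity, fun F c K he hF h0 hc hK hH i j => ?_⟩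
  have hP := anrk2_pg hF
  obtain ⟨-, hd⟩ := pd2_Rk he hF h0 hc j
  have b1 : ∀ x t, 0 < t → |Real.exp (c * t) * pd i (pd j (Pt t F)) x| ≤
      C₁ * K * (Real.exp (-t) * (√(sd t) / sd t ^ 2)) := fun x t ht =>
    anrk2_le hc ht (by positivity) (hw t) (h1 F K hK hH t ht x i j i).1
  constructor
  · intro x
    rw [(hd i x).2, abs_neg]
    have := norm_integral_le_of_norm_le (μ := volume.restrict (Ioi 0))
      (f := fun t => Real.exp (c * t) * pd i (pd j (Pt t F)) x)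
      (integrableOn_w1.const_mul (C₁ * K))
      ((ae_restrict_iff' measurableSet_Ioi).2 (Eventually.of_forall fun t ht => b1 x t ht))
    rw [Real.norm_eq_abs, integral_const_mul] at this
    refine this.trans ?_
    have : 0 ≤ C₂ * ((2 + n) * C₁) * K := by positivity
    nlinarith
  · intro x y
    rcases eq_or_ne x y with rfl | hxy
    · simp
    have hρ : 0 < ‖x - y‖ := norm_pos_iff.2 (sub_ne_zero.2 hxy)
    rw [(hd i x).2, (hd i y).2, neg_sub_neg, abs_sub_comm, ← integral_sub (hd i x).1 (hd i y).1]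
    have hn : (0 : ℝ) ≤ n := Nat.cast_nonneg n
    refine (h2 _ ((2 + n) * C₁ * K) _ (by positivity) hρ ((hd i x).1.sub (hd i y).1)
      (fun t ht => ?_) (fun t ht => ?_)).trans ?_
    · refine (abs_sub _ _).trans ((add_le_add (b1 x t ht) (b1 y t ht)).trans ?_)
      have : 0 ≤ n * C₁ * K * (Real.exp (-t) * (√(sd t) / sd t ^ 2)) := by
        have := hw t; positivity
      nlinarith
    · rw [Pi.sub_apply, ← mul_sub]
      refine anrk2_le hc ht (by positivity) (hw3 t) ?_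
      have hs : Differentiable ℝ (pd i (pd j (Pt t F))) :=
        (smooth_pd i (smooth_pd j (smooth_Pt hP ht))).differentiable (by simp)
      refine (abs_sub_le_of_pd hs (fun k z => (h1 F K hK hH t ht z k i j).2) x y).trans ?_
      have : 0 ≤ 2 * C₁ * K * ‖x - y‖ * (Real.exp (-2 * t) * (√(sd t) / sd t ^ 3)) := by
        have := hw3 t; positivity
      nlinarith
    · have : 0 ≤ C₁ * W * K * √‖x - y‖ := by positivity
      nlinarith

/-- `int_split'` -/
theorem Rk_bd_eps (ε : ℝ) (hε : 0 < ε) : ∃ C, 0 ≤ C ∧ ∀ (F : E n → ℝ) (c K M : ℝ), IsEven F →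
    0 ≤ c → c ≤ 1 → 0 ≤ K → Hol F K → Bd F M →
    ∀ i j, Bd (pd i (pd j (Rk c F))) (ε * K + C * M) := by
  obtain ⟨C₁, hC₁, h1⟩ := Pt_bd_hol (n := n)
  obtain ⟨C₃, hC₃, h3⟩ := Pt_bd_sup (n := n)
  obtain ⟨C₂, hC₂, h2⟩ := int_split' (ε / (C₁ + 1)) (by positivity)
  refine ⟨C₂ * C₃, by positivity, fun F c K M he h0 hc hK hH hb i j x => ?_⟩
  have hF : CH 0 F := ⟨M, K, hb, hH⟩
  have hM := hb.nonneg
  obtain ⟨-, hd⟩ := pd2_Rk he hF h0 hc j
  rw [(hd i x).2, abs_neg]
  refine (h2 _ (C₁ * K) (C₃ * M) (by positivity) (by positivity) (hd i x).1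
    (fun t ht => anrk2_le hc ht (by positivity) (by positivity) (h1 F K hK hH t ht x i j i).1)
    (fun t ht => ?_)).trans ?_
  · rw [div_eq_mul_inv]
    refine anrk2_le hc ht (by positivity) (by positivity) ?_
    rw [← div_eq_mul_inv]
    exact (h3 F M hH.cont hb t ht x i j).2
  · have : ε / (C₁ + 1) * (C₁ * K) ≤ ε * K := by
      rw [div_mul_eq_mul_div, div_le_iff₀ (by positivity)]
      have : 0 ≤ ε * K := by positivity
      nlinarith
    nlinarith

theorem Rk_ch (he : IsEven F) (hF : CH 0 F) (h0 : 0 ≤ c) (h1 : c ≤ 1) (i j : Fin n) :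
    CH 0 (pd i (pd j (Rk c F))) := by
  obtain ⟨C, -, h⟩ := Rk_bd (n := n)
  obtain ⟨M, hM, -, hH⟩ := hF.exists_common
  exact ⟨_, _, h F c M he hF h0 h1 hM hH i j⟩

/-- `contDiff_succ_of_pd` twice, `Hol.cont` -/
theorem Rk_c2 (he : IsEven F) (hF : CH 0 F) (h0 : 0 ≤ c) (h1 : c ≤ 1) : ContDiff ℝ 2 (Rk c F) := by
  refine contDiff_succ_of_pd (m := 1) (pd_Rk he hF h0 h1).1 fun j => ?_
  refine contDiff_succ_of_pd (m := 0) (pd2_Rk he hF h0 h1 j).1 fun i => ?_
  exact (Rk_ch he hF h0 h1 i j).contDiff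

/-- `L0 (Rk c F) x = -∫ e^{ct} L0 (Pt t F) x`; with `Ψ t = e^{ct}(Pt t F x - mean F)`,
`Ψ' = c Ψ + e^{ct} L0 (Pt t F) x` (`hasDerivAt_Pt`), `Ψ 0 = F x - mean F`, `Ψ → 0` at `∞` (`Pt_decay`);
`integral_Ioi_of_hasDerivAt_of_tendsto`. -/
theorem Rk_eqn (he : IsEven F) (hF : CH 0 F) (h0 : 0 ≤ c) (h1 : c ≤ 1) (x : E n) :
    L0 (Rk c F) x + c * Rk c F x = F x - mean F := by
  have hP := anrk2_pg hF
  obtain ⟨M, K, hb, hH⟩ := id hF
  have i0 := integrableOn_Rk he hF h0 h1 x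
  have d1 := fun i => (pd_Rk he hF h0 h1).2 i x
  have d2 := fun i => (pd2_Rk he hF h0 h1 i).2 i x
  have i2 : IntegrableOn (fun t => ∑ i, Real.exp (c * t) * pd i (pd i (Pt t F)) x) (Ioi 0) :=
    integrable_finsetSum _ fun i _ => (d2 i).1
  have i1 : IntegrableOn (fun t => ∑ i, x i * (Real.exp (c * t) * pd i (Pt t F) x)) (Ioi 0) :=
    integrable_finsetSum _ fun i _ => (d1 i).1.const_mul _
  have hder : ∀ t ∈ Ioi (0 : ℝ), HasDerivAt (fun t => Real.exp (c * t) * (Pt t F x - mean F))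
      ((∑ i, Real.exp (c * t) * pd i (pd i (Pt t F)) x) -
        (∑ i, x i * (Real.exp (c * t) * pd i (Pt t F) x)) +
        c * (Real.exp (c * t) * (Pt t F x - mean F))) t := by
    intro t ht
    have a : HasDerivAt (fun t => Real.exp (c * t)) (Real.exp (c * t) * c) t := by
      simpa using ((hasDerivAt_id t).const_mul c).exp
    refine (a.fun_mul ((hasDerivAt_Pt hP ht x).sub_const (mean F))).congr_deriv ?_
    rw [L0, eul_eq_sum, mul_sub (Real.exp (c * t)) (∑ i, _), Finset.mul_sum, Finset.mul_sum]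
    have : ∑ i, Real.exp (c * t) * (x i * pd i (Pt t F) x) =
        ∑ i, x i * (Real.exp (c * t) * pd i (Pt t F) x) :=
      Finset.sum_congr rfl fun i _ => by ring
    rw [this]
    ring
  have hlim : Tendsto (fun t => Real.exp (c * t) * (Pt t F x - mean F)) atTop (𝓝 0) := by
    obtain ⟨C, hC, hdec⟩ := Pt_decay (n := n)
    have hM := hb.nonneg
    have a : Tendsto (fun t : ℝ => C * M * (Real.exp (-t) * (1 + ‖x‖ ^ 2))) atTop (𝓝 0) := by
      simpa using (Real.tendsto_exp_neg_atTop_nhds_zero.mul_const (1 + ‖x‖ ^ 2)).const_mul (C * M)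
    refine squeeze_zero_norm' ?_ a
    filter_upwards [eventually_ge_atTop (1 : ℝ)] with t ht
    exact anrk2_le h1 (by linarith) (by positivity) (by positivity)
      (hdec F M hH.cont hb he t ht x).1
  have hcont : Continuous fun t => Real.exp (c * t) * (Pt t F x - mean F) :=
    (Real.continuous_exp.comp (continuous_const.mul continuous_id)).mul
      ((continuous_Pt hP x).sub continuous_const)
  have key := integral_Ioi_of_hasDerivAt_of_tendsto hcont.continuousWithinAt hder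
    ((i2.sub i1).add (i0.const_mul c)) hlim
  have e1 := integral_add (i2.sub i1) (i0.const_mul c)
  simp only [Pi.sub_apply] at e1
  rw [e1, integral_sub i2 i1, integral_finsetSum _ fun i _ => (d2 i).1,
    integral_finsetSum _ fun i _ => (d1 i).1.const_mul _] at key
  simp only [integral_const_mul, mul_zero, Real.exp_zero, Pt_zero] at key
  rw [L0, eul_eq_sum]
  simp only [fun i => (d1 i).2, fun i => (d2 i).2, Rk, mul_neg, Finset.sum_neg_distrib]
  linarith

theorem Tf_eq (a : E n → Mat n) (he : IsEven F) (hF : CH 0 F) (h0 : 0 ≤ c) (h1 : c ≤ 1) (x : E n) :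
    Tf a c F x = Lop a (Rk c F) x + c * Rk c F x + mean F := by
  have h := Rk_eqn he hF h0 h1 x
  rw [L0_eq_Lop] at h
  simp only [Tf, Lop, sub_mul, Finset.sum_sub_distrib] at h ⊢
  linarith

theorem Tf_even {a : E n → Mat n} (ha : ∀ i j, IsEven fun x => a x i j) (he : IsEven F) :
    IsEven (Tf a c F) := by
  intro x
  simp only [Tf, he x, fun i j => ha i j x, fun i j => (Rk_even (c := c) he).pd_pd i j x]

theorem Tf_ch {a : E n → Mat n} (ha : ∀ i j, CH 0 fun x => a x i j) (he : IsEven F) (hF : CH 0 F)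
    (h0 : 0 ≤ c) (h1 : c ≤ 1) : CH 0 (Tf a c F) := by
  exact hF.add (CH.sum _ fun i _ => CH.sum _ fun j _ =>
    ((ha i j).sub (CH.const 0 _)).mul (Rk_ch he hF h0 h1 i j))

theorem onto_one (c : ℝ) : Onto (fun _ : E n => (1 : Mat n)) c := by
  exact fun f he hf => ⟨f, he, hf, fun x => by simp [Tf]⟩

end

end Crest.Agent.R238.An
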