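import Crest.Agent.R238.SchD

set_option autoImplicit false

/-! From the barrier estimate to the Schauder estimate in operator form. -/

open Finset Filter Topology

namespace Crest.Agent.R238.Sch

variable {n : ℕ}

lemma T_top (D : Bool → ℝ) : T (fun σ => sg (σ 0) * sg (σ 1) * D (σ 2)) = 4 * (D true - D false) := by
  have h1 := T_flip_eq 2 (fun σ => sg (σ 0) * sg (σ 1) * D (σ 2))
  have h2 := T_sub (fun σ => sg (σ 0) * sg (σ 1) * D (σ 2))
    (fun σ => sg (flip 2 σ 0) * sg (flip 2 σ 1) * D (flip 2 σ 2))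
  have h3 : T (fun σ => sg (σ 0) * sg (σ 1) * D (σ 2) -
      sg (flip 2 σ 0) * sg (flip 2 σ 1) * D (flip 2 σ 2)) = 8 * (D true - D false) := by
    unfold T
    have : ∀ σ : Cube, sgn σ * (sg (σ 0) * sg (σ 1) * D (σ 2) -
      sg (flip 2 σ 0) * sg (flip 2 σ 1) * D (flip 2 σ 2)) = D true - D false := by
      intro σ
      rw [flip_ne (by decide : (0 : Fin 3) ≠ 2), flip_ne (by decide : (1 : Fin 3) ≠ 2), flip_same]
      unfold sgn
      cases σ 0 <;> cases σ 1 <;> cases σ 2 <;> simp only [sg, if_true, Bool.not_true, Bool.not_false,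
        Bool.false_eq_true, if_false] <;> ring
    simp only [this]
    simp only [Finset.sum_const, Finset.card_univ, Fintype.card_pi, Fintype.card_bool,
      Finset.prod_const, Fintype.card_fin, nsmul_eq_mul]
    norm_num
  rw [h3, h1] at h2
  linarith

lemma step_unit {v f : E n → ℝ} {a : E n → Fin n → Fin n → ℝ} {c lam Λ A M F H r K : ℝ}
    (h : Hyp v f a c lam Λ A M F) (H0 : 0 ≤ H)
    (hH : ∀ x y a b, |D2 v x a b - D2 v y a b| ≤ H * √‖x - y‖ * ‖a‖ * ‖b‖)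
    (hr0 : 0 < r) (hr : r ≤ 1 / 4) (hK1 : 8 * M ≤ K * √r)
    (hK2 : 8 * F + 8 * M + 8 * n ^ 2 * A * (2 * √r * H + M) < 5 / 108 * lam * K)
    {p q : E n} (hp : ‖p‖ = 1) (hq : ‖q‖ = 1) (x y : E n) :
    D2 v x p q - D2 v y p q ≤ (K + H / 4) * √‖x - y‖ := by
  have hM0 := h.M0
  have hK0 : 0 ≤ K := by
    by_contra hh
    have := mul_neg_of_neg_of_pos (not_le.mp hh) (Real.sqrt_pos.mpr hr0)
    linarith
  by_cases hxy : x = y
  · subst hxy; simp
  have hd : 0 < ‖x - y‖ := norm_pos_iff.mpr (sub_ne_zero.mpr hxy)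
  set d := ‖x - y‖ with hdd
  have hsd := Real.sqrt_nonneg d
  by_cases hdr : r < d / 2
  · have h1 := h.hM x p q
    have h2 := h.hM y p q
    rw [hp, hq, mul_one, mul_one] at h1 h2
    have h3 : √r ≤ √d := Real.sqrt_le_sqrt (by linarith)
    have h4 := mul_le_mul_of_nonneg_left h3 hK0
    have := le_abs_self (D2 v x p q)
    have := neg_abs_le (D2 v y p q)
    have := mul_nonneg H0 hsd
    nlinarith
  push Not at hdr
  set t := d / 2 with ht
  have ht0 : 0 < t := by positivity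
  set u : E n := d⁻¹ • (x - y) with hu
  have hu1 : ‖u‖ = 1 := by
    rw [hu, norm_smul, norm_inv, Real.norm_eq_abs, abs_of_pos hd, ← hdd, inv_mul_cancel₀ hd.ne']
  set c₀ : E n := y + t • u with hc₀
  have htu : t • u = (1 / 2 : ℝ) • (x - y) := by
    rw [hu, smul_smul, ht]; congr 1; field_simp
  have hx : c₀ + (sg true * t) • u = x := by
    simp only [sg, if_true, one_mul, hc₀, htu]; module
  have hy : c₀ + (sg false * t) • u = y := by
    simp [sg, hc₀]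
  set s := t ^ (1 / 6 : ℝ) with hs
  have hs0 : 0 < s := Real.rpow_pos_of_pos ht0 _
  have hts : t = s ^ 6 := by
    rw [hs, ← Real.rpow_natCast, ← Real.rpow_mul ht0.le]; norm_num
  set η := t / 64 with hη
  have hη0 : 0 < η := by positivity
  have hηs : η = (s / 2) ^ 6 := by rw [hη, hts]; ring
  have pw : ∀ w : ℝ, 0 < w → (w ^ 6) ^ (5 / 6 : ℝ) = w ^ 5 := by
    intro w hw
    rw [← Real.rpow_natCast, ← Real.rpow_mul hw.le, ← Real.rpow_natCast]; norm_num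
  let e : Fin 3 → E n := ![q, p, u]
  let z : Fin 3 → ℝ := ![η, η, t]
  have he : ∀ k, ‖e k‖ = 1 := by intro k; fin_cases k <;> simp [e, hp, hq, hu1]
  have hz : ∀ k, 0 ≤ z k ∧ z k ≤ r := by
    intro k; fin_cases k <;> simp [z] <;> constructor <;> linarith
  have hB : Bf z = s ^ 15 / 1024 := by
    simp only [Bf, Fin.prod_univ_three, z, Matrix.cons_val_zero, Matrix.cons_val_one,
      Matrix.cons_val_two, Matrix.head_cons, Matrix.tail_cons]
    rw [hηs, pw _ (by positivity)]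
    conv_lhs => rw [hts, pw _ hs0]
    ring
  have hbar := barrier h H0 hH hr0 hr hK1 hK2 he c₀ hz
  set D : Bool → ℝ := fun b => D2 v (c₀ + (sg b * t) • u) p q with hD
  have hT := T_flip2 0 1 (fun σ => v (c₀ + pt e σ z) - η ^ 2 * (sg (σ 0) * sg (σ 1) * D (σ 2)))
    (C := 4 * η ^ 2 * (H * √(2 * η))) fun σ => by
    obtain ⟨s', hs', t', ht', hh⟩ := mvt2 h.hv (c₀ + pt e σ z) ((-2 * sg (σ 0) * z 0) • e 0)
      ((-2 * sg (σ 1) * z 1) • e 1)
    have f01 : (0 : Fin 3) ≠ 1 := by decide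
    have f10 : (1 : Fin 3) ≠ 0 := by decide
    have f20 : (2 : Fin 3) ≠ 0 := by decide
    have f21 : (2 : Fin 3) ≠ 1 := by decide
    simp only [pt_flip, flip_ne f01, flip_ne f10, flip_ne f20, flip_ne f21, flip_same, sg_not]
    set P := c₀ + pt e σ z + s' • (-2 * sg (σ 0) * z 0) • e 0 + t' • (-2 * sg (σ 1) * z 1) • e 1
      with hP
    have h1 := hH P (c₀ + (sg (σ 2) * t) • u) p q
    rw [hp, hq, mul_one, mul_one] at h1
    have h2 : P - (c₀ + (sg (σ 2) * t) • u) =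
        (sg (σ 0) * η * (1 - 2 * s')) • q + (sg (σ 1) * η * (1 - 2 * t')) • p := by
      simp only [hP, pt, Fin.sum_univ_three, e, z, Matrix.cons_val_zero, Matrix.cons_val_one,
        Matrix.cons_val_two, Matrix.head_cons, Matrix.tail_cons]
      module
    have h3 : ∀ (b : Bool) (w : ℝ) (g : E n), w ∈ Set.Icc (0:ℝ) 1 → ‖g‖ = 1 →
        ‖(sg b * η * (1 - 2 * w)) • g‖ ≤ η := by
      intro b w g hw hg
      rw [norm_smul, hg, mul_one, Real.norm_eq_abs, abs_mul, abs_mul, abs_sg, one_mul,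
        abs_of_pos hη0]
      have : |1 - 2 * w| ≤ 1 := abs_le.mpr ⟨by linarith [hw.2], by linarith [hw.1]⟩
      nlinarith
    have h4 : ‖P - (c₀ + (sg (σ 2) * t) • u)‖ ≤ 2 * η := by
      rw [h2]
      have := norm_add_le ((sg (σ 0) * η * (1 - 2 * s')) • q) ((sg (σ 1) * η * (1 - 2 * t')) • p)
      linarith [h3 (σ 0) s' q hs' hq, h3 (σ 1) t' p ht' hp]
    have h5 := h1.trans (mul_le_mul_of_nonneg_left (Real.sqrt_le_sqrt h4) H0)
    have h6 : D2 v P ((-2 * sg (σ 1) * z 1) • e 1) ((-2 * sg (σ 0) * z 0) • e 0) =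
        4 * η ^ 2 * (sg (σ 0) * sg (σ 1)) * D2 v P p q := by
      simp only [map_smul, _root_.smul_apply, smul_eq_mul, e, z, Matrix.cons_val_zero,
        Matrix.cons_val_one]
      ring
    rw [h6] at hh
    have h7 : c₀ + (pt e σ z + (-2 * sg (σ 1) * z 1) • e 1 + (-2 * sg (σ 0) * z 0) • e 0) =
      c₀ + pt e σ z + (-2 * sg (σ 0) * z 0) • e 0 + (-2 * sg (σ 1) * z 1) • e 1 := by abel
    rw [h7, ← add_assoc, ← add_assoc]
    have h8 : ∀ A1 A2 A3 A4 : ℝ, A1 - A2 - A3 + A4 = 4 * η ^ 2 * (sg (σ 0) * sg (σ 1)) * D2 v P p q →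
        A1 - η ^ 2 * (-sg (σ 0) * -sg (σ 1) * D (σ 2)) - (A2 - η ^ 2 * (-sg (σ 0) * sg (σ 1) * D (σ 2)))
        - (A3 - η ^ 2 * (sg (σ 0) * -sg (σ 1) * D (σ 2))) + (A4 - η ^ 2 * (sg (σ 0) * sg (σ 1) * D (σ 2)))
        = 4 * η ^ 2 * (sg (σ 0) * sg (σ 1)) * (D2 v P p q - D (σ 2)) := by
      intro A1 A2 A3 A4 hA
      linear_combination hA
    rw [h8 _ _ _ _ hh, abs_mul, abs_mul, abs_mul (sg _), abs_sg, abs_sg,
      abs_of_nonneg (by positivity : 0 ≤ 4 * η ^ 2), mul_one, mul_one]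
    exact mul_le_mul_of_nonneg_left h5 (by positivity)
  rw [T_sub, T_mul, T_top] at hT
  have hDt : D true = D2 v x p q := by simp only [hD, hx]
  have hDf : D false = D2 v y p q := by simp only [hD, hy]
  rw [hDt, hDf] at hT
  have hW : T (fun σ => v (c₀ + pt e σ z)) = W e v c₀ z := rfl
  rw [hW] at hT
  have hst : √t = s ^ 3 := by
    rw [hts, show s ^ 6 = (s ^ 3) ^ 2 by ring, Real.sqrt_sq (by positivity)]
  have h1 : s ^ 3 ≤ √d := by rw [← hst]; exact Real.sqrt_le_sqrt (by linarith)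
  have h2 : √(2 * η) ≤ √d / 8 := by
    rw [Real.sqrt_le_left (by positivity), div_pow, Real.sq_sqrt hd.le, hη, ht]; linarith
  have h3 : η ^ 2 = s ^ 12 / 4096 := by rw [hηs]; ring
  have h4 := neg_abs_le (W e v c₀ z - η ^ 2 * (4 * (D2 v x p q - D2 v y p q)))
  rw [hB] at hbar
  have h5 : 0 < s ^ 12 / 1024 := by positivity
  refine le_of_mul_le_mul_left ?_ h5
  have h6 := mul_le_mul_of_nonneg_left h1 (mul_nonneg hK0 h5.le)
  have h7 := mul_le_mul_of_nonneg_left h2 (mul_nonneg H0 h5.le)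
  rw [h3] at hT h4
  nlinarith

lemma step_op {v : E n → ℝ} {C : ℝ}
    (h : ∀ p q : E n, ‖p‖ = 1 → ‖q‖ = 1 → ∀ x y, D2 v x p q - D2 v y p q ≤ C * √‖x - y‖)
    (x y a b : E n) : |D2 v x a b - D2 v y a b| ≤ C * √‖x - y‖ * ‖a‖ * ‖b‖ := by
  by_cases ha : a = 0
  · simp [ha]
  by_cases hb : b = 0
  · simp [hb]
  have ha0 := norm_pos_iff.mpr ha
  have hb0 := norm_pos_iff.mpr hb
  have hp : ‖‖a‖⁻¹ • a‖ = 1 := by rw [norm_smul, norm_inv, norm_norm, inv_mul_cancel₀ ha0.ne']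
  have hq : ‖‖b‖⁻¹ • b‖ = 1 := by rw [norm_smul, norm_inv, norm_norm, inv_mul_cancel₀ hb0.ne']
  have h1 := h _ _ hp hq x y
  have h2 := h _ _ hp hq y x
  rw [norm_sub_rev y x] at h2
  have h3 : |D2 v x (‖a‖⁻¹ • a) (‖b‖⁻¹ • b) - D2 v y (‖a‖⁻¹ • a) (‖b‖⁻¹ • b)| ≤ C * √‖x - y‖ :=
    abs_le.mpr ⟨by linarith, h1⟩
  have h4 : D2 v x a b - D2 v y a b =
      (D2 v x (‖a‖⁻¹ • a) (‖b‖⁻¹ • b) - D2 v y (‖a‖⁻¹ • a) (‖b‖⁻¹ • b)) * ‖a‖ * ‖b‖ := by
    simp only [map_smul, _root_.smul_apply, smul_eq_mul]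
    field_simp
  rw [h4, abs_mul, abs_mul, abs_norm, abs_norm]
  gcongr

/-- **Schauder estimate**, operator form. -/
theorem schauder_op (n : ℕ) {lam A : ℝ} (hlam : 0 < lam) (hA : 0 ≤ A) : ∃ C : ℝ, 0 ≤ C ∧
    ∀ (v f : E n → ℝ) (a : E n → Fin n → Fin n → ℝ) (c Λ M F H : ℝ), Hyp v f a c lam Λ A M F →
      0 ≤ H → (∀ x y a b, |D2 v x a b - D2 v y a b| ≤ H * √‖x - y‖ * ‖a‖ * ‖b‖) →
      ∀ x y a b, |D2 v x a b - D2 v y a b| ≤ C * (F + M) * √‖x - y‖ * ‖a‖ * ‖b‖ := by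
  set κ : ℝ := 108 / (5 * lam) with hκ
  have hκ0 : 0 < κ := by positivity
  set ρ : ℝ := min (1 / 2) (1 / (64 * κ * (n ^ 2 * A + 1))) with hρ
  have hρ0 : 0 < ρ := lt_min (by norm_num) (by positivity)
  have hρ1 : ρ ≤ 1 / 2 := min_le_left _ _
  have hρ2 : 64 * κ * (n ^ 2 * A + 1) * ρ ≤ 1 := by
    have := min_le_right (1 / 2 : ℝ) (1 / (64 * κ * (n ^ 2 * A + 1)))
    rwa [← hρ, le_div_iff₀ (by positivity), mul_comm] at this
  set C₁ : ℝ := κ * (8 + 8 * n ^ 2 * A) + 8 / ρ with hC₁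
  have hC₁0 : 0 ≤ C₁ := by positivity
  refine ⟨2 * C₁, by positivity, fun v f a c Λ M F H h H0 hH => ?_⟩
  have hM0 := h.M0
  have hF0 := h.F0
  have hsq : √(ρ ^ 2) = ρ := Real.sqrt_sq hρ0.le
  have step : ∀ H η : ℝ, 0 ≤ H → 0 < η →
      (∀ x y a b, |D2 v x a b - D2 v y a b| ≤ H * √‖x - y‖ * ‖a‖ * ‖b‖) →
      ∀ x y a b, |D2 v x a b - D2 v y a b| ≤ (H / 2 + C₁ * (F + M) + η) * √‖x - y‖ * ‖a‖ * ‖b‖ := by
    intro H η H0 hη hH
    refine step_op fun p q hp hq x y => ?_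
    set N := 8 * F + 8 * M + 8 * n ^ 2 * A * (2 * ρ * H + M) with hN
    have hN0 : 0 ≤ N := by positivity
    have h1 := step_unit h H0 hH (r := ρ ^ 2) (K := κ * N + 8 * M / ρ + η) (by positivity)
      (by nlinarith) (by
        rw [hsq]
        have : 8 * M / ρ * ρ = 8 * M := by field_simp
        have : 0 ≤ (κ * N + η) * ρ := by positivity
        nlinarith) (by
        rw [hsq, ← hN]
        have e1 : 5 / 108 * lam * (κ * N) = N := by rw [hκ]; field_simp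
        have : 0 < 5 / 108 * lam * (8 * M / ρ + η) := by positivity
        nlinarith) hp hq x y
    refine h1.trans (mul_le_mul_of_nonneg_right ?_ (Real.sqrt_nonneg _))
    have h2 : κ * (16 * n ^ 2 * A * ρ * H) ≤ H / 4 := by
      have h3 : 64 * κ * (n ^ 2 * A) * ρ ≤ 1 := by
        have : 0 ≤ 64 * κ * ρ := by positivity
        nlinarith
      nlinarith
    have h4 : 8 * M / ρ ≤ 8 / ρ * (F + M) := by
      have : 0 ≤ 8 / ρ * F := by positivity
      have : 8 * M / ρ = 8 / ρ * M := by ring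
      linarith
    have h5 : 0 ≤ κ * (8 * n ^ 2 * A * F) := by positivity
    have h6 : κ * N = κ * (8 + 8 * n ^ 2 * A) * (F + M) - κ * (8 * n ^ 2 * A * F) +
        κ * (16 * n ^ 2 * A * ρ * H) := by rw [hN]; ring
    rw [hC₁]
    linarith
  have iter : ∀ η : ℝ, 0 < η → ∀ j : ℕ, ∀ x y a b, |D2 v x a b - D2 v y a b| ≤
      ((1 / 2) ^ j * H + 2 * (C₁ * (F + M) + η)) * √‖x - y‖ * ‖a‖ * ‖b‖ := by
    intro η hη j
    induction j with
    | zero =>
      intro x y a b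
      refine (hH x y a b).trans ?_
      have : 0 ≤ 2 * (C₁ * (F + M) + η) := by positivity
      gcongr
      simp only [pow_zero, one_mul]; linarith
    | succ j ih =>
      intro x y a b
      refine (step _ η (by positivity) hη ih x y a b).trans (le_of_eq ?_)
      ring
  intro x y a b
  have t1 : Tendsto (fun j : ℕ => (1 / 2 : ℝ) ^ j) atTop (𝓝 0) :=
    tendsto_pow_atTop_nhds_zero_of_lt_one (by norm_num) (by norm_num)
  have t2 : Tendsto (fun j : ℕ => ((1 / 2 : ℝ) ^ j * H + 2 * (C₁ * (F + M) + (1 / 2) ^ j)) *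
      √‖x - y‖ * ‖a‖ * ‖b‖) atTop (𝓝 ((0 * H + 2 * (C₁ * (F + M) + 0)) * √‖x - y‖ * ‖a‖ * ‖b‖)) :=
    ((((t1.mul_const H).add ((t1.const_add _).const_mul 2)).mul_const _).mul_const _).mul_const _
  have := ge_of_tendsto' t2 fun j => iter _ (by positivity) j x y a b
  refine this.trans (le_of_eq ?_)
  ring

end Crest.Agent.R238.Sch
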