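import Crest.Agent.R238.AnLin
import Crest.Agent.R238.AnCH
import Crest.Agent.R238.AnMat2
import Crest.Agent.R238.SchE

/-!
# R238/AnSch (helper29): Schauder estimate (Brandt's maximum-principle proof, `SchA`–`SchE`)
-/

set_option autoImplicit false

namespace Crest.Agent.R238.An

open MeasureTheory Matrix Set Filter Topology
open scoped ContDiff

noncomputable section

variable {n : ℕ}

lemma pd_pd_eq_D2 {v : E n → ℝ} (hv : ContDiff ℝ 2 v) (i j : Fin n) (x : E n) :
    pd i (pd j v) x = Sch.D2 v x (Sch.bv i) (Sch.bv j) := by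
  have h2 : Differentiable ℝ (fderiv ℝ v) :=
    (hv.fderiv_right (m := 1) (by norm_num)).differentiable (by norm_num)
  have h3 : HasFDerivAt (fun y => fderiv ℝ v y (ev j))
      ((fderiv ℝ (fderiv ℝ v) x).flip (ev j)) x := by
    have := (h2 x).hasFDerivAt.clm_apply (hasFDerivAt_const (ev j) x)
    simpa using this
  change fderiv ℝ (fun y => fderiv ℝ v y (ev j)) x (ev i) = _
  rw [h3.fderiv]
  rfl

lemma bil_bound (Q : E n →L[ℝ] E n →L[ℝ] ℝ) {M : ℝ} (hM : 0 ≤ M)
    (h : ∀ i j, |Q (Sch.bv i) (Sch.bv j)| ≤ M) (a b : E n) :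
    |Q a b| ≤ n ^ 2 * M * ‖a‖ * ‖b‖ := by
  rw [Sch.expand]
  have hij : ∀ i j, |Q (Sch.bv i) (Sch.bv j) * a i * b j| ≤ M * ‖a‖ * ‖b‖ := by
    intro i j
    rw [abs_mul, abs_mul]
    have h1 : |a i| ≤ ‖a‖ := by simpa using PiLp.norm_apply_le a i
    have h2 : |b j| ≤ ‖b‖ := by simpa using PiLp.norm_apply_le b j
    have := h i j
    gcongr
  refine (Finset.abs_sum_le_sum_abs _ _).trans ?_
  refine (Finset.sum_le_sum fun i _ => (Finset.abs_sum_le_sum_abs _ _).trans
    (Finset.sum_le_sum fun j _ => hij i j)).trans (le_of_eq ?_)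
  simp only [Finset.sum_const, Finset.card_univ, Fintype.card_fin, nsmul_eq_mul]
  ring

theorem schauder (lo hi A : ℝ) (hlo : 0 < lo) :
    ∃ C, 0 ≤ C ∧ ∀ (a : E n → Mat n) (v : E n → ℝ) (c M M₂ N : ℝ), (∀ x, Ell (a x) lo hi) →
      (∀ i j, Hol (fun x => a x i j) A) → |c| ≤ 1 → C2 v M₂ → (∀ i j, Hol (pd i (pd j v)) N) →
      0 ≤ M → HolL (fun x => Lop a v x + c * v x) M →
      ∀ i j, Hol (pd i (pd j v)) (C * (M + M₂)) := by
  obtain ⟨C, hC0, hC⟩ := Sch.schauder_op n hlo (abs_nonneg A)
  refine ⟨C * (2 + n ^ 2), by positivity, fun a v c M M₂ N hell hA hc hv hN hM hf i j x y => ?_⟩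
  have hM₂ : 0 ≤ M₂ := (abs_nonneg _).trans (hv.bd i j 0)
  have hD := pd_pd_eq_D2 hv.c2
  have hyp : Sch.Hyp v (fun x => Lop a v x + c * v x) (fun x i j => a x i j) c lo hi |A|
      (n ^ 2 * M₂) (2 * M) :=
    { hv := hv.c2
      lam0 := hlo
      A0 := abs_nonneg A
      M0 := by positivity
      F0 := by positivity
      c1 := hc
      hM := fun x => bil_bound _ hM₂ fun i j => by rw [← hD]; exact hv.bd i j x
      ell := fun x ξ => by
        have := ((hell x).2 ξ).1
        simp only [dotProduct, Matrix.mulVec, Finset.mul_sum] at this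
        simp only [Finset.mul_sum, sq]
        refine this.trans (le_of_eq ?_)
        exact Finset.sum_congr rfl fun i _ => Finset.sum_congr rfl fun j _ => by ring
      hΛ := fun x i => by
        have := ((hell x).2 (Pi.single i 1)).2
        simpa using this
      hA := fun i j x y _ => (hA i j x y).trans
        (mul_le_mul_of_nonneg_right (le_abs_self A) (Real.sqrt_nonneg _))
      hF := fun x y hxy => by
        refine (hf y x).trans ?_
        have h1 : ‖x - y‖ ≤ √‖x - y‖ := by
          rw [Real.le_sqrt (norm_nonneg _) (norm_nonneg _)]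
          nlinarith [norm_nonneg (x - y)]
        nlinarith
      eqn := fun x => by simp only [Lop, eul, hD] }
  have hH : ∀ x y a b, |Sch.D2 v x a b - Sch.D2 v y a b| ≤
      n ^ 2 * |N| * √‖x - y‖ * ‖a‖ * ‖b‖ := by
    intro x y a b
    have := bil_bound (Sch.D2 v x - Sch.D2 v y) (M := |N| * √‖x - y‖) (by positivity)
      (fun i j => by
        simp only [_root_.sub_apply, ← hD]
        exact (hN i j x y).trans
          (mul_le_mul_of_nonneg_right (le_abs_self N) (Real.sqrt_nonneg _))) a b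
    simp only [_root_.sub_apply] at this
    refine this.trans (le_of_eq ?_)
    ring
  have := hC v _ _ c hi _ _ _ hyp (by positivity) hH x y (Sch.bv i) (Sch.bv j)
  rw [Sch.norm_bv, Sch.norm_bv, mul_one, mul_one, ← hD, ← hD] at this
  refine this.trans (mul_le_mul_of_nonneg_right ?_ (Real.sqrt_nonneg _))
  have h1 : 0 ≤ C * (n ^ 2 * M + 2 * M₂) := by positivity
  nlinarith

end

end Crest.Agent.R238.An
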