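import Crest.Agent.R238.AnE2
import Crest.Agent.R238.AnRk2
import Crest.Agent.R238.AnSch

/-!
# R238/AnLow TASK: the uniform a priori estimate for `Tf`.
Let `k = Rk c' F`, `f = Tf τ c' F = L k + c' k + mean F` (`Tf_eq`), `Bd f M`, `Hol f M`.  Let `S`, `N` be the minimal
sup / Hölder constants of the family `k_ij` (`exists_min_bd`, `exists_min_hol`, `Rk_ch`), `K` from `Qnt.tau_bounds`.
(1) `schauder`: `N ≤ C₁ (M + S)`.
(2) `F = f - ∑ (τ-1)_ij k_ij`: `Hol F (M + n²((K+1) N + K S))`; `Bd F (M + n² (2η S + (K+1) S'))` where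
`S' = ε' N + C₂ √(C₃ M S)` bounds `k_ij` on `‖x‖ ≤ R η` (`local_L2`, `l2_bound`), `√(C₃ M S) ≤ ε'' S + C M`.
(3) `Rk_bd_eps`: `S ≤ ε (Hol const of F) + C_ε (Bd const of F)`.
Choose `ε`, then `η`, `ε'`, `ε''` so that `S ≤ S/2 + C M`.  Then `S, N ≤ C M` and (2) gives the claim.
-/

set_option autoImplicit false

namespace Crest.Agent.R238.An

open MeasureTheory Matrix Set Filter Topology
open scoped ContDiff

noncomputable section

variable {n : ℕ}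

theorem anlow_small {a : ℝ} (ha : 0 ≤ a) : ∃ e : ℝ, 0 < e ∧ e ≤ 1 / 2 ∧ a * e ≤ 1 / 8 := by
  refine ⟨1 / (8 * (a + 1)), by positivity, ?_, ?_⟩
  · rw [div_le_div_iff₀ (by positivity) (by positivity)]
    linarith
  · rw [mul_one_div, div_le_div_iff₀ (by positivity) (by positivity)]
    linarith

theorem anlow_sqrt {a b θ : ℝ} (ha : 0 ≤ a) (hb : 0 ≤ b) (hθ : 0 < θ) :
    √(a * b) ≤ θ * b + a / θ := by
  have h1 : 0 ≤ θ * b := by positivity
  have h2 : 0 ≤ a / θ := by positivity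
  have h3 : θ * b * (a / θ) = a * b := by field_simp
  rw [Real.sqrt_le_left (by positivity)]
  nlinarith [mul_nonneg h1 h2, mul_nonneg h1 h1, mul_nonneg h2 h2]

theorem anlow_one (i j : Fin n) : |(1 : Mat n) i j| ≤ 1 := by
  rw [Matrix.one_apply]
  split_ifs <;> simp
theorem low (B c C : ℝ) (R : ℝ → ℝ) (hc : 0 < c) (hC : 0 < C) :
    ∃ C₀, 0 < C₀ ∧ ∀ (φ₀ h : E n → ℝ) (c' : ℝ), Cb φ₀ → Bd φ₀ B → Sol φ₀ h → Qnt h c C R →
      0 ≤ c' → c' ≤ 1 → Low (tau h) c' C₀ := by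
  obtain ⟨K, hK, htau⟩ := Qnt.tau_bounds (n := n) c C hc hC
  obtain ⟨C₁, hC₁, hsch⟩ := schauder (n := n) C⁻¹ c⁻¹ K (inv_pos.2 hC)
  obtain ⟨C₃, hC₃, hl2⟩ := l2_bound (n := n) B C⁻¹ c⁻¹ (inv_pos.2 hC)
  obtain ⟨m, hm⟩ : ∃ m : ℝ, m = (n : ℝ) * n := ⟨_, rfl⟩
  have hm0 : 0 ≤ m := by rw [hm]; positivity
  obtain ⟨a₁, ha₁⟩ : ∃ a₁ : ℝ, a₁ = 1 + m * (K + 1) * C₁ := ⟨_, rfl⟩
  obtain ⟨b₁, hb₁⟩ : ∃ b₁ : ℝ, b₁ = m * ((K + 1) * C₁ + K) := ⟨_, rfl⟩
  have ha₁0 : 0 < a₁ := by rw [ha₁]; positivity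
  have hb₁0 : 0 ≤ b₁ := by rw [hb₁]; positivity
  obtain ⟨ε, hε, -, hε'⟩ := anlow_small hb₁0
  obtain ⟨D, hD, hrk⟩ := Rk_bd_eps (n := n) ε hε
  obtain ⟨η, hη, hη1, hη'⟩ := anlow_small (a := D * m * 2) (by positivity)
  obtain ⟨e, he, -, he'⟩ := anlow_small (a := D * m * (K + 1) * C₁) (by positivity)
  obtain ⟨C₂, hC₂, hloc⟩ := local_L2 (n := n) B (R η) e he
  obtain ⟨θ, hθ, -, hθ'⟩ := anlow_small (a := D * m * (K + 1) * C₂) (by positivity)
  obtain ⟨a₂, ha₂⟩ : ∃ a₂ : ℝ, a₂ = 1 + m * (K + 1) * (e * C₁ + C₂ * (C₃ / θ)) := ⟨_, rfl⟩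
  obtain ⟨b₂, hb₂⟩ : ∃ b₂ : ℝ, b₂ = m * (2 * η + (K + 1) * (e * C₁ + C₂ * θ)) := ⟨_, rfl⟩
  have ha₂0 : 0 < a₂ := by rw [ha₂]; positivity
  have hb₂0 : 0 ≤ b₂ := by rw [hb₂]; positivity
  have hDb : D * b₂ ≤ 3 / 8 := by
    have : D * b₂ = D * m * 2 * η + D * m * (K + 1) * C₁ * e + D * m * (K + 1) * C₂ * θ := by
      rw [hb₂]; ring
    linarith
  obtain ⟨Q, hQ⟩ : ∃ Q : ℝ, Q = 2 * (ε * a₁ + D * a₂) := ⟨_, rfl⟩
  have hQ0 : 0 ≤ Q := by rw [hQ]; positivity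
  refine ⟨a₁ + a₂ + (b₁ + b₂) * Q, by positivity, fun φ₀ h c' hφ hB hs hq h0 h1 F hF hch M hb hh => ?_⟩
  obtain ⟨t1, t2, t3⟩ := htau φ₀ h R hs hq
  have hM := hb.nonneg
  obtain ⟨U, -, hU⟩ := CH.exists_unif (ι := Fin n × Fin n)
    (f := fun p => pd p.1 (pd p.2 (Rk c' F))) fun p => Rk_ch hF hch h0 h1 p.1 p.2
  obtain ⟨S, hS, hSb, hSm⟩ := exists_min_bd (ι := Fin n × Fin n)
    (f := fun p => pd p.1 (pd p.2 (Rk c' F))) fun p => (hU p).1
  obtain ⟨N, hN, hNb, hNm⟩ := exists_min_hol (ι := Fin n × Fin n)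
    (f := fun p => pd p.1 (pd p.2 (Rk c' F))) fun p => (hU p).2
  have hk : C2 (Rk c' F) S := ⟨Rk_c2 hF hch h0 h1, fun i j => hSb (i, j)⟩
  have hT := Tf_eq (tau h) hF hch h0 h1
  -- (1)
  have s1 : N ≤ C₁ * (M + S) := by
    refine hNm _ (by positivity) fun p => hsch (tau h) (Rk c' F) c' M S N t1 (fun i j => (t2 i j).2)
      (by rw [abs_of_nonneg h0]; exact h1) hk (fun i j => hNb (i, j)) hM (Hol.holL ?_ hM) p.1 p.2
    intro x y
    have := hh x y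
    rw [hT x, hT y, add_sub_add_right_eq_sub] at this
    exact this
  -- (2)
  have eF : ∀ x, Tf (tau h) c' F x -
      ∑ i, ∑ j, (tau h x i j - (1 : Mat n) i j) * pd i (pd j (Rk c' F)) x = F x := by
    intro x
    simp only [Tf, add_sub_cancel_right]
  have tb : ∀ i j, Bd (fun x => tau h x i j - (1 : Mat n) i j) (K + 1) := fun i j x =>
    (abs_sub _ _).trans (add_le_add ((t2 i j).1 x) (anlow_one i j))
  have s2 : Hol F (a₁ * M + b₁ * S) := by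
    have g1 : ∀ i j, Hol (fun x => (tau h x i j - (1 : Mat n) i j) * pd i (pd j (Rk c' F)) x)
        ((K + 1) * N + (K + 0) * S) := fun i j =>
      Hol.mul (tb i j) ((t2 i j).2.sub (Hol.const _)) (hSb (i, j)) (hNb (i, j))
    have g2 := hh.sub (Hol.sum Finset.univ fun i _ => Hol.sum Finset.univ fun j _ => g1 i j)
    simp only [eF] at g2
    refine g2.mono ?_
    have g3 : m * (K + 1) * N ≤ m * (K + 1) * (C₁ * (M + S)) :=
      mul_le_mul_of_nonneg_left s1 (by positivity)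
    simp only [Finset.card_univ, Fintype.card_fin]
    rw [← mul_assoc, ← hm, ha₁, hb₁]
    linarith
  have s3 : Bd F (a₂ * M + b₂ * S) := by
    have g0 : ∀ i j x, ‖x‖ ≤ R η →
        |pd i (pd j (Rk c' F)) x| ≤ e * (C₁ * (M + S)) + C₂ * (θ * S + C₃ * M / θ) := by
      intro i j x hx
      have l1 := hloc φ₀ _ N hφ hB (PG.of_bd (hNb (i, j)).cont (hSb (i, j))) hN (hNb (i, j)) x hx
      have l2 := hl2 φ₀ h (Rk c' F) S M c' (mean F) hφ hB hs t1 hk (Rk_even hF) h1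
        (fun x => by have := hb x; rwa [hT x] at this) i j
      have l3 := (Real.sqrt_le_sqrt l2).trans (anlow_sqrt (a := C₃ * M) (by positivity) hS hθ)
      exact l1.trans (add_le_add (mul_le_mul_of_nonneg_left s1 he.le)
        (mul_le_mul_of_nonneg_left l3 hC₂))
    have g1 : ∀ i j, Bd (fun x => (tau h x i j - (1 : Mat n) i j) * pd i (pd j (Rk c' F)) x)
        (2 * η * S + (K + 1) * (e * (C₁ * (M + S)) + C₂ * (θ * S + C₃ * M / θ))) := by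
      intro i j x
      beta_reduce
      rw [abs_mul]
      rcases le_total (R η) ‖x‖ with hx | hx
      · refine (mul_le_mul (t3 η hη hη1 x hx i j) (hSb (i, j) x) (abs_nonneg _)
          (by positivity)).trans (le_add_of_nonneg_right (by positivity))
      · refine (mul_le_mul (tb i j x) (g0 i j x hx) (abs_nonneg _)
          (by positivity)).trans (le_add_of_nonneg_left (by positivity))
    have g2 := Bd.sum Finset.univ fun i _ => Bd.sum Finset.univ fun j _ => g1 i j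
    intro x
    rw [← eF x]
    refine (abs_sub _ _).trans ((add_le_add (hb x) (g2 x)).trans (le_of_eq ?_))
    simp only [Finset.card_univ, Fintype.card_fin]
    rw [← mul_assoc, ← hm, ha₂, hb₂]
    ring
  -- (3)
  have s4 : S ≤ ε * (a₁ * M + b₁ * S) + D * (a₂ * M + b₂ * S) :=
    hSm _ (by positivity) fun p => hrk F c' _ _ hF h0 h1 (by positivity) s2 s3 p.1 p.2
  have s5 : S ≤ Q * M := by
    have g1 : b₁ * ε * S ≤ 1 / 8 * S := mul_le_mul_of_nonneg_right hε' hS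
    have g2 : D * b₂ * S ≤ 3 / 8 * S := mul_le_mul_of_nonneg_right hDb hS
    rw [hQ]
    linarith
  have g1 : b₁ * S ≤ b₁ * (Q * M) := mul_le_mul_of_nonneg_left s5 hb₁0
  have g2 : b₂ * S ≤ b₂ * (Q * M) := mul_le_mul_of_nonneg_left s5 hb₂0
  have g3 : 0 ≤ a₁ * M := by positivity
  have g4 : 0 ≤ a₂ * M := by positivity
  have g5 : 0 ≤ b₁ * (Q * M) := by positivity
  have g6 : 0 ≤ b₂ * (Q * M) := by positivity
  exact ⟨s3.mono (by linarith), s2.mono (by linarith)⟩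

end

end Crest.Agent.R238.An
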