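import Mathlib

/-!
# R238 (log-Brunn–Minkowski): route-independent interface (lead)

Every analytic route (continuity method `R238/An/*`, parabolic flow `R238/F*`, `R238/St*`, …)
delivers `AI n`; the reduction (`R238/Red*`) and the key identity (`R238/Key*`) consume it.
-/

set_option autoImplicit false
open MeasureTheory

namespace Crest.Agent.R238

/-- Euclidean `n`-space. -/
abbrev E (n : ℕ) := EuclideanSpace ℝ (Fin n)

variable {n : ℕ}

/-- partial derivative in the `i`-th coordinate direction. -/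
noncomputable def pd (i : Fin n) (f : E n → ℝ) : E n → ℝ :=
  fun x => fderiv ℝ f x (EuclideanSpace.single i 1)

/-- iterated partial derivative along a list: `pdL [i, j] f = pd i (pd j f)`. -/
noncomputable def pdL (l : List (Fin n)) (f : E n → ℝ) : E n → ℝ := l.foldr pd f

/-- smooth, and every partial derivative of order `≥ k` is bounded. -/
def Cb (k : ℕ) (f : E n → ℝ) : Prop :=
  ContDiff ℝ (⊤ : ℕ∞) f ∧ ∀ l : List (Fin n), k ≤ l.length → ∃ C : ℝ, ∀ x, |pdL l f x| ≤ C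

/-- Hessian matrix. -/
noncomputable def hess (f : E n → ℝ) (x : E n) : Matrix (Fin n) (Fin n) ℝ :=
  Matrix.of fun i j => pd i (pd j f) x

/-- Euler operator `x · Df`. -/
noncomputable def eul (f : E n → ℝ) : E n → ℝ := fun x => ∑ i, x i * pd i f x

/-- `L s = τ^{ij} s_ij - x · Ds`, `τ = (D²u)⁻¹`. -/
noncomputable def Lop (u s : E n → ℝ) : E n → ℝ :=
  fun x => (∑ i, ∑ j, (hess u x)⁻¹ i j * pd i (pd j s) x) - eul s x

/-- `D²f ≥ c` everywhere. -/
def HessGe (c : ℝ) (f : E n → ℝ) : Prop :=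
  ∀ (x : E n) (v : Fin n → ℝ), c * ∑ i, v i ^ 2 ≤ ∑ i, ∑ j, v i * pd i (pd j f) x * v j

/-- the moment-measure Monge–Ampère equation `log det D²u = x · Du - u - φ`. -/
def MA (φ u : E n → ℝ) : Prop :=
  ∀ x, Real.log (hess u x).det = eul u x - u x - φ x

/-- admissible potentials: `φ = |x|²/2 + φ₀`, `φ₀` smooth, even, compactly supported, `D²φ ≥ c > 0`. -/
def Adm (φ : E n → ℝ) : Prop :=
  ContDiff ℝ (⊤ : ℕ∞) φ ∧ (∀ x, φ (-x) = φ x) ∧
    HasCompactSupport (fun x : E n => φ x - ‖x‖ ^ 2 / 2) ∧ ∃ c : ℝ, 0 < c ∧ HessGe c φ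

/-- what the analysis gives for one potential `φ`: a smooth solution of the Monge–Ampère equation
and approximate solvability of `L (L + 1) s = g` in `L²(e^{-φ})` for even mean-zero `g`. -/
def Sol (φ : E n → ℝ) : Prop :=
  ∃ u : E n → ℝ, Cb 2 u ∧ (∀ x, u (-x) = u x) ∧ (∃ c : ℝ, 0 < c ∧ HessGe c u) ∧ MA φ u ∧
    ∀ g : E n → ℝ, Cb 0 g → (∀ x, g (-x) = g x) → ∫ x, g x * Real.exp (-φ x) = 0 →
      ∀ ε : ℝ, 0 < ε → ∃ s : E n → ℝ, Cb 2 s ∧
        ∫ x, (Lop u (fun y => Lop u s y + s y) x - g x) ^ 2 * Real.exp (-φ x) ≤ ε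

/-- THE analytic input. -/
def AI (n : ℕ) : Prop := ∀ φ : E n → ℝ, Adm φ → Sol φ

end Crest.Agent.R238
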