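import Crest.Agent.R238.AnStep
import Crest.Agent.R238.IF

/-!
# R238/AnMain TASK: the continuity method, the linear problems, the interface `AI n`
-/

set_option autoImplicit false

namespace Crest.Agent.R238.An

open MeasureTheory Matrix Set Filter Topology
open scoped ContDiff

noncomputable section

variable {n : ℕ}

theorem anmain_pd_zero (i : Fin n) : pd i (fun _ : E n => (0 : ℝ)) = fun _ => 0 := pd_const i 0

theorem anmain_gm_zero (x : E n) : gm (fun _ : E n => (0 : ℝ)) x = 1 := by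
  ext i j
  simp [gm, hess, anmain_pd_zero]

/-- `h = 0`, `tau 0 = 1`, `onto_one` -/
theorem inv_zero : Inv (fun _ : E n => (0 : ℝ)) := by
  have ht : tau (fun _ : E n => (0 : ℝ)) = fun _ => 1 := by
    funext x
    simp [tau, anmain_gm_zero]
  have he : ∀ x : E n, eul (fun _ : E n => (0 : ℝ)) x = 0 := fun x => by simp [eul]
  refine ⟨fun _ => 0, ⟨(Cb.const 0).g2, fun _ => rfl, ⟨1, 1, one_pos, fun x => ?_⟩, ⟨0, fun x => ?_⟩,
    fun x => ?_⟩, ?_, ?_⟩
  · rw [anmain_gm_zero]; exact Ell.one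
  · simp [he]
  · simp [anmain_gm_zero, he]
  · rw [ht]; exact onto_one 0
  · rw [ht]; exact onto_one 1

/-- induction on `k` for `θ = min 1 (k r)` -/
theorem inv_of_dat {φ₀ : E n → ℝ} {B R₀ : ℝ} (h : Dat φ₀ B R₀) : Inv φ₀ := by
  obtain ⟨r, hr, H⟩ := step (n := n) B R₀
  have key : ∀ k : ℕ, Inv (fun x => min 1 (k * r) * φ₀ x) := by
    intro k
    induction k with
    | zero => simpa using (inv_zero (n := n))
    | succ k ih =>
      have hk : (0 : ℝ) ≤ k * r := by positivity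
      refine H φ₀ _ _ h (le_min zero_le_one hk) ?_ (min_le_left _ _) ?_ ih
      · refine min_le_min le_rfl ?_
        push_cast
        nlinarith
      · push_cast
        rcases le_total 1 (k * r) with h1 | h1
        · rw [min_eq_left h1]
          have := min_le_left 1 ((k + 1 : ℝ) * r)
          linarith
        · rw [min_eq_right h1]
          have := min_le_right 1 ((k + 1 : ℝ) * r)
          linarith
  obtain ⟨k, hk⟩ := exists_nat_ge (1 / r)
  have h1 : 1 ≤ k * r := by rwa [div_le_iff₀ hr] at hk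
  simpa [min_eq_left h1] using key k

/-- `Cb.of_supp`; finitely many lists of length `≤ 3` (`List.finite_length_le`); `eul φ₀` is continuous with
compact support -/
theorem exists_dat {φ₀ : E n → ℝ} {R₀ : ℝ} (hsm : ContDiff ℝ ∞ φ₀) (he : IsEven φ₀)
    (hsupp : ∀ x, R₀ ≤ ‖x‖ → φ₀ x = 0)
    (hpsd : ∀ x (ξ : Fin n → ℝ), 0 ≤ ξ ⬝ᵥ gm φ₀ x *ᵥ ξ) : ∃ B, Dat φ₀ B R₀ := by
  have hcb := Cb.of_supp hsm hsupp
  choose M hM using hcb.bd
  have hfin : {l : List (Fin n) | l.length ≤ 3}.Finite := List.finite_length_le _ 3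
  obtain ⟨B₁, hB₁⟩ := (hfin.image M).bddAbove
  have hE : Cb (eul φ₀) := by
    refine Cb.of_supp (smooth_eul hsm) (R := R₀ + 1) fun x hx => ?_
    rw [eul_eq_sum]
    refine Finset.sum_eq_zero fun i _ => ?_
    have := pdl_supp hsupp [i] x hx
    simp only [pdl] at this
    rw [this, mul_zero]
  obtain ⟨B₂, hB₂⟩ := hE.bd0
  refine ⟨max B₁ B₂, hcb, he, hsupp, fun l hl => (hM l).mono ?_, hB₂.mono (le_max_right _ _), hpsd⟩
  exact (hB₁ ⟨l, hl, rfl⟩).trans (le_max_left _ _)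

/-- `k = Rk 0 F₀` (`mean F₀ = 0` by `Ex_Lop`, `Ex_one_pos`), `k₁ = Rk 1 F₁ + mean F₁`, `s = k - k₁`; `reg_G2` -/
theorem solve_lin {φ₀ h f : E n → ℝ} (hφ : Cb φ₀) (hs : Sol φ₀ h) (h0 : Onto (tau h) 0)
    (h1 : Onto (tau h) 1) (hf : Cb f) (he : IsEven f) (hm : Ex φ₀ f = 0) :
    ∃ k s, G2 k ∧ G2 s ∧ (∀ x, Lop (tau h) k x = f x) ∧ ∀ x, Lop (tau h) s x + s x = k x := by
  obtain ⟨F₀, e₀, c₀, t₀⟩ := h0 f he (hf.ch 0)
  obtain ⟨F₁, e₁, c₁, t₁⟩ := h1 f he (hf.ch 0)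
  obtain ⟨lo, hi, hlo, hell⟩ := hs.tau_ell
  have q₀ : ∀ x, Lop (tau h) (Rk 0 F₀) x + 0 * Rk 0 F₀ x = f x - mean F₀ := fun x => by
    have := Tf_eq (tau h) e₀ c₀ le_rfl zero_le_one x
    rw [t₀] at this
    linarith
  have q₁ : ∀ x, Lop (tau h) (Rk 1 F₁) x + 1 * Rk 1 F₁ x = f x - mean F₁ := fun x => by
    have := Tf_eq (tau h) e₁ c₁ zero_le_one le_rfl x
    rw [t₁] at this
    linarith
  have g₀ : G2 (Rk 0 F₀) := reg_G2 hlo hell hs.cb_tau (Rk_c2 e₀ c₀ le_rfl zero_le_one)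
    (Rk_ch e₀ c₀ le_rfl zero_le_one) (hf.sub (Cb.const _)) q₀
  have g₁ : G2 (Rk 1 F₁) := reg_G2 hlo hell hs.cb_tau (Rk_c2 e₁ c₁ zero_le_one le_rfl)
    (Rk_ch e₁ c₁ zero_le_one le_rfl) (hf.sub (Cb.const _)) q₁
  have m₀ : mean F₀ = 0 := by
    obtain ⟨M, hM⟩ := g₀.c2
    have a1 := Ex_Lop hφ hs hM
    have a2 : Lop (tau h) (Rk 0 F₀) = fun x => f x - mean F₀ * 1 := funext fun x => by
      have := q₀ x
      linarith
    rw [a2, Ex_sub hφ hf.ps.to_pg (PG.const _), hm, Ex_const_mul (mean F₀) (fun _ => 1)] at a1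
    have a3 := Ex_one_pos hφ
    have a4 : mean F₀ * Ex φ₀ (fun _ => 1) = 0 := by linarith
    exact (mul_eq_zero.1 a4).resolve_right a3.ne'
  have two : ∀ {v : E n → ℝ}, G2 v → ContDiff ℝ 2 v := fun hv => contDiff_infty.1 hv.smooth 2
  refine ⟨Rk 0 F₀, fun x => Rk 0 F₀ x - (Rk 1 F₁ x + mean F₁), g₀, g₀.sub (g₁.add_const _),
    fun x => ?_, fun x => ?_⟩
  · have := q₀ x
    linarith
  · rw [Lop_sub _ (two g₀) (two (g₁.add_const _)), Lop_add_const]
    have := q₀ x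
    have := q₁ x
    linarith

theorem anmain_pdL (l : List (Fin n)) (f : E n → ℝ) : R238.pdL l f = pdl l f := by
  induction l with
  | nil => rfl
  | cons i l ih =>
    simp only [R238.pdL, List.foldr_cons, pdl] at ih ⊢
    rw [ih]
    rfl

theorem anmain_eul (f : E n → ℝ) (x : E n) : R238.eul f x = eul f x := (eul_eq_sum f x).symm

theorem anmain_cb2 {f : E n → ℝ} (hsm : ContDiff ℝ ∞ f) (h : ∀ i j, Cb (pd i (pd j f))) :
    R238.Cb 2 f := by
  refine ⟨hsm, fun l hl => ?_⟩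
  rw [anmain_pdL]
  obtain ⟨l₁, j, rfl⟩ : ∃ l₁ j, l = l₁ ++ [j] := by
    rcases List.eq_nil_or_concat' l with rfl | ⟨l₁, j, rfl⟩
    · simp at hl
    · exact ⟨l₁, j, rfl⟩
  obtain ⟨l₂, i, rfl⟩ : ∃ l₂ i, l₁ = l₂ ++ [i] := by
    rcases List.eq_nil_or_concat' l₁ with rfl | ⟨l₂, i, rfl⟩
    · simp at hl
    · exact ⟨l₂, i, rfl⟩
  rw [pdl_append, pdl_append]
  exact (h i j).bd l₂

theorem anmain_sq_smooth : ContDiff ℝ ∞ (fun x : E n => ‖x‖ ^ 2 / 2) :=
  (contDiff_norm_sq ℝ).div_const 2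

theorem anmain_pd_sq (i : Fin n) : pd i (fun x : E n => ‖x‖ ^ 2 / 2) = fun x => x i := by
  have : (fun x : E n => ‖x‖ ^ 2 / 2) = fun x => (1 / 2 : ℝ) * ‖x‖ ^ 2 := by
    funext x
    ring
  rw [this, pd_const_mul, pd_normSq]
  funext x
  ring

theorem anmain_pd2 {h : E n → ℝ} (hh : ContDiff ℝ ∞ h) (i j : Fin n) :
    pd i (pd j (fun x : E n => ‖x‖ ^ 2 / 2 + h x)) = fun x => gm h x i j := by
  have d1 : Differentiable ℝ h := hh.differentiable (by simp)
  have d2 : Differentiable ℝ (pd j h) := (smooth_pd j hh).differentiable (by simp)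
  rw [pd_add j (anmain_sq_smooth.differentiable (by simp)) d1, anmain_pd_sq,
    pd_add i ((contDiff_coord j (m := 1)).differentiable (by simp)) d2, pd_coord]
  funext x
  simp [gm, hess]

theorem anmain_hess {h : E n → ℝ} (hh : ContDiff ℝ ∞ h) (x : E n) :
    R238.hess (fun x : E n => ‖x‖ ^ 2 / 2 + h x) x = gm h x := by
  ext i j
  exact congrFun (anmain_pd2 hh i j) x

theorem anmain_quad (A : Mat n) (v : Fin n → ℝ) :
    v ⬝ᵥ A *ᵥ v = ∑ i, ∑ j, v i * A i j * v j := by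
  simp only [dotProduct, mulVec, Finset.mul_sum, mul_assoc]

/-- bridge to `R238/IF.lean`: `φ₀ = φ - |x|²/2`, `u = |x|²/2 + h`; `R238.pd i = An.pd i` by `rfl`,
`pdL = pdl` by induction, `hess u = gm h`, `eul_eq_sum`; the `L²` error is `0`. -/
theorem ai (n : ℕ) : Crest.Agent.R238.AI n := by
  intro φ ⟨hsm, hev, hcs, c, hc, hge⟩
  set φ₀ : E n → ℝ := fun x => φ x - ‖x‖ ^ 2 / 2 with hφ₀
  have hφ : φ = fun x => ‖x‖ ^ 2 / 2 + φ₀ x := by
    funext x
    simp [hφ₀]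
  have s₀ : ContDiff ℝ ∞ φ₀ := hsm.sub anmain_sq_smooth
  have e₀ : IsEven φ₀ := fun x => by simp [hφ₀, hev]
  obtain ⟨R₀, hR₀⟩ := hcs.isCompact.isBounded.subset_ball (0 : E n)
  have hsupp : ∀ x, R₀ ≤ ‖x‖ → φ₀ x = 0 := fun x hx => by
    by_contra hne
    have := hR₀ (subset_tsupport _ hne)
    rw [mem_ball_zero_iff] at this
    linarith
  have hpsd : ∀ x (ξ : Fin n → ℝ), 0 ≤ ξ ⬝ᵥ gm φ₀ x *ᵥ ξ := fun x ξ => by
    have h1 := hge x ξ
    have h2 : ∀ i j, R238.pd i (R238.pd j φ) x = gm φ₀ x i j := fun i j => by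
      rw [hφ]
      exact congrFun (anmain_pd2 s₀ i j) x
    simp only [h2] at h1
    rw [anmain_quad]
    exact le_trans (by positivity) h1
  obtain ⟨B, hD⟩ := exists_dat s₀ e₀ hsupp hpsd
  obtain ⟨h, hs, o₀, o₁⟩ := inv_of_dat hD
  have hsm' := hs.g2.smooth
  have hL : ∀ s, R238.Lop (fun x : E n => ‖x‖ ^ 2 / 2 + h x) s = Lop (tau h) s := fun s => by
    funext x
    simp only [R238.Lop, Lop, anmain_hess hsm', anmain_eul]
    rfl
  refine ⟨fun x => ‖x‖ ^ 2 / 2 + h x, anmain_cb2 (anmain_sq_smooth.add hsm') fun i j => ?_,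
    fun x => by simp [hs.even x], ?_, fun x => ?_, fun g hg hge' hm ε hε => ?_⟩
  · rw [anmain_pd2 hsm']
    exact hs.g2.cb_gm i j
  · obtain ⟨c', C', hc', hell⟩ := hs.ell
    refine ⟨c', hc', fun x v => ?_⟩
    have h2 : ∀ i j, R238.pd i (R238.pd j fun x : E n => ‖x‖ ^ 2 / 2 + h x) x = gm h x i j :=
      fun i j => congrFun (anmain_pd2 hsm' i j) x
    simp only [h2]
    have h3 := ((hell x).2 v).1
    rw [anmain_quad] at h3
    refine le_trans (le_of_eq ?_) h3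
    simp only [dotProduct, sq]
  · rw [anmain_hess hsm', hs.eqn, anmain_eul, eul_eq_sum (fun x : E n => ‖x‖ ^ 2 / 2 + h x)]
    have d1 : Differentiable ℝ h := hsm'.differentiable (by simp)
    simp only [pd_add _ (anmain_sq_smooth.differentiable (by simp)) d1, anmain_pd_sq, mul_add,
      Finset.sum_add_distrib, ← eul_eq_sum]
    have h4 : ∑ i, x i * x i = ‖x‖ ^ 2 := by
      rw [norm_sq_eq_dot]
      rfl
    rw [h4, hφ₀]
    ring
  · have hg' : Cb g := ⟨hg.1, fun l => by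
      obtain ⟨C, hC⟩ := hg.2 l (Nat.zero_le _)
      rw [anmain_pdL] at hC
      exact ⟨C, hC⟩⟩
    have hm' : Ex φ₀ g = 0 := by
      rw [← hm]
      simp only [Ex, dens, hφ₀]
      congr 1
      funext x
      congr 2
      ring
    obtain ⟨k, s, -, gs, hk, hs'⟩ := solve_lin hD.cb hs o₀ o₁ hg' hge' hm'
    refine ⟨s, anmain_cb2 gs.smooth gs.cb, ?_⟩
    have h5 : (fun y => Lop (tau h) s y + s y) = k := funext hs'
    simp only [hL, h5, hk, sub_self]
    simp [hε.le]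

end

end Crest.Agent.R238.An
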