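import Crest.Agent.R238.AnReg1
import Crest.Agent.R238.AnInv

/-!
# R238/AnReg TASK: bootstrapping regularity
-/

set_option autoImplicit false

namespace Crest.Agent.R238.An

open MeasureTheory Matrix Set Filter Topology
open scoped ContDiff

noncomputable section

variable {n : ℕ}

/-- the differentiated equation -/
theorem Lop_pd {a : E n → Mat n} {v f : E n → ℝ} {c : ℝ}
    (ha : ∀ i j, Differentiable ℝ fun x => a x i j) (hv : ContDiff ℝ 3 v)
    (eqn : ∀ x, Lop a v x + c * v x = f x) (e : Fin n) (x : E n) :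
    Lop a (pd e v) x + (c - 1) * pd e v x =
      pd e f x - ∑ i, ∑ j, pd e (fun x => a x i j) x * pd i (pd j v) x := by
  have h2 : ContDiff ℝ 2 v := hv.of_le (by norm_num)
  have hd1 : Differentiable ℝ v := h2.differentiable (by norm_num)
  have hd2 : ∀ i j, Differentiable ℝ (pd i (pd j v)) := fun i j =>
    (c1_pd i (c2_pd j hv)).differentiable (by norm_num)
  have hde : Differentiable ℝ (eul v) := (c1_eul h2).differentiable (by norm_num)
  have hs1 : ∀ i, Differentiable ℝ fun x => ∑ j, a x i j * pd i (pd j v) x := fun i =>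
    Differentiable.fun_sum fun j _ => (ha i j).fun_mul (hd2 i j)
  have hs : Differentiable ℝ fun x => ∑ i, ∑ j, a x i j * pd i (pd j v) x :=
    Differentiable.fun_sum fun i _ => hs1 i
  have hf : f = fun x => ((∑ i, ∑ j, a x i j * pd i (pd j v) x) - eul v x) + c * v x :=
    funext fun x => (eqn x).symm
  have hcomm : ∀ i j, pd e (pd i (pd j v)) = pd i (pd j (pd e v)) := fun i j => by
    rw [pd_comm (c2_pd j hv) e i, pd_comm h2 e j]
  have key : pd e f x = (∑ i, ∑ j, (pd e (fun x => a x i j) x * pd i (pd j v) x +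
      a x i j * pd i (pd j (pd e v)) x)) - (pd e v x + eul (pd e v) x) + c * pd e v x := by
    rw [hf, pd_add e (hs.fun_sub hde) (hd1.const_mul c), pd_sub e hs hde, pd_const_mul, pd_eul h2,
      pd_sum _ e fun i _ => hs1 i]
    simp only
    congr 2
    refine Finset.sum_congr rfl fun i _ => ?_
    rw [pd_sum _ e fun j _ => (ha i j).fun_mul (hd2 i j)]
    refine Finset.sum_congr rfl fun j _ => ?_
    rw [pd_mul e (ha i j) (hd2 i j), hcomm]
  rw [key]
  simp only [Lop, Finset.sum_add_distrib]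
  ring

/-- induction on `m` (generalising `v f c`): by the induction hypothesis `D²v ∈ CH (m+1)`, so `v` is
`C³`; apply the induction hypothesis to `pd e v` with `Lop_pd`. -/
theorem reg (m : ℕ) {a : E n → Mat n} {v f : E n → ℝ} {lo hi c : ℝ} (hlo : 0 < lo)
    (ha : ∀ x, Ell (a x) lo hi) (ha1 : ∀ i j, CH (m + 1) fun x => a x i j) (hv : ContDiff ℝ 2 v)
    (hv0 : ∀ i j, CH 0 (pd i (pd j v))) (hf : Differentiable ℝ f) (hf0 : ∀ i, CH m (pd i f))
    (eqn : ∀ x, Lop a v x + c * v x = f x) : ∀ i j, CH (m + 1) (pd i (pd j v)) := by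
  induction m generalizing v f c with
  | zero => exact reg_one hlo ha ha1 hv hv0 hf hf0 eqn
  | succ m ih =>
    have h1 : ∀ i j, CH (m + 1) (pd i (pd j v)) :=
      ih (fun i j => (ha1 i j).pred) hv hv0 hf (fun i => (hf0 i).pred) eqn
    have h3 : ContDiff ℝ 3 v :=
      contDiff_three_of_ch hv fun i j => (h1 i j).of_le (by omega)
    have h2 : ∀ e i j, CH (m + 1) (pd i (pd j (pd e v))) := by
      intro e
      have hF : CH (m + 1) fun x =>
          pd e f x - ∑ i, ∑ j, pd e (fun x => a x i j) x * pd i (pd j v) x :=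
        (hf0 e).sub (CH.sum _ fun i _ => CH.sum _ fun j _ => ((ha1 i j).2.2 e).mul (h1 i j))
      exact ih (fun i j => (ha1 i j).pred) (c2_pd e h3)
        (fun i j => ((h1 j e).2.2 i).zero) hF.2.1 hF.2.2
        (Lop_pd (fun i j => (ha1 i j).2.1) h3 eqn e)
    intro i j
    exact ⟨(h1 i j).1, (h1 i j).2.1, fun k => h2 j k i⟩

theorem reg_G2 {a : E n → Mat n} {v f : E n → ℝ} {lo hi c : ℝ} (hlo : 0 < lo)
    (ha : ∀ x, Ell (a x) lo hi) (ha1 : ∀ i j, Cb fun x => a x i j) (hv : ContDiff ℝ 2 v)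
    (hv0 : ∀ i j, CH 0 (pd i (pd j v))) (hf : Cb f)
    (eqn : ∀ x, Lop a v x + c * v x = f x) : G2 v := by
  refine G2.of_ch hv fun m i j => ?_
  exact (reg m hlo ha (fun i j => (ha1 i j).ch _) hv hv0 (hf.ch 1).2.1
    (fun i => (hf.ch (m + 1)).2.2 i) eqn i j).pred

/-- differentiate the Monge–Ampère equation once (`pd_logdet`, `pd_gm`, `pd_eul`, symmetry) -/
theorem MA_pd {φ₀ h : E n → ℝ} (hφ : Differentiable ℝ φ₀) (hh : ContDiff ℝ 3 h)
    (hd : ∀ x, (gm h x).det ≠ 0)
    (eqn : ∀ x, Real.log (gm h x).det = eul h x - h x - φ₀ x) (e : Fin n) (x : E n) :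
    Lop (tau h) (pd e h) x = -pd e φ₀ x := by
  have h2 : ContDiff ℝ 2 h := hh.of_le (by norm_num)
  have hd1 : Differentiable ℝ h := h2.differentiable (by norm_num)
  have hde : Differentiable ℝ (eul h) := (c1_eul h2).differentiable (by norm_num)
  have hg : ∀ i j, ContDiff ℝ 1 fun x => gm h x i j := fun i j => by
    have e1 : (fun x => gm h x i j) = fun x => (1 : Mat n) i j + pd i (pd j h) x := by
      funext x
      simp [gm, hess]
    rw [e1]
    exact contDiff_const.add (c1_pd i (c2_pd j hh))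
  have h1 := pd_logdet hg hd e x
  have hf : (fun x => Real.log (gm h x).det) = fun x => eul h x - h x - φ₀ x := funext eqn
  rw [hf, pd_sub e (hde.fun_sub hd1) hφ, pd_sub e hde hd1, pd_eul h2] at h1
  have hcomm : ∀ i j, pd e (pd j (pd i h)) = pd i (pd j (pd e h)) := fun i j => by
    rw [pd_comm h2 j i, pd_comm (c2_pd j hh) e i, pd_comm h2 e j]
  simp only [pd_gm, hcomm] at h1
  simp only [Lop, tau]
  linarith

end

end Crest.Agent.R238.An
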