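import Crest.Agent.R238.AnInt
import Crest.Agent.R238.AnSch

/-!
# R238/AnReg1 TASK: one step of regularity by difference quotients
-/

set_option autoImplicit false

namespace Crest.Agent.R238.An

open MeasureTheory Matrix Set Filter Topology
open scoped ContDiff

noncomputable section

variable {n : ℕ}

/-- difference quotient -/
def dq (i : Fin n) (t : ℝ) (v : E n → ℝ) (x : E n) : ℝ := t⁻¹ * (v (x + t • ev i) - v x)

theorem pd_dq {v : E n → ℝ} (hv : Differentiable ℝ v) (i j : Fin n) (t : ℝ) :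
    pd j (dq i t v) = dq i t (pd j v) := by
  have h1 : Differentiable ℝ fun x : E n => v (x + t • ev i) := hv.comp (differentiable_id.add_const _)
  unfold dq
  rw [pd_const_mul, pd_sub j h1 hv, pd_transl]

theorem contDiff_dq {v : E n → ℝ} {m : WithTop ℕ∞} (hv : ContDiff ℝ m v) (i : Fin n) (t : ℝ) :
    ContDiff ℝ m (dq i t v) := by
  unfold dq
  exact contDiff_const.mul ((hv.comp (contDiff_id.add contDiff_const)).sub hv)

theorem anreg1_mvt {g g' : ℝ → ℝ} {M : ℝ} (hg : ∀ s, HasDerivAt g (g' s) s) (h : ∀ s, |g' s| ≤ M) (hM : 0 ≤ M)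
    (t : ℝ) : |t⁻¹ * (g t - g 0)| ≤ M := by
  have h1 := convex_univ.norm_image_sub_le_of_norm_hasDerivWithin_le (f := g) (f' := g') (C := M)
    (fun s _ => (hg s).hasDerivWithinAt) (fun s _ => h s) (mem_univ 0) (mem_univ t)
  simp only [Real.norm_eq_abs, sub_zero] at h1
  rcases eq_or_ne t 0 with rfl | ht
  · simpa using hM
  · rw [abs_mul, abs_inv, inv_mul_le_iff₀ (abs_pos.2 ht), mul_comm]
    exact h1

/-- mean value theorem in `t` -/
theorem bd_dq {v : E n → ℝ} {M : ℝ} (hv : Differentiable ℝ v) {i : Fin n} (h : Bd (pd i v) M)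
    (t : ℝ) : Bd (dq i t v) M := by
  intro x
  have h1 := anreg1_mvt (g := fun s : ℝ => v (x + s • ev i)) (g' := fun s => pd i v (x + s • ev i))
    (fun s => hasDerivAt_ev hv x i s) (fun s => h _) h.nonneg t
  simpa [dq] using h1

/-- mean value theorem for `s ↦ v (x + s e_i) - v (y + s e_i)` -/
theorem hol_dq {v : E n → ℝ} {K : ℝ} (hv : Differentiable ℝ v) {i : Fin n} (h : Hol (pd i v) K)
    (hK : 0 ≤ K) (t : ℝ) : Hol (dq i t v) K := by
  intro x y
  have h1 := anreg1_mvt (g := fun s : ℝ => v (x + s • ev i) - v (y + s • ev i))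
    (g' := fun s => pd i v (x + s • ev i) - pd i v (y + s • ev i)) (M := K * √‖x - y‖)
    (fun s => (hasDerivAt_ev hv x i s).sub (hasDerivAt_ev hv y i s))
    (fun s => by simpa using h (x + s • ev i) (y + s • ev i)) (by positivity) t
  have e : dq i t v x - dq i t v y = t⁻¹ * (v (x + t • ev i) - v (y + t • ev i) -
      (v (x + (0 : ℝ) • ev i) - v (y + (0 : ℝ) • ev i))) := by
    simp only [dq, zero_smul, add_zero]; ring
  rw [e]; exact h1

theorem lip_dq {v : E n → ℝ} {M : ℝ} (hv : C2 v M) (i : Fin n) (t : ℝ) (x y : E n) :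
    |dq i t v x - dq i t v y| ≤ n * M * ‖x - y‖ := by
  have hd : Differentiable ℝ v := hv.c2.differentiable (by norm_num)
  refine abs_sub_le_of_pd ((contDiff_dq hv.c2 i t).differentiable (by norm_num)) (fun j => ?_) x y
  rw [pd_dq hd]
  exact bd_dq ((c1_pd j hv.c2).differentiable (by norm_num)) (hv.bd i j) t

/-- `w = dq i t v` is `C²` with `D²w` bounded and Hölder (constants depending on `t`), `|Dw| ≤ M₂`.
Take the minimal Hölder constant `N` of `D²w` (`exists_min_hol` over pairs); `interp` gives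
`C2 w (εN + C_ε M₂)`, `schauder` (with `c = 0`) gives `N ≤ C (M + εN + C_ε M₂)`, so `N ≤ C'` and
`|D²w| ≤ C'` uniformly in `i, t`; apply `mix` to `G = pd j (pd k v)`. -/
theorem reg_dq {v : E n → ℝ} {lo hi A M : ℝ} (hlo : 0 < lo) (hM : 0 ≤ M) (hv : ContDiff ℝ 2 v)
    (hv0 : ∀ i j, CH 0 (pd i (pd j v)))
    (h : ∀ (i : Fin n) (t : ℝ), t ≠ 0 → ∃ a : E n → Mat n, (∀ x, Ell (a x) lo hi) ∧
      (∀ j k, Hol (fun x => a x j k) A) ∧ HolL (Lop a (dq i t v)) M) :
    ∀ i j, CH 1 (pd i (pd j v)) := by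
  obtain ⟨M₂, hM₂, h2⟩ := CH.exists_unif (f := fun p : Fin n × Fin n => pd p.1 (pd p.2 v)) fun p => hv0 p.1 p.2
  obtain ⟨C, hC, hS⟩ := schauder (n := n) lo hi A hlo
  have hε : (0 : ℝ) < 1 / (2 * (C + 1)) := by positivity
  obtain ⟨C', hC', hI⟩ := interp (n := n) _ hε
  have hd : Differentiable ℝ v := hv.differentiable (by norm_num)
  have hd1 : ∀ k, Differentiable ℝ (pd k v) := fun k => (c1_pd k hv).differentiable (by norm_num)
  set K : ℝ := 2 * (C * (M + C' * M₂)) with hK
  have hK0 : 0 ≤ K := by positivity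
  set L : ℝ := 1 / (2 * (C + 1)) * K + C' * M₂ with hL
  have key : ∀ (i : Fin n) (t : ℝ), t ≠ 0 → ∀ j k,
      Bd (dq i t (pd j (pd k v))) L ∧ Hol (dq i t (pd j (pd k v))) K := by
    intro i t ht
    obtain ⟨a, ha, haA, haM⟩ := h i t ht
    have hw : ContDiff ℝ 2 (dq i t v) := contDiff_dq hv i t
    have e : ∀ j k, pd j (pd k (dq i t v)) = dq i t (pd j (pd k v)) := by
      intro j k
      rw [pd_dq hd, pd_dq (hd1 k)]
    have hb1 : ∀ k, Bd (pd k (dq i t v)) M₂ := by
      intro k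
      rw [pd_dq hd]
      exact bd_dq (hd1 k) (h2 (i, k)).1 t
    have hh : ∀ p : Fin n × Fin n, Hol (pd p.1 (pd p.2 (dq i t v))) (|t⁻¹| * (M₂ + M₂)) := by
      intro p
      rw [e]
      exact (((h2 p).2.transl (t • ev i)).sub (h2 p).2).const_mul t⁻¹
    obtain ⟨N, hN0, hN, hmin⟩ := exists_min_hol hh
    have hb2 := hI _ M₂ N hw hb1 hN0 fun j k => hN (j, k)
    have hs := hS a _ 0 M _ N ha haA (by simp) ⟨hw, hb2⟩ (fun j k => hN (j, k)) hM
      (by simpa using haM)
    have hle := hmin _ (by positivity) fun p => hs p.1 p.2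
    have h3 : C * (1 / (2 * (C + 1))) ≤ 1 / 2 := by
      rw [mul_one_div, div_le_div_iff₀ (by positivity) (by positivity)]
      linarith
    have h4 : C * (1 / (2 * (C + 1))) * N ≤ 1 / 2 * N := mul_le_mul_of_nonneg_right h3 hN0
    have hNK : N ≤ K := by
      rw [hK]
      nlinarith
    intro j k
    rw [← e]
    refine ⟨(hb2 j k).mono ?_, (hN (j, k)).mono hNK⟩
    rw [hL]
    gcongr
  intro j k
  have hG : PG (pd j (pd k v)) := PG.of_bd (h2 (j, k)).2.cont (h2 (j, k)).1
  have hm := mix (L := L) hG hK0 (fun i t x => ?_) (fun i t x y => ?_)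
  · exact ⟨⟨M₂, M₂, (h2 (j, k)).1, (h2 (j, k)).2⟩, hm.1, fun i => ⟨L, K, (hm.2 i).1, (hm.2 i).2⟩⟩
  · rcases eq_or_ne t 0 with rfl | ht
    · simp
    · have h1 := (key i t ht j k).1 x
      have e : pd j (pd k v) (x + t • ev i) - pd j (pd k v) x = dq i t (pd j (pd k v)) x * t := by
        simp only [dq]; field_simp
      rw [e, abs_mul]
      exact mul_le_mul_of_nonneg_right h1 (abs_nonneg _)
  · rcases eq_or_ne t 0 with rfl | ht
    · simp
    · have h1 := (key i t ht j k).2 x y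
      have e : pd j (pd k v) (x + t • ev i) - pd j (pd k v) x -
          (pd j (pd k v) (y + t • ev i) - pd j (pd k v) y) =
          (dq i t (pd j (pd k v)) x - dq i t (pd j (pd k v)) y) * t := by
        simp only [dq]; field_simp
      rw [e, abs_mul]
      calc _ ≤ K * √‖x - y‖ * |t| := mul_le_mul_of_nonneg_right h1 (abs_nonneg _)
        _ = _ := by ring

/-- `Lop a (dq i t v) x = dq i t f x - c dq i t v x - ∑ dq i t a_jk x * v_jk (x + t e_i)
  + pd i v (x + t e_i)` -/
theorem reg_one {a : E n → Mat n} {v f : E n → ℝ} {lo hi c : ℝ} (hlo : 0 < lo)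
    (ha : ∀ x, Ell (a x) lo hi) (ha1 : ∀ i j, CH 1 fun x => a x i j) (hv : ContDiff ℝ 2 v)
    (hv0 : ∀ i j, CH 0 (pd i (pd j v))) (hf : Differentiable ℝ f) (hf0 : ∀ i, CH 0 (pd i f))
    (eqn : ∀ x, Lop a v x + c * v x = f x) : ∀ i j, CH 1 (pd i (pd j v)) := by
  obtain ⟨M₂, hM₂, h2⟩ := CH.exists_unif (f := fun p : Fin n × Fin n => pd p.1 (pd p.2 v)) fun p => hv0 p.1 p.2
  obtain ⟨A, hA, hA2⟩ := CH.exists_unif (f := fun (p : Fin n × Fin n) x => a x p.1 p.2)
    fun p => (ha1 p.1 p.2).zero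
  obtain ⟨A₁, hA₁, hA3⟩ := CH.exists_unif
    (f := fun (p : Fin n × Fin n × Fin n) => pd p.1 fun x => a x p.2.1 p.2.2)
    fun p => (ha1 p.2.1 p.2.2).2.2 p.1
  obtain ⟨F, hF, hF2⟩ := CH.exists_unif hf0
  have hC2 : C2 v M₂ := ⟨hv, fun i j => (h2 (i, j)).1⟩
  have hd : Differentiable ℝ v := hv.differentiable (by norm_num)
  have hd1 : ∀ k, Differentiable ℝ (pd k v) := fun k => (c1_pd k hv).differentiable (by norm_num)
  refine reg_dq (lo := lo) (hi := hi) (A := A)
    (M := F + |c| * (n * M₂) + n * (n * (A₁ * M₂ + A₁ * M₂)) + n * M₂) hlo (by positivity) hv hv0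
    fun i t ht => ⟨a, ha, fun j k => (hA2 (j, k)).2, ?_⟩
  have e : Lop a (dq i t v) = fun x => dq i t f x - c * dq i t v x -
      (∑ j, ∑ k, dq i t (fun y => a y j k) x * pd j (pd k v) (x + t • ev i)) + pd i v (x + t • ev i) := by
    funext x
    have e1 := eqn x
    have e2 := eqn (x + t • ev i)
    have e3 : eul v (x + t • ev i) = (∑ l, x l * pd l v (x + t • ev i)) + t * pd i v (x + t • ev i) := by
      rw [eul_eq_sum]
      have : ∀ l, (x + t • ev i) l * pd l v (x + t • ev i) =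
          x l * pd l v (x + t • ev i) + if i = l then t * pd l v (x + t • ev i) else 0 := by
        intro l
        simp only [PiLp.add_apply, PiLp.smul_apply, ev_apply, smul_eq_mul, Matrix.one_apply]
        split_ifs <;> ring
      simp only [this, Finset.sum_add_distrib, Finset.sum_ite_eq, Finset.mem_univ, if_true]
    have e4 : eul (dq i t v) x = t⁻¹ * ((∑ l, x l * pd l v (x + t • ev i)) - eul v x) := by
      rw [eul_eq_sum, eul_eq_sum, ← Finset.sum_sub_distrib, Finset.mul_sum]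
      refine Finset.sum_congr rfl fun l _ => ?_
      rw [pd_dq hd]
      simp only [dq]; ring
    have e5 : (∑ j, ∑ k, a x j k * pd j (pd k (dq i t v)) x) +
        (∑ j, ∑ k, dq i t (fun y => a y j k) x * pd j (pd k v) (x + t • ev i)) =
        t⁻¹ * ((∑ j, ∑ k, a (x + t • ev i) j k * pd j (pd k v) (x + t • ev i)) -
          ∑ j, ∑ k, a x j k * pd j (pd k v) x) := by
      rw [← Finset.sum_add_distrib, ← Finset.sum_sub_distrib, Finset.mul_sum]
      refine Finset.sum_congr rfl fun j _ => ?_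
      rw [← Finset.sum_add_distrib, ← Finset.sum_sub_distrib, Finset.mul_sum]
      refine Finset.sum_congr rfl fun k _ => ?_
      rw [pd_dq hd, pd_dq (hd1 k)]
      simp only [dq]; ring
    simp only [Lop] at e1 e2 ⊢
    rw [e4]
    simp only [dq] at e5 ⊢
    rw [← e1, ← e2, e3]
    have e6 : t⁻¹ * t = 1 := inv_mul_cancel₀ ht
    linear_combination e5 + pd i v (x + t • ev i) * e6
  rw [e]
  refine HolL.add (HolL.sub (HolL.sub ((hol_dq hf (hF2 i).2 hF t).holL hF) ?_) ?_) ?_
  · refine HolL.of_lip (by positivity) fun x y => ?_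
    rw [← mul_sub, abs_mul, mul_assoc]
    exact mul_le_mul_of_nonneg_left (lip_dq hC2 i t x y) (abs_nonneg _)
  · refine Hol.holL ?_ (by positivity)
    have := Hol.sum (Finset.univ : Finset (Fin n))
      (f := fun j x => ∑ k, dq i t (fun y => a y j k) x * pd j (pd k v) (x + t • ev i))
      (K := n * (A₁ * M₂ + A₁ * M₂)) fun j _ => by
        have := Hol.sum (Finset.univ : Finset (Fin n))
          (f := fun k x => dq i t (fun y => a y j k) x * pd j (pd k v) (x + t • ev i))
          (K := A₁ * M₂ + A₁ * M₂) fun k _ =>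
            Hol.mul (bd_dq (ha1 j k).2.1 (hA3 (i, j, k)).1 t) (hol_dq (ha1 j k).2.1 (hA3 (i, j, k)).2 hA₁ t)
              (fun x => (h2 (j, k)).1 _) ((h2 (j, k)).2.transl _)
        simpa using this
    simpa using this
  · refine HolL.of_lip (by positivity) fun x y => ?_
    simpa using hC2.pd_lip i (x + t • ev i) (y + t • ev i)

end

end Crest.Agent.R238.An
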