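import Crest.Agent.R238.AnReg

/-!
# R238/AnRegN TASK: `C^{2,1/2}` solutions of the Monge–Ampère equation are smooth
-/

set_option autoImplicit false

namespace Crest.Agent.R238.An

open MeasureTheory Matrix Set Filter Topology
open scoped ContDiff

noncomputable section

variable {n : ℕ}

theorem anregn_eul {h : E n → ℝ} (hh : Differentiable ℝ h) (i : Fin n) {t : ℝ} (ht : t ≠ 0) (x : E n) :
    eul (dq i t h) x = t⁻¹ * (eul h (x + t • ev i) - eul h x) - pd i h (x + t • ev i) := by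
  have e1 : eul h (x + t • ev i) = ∑ l, x l * pd l h (x + t • ev i) + t * pd i h (x + t • ev i) := by
    unfold eul
    rw [map_add, map_smul, fderiv_eq_sum h _ x]
    rfl
  rw [e1, eul_eq_sum, eul_eq_sum h x]
  simp only [pd_dq hh, dq]
  have e2 : ∑ l, x l * (t⁻¹ * (pd l h (x + t • ev i) - pd l h x)) =
      t⁻¹ * (∑ l, x l * pd l h (x + t • ev i) - ∑ l, x l * pd l h x) := by
    rw [← Finset.sum_sub_distrib, Finset.mul_sum]
    exact Finset.sum_congr rfl fun l _ => by ring
  rw [e2]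
  field_simp
  ring

theorem anregn_cont {a b : Mat n} {lo hi : ℝ} (ha : Ell a lo hi) (hb : Ell b lo hi) (hlo : 0 < lo) (j k : Fin n) :
    ContinuousOn (fun s : ℝ => (a + s • (b - a))⁻¹ j k) (Icc 0 1) := by
  refine continuousOn_inv_curve (a := fun s : ℝ => a + s • (b - a)) (fun i j => ?_)
    (fun s hs => ((ha.convex hb hs.1 hs.2).det_pos hlo).ne') j k
  simp only [Matrix.add_apply, Matrix.smul_apply, smul_eq_mul]
  fun_prop

theorem anregn_hol {a b a' b' : Mat n} {lo hi δ : ℝ} (ha : Ell a lo hi) (hb : Ell b lo hi) (ha' : Ell a' lo hi)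
    (hb' : Ell b' lo hi) (hlo : 0 < lo) (h1 : ∀ i j, |a i j - a' i j| ≤ δ) (h2 : ∀ i j, |b i j - b' i j| ≤ δ)
    (j k : Fin n) :
    |(∫ s in (0 : ℝ)..1, (a + s • (b - a))⁻¹ j k) - ∫ s in (0 : ℝ)..1, (a' + s • (b' - a'))⁻¹ j k| ≤
      n * (n * (lo⁻¹ * (lo⁻¹ * δ))) := by
  rw [← intervalIntegral.integral_sub ((anregn_cont ha hb hlo j k).intervalIntegrable_of_Icc zero_le_one)
    ((anregn_cont ha' hb' hlo j k).intervalIntegrable_of_Icc zero_le_one)]
  have := intervalIntegral.norm_integral_le_of_norm_le_const (a := (0 : ℝ)) (b := 1)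
    (f := fun s : ℝ => (a + s • (b - a))⁻¹ j k - (a' + s • (b' - a'))⁻¹ j k)
    (C := n * (n * (lo⁻¹ * (lo⁻¹ * δ)))) fun s hs => by
      rw [uIoc_of_le zero_le_one] at hs
      refine Ell.inv_sub (ha.convex hb hs.1.le hs.2) (ha'.convex hb' hs.1.le hs.2) hlo (fun p q => ?_) j k
      simp only [Matrix.add_apply, Matrix.smul_apply, Matrix.sub_apply, smul_eq_mul]
      have e : a p q + s * (b p q - a p q) - (a' p q + s * (b' p q - a' p q)) =
          (1 - s) * (a p q - a' p q) + s * (b p q - b' p q) := by ring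
      rw [e]
      refine (abs_add_le _ _).trans ?_
      rw [abs_mul, abs_mul, abs_of_nonneg (by linarith [hs.2] : 0 ≤ 1 - s), abs_of_pos hs.1]
      have k1 := mul_le_mul_of_nonneg_left (h1 p q) (by linarith [hs.2] : 0 ≤ 1 - s)
      have k2 := mul_le_mul_of_nonneg_left (h2 p q) hs.1.le
      linarith
  simpa using this

theorem anregn_gm (h : E n → ℝ) (x y : E n) (j k : Fin n) :
    gm h x j k - gm h y j k = pd j (pd k h) x - pd j (pd k h) y := by
  simp [gm, hess]

/-- `reg_dq` with `a x = ∫₀¹ (g x + s (g (x+te) - g x))⁻¹ ds` (`logdet_sub`, `Ell.integral`, `Ell.convex`,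
`Ell.inv`, `Ell.inv_sub` for the Hölder bound under the integral);
`Lop a (dq i t h) x = pd i h (x + t e_i) - dq i t h x - dq i t φ₀ x`, three Lipschitz functions. -/
theorem regN_one {φ₀ h : E n → ℝ} {c C : ℝ} (hφ : Cb φ₀) (hh : ContDiff ℝ 2 h)
    (hh0 : ∀ i j, CH 0 (pd i (pd j h))) (hc : 0 < c) (hell : ∀ x, Ell (gm h x) c C)
    (eqn : ∀ x, Real.log (gm h x).det = eul h x - h x - φ₀ x) :
    ∀ i j, CH 1 (pd i (pd j h)) := by
  intro i₀ j₀
  have hC : 0 < C := hc.trans_le (amat_hi (hell 0) i₀)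
  obtain ⟨M, hM0, hM⟩ := CH.exists_unif (ι := Fin n × Fin n) (f := fun p => pd p.1 (pd p.2 h))
    fun p => hh0 p.1 p.2
  obtain ⟨M', hM0', hM'⟩ := CH.exists_unif (ι := Fin n × Fin n) (f := fun p => pd p.1 (pd p.2 φ₀))
    fun p => ((hφ.pd p.2).pd p.1).ch 0
  have c2h : C2 h M := ⟨hh, fun i j => (hM (i, j)).1⟩
  have c2φ : C2 φ₀ M' := ⟨(contDiff_infty.1 hφ.smooth 2), fun i j => (hM' (i, j)).1⟩
  have hd : Differentiable ℝ h := hh.differentiable (by simp)
  have hd1 : ∀ k, Differentiable ℝ (pd k h) := fun k => (c1_pd k hh).differentiable (by simp)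
  refine reg_dq (lo := C⁻¹) (hi := c⁻¹) (A := n * (n * (c⁻¹ * (c⁻¹ * M)))) (M := n * M + n * M + n * M')
    (inv_pos.2 hC) (by positivity) hh hh0 (fun i t ht => ?_) i₀ j₀
  refine ⟨fun x => Matrix.of fun j k =>
    ∫ s in (0 : ℝ)..1, (gm h x + s • (gm h (x + t • ev i) - gm h x))⁻¹ j k, fun x => ?_, fun j k x y => ?_, ?_⟩
  · exact Ell.integral (a := fun s => (gm h x + s • (gm h (x + t • ev i) - gm h x))⁻¹)
      (anregn_cont (hell _) (hell _) hc) fun s hs => ((hell _).convex (hell _) hs.1 hs.2).inv hc hC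
  · simp only [Matrix.of_apply]
    refine (anregn_hol (δ := M * √‖x - y‖) (hell _) (hell _) (hell _) (hell _) hc (fun p q => ?_)
      (fun p q => ?_) j k).trans (le_of_eq (by ring))
    · rw [anregn_gm]
      exact (hM (p, q)).2 x y
    · rw [anregn_gm]
      exact ((hM (p, q)).2.transl (t • ev i)) x y
  · have key : Lop (fun x => Matrix.of fun j k =>
        ∫ s in (0 : ℝ)..1, (gm h x + s • (gm h (x + t • ev i) - gm h x))⁻¹ j k) (dq i t h) =
        fun x => pd i h (x + t • ev i) - dq i t h x - dq i t φ₀ x := by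
      funext x
      have e1 := logdet_sub (hell x) (hell (x + t • ev i)) hc
      rw [eqn, eqn] at e1
      simp only [anregn_gm] at e1
      unfold Lop
      rw [anregn_eul hd i ht]
      simp only [Matrix.of_apply, pd_dq hd, pd_dq (hd1 _), dq]
      have e2 : ∑ j, ∑ k, (∫ s in (0 : ℝ)..1, (gm h x + s • (gm h (x + t • ev i) - gm h x))⁻¹ j k) *
          (t⁻¹ * (pd j (pd k h) (x + t • ev i) - pd j (pd k h) x)) =
          t⁻¹ * ∑ j, ∑ k, (∫ s in (0 : ℝ)..1, (gm h x + s • (gm h (x + t • ev i) - gm h x))⁻¹ j k) *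
          (pd j (pd k h) (x + t • ev i) - pd j (pd k h) x) := by
        simp only [Finset.mul_sum]
        exact Finset.sum_congr rfl fun j _ => Finset.sum_congr rfl fun k _ => by ring
      rw [e2, ← e1]
      ring
    rw [key]
    refine HolL.sub (HolL.sub (HolL.of_lip (by positivity) fun x y => ?_)
      (HolL.of_lip (by positivity) (lip_dq c2h i t))) (HolL.of_lip (by positivity) (lip_dq c2φ i t))
    have := abs_sub_le_of_pd (hd1 i) (fun l => (hM (l, i)).1) (x + t • ev i) (y + t • ev i)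
    rwa [add_sub_add_right_eq_sub] at this

/-- induction: `D²h ∈ CH (m+1)` ⇒ `τ ∈ CH (m+1)` (`CH.inv`) ⇒ `reg m` for `pd e h` (`MA_pd`, `c = 0`)
⇒ `D²h ∈ CH (m+2)` -/
theorem regN {φ₀ h : E n → ℝ} {c C : ℝ} (hφ : Cb φ₀) (hh : ContDiff ℝ 2 h)
    (hh0 : ∀ i j, CH 0 (pd i (pd j h))) (hc : 0 < c) (hell : ∀ x, Ell (gm h x) c C)
    (eqn : ∀ x, Real.log (gm h x).det = eul h x - h x - φ₀ x) : G2 h := by
  have key : ∀ m i j, CH (m + 1) (pd i (pd j h)) := by
    intro m
    induction m with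
    | zero => exact regN_one hφ hh hh0 hc hell eqn
    | succ m ih =>
      intro j e
      have hC : 0 < C := hc.trans_le (amat_hi (hell 0) j)
      have h3 : ContDiff ℝ 3 h := contDiff_three_of_ch hh fun i j => (ih i j).of_le (by omega)
      have hg : ∀ i j, CH (m + 1) fun x => gm h x i j := fun i j => (CH.const _ ((1 : Mat n) i j)).add (ih i j)
      have hτ : ∀ i j, CH (m + 1) fun x => tau h x i j := fun i j => CH.inv hg hell hc i j
      have hφ' : Cb fun x => -pd e φ₀ x := (hφ.pd e).neg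
      have := reg m (a := tau h) (v := pd e h) (f := fun x => -pd e φ₀ x) (c := 0) (inv_pos.2 hC)
        (fun x => (hell x).inv hc hC) hτ (c2_pd e h3) (fun i j => ((ih j e).2.2 i).zero)
        (hφ'.smooth.differentiable (by simp)) (fun i => (hφ'.pd i).ch m) fun x => by
          rw [zero_mul, add_zero]
          exact MA_pd (hφ.smooth.differentiable (by simp)) h3 (fun x => ((hell x).det_pos hc).ne') eqn e x
      exact ⟨(ih j e).zero, (ih j e).2.1, fun i => this i j⟩
  exact G2.of_ch hh fun m i j => (key m i j).pred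

end

end Crest.Agent.R238.An
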