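import Crest.Agent.R238.AnG3
import Crest.Agent.R238.AnG5

/-!
# R238/AnRk1 TASK: derivatives of the resolvent `Rk`, linearity
-/

set_option autoImplicit false

namespace Crest.Agent.R238.An

open MeasureTheory Matrix Set Filter Topology
open scoped ContDiff

noncomputable section

variable {n : ℕ}

variable {F G : E n → ℝ} {c : ℝ}

theorem anrk1_exp (h1 : c ≤ 1) {t : ℝ} (ht : 0 < t) :
    Real.exp (c * t) * Real.exp (-2 * t) ≤ Real.exp (-t) := by
  rw [← Real.exp_add]
  exact Real.exp_le_exp.2 (by nlinarith)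

theorem anrk1_dom (h1 : c ≤ 1) {t v A B : ℝ} (ht : 0 < t) (hA : 0 ≤ A) (hB : 0 ≤ B)
    (a1 : t ≤ 1 → |v| ≤ A / sd t) (a2 : 1 ≤ t → |v| ≤ B * Real.exp (-2 * t)) :
    |Real.exp (c * t) * v| ≤ (A * Real.exp 2 + B) * (Real.exp (-t) / sd t) := by
  have s0 := sd_pos ht
  have e0 := Real.exp_pos (c * t)
  have w0 : 0 < Real.exp (-t) / sd t := div_pos (Real.exp_pos _) s0
  rw [abs_mul, abs_of_pos e0, add_mul]
  rcases le_total t 1 with h | h
  · have b1 : Real.exp (c * t) ≤ Real.exp 2 * Real.exp (-t) := by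
      rw [← Real.exp_add]
      exact Real.exp_le_exp.2 (by nlinarith)
    have b2 : Real.exp (c * t) * |v| ≤ Real.exp 2 * Real.exp (-t) * (A / sd t) :=
      mul_le_mul b1 (a1 h) (abs_nonneg _) (by positivity)
    have b3 : Real.exp 2 * Real.exp (-t) * (A / sd t) = A * Real.exp 2 * (Real.exp (-t) / sd t) := by
      ring
    have b4 := mul_nonneg hB w0.le
    linarith
  · have b1 := mul_le_mul_of_nonneg_left (a2 h) e0.le
    have b2 := mul_le_mul_of_nonneg_left (anrk1_exp h1 ht) hB
    have b3 : Real.exp (-t) ≤ Real.exp (-t) / sd t :=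
      le_div_self (Real.exp_pos _).le s0 (sd_le_one t)
    have b4 := mul_le_mul_of_nonneg_left b3 hB
    have b5 : 0 ≤ A * Real.exp 2 * (Real.exp (-t) / sd t) := by positivity
    nlinarith

theorem anrk1_cexp (c : ℝ) : Continuous fun t : ℝ => Real.exp (c * t) := by fun_prop

/-- bound `2 M e` on `(0,1]`, `Pt_decay` on `[1,∞)` -/
theorem integrableOn_Rk (he : IsEven F) (hF : CH 0 F) (h0 : 0 ≤ c) (h1 : c ≤ 1) (x : E n) :
    IntegrableOn (fun t => Real.exp (c * t) * (Pt t F x - mean F)) (Ioi 0) := by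
  obtain ⟨M, hM, hb, hh⟩ := hF.exists_common
  obtain ⟨C, hC, hd⟩ := Pt_decay (n := n)
  have hP : PG F := PG.of_bd hh.cont hb
  refine ((integrableOn_w0.const_mul (2 * M * Real.exp 2 + C * M * (1 + ‖x‖ ^ 2))).mono'
    ((anrk1_cexp c).mul ((continuous_Pt hP x).sub continuous_const)).aestronglyMeasurable
    ((ae_restrict_iff' measurableSet_Ioi).2 (Eventually.of_forall fun t ht => ?_)))
  refine anrk1_dom h1 ht (by positivity) (by positivity) (fun _ => ?_) fun h => ?_
  · refine le_trans ?_ (le_div_self (by positivity) (sd_pos ht) (sd_le_one t))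
    refine (abs_sub _ _).trans ?_
    linarith [abs_Pt_le hb t x, abs_mean_le hb]
  · refine (hd F M hh.cont hb he t h x).1.trans (le_of_eq ?_)
    ring

theorem anrk1_pd (c t : ℝ) (F : E n → ℝ) (i : Fin n) :
    pd i (fun x => Real.exp (c * t) * (Pt t F x - mean F)) =
      fun x => Real.exp (c * t) * pd i (Pt t F) x := by
  simp only [sub_eq_add_neg]
  rw [pd_const_mul, pd_add_const]

/-- `pd_integral`; dominating function: `C M e / sd t` on `(0,1]`, `C M e^{-t} R` on `[1,∞)` -/
theorem pd_Rk (he : IsEven F) (hF : CH 0 F) (h0 : 0 ≤ c) (h1 : c ≤ 1) :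
    Differentiable ℝ (Rk c F) ∧ ∀ i x,
      IntegrableOn (fun t => Real.exp (c * t) * pd i (Pt t F) x) (Ioi 0) ∧
      pd i (Rk c F) x = -∫ t in Ioi (0 : ℝ), Real.exp (c * t) * pd i (Pt t F) x := by
  obtain ⟨M, hM, hb, hh⟩ := hF.exists_common
  obtain ⟨C, hC, hd⟩ := Pt_decay (n := n)
  obtain ⟨C', hC', hd'⟩ := Pt_bd_sup (n := n)
  have hP : PG F := PG.of_bd hh.cont hb
  have key := pd_integral (Φ := fun t x => Real.exp (c * t) * (Pt t F x - mean F))
    (fun t ht => ((ancls_diff (smooth_Pt hP ht)).sub_const _).const_mul _)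
    (fun i x => by
      simp only [anrk1_pd]
      exact (anrk1_cexp c).continuousOn.mul (continuousOn_pd_Pt hP i x))
    (integrableOn_Rk he hF h0 h1)
    (fun R => ⟨_, integrableOn_w0.const_mul (C' * M * Real.exp 2 + C * M * |R|), fun t ht x hx i => by
      simp only [anrk1_pd]
      refine anrk1_dom h1 ht (by positivity) (by positivity) (fun _ => ?_) fun h => ?_
      · refine (hd' F M hh.cont hb t ht x i i).1.trans ?_
        rw [mul_div_assoc', ← mul_one (C' * M), mul_assoc (C' * M), one_mul]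
        refine div_le_div_of_nonneg_right (mul_le_mul_of_nonneg_left ?_ (by positivity)) (sd_nonneg t)
        exact Real.exp_le_one_iff.2 (by linarith)
      · refine ((hd F M hh.cont hb he t h x).2 i).trans ?_
        rw [mul_assoc (C * M), mul_comm |R|]
        exact mul_le_mul_of_nonneg_left (mul_le_mul_of_nonneg_left (hx.trans (le_abs_self R))
          (Real.exp_pos _).le) (by positivity)⟩)
  simp only [anrk1_pd] at key
  refine ⟨key.1.neg, fun i x => ⟨(key.2 i x).1, ?_⟩⟩
  rw [← (key.2 i x).2]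
  exact congrFun (pd_neg i _) x

/-- `pd_integral` again, dominated by `Pt_bd_hol` and `integrableOn_w1` -/
theorem pd2_Rk (he : IsEven F) (hF : CH 0 F) (h0 : 0 ≤ c) (h1 : c ≤ 1) (j : Fin n) :
    Differentiable ℝ (pd j (Rk c F)) ∧ ∀ i x,
      IntegrableOn (fun t => Real.exp (c * t) * pd i (pd j (Pt t F)) x) (Ioi 0) ∧
      pd i (pd j (Rk c F)) x =
        -∫ t in Ioi (0 : ℝ), Real.exp (c * t) * pd i (pd j (Pt t F)) x := by
  obtain ⟨M, hM, hb, hh⟩ := hF.exists_common
  obtain ⟨C, hC, hd⟩ := Pt_bd_hol (n := n)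
  have hP : PG F := PG.of_bd hh.cont hb
  have e : pd j (Rk c F) = fun x => -∫ t in Ioi (0 : ℝ), Real.exp (c * t) * pd j (Pt t F) x :=
    funext fun x => ((pd_Rk he hF h0 h1).2 j x).2
  have key := pd_integral (Φ := fun t x => Real.exp (c * t) * pd j (Pt t F) x)
    (fun t ht => (ancls_diff (smooth_pd j (smooth_Pt hP ht))).const_mul _)
    (fun i x => by
      simp only [pd_const_mul]
      exact (anrk1_cexp c).continuousOn.mul (continuousOn_pd2_Pt hP i j x))
    (fun x => ((pd_Rk he hF h0 h1).2 j x).1)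
    (fun R => ⟨_, integrableOn_w1.const_mul (C * M), fun t ht x _ i => by
      simp only [pd_const_mul]
      have e0 := Real.exp_pos (c * t)
      rw [abs_mul, abs_of_pos e0]
      have b1 := mul_le_mul_of_nonneg_left (hd F M hM hh t ht x i j j).1 e0.le
      have b2 := mul_le_mul_of_nonneg_left (anrk1_exp h1 ht)
        (show 0 ≤ C * M * (√(sd t) / sd t ^ 2) by positivity)
      linarith⟩)
  simp only [pd_const_mul] at key
  rw [e]
  refine ⟨key.1.neg, fun i x => ⟨(key.2 i x).1, ?_⟩⟩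
  rw [← (key.2 i x).2]
  exact congrFun (pd_neg i _) x

theorem Rk_even (he : IsEven F) : IsEven (Rk c F) := by
  intro x
  simp only [Rk, he.Pt _ x]

theorem Rk_add (he : IsEven F) (hF : CH 0 F) (he' : IsEven G) (hG : CH 0 G) (h0 : 0 ≤ c)
    (h1 : c ≤ 1) : Rk c (fun x => F x + G x) = fun x => Rk c F x + Rk c G x := by
  obtain ⟨M, -, hb, hh⟩ := hF.exists_common
  obtain ⟨M', -, hb', hh'⟩ := hG.exists_common
  have hP : PG F := PG.of_bd hh.cont hb
  have hP' : PG G := PG.of_bd hh'.cont hb'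
  funext x
  simp only [Rk]
  rw [← neg_add, ← integral_add (integrableOn_Rk he hF h0 h1 x) (integrableOn_Rk he' hG h0 h1 x)]
  congr 2
  funext t
  simp only [Pt, mean_eq, conv_add Wt.gk hP hP']
  ring

theorem Rk_smul (a : ℝ) : Rk c (fun x => a * F x) = fun x => a * Rk c F x := by
  funext x
  simp only [Rk]
  rw [mul_neg, ← integral_const_mul]
  congr 2
  funext t
  simp only [Pt, mean_eq, conv_const_mul]
  ring

end

end Crest.Agent.R238.An
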