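import Crest.Agent.R238.AnIFT
import Crest.Agent.R238.AnLow
import Crest.Agent.R238.AnRegN
import Crest.Agent.R238.AnAP

/-!
# R238/AnStep TASK: one step of the continuity method
-/

set_option autoImplicit false

namespace Crest.Agent.R238.An

open MeasureTheory Matrix Set Filter Topology
open scoped ContDiff

noncomputable section

variable {n : ℕ}

theorem Dat.smul {φ₀ : E n → ℝ} {B R₀ θ : ℝ} (h : Dat φ₀ B R₀) (h0 : 0 ≤ θ) (h1 : θ ≤ 1) :
    Dat (fun x => θ * φ₀ x) B R₀ := by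
  have hB : 0 ≤ B := (h.bd [] (by simp)).nonneg
  have hpdl : ∀ l : List (Fin n), pdl l (fun x => θ * φ₀ x) = fun x => θ * pdl l φ₀ x := by
    intro l
    induction l with
    | nil => rfl
    | cons i l ih => simp only [pdl, ih, pd_const_mul]
  have hbd : ∀ f : E n → ℝ, Bd f B → Bd (fun x => θ * f x) B := by
    intro f hf x
    rw [abs_mul, abs_of_nonneg h0]
    nlinarith [hf x, abs_nonneg (f x)]
  refine ⟨(Cb.const θ).mul h.cb, fun x => by simp only [h.even x], fun x hx => by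
    simp [h.supp x hx], fun l hl => ?_, ?_, fun x ξ => ?_⟩
  · rw [hpdl]; exact hbd _ (h.bd l hl)
  · have : eul (fun x => θ * φ₀ x) = fun x => θ * eul φ₀ x := by
      funext x
      simp only [eul, ancalc_fderiv_mul]
      simp
    rw [this]; exact hbd _ h.bde
  · have e1 : gm (fun x => θ * φ₀ x) x = (1 - θ) • (1 : Mat n) + θ • gm φ₀ x := by
      ext i j
      simp only [gm, hess, pd_const_mul, Matrix.add_apply, Matrix.smul_apply, Matrix.of_apply,
        smul_eq_mul]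
      ring
    rw [e1, Matrix.add_mulVec, Matrix.smul_mulVec, Matrix.smul_mulVec, Matrix.one_mulVec,
      dotProduct_add, dotProduct_smul, dotProduct_smul, smul_eq_mul, smul_eq_mul]
    have := h.psd x ξ
    have := amat_nn ξ
    have : 0 ≤ 1 - θ := by linarith
    positivity

/-- `h' = h + Rk 1 F + mean F`: `gm h' = gm h + K = gm h (1 + τ K)`, `eul h' - h' = eul h - h + tr K - F`
(`Rk_eqn`), `Ell.add_small`, `regN`. -/
theorem new_sol {φ₀ ψ h F : E n → ℝ} {c C δ : ℝ} (hφ : Cb φ₀) (hψ : Cb ψ) (hs : Sol φ₀ h)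
    (hc : 0 < c) (hell : ∀ x, Ell (gm h x) c C) (hδ : n * δ < c) (he : IsEven F) (hF : CH 0 F)
    (hK : ∀ i j, Bd (pd i (pd j (Rk 1 F))) δ)
    (eqn : ∀ x, (1 + tau h x * hess (Rk 1 F) x).det * Real.exp (F x - (hess (Rk 1 F) x).trace) =
      Real.exp (-ψ x)) :
    Sol (fun x => φ₀ x + ψ x) (fun x => h x + Rk 1 F x + mean F) ∧
      ∀ x, gm (fun x => h x + Rk 1 F x + mean F) x = gm h x + hess (Rk 1 F) x := by
  have hk2 : ContDiff ℝ 2 (Rk 1 F) := Rk_c2 he hF zero_le_one le_rfl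
  have hh2 : ContDiff ℝ 2 h := hs.g2.smooth.of_le (WithTop.coe_le_coe.mpr (le_top : (2 : ℕ∞) ≤ ⊤))
  have hd : ∀ {f : E n → ℝ}, ContDiff ℝ 2 f → Differentiable ℝ f :=
    fun hf => hf.differentiable (by norm_num)
  have hd1 : ∀ {f : E n → ℝ}, ContDiff ℝ 2 f → ∀ j, Differentiable ℝ (pd j f) :=
    fun hf j => (c1_pd j hf).differentiable (by norm_num)
  have hpd : ∀ i j, pd i (pd j fun x => h x + Rk 1 F x + mean F) =
      fun x => pd i (pd j h) x + pd i (pd j (Rk 1 F)) x := by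
    intro i j
    rw [pd_add_const j (fun x => h x + Rk 1 F x), pd_add j (hd hh2) (hd hk2),
      pd_add i (hd1 hh2 j) (hd1 hk2 j)]
  have hgm : ∀ x, gm (fun x => h x + Rk 1 F x + mean F) x = gm h x + hess (Rk 1 F) x := by
    intro x
    ext i j
    simp only [gm, hess, hpd, Matrix.add_apply, Matrix.of_apply]
    ring
  have hell' : ∀ x, Ell (gm (fun x => h x + Rk 1 F x + mean F) x) (c - n * δ) (C + n * δ) := by
    intro x
    rw [hgm]
    exact (hell x).add_small (hess_isSymm hk2 x) fun i j => hK i j x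
  have heul : ∀ x, eul (fun x => h x + Rk 1 F x + mean F) x - (h x + Rk 1 F x + mean F) =
      eul h x - h x + ((hess (Rk 1 F) x).trace - F x) := by
    intro x
    have e1 : eul (fun x => h x + Rk 1 F x + mean F) x = eul h x + eul (Rk 1 F) x := by
      simp only [eul_eq_sum, pd_add_const _ (fun x => h x + Rk 1 F x), pd_add _ (hd hh2) (hd hk2),
        mul_add, Finset.sum_add_distrib]
    have e2 := Rk_eqn he hF zero_le_one le_rfl x
    have e3 : (hess (Rk 1 F) x).trace = ∑ i, pd i (pd i (Rk 1 F)) x := rfl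
    simp only [L0] at e2
    rw [e1, e3]
    linarith
  have heq : ∀ x, Real.log (gm (fun x => h x + Rk 1 F x + mean F) x).det =
      eul (fun x => h x + Rk 1 F x + mean F) x - (h x + Rk 1 F x + mean F) - (φ₀ x + ψ x) := by
    intro x
    have e1 : gm h x + hess (Rk 1 F) x = gm h x * (1 + tau h x * hess (Rk 1 F) x) := by
      rw [mul_add, mul_one, ← mul_assoc, tau, (hell x).mul_inv hc, one_mul]
    have e2 : (1 + tau h x * hess (Rk 1 F) x).det =
        Real.exp (-ψ x - (F x - (hess (Rk 1 F) x).trace)) := by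
      rw [Real.exp_sub, ← eqn x, mul_div_cancel_right₀ _ (Real.exp_pos _).ne']
    rw [hgm, heul, e1, Matrix.det_mul, e2, Real.log_mul (hs.det_pos x).ne' (Real.exp_pos _).ne',
      Real.log_exp, hs.eqn]
    ring
  have hc' : 0 < c - n * δ := by linarith
  refine ⟨⟨?_, fun x => by simp only [hs.even x, Rk_even he x], ⟨_, _, hc', hell'⟩, ?_, heq⟩, hgm⟩
  · refine regN (hφ.add hψ) ((hh2.add hk2).add contDiff_const) (fun i j => ?_) hc' hell' heq
    rw [hpd]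
    exact ((hs.g2.cb i j).ch 0).add (Rk_ch he hF zero_le_one le_rfl i j)
  · obtain ⟨M, hM⟩ := hs.qbd
    obtain ⟨M', -, hM', -⟩ := hF.exists_common
    refine ⟨M + (n * δ + M'), fun x => ?_⟩
    have e3 : |(hess (Rk 1 F) x).trace| ≤ n * δ := by
      have := Bd.sum (Finset.univ : Finset (Fin n)) (f := fun i => pd i (pd i (Rk 1 F)))
        (fun i _ => hK i i) x
      simpa [Matrix.trace, hess] using this
    show |eul (fun x => h x + Rk 1 F x + mean F) x - (h x + Rk 1 F x + mean F)| ≤ _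
    rw [heul]
    have := abs_add_le (eul h x - h x) ((hess (Rk 1 F) x).trace - F x)
    have := abs_sub ((hess (Rk 1 F) x).trace) (F x)
    linarith [hM x, hM' x]

/-- `τ' - τ = -τ' K τ` -/
theorem tau_close (Kτ δ' : ℝ) (hK : 0 ≤ Kτ) (hδ' : 0 < δ') : ∃ δ, 0 < δ ∧
    ∀ (g g' K : E n → Mat n), (∀ x, (g x).det ≠ 0) → (∀ x, (g' x).det ≠ 0) →
      (∀ x, g' x = g x + K x) →
      (∀ i j, Bd (fun x => (g x)⁻¹ i j) Kτ ∧ Hol (fun x => (g x)⁻¹ i j) Kτ) →
      (∀ i j, Bd (fun x => (g' x)⁻¹ i j) Kτ ∧ Hol (fun x => (g' x)⁻¹ i j) Kτ) →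
      (∀ i j, Bd (fun x => K x i j) δ ∧ Hol (fun x => K x i j) δ) →
      ∀ i j, Bd (fun x => (g' x)⁻¹ i j - (g x)⁻¹ i j) δ' ∧
        Hol (fun x => (g' x)⁻¹ i j - (g x)⁻¹ i j) δ' := by
  refine ⟨δ' / (3 * n ^ 2 * Kτ ^ 2 + 1), by positivity, fun g g' K hg hg' hK' hb hb' hKb i j => ?_⟩
  set δ := δ' / (3 * n ^ 2 * Kτ ^ 2 + 1) with hδ
  have hδ0 : 0 < δ := by positivity
  have hδ1 : δ * (3 * n ^ 2 * Kτ ^ 2 + 1) = δ' := by rw [hδ]; field_simp
  have e1 : (fun x => (g' x)⁻¹ i j - (g x)⁻¹ i j) =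
      fun x => (-1) * ∑ b, ∑ a, (g' x)⁻¹ i a * K x a b * (g x)⁻¹ b j := by
    funext x
    have e2 : (g' x)⁻¹ * K x * (g x)⁻¹ = (g x)⁻¹ - (g' x)⁻¹ := by
      have : K x = g' x - g x := by rw [hK']; abel
      rw [this, mul_sub, sub_mul, Matrix.nonsing_inv_mul _ (hg' x).isUnit, one_mul, mul_assoc,
        Matrix.mul_nonsing_inv _ (hg x).isUnit, mul_one]
    have := congrFun (congrFun e2 i) j
    simp only [Matrix.mul_apply, Matrix.sub_apply, Finset.sum_mul] at this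
    rw [this]; ring
  have b1 : ∀ a b, Bd (fun x => (g' x)⁻¹ i a * K x a b * (g x)⁻¹ b j) (Kτ * δ * Kτ) :=
    fun a b => ((hb' i a).1.mul (hKb a b).1).mul (hb b j).1
  have b2 : ∀ a b, Hol (fun x => (g' x)⁻¹ i a * K x a b * (g x)⁻¹ b j)
      (Kτ * δ * Kτ + (Kτ * δ + Kτ * δ) * Kτ) :=
    fun a b => Hol.mul ((hb' i a).1.mul (hKb a b).1)
      (Hol.mul (hb' i a).1 (hb' i a).2 (hKb a b).1 (hKb a b).2) (hb b j).1 (hb b j).2
  have b3 := Bd.sum Finset.univ fun b _ => Bd.sum Finset.univ fun a _ => b1 a b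
  have b4 := (Hol.sum Finset.univ fun b _ => Hol.sum Finset.univ fun a _ => b2 a b).const_mul (-1)
  simp only [Finset.card_univ, Fintype.card_fin] at b3 b4
  have hp : 0 ≤ δ * (n ^ 2 * Kτ ^ 2) := by positivity
  rw [e1]
  refine ⟨fun x => ?_, b4.mono ?_⟩
  · rw [abs_mul, abs_neg, abs_one, one_mul]
    refine (b3 x).trans ?_
    nlinarith
  · rw [abs_neg, abs_one]
    nlinarith

/-- the invariant -/
def Inv (φ₀ : E n → ℝ) : Prop := ∃ h, Sol φ₀ h ∧ Onto (tau h) 0 ∧ Onto (tau h) 1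

/-- constants: `apriori`, `Qnt.tau_bounds`, `low`, `onto_of_close`, `tau_close`, `ift`;
`ψ = (θ' - θ) φ₀` has `Bd ψ (r B)`, `Hol ψ (r (2B + nB))` (`Hol.of_lip`, `abs_sub_le_of_pd`) -/
theorem step (B R₀ : ℝ) : ∃ r, 0 < r ∧ ∀ (φ₀ : E n → ℝ) (θ θ' : ℝ), Dat φ₀ B R₀ → 0 ≤ θ → θ ≤ θ' →
    θ' ≤ 1 → θ' - θ ≤ r → Inv (fun x => θ * φ₀ x) → Inv (fun x => θ' * φ₀ x) := by
  obtain ⟨c, C, R, hc, hC, hap⟩ := apriori (n := n) B R₀
  obtain ⟨Kτ, hKτ, htau⟩ := Qnt.tau_bounds (n := n) c C hc hC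
  obtain ⟨C₀, hC₀, hlow⟩ := low (n := n) B c C R hc hC
  obtain ⟨δ', hδ', hon⟩ := onto_of_close (n := n) C₀ hC₀
  obtain ⟨δ₁, hδ₁, hcl⟩ := tau_close (n := n) Kτ δ' hKτ hδ'
  set δ := min δ₁ (c / (n + 1)) with hδ
  have hδ0 : 0 < δ := lt_min hδ₁ (by positivity)
  have hδc : n * δ < c := by
    have h1 : δ ≤ c / (n + 1) := min_le_right _ _
    rw [le_div_iff₀ (by positivity)] at h1
    nlinarith
  obtain ⟨ρ, hρ, hift⟩ := ift (n := n) C₀ Kτ δ hC₀ hδ0
  refine ⟨ρ / ((2 + n) * |B| + 1), by positivity, fun φ₀ θ θ' hD h0 h01 h1 hr ⟨h, hs, o0, o1⟩ => ?_⟩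
  have hB : 0 ≤ B := (hD.bd [] (by simp)).nonneg
  rw [abs_of_nonneg hB, le_div_iff₀ (by positivity)] at hr
  have hDθ := hD.smul h0 (h01.trans h1)
  have hDθ' := hD.smul (h0.trans h01) h1
  have hq := hap _ _ hDθ hs
  obtain ⟨-, hτ, -⟩ := htau _ _ _ hs hq
  have hl := fun c' => hlow _ h c' hDθ.cb (hDθ.bd [] (by simp)) hs hq
  have hd0 : 0 ≤ θ' - θ := by linarith
  have hφB : Bd φ₀ B := hD.bd [] (by simp)
  have hφH : Hol φ₀ (2 * B + n * B) := Hol.of_lip hφB (by positivity)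
    (abs_sub_le_of_pd (ancls_diff hD.cb.smooth) fun i => hD.bd [i] (by simp))
  have hnB : 0 ≤ (θ' - θ) * (n * B) := by positivity
  have hB' : 0 ≤ (θ' - θ) * B := by positivity
  obtain ⟨F, hFe, hF, hK, heq⟩ := hift (tau h) (fun x => (θ' - θ) * φ₀ x) hs.tau_even hτ hKτ
    (hl 1 zero_le_one le_rfl) o1 (fun x => by simp only [hD.even x])
    (fun x => by
      rw [abs_mul, abs_of_nonneg hd0]
      have := mul_le_mul_of_nonneg_left (hφB x) hd0
      nlinarith)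
    ((hφH.const_mul (θ' - θ)).mono (by rw [abs_of_nonneg hd0]; nlinarith))
  obtain ⟨hs', hgm⟩ := new_sol hDθ.cb ((Cb.const (θ' - θ)).mul hD.cb) hs hc hq.ell hδc hFe hF
    (fun i j => (hK i j).1) heq
  have e1 : (fun x => θ * φ₀ x + (θ' - θ) * φ₀ x) = fun x => θ' * φ₀ x := by
    funext x; ring
  rw [e1] at hs'
  have hq' := hap _ _ hDθ' hs'
  obtain ⟨-, hτ', -⟩ := htau _ _ _ hs' hq'
  have hclose := hcl (gm h) (gm fun x => h x + Rk 1 F x + mean F) (hess (Rk 1 F))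
    (fun x => (hs.det_pos x).ne') (fun x => (hs'.det_pos x).ne') hgm hτ hτ'
    (fun i j => ⟨(hK i j).1.mono (min_le_left _ _), (hK i j).2.mono (min_le_left _ _)⟩)
  have hch : ∀ i j, CH 0 fun x => tau h x i j := fun i j => (hs.cb_tau i j).ch 0
  exact ⟨_, hs', hon _ _ 0 le_rfl zero_le_one hs.tau_even hch hs'.tau_even hclose
    (hl 0 le_rfl zero_le_one) o0, hon _ _ 1 zero_le_one le_rfl hs.tau_even hch hs'.tau_even hclose
    (hl 1 zero_le_one le_rfl) o1⟩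

end

end Crest.Agent.R238.An
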