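import Crest.Agent.R238.AnY
import Crest.Agent.R238.AnRk2

/-!
# R238/AnT TASK: the operators on `Y n`; stability of surjectivity
-/

set_option autoImplicit false

namespace Crest.Agent.R238.An

open MeasureTheory Matrix Set Filter Topology
open scoped ContDiff

noncomputable section

variable {n : ℕ}

/-- `Rk_add`, `Rk_smul`, `pd_add`, `Rk_c2`, `Rk_bd`, `LinearMap.mkContinuous` -/
theorem exists_KK : ∃ C, 0 ≤ C ∧ ∀ c : ℝ, 0 ≤ c → c ≤ 1 →
    ∃ K : Fin n → Fin n → (Y n →L[ℝ] Y n), (∀ i j F, ‖K i j F‖ ≤ C * ‖F‖) ∧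
      ∀ i j F, (K i j F).val = pd i (pd j (Rk c F.val)) := by
  obtain ⟨C, hC, h⟩ := Rk_bd (n := n)
  refine ⟨2 * C, by positivity, fun c h0 h1 => ?_⟩
  have d1 : ∀ F : Y n, Differentiable ℝ (Rk c F.val) := fun F => (pd_Rk F.even F.ch h0 h1).1
  have d2 : ∀ (F : Y n) j, Differentiable ℝ (pd j (Rk c F.val)) := fun F j => (pd2_Rk F.even F.ch h0 h1 j).1
  let L : Fin n → Fin n → (Y n →ₗ[ℝ] Y n) := fun i j =>
    { toFun := fun F => Y.mk _ ((Rk_even (c := c) F.even).pd_pd i j) (Rk_ch F.even F.ch h0 h1 i j)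
      map_add' := fun F G => Y.ext' fun x => by
        change pd i (pd j (Rk c fun x => F.val x + G.val x)) x = pd i (pd j (Rk c F.val)) x + pd i (pd j (Rk c G.val)) x
        rw [Rk_add F.even F.ch G.even G.ch h0 h1, pd_add j (d1 F) (d1 G), pd_add i (d2 F j) (d2 G j)]
      map_smul' := fun r F => Y.ext' fun x => by
        change pd i (pd j (Rk c fun x => r * F.val x)) x = r * pd i (pd j (Rk c F.val)) x
        rw [Rk_smul, pd_const_mul, pd_const_mul] }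
  have hL : ∀ i j F, ‖L i j F‖ ≤ 2 * C * ‖F‖ := fun i j F => by
    have := h F.val c ‖F‖ F.even F.ch h0 h1 (norm_nonneg _) F.hol i j
    exact (Y.norm_le (L i j F) (by positivity) this.1 this.2).trans (le_of_eq (by ring))
  exact ⟨fun i j => (L i j).mkContinuous _ (hL i j), hL, fun i j F => rfl⟩

theorem exists_TT {a : E n → Mat n} {c : ℝ} (h0 : 0 ≤ c) (h1 : c ≤ 1)
    (he : ∀ i j, IsEven fun x => a x i j) (ha : ∀ i j, CH 0 fun x => a x i j) :
    ∃ T : Y n →L[ℝ] Y n, ∀ F, (T F).val = Tf a c F.val := by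
  obtain ⟨C, -, h⟩ := exists_KK (n := n)
  obtain ⟨K, -, hK⟩ := h c h0 h1
  refine ⟨1 + ∑ i, ∑ j, ContinuousLinearMap.mul ℝ (Y n)
    (Y.mk _ (he i j) (ha i j) - algebraMap ℝ (Y n) ((1 : Mat n) i j)) ∘L K i j, fun F => funext fun x => ?_⟩
  simp only [_root_.add_apply, _root_.sum_apply, one_apply_eq_self,
    ContinuousLinearMap.comp_apply, ContinuousLinearMap.mul_apply', Y.val_add, Y.val_sum, Y.val_mul, Y.val_sub, hK,
    Y.val_mk, Tf]
  rfl

/-- `Low` gives `‖F‖ ≤ 2 C₀ ‖T F‖`, hence injectivity; `ContinuousLinearEquiv.ofBijective` -/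
theorem exists_equiv {a : E n → Mat n} {c C₀ : ℝ} (h0 : 0 ≤ c) (h1 : c ≤ 1) (hC : 0 < C₀)
    (he : ∀ i j, IsEven fun x => a x i j) (ha : ∀ i j, CH 0 fun x => a x i j)
    (hl : Low a c C₀) (ho : Onto a c) :
    ∃ T : Y n ≃L[ℝ] Y n, (∀ F, (T F).val = Tf a c F.val) ∧ ∀ f, ‖T.symm f‖ ≤ 2 * C₀ * ‖f‖ := by
  obtain ⟨T, hT⟩ := exists_TT h0 h1 he ha
  have hb : ∀ F, ‖F‖ ≤ 2 * C₀ * ‖T F‖ := fun F => by
    have := hl F.val F.even F.ch ‖T F‖ (hT F ▸ (T F).bd) (hT F ▸ (T F).hol)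
    exact (Y.norm_le _ (by positivity) this.1 this.2).trans (le_of_eq (by ring))
  have hi : LinearMap.ker (T : Y n →ₗ[ℝ] Y n) = ⊥ := LinearMap.ker_eq_bot'.2 fun F hF => by
    have := hb F
    rw [show T F = 0 from hF, norm_zero, mul_zero] at this
    exact norm_le_zero_iff.1 this
  have hs : LinearMap.range (T : Y n →ₗ[ℝ] Y n) = ⊤ := LinearMap.range_eq_top.2 fun f => by
    obtain ⟨F, h1, h2, h3⟩ := ho f.val f.even f.ch
    exact ⟨Y.mk F h1 h2, Y.ext' fun x => (congrFun (hT _) x).trans (h3 x)⟩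
  refine ⟨ContinuousLinearEquiv.ofBijective T hi hs, hT, fun f => (hb _).trans (le_of_eq ?_)⟩
  exact congrArg (fun G : Y n => 2 * C₀ * ‖G‖) ((ContinuousLinearEquiv.ofBijective T hi hs).apply_symm_apply f)

/-- `T' = T + ∑ (a'-a)_ij K_ij`, `‖T⁻¹ (T' - T)‖ ≤ 1/2`; Neumann series (`Units.oneSub` in
`Y n →L[ℝ] Y n`) or Banach fixed point for `F ↦ T⁻¹ (f - (T'-T) F)` -/
theorem onto_of_close (C₀ : ℝ) (hC : 0 < C₀) : ∃ δ, 0 < δ ∧
    ∀ (a a' : E n → Mat n) (c : ℝ), 0 ≤ c → c ≤ 1 →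
      (∀ i j, IsEven fun x => a x i j) → (∀ i j, CH 0 fun x => a x i j) →
      (∀ i j, IsEven fun x => a' x i j) →
      (∀ i j, Bd (fun x => a' x i j - a x i j) δ ∧ Hol (fun x => a' x i j - a x i j) δ) →
      Low a c C₀ → Onto a c → Onto a' c := by
  obtain ⟨C, hC0, h⟩ := exists_KK (n := n)
  refine ⟨(8 * C₀ * (n * (n * C)) + 1)⁻¹, by positivity, fun a a' c h0 h1 he ha he' hd hl ho => ?_⟩
  set δ := (8 * C₀ * (n * (n * C)) + 1)⁻¹ with hδ
  have hδ0 : 0 < δ := by positivity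
  obtain ⟨K, hK1, hK⟩ := h c h0 h1
  obtain ⟨T, hT, hT'⟩ := exists_equiv h0 h1 hC he ha hl ho
  let b : Fin n → Fin n → Y n := fun i j => Y.mk (fun x => a' x i j - a x i j)
    (fun x => by simp only [he i j x, he' i j x]) ⟨δ, δ, hd i j⟩
  have hb : ∀ i j, ‖b i j‖ ≤ 2 * δ := fun i j => (Y.norm_le _ hδ0.le (hd i j).1 (hd i j).2).trans (le_of_eq (by ring))
  let D : Y n →L[ℝ] Y n := ∑ i, ∑ j, ContinuousLinearMap.mul ℝ (Y n) (b i j) ∘L K i j
  have hD : ∀ F, D F = ∑ i, ∑ j, b i j * K i j F := fun F => by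
    simp only [D, _root_.sum_apply, ContinuousLinearMap.comp_apply, ContinuousLinearMap.mul_apply']
  have hD' : ∀ F, ‖D F‖ ≤ n * (n * (2 * δ * (C * ‖F‖))) := fun F => by
    rw [hD]
    refine (norm_sum_le_of_le _ fun i _ => norm_sum_le_of_le _ fun j _ => (norm_mul_le _ _).trans
      (mul_le_mul (hb i j) (hK1 i j F) (norm_nonneg _) (by positivity))).trans (le_of_eq (by simp))
  have hn : ‖-((T.symm : Y n →L[ℝ] Y n) ∘L D)‖ < 1 := by
    rw [norm_neg]
    refine (ContinuousLinearMap.opNorm_le_bound _ (M := 4 * C₀ * (n * (n * C)) * δ) (by positivity) fun F => ?_).trans_lt ?_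
    · exact (hT' _).trans ((mul_le_mul_of_nonneg_left (hD' F) (by positivity)).trans (le_of_eq (by ring)))
    · rw [hδ, mul_inv_lt_iff₀ (by positivity)]
      have : 0 ≤ C₀ * (n * (n * C)) := by positivity
      linarith
  intro f hf1 hf2
  let F : Y n := (↑(Units.oneSub _ hn)⁻¹ : Y n →L[ℝ] Y n) (T.symm (Y.mk f hf1 hf2))
  have hF : T F + D F = Y.mk f hf1 hf2 := by
    have := congrArg (fun A : Y n →L[ℝ] Y n => T (A (T.symm (Y.mk f hf1 hf2)))) (Units.oneSub _ hn).mul_inv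
    simpa [F] using this
  refine ⟨F.val, F.even, F.ch, fun x => ?_⟩
  have := congrArg (fun G : Y n => G.val x) hF
  simp only [Y.val_add, hT, hD, Y.val_sum, Y.val_mul, hK, Y.val_mk, Tf, b] at this
  rw [← this, Tf, add_assoc, ← Finset.sum_add_distrib]
  congr 1
  refine Finset.sum_congr rfl fun i _ => ?_
  rw [← Finset.sum_add_distrib]
  refine Finset.sum_congr rfl fun j _ => ?_
  change _ = _ + (a' x i j - a x i j) * _
  ring

end

end Crest.Agent.R238.An
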