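import Crest.Agent.R238.AnCH

/-!
# R238/AnY TASK: the Banach algebra `Y n` of even bounded `1/2`-Hölder functions
-/

set_option autoImplicit false

namespace Crest.Agent.R238.An

open MeasureTheory Matrix Set Filter Topology
open scoped ContDiff

noncomputable section

variable {n : ℕ}

theorem y_inf_bd {f : E n → ℝ} {M : ℝ} (h : Bd f M) :
    0 ≤ sInf {M | 0 ≤ M ∧ Bd f M} ∧ Bd f (sInf {M | 0 ≤ M ∧ Bd f M}) :=
  ⟨le_csInf ⟨M, h.nonneg, h⟩ fun _ hb => hb.1, fun x => le_csInf ⟨M, h.nonneg, h⟩ fun _ hb => hb.2 x⟩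

theorem y_inf_hol {f : E n → ℝ} {K : ℝ} (h : Hol f K) :
    0 ≤ sInf {K | 0 ≤ K ∧ Hol f K} ∧ Hol f (sInf {K | 0 ≤ K ∧ Hol f K}) := by
  have hne : {K | 0 ≤ K ∧ Hol f K}.Nonempty := ⟨max K 0, le_max_right _ _, h.max⟩
  refine ⟨le_csInf hne fun _ hb => hb.1, fun x y => ?_⟩
  rcases (Real.sqrt_nonneg ‖x - y‖).eq_or_lt with h0 | h0
  · have := h x y
    rw [← h0, mul_zero] at this ⊢
    exact this
  · rw [← div_le_iff₀ h0]
    exact le_csInf hne fun _ hb => (div_le_iff₀ h0).2 (hb.2 x y)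

def YSub (n : ℕ) : Subalgebra ℝ (E n → ℝ) where
  carrier := {f | IsEven f ∧ CH 0 f}
  mul_mem' := by
    intro f g hf hg
    exact ⟨fun x => by simp only [Pi.mul_apply, hf.1 x, hg.1 x], CH.mul hf.2 hg.2⟩
  add_mem' := by
    intro f g hf hg
    exact ⟨fun x => by simp only [Pi.add_apply, hf.1 x, hg.1 x], CH.add hf.2 hg.2⟩
  algebraMap_mem' := by
    intro r
    exact ⟨fun _ => rfl, CH.const 0 r⟩

/-- the Hölder algebra -/
def Y (n : ℕ) : Type := YSub n

instance : CommRing (Y n) := inferInstanceAs (CommRing (YSub n))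
instance : Algebra ℝ (Y n) := inferInstanceAs (Algebra ℝ (YSub n))

namespace Y

/-- the underlying function -/
def val (f : Y n) : E n → ℝ := (show YSub n from f).1

def mk (f : E n → ℝ) (he : IsEven f) (hf : CH 0 f) : Y n := (⟨f, he, hf⟩ : YSub n)

@[simp] theorem val_mk (f : E n → ℝ) (he : IsEven f) (hf : CH 0 f) : (mk f he hf).val = f := rfl

theorem even (f : Y n) : IsEven f.val := (show YSub n from f).2.1

theorem ch (f : Y n) : CH 0 f.val := (show YSub n from f).2.2

theorem ext' {f g : Y n} (h : ∀ x, f.val x = g.val x) : f = g := Subtype.ext (funext h)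

@[simp] theorem val_add (f g : Y n) (x : E n) : (f + g).val x = f.val x + g.val x := rfl
@[simp] theorem val_sub (f g : Y n) (x : E n) : (f - g).val x = f.val x - g.val x := rfl
@[simp] theorem val_neg (f : Y n) (x : E n) : (-f).val x = -f.val x := rfl
@[simp] theorem val_mul (f g : Y n) (x : E n) : (f * g).val x = f.val x * g.val x := rfl
@[simp] theorem val_zero (x : E n) : (0 : Y n).val x = 0 := rfl
@[simp] theorem val_one (x : E n) : (1 : Y n).val x = 1 := rfl
@[simp] theorem val_smul (c : ℝ) (f : Y n) (x : E n) : (c • f).val x = c * f.val x := rfl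

def nrm (f : Y n) : ℝ := sInf {M | 0 ≤ M ∧ Bd f.val M} + sInf {K | 0 ≤ K ∧ Hol f.val K}

theorem nrm_spec (f : Y n) : ∃ M K, 0 ≤ M ∧ 0 ≤ K ∧ nrm f = M + K ∧ Bd f.val M ∧ Hol f.val K := by
  obtain ⟨M, K, h1, h2⟩ := f.ch
  have a1 := y_inf_bd h1
  have a2 := y_inf_hol h2
  exact ⟨_, _, a1.1, a2.1, rfl, a1.2, a2.2⟩

theorem nrm_le (f : Y n) {M K : ℝ} (hK : 0 ≤ K) (h1 : Bd f.val M) (h2 : Hol f.val K) :
    nrm f ≤ M + K := by
  unfold nrm
  exact add_le_add (csInf_le ⟨0, fun _ h => h.1⟩ ⟨h1.nonneg, h1⟩) (csInf_le ⟨0, fun _ h => h.1⟩ ⟨hK, h2⟩)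

def rn (n : ℕ) : RingNorm (Y n) where
  toFun := nrm
  map_zero' := by
    refine le_antisymm ?_ ?_
    · have := nrm_le (0 : Y n) (M := 0) (K := 0) le_rfl (fun x => by simp) (fun x y => by simp)
      simpa using this
    · obtain ⟨M, K, h1, h2, h3, -⟩ := nrm_spec (0 : Y n)
      rw [h3]; positivity
  add_le' := by
    intro f g
    obtain ⟨M, K, h1, h2, h3, h4, h5⟩ := nrm_spec f
    obtain ⟨M', K', h1', h2', h3', h4', h5'⟩ := nrm_spec g
    have := nrm_le (f + g) (M := M + M') (K := K + K') (by positivity)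
      (fun x => by rw [val_add]; exact (abs_add_le _ _).trans (add_le_add (h4 x) (h4' x))) (h5.add h5')
    rw [h3, h3']
    linarith
  neg' := by
    have key : ∀ f : Y n, nrm (-f) ≤ nrm f := by
      intro f
      obtain ⟨M, K, h1, h2, h3, h4, h5⟩ := nrm_spec f
      rw [h3]
      refine nrm_le (-f) h2 (fun x => by rw [val_neg, abs_neg]; exact h4 x) fun x y => ?_
      rw [val_neg, val_neg, ← abs_neg, show -(-f.val x - -f.val y) = f.val x - f.val y by ring]
      exact h5 x y
    intro f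
    refine le_antisymm (key f) ?_
    have := key (-f)
    rwa [neg_neg] at this
  mul_le' := by
    intro f g
    obtain ⟨M, K, h1, h2, h3, h4, h5⟩ := nrm_spec f
    obtain ⟨M', K', h1', h2', h3', h4', h5'⟩ := nrm_spec g
    have := nrm_le (f * g) (M := M * M') (K := M * K' + K * M') (by positivity) (h4.mul h4')
      (Hol.mul h4 h5 h4' h5')
    rw [h3, h3']
    have := mul_nonneg h2 h2'
    nlinarith
  eq_zero_of_map_eq_zero' := by
    intro f hf
    obtain ⟨M, K, h1, h2, h3, h4, h5⟩ := nrm_spec f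
    have hM : M = 0 := by
      have : nrm f = 0 := hf
      linarith
    refine ext' fun x => ?_
    have := h4 x
    rw [hM] at this
    exact abs_nonpos_iff.1 this

instance : NormedCommRing (Y n) :=
  { (rn n).toNormedRing with mul_comm := mul_comm }

theorem norm_def (f : Y n) : ‖f‖ = nrm f := rfl

instance : NormedAlgebra ℝ (Y n) where
  norm_smul_le := by
    intro c f
    obtain ⟨M, K, h1, h2, h3, h4, h5⟩ := nrm_spec f
    have := nrm_le (c • f) (M := |c| * M) (K := |c| * K) (by positivity)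
      (fun x => by rw [val_smul, abs_mul]; exact mul_le_mul_of_nonneg_left (h4 x) (abs_nonneg _))
      (h5.const_mul c)
    rw [norm_def, norm_def, h3, Real.norm_eq_abs]
    linarith

theorem bd (f : Y n) : Bd f.val ‖f‖ := by
  obtain ⟨M, K, h1, h2, h3, h4, h5⟩ := nrm_spec f
  rw [norm_def, h3]
  exact h4.mono (by linarith)

theorem hol (f : Y n) : Hol f.val ‖f‖ := by
  obtain ⟨M, K, h1, h2, h3, h4, h5⟩ := nrm_spec f
  rw [norm_def, h3]
  exact h5.mono (by linarith)

theorem norm_le (f : Y n) {M K : ℝ} (hK : 0 ≤ K) (h1 : Bd f.val M) (h2 : Hol f.val K) :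
    ‖f‖ ≤ M + K :=
  nrm_le f hK h1 h2

/-- `Metric.complete_of_cauchySeq_tendsto`: pointwise limits (`bd`), the bounds `Bd (u_m - u_k) ε`,
`Hol (u_m - u_k) ε` pass to the limit `k → ∞` -/
instance : CompleteSpace (Y n) := by
  refine Metric.complete_of_cauchySeq_tendsto fun u hu => ?_
  have hc : ∀ x, CauchySeq fun k => (u k).val x := by
    intro x
    refine Metric.cauchySeq_iff.2 fun ε hε => ?_
    obtain ⟨N, hN⟩ := Metric.cauchySeq_iff.1 hu ε hε
    refine ⟨N, fun m hm k hk => lt_of_le_of_lt ?_ (hN m hm k hk)⟩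
    rw [Real.dist_eq, dist_eq_norm]
    exact bd (u m - u k) x
  choose g hg using fun x => cauchySeq_tendsto_of_complete (hc x)
  have key : ∀ ε, 0 < ε → ∃ N, ∀ m ≥ N, Bd (fun x => (u m).val x - g x) ε ∧ Hol (fun x => (u m).val x - g x) ε := by
    intro ε hε
    obtain ⟨N, hN⟩ := Metric.cauchySeq_iff.1 hu ε hε
    refine ⟨N, fun m hm => ⟨fun x => ?_, fun x y => ?_⟩⟩
    · refine le_of_tendsto ((tendsto_const_nhds.sub (hg x)).abs) ?_
      filter_upwards [eventually_ge_atTop N] with k hk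
      have h1 := hN m hm k hk
      rw [dist_eq_norm] at h1
      exact (bd (u m - u k) x).trans h1.le
    · refine le_of_tendsto (((tendsto_const_nhds.sub (hg x)).sub (tendsto_const_nhds.sub (hg y))).abs) ?_
      filter_upwards [eventually_ge_atTop N] with k hk
      have h1 := hN m hm k hk
      rw [dist_eq_norm] at h1
      exact ((hol (u m - u k)).mono h1.le) x y
  have hev : IsEven g := by
    intro x
    refine tendsto_nhds_unique (hg (-x)) ?_
    simp only [fun k => (u k).even x]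
    exact hg x
  have hch : CH 0 g := by
    obtain ⟨N, hN⟩ := key 1 one_pos
    have h1 : CH 0 fun x => (u N).val x - g x := ⟨1, 1, hN N le_rfl⟩
    have h2 := (u N).ch.sub h1
    simpa only [sub_sub_cancel] using h2
  refine ⟨mk g hev hch, Metric.tendsto_atTop.2 fun ε hε => ?_⟩
  obtain ⟨N, hN⟩ := key (ε / 3) (by positivity)
  refine ⟨N, fun m hm => ?_⟩
  rw [dist_eq_norm]
  have := norm_le (u m - mk g hev hch) (by positivity) (hN m hm).1 (hN m hm).2
  linarith

/-- evaluation at a point -/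
def evR (x : E n) : Y n →+* ℝ where
  toFun f := f.val x
  map_one' := rfl
  map_mul' _ _ := rfl
  map_zero' := rfl
  map_add' _ _ := rfl

theorem continuous_evR (x : E n) : Continuous (evR x : Y n → ℝ) := by
  refine LipschitzWith.continuous (K := 1) (LipschitzWith.of_dist_le_mul fun f g => ?_)
  rw [Real.dist_eq, dist_eq_norm, NNReal.coe_one, one_mul]
  exact bd (f - g) x

theorem val_sum {ι : Type*} (s : Finset ι) (f : ι → Y n) (x : E n) :
    (∑ k ∈ s, f k).val x = ∑ k ∈ s, (f k).val x :=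
  map_sum (evR x) f s

/-- `NormedSpace.map_exp` (`Real.exp_eq_exp_ℝ`) -/
theorem val_exp (f : Y n) (x : E n) : (NormedSpace.exp f).val x = Real.exp (f.val x) := by
  rw [Real.exp_eq_exp_ℝ]
  exact NormedSpace.map_exp_of_mem_ball (𝕂 := ℝ) (evR x) (continuous_evR x) f
    ((NormedSpace.expSeries_radius_eq_top ℝ (Y n)).symm ▸ edist_lt_top _ _)

/-- `RingHom.map_det` -/
theorem val_det (A : Matrix (Fin n) (Fin n) (Y n)) (x : E n) :
    A.det.val x = (Matrix.of fun i j => (A i j).val x).det :=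
  RingHom.map_det (evR x) A

end Y

end

end Crest.Agent.R238.An
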