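import Crest.Agent.R238.BLap

/-!
# R238 / BCls: the class `Cls (1/(2β)) (1/α)` is invariant under the entropic step

`W = (1+ε)/ε ψ` has `a = (1+ε)c/ε`, `b = (1+ε)C/ε`, so (`lap_lo`, `lap_hi`, composed with the
linear map `x ↦ x/ε`) `uE - k` is in `Cls (1/((1+ε)C)) (1/((1+ε)c))`.  Then
`W' = uE/ε + φ` has `a' = 1/(ε(1+ε)C) + α`, `b' = 1/(ε(1+ε)c) + β` and with `C = 1/α`,
`c = 1/(2β)`, `0 < ε ≤ 1`: `ε a' ≥ α`, `ε b' ≤ 2β`.  Hence `psiHat - psiHat 0 ∈ Cls c C`, and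
`psiNew` is a convex combination.
-/

set_option autoImplicit false
open MeasureTheory Matrix Set Metric
open scoped RealInnerProductSpace ContDiff BigOperators

namespace Crest.Agent.R238

variable {n : ℕ}

theorem bcls_sq_cvx {k : ℝ} (hk : 0 ≤ k) : ConvexOn ℝ univ fun y : E n => k * ‖y‖ ^ 2 := by
  have h := (cls_quad (n := n) (c := 0) (C := 2 * k) (by linarith)).hi
  refine h.congr ?_
  intro y _
  ring

theorem bcls_mono {c C c' C' : ℝ} {ψ : E n → ℝ} (h : Cls c C ψ) (h1 : c' ≤ c) (h2 : C ≤ C') :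
    Cls c' C' ψ := by
  refine ⟨h.zero, h.even, ?_, ?_⟩
  · refine (h.lo.add (bcls_sq_cvx (n := n) (k := (c - c') / 2) (by linarith))).congr ?_
    intro y _
    simp only [Pi.add_apply]
    ring
  · refine (h.hi.add (bcls_sq_cvx (n := n) (k := (C' - C) / 2) (by linarith))).congr ?_
    intro y _
    simp only [Pi.add_apply]
    ring

theorem bcls_scale {f : E n → ℝ} (hf : ConvexOn ℝ univ f) (t : ℝ) {k : ℝ} (hk : 0 ≤ k) (m : ℝ) :
    ConvexOn ℝ univ fun x => k * f (t • x) + m := by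
  refine ⟨convex_univ, ?_⟩
  intro x _ y _ a b ha hb hab
  have h := hf.2 (mem_univ (t • x)) (mem_univ (t • y)) ha hb hab
  have e : t • (a • x + b • y) = a • t • x + b • t • y := by
    rw [smul_add, smul_comm t a x, smul_comm t b y]
  simp only [smul_eq_mul] at h ⊢
  rw [e]
  have h2 := mul_le_mul_of_nonneg_left h hk
  have h3 : m = a * m + b * m := by rw [← add_mul, hab, one_mul]
  nlinarith

theorem bcls_lap {W : E n → ℝ} {a b ε : ℝ} (ha : 0 < a) (hb : 0 < b) (hε : 0 < ε)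
    (hev : ∀ y, W (-y) = W y)
    (hlo : ConvexOn ℝ univ fun y => W y - a / 2 * ‖y‖ ^ 2)
    (hhi : ConvexOn ℝ univ fun y => b / 2 * ‖y‖ ^ 2 - W y) :
    Cls (ε * b)⁻¹ (ε * a)⁻¹ fun x => ε * lap W (ε⁻¹ • x) - ε * lap W (ε⁻¹ • (0 : E n)) := by
  have hn : ∀ x : E n, ‖ε⁻¹ • x‖ ^ 2 = ε⁻¹ ^ 2 * ‖x‖ ^ 2 := by
    intro x
    rw [norm_smul, mul_pow, Real.norm_eq_abs, sq_abs]
  refine ⟨sub_self _, ?_, ?_, ?_⟩
  · intro y
    rw [smul_neg, lap_even hev]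
  · refine (bcls_scale (lap_lo ha hb hlo hhi) ε⁻¹ hε.le
      (-(ε * lap W (ε⁻¹ • (0 : E n))))).congr ?_
    intro y _
    simp only [hn]
    field_simp
    ring
  · refine (bcls_scale (lap_hi ha hlo) ε⁻¹ hε.le
      (ε * lap W (ε⁻¹ • (0 : E n)))).congr ?_
    intro y _
    simp only [hn]
    field_simp
    ring

theorem bcls_W_lo {c C k : ℝ} {ψ : E n → ℝ} (hk : 0 ≤ k) (hψ : Cls c C ψ) :
    ConvexOn ℝ univ fun y => k * ψ y - (k * c) / 2 * ‖y‖ ^ 2 := by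
  refine (bcls_scale hψ.lo 1 hk 0).congr ?_
  intro y _
  simp only [one_smul]
  ring

theorem bcls_W_hi {c C k : ℝ} {ψ : E n → ℝ} (hk : 0 ≤ k) (hψ : Cls c C ψ) :
    ConvexOn ℝ univ fun y => (k * C) / 2 * ‖y‖ ^ 2 - k * ψ y := by
  refine (bcls_scale hψ.hi 1 hk 0).congr ?_
  intro y _
  simp only [one_smul]
  ring

theorem uE_cls {c C ε : ℝ} {ψ : E n → ℝ} (hc : 0 < c) (hC : c ≤ C) (hε : 0 < ε)
    (hψ : Cls c C ψ) :
    Cls ((1 + ε) * C)⁻¹ ((1 + ε) * c)⁻¹ fun x => uE ε ψ x - uE ε ψ 0 := by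
  have hk : 0 < (1 + ε) / ε := by positivity
  have hC0 : 0 < C := lt_of_lt_of_le hc hC
  have h := bcls_lap (W := fun y => (1 + ε) / ε * ψ y) (mul_pos hk hc) (mul_pos hk hC0) hε
    (fun y => by simp only [hψ.even]) (bcls_W_lo hk.le hψ) (bcls_W_hi hk.le hψ)
  have e1 : ε * ((1 + ε) / ε * C) = (1 + ε) * C := by field_simp
  have e2 : ε * ((1 + ε) / ε * c) = (1 + ε) * c := by field_simp
  rw [e1, e2] at h
  exact h

theorem bcls_cle {α β : ℝ} {φ : E n → ℝ} (hP : Pot α β φ) :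
    0 < (2 * β)⁻¹ ∧ (2 * β)⁻¹ ≤ α⁻¹ := by
  have h1 := hP.apos
  have h2 := hP.ale
  have h3 : 0 < 2 * β := by linarith
  exact ⟨inv_pos.2 h3, inv_anti₀ h1 (by linarith)⟩

theorem psiHat_cls {α β ε : ℝ} {φ ψ : E n → ℝ} (hP : Pot α β φ) (hε : 0 < ε) (hε1 : ε ≤ 1)
    (hψ : Cls (2 * β)⁻¹ α⁻¹ ψ) :
    Cls (2 * β)⁻¹ α⁻¹ fun y => psiHat φ ε ψ y - psiHat φ ε ψ 0 := by
  have hα := hP.apos
  have hβ : 0 < β := lt_of_lt_of_le hα hP.ale
  obtain ⟨hc, hcC⟩ := bcls_cle hP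
  have hu := uE_cls hc hcC hε hψ
  have hk : (0 : ℝ) ≤ ε⁻¹ := by positivity
  have hlo := (bcls_W_lo hk hu).add hP.cvx_lo
  have hhi := (bcls_W_hi hk hu).add hP.cvx_hi
  have hlo' : ConvexOn ℝ univ fun x => (uE ε ψ x / ε + φ x)
      - (ε⁻¹ * ((1 + ε) * α⁻¹)⁻¹ + α) / 2 * ‖x‖ ^ 2 := by
    refine (bcls_scale hlo 1 zero_le_one (ε⁻¹ * uE ε ψ 0)).congr ?_
    intro y _
    simp only [one_smul, Pi.add_apply]
    ring
  have hhi' : ConvexOn ℝ univ fun x => (ε⁻¹ * ((1 + ε) * (2 * β)⁻¹)⁻¹ + β) / 2 * ‖x‖ ^ 2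
      - (uE ε ψ x / ε + φ x) := by
    refine (bcls_scale hhi 1 zero_le_one (-(ε⁻¹ * uE ε ψ 0))).congr ?_
    intro y _
    simp only [one_smul, Pi.add_apply]
    ring
  have hev : ∀ y, uE ε ψ (-y) / ε + φ (-y) = uE ε ψ y / ε + φ y := by
    intro y
    have h1 := hu.even y
    rw [hP.even y]
    have h2 : uE ε ψ (-y) = uE ε ψ y := by linarith
    rw [h2]
  have h := bcls_lap (W := fun x => uE ε ψ x / ε + φ x) (by positivity) (by positivity) hε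
    hev hlo' hhi'
  refine bcls_mono h ?_ ?_
  · apply inv_anti₀ (by positivity)
    have e : ε * (ε⁻¹ * ((1 + ε) * (2 * β)⁻¹)⁻¹ + β) = (2 * β + ε * (1 + ε) * β) / (1 + ε) := by
      field_simp
    rw [e, div_le_iff₀ (by positivity)]
    nlinarith [mul_nonneg (mul_nonneg hε.le hβ.le) (sub_nonneg.2 hε1)]
  · apply inv_anti₀ hα
    have e : ε * (ε⁻¹ * ((1 + ε) * α⁻¹)⁻¹ + α) = (α + ε * (1 + ε) * α) / (1 + ε) := by
      field_simp
    rw [e, le_div_iff₀ (by positivity)]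
    nlinarith [mul_nonneg (mul_nonneg hε.le hε.le) hα.le]

theorem psiNew_cls {α β ε : ℝ} {φ ψ : E n → ℝ} (hP : Pot α β φ) (hε : 0 < ε) (hε1 : ε ≤ 1)
    (hψ : Cls (2 * β)⁻¹ α⁻¹ ψ) : Cls (2 * β)⁻¹ α⁻¹ (psiNew φ ε ψ) := by
  have h := psiHat_cls hP hε hε1 hψ
  have hk : (0 : ℝ) ≤ (1 + ε)⁻¹ := by positivity
  have hk2 : (0 : ℝ) ≤ ε * (1 + ε)⁻¹ := by positivity
  have hne : (1 + ε) ≠ 0 := by positivity
  refine ⟨?_, ?_, ?_, ?_⟩
  · simp [psiNew, hψ.zero]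
  · intro y
    have h1 := h.even y
    simp only [psiNew, h1, hψ.even]
  · refine ((bcls_W_lo hk h).add (bcls_W_lo hk2 hψ)).congr ?_
    intro y _
    simp only [Pi.add_apply, psiNew]
    generalize (2 * β)⁻¹ = c
    field_simp
    ring
  · refine ((bcls_W_hi hk h).add (bcls_W_hi hk2 hψ)).congr ?_
    intro y _
    simp only [Pi.add_apply, psiNew]
    generalize α⁻¹ = c
    field_simp
    ring

/-- `Jf` is bounded below on the class: `uE ε ψ x ≥ uE ε ψ 0 ≥ ε log ∫ exp(-(1+ε)C|y|²/(2ε))`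
and `∫ e^{-ψ} ≤ ∫ e^{-c|y|²/2}`. -/
theorem Jf_bdd {α β ε : ℝ} {φ : E n → ℝ} (hP : Pot α β φ) (hε : 0 < ε) :
    ∃ m : ℝ, ∀ ψ : E n → ℝ, Cls (2 * β)⁻¹ α⁻¹ ψ → m ≤ Jf φ ε ψ := by
  obtain ⟨hc, hcC⟩ := bcls_cle hP
  generalize (2 * β)⁻¹ = c at hc hcC ⊢
  generalize α⁻¹ = C at hcC ⊢
  have hC : 0 < C := lt_of_lt_of_le hc hcC
  have hk : 0 < (1 + ε) / ε := by positivity
  have hqC : Cls C C fun y : E n => C / 2 * ‖y‖ ^ 2 := cls_quad le_rfl
  have hqc : Cls c c fun y : E n => c / 2 * ‖y‖ ^ 2 := cls_quad le_rfl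
  refine ⟨uE ε (fun y : E n => C / 2 * ‖y‖ ^ 2) 0
    - (1 + ε) * Real.log (∫ y, rho (fun y : E n => c / 2 * ‖y‖ ^ 2) y), ?_⟩
  intro ψ hψ
  have hu := uE_cls hc hcC hε hψ
  have h0 : uE ε (fun y : E n => C / 2 * ‖y‖ ^ 2) 0 ≤ uE ε ψ 0 := by
    unfold uE lap
    refine mul_le_mul_of_nonneg_left ?_ hε.le
    refine Real.log_le_log (lap_pos (mul_pos hk hC) (bcls_W_lo hk.le hqC) _) ?_
    have i1 := lap_integrable (mul_pos hk hC) (bcls_W_lo hk.le hqC) (ε⁻¹ • (0 : E n))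
      (h := fun _ => 1) aestronglyMeasurable_const (polyG_of_bdd (M := 1) (by simp))
    have i2 := lap_integrable (mul_pos hk hc) (bcls_W_lo hk.le hψ) (ε⁻¹ • (0 : E n))
      (h := fun _ => 1) aestronglyMeasurable_const (polyG_of_bdd (M := 1) (by simp))
    simp only [mul_one] at i1 i2
    refine integral_mono i1 i2 ?_
    intro y
    have := mul_le_mul_of_nonneg_left (hψ.upper y) hk.le
    exact Real.exp_le_exp.2 (by linarith)
  have hlow : ∀ x, uE ε ψ 0 ≤ uE ε ψ x := by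
    intro x
    have h1 := hu.lower x
    have h2 : 0 ≤ ((1 + ε) * C)⁻¹ / 2 * ‖x‖ ^ 2 := by positivity
    linarith
  have hpoly : PolyG fun x => uE ε ψ x - uE ε ψ 0 := by
    refine ⟨((1 + ε) * c)⁻¹ / 2, 2, fun x => ?_⟩
    have h1 := hu.upper x
    rw [abs_of_nonneg (sub_nonneg.2 (hlow x))]
    refine h1.trans (mul_le_mul_of_nonneg_left ?_ (by positivity))
    have := norm_nonneg x
    nlinarith
  have hi1 := hP.integrable hu.continuous.aestronglyMeasurable hpoly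
  have hi2 := hP.integrable_rho.mul_const (uE ε ψ 0)
  have hi3 : Integrable fun x => rho φ x * uE ε ψ x := by
    refine (hi1.add hi2).congr (Filter.Eventually.of_forall fun x => ?_)
    simp only [Pi.add_apply]
    ring
  have hA : uE ε ψ 0 ≤ (∫ x, rho φ x * uE ε ψ x) / ∫ x, rho φ x := by
    rw [le_div_iff₀ hP.Z_pos, mul_comm, ← integral_mul_const]
    refine integral_mono hi2 hi3 fun x => ?_
    exact mul_le_mul_of_nonneg_left (hlow x) (rho_pos φ x).le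
  have hB : Real.log (∫ y, rho ψ y)
      ≤ Real.log (∫ y, rho (fun y : E n => c / 2 * ‖y‖ ^ 2) y) := by
    refine Real.log_le_log (hψ.Z_pos hc) ?_
    refine integral_mono (hψ.integrable_rho hc) (hqc.integrable_rho hc) fun y => ?_
    exact Real.exp_le_exp.2 (neg_le_neg (hψ.lower y))
  have hB' := mul_le_mul_of_nonneg_left hB (show 0 ≤ 1 + ε by positivity)
  unfold Jf
  linarith

end Crest.Agent.R238
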