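import Crest.Agent.R238.BMarg

/-!
# R238 / BConc: Laplace concentration and compactness of the class

`conc`: with `y₀ = G(x/(1+ε))`, `Θ y = (1+ε)ψ y - ⟪x,y⟫` satisfies
`c/2|y-y₀|² ≤ Θ y - Θ y₀ ≤ C|y-y₀|²` (from `qψ.lo/hi` at `y₀`, `T y₀ = x/(1+ε)`, `1 ≤ 1+ε ≤ 2`), so
`∫ cond |y-y₀|² ≤ ∫ |z|² e^{-c|z|²/(2ε)} / ∫ e^{-C|z|²/ε} = K ε` (substitute `z = √ε w`,
`Measure.integral_comp_smul`).
`cls_compact`: members of `Cls` are equi-Lipschitz on balls (`quad_of_cls`: `T 0 = 0` by evenness,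
`|T y| ≤ C|y|`); Arzelà–Ascoli, or pointwise limits on a countable dense set (sequential
compactness of a countable product of compact intervals) + equicontinuity.
`G_tendsto`: with `y_m = G_m x_m`, `y = G x`: add `ψ_m y ≥ ψ_m y_m + ⟪x_m, y - y_m⟫ + c/2|y-y_m|²`
and the same for `ψ`; `|y_m| ≤ |x_m|/c` (`G_m 0 = 0` by evenness).
-/

set_option autoImplicit false
open MeasureTheory Matrix Set Metric
open scoped RealInnerProductSpace ContDiff BigOperators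

namespace Crest.Agent.R238

variable {n : ℕ}

theorem bconc_gauss {b : ℝ} (hb : 0 < b) (y₀ : E n) :
    Integrable (fun y : E n => Real.exp (-b * ‖y - y₀‖ ^ 2)) ∧
      ∫ y : E n, Real.exp (-b * ‖y - y₀‖ ^ 2) = (Real.pi / b) ^ ((n : ℝ) / 2) := by
  have h : ∫ y : E n, Real.exp (-b * ‖y - y₀‖ ^ 2) = (Real.pi / b) ^ ((n : ℝ) / 2) := by
    rw [integral_sub_right_eq_self (fun y : E n => Real.exp (-b * ‖y‖ ^ 2)) y₀,
      GaussianFourier.integral_rexp_neg_mul_sq_norm hb, finrank_euclideanSpace_fin]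
  refine ⟨Integrable.of_integral_ne_zero ?_, h⟩
  rw [h]
  exact (Real.rpow_pos_of_pos (div_pos Real.pi_pos hb) _).ne'

theorem conc (n : ℕ) {c C : ℝ} (hc : 0 < c) (hC : c ≤ C) :
    ∃ K : ℝ, ∀ ε : ℝ, 0 < ε → ε ≤ 1 → ∀ (ψ u : E n → ℝ) (T G : E n → E n), Cls c C ψ →
      Leg c C ψ T G u → ∀ x : E n,
        ∫ y, cond ε ψ x y * ‖y - G ((1 + ε)⁻¹ • x)‖ ^ 2 ≤ K * ε := by
  have hC0 : 0 < C := hc.trans_le hC
  refine ⟨4 / c * (4 * C / c) ^ ((n : ℝ) / 2), fun ε hε hε1 ψ u T G hψ hL x => ?_⟩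
  set y₀ := G ((1 + ε)⁻¹ • x) with hy₀
  have hT : T y₀ = (1 + ε)⁻¹ • x := hL.TG _
  have h1ε : 0 < 1 + ε := by linarith
  set D : E n → ℝ := fun y => (1 + ε) * (ψ y - ψ y₀) - (⟪x, y⟫ - ⟪x, y₀⟫) with hD
  have hD' : ∀ y, D y = (1 + ε) * (ψ y - ψ y₀ - ⟪T y₀, y - y₀⟫) := fun y => by
    rw [hT, real_inner_smul_left, inner_sub_right]
    simp only [hD]
    field_simp
  have hlo : ∀ y, c / 2 * ‖y - y₀‖ ^ 2 ≤ D y := fun y => by
    have h1 := hL.qψ.lo y₀ y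
    have h2 : 0 ≤ c / 2 * ‖y - y₀‖ ^ 2 := by positivity
    rw [hD']
    nlinarith
  have hhi : ∀ y, D y ≤ C * ‖y - y₀‖ ^ 2 := fun y => by
    have h1 := hL.qψ.hi y₀ y
    have h2 : 0 ≤ C / 2 * ‖y - y₀‖ ^ 2 := by positivity
    rw [hD']
    nlinarith
  have hcont : Continuous fun y => Real.exp (-D y / ε) := by
    have := hψ.continuous
    simp only [hD]
    fun_prop
  obtain ⟨i1, e1⟩ := bconc_gauss (b := c / (4 * ε)) (by positivity) y₀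
  obtain ⟨i2, e2⟩ := bconc_gauss (b := C / ε) (by positivity) y₀
  have b1 : ∀ y, Real.exp (-D y / ε) ≤
      Real.exp (-(c / (4 * ε)) * ‖y - y₀‖ ^ 2) * Real.exp (-(c / (4 * ε)) * ‖y - y₀‖ ^ 2) := fun y => by
    rw [← Real.exp_add]
    refine Real.exp_le_exp.2 ?_
    rw [div_le_iff₀ hε]
    have : (-(c / (4 * ε)) * ‖y - y₀‖ ^ 2 + -(c / (4 * ε)) * ‖y - y₀‖ ^ 2) * ε = -(c / 2 * ‖y - y₀‖ ^ 2) := by
      field_simp; ring
    rw [this]
    linarith [hlo y]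
  have b2 : ∀ y, Real.exp (-(C / ε) * ‖y - y₀‖ ^ 2) ≤ Real.exp (-D y / ε) := fun y => by
    refine Real.exp_le_exp.2 ?_
    rw [le_div_iff₀ hε]
    have : -(C / ε) * ‖y - y₀‖ ^ 2 * ε = -(C * ‖y - y₀‖ ^ 2) := by field_simp
    rw [this]
    linarith [hhi y]
  have i3 : Integrable fun y => Real.exp (-D y / ε) := by
    refine i1.mono' hcont.aestronglyMeasurable (Filter.Eventually.of_forall fun y => ?_)
    rw [Real.norm_eq_abs, abs_of_pos (Real.exp_pos _)]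
    refine (b1 y).trans (mul_le_of_le_one_left (Real.exp_pos _).le (Real.exp_le_one_iff.2 ?_))
    have : 0 ≤ c / (4 * ε) * ‖y - y₀‖ ^ 2 := by positivity
    linarith
  set Z := ∫ y, Real.exp (-D y / ε) with hZ
  have hZ1 : (Real.pi / (C / ε)) ^ ((n : ℝ) / 2) ≤ Z := e2 ▸ integral_mono i2 i3 b2
  have hP : 0 < (Real.pi / (C / ε)) ^ ((n : ℝ) / 2) := Real.rpow_pos_of_pos (by positivity) _
  have hZ0 : 0 < Z := hP.trans_le hZ1
  set a : ℝ := (⟪x, y₀⟫ - (1 + ε) * ψ y₀) / ε with ha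
  have huE : uE ε ψ x = ε * (a + Real.log Z) := by
    unfold uE lap
    have : ∀ y, Real.exp (⟪ε⁻¹ • x, y⟫ - (1 + ε) / ε * ψ y) = Real.exp a * Real.exp (-D y / ε) := fun y => by
      rw [← Real.exp_add, real_inner_smul_left]
      congr 1
      simp only [ha, hD]
      field_simp
      ring
    simp only [this]
    rw [integral_const_mul, Real.log_mul (Real.exp_pos _).ne' hZ0.ne', Real.log_exp]
  have hcond : ∀ y, cond ε ψ x y = Z⁻¹ * Real.exp (-D y / ε) := fun y => by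
    unfold cond
    rw [huE, ← Real.exp_log hZ0, ← Real.exp_neg, ← Real.exp_add, Real.log_exp]
    congr 1
    simp only [ha, hD]
    field_simp
    ring
  have b3 : ∀ y, cond ε ψ x y * ‖y - y₀‖ ^ 2 ≤
      Z⁻¹ * (4 * ε / c) * Real.exp (-(c / (4 * ε)) * ‖y - y₀‖ ^ 2) := fun y => by
    have h1 : Real.exp (-(c / (4 * ε)) * ‖y - y₀‖ ^ 2) * ‖y - y₀‖ ^ 2 ≤ 4 * ε / c := by
      have h2 := Real.add_one_le_exp (c / (4 * ε) * ‖y - y₀‖ ^ 2)
      rw [neg_mul, Real.exp_neg, inv_mul_le_iff₀ (Real.exp_pos _)]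
      calc ‖y - y₀‖ ^ 2 = c / (4 * ε) * ‖y - y₀‖ ^ 2 * (4 * ε / c) := by field_simp
        _ ≤ _ := mul_le_mul_of_nonneg_right (by linarith) (by positivity)
    rw [hcond]
    calc Z⁻¹ * Real.exp (-D y / ε) * ‖y - y₀‖ ^ 2
        ≤ Z⁻¹ * (Real.exp (-(c / (4 * ε)) * ‖y - y₀‖ ^ 2) * Real.exp (-(c / (4 * ε)) * ‖y - y₀‖ ^ 2)) *
          ‖y - y₀‖ ^ 2 := by gcongr; exact b1 y
      _ = Z⁻¹ * (Real.exp (-(c / (4 * ε)) * ‖y - y₀‖ ^ 2) * ‖y - y₀‖ ^ 2) *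
          Real.exp (-(c / (4 * ε)) * ‖y - y₀‖ ^ 2) := by ring
      _ ≤ _ := by gcongr
  have h5 : (Real.pi / (c / (4 * ε))) ^ ((n : ℝ) / 2) =
      (4 * C / c) ^ ((n : ℝ) / 2) * (Real.pi / (C / ε)) ^ ((n : ℝ) / 2) := by
    rw [← Real.mul_rpow (by positivity) (by positivity)]
    congr 1
    field_simp
  calc ∫ y, cond ε ψ x y * ‖y - y₀‖ ^ 2
      ≤ ∫ y, Z⁻¹ * (4 * ε / c) * Real.exp (-(c / (4 * ε)) * ‖y - y₀‖ ^ 2) :=
        integral_mono_of_nonneg (Filter.Eventually.of_forall fun y =>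
          mul_nonneg (Real.exp_pos _).le (sq_nonneg _)) (i1.const_mul _) (Filter.Eventually.of_forall b3)
    _ = 4 / c * (4 * C / c) ^ ((n : ℝ) / 2) * ε * (Z⁻¹ * (Real.pi / (C / ε)) ^ ((n : ℝ) / 2)) := by
        rw [integral_const_mul, e1, h5]; ring
    _ ≤ 4 / c * (4 * C / c) ^ ((n : ℝ) / 2) * ε :=
        mul_le_of_le_one_right (by positivity) (by rw [inv_mul_le_iff₀ hZ0]; linarith)

end Crest.Agent.R238
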