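import Crest.Agent.R238.BLeg

/-!
# R238 / BCpt: compactness of the class and stability of the inverse gradient

`cls_compact`: members of `Cls` are equi-Lipschitz on balls (`quad_of_cls`: `T 0 = 0` by evenness,
`|T y| ≤ C|y|`); Arzelà–Ascoli, or pointwise limits on a countable dense set (sequential
compactness of a countable product of compact intervals) + equicontinuity.
`G_tendsto`: with `y_m = G_m x_m`, `y = G x`: add `ψ_m y ≥ ψ_m y_m + ⟪x_m, y - y_m⟫ + c/2|y-y_m|²`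
and the same for `ψ`; `|y_m| ≤ |x_m|/c` (`G_m 0 = 0` by evenness).
-/

set_option autoImplicit false
open MeasureTheory Matrix Set Metric
open scoped RealInnerProductSpace ContDiff BigOperators

namespace Crest.Agent.R238

variable {n : ℕ}

theorem bcpt_zero {c C : ℝ} (hc : 0 ≤ c) (hC : 0 < C) {f : E n → ℝ} {T : E n → E n} (h : Quad c C f T)
    (he : ∀ x, f (-x) = f x) : T 0 = 0 := by
  have h1 := h.lo 0 (C⁻¹ • T 0)
  have h2 := h.hi 0 (-(C⁻¹ • T 0))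
  rw [he] at h2
  simp only [sub_zero, inner_neg_right, real_inner_smul_right, real_inner_self_eq_norm_sq, norm_neg, norm_smul,
    mul_pow, Real.norm_eq_abs, sq_abs] at h1 h2
  have h3 : 0 ≤ c / 2 * (C⁻¹ ^ 2 * ‖T 0‖ ^ 2) := by positivity
  have h4 : C / 2 * (C⁻¹ ^ 2 * ‖T 0‖ ^ 2) = C⁻¹ * ‖T 0‖ ^ 2 / 2 := by field_simp
  have h5 : C⁻¹ * ‖T 0‖ ^ 2 ≤ 0 := by linarith
  have h6 : ‖T 0‖ ^ 2 ≤ 0 := nonpos_of_mul_nonpos_right h5 (inv_pos.2 hC)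
  exact norm_eq_zero.1 (pow_eq_zero_iff two_ne_zero |>.1 (h6.antisymm (sq_nonneg _)))

theorem bcpt_norm {c C : ℝ} (hc : 0 ≤ c) (hC : 0 < C) {f : E n → ℝ} {T : E n → E n} (h : Quad c C f T)
    (he : ∀ x, f (-x) = f x) (x : E n) : ‖T x‖ ≤ C * ‖x‖ := by
  simpa [bcpt_zero hc hC h he] using h.lip x 0

theorem bcpt_mod {c C : ℝ} (hc : 0 < c) (hC : c ≤ C) {ψ : E n → ℝ} (h : Cls c C ψ) (x₀ x : E n) :
    dist (ψ x₀) (ψ x) ≤ C * ‖x₀‖ * ‖x - x₀‖ + C / 2 * ‖x - x₀‖ ^ 2 := by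
  obtain ⟨T, hT⟩ := quad_of_cls hc hC h
  have h1 := hT.lo x₀ x
  have h2 := hT.hi x₀ x
  have h3 := abs_le.1 ((abs_real_inner_le_norm (T x₀) (x - x₀)).trans
    (mul_le_mul_of_nonneg_right (bcpt_norm hc.le (hc.trans_le hC) hT h.even x₀) (norm_nonneg _)))
  have h4 : 0 ≤ c / 2 * ‖x - x₀‖ ^ 2 := by positivity
  have h5 : 0 ≤ C / 2 * ‖x - x₀‖ ^ 2 := by have := hc.trans_le hC; positivity
  rw [Real.dist_eq, abs_le]
  constructor <;> linarith [h3.1, h3.2]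

theorem bcpt_closed (c C : ℝ) : IsClosed {ψ : E n → ℝ | Cls c C ψ} := by
  have e : {ψ : E n → ℝ | Cls c C ψ} = {ψ | ψ 0 = 0} ∩ ((⋂ y, {ψ | ψ (-y) = ψ y}) ∩
      ((fun ψ y => ψ y - c / 2 * ‖y‖ ^ 2) ⁻¹' {f | ConvexOn ℝ univ f} ∩
        (fun ψ y => C / 2 * ‖y‖ ^ 2 - ψ y) ⁻¹' {f | ConvexOn ℝ univ f})) := by
    ext ψ
    simp only [mem_ofPred_eq, mem_inter_iff, mem_iInter, mem_preimage]
    exact ⟨fun h => ⟨h.zero, h.even, h.lo, h.hi⟩, fun h => ⟨h.1, h.2.1, h.2.2.1, h.2.2.2⟩⟩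
  rw [e]
  refine (isClosed_eq (continuous_apply _) continuous_const).inter
    ((isClosed_iInter fun y => isClosed_eq (continuous_apply (-y)) (continuous_apply y)).inter
      ((isClosed_setOfPred_convexOn.preimage ?_).inter (isClosed_setOfPred_convexOn.preimage ?_)))
  · exact continuous_pi fun y => (continuous_apply y).sub continuous_const
  · exact continuous_pi fun y => continuous_const.sub (continuous_apply y)

theorem bcpt_cpt {c C : ℝ} (hc : 0 < c) (hC : c ≤ C) : IsCompact {f : C(E n, ℝ) | Cls c C f} := by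
  refine ArzelaAscoli.isCompact_of_equicontinuous _ ?_ fun x₀ => ?_
  · have e : ContinuousMap.toFun '' {f : C(E n, ℝ) | Cls c C f} = {ψ : E n → ℝ | Cls c C ψ} := by
      ext ψ
      exact ⟨fun ⟨f, hf, e⟩ => e ▸ hf, fun h => ⟨⟨ψ, Cls.continuous h⟩, h, rfl⟩⟩
    rw [e]
    refine (isCompact_univ_pi fun y : E n =>
      isCompact_Icc (a := c / 2 * ‖y‖ ^ 2) (b := C / 2 * ‖y‖ ^ 2)).of_isClosed_subset (bcpt_closed c C) ?_
    exact fun ψ h y _ => ⟨Cls.lower h y, Cls.upper h y⟩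
  · refine Metric.equicontinuousAt_of_continuity_modulus
      (fun x => C * ‖x₀‖ * ‖x - x₀‖ + C / 2 * ‖x - x₀‖ ^ 2) ?_ _
      (Filter.Eventually.of_forall fun x f => bcpt_mod hc hC f.2 x₀ x)
    exact Continuous.tendsto' (by fun_prop) _ _ (by simp)

theorem cls_compact {c C : ℝ} (hc : 0 < c) (hC : c ≤ C) (ψ : ℕ → E n → ℝ)
    (h : ∀ m, Cls c C (ψ m)) :
    ∃ (σ : ℕ → ℕ) (ψ₀ : E n → ℝ), StrictMono σ ∧ Cls c C ψ₀ ∧
      ∀ R η : ℝ, 0 < η → ∀ᶠ m in Filter.atTop, ∀ y : E n, ‖y‖ ≤ R → |ψ (σ m) y - ψ₀ y| ≤ η := by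
  obtain ⟨f, hf, σ, hσ, hl⟩ := (bcpt_cpt hc hC).tendsto_subseq
    (x := fun m => (⟨ψ m, (h m).continuous⟩ : C(E n, ℝ))) h
  refine ⟨σ, f, hσ, hf, fun R η hη => ?_⟩
  have h1 := ContinuousMap.tendsto_iff_forall_isCompact_tendstoUniformlyOn.1 hl _ (isCompact_closedBall 0 R)
  filter_upwards [Metric.tendstoUniformlyOn_iff.1 h1 η hη] with m hm y hy
  have h2 := hm y (mem_closedBall_zero_iff.2 hy)
  rw [dist_comm, Real.dist_eq] at h2
  exact h2.le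

theorem G_tendsto {c C : ℝ} (hc : 0 < c) (hC : c ≤ C) {ψ u : ℕ → E n → ℝ}
    {T G : ℕ → E n → E n} {ψ₀ u₀ : E n → ℝ} {T₀ G₀ : E n → E n}
    (h : ∀ m, Leg c C (ψ m) (T m) (G m) (u m)) (h₀ : Leg c C ψ₀ T₀ G₀ u₀)
    (hl : ∀ R η : ℝ, 0 < η → ∀ᶠ m in Filter.atTop, ∀ y : E n, ‖y‖ ≤ R → |ψ m y - ψ₀ y| ≤ η)
    {x : ℕ → E n} {x₀ : E n} (hx : Filter.Tendsto x Filter.atTop (nhds x₀)) :
    Filter.Tendsto (fun m => G m (x m)) Filter.atTop (nhds (G₀ x₀)) := by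
  have hC0 := hc.trans_le hC
  rw [Metric.tendsto_nhds]
  intro ε hε
  filter_upwards [hl (c⁻¹ * (‖x₀‖ + 1)) (c * ε ^ 2 / 16) (by positivity),
    Metric.tendsto_nhds.1 hx (min 1 (c * ε / 2)) (by positivity)] with m h1 h2
  rw [dist_eq_norm, lt_min_iff] at h2
  have b1 : ‖G m (x m)‖ ≤ c⁻¹ * (‖x₀‖ + 1) :=
    (bcpt_norm (inv_pos.2 hC0).le (inv_pos.2 hc) (h m).qu (h m).ueven _).trans
      (mul_le_mul_of_nonneg_left (by linarith [norm_sub_norm_le (x m) x₀]) (inv_pos.2 hc).le)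
  have b2 : ‖G₀ x₀‖ ≤ c⁻¹ * (‖x₀‖ + 1) :=
    (bcpt_norm (inv_pos.2 hC0).le (inv_pos.2 hc) h₀.qu h₀.ueven _).trans
      (mul_le_mul_of_nonneg_left (by linarith) (inv_pos.2 hc).le)
  have a1 := abs_le.1 (h1 _ b1)
  have a2 := abs_le.1 (h1 _ b2)
  have l1 := (h m).qψ.lo (G m (x m)) (G₀ x₀)
  have l2 := h₀.qψ.lo (G₀ x₀) (G m (x m))
  rw [(h m).TG, norm_sub_rev, ← neg_sub (G m (x m)), inner_neg_right] at l1
  rw [h₀.TG] at l2
  have l3 := real_inner_le_norm (x m - x₀) (G m (x m) - G₀ x₀)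
  rw [inner_sub_left] at l3
  rw [dist_eq_norm]
  generalize G m (x m) - G₀ x₀ = d at *
  have l4 := mul_le_mul_of_nonneg_right h2.2.le (norm_nonneg d)
  by_contra l5
  have l6 := not_lt.1 l5
  have l7 : c * ‖d‖ ^ 2 ≤ c * ε ^ 2 / 8 + c * ε / 2 * ‖d‖ := by linarith [a1.1, a2.2]
  have l8 : ‖d‖ ^ 2 ≤ ε ^ 2 / 8 + ε / 2 * ‖d‖ := le_of_mul_le_mul_left (by linarith) hc
  nlinarith

end Crest.Agent.R238
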