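import Crest.Agent.R238.PotL

/-!
# R238 / BLeg: `Cls ⇒ C^{1,1}` and Legendre duality

`quad_of_cls`: `V = ψ - c/2|·|²` is convex and `V(x+h) + V(x-h) - 2V(x) ≤ (C-c)|h|²`.  A convex
function has a subgradient `p` at every point (Hahn–Banach / grep Mathlib and the repo; or get
partial derivatives from 1D one-sided derivatives: they coincide by the second-difference bound);
then `0 ≤ V(x+h) - V x - ⟪p,h⟫ ≤ (C-c)|h|²`, so `V` is differentiable; the sharp two-point bounds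
are the tangent-line inequalities of the two convex functions of `Cls`.  Lipschitz bound
(Baillon–Haddad): for `f` convex with `f y ≤ f x + ⟪Tx, y-x⟫ + C/2|y-x|²`, minimise over `z` to get
`|Tx - Ty|²/C ≤ ⟪Tx - Ty, x - y⟫`.
`leg_of_quad`: `G x` = the minimiser of `ψ y - ⟪x,y⟫` (coercive, continuous); `T (G x) = x`,
`T` injective by `Quad.mono`; `u x = max_y (⟪x,y⟫ - ψ y)`; with `y = G x`:
`u x' ≥ max_z ⟪x',z⟫ - ψ y - ⟪x, z-y⟫ - C/2|z-y|²` gives the lower bound `1/C`, and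
`ψ(G x') ≥ ψ y + ⟪x, G x' - y⟫ + c/2|G x' - y|²` the upper bound `1/c`.
-/

set_option autoImplicit false
open MeasureTheory Matrix Set Metric
open scoped RealInnerProductSpace ContDiff BigOperators

namespace Crest.Agent.R238

variable {n : ℕ}

/-- a convex function on the whole space has a subgradient at every point -/
theorem bleg_subgrad {V : E n → ℝ} (hV : ConvexOn ℝ univ V) (x : E n) :
    ∃ p : E n, ∀ y, V x + ⟪p, y - x⟫ ≤ V y := by
  have hc : Continuous V := hV.locallyLipschitz.continuous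
  have ho : IsOpen {q : E n × ℝ | V q.1 < q.2} := isOpen_lt (hc.comp continuous_fst) continuous_snd
  have hcv : Convex ℝ {q : E n × ℝ | V q.1 < q.2} := by
    simpa using hV.convex_strict_epigraph
  obtain ⟨f, hf⟩ := geometric_hahn_banach_open_point hcv ho (x := (x, V x)) (by simp)
  have e : ∀ (y : E n) (t : ℝ), f (y, t) = f (y, 0) + t * f (0, 1) := fun y t => by
    rw [← smul_eq_mul, ← map_smul, ← map_add]; simp
  have h1 : f (0, 1) < 0 := by
    have := hf (x, V x + 1) (by simp)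
    rw [e x (V x + 1), e x (V x)] at this
    linarith
  refine ⟨(-f (0, 1))⁻¹ • (InnerProductSpace.toDual ℝ (E n)).symm (f.comp (ContinuousLinearMap.inl ℝ (E n) ℝ)),
    fun y => ?_⟩
  rw [real_inner_smul_left, InnerProductSpace.toDual_symm_apply, map_sub]
  simp only [ContinuousLinearMap.comp_apply, ContinuousLinearMap.inl_apply]
  refine le_of_forall_pos_le_add fun ε hε => ?_
  have := hf (y, V y + ε) (by simp [hε])
  rw [e y (V y + ε), e x (V x)] at this
  have h2 : (-f (0, 1))⁻¹ * (f (y, 0) - f (x, 0)) ≤ V y + ε - V x := by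
    rw [inv_mul_le_iff₀ (by linarith)]; linarith
  linarith

theorem bleg_zero {d : E n} {K : ℝ} (hK : 0 < K) (h : ∀ v : E n, ⟪d, v⟫ ≤ K / 2 * ‖v‖ ^ 2) : d = 0 := by
  have h1 := h (K⁻¹ • d)
  rw [real_inner_smul_right, real_inner_self_eq_norm_sq, norm_smul, Real.norm_eq_abs, mul_pow, sq_abs] at h1
  have e : K / 2 * (K⁻¹ ^ 2 * ‖d‖ ^ 2) = K⁻¹ * ‖d‖ ^ 2 / 2 := by field_simp
  have h2 : K⁻¹ * ‖d‖ ^ 2 ≤ 0 := by linarith
  have h3 : ‖d‖ ^ 2 ≤ 0 := by
    by_contra h4
    exact absurd h2 (not_le.2 (mul_pos (inv_pos.2 hK) (not_le.1 h4)))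
  exact norm_eq_zero.1 (by nlinarith [norm_nonneg d])

theorem bleg_sq (x y : E n) : ‖y‖ ^ 2 = ‖x‖ ^ 2 + 2 * ⟪x, y - x⟫ + ‖y - x‖ ^ 2 := by
  rw [← norm_add_sq_real, add_sub_cancel]

/-- the two-point bounds give the gradient and the Lipschitz bound (Baillon–Haddad) -/
theorem bleg_quad {c C : ℝ} {f : E n → ℝ} {T : E n → E n} (hc : 0 ≤ c) (hC : 0 < C)
    (lo : ∀ x y, c / 2 * ‖y - x‖ ^ 2 ≤ f y - f x - ⟪T x, y - x⟫)
    (hi : ∀ x y, f y - f x - ⟪T x, y - x⟫ ≤ C / 2 * ‖y - x‖ ^ 2) : Quad c C f T := by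
  have lo' : ∀ x y, 0 ≤ f y - f x - ⟪T x, y - x⟫ := fun x y => le_trans (by positivity) (lo x y)
  refine ⟨fun x => ?_, lo, hi, fun x y => ?_⟩
  · rw [hasGradientAt_iff_isLittleO]
    have h1 : (fun y => f y - f x - ⟪T x, y - x⟫) =O[nhds x] fun y => ‖y - x‖ ^ 2 :=
      Asymptotics.IsBigO.of_bound (C / 2) (Filter.Eventually.of_forall fun y => by
        rw [Real.norm_of_nonneg (lo' x y), Real.norm_of_nonneg (sq_nonneg _)]; exact hi x y)
    exact h1.trans_isLittleO (Asymptotics.isLittleO_pow_sub_sub x one_lt_two)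
  · have key : ∀ x y, C⁻¹ / 2 * ‖T x - T y‖ ^ 2 ≤ f y - f x - ⟪T x, y - x⟫ := fun x y => by
      have a1 := lo' x (y + C⁻¹ • (T x - T y))
      have a2 := hi y (y + C⁻¹ • (T x - T y))
      rw [add_sub_right_comm, inner_add_right, real_inner_smul_right] at a1
      rw [add_sub_cancel_left, real_inner_smul_right, norm_smul, Real.norm_eq_abs, mul_pow, sq_abs] at a2
      have a3 : ⟪T x, T x - T y⟫ - ⟪T y, T x - T y⟫ = ‖T x - T y‖ ^ 2 := by
        rw [← inner_sub_left, real_inner_self_eq_norm_sq]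
      have e : C / 2 * (C⁻¹ ^ 2 * ‖T x - T y‖ ^ 2) = C⁻¹ / 2 * ‖T x - T y‖ ^ 2 := by field_simp
      have a4 : C⁻¹ * ⟪T x, T x - T y⟫ - C⁻¹ * ⟪T y, T x - T y⟫ = C⁻¹ * ‖T x - T y‖ ^ 2 := by
        rw [← a3]; ring
      linarith
    have a1 := key x y
    have a2 := key y x
    rw [norm_sub_rev (T y)] at a2
    have a3 : ⟪T x - T y, x - y⟫ = -⟪T x, y - x⟫ - ⟪T y, x - y⟫ := by
      rw [inner_sub_left, ← inner_neg_right, neg_sub]
    have a4 := real_inner_le_norm (T x - T y) (x - y)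
    have a5 : C⁻¹ * ‖T x - T y‖ ^ 2 ≤ ‖T x - T y‖ * ‖x - y‖ := by linarith
    rw [inv_mul_le_iff₀ hC] at a5
    rcases (norm_nonneg (T x - T y)).eq_or_lt with h0 | h0
    · rw [← h0]; positivity
    · exact le_of_mul_le_mul_left (a := ‖T x - T y‖) (by nlinarith) h0

theorem quad_of_cls {c C : ℝ} {ψ : E n → ℝ} (hc : 0 < c) (hC : c ≤ C) (hψ : Cls c C ψ) :
    ∃ T : E n → E n, Quad c C ψ T := by
  choose p hp using bleg_subgrad hψ.lo
  choose q hq using bleg_subgrad hψ.hi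
  have hpq : ∀ x, p x + q x - (C - c) • x = 0 := fun x => by
    refine bleg_zero (K := C) (by linarith) fun v => ?_
    have a1 := hp x (x + v)
    have a2 := hq x (x + v)
    have a3 := bleg_sq x (x + v)
    rw [add_sub_cancel_left] at a1 a2 a3
    rw [inner_sub_left, inner_add_left, real_inner_smul_left]
    rw [a3] at a1 a2
    nlinarith [sq_nonneg ‖v‖]
  refine ⟨fun x => p x + c • x, bleg_quad hc.le (by linarith) (fun x y => ?_) fun x y => ?_⟩
  · have a1 := hp x y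
    rw [bleg_sq x y] at a1
    rw [inner_add_left, real_inner_smul_left]
    linarith
  · have a1 := hq x y
    have a2 := congrArg (fun w => ⟪w, y - x⟫) (hpq x)
    simp only [inner_sub_left, inner_add_left, real_inner_smul_left, inner_zero_left] at a2
    rw [bleg_sq x y] at a1
    rw [inner_add_left, real_inner_smul_left]
    linarith

theorem leg_of_quad {c C : ℝ} {ψ : E n → ℝ} {T : E n → E n} (hc : 0 < c) (hC : c ≤ C)
    (hψ : ∀ y, ψ (-y) = ψ y) (hT : Quad c C ψ T) : ∃ G u, Leg c C ψ T G u := by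
  have hC0 : 0 < C := by linarith
  have hcont : Continuous ψ := continuous_iff_continuousAt.2 fun x => (hT.grad x).continuousAt
  have hsurj : ∀ x, ∃ y, T y = x := fun x => by
    have hF : Continuous fun y => ψ y - ⟪x, y⟫ := hcont.sub (continuous_const.inner continuous_id)
    obtain ⟨y, hy⟩ := hF.exists_forall_le' 0 (by
      filter_upwards [(isCompact_closedBall (0 : E n) (2 / c * ‖T 0 - x‖)).compl_mem_cocompact] with y hy
      rw [mem_compl_iff, mem_closedBall_zero_iff, not_le, div_mul_eq_mul_div, div_lt_iff₀ hc] at hy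
      have a1 := hT.lo 0 y
      rw [sub_zero] at a1
      have a2 := neg_le_of_abs_le (abs_real_inner_le_norm (T 0 - x) y)
      rw [inner_sub_left] at a2
      rw [inner_zero_right]
      nlinarith [norm_nonneg y])
    refine ⟨y, (sub_eq_zero.1 (bleg_zero hC0 fun v => ?_)).symm⟩
    have a1 := hy (y + v)
    have a2 := hT.hi y (y + v)
    rw [add_sub_cancel_left] at a2
    rw [inner_add_right] at a1
    rw [inner_sub_left]
    linarith
  choose G hG using hsurj
  have hinj : ∀ y z, T y = T z → y = z := fun y z h => by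
    have a1 := hT.lo y z
    have a2 := hT.lo z y
    rw [h, ← neg_sub y z, inner_neg_right, norm_neg] at a1
    have : ‖y - z‖ ^ 2 ≤ 0 := by
      by_contra h4
      nlinarith [mul_pos hc (not_le.1 h4)]
    exact sub_eq_zero.1 (norm_eq_zero.1 (by nlinarith [norm_nonneg (y - z)]))
  have hmax : ∀ x z, ⟪x, z⟫ - ψ z ≤ ⟪x, G x⟫ - ψ (G x) := fun x z => by
    have a1 := hT.lo (G x) z
    rw [hG, inner_sub_right] at a1
    have : 0 ≤ c / 2 * ‖z - G x‖ ^ 2 := by positivity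
    linarith
  have hev : ∀ x, ⟪x, G x⟫ - ψ (G x) ≤ ⟪-x, G (-x)⟫ - ψ (G (-x)) := fun x => by
    have := hmax (-x) (-G x)
    rwa [inner_neg_neg, hψ] at this
  refine ⟨G, fun x => ⟪x, G x⟫ - ψ (G x), hT, bleg_quad (inv_pos.2 hC0).le (inv_pos.2 hc) (fun x x' => ?_) fun x x' => ?_,
    fun y => hinj _ _ (hG _), hG, fun _ => rfl, fun x => le_antisymm (by simpa using hev (-x)) (hev x)⟩
  · have a1 := hmax x' (G x + C⁻¹ • (x' - x))
    have a2 := hT.hi (G x) (G x + C⁻¹ • (x' - x))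
    rw [hG, add_sub_cancel_left, real_inner_smul_right, norm_smul, Real.norm_eq_abs, mul_pow, sq_abs] at a2
    rw [inner_add_right, real_inner_smul_right] at a1
    have a3 : ⟪x', x' - x⟫ - ⟪x, x' - x⟫ = ‖x' - x‖ ^ 2 := by
      rw [← inner_sub_left, real_inner_self_eq_norm_sq]
    have e : C / 2 * (C⁻¹ ^ 2 * ‖x' - x‖ ^ 2) = C⁻¹ / 2 * ‖x' - x‖ ^ 2 := by field_simp
    have a4 : C⁻¹ * ⟪x', x' - x⟫ - C⁻¹ * ⟪x, x' - x⟫ = C⁻¹ * ‖x' - x‖ ^ 2 := by
      rw [← a3]; ring
    rw [inner_sub_right (G x), real_inner_comm x' (G x), real_inner_comm x (G x)]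
    linarith
  · have a1 := hT.lo (G x) (G x')
    rw [hG, inner_sub_right] at a1
    have a2 := real_inner_le_norm (x' - x) (G x' - G x)
    rw [inner_sub_left, inner_sub_right, inner_sub_right] at a2
    have a3 : ‖x' - x‖ * ‖G x' - G x‖ ≤ c⁻¹ / 2 * ‖x' - x‖ ^ 2 + c / 2 * ‖G x' - G x‖ ^ 2 := by
      have e : c⁻¹ / 2 * ‖x' - x‖ ^ 2 + c / 2 * ‖G x' - G x‖ ^ 2 - ‖x' - x‖ * ‖G x' - G x‖ =
          c⁻¹ / 2 * (‖x' - x‖ - c * ‖G x' - G x‖) ^ 2 := by field_simp; ring
      have : 0 ≤ c⁻¹ / 2 * (‖x' - x‖ - c * ‖G x' - G x‖) ^ 2 := by positivity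
      linarith
    rw [inner_sub_right (G x), real_inner_comm x' (G x), real_inner_comm x (G x)]
    linarith

theorem exists_leg {c C : ℝ} {ψ : E n → ℝ} (hc : 0 < c) (hC : c ≤ C) (hψ : Cls c C ψ) :
    ∃ T G u, Leg c C ψ T G u := by
  obtain ⟨T, hT⟩ := quad_of_cls hc hC hψ
  obtain ⟨G, u, h⟩ := leg_of_quad hc hC hψ.even hT
  exact ⟨T, G, u, h⟩

end Crest.Agent.R238
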