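import Crest.Agent.R238.PotL
import Crest.Agent.R238.BLeg
import Crest.Agent.Lib.Prekopa.Basic

/-!
# R238 / BLap: two-sided convexity bounds for the log-Laplace transform

`W - a/2|y|²` convex and `b/2|y|² - W` convex, `0 < a ≤ b`.
* `W` is continuous (convex on a finite-dimensional space) and `W y ≥ k + ⟪p,y⟫ + a/2|y|²`
  (e.g. `V = W - a/2|·|²` convex continuous: `V y ≥ -M(1+|y|)` with `M = 3 sup_{|z|≤1}|V|`; then
  absorb `M|y|` into `a/4 |y|²`), so everything is integrable (`integrable_rho_of_lower`).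
* upper bound (Prékopa): `⟪x,y⟫ - W y - |x|²/(2a) = -|x - a y|²/(2a) - V y` is jointly concave in
  `(x,y)`, so `pl_euclidean` gives midpoint concavity of `lap W - |x|²/(2a)`; continuity of `lap W`
  (it is convex by Hölder/Cauchy–Schwarz + locally bounded, or dominated convergence) upgrades
  midpoint convexity to convexity (grep the repo for a midpoint-convexity lemma).
* lower bound: substitute `y ↦ y + x/b`:
  `lap W x - |x|²/(2b) = log ∫ exp(⟪x,y⟫ + |x|²/(2b) - W(y + x/b)) dy` and the exponent equals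
  `(b/2|y + x/b|² - W(y + x/b)) - b/2|y|²`, convex in `x`; Hölder (or Cauchy–Schwarz + midpoint).
-/

set_option autoImplicit false
open MeasureTheory Matrix Set Metric
open scoped RealInnerProductSpace ContDiff BigOperators

namespace Crest.Agent.R238

variable {n : ℕ}

theorem blap_cont {W : E n → ℝ} {a : ℝ} (hlo : ConvexOn ℝ univ fun y => W y - a / 2 * ‖y‖ ^ 2) : Continuous W := by
  have h := hlo.locallyLipschitz.continuous.add (f := fun y => W y - a / 2 * ‖y‖ ^ 2)
    (g := fun y : E n => a / 2 * ‖y‖ ^ 2) (by fun_prop)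
  exact h.congr fun y => by simp

/-- a continuous midpoint convex function is convex -/
theorem blap_mid {f : E n → ℝ} (hf : Continuous f)
    (h : ∀ x y, 2 * f ((1 / 2 : ℝ) • x + (1 / 2 : ℝ) • y) ≤ f x + f y) : ConvexOn ℝ univ f := by
  refine ⟨convex_univ, fun x _ y _ s t hs ht hst => ?_⟩
  obtain rfl : s = 1 - t := by linarith
  simp only [smul_eq_mul]
  refine le_of_forall_pos_le_add fun ε hε => ?_
  obtain ⟨g, hg⟩ : ∃ g : ℝ → ℝ, g = fun u => f ((1 - u) • x + u • y) - ((1 - u) * f x + u * f y) + ε * (u ^ 2 - u) :=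
    ⟨_, rfl⟩
  have hc : Continuous g := by rw [hg]; fun_prop
  obtain ⟨u, hu, hm⟩ := isCompact_Icc.exists_isMaxOn (nonempty_Icc.2 (zero_le_one' ℝ)) hc.continuousOn
  have h0 : g u ≤ 0 := by
    rcases hu.1.eq_or_lt with e0 | e0
    · rw [← e0, hg]; simp
    rcases hu.2.eq_or_lt with e1 | e1
    · rw [e1, hg]; simp
    exfalso
    obtain ⟨δ, hδ, d1, d2⟩ : ∃ δ, 0 < δ ∧ δ ≤ u ∧ δ ≤ 1 - u :=
      ⟨min u (1 - u), lt_min e0 (by linarith), min_le_left _ _, min_le_right _ _⟩
    have a1 : g (u - δ) ≤ g u := hm ⟨by linarith, by linarith⟩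
    have a2 : g (u + δ) ≤ g u := hm ⟨by linarith, by linarith⟩
    have a3 := h ((1 - (u - δ)) • x + (u - δ) • y) ((1 - (u + δ)) • x + (u + δ) • y)
    have e : (1 / 2 : ℝ) • ((1 - (u - δ)) • x + (u - δ) • y) + (1 / 2 : ℝ) • ((1 - (u + δ)) • x + (u + δ) • y) =
        (1 - u) • x + u • y := by module
    rw [e] at a3
    simp only [hg] at a1 a2
    nlinarith [mul_pos hε (mul_pos hδ hδ)]
  have a1 : g t ≤ g u := hm ⟨ht, by linarith⟩
  have a2 : g t ≤ 0 := a1.trans h0
  simp only [hg] at a2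
  nlinarith [mul_nonneg hε.le (sq_nonneg t), mul_nonneg hε.le hs]

/-- `log ∫ exp` of a family of convex functions is convex -/
theorem blap_holder {F : E n → E n → ℝ} (hi : ∀ x, Integrable fun y => Real.exp (F x y))
    (hc : ∀ y, ConvexOn ℝ univ fun x => F x y) : ConvexOn ℝ univ fun x => Real.log (∫ y, Real.exp (F x y)) := by
  refine ⟨convex_univ, fun x _ x' _ s t hs ht hst => ?_⟩
  have hp : ∀ x, 0 < ∫ y, Real.exp (F x y) := fun x => integral_exp_pos (hi x)
  simp only [smul_eq_mul]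
  obtain ⟨A, hA⟩ : ∃ A, A = Real.log (∫ y, Real.exp (F x y)) := ⟨_, rfl⟩
  obtain ⟨B, hB⟩ : ∃ B, B = Real.log (∫ y, Real.exp (F x' y)) := ⟨_, rfl⟩
  rw [← hA, ← hB, Real.log_le_iff_le_exp (hp _)]
  have h1 : ∀ y, Real.exp (F (s • x + t • x') y) ≤
      Real.exp (s * A + t * B) * (s * (Real.exp (-A) * Real.exp (F x y)) + t * (Real.exp (-B) * Real.exp (F x' y))) :=
    fun y => by
      have a1 := (hc y).2 (mem_univ x) (mem_univ x') hs ht hst
      have a2 := convexOn_exp.2 (mem_univ (-A + F x y)) (mem_univ (-B + F x' y)) hs ht hst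
      simp only [smul_eq_mul] at a1 a2
      rw [Real.exp_add (-A), Real.exp_add (-B)] at a2
      refine le_trans ?_ (mul_le_mul_of_nonneg_left a2 (Real.exp_pos _).le)
      rw [← Real.exp_add, Real.exp_le_exp]
      linarith
  have i1 := ((hi x).const_mul (Real.exp (-A))).const_mul s
  have i2 := ((hi x').const_mul (Real.exp (-B))).const_mul t
  refine (integral_mono (hi _) ((i1.add i2).const_mul _) h1).trans (le_of_eq ?_)
  have e1 : Real.exp (-A) * ∫ y, Real.exp (F x y) = 1 := by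
    rw [hA, Real.exp_neg, Real.exp_log (hp _), inv_mul_cancel₀ (hp _).ne']
  have e2 : Real.exp (-B) * ∫ y, Real.exp (F x' y) = 1 := by
    rw [hB, Real.exp_neg, Real.exp_log (hp _), inv_mul_cancel₀ (hp _).ne']
  simp only [Pi.add_apply]
  rw [integral_const_mul, integral_add i1 i2, integral_const_mul, integral_const_mul, integral_const_mul,
    integral_const_mul, e1, e2, mul_one, mul_one, hst, mul_one]

theorem lap_integrable {W : E n → ℝ} {a : ℝ} (ha : 0 < a)
    (hlo : ConvexOn ℝ univ fun y => W y - a / 2 * ‖y‖ ^ 2) (x : E n) {h : E n → ℝ}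
    (hm : AEStronglyMeasurable h volume) (hh : PolyG h) :
    Integrable fun y => Real.exp (⟪x, y⟫ - W y) * h y := by
  obtain ⟨p, hp⟩ := bleg_subgrad hlo 0
  have hc : Continuous fun y => W y - ⟪x, y⟫ := (blap_cont hlo).sub (continuous_const.inner continuous_id)
  have := integrable_rho_of_lower (f := fun y => W y - ⟪x, y⟫) hc.aestronglyMeasurable (k := W 0) (b := p - x) ha
    (fun y => by
      have := hp y
      rw [sub_zero, norm_zero] at this
      rw [inner_sub_left]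
      linarith) hm hh
  simpa only [rho, neg_sub] using this

theorem blap_int {W : E n → ℝ} {a : ℝ} (ha : 0 < a)
    (hlo : ConvexOn ℝ univ fun y => W y - a / 2 * ‖y‖ ^ 2) (x : E n) :
    Integrable fun y => Real.exp (⟪x, y⟫ - W y) := by
  simpa using lap_integrable ha hlo x (h := fun _ => 1) aestronglyMeasurable_const (polyG_of_bdd (M := 1) (by simp))

theorem lap_pos {W : E n → ℝ} {a : ℝ} (ha : 0 < a)
    (hlo : ConvexOn ℝ univ fun y => W y - a / 2 * ‖y‖ ^ 2) (x : E n) :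
    0 < ∫ y, Real.exp (⟪x, y⟫ - W y) :=
  integral_exp_pos (blap_int ha hlo x)

theorem lap_continuous {W : E n → ℝ} {a : ℝ} (ha : 0 < a)
    (hlo : ConvexOn ℝ univ fun y => W y - a / 2 * ‖y‖ ^ 2) : Continuous (lap W) := by
  have h := blap_holder (F := fun x y => ⟪x, y⟫ - W y) (blap_int ha hlo) fun y =>
    ⟨convex_univ, fun x _ x' _ s t _ _ hst => le_of_eq (by
      simp only [smul_eq_mul, inner_add_left, real_inner_smul_left]
      linear_combination (W y) * hst)⟩
  exact h.locallyLipschitz.continuous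

theorem lap_hi {W : E n → ℝ} {a : ℝ} (ha : 0 < a)
    (hlo : ConvexOn ℝ univ fun y => W y - a / 2 * ‖y‖ ^ 2) :
    ConvexOn ℝ univ fun x => a⁻¹ / 2 * ‖x‖ ^ 2 - lap W x := by
  refine blap_mid (Continuous.sub (by fun_prop) (lap_continuous ha hlo)) fun x x' => ?_
  have hW := blap_cont hlo
  obtain ⟨m, hm⟩ : ∃ m, m = (1 / 2 : ℝ) • x + (1 / 2 : ℝ) • x' := ⟨_, rfl⟩
  have hme : ∀ z : E n, Measurable fun y => ENNReal.ofReal (Real.exp (-(a⁻¹ / 2 * ‖z‖ ^ 2)) * Real.exp (⟪z, y⟫ - W y)) :=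
    fun z => ENNReal.measurable_ofReal.comp (Continuous.measurable (by fun_prop))
  have hI : ∀ z : E n, ∫⁻ y, ENNReal.ofReal (Real.exp (-(a⁻¹ / 2 * ‖z‖ ^ 2)) * Real.exp (⟪z, y⟫ - W y)) =
      ENNReal.ofReal (Real.exp (lap W z - a⁻¹ / 2 * ‖z‖ ^ 2)) := fun z => by
    rw [← ofReal_integral_eq_lintegral_ofReal ((blap_int ha hlo z).const_mul _)
      (Filter.Eventually.of_forall fun y => by positivity), integral_const_mul, sub_eq_neg_add, Real.exp_add, lap,
      Real.exp_log (lap_pos ha hlo z)]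
  have hΦ : ∀ z y : E n, -(a⁻¹ / 2 * ‖z‖ ^ 2) + (⟪z, y⟫ - W y) = -(a⁻¹ / 2 * ‖z - a • y‖ ^ 2) - (W y - a / 2 * ‖y‖ ^ 2) :=
    fun z y => by
      rw [norm_sub_sq_real, real_inner_smul_right, norm_smul, Real.norm_eq_abs, mul_pow, sq_abs]
      field_simp
      ring
  have key := Crest.Agent.Lib.Prekopa.pl_euclidean (hme x) (hme x') (hme m) fun y y' => by
    rw [← ENNReal.ofReal_mul (by positivity), ← ENNReal.ofReal_pow (by positivity)]
    refine ENNReal.ofReal_le_ofReal ?_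
    rw [← Real.exp_add, ← Real.exp_add, ← Real.exp_add, ← Real.exp_add, sq (Real.exp _), ← Real.exp_add, Real.exp_le_exp,
      hΦ, hΦ, hΦ]
    have a1 := hlo.2 (mem_univ y) (mem_univ y') (by norm_num : (0 : ℝ) ≤ 1 / 2) (by norm_num : (0 : ℝ) ≤ 1 / 2) (by norm_num)
    simp only [smul_eq_mul] at a1
    have e : m - a • ((1 / 2 : ℝ) • y + (1 / 2 : ℝ) • y') = (1 / 2 : ℝ) • ((x - a • y) + (x' - a • y')) := by
      rw [hm]; module
    have a2 : 2 * ‖m - a • ((1 / 2 : ℝ) • y + (1 / 2 : ℝ) • y')‖ ^ 2 ≤ ‖x - a • y‖ ^ 2 + ‖x' - a • y'‖ ^ 2 := by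
      rw [e, norm_smul, mul_pow, norm_add_sq_real]
      have := real_inner_le_norm (x - a • y) (x' - a • y')
      norm_num
      nlinarith [sq_nonneg (‖x - a • y‖ - ‖x' - a • y'‖)]
    have a3 := mul_le_mul_of_nonneg_left a2 (by positivity : 0 ≤ a⁻¹ / 2)
    linarith
  rw [hI, hI, hI, ← ENNReal.ofReal_mul (by positivity), ← ENNReal.ofReal_pow (by positivity),
    ENNReal.ofReal_le_ofReal_iff (by positivity), ← Real.exp_add, sq (Real.exp _), ← Real.exp_add, Real.exp_le_exp] at key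
  rw [← hm]
  linarith

theorem lap_lo {W : E n → ℝ} {a b : ℝ} (ha : 0 < a) (hb : 0 < b)
    (hlo : ConvexOn ℝ univ fun y => W y - a / 2 * ‖y‖ ^ 2)
    (hhi : ConvexOn ℝ univ fun y => b / 2 * ‖y‖ ^ 2 - W y) :
    ConvexOn ℝ univ fun x => lap W x - b⁻¹ / 2 * ‖x‖ ^ 2 := by
  have hI : ∀ x : E n, Integrable fun y => Real.exp (⟪x, y + b⁻¹ • x⟫ - W (y + b⁻¹ • x)) := fun x =>
    (blap_int ha hlo x).comp_add_right (b⁻¹ • x)
  have e0 : ∀ x y : E n, Real.exp (b / 2 * ‖y + b⁻¹ • x‖ ^ 2 - W (y + b⁻¹ • x) - b / 2 * ‖y‖ ^ 2) =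
      Real.exp (-(b⁻¹ / 2 * ‖x‖ ^ 2)) * Real.exp (⟪x, y + b⁻¹ • x⟫ - W (y + b⁻¹ • x)) := fun x y => by
    rw [← Real.exp_add, norm_add_sq_real, inner_add_right, real_inner_smul_right, real_inner_smul_right, norm_smul,
      Real.norm_eq_abs, mul_pow, sq_abs, real_inner_self_eq_norm_sq, real_inner_comm x y]
    congr 1
    field_simp
    ring
  have h := blap_holder (F := fun x y => b / 2 * ‖y + b⁻¹ • x‖ ^ 2 - W (y + b⁻¹ • x) - b / 2 * ‖y‖ ^ 2)
    (fun x => by simpa only [e0] using (hI x).const_mul _) fun y =>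
    ⟨convex_univ, fun x _ x' _ s t hs ht hst => by
      have a1 := hhi.2 (mem_univ (y + b⁻¹ • x)) (mem_univ (y + b⁻¹ • x')) hs ht hst
      have e : s • (y + b⁻¹ • x) + t • (y + b⁻¹ • x') = y + b⁻¹ • (s • x + t • x') := by
        obtain rfl : s = 1 - t := by linarith
        module
      rw [e] at a1
      simp only [smul_eq_mul] at a1 ⊢
      have e2 : b / 2 * ‖y‖ ^ 2 = s * (b / 2 * ‖y‖ ^ 2) + t * (b / 2 * ‖y‖ ^ 2) := by rw [← add_mul, hst, one_mul]
      linarith⟩
  refine h.congr fun x _ => ?_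
  simp only [e0]
  rw [integral_const_mul, integral_add_right_eq_self (fun y => Real.exp (⟪x, y⟫ - W y)) (b⁻¹ • x),
    Real.log_mul (Real.exp_pos _).ne' (lap_pos ha hlo x).ne', Real.log_exp, lap]
  ring

theorem lap_even {W : E n → ℝ} (h : ∀ y, W (-y) = W y) (x : E n) : lap W (-x) = lap W x := by
  rw [lap, lap, ← integral_neg_eq_self]
  simp only [inner_neg_neg, h]

end Crest.Agent.R238
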