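import Crest.Agent.R238.BStep
import Crest.Agent.R238.BConc
import Crest.Agent.R238.BCpt

/-!
# R238 / BLim: the limit `ε → 0`

`ε_m = 1/(m+1)`, `ψ_m` from `near_fixed`, subsequence from `cls_compact`, `exists_leg` for all.
For bounded continuous `b` (scale to `|b| ≤ 1`): `∫ rho ψ_m b → ∫ rho ψ₀ b` (dominated by
`e^{-c|y|²/2}`); `∫ y, cond ε_m ψ_m x y * b y → b (G₀ x)` for every `x` (`conc` + Chebyshev +
`G_tendsto` + continuity of `b` at `G₀ x`: `|b y - b y₀| ≤ η + 2|y - y₀|²/δ²`); dominated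
convergence in `x`.
-/

set_option autoImplicit false
open MeasureTheory Matrix Set Metric
open scoped RealInnerProductSpace ContDiff BigOperators

namespace Crest.Agent.R238

variable {n : ℕ}

open Filter Topology in
theorem blim_rho {c C : ℝ} (hc : 0 < c) (hC : c ≤ C) {ψ : ℕ → E n → ℝ} {ψ₀ b : E n → ℝ}
    (h : ∀ m, Cls c C (ψ m)) (hl : ∀ y, Tendsto (fun m => ψ m y) atTop (𝓝 (ψ₀ y)))
    (hb : Continuous b) (hb1 : ∀ y, |b y| ≤ 1) :
    Tendsto (fun m => ∫ y, rho (ψ m) y * b y) atTop (𝓝 (∫ y, rho ψ₀ y * b y)) := by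
  refine tendsto_integral_of_dominated_convergence (rho fun y : E n => c / 2 * ‖y‖ ^ 2)
    (fun m => (((h m).continuous.neg.rexp).mul hb).aestronglyMeasurable)
    ((cls_quad hC).integrable_rho hc) (fun m => Eventually.of_forall fun y => ?_)
    (Eventually.of_forall fun y => ?_)
  · rw [Real.norm_eq_abs, abs_mul, abs_of_pos (rho_pos _ _)]
    refine (mul_le_of_le_one_right (rho_pos _ _).le (hb1 y)).trans ?_
    exact Real.exp_le_exp.2 (neg_le_neg ((h m).lower y))
  · exact ((hl y).neg.rexp).mul_const _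

open Filter Topology in
/-- probability densities which concentrate at a point -/
theorem blim_dirac {k : ℕ → E n → ℝ} {z : ℕ → E n} {z₀ : E n} {d : ℕ → ℝ} {b : E n → ℝ}
    (hk0 : ∀ m y, 0 ≤ k m y) (hk1 : ∀ m, ∫ y, k m y = 1) (hi0 : ∀ m, Integrable (k m))
    (hi1 : ∀ m, Integrable fun y => k m y * b y)
    (hi2 : ∀ m, Integrable fun y => k m y * ‖y - z m‖ ^ 2)
    (hd : ∀ m, ∫ y, k m y * ‖y - z m‖ ^ 2 ≤ d m) (hd0 : Tendsto d atTop (𝓝 0))
    (hz : Tendsto z atTop (𝓝 z₀)) (hb : Continuous b) (hb1 : ∀ y, |b y| ≤ 1) :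
    Tendsto (fun m => ∫ y, k m y * b y) atTop (𝓝 (b z₀)) := by
  rw [Metric.tendsto_nhds]
  intro η hη
  obtain ⟨δ, hδ, hδb⟩ := Metric.continuousAt_iff.1 (hb.continuousAt (x := z₀)) (η / 2) (by positivity)
  have h1 := Metric.tendsto_nhds.1 hz (δ / 2) (by positivity)
  have h2 := (hd0.const_mul (8 / δ ^ 2)).eventually (gt_mem_nhds (by simpa using half_pos hη : 8 / δ ^ 2 * 0 < η / 2))
  filter_upwards [h1, h2] with m hm1 hm2
  have hpt : ∀ y, |b y - b z₀| ≤ η / 2 + 8 / δ ^ 2 * ‖y - z m‖ ^ 2 := by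
    intro y
    have h0 : 0 ≤ 8 / δ ^ 2 * ‖y - z m‖ ^ 2 := by positivity
    rcases lt_or_ge ‖y - z m‖ (δ / 2) with hy | hy
    · have : dist y z₀ < δ := by
        have := dist_triangle y (z m) z₀
        rw [dist_eq_norm y (z m)] at this
        linarith
      have := hδb this
      rw [Real.dist_eq] at this
      linarith
    · have h3 : (δ / 2) ^ 2 ≤ ‖y - z m‖ ^ 2 := pow_le_pow_left₀ (by positivity) hy 2
      have h4 : 8 / δ ^ 2 * (δ / 2) ^ 2 = 2 := by field_simp; norm_num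
      have h5 := mul_le_mul_of_nonneg_left h3 (by positivity : 0 ≤ 8 / δ ^ 2)
      have h6 := abs_sub (b y) (b z₀)
      linarith [hb1 y, hb1 z₀]
  have e : (∫ y, k m y * b y) - b z₀ = ∫ y, k m y * b y - k m y * b z₀ := by
    rw [integral_sub (hi1 m) ((hi0 m).mul_const _), integral_mul_const, hk1, one_mul]
  rw [Real.dist_eq, e]
  have h7 : |∫ y, k m y * b y - k m y * b z₀| ≤
      ∫ y, η / 2 * k m y + 8 / δ ^ 2 * (k m y * ‖y - z m‖ ^ 2) := by
    rw [← Real.norm_eq_abs]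
    refine norm_integral_le_of_norm_le (((hi0 m).const_mul _).add ((hi2 m).const_mul _))
      (Eventually.of_forall fun y => ?_)
    rw [Real.norm_eq_abs, ← mul_sub, abs_mul, abs_of_nonneg (hk0 m y)]
    refine (mul_le_mul_of_nonneg_left (hpt y) (hk0 m y)).trans_eq ?_
    ring
  rw [integral_add ((hi0 m).const_mul _) ((hi2 m).const_mul _), integral_const_mul, integral_const_mul,
    hk1] at h7
  have h8 := mul_le_mul_of_nonneg_left (hd m) (by positivity : 0 ≤ 8 / δ ^ 2)
  linarith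

theorem blim_polyG (z : E n) : PolyG fun y : E n => ‖y - z‖ ^ 2 := by
  have h : PolyG fun y : E n => ‖y - z‖ :=
    (polyG_norm.add (polyG_of_bdd (f := fun _ : E n => ‖z‖) (M := ‖z‖) fun _ => (abs_norm z).le)).of_le
      fun y => by
        rw [abs_norm]
        exact (norm_sub_le _ _).trans (le_abs_self _)
  simpa only [sq] using h.mul h

theorem blim_int {c C ε : ℝ} {ψ : E n → ℝ} (hc : 0 < c) (hε : 0 < ε) (hψ : Cls c C ψ) (x : E n) :
    Integrable (cond ε ψ x) := by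
  simpa using cond_integrable hc hε hψ x (h := fun _ => 1) aestronglyMeasurable_const
    (polyG_of_bdd (M := 1) fun _ => by simp)

theorem blim_le {c C ε : ℝ} {ψ b : E n → ℝ} (hc : 0 < c) (hε : 0 < ε) (hψ : Cls c C ψ)
    (hb1 : ∀ y, |b y| ≤ 1) (x : E n) : |∫ y, cond ε ψ x y * b y| ≤ 1 := by
  rw [← Real.norm_eq_abs, ← cond_integral hc hε hψ x]
  refine norm_integral_le_of_norm_le (blim_int hc hε hψ x) (Filter.Eventually.of_forall fun y => ?_)
  rw [Real.norm_eq_abs, abs_mul, abs_of_pos (cond_pos _ _ _ _)]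
  exact mul_le_of_le_one_right (cond_pos _ _ _ _).le (hb1 y)

theorem blim_meas {c C ε : ℝ} {ψ b : E n → ℝ} (hc : 0 < c) (hε : 0 < ε) (hψ : Cls c C ψ)
    (hb : Continuous b) : StronglyMeasurable fun x => ∫ y, cond ε ψ x y * b y :=
  StronglyMeasurable.integral_prod_right' (f := fun p : E n × E n => cond ε ψ p.1 p.2 * b p.2)
    ((cond_continuous hc hε hψ).mul (hb.comp continuous_snd)).stronglyMeasurable

/-- scaling: test functions bounded by `1` suffice -/
theorem blim_push {φ ψ : E n → ℝ} {G : E n → E n}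
    (h : ∀ b : E n → ℝ, Continuous b → (∀ y, |b y| ≤ 1) →
      (∫ y, rho ψ y * b y) / (∫ y, rho ψ y) = (∫ x, rho φ x * b (G x)) / ∫ x, rho φ x) :
    Push φ ψ G := by
  rintro b hb ⟨M, hM⟩
  have hp : 0 < |M| + 1 := by positivity
  have h1 := h (fun y => (|M| + 1)⁻¹ * b y) (continuous_const.mul hb) fun y => by
    rw [abs_mul, abs_of_pos (inv_pos.2 hp), ← div_eq_inv_mul, div_le_one hp]
    linarith [hM y, le_abs_self M]
  simp only [mul_left_comm _ (|M| + 1)⁻¹, integral_const_mul, mul_div_assoc] at h1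
  exact mul_left_cancel₀ (inv_pos.2 hp).ne' h1

open Filter Topology in
theorem exists_push {α β : ℝ} {φ : E n → ℝ} (hP : Pot α β φ) :
    ∃ (ψ u : E n → ℝ) (T G : E n → E n), Cls (2 * β)⁻¹ α⁻¹ ψ ∧ Leg (2 * β)⁻¹ α⁻¹ ψ T G u ∧
      Push φ ψ G := by
  have hα := hP.apos
  have hβ : 0 < β := hα.trans_le hP.ale
  have hc : 0 < (2 * β)⁻¹ := by positivity
  have hC : (2 * β)⁻¹ ≤ α⁻¹ := inv_anti₀ hα (by linarith [hP.ale])
  set e : ℕ → ℝ := fun m => 1 / ((m : ℝ) + 1) with he
  have he0 : ∀ m, 0 < e m := fun m => by simp only [he]; positivity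
  have he1 : ∀ m, e m ≤ 1 := fun m => by
    simp only [he]
    rw [div_le_one (by positivity)]
    linarith [Nat.cast_nonneg (α := ℝ) m]
  choose ψ hψ hn using fun m => near_fixed hP (he0 m) (he1 m)
  obtain ⟨σ, ψ₀, hσ, hψ₀, hl⟩ := cls_compact hc hC ψ hψ
  choose T G u hL using fun m => exists_leg hc hC (hψ m)
  obtain ⟨T₀, G₀, u₀, hL₀⟩ := exists_leg hc hC hψ₀
  obtain ⟨K, hK⟩ := conc n hc hC
  have het : Tendsto (fun m => e (σ m)) atTop (𝓝 0) :=
    tendsto_one_div_add_atTop_nhds_zero_nat.comp hσ.tendsto_atTop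
  have hpt : ∀ y, Tendsto (fun m => ψ (σ m) y) atTop (𝓝 (ψ₀ y)) := by
    intro y
    rw [Metric.tendsto_nhds]
    intro η hη
    filter_upwards [hl ‖y‖ (η / 2) (by positivity)] with m hm
    rw [Real.dist_eq]
    linarith [hm y le_rfl]
  refine ⟨ψ₀, u₀, T₀, G₀, hψ₀, hL₀, blim_push fun b hb hb1 => ?_⟩
  have A1 := blim_rho hc hC (fun m => hψ (σ m)) hpt hb hb1
  have A2 := blim_rho hc hC (fun m => hψ (σ m)) hpt (b := fun _ => 1) continuous_const (by simp)
  simp only [mul_one] at A2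
  have A := A1.div A2 (hψ₀.Z_pos hc).ne'
  have B0 : ∀ x, Tendsto (fun m => ∫ y, cond (e (σ m)) (ψ (σ m)) x y * b y) atTop (𝓝 (b (G₀ x))) := by
    intro x
    have hx : Tendsto (fun m => (1 + e (σ m))⁻¹ • x) atTop (𝓝 x) := by
      have := ((het.const_add 1).inv₀ (by norm_num)).smul_const x
      simpa using this
    refine blim_dirac (z := fun m => G (σ m) ((1 + e (σ m))⁻¹ • x)) (d := fun m => K * e (σ m))
      (fun m y => (cond_pos _ _ _ _).le) (fun m => cond_integral hc (he0 _) (hψ _) x)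
      (fun m => blim_int hc (he0 _) (hψ _) x)
      (fun m => cond_integrable hc (he0 _) (hψ _) x hb.aestronglyMeasurable (polyG_of_bdd hb1))
      (fun m => cond_integrable hc (he0 _) (hψ _) x (by fun_prop) (blim_polyG _))
      (fun m => hK _ (he0 _) (he1 _) _ _ _ _ (hψ _) (hL _) x) (by simpa using het.const_mul K)
      (G_tendsto hc hC (fun m => hL (σ m)) hL₀ hl hx) hb hb1
  have B1 : Tendsto (fun m => ∫ x, rho φ x * ∫ y, cond (e (σ m)) (ψ (σ m)) x y * b y) atTop
      (𝓝 (∫ x, rho φ x * b (G₀ x))) := by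
    refine tendsto_integral_of_dominated_convergence (rho φ)
      (fun m => hP.continuous_rho.aestronglyMeasurable.mul
        (blim_meas hc (he0 _) (hψ _) hb).aestronglyMeasurable)
      hP.integrable_rho (fun m => Eventually.of_forall fun x => ?_)
      (Eventually.of_forall fun x => (B0 x).const_mul _)
    rw [Real.norm_eq_abs, abs_mul, abs_of_pos (rho_pos _ _)]
    exact mul_le_of_le_one_right (rho_pos _ _).le (blim_le hc (he0 _) (hψ _) hb1 x)
  have B := B1.div_const (∫ x, rho φ x)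
  have D := (A.sub B).abs
  have D0 : Tendsto (fun m => 2 * √(e (σ m))) atTop (𝓝 0) := by
    simpa using het.sqrt.const_mul 2
  have := le_of_tendsto_of_tendsto' D D0 fun m => hn (σ m) b hb hb1
  exact sub_eq_zero.1 (abs_nonpos_iff.1 this)

end Crest.Agent.R238
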