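import Crest.Agent.R238.BMeas

/-!
# R238 / BMA: the Monge–Ampère equation almost everywhere

`S = {x | DifferentiableAt ℝ G x}` is measurable and conull (`Quad.ae_diff`), `G '' S` is conull
(`push_ae'`, `G (T y) = y`).  `integral_image_eq_integral_abs_det_fderiv_smul` on `S` for
`y ↦ rho ψ y * N (T y)` (`N` a test function) and `push_integral` give
`∫ (rho ψ (G x) det(jac G x)/Zψ - rho φ x/Z) N x = 0` for all test `N`; the bracket is locally
integrable (`det` bounded by `Quad.jac_ell`), so it vanishes a.e.
(`ae_eq_zero_of_integral_contDiff_smul_eq_zero`).  Take logs, `ψ (G x) = ⟪x, G x⟫ - u x`.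
-/

set_option autoImplicit false
open MeasureTheory Matrix Set Metric
open scoped RealInnerProductSpace ContDiff BigOperators

namespace Crest.Agent.R238

variable {n : ℕ}

/-- change of variables along `G`, on the whole space -/
theorem bma_cov {α β c C : ℝ} {φ ψ u : E n → ℝ} {T G : E n → E n} (hP : Pot α β φ)
    (hc : 0 < c) (hψ : Cls c C ψ) (hL : Leg c C ψ T G u) (h : Push φ ψ G) (g : E n → ℝ) :
    (∫ y, g y = ∫ x, |(fderiv ℝ G x).det| * g (G x)) ∧
      (Integrable g → Integrable fun x => |(fderiv ℝ G x).det| * g (G x)) := by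
  set S : Set (E n) := {x | DifferentiableAt ℝ G x} with hS
  have hSm : MeasurableSet S := measurableSet_of_differentiableAt ℝ G
  have hSae : ∀ᵐ x : E n, x ∈ S := hL.qu.ae_diff
  have hinj : InjOn G S := fun x _ y _ hxy => by
    rw [← hL.TG x, ← hL.TG y, hxy]
  have hder : ∀ x ∈ S, HasFDerivWithinAt G (fderiv ℝ G x) S x := fun x hx =>
    (DifferentiableAt.hasFDerivAt hx).hasFDerivWithinAt
  have hIae : ∀ᵐ y : E n, y ∈ G '' S := by
    filter_upwards [push_ae' hP hc hψ hL h hSae] with y hy
    exact ⟨T y, hy, hL.GT y⟩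
  have r1 : (volume : Measure (E n)).restrict S = volume := Measure.restrict_eq_self_of_ae_mem hSae
  have r2 : (volume : Measure (E n)).restrict (G '' S) = volume :=
    Measure.restrict_eq_self_of_ae_mem hIae
  constructor
  · have := integral_image_eq_integral_abs_det_fderiv_smul volume hSm hder hinj g
    rw [r1, r2] at this
    simpa only [smul_eq_mul] using this
  · intro hg
    have := (integrableOn_image_iff_integrableOn_abs_det_fderiv_smul volume hSm hder hinj g).1
      hg.integrableOn
    rw [IntegrableOn, r1] at this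
    simpa only [smul_eq_mul] using this

theorem ma_of_push {α β c C : ℝ} {φ ψ u : E n → ℝ} {T G : E n → E n} (hP : Pot α β φ)
    (hc : 0 < c) (hC : c ≤ C) (hψ : Cls c C ψ) (hL : Leg c C ψ T G u) (h : Push φ ψ G) :
    ∃ c₀ : ℝ, ∀ᵐ x : E n, Real.log (jac G x).det = ⟪x, G x⟫ - u x - φ x + c₀ := by
  have hZψ := hψ.Z_pos hc
  have hZ := hP.Z_pos
  set Zψ := ∫ x, rho ψ x with hZψd
  set Z := ∫ x, rho φ x with hZd
  have hi1 : Integrable fun x => |(fderiv ℝ G x).det| * rho ψ (G x) / Zψ :=
    ((bma_cov hP hc hψ hL h (rho ψ)).2 (hψ.integrable_rho hc)).div_const _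
  have hi2 : Integrable fun x => rho φ x / Z := hP.integrable_rho.div_const _
  have key : (fun x => |(fderiv ℝ G x).det| * rho ψ (G x) / Zψ) =ᵐ[volume]
      fun x => rho φ x / Z := by
    refine Integrable.ae_eq_of_forall_setIntegral_eq _ _ hi1 hi2 fun s hs _ => ?_
    have hm : AEStronglyMeasurable (s.indicator fun _ : E n => (1 : ℝ)) volume :=
      (aestronglyMeasurable_const.indicator hs)
    have h1 := push_integral hP hc hψ hL h hm
    rw [(bma_cov hP hc hψ hL h _).1] at h1
    have a1 : (fun x => |(fderiv ℝ G x).det| *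
        (rho ψ (G x) * s.indicator (fun _ : E n => (1 : ℝ)) (T (G x)))) =
        s.indicator fun x => |(fderiv ℝ G x).det| * rho ψ (G x) := by
      funext x
      rw [hL.TG]
      by_cases hx : x ∈ s <;> simp [hx]
    have a2 : (fun x => rho φ x * s.indicator (fun _ : E n => (1 : ℝ)) x) =
        s.indicator (rho φ) := by
      funext x
      by_cases hx : x ∈ s <;> simp [hx]
    rw [a1, a2, integral_indicator hs, integral_indicator hs] at h1
    rw [integral_div, integral_div]
    exact h1
  refine ⟨Real.log Zψ - Real.log Z, ?_⟩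
  filter_upwards [key, hL.qu.ae_diff] with x hx hd
  have hpos : 0 < (jac G x).det :=
    (hL.qu.jac_ell hd).det_pos (inv_pos.2 (lt_of_lt_of_le hc hC))
  rw [det_jac, abs_of_pos hpos] at hx
  have hx' := congrArg Real.log hx
  have e1 : 0 < rho ψ (G x) := Real.exp_pos _
  have e2 : 0 < rho φ x := Real.exp_pos _
  rw [Real.log_div (mul_pos hpos e1).ne' hZψ.ne', Real.log_mul hpos.ne' e1.ne',
    Real.log_div e2.ne' hZ.ne', rho, rho, Real.log_exp, Real.log_exp] at hx'
  have := hL.val x
  linarith

end Crest.Agent.R238
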