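import Crest.Agent.R238.BMeas

/-!
# R238 / BStein: the weak Stein identity

`F ∘ T` is Lipschitz with compact support, `rho ψ` is `C¹` (replace it by `χ · rho ψ`, `χ = cut R`
equal to `1` near the support, to have a Lipschitz function), so
`LipschitzWith.integral_lineDeriv_mul_eq` gives
`∫ rho ψ y * ∂_d (F∘T) y = ∫ rho ψ y * (T y d) * F (T y)`.  For a.e. `y`, `F` and `G` are
differentiable at `x = T y` (`push_ae'`), `T` is differentiable at `y`, `jac T y * jac G x = 1`
(chain rule for `T ∘ G = id`), so `∂_d (F∘T) y = Σ_e pd e F x * jac T y e d` and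
`jac T y = (jac G x)⁻¹` is symmetric.  Apply `push_integral` on both sides.
-/

set_option autoImplicit false
open MeasureTheory Matrix Set Metric
open scoped RealInnerProductSpace ContDiff BigOperators

namespace Crest.Agent.R238

variable {n : ℕ}

theorem bstein_inv {T G : E n → E n} (hGT : ∀ y, G (T y) = y) {y : E n} (hT : DifferentiableAt ℝ T y)
    (hG : DifferentiableAt ℝ G (T y)) : (jac G (T y))⁻¹ = jac T y := by
  refine Matrix.inv_eq_right_inv ?_
  have h1 : fderiv ℝ (G ∘ T) y = (fderiv ℝ G (T y)).comp (fderiv ℝ T y) := fderiv_comp y hG hT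
  rw [show G ∘ T = id from funext hGT, fderiv_id] at h1
  ext i j
  have h2 := congrArg (fun A : E n →L[ℝ] E n => A (ee j) i) h1
  simp only [ContinuousLinearMap.id_apply, ContinuousLinearMap.comp_apply] at h2
  rw [jac_apply G] at h2
  rw [Matrix.mul_apply, Matrix.one_apply]
  refine Eq.trans h2.symm ?_
  simp [ee]

theorem stein_of_push {α β c C : ℝ} {φ ψ u : E n → ℝ} {T G : E n → E n} (hP : Pot α β φ)
    (hc : 0 < c) (hC : c ≤ C) (hψ : Cls c C ψ) (hL : Leg c C ψ T G u) (h : Push φ ψ G)
    (F : E n → ℝ) (K : NNReal) (hF : LipschitzWith K F) (hs : HasCompactSupport F) (d : Fin n) :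
    ∫ x, rho φ x * (x d * F x) = ∫ x, rho φ x * ∑ e, (jac G x)⁻¹ d e * pd e F x := by
  have hT := hL.qψ
  have hK : IsCompact (G '' tsupport F) := hs.isCompact.image hL.qu.continuous
  obtain ⟨R, hR0, hR⟩ := hK.isBounded.subset_ball_lt 0 0
  have hin : ∀ y, T y ∈ tsupport F → ‖y‖ < R := fun y hy => by
    have := hR ⟨T y, hy, hL.GT y⟩
    rwa [mem_ball_zero_iff] at this
  have hH : LipschitzWith (K * C.toNNReal) (F ∘ T) := hF.comp hT.lipschitz
  have hρ : ContDiff ℝ 1 (rho ψ) := contDiff_rho hT.contDiff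
  have hcut : ContDiff ℝ 1 (cut R : E n → ℝ) := (contDiff_cut R).of_le (by exact_mod_cast le_top)
  have hw : ContDiff ℝ 1 fun y => cut R y * rho ψ y := hcut.mul hρ
  have hwc : HasCompactSupport fun y => cut R y * rho ψ y := (tst_cut hR0).cs.mul_right
  obtain ⟨D, hD⟩ := hw.lipschitzWith_of_hasCompactSupport hwc one_ne_zero
  have key := hH.integral_lineDeriv_mul_eq (μ := volume) hD hwc (ee d)
  have e1 : ∫ y, lineDeriv ℝ (F ∘ T) y (ee d) * (cut R y * rho ψ y) =
      ∫ y, rho ψ y * (fun x => ∑ e, (jac G x)⁻¹ d e * pd e F x) (T y) := by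
    refine integral_congr_ae ?_
    filter_upwards [hT.ae_diff, push_ae' hP hc hψ hL h hL.qu.ae_diff,
      push_ae' hP hc hψ hL h (hF.ae_differentiableAt (μ := volume))] with y h1 h2 h3
    have e : lineDeriv ℝ (F ∘ T) y (ee d) = ∑ e, (jac G (T y))⁻¹ d e * pd e F (T y) := by
      rw [(h3.comp y h1).lineDeriv_eq_fderiv, fderiv_comp y h3 h1, ContinuousLinearMap.comp_apply,
        fderiv_eq_sum, bstein_inv hL.GT h1 h2]
      refine Finset.sum_congr rfl fun e _ => ?_
      rw [(hT.jac_ell h1).symm d e]
      rfl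
    rw [e]
    by_cases hy : T y ∈ tsupport F
    · rw [cut_one hR0 (hin y hy).le, one_mul, mul_comm]
    · simp [pd_eq_zero hy]
  have e2 : ∫ y, lineDeriv ℝ (fun y => cut R y * rho ψ y) y (-ee d) * (F ∘ T) y =
      ∫ y, rho ψ y * (fun x => x d * F x) (T y) := by
    refine integral_congr_ae (Filter.Eventually.of_forall fun y => ?_)
    by_cases hy : T y ∈ tsupport F
    · have e : fderiv ℝ (fun y => cut R y * rho ψ y) y (ee d) = -(T y d * rho ψ y) := by
        have := pd_mul d (hcut.differentiable one_ne_zero y) (hρ.differentiable one_ne_zero y)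
        rw [pd_cut_in hR0 (hin y hy), cut_one hR0 (hin y hy).le,
          pd_rho d (hT.contDiff.differentiable one_ne_zero y), hT.pd, zero_mul, zero_add, one_mul] at this
        exact this
      beta_reduce
      rw [(hw.differentiable one_ne_zero y).lineDeriv_eq_fderiv, map_neg, e, Function.comp_apply]
      ring
    · simp [image_eq_zero_of_notMem_tsupport hy]
  have m1 : AEStronglyMeasurable (fun x : E n => x d * F x) volume :=
    (Continuous.mul (by fun_prop) hF.continuous).aestronglyMeasurable
  have m2 : AEStronglyMeasurable (fun x : E n => ∑ e, (jac G x)⁻¹ d e * pd e F x) volume :=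
    (Finset.measurable_sum _ fun e _ => (measurable_jac_inv G d e).mul
      (measurable_fderiv_apply_const ℝ F (ee e))).aestronglyMeasurable
  have p1 := push_integral hP hc hψ hL h m1
  have p2 := push_integral hP hc hψ hL h m2
  rw [e1, e2] at key
  exact (div_left_inj' hP.Z_pos.ne').1 (p1.symm.trans ((congrArg (· / ∫ y, rho ψ y) key.symm).trans p2))

end Crest.Agent.R238
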