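import Crest.Agent.R238.BLim
import Crest.Agent.R238.BMA
import Crest.Agent.R238.BStein

/-!
# R238 / BMain: existence of the `C^{1,1}` moment potential
-/

set_option autoImplicit false
open MeasureTheory Matrix Set Metric
open scoped RealInnerProductSpace ContDiff BigOperators

namespace Crest.Agent.R238

variable {n : ℕ}

theorem exists_weak {α β : ℝ} {φ : E n → ℝ} (hP : Pot α β φ) :
    ∃ (c C : ℝ) (u : E n → ℝ) (G : E n → E n), Weak φ c C u G := by
  obtain ⟨ψ, u, T, G, hψ, hL, h⟩ := exists_push hP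
  have ha := hP.apos
  have hb : 0 < β := ha.trans_le hP.ale
  have hc : 0 < (2 * β)⁻¹ := by positivity
  have hC : (2 * β)⁻¹ ≤ α⁻¹ := inv_anti₀ ha (by linarith [hP.ale])
  exact ⟨_, _, u, G, ⟨by positivity, inv_anti₀ hc hC, hL.qu, hL.ueven,
    ma_of_push hP hc hC hψ hL h, stein_of_push hP hc hC hψ hL h⟩⟩

end Crest.Agent.R238
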