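import Crest.Agent.R238.BCls

/-!
# R238 / BMarg: the entropic coupling and its marginals (Fubini)

`cond ε ψ x y = exp(⟪x/ε,y⟫ - W y) / ∫ exp(⟪x/ε,·⟫ - W)`, `W = (1+ε)/ε ψ`.  The joint density
`rho φ x * cond ε ψ x y` is continuous, nonnegative and integrable on the product (Tonelli:
`∫ y, cond = 1`; use `integrable_prod_iff`).  `pm φ ε ψ y = (∫ x, rho φ x * cond ε ψ x y)/Z`.
-/

set_option autoImplicit false
open MeasureTheory Matrix Set Metric
open scoped RealInnerProductSpace ContDiff BigOperators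

namespace Crest.Agent.R238

variable {n : ℕ}

theorem cond_pos (ε : ℝ) (ψ : E n → ℝ) (x y : E n) : 0 < cond ε ψ x y := Real.exp_pos _

theorem bmarg_cvx {c C ε : ℝ} {ψ : E n → ℝ} (hε : 0 < ε) (hψ : Cls c C ψ) :
    ConvexOn ℝ univ fun y => (1 + ε) / ε * ψ y - (1 + ε) / ε * c / 2 * ‖y‖ ^ 2 := by
  have := hψ.lo.smul (c := (1 + ε) / ε) (by positivity)
  refine this.congr fun y _ => ?_
  simp only [smul_eq_mul]
  ring

theorem bmarg_cond {ε : ℝ} (hε : 0 < ε) (ψ : E n → ℝ) (x y : E n) :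
    cond ε ψ x y = Real.exp (-lap (fun y => (1 + ε) / ε * ψ y) (ε⁻¹ • x)) *
      Real.exp (⟪ε⁻¹ • x, y⟫ - (1 + ε) / ε * ψ y) := by
  unfold cond uE
  rw [← Real.exp_add, real_inner_smul_left]
  congr 1
  field_simp
  ring

theorem bmarg_cvx' {α β c C ε : ℝ} {φ ψ : E n → ℝ} (hP : Pot α β φ) (hc : 0 < c) (hC : c ≤ C)
    (hε : 0 < ε) (hψ : Cls c C ψ) :
    0 < α + ((1 + ε) * C)⁻¹ / ε ∧ ConvexOn ℝ univ fun x =>
      (uE ε ψ x / ε + φ x) - (α + ((1 + ε) * C)⁻¹ / ε) / 2 * ‖x‖ ^ 2 := by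
  have hC0 : 0 < C := lt_of_lt_of_le hc hC
  have hα := hP.apos
  refine ⟨by positivity, ?_⟩
  have := (((uE_cls hc hC hε hψ).lo.smul (c := ε⁻¹) (by positivity)).add hP.cvx_lo).add_const (uE ε ψ 0 / ε)
  refine this.congr fun y _ => ?_
  simp only [smul_eq_mul, Pi.add_apply]
  ring

theorem cond_integrable {c C ε : ℝ} {ψ : E n → ℝ} (hc : 0 < c) (hε : 0 < ε) (hψ : Cls c C ψ)
    (x : E n) {h : E n → ℝ} (hm : AEStronglyMeasurable h volume) (hh : PolyG h) :
    Integrable fun y => cond ε ψ x y * h y := by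
  have := (lap_integrable (by positivity) (bmarg_cvx hε hψ) (ε⁻¹ • x) hm hh).const_mul
    (Real.exp (-lap (fun y => (1 + ε) / ε * ψ y) (ε⁻¹ • x)))
  simpa only [bmarg_cond hε, mul_assoc] using this

theorem cond_integral {c C ε : ℝ} {ψ : E n → ℝ} (hc : 0 < c) (hε : 0 < ε) (hψ : Cls c C ψ)
    (x : E n) : ∫ y, cond ε ψ x y = 1 := by
  have h := lap_pos (by positivity) (bmarg_cvx hε hψ) (ε⁻¹ • x)
  simp only [bmarg_cond hε]
  rw [integral_const_mul, lap, Real.exp_neg, Real.exp_log h, inv_mul_cancel₀ h.ne']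

theorem cond_continuous {c C ε : ℝ} {ψ : E n → ℝ} (hc : 0 < c) (hε : 0 < ε) (hψ : Cls c C ψ) :
    Continuous fun p : E n × E n => cond ε ψ p.1 p.2 := by
  have h1 := lap_continuous (by positivity) (bmarg_cvx hε hψ)
  have h2 := hψ.continuous
  simp only [bmarg_cond hε]
  fun_prop

theorem pm_eq {α β c C ε : ℝ} {φ ψ : E n → ℝ} (hP : Pot α β φ) (hc : 0 < c) (hC : c ≤ C)
    (hε : 0 < ε) (hψ : Cls c C ψ) (y : E n) :
    pm φ ε ψ y = (∫ x, rho φ x * cond ε ψ x y) / ∫ x, rho φ x := by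
  obtain ⟨h0, h1⟩ := bmarg_cvx' hP hc hC hε hψ
  have h := lap_pos h0 h1 (ε⁻¹ • y)
  unfold pm psiHat
  congr 1
  have e : (ε * lap (fun x => uE ε ψ x / ε + φ x) (ε⁻¹ • y) - (1 + ε) * ψ y) / ε =
      -((1 + ε) * ψ y / ε) + lap (fun x => uE ε ψ x / ε + φ x) (ε⁻¹ • y) := by
    field_simp
    ring
  rw [e, Real.exp_add, lap, Real.exp_log h, ← integral_const_mul]
  congr 1
  funext x
  unfold rho cond
  rw [← Real.exp_add, ← Real.exp_add, real_inner_smul_left, real_inner_comm]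
  congr 1
  field_simp
  ring

theorem pm_pos {α β ε : ℝ} {φ : E n → ℝ} (hP : Pot α β φ) (ψ : E n → ℝ) (y : E n) :
    0 < pm φ ε ψ y := div_pos (Real.exp_pos _) hP.Z_pos

theorem bmarg_joint {α β c C ε : ℝ} {φ ψ : E n → ℝ} (hP : Pot α β φ) (hc : 0 < c)
    (hε : 0 < ε) (hψ : Cls c C ψ) :
    Integrable (fun p : E n × E n => rho φ p.1 * cond ε ψ p.1 p.2) (volume.prod volume) := by
  have hcont : Continuous fun p : E n × E n => rho φ p.1 * cond ε ψ p.1 p.2 :=
    (hP.continuous_rho.comp continuous_fst).mul (cond_continuous hc hε hψ)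
  rw [integrable_prod_iff hcont.aestronglyMeasurable]
  constructor
  · refine Filter.Eventually.of_forall fun x => ?_
    have := cond_integrable hc hε hψ x (h := fun _ => 1) aestronglyMeasurable_const
      (polyG_of_bdd (M := 1) fun _ => by simp)
    simp only [mul_one] at this
    exact this.const_mul (rho φ x)
  · have e : (fun x => ∫ y, ‖rho φ x * cond ε ψ x y‖) = rho φ := by
      funext x
      have : ∀ y, ‖rho φ x * cond ε ψ x y‖ = rho φ x * cond ε ψ x y := fun y =>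
        Real.norm_of_nonneg (mul_pos (rho_pos φ x) (cond_pos ε ψ x y)).le
      simp only [this]
      rw [integral_const_mul, cond_integral hc hε hψ, mul_one]
    simp only
    rw [e]
    exact hP.integrable_rho

theorem pm_integrable {α β c C ε : ℝ} {φ ψ : E n → ℝ} (hP : Pot α β φ) (hc : 0 < c) (hC : c ≤ C)
    (hε : 0 < ε) (hψ : Cls c C ψ) : Integrable (pm φ ε ψ) := by
  have e : pm φ ε ψ = fun y => (∫ x, rho φ x * cond ε ψ x y) / ∫ x, rho φ x :=
    funext (pm_eq hP hc hC hε hψ)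
  rw [e]
  exact (bmarg_joint hP hc hε hψ).integral_prod_right.div_const _

theorem pm_continuous {α β c C ε : ℝ} {φ ψ : E n → ℝ} (hP : Pot α β φ) (hc : 0 < c) (hC : c ≤ C)
    (hε : 0 < ε) (hψ : Cls c C ψ) : Continuous (pm φ ε ψ) := by
  obtain ⟨h0, h1⟩ := bmarg_cvx' hP hc hC hε hψ
  have h2 := lap_continuous h0 h1
  have h3 := hψ.continuous
  unfold pm psiHat
  fun_prop

theorem pm_marg {α β c C ε : ℝ} {φ ψ : E n → ℝ} (hP : Pot α β φ) (hc : 0 < c) (hC : c ≤ C)
    (hε : 0 < ε) (hψ : Cls c C ψ) {b : E n → ℝ} (hb : Continuous b) {M : ℝ}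
    (hM : ∀ y, |b y| ≤ M) :
    ∫ y, pm φ ε ψ y * b y = (∫ x, rho φ x * ∫ y, cond ε ψ x y * b y) / ∫ x, rho φ x := by
  have hJ : Integrable (fun p : E n × E n => rho φ p.1 * cond ε ψ p.1 p.2 * b p.2) (volume.prod volume) :=
    (bmarg_joint hP hc hε hψ).mul_bdd (c := M) (hb.comp continuous_snd).aestronglyMeasurable
      (Filter.Eventually.of_forall fun p => hM p.2)
  have hs := integral_integral_swap (f := fun x y => rho φ x * cond ε ψ x y * b y) hJ
  have e1 : ∀ x, ∫ y, rho φ x * cond ε ψ x y * b y = rho φ x * ∫ y, cond ε ψ x y * b y := fun x => by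
    rw [← integral_const_mul]
    simp only [mul_assoc]
  have e2 : ∀ y, pm φ ε ψ y * b y = (∫ x, rho φ x * cond ε ψ x y * b y) / ∫ x, rho φ x := fun y => by
    rw [pm_eq hP hc hC hε hψ, integral_mul_const]
    ring
  simp only [e1] at hs
  simp only [e2]
  rw [integral_div, hs]

theorem pm_integral {α β c C ε : ℝ} {φ ψ : E n → ℝ} (hP : Pot α β φ) (hc : 0 < c) (hC : c ≤ C)
    (hε : 0 < ε) (hψ : Cls c C ψ) : ∫ y, pm φ ε ψ y = 1 := by
  have := pm_marg hP hc hC hε hψ (b := fun _ => 1) continuous_const (M := 1) fun _ => by simp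
  simp only [mul_one, cond_integral hc hε hψ] at this
  rw [this, div_self hP.Z_pos.ne']

end Crest.Agent.R238
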