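import Crest.Agent.R238.PotL

/-!
# R238 / BMeas: `Push` at the level of measures

Both sides of `Push` are integrals against finite measures
(`volume.withDensity (ofReal (rho ψ/Zψ))` and `map G (volume.withDensity (ofReal (rho φ/Z)))`);
`ext_of_forall_integral_eq_of_IsFiniteMeasure` makes them equal.  The densities are positive, so
null sets correspond.
-/

set_option autoImplicit false
open MeasureTheory Matrix Set Metric
open scoped RealInnerProductSpace ContDiff BigOperators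

namespace Crest.Agent.R238

variable {n : ℕ}

/-- the normalised measure -/
noncomputable def bmeasMu (φ : E n → ℝ) : Measure (E n) :=
  volume.withDensity fun x => ENNReal.ofReal (rho φ x / ∫ y, rho φ y)

theorem bmeas_meas {φ : E n → ℝ} (hφ : Continuous φ) :
    Measurable fun x => ENNReal.ofReal (rho φ x / ∫ y, rho φ y) :=
  ((Real.continuous_exp.comp hφ.neg).measurable.div_const _).ennreal_ofReal

theorem bmeas_int {φ : E n → ℝ} (hφ : Continuous φ) (hZ : 0 < ∫ y, rho φ y) (g : E n → ℝ) :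
    ∫ x, g x ∂bmeasMu φ = (∫ x, rho φ x * g x) / ∫ y, rho φ y := by
  rw [bmeasMu, integral_withDensity_eq_integral_toReal_smul (bmeas_meas hφ)
    (ae_of_all _ fun _ => ENNReal.ofReal_lt_top), ← integral_div]
  refine integral_congr_ae (ae_of_all _ fun x => ?_)
  have : 0 ≤ rho φ x / ∫ y, rho φ y := div_nonneg (Real.exp_pos _).le hZ.le
  simp only [ENNReal.toReal_ofReal this, smul_eq_mul]
  ring

theorem bmeas_ae {φ : E n → ℝ} (hφ : Continuous φ) (hZ : 0 < ∫ y, rho φ y) {p : E n → Prop} :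
    (∀ᵐ x ∂bmeasMu φ, p x) ↔ ∀ᵐ x : E n, p x := by
  refine ⟨fun h => (withDensity_absolutelyContinuous' (bmeas_meas hφ).aemeasurable
    (ae_of_all _ fun x => ?_)).ae_le h, fun h => (withDensity_absolutelyContinuous _ _).ae_le h⟩
  exact (ENNReal.ofReal_pos.2 (div_pos (Real.exp_pos _) hZ)).ne'

theorem bmeas_emb {c C : ℝ} {ψ u : E n → ℝ} {T G : E n → E n} (hL : Leg c C ψ T G u) :
    MeasurableEmbedding G :=
  (⟨⟨G, T, hL.TG, hL.GT⟩, hL.qu.continuous, hL.qψ.continuous⟩ : E n ≃ₜ E n).measurableEmbedding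

theorem bmeas_eq {α β c C : ℝ} {φ ψ u : E n → ℝ} {T G : E n → E n} (hP : Pot α β φ) (hc : 0 < c)
    (hψ : Cls c C ψ) (hL : Leg c C ψ T G u) (h : Push φ ψ G) : bmeasMu ψ = (bmeasMu φ).map G := by
  haveI : IsFiniteMeasure (bmeasMu φ) :=
    isFiniteMeasure_withDensity_ofReal (hP.integrable_rho.div_const _).hasFiniteIntegral
  haveI : IsFiniteMeasure (bmeasMu ψ) :=
    isFiniteMeasure_withDensity_ofReal ((hψ.integrable_rho hc).div_const _).hasFiniteIntegral
  refine ext_of_forall_integral_eq_of_IsFiniteMeasure fun f => ?_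
  rw [(bmeas_emb hL).integral_map, bmeas_int hψ.continuous (hψ.Z_pos hc), bmeas_int hP.cd.continuous hP.Z_pos]
  exact h f f.continuous ⟨‖f‖, fun y => f.norm_coe_le_norm y⟩

theorem push_ae {α β c C : ℝ} {φ ψ u : E n → ℝ} {T G : E n → E n} (hP : Pot α β φ) (hc : 0 < c)
    (hψ : Cls c C ψ) (hL : Leg c C ψ T G u) (h : Push φ ψ G) {p : E n → Prop}
    (hp : ∀ᵐ y : E n, p y) : ∀ᵐ x : E n, p (G x) := by
  rw [← bmeas_ae hψ.continuous (hψ.Z_pos hc), bmeas_eq hP hc hψ hL h, (bmeas_emb hL).ae_map_iff,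
    bmeas_ae hP.cd.continuous hP.Z_pos] at hp
  exact hp

theorem push_ae' {α β c C : ℝ} {φ ψ u : E n → ℝ} {T G : E n → E n} (hP : Pot α β φ) (hc : 0 < c)
    (hψ : Cls c C ψ) (hL : Leg c C ψ T G u) (h : Push φ ψ G) {p : E n → Prop}
    (hp : ∀ᵐ x : E n, p x) : ∀ᵐ y : E n, p (T y) := by
  rw [← bmeas_ae hψ.continuous (hψ.Z_pos hc), bmeas_eq hP hc hψ hL h, (bmeas_emb hL).ae_map_iff,
    bmeas_ae hP.cd.continuous hP.Z_pos]
  simpa only [hL.TG] using hp

theorem push_integral {α β c C : ℝ} {φ ψ u : E n → ℝ} {T G : E n → E n} (hP : Pot α β φ)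
    (hc : 0 < c) (hψ : Cls c C ψ) (hL : Leg c C ψ T G u) (h : Push φ ψ G) {H : E n → ℝ}
    (hm : AEStronglyMeasurable H volume) :
    (∫ y, rho ψ y * H (T y)) / (∫ y, rho ψ y) = (∫ x, rho φ x * H x) / ∫ x, rho φ x := by
  rw [← bmeas_int hψ.continuous (hψ.Z_pos hc), bmeas_eq hP hc hψ hL h, (bmeas_emb hL).integral_map,
    bmeas_int hP.cd.continuous hP.Z_pos]
  simp only [hL.TG]

end Crest.Agent.R238
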