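import Crest.Agent.R238.BMarg

/-!
# R238 / BStep: the entropic step decreases `Jf`; almost-fixed points

Notation: `q = rho ψ / Zψ`, `p = pm φ ε ψ`, `ψ₁ = psiNew`, `Z = ∫ rho φ`.
`(1+ε)(ψ₁ - ψ) = ε log (p/q) + k` with the constant `k = ε log Z - ε log Zψ - psiHat 0`.
(a) `uE ε ψ₁ x - uE ε ψ x + k = ε log (∫ y, cond x y * q y / p y) ≤ ε (∫ y, cond x y * q y/p y - 1)`
   (`log t ≤ t - 1`); integrate against `rho φ / Z` and use Fubini (`pm_eq`): the right side
   integrates to `ε (∫ q - 1) = 0`.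
(b) `∫ rho ψ₁ = Zψ ∫ q e^{-(ψ₁-ψ)} ≥ Zψ exp(-∫ q (ψ₁-ψ))` (Jensen, or `e^t ≥ 1 + t` after centering).
So `Jf ψ₁ - Jf ψ ≤ ε ∫ q log(p/q) ≤ 2ε (∫ √(p q) - 1)` (`log t ≤ 2(√t - 1)`).
`near_fixed`: choose `ψ` in the class with `Jf ψ ≤ inf + ε²` (`Jf_bdd`, `cls_quad`); then
`∫ (√p - √q)² = 2 - 2∫√(pq) ≤ ε` and `|∫ b(p - q)| ≤ ‖√p-√q‖₂ ‖√p+√q‖₂ ≤ 2√ε`.
-/

set_option autoImplicit false
open MeasureTheory Matrix Set Metric
open scoped RealInnerProductSpace ContDiff BigOperators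

namespace Crest.Agent.R238

variable {n : ℕ}

theorem bstep_polyG {c C : ℝ} {ψ : E n → ℝ} (h : Cls c C ψ) (hc : 0 < c) : PolyG ψ := by
  refine ⟨|C| / 2, 2, fun x => ?_⟩
  have h1 := h.lower x
  have h2 := h.upper x
  have h3 : 0 ≤ c / 2 * ‖x‖ ^ 2 := by positivity
  rw [abs_of_nonneg (h3.trans h1)]
  refine h2.trans ?_
  have := norm_nonneg x
  gcongr
  · exact le_abs_self C
  · linarith

theorem bstep_int_u {α β c C ε : ℝ} {φ ψ : E n → ℝ} (hP : Pot α β φ) (hc : 0 < c) (hC : c ≤ C) (hε : 0 < ε)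
    (hψ : Cls c C ψ) : Integrable fun x => rho φ x * uE ε ψ x := by
  have h := uE_cls hc hC hε hψ
  have hC0 : 0 < C := hc.trans_le hC
  have h1 := hP.integrable h.continuous.aestronglyMeasurable (bstep_polyG h (by positivity))
  refine (h1.add (hP.integrable_rho.mul_const (uE ε ψ 0))).congr (Filter.Eventually.of_forall fun x => ?_)
  simp only [Pi.add_apply]
  ring

/-- step (a): a perturbation `ψ₁` of `ψ`, `(1 + ε) (ψ₁ - ψ) = ε g + k` -/
theorem bstep_u {c C ε k : ℝ} {ψ ψ₁ g : E n → ℝ} (hc : 0 < c) (hε : 0 < ε) (h1 : Cls c C ψ₁)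
    (hg : ∀ y, (1 + ε) * (ψ₁ y - ψ y) = ε * g y + k) (x : E n) :
    uE ε ψ₁ x - uE ε ψ x + k ≤ ε * ((∫ y, cond ε ψ x y * Real.exp (-g y)) - 1) := by
  have e1 : ∀ y, cond ε ψ x y * Real.exp (-g y) =
      cond ε ψ₁ x y * Real.exp ((uE ε ψ₁ x - uE ε ψ x + k) / ε) := fun y => by
    unfold cond
    rw [← Real.exp_add, ← Real.exp_add]
    congr 1
    have := hg y
    field_simp
    linarith
  simp only [e1]
  rw [integral_mul_const, cond_integral hc hε h1, one_mul]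
  have h2 := Real.add_one_le_exp ((uE ε ψ₁ x - uE ε ψ x + k) / ε)
  have h3 : uE ε ψ₁ x - uE ε ψ x + k = ε * ((uE ε ψ₁ x - uE ε ψ x + k) / ε) := by field_simp
  rw [h3]
  gcongr
  rw [← h3]
  linarith

theorem bstep_fub {α β c C ε : ℝ} {φ ψ w : E n → ℝ} (hP : Pot α β φ) (hc : 0 < c) (hC : c ≤ C) (hε : 0 < ε)
    (hψ : Cls c C ψ) (hw : Continuous w) (hw0 : ∀ y, 0 ≤ w y) (hi : Integrable fun y => pm φ ε ψ y * w y) :
    (Integrable fun x => rho φ x * ∫ y, cond ε ψ x y * w y) ∧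
      ∫ x, rho φ x * ∫ y, cond ε ψ x y * w y = (∫ x, rho φ x) * ∫ y, pm φ ε ψ y * w y := by
  have hZ := hP.Z_pos
  have e1 : ∀ y, ∫ x, rho φ x * cond ε ψ x y = (∫ x, rho φ x) * pm φ ε ψ y := fun y => by
    rw [pm_eq hP hc hC hε hψ]
    field_simp
  have i1 : ∀ y, Integrable fun x => rho φ x * cond ε ψ x y := fun y => by
    refine Integrable.of_integral_ne_zero ?_
    rw [e1]
    exact (mul_pos hZ (pm_pos hP ψ y)).ne'
  have e2 : ∀ y, ∫ x, rho φ x * (cond ε ψ x y * w y) = (∫ x, rho φ x) * (pm φ ε ψ y * w y) := fun y => by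
    simp only [← mul_assoc]
    rw [integral_mul_const, e1]
  have cF : Continuous fun p : E n × E n => rho φ p.1 * (cond ε ψ p.1 p.2 * w p.2) :=
    (hP.continuous_rho.comp continuous_fst).mul ((cond_continuous hc hε hψ).mul (hw.comp continuous_snd))
  have iF : Integrable (fun p : E n × E n => rho φ p.1 * (cond ε ψ p.1 p.2 * w p.2)) (volume.prod volume) := by
    rw [integrable_prod_iff' cF.aestronglyMeasurable]
    refine ⟨Filter.Eventually.of_forall fun y => ?_, ?_⟩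
    · simpa only [mul_assoc] using (i1 y).mul_const (w y)
    · refine (hi.const_mul (∫ x, rho φ x)).congr (Filter.Eventually.of_forall fun y => ?_)
      simp only
      rw [← e2]
      refine integral_congr_ae (Filter.Eventually.of_forall fun x => ?_)
      simp only
      exact (Real.norm_of_nonneg (mul_nonneg (Real.exp_pos _).le (mul_nonneg (cond_pos _ _ _ _).le (hw0 y)))).symm
  constructor
  · simpa only [integral_const_mul] using iF.integral_prod_left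
  · have h := integral_integral_swap (f := fun x y => rho φ x * (cond ε ψ x y * w y)) iF
    simp only [integral_const_mul, e2] at h
    exact h

/-- step (b): Jensen -/
theorem bstep_jensen {c C : ℝ} {ψ ψ₁ : E n → ℝ} (hc : 0 < c) (hψ : Cls c C ψ) (h1 : Cls c C ψ₁) :
    Real.log (∫ y, rho ψ y) - (∫ y, rho ψ y * (ψ₁ y - ψ y)) / (∫ y, rho ψ y) ≤ Real.log (∫ y, rho ψ₁ y) := by
  have hZ := hψ.Z_pos hc
  set m := (∫ y, rho ψ y * (ψ₁ y - ψ y)) / (∫ y, rho ψ y) with hm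
  have i1 : Integrable fun y => rho ψ y * (ψ₁ y - ψ y) := by
    simp only [mul_sub]
    exact (hψ.integrable hc h1.continuous.aestronglyMeasurable (bstep_polyG h1 hc)).sub
      (hψ.integrable hc hψ.continuous.aestronglyMeasurable (bstep_polyG hψ hc))
  have i0 := hψ.integrable_rho hc
  have key : Real.exp (-m) * ∫ y, rho ψ y ≤ ∫ y, rho ψ₁ y := by
    have e : Real.exp (-m) * ∫ y, rho ψ y =
        ∫ y, Real.exp (-m) * ((1 + m) * rho ψ y - rho ψ y * (ψ₁ y - ψ y)) := by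
      rw [integral_const_mul, integral_sub (i0.const_mul _) i1, integral_const_mul, hm]
      field_simp
      ring
    rw [e]
    refine integral_mono (((i0.const_mul _).sub i1).const_mul _) (h1.integrable_rho hc) fun y => ?_
    have a1 := Real.add_one_le_exp (m - (ψ₁ y - ψ y))
    have a2 : rho ψ₁ y = Real.exp (-m) * (rho ψ y * Real.exp (m - (ψ₁ y - ψ y))) := by
      unfold rho
      rw [← Real.exp_add, ← Real.exp_add]
      congr 1
      ring
    simp only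
    rw [a2]
    have a3 : 0 < rho ψ y := Real.exp_pos _
    gcongr
    nlinarith
  have h2 := Real.log_le_log (by positivity) key
  rw [Real.log_mul (Real.exp_pos _).ne' hZ.ne', Real.log_exp] at h2
  linarith

theorem bstep_sqrt_int {p q : E n → ℝ} (hp : Integrable p) (hq : Integrable q) (p0 : ∀ y, 0 ≤ p y) (q0 : ∀ y, 0 ≤ q y) :
    Integrable fun y => √(p y * q y) := by
  refine (hp.add hq).mono' (Real.continuous_sqrt.comp_aestronglyMeasurable (hp.1.mul hq.1))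
    (Filter.Eventually.of_forall fun y => ?_)
  rw [Real.norm_of_nonneg (Real.sqrt_nonneg _), Pi.add_apply, Real.sqrt_le_left (add_nonneg (p0 y) (q0 y))]
  nlinarith [p0 y, q0 y, mul_nonneg (p0 y) (q0 y)]

theorem Jf_step {α β ε : ℝ} {φ ψ : E n → ℝ} (hP : Pot α β φ) (hε : 0 < ε) (hε1 : ε ≤ 1)
    (hψ : Cls (2 * β)⁻¹ α⁻¹ ψ) :
    Jf φ ε (psiNew φ ε ψ) - Jf φ ε ψ ≤
      2 * ε * ((∫ y, √(pm φ ε ψ y * (rho ψ y / ∫ z, rho ψ z))) - 1) := by
  have hα := hP.apos
  have hβ : 0 < β := hα.trans_le hP.ale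
  have hc : 0 < (2 * β)⁻¹ := by positivity
  have hC : (2 * β)⁻¹ ≤ α⁻¹ := inv_anti₀ hα (by linarith [hP.ale])
  have h1 := psiNew_cls hP hε hε1 hψ
  have hZ := hP.Z_pos
  have hY := hψ.Z_pos hc
  set Z := ∫ x, rho φ x with hZd
  set Y := ∫ y, rho ψ y with hYd
  set k := ε * Real.log Z - ε * Real.log Y - psiHat φ ε ψ 0 with hk
  obtain ⟨g, hg⟩ : ∃ g : E n → ℝ, g = fun y => ((1 + ε) * (psiNew φ ε ψ y - ψ y) - k) / ε := ⟨_, rfl⟩
  have hg1 : ∀ y, (1 + ε) * (psiNew φ ε ψ y - ψ y) = ε * g y + k := fun y => by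
    rw [hg]
    field_simp
    ring
  have cg : Continuous g := by
    rw [hg]
    exact ((continuous_const.mul (h1.continuous.sub hψ.continuous)).sub continuous_const).div_const _
  have hpq : ∀ y, pm φ ε ψ y = rho ψ y / Y * Real.exp (g y) := fun y => by
    have a1 : (psiHat φ ε ψ y - (1 + ε) * ψ y) / ε = -ψ y + g y + (Real.log Z - Real.log Y) := by
      have a2 := hg1 y
      have a3 : (1 + ε) * psiNew φ ε ψ y = psiHat φ ε ψ y - psiHat φ ε ψ 0 + ε * ψ y := by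
        unfold psiNew
        field_simp
      rw [div_eq_iff hε.ne']
      rw [hk] at a2
      linarith
    unfold pm rho
    rw [a1, Real.exp_add, Real.exp_add, Real.exp_sub, Real.exp_log hZ, Real.exp_log hY]
    change _ / Z = _
    field_simp
  have hqp : ∀ y, pm φ ε ψ y * Real.exp (-g y) = rho ψ y / Y := fun y => by
    rw [hpq, mul_assoc, ← Real.exp_add, add_neg_cancel, Real.exp_zero, mul_one]
  have iq : Integrable fun y => rho ψ y / Y := (hψ.integrable_rho hc).div_const _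
  have eq1 : ∫ y, rho ψ y / Y = 1 := by rw [integral_div, div_self hY.ne']
  obtain ⟨f1, f2⟩ := bstep_fub hP hc hC hε hψ (w := fun y => Real.exp (-g y)) (Real.continuous_exp.comp cg.neg)
    (fun y => (Real.exp_pos _).le) (by simpa only [hqp] using iq)
  simp only [hqp, eq1, mul_one] at f2
  have iu := bstep_int_u hP hc hC hε hψ
  have iu1 := bstep_int_u hP hc hC hε h1
  have iρ := hP.integrable_rho
  -- (a)
  have ha : (∫ x, rho φ x * uE ε (psiNew φ ε ψ) x) - (∫ x, rho φ x * uE ε ψ x) + Z * k ≤ 0 := by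
    have a1 : ∫ x, (rho φ x * uE ε (psiNew φ ε ψ) x - rho φ x * uE ε ψ x + rho φ x * k) ≤
        ∫ x, ε * ((rho φ x * ∫ y, cond ε ψ x y * Real.exp (-g y)) - rho φ x) := by
      refine integral_mono ((iu1.sub iu).add (iρ.mul_const k)) ((f1.sub iρ).const_mul ε) fun x => ?_
      have a2 := mul_le_mul_of_nonneg_left (bstep_u hc hε h1 hg1 x) (Real.exp_pos (-φ x)).le
      simp only [rho]
      linarith
    have iu2 : Integrable fun x => rho φ x * uE ε (psiNew φ ε ψ) x - rho φ x * uE ε ψ x := iu1.sub iu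
    rw [integral_add iu2 (iρ.mul_const k), integral_sub iu1 iu, integral_mul_const, integral_const_mul,
      integral_sub f1 iρ, f2, sub_self, mul_zero] at a1
    exact a1
  have ha' : (∫ x, rho φ x * uE ε (psiNew φ ε ψ) x) / Z - (∫ x, rho φ x * uE ε ψ x) / Z ≤ -k := by
    rw [← sub_div, div_le_iff₀ hZ]
    linarith
  -- (b)
  have hb := bstep_jensen hc hψ h1
  have iD : Integrable fun y => rho ψ y * (psiNew φ ε ψ y - ψ y) := by
    simp only [mul_sub]
    exact (hψ.integrable hc h1.continuous.aestronglyMeasurable (bstep_polyG h1 hc)).sub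
      (hψ.integrable hc hψ.continuous.aestronglyMeasurable (bstep_polyG hψ hc))
  have is := bstep_sqrt_int (pm_integrable hP hc hC hε hψ) iq (fun y => (pm_pos hP ψ y).le)
    fun y => div_nonneg (Real.exp_pos _).le hY.le
  have hc' : (1 + ε) * ((∫ y, rho ψ y * (psiNew φ ε ψ y - ψ y)) / Y) ≤
      2 * ε * ((∫ y, √(pm φ ε ψ y * (rho ψ y / Y))) - 1) + k := by
    have a1 : ∫ y, (1 + ε) / Y * (rho ψ y * (psiNew φ ε ψ y - ψ y)) ≤
        ∫ y, (2 * ε * √(pm φ ε ψ y * (rho ψ y / Y)) + (k - 2 * ε) * (rho ψ y / Y)) := by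
      refine integral_mono (iD.const_mul _) ((is.const_mul _).add (iq.const_mul _)) fun y => ?_
      have q0 : 0 < rho ψ y / Y := div_pos (Real.exp_pos _) hY
      have b1 : √(pm φ ε ψ y * (rho ψ y / Y)) = rho ψ y / Y * Real.exp (g y / 2) := by
        rw [Real.sqrt_eq_iff_mul_self_eq (mul_pos (pm_pos hP ψ y) q0).le (by positivity), hpq]
        have : Real.exp (g y) = Real.exp (g y / 2) * Real.exp (g y / 2) := by rw [← Real.exp_add, add_halves]
        rw [this]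
        ring
      have b2 : (1 + ε) / Y * (rho ψ y * (psiNew φ ε ψ y - ψ y)) = rho ψ y / Y * (ε * g y + k) := by
        rw [← hg1]
        ring
      have b3 := Real.add_one_le_exp (g y / 2)
      simp only
      rw [b1, b2]
      have b4 : 0 ≤ rho ψ y / Y * ε * (Real.exp (g y / 2) - (g y / 2 + 1)) := by
        have : 0 ≤ Real.exp (g y / 2) - (g y / 2 + 1) := by linarith
        positivity
      nlinarith
    rw [integral_const_mul, integral_add (is.const_mul _) (iq.const_mul _), integral_const_mul, integral_const_mul,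
      eq1] at a1
    have a2 : (1 + ε) * ((∫ y, rho ψ y * (psiNew φ ε ψ y - ψ y)) / Y) =
        (1 + ε) / Y * ∫ y, rho ψ y * (psiNew φ ε ψ y - ψ y) := by ring
    linarith
  have hb' := mul_le_mul_of_nonneg_left hb (by linarith : 0 ≤ 1 + ε)
  unfold Jf
  rw [← hZd, ← hYd] at *
  linarith

theorem bstep_pt {p q e : ℝ} (hp : 0 ≤ p) (hq : 0 ≤ q) (he : 0 < e) :
    |q - p| ≤ (e⁻¹ + e / 2) * (p + q) - 2 * e⁻¹ * √(p * q) := by
  obtain ⟨s, hs, rfl⟩ : ∃ s : ℝ, 0 ≤ s ∧ p = s ^ 2 := ⟨√p, Real.sqrt_nonneg _, (Real.sq_sqrt hp).symm⟩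
  obtain ⟨t, ht, rfl⟩ : ∃ t : ℝ, 0 ≤ t ∧ q = t ^ 2 := ⟨√q, Real.sqrt_nonneg _, (Real.sq_sqrt hq).symm⟩
  rw [← mul_pow, Real.sqrt_sq (mul_nonneg hs ht)]
  have e1 : (e⁻¹ + e / 2) * (s ^ 2 + t ^ 2) - 2 * e⁻¹ * (s * t) =
      ((s - t) ^ 2 + e ^ 2 / 2 * (s ^ 2 + t ^ 2)) / e := by
    field_simp
    ring
  rw [e1, le_div_iff₀ he, ← abs_of_pos he, ← abs_mul, abs_of_pos he, abs_le]
  constructor
  · nlinarith [sq_nonneg (s - t - e / 2 * (s + t)), mul_nonneg (sq_nonneg e) (sq_nonneg (s - t))]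
  · nlinarith [sq_nonneg (s - t + e / 2 * (s + t)), mul_nonneg (sq_nonneg e) (sq_nonneg (s - t))]

theorem near_fixed {α β ε : ℝ} {φ : E n → ℝ} (hP : Pot α β φ) (hε : 0 < ε) (hε1 : ε ≤ 1) :
    ∃ ψ : E n → ℝ, Cls (2 * β)⁻¹ α⁻¹ ψ ∧ ∀ b : E n → ℝ, Continuous b → (∀ y, |b y| ≤ 1) →
      |(∫ y, rho ψ y * b y) / (∫ y, rho ψ y) -
        (∫ x, rho φ x * ∫ y, cond ε ψ x y * b y) / ∫ x, rho φ x| ≤ 2 * √ε := by
  have hα := hP.apos
  have hβ : 0 < β := hα.trans_le hP.ale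
  have hc : 0 < (2 * β)⁻¹ := by positivity
  have hC : (2 * β)⁻¹ ≤ α⁻¹ := inv_anti₀ hα (by linarith [hP.ale])
  obtain ⟨m, hm⟩ := Jf_bdd (n := n) hP hε
  set S : Set ℝ := Jf φ ε '' {ψ | Cls (2 * β)⁻¹ α⁻¹ ψ} with hS
  have hne : S.Nonempty := ⟨_, _, cls_quad hC, rfl⟩
  have hbd : BddBelow S := ⟨m, by rintro _ ⟨ψ, hψ, rfl⟩; exact hm ψ hψ⟩
  obtain ⟨_, ⟨ψ, hψ, rfl⟩, hlt⟩ := exists_lt_of_csInf_lt hne (lt_add_of_pos_right (sInf S) (pow_pos hε 2))
  have hψ' : Cls (2 * β)⁻¹ α⁻¹ ψ := hψ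
  refine ⟨ψ, hψ', fun b hb hb1 => ?_⟩
  have h1 : sInf S ≤ Jf φ ε (psiNew φ ε ψ) := csInf_le hbd ⟨_, psiNew_cls hP hε hε1 hψ', rfl⟩
  have h2 := Jf_step hP hε hε1 hψ'
  have hY := hψ'.Z_pos hc
  set Y := ∫ y, rho ψ y with hYd
  have hA : 2 - 2 * ∫ y, √(pm φ ε ψ y * (rho ψ y / Y)) ≤ ε := by
    refine le_of_mul_le_mul_left ?_ hε
    nlinarith
  have iq : Integrable fun y => rho ψ y / Y := (hψ'.integrable_rho hc).div_const _
  have eq1 : ∫ y, rho ψ y / Y = 1 := by rw [integral_div, div_self hY.ne']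
  have ip := pm_integrable hP hc hC hε hψ'
  have q0 : ∀ y, 0 ≤ rho ψ y / Y := fun y => div_nonneg (Real.exp_pos _).le hY.le
  have p0 : ∀ y, 0 ≤ pm φ ε ψ y := fun y => (pm_pos hP ψ y).le
  have is := bstep_sqrt_int ip iq p0 q0
  have hbb : ∀ᵐ y : E n, ‖b y‖ ≤ 1 := Filter.Eventually.of_forall hb1
  have i1 : Integrable fun y => rho ψ y / Y * b y := iq.mul_bdd hb.aestronglyMeasurable hbb
  have i2 : Integrable fun y => pm φ ε ψ y * b y := ip.mul_bdd hb.aestronglyMeasurable hbb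
  have e1 : (∫ y, rho ψ y * b y) / Y = ∫ y, rho ψ y / Y * b y := by
    rw [← integral_div]
    exact integral_congr_ae (Filter.Eventually.of_forall fun y => by simp only; ring)
  rw [← pm_marg hP hc hC hε hψ' hb hb1, e1, ← integral_sub i1 i2]
  have s0 : 0 < √ε := Real.sqrt_pos.2 hε
  have s1 : √ε * √ε = ε := Real.mul_self_sqrt hε.le
  have a1 : ‖∫ y, (rho ψ y / Y * b y - pm φ ε ψ y * b y)‖ ≤
      ∫ y, (((√ε)⁻¹ + √ε / 2) * (pm φ ε ψ y + rho ψ y / Y) - 2 * (√ε)⁻¹ * √(pm φ ε ψ y * (rho ψ y / Y))) := by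
    refine norm_integral_le_of_norm_le (((ip.add iq).const_mul _).sub (is.const_mul _))
      (Filter.Eventually.of_forall fun y => ?_)
    rw [← sub_mul, norm_mul]
    refine le_trans ?_ (bstep_pt (p0 y) (q0 y) s0)
    exact mul_le_of_le_one_right (norm_nonneg _) (hb1 y)
  have ipq : Integrable fun y => pm φ ε ψ y + rho ψ y / Y := ip.add iq
  rw [integral_sub (ipq.const_mul _) (is.const_mul _), integral_const_mul, integral_const_mul,
    integral_add ip iq, eq1, pm_integral hP hc hC hε hψ'] at a1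
  refine a1.trans ?_
  have a2 : (√ε)⁻¹ * (2 - 2 * ∫ y, √(pm φ ε ψ y * (rho ψ y / Y))) ≤ √ε := by
    rw [inv_mul_le_iff₀ s0, s1]
    exact hA
  linarith

end Crest.Agent.R238
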