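import Crest.Agent.R238.Cutoff

/-!
# R238 / CMoser: local boundedness of subsolutions (Moser iteration)   [SUB-LEAD size: ~800 lines]

Let `χ = n/(n-1)`, `p ≥ 2`, `ζ` a `C¹` cut-off, `0 ≤ ζ ≤ 1`, `ζ = 1` on `B_{ρ'}`, support in a
compact subset of `B_ρ` (`R ≤ ρ' < ρ ≤ 3R/2`), `|∇ζ| ≤ D/(ρ-ρ')` (`exists_cutoff`, i.e.
`ζ x = g((|x-x₀|² - ρ'²)/(ρ''² - ρ'²))` with a fixed `g = 1 - smoothTransition`).
`caccioppoli`: test `Sub.weak` with `η = ζ² W^{p-1}` (globally `C¹`: `contDiff_of_tsupport`):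
`(p-1) l ∫ζ² W^{p-2}|∇W|² ≤ 2L∫ ζ W^{p-1}|∇ζ||∇W| + K∫ζ² W^{p-1}`, so with `h = W^{p/2}`,
`W ≥ 1`:  `∫ ζ²|∇h|² ≤ C p² ∫ (|∇ζ|² + K ζ²) W^p`.
Sobolev: `eLpNorm_le_eLpNorm_fderiv_one` for `g = (ζ h)²`: `‖g‖_χ ≤ C₀ ∫|∇g| ≤ 2C₀‖ζh‖₂‖∇(ζh)‖₂`.
So `(∫_{B_ρ'} W^{pχ})^{1/χ} ≤ C p (ρ-ρ')⁻¹ ∫_{B_ρ} W^p`.  Iterate with `p_k = 2χ^k`,
`ρ_k = R + R/2^{k+1}`: `N_k = (R^{-n}∫_{B_{ρ_k}} W^{p_k})^{1/p_k}` satisfies
`N_{k+1} ≤ (C 2^k p_k)^{1/p_k} N_k` (powers of `R` cancel: `n/χ = n-1`), and `Σ k/χ^k < ∞`.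
Finally a continuous `W` with bounded `N_k` is bounded pointwise on `B_R`.
-/

set_option autoImplicit false
open MeasureTheory Matrix Set Metric
open scoped RealInnerProductSpace ContDiff BigOperators

namespace Crest.Agent.R238

variable {n : ℕ}

theorem Sub.mono {l L K : ℝ} {W : E n → ℝ} {Φ : E n → E n} {B B' : Set (E n)}
    (h : Sub l L K W Φ B) (hB : B' ⊆ B) : Sub l L K W Φ B' := by
  exact ⟨h.cd.mono hB, h.meas.mono_set hB, h.lo.mono fun x hx hx' => hx (hB hx'),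
    h.hi.mono fun x hx hx' => hx (hB hx'), fun η h1 h2 h3 h4 => h.weak η h1 h2 (h3.trans hB) h4⟩

theorem cmoser_int {f : E n → ℝ} {C B : Set (E n)} (hC : IsCompact C) (hs : C ⊆ B) (hf : ContinuousOn f B)
    (h0 : ∀ x, x ∉ C → f x = 0) : Integrable f :=
  ((hf.mono hs).integrableOn_compact hC).integrable_of_forall_notMem_eq_zero h0

theorem cmoser_sob (hn : 2 ≤ n) : ∃ C₀ : ℝ, 0 < C₀ ∧ ∀ g : E n → ℝ, ContDiff ℝ 1 g → HasCompactSupport g →
    (∀ x, 0 ≤ g x) → Integrable (fun x => g x ^ (n / (n - 1) : ℝ)) ∧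
      (∫ x, g x ^ (n / (n - 1) : ℝ)) ^ ((n - 1) / n : ℝ) ≤ C₀ * ∫ x, ‖fderiv ℝ g x‖ := by
  have h2 : (2 : ℝ) ≤ n := by exact_mod_cast hn
  have h3 : (0 : ℝ) < n - 1 := by linarith
  have h4 : (0 : ℝ) < n / (n - 1) := by positivity
  have hp : Real.HolderConjugate (Module.finrank ℝ (E n)) (n / (n - 1)) := by
    rw [finrank_euclideanSpace_fin, Real.holderConjugate_iff]
    refine ⟨by linarith, ?_⟩
    field_simp
    ring
  obtain ⟨C, hC⟩ : ∃ C : NNReal, C = lintegralPowLePowLIntegralFDerivConst (volume : Measure (E n)) (n / (n - 1)) :=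
    ⟨_, rfl⟩
  refine ⟨(C : ℝ) ^ ((n - 1) / n : ℝ) + 1, by positivity, fun g hg hc h0 => ?_⟩
  have i1 : Integrable fun x => g x ^ (n / (n - 1) : ℝ) :=
    cmoser_int hc (subset_univ _) (hg.continuous.rpow_const fun _ => Or.inr h4.le).continuousOn fun x hx => by
      rw [image_eq_zero_of_notMem_tsupport hx, Real.zero_rpow h4.ne']
  have i2 : Integrable (fderiv ℝ g) :=
    (hg.continuous_fderiv one_ne_zero).integrable_of_hasCompactSupport (hc.fderiv ℝ)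
  have h5 := lintegral_pow_le_pow_lintegral_fderiv (volume : Measure (E n)) hg hc hp
  have e : ∀ x, ‖g x‖ₑ ^ (n / (n - 1) : ℝ) = ENNReal.ofReal (g x ^ (n / (n - 1) : ℝ)) := fun x => by
    rw [Real.enorm_eq_ofReal (h0 x), ENNReal.ofReal_rpow_of_nonneg (h0 x) h4.le]
  have h6 : 0 ≤ ∫ x, ‖fderiv ℝ g x‖ := integral_nonneg fun _ => norm_nonneg _
  simp only [e] at h5
  rw [← ofReal_integral_eq_lintegral_ofReal i1 (ae_of_all _ fun x => Real.rpow_nonneg (h0 x) _),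
    ← ofReal_integral_norm_eq_lintegral_enorm i2, ENNReal.ofReal_rpow_of_nonneg h6 h4.le, ← hC,
    ← ENNReal.ofReal_coe_nnreal, ← ENNReal.ofReal_mul C.coe_nonneg, ENNReal.ofReal_le_ofReal_iff (by positivity)] at h5
  refine ⟨i1, (Real.rpow_le_rpow (integral_nonneg fun x => Real.rpow_nonneg (h0 x) _) h5 (by positivity)).trans ?_⟩
  rw [Real.mul_rpow C.coe_nonneg (by positivity), ← Real.rpow_mul h6,
    show (n / (n - 1) : ℝ) * ((n - 1) / n) = 1 by field_simp, Real.rpow_one]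
  exact mul_le_mul_of_nonneg_right (le_add_of_nonneg_right zero_le_one) h6

section cacc

variable {W ζ : E n → ℝ} {B : Set (E n)}

theorem cmoser_pow (hW : ContDiffOn ℝ 1 W B) (h1 : ∀ x ∈ B, 1 ≤ W x) (s : ℝ) :
    ContDiffOn ℝ 1 (fun x => W x ^ s) B :=
  hW.rpow_const_of_ne fun x hx => (zero_lt_one.trans_le (h1 x hx)).ne'

theorem cmoser_cd (hB : IsOpen B) (hW : ContDiffOn ℝ 1 W B) (h1 : ∀ x ∈ B, 1 ≤ W x) (hζ : ContDiff ℝ 1 ζ)
    (hs : tsupport ζ ⊆ B) (s : ℝ) : ContDiff ℝ 1 fun y => ζ y * (ζ y * W y ^ s) :=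
  contDiff_mul_of_tsupport hB hζ hs (hζ.contDiffOn.mul (cmoser_pow hW h1 s))

theorem cmoser_fd (hB : IsOpen B) (hW : ContDiffOn ℝ 1 W B) (h1 : ∀ x ∈ B, 1 ≤ W x) (hζ : ContDiff ℝ 1 ζ)
    (s : ℝ) {x : E n} (hx : x ∈ B) : fderiv ℝ (fun y => ζ y * (ζ y * W y ^ s)) x =
      (2 * ζ x * W x ^ s) • fderiv ℝ ζ x + (s * ζ x ^ 2 * W x ^ (s - 1)) • fderiv ℝ W x := by
  have a1 := (hζ.differentiable one_ne_zero x).hasFDerivAt
  have a2 := ((hW.contDiffAt (hB.mem_nhds hx)).differentiableAt one_ne_zero).hasFDerivAt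
  have a3 := a1.mul (a1.mul (a2.rpow_const (p := s) (Or.inl (zero_lt_one.trans_le (h1 x hx)).ne')))
  refine a3.fderiv.trans ?_
  simp only [Pi.mul_apply]
  module

theorem cmoser_out (W : E n → ℝ) (s : ℝ) {x : E n} (hx : x ∉ tsupport ζ) :
    ζ x = 0 ∧ fderiv ℝ (fun y => ζ y * (ζ y * W y ^ s)) x = 0 :=
  ⟨image_eq_zero_of_notMem_tsupport hx,
    fderiv_of_notMem_tsupport ℝ fun h => hx (tsupport_mul_subset_left (f := ζ) h)⟩

theorem cmoser_rp {w : ℝ} (hw : 1 ≤ w) (p : ℝ) :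
    0 < w ^ (p - 2) ∧ w ^ (p - 1) = w ^ (p - 2) * w ∧ w ^ p = w ^ (p - 2) * w ^ 2 := by
  have h0 : 0 < w := by linarith
  refine ⟨Real.rpow_pos_of_pos h0 _, ?_, ?_⟩
  · rw [← Real.rpow_add_one h0.ne']; congr 1; ring
  · rw [← Real.rpow_add_natCast h0.ne']; congr 1; push_cast; ring

theorem cmoser_ie (hB : IsOpen B) (hW : ContDiffOn ℝ 1 W B) (h1 : ∀ x ∈ B, 1 ≤ W x) (hζ : ContDiff ℝ 1 ζ)
    (hc : HasCompactSupport ζ) (hs : tsupport ζ ⊆ B) (s : ℝ) :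
    Integrable fun x => ζ x ^ 2 * W x ^ s * ‖fderiv ℝ W x‖ ^ 2 :=
  cmoser_int hc hs (((hζ.continuous.pow 2).continuousOn.mul (cmoser_pow hW h1 s).continuousOn).mul
    ((hW.continuousOn_fderiv_of_isOpen hB le_rfl).norm.pow 2)) fun x hx => by
      rw [image_eq_zero_of_notMem_tsupport hx]; simp

/-- Caccioppoli -/
theorem cmoser_cacc {l L K N p : ℝ} {Φ : E n → E n} {Q : Set (E n)} (hl : 0 < l) (hL : 0 ≤ L) (hK : 0 ≤ K)
    (hp : 2 ≤ p) (hB : IsOpen B) (h : Sub l L K W Φ B) (h1 : ∀ x ∈ B, 1 ≤ W x) (hζ : ContDiff ℝ 1 ζ)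
    (hc : HasCompactSupport ζ) (hζ1 : ∀ x, 0 ≤ ζ x ∧ ζ x ≤ 1) (hN : ∀ x, ‖fderiv ℝ ζ x‖ ≤ N)
    (hQ : MeasurableSet Q) (hs : tsupport ζ ⊆ Q) (hQB : Q ⊆ B) (hI : IntegrableOn (fun x => W x ^ p) Q) :
    l / 2 * ∫ x, ζ x ^ 2 * W x ^ (p - 2) * ‖fderiv ℝ W x‖ ^ 2 ≤ (K + 2 * L ^ 2 * N ^ 2 / l) * ∫ x in Q, W x ^ p := by
  have hs' := hs.trans hQB
  have hη := cmoser_cd hB h.cd h1 hζ hs' (p - 1)
  have hηc : HasCompactSupport fun y => ζ y * (ζ y * W y ^ (p - 1)) := hc.mul_right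
  have hη0 : ∀ x, 0 ≤ ζ x * (ζ x * W x ^ (p - 1)) := fun x => by
    by_cases hx : x ∈ tsupport ζ
    · have := (hζ1 x).1
      have := zero_le_one.trans (h1 x (hs' hx))
      positivity
    · rw [image_eq_zero_of_notMem_tsupport hx, zero_mul]
  have hw := h.weak _ hη hηc ((tsupport_mul_subset_left (f := ζ)).trans hs') hη0
  have hD := hη.continuous_fderiv one_ne_zero
  have i1 : Integrable fun x => fderiv ℝ (fun y => ζ y * (ζ y * W y ^ (p - 1))) x (Φ x) := by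
    refine IntegrableOn.integrable_of_forall_notMem_eq_zero (s := B) ?_ fun x hx => by
      rw [(cmoser_out W (p - 1) fun h' => hx (hs' h')).2, ContinuousLinearMap.zero_apply]
    have i2 : Integrable fun x => ‖fderiv ℝ (fun y => ζ y * (ζ y * W y ^ (p - 1))) x‖ * (L * ‖fderiv ℝ W x‖) :=
      cmoser_int hc hs' (hD.norm.continuousOn.mul
        ((h.cd.continuousOn_fderiv_of_isOpen hB le_rfl).norm.const_mul L)) fun x hx => by
          rw [(cmoser_out W (p - 1) hx).2, norm_zero, zero_mul]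
    refine i2.integrableOn.mono' ((ContinuousLinearMap.id ℝ (E n →L[ℝ] ℝ)).aestronglyMeasurable_comp₂
      hD.aestronglyMeasurable h.meas) ?_
    rw [ae_restrict_iff' hB.measurableSet]
    filter_upwards [h.hi] with x hx hxB
    exact (ContinuousLinearMap.le_opNorm _ _).trans (mul_le_mul_of_nonneg_left (hx hxB) (norm_nonneg _))
  have i3 := (integrable_indicator_iff hQ).2 hI
  have h2 : ∫ x, ζ x * (ζ x * W x ^ (p - 1)) ≤ ∫ x in Q, W x ^ p := by
    rw [← integral_indicator hQ]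
    refine integral_mono_of_nonneg (ae_of_all _ hη0) i3 (ae_of_all _ fun x => ?_)
    by_cases hx : x ∈ Q
    · have a1 := h1 x (hQB hx)
      have a2 : W x ^ (p - 1) ≤ W x ^ p := Real.rpow_le_rpow_of_exponent_le a1 (by linarith)
      have a3 : 0 ≤ W x ^ (p - 1) := Real.rpow_nonneg (by linarith) _
      simp only [indicator_of_mem hx]
      exact (mul_le_of_le_one_left (mul_nonneg (hζ1 x).1 a3) (hζ1 x).2).trans
        ((mul_le_of_le_one_left a3 (hζ1 x).2).trans a2)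
    · simp only [indicator_of_notMem hx, image_eq_zero_of_notMem_tsupport fun h' => hx (hs h'), zero_mul, le_refl]
  have h3 : ∫ x, l / 2 * (ζ x ^ 2 * W x ^ (p - 2) * ‖fderiv ℝ W x‖ ^ 2) ≤
      ∫ x, (fderiv ℝ (fun y => ζ y * (ζ y * W y ^ (p - 1))) x (Φ x) +
        2 * L ^ 2 * N ^ 2 / l * Q.indicator (fun x => W x ^ p) x) := by
    refine integral_mono_ae ((cmoser_ie hB h.cd h1 hζ hc hs' _).const_mul _) (i1.add (i3.const_mul _)) ?_
    filter_upwards [h.lo, h.hi] with x hlo hhi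
    by_cases hx : x ∈ Q
    · have hxB := hQB hx
      obtain ⟨b0, b1, b2⟩ := cmoser_rp (h1 x hxB) p
      have b3 : |fderiv ℝ ζ x (Φ x)| ≤ N * (L * ‖fderiv ℝ W x‖) :=
        (ContinuousLinearMap.le_opNorm _ _).trans
          (mul_le_mul (hN x) (hhi hxB) (norm_nonneg _) ((norm_nonneg _).trans (hN x)))
      rw [cmoser_fd hB h.cd h1 hζ _ hxB, indicator_of_mem hx, b1, b2, show p - 1 - 1 = p - 2 by ring]
      simp only [ContinuousLinearMap.add_apply, ContinuousLinearMap.smul_apply, smul_eq_mul]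
      have b4 := hlo hxB
      have b5 := (abs_le.1 b3).1
      have b6 := h1 x hxB
      have b7 := (hζ1 x).1
      generalize W x ^ (p - 2) = P at *
      generalize W x = w at *
      generalize ζ x = z at *
      generalize ‖fderiv ℝ W x‖ = a at *
      generalize fderiv ℝ ζ x (Φ x) = u at *
      generalize fderiv ℝ W x (Φ x) = v at *
      have c0 : 0 ≤ l * a ^ 2 := by positivity
      have c1 : z ^ 2 * P * (l * a ^ 2) ≤ (p - 1) * z ^ 2 * P * v := by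
        have : l * a ^ 2 ≤ (p - 1) * v := by nlinarith
        have := mul_le_mul_of_nonneg_left this (by positivity : 0 ≤ z ^ 2 * P)
        linarith
      have c2 := mul_le_mul_of_nonneg_left b5 (by positivity : 0 ≤ 2 * z * (P * w))
      have c3 : 0 ≤ P * (l * z * a - 2 * L * N * w) ^ 2 / (2 * l) := by positivity
      have c4 : P * (l * z * a - 2 * L * N * w) ^ 2 / (2 * l) = l / 2 * (z ^ 2 * P * a ^ 2) -
          2 * z * (P * w) * (N * (L * a)) + 2 * L ^ 2 * N ^ 2 / l * (P * w ^ 2) := by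
        field_simp
        ring
      linarith
    · have hx' : x ∉ tsupport ζ := fun h' => hx (hs h')
      rw [(cmoser_out W (p - 1) hx').2, (cmoser_out W (p - 1) hx').1, indicator_of_notMem hx]
      simp
  rw [integral_const_mul, integral_add i1 (i3.const_mul _), integral_const_mul, integral_indicator hQ] at h3
  have h4 := mul_le_mul_of_nonneg_left h2 hK
  linarith

/-- the `L¹` norm of the gradient of `ζ² W^p` -/
theorem cmoser_grad {N p δ : ℝ} {Q : Set (E n)} (hδ : 0 < δ) (hp : 0 ≤ p) (hB : IsOpen B)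
    (hW : ContDiffOn ℝ 1 W B) (h1 : ∀ x ∈ B, 1 ≤ W x) (hζ : ContDiff ℝ 1 ζ)
    (hc : HasCompactSupport ζ) (hζ1 : ∀ x, 0 ≤ ζ x ∧ ζ x ≤ 1) (hN : ∀ x, ‖fderiv ℝ ζ x‖ ≤ N)
    (hQ : MeasurableSet Q) (hs : tsupport ζ ⊆ Q) (hQB : Q ⊆ B) (hI : IntegrableOn (fun x => W x ^ p) Q) :
    ∫ x, ‖fderiv ℝ (fun y => ζ y * (ζ y * W y ^ p)) x‖ ≤
      p * δ / 2 * (∫ x, ζ x ^ 2 * W x ^ (p - 2) * ‖fderiv ℝ W x‖ ^ 2) + (2 * N + p / (2 * δ)) * ∫ x in Q, W x ^ p := by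
  have i1 := cmoser_ie hB hW h1 hζ hc (hs.trans hQB) (p - 2)
  have i3 := (integrable_indicator_iff hQ).2 hI
  rw [← integral_indicator hQ, ← integral_const_mul, ← integral_const_mul,
    ← integral_add (i1.const_mul _) (i3.const_mul _)]
  refine integral_mono_of_nonneg (ae_of_all _ fun _ => norm_nonneg _) ((i1.const_mul _).add (i3.const_mul _))
    (ae_of_all _ fun x => ?_)
  by_cases hx : x ∈ Q
  · have hxB := hQB hx
    obtain ⟨b0, b1, b2⟩ := cmoser_rp (h1 x hxB) p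
    have b6 := h1 x hxB
    have b7 := (hζ1 x).1
    have b8 := (hζ1 x).2
    have b9 := hN x
    simp only [cmoser_fd hB hW h1 hζ _ hxB, indicator_of_mem hx]
    refine (norm_add_le _ _).trans ?_
    rw [norm_smul, norm_smul, b1, b2, Real.norm_of_nonneg (by positivity), Real.norm_of_nonneg (by positivity)]
    have b10 := norm_nonneg (fderiv ℝ ζ x)
    generalize W x ^ (p - 2) = P at *
    generalize W x = w at *
    generalize ζ x = z at *
    generalize ‖fderiv ℝ W x‖ = a at *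
    generalize ‖fderiv ℝ ζ x‖ = u at *
    have c1 : z * u ≤ N := (mul_le_of_le_one_left b10 b8).trans b9
    have c2 := mul_le_mul_of_nonneg_left c1 (by positivity : 0 ≤ 2 * (P * w ^ 2))
    have c3 : 0 ≤ p * z ^ 2 * P * (δ * a - w) ^ 2 / (2 * δ) := by positivity
    have c4 : p * z ^ 2 * P * (δ * a - w) ^ 2 / (2 * δ) = p * δ / 2 * (z ^ 2 * P * a ^ 2) -
        p * z ^ 2 * (P * w) * a + z ^ 2 * (p / (2 * δ) * (P * w ^ 2)) := by
      field_simp
      ring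
    have c5 : z ^ 2 * (p / (2 * δ) * (P * w ^ 2)) ≤ p / (2 * δ) * (P * w ^ 2) :=
      mul_le_of_le_one_left (by positivity) (pow_le_one₀ b7 b8)
    linarith
  · have hx' : x ∉ tsupport ζ := fun h' => hx (hs h')
    simp only [(cmoser_out W p hx').2, (cmoser_out W p hx').1, indicator_of_notMem hx]
    simp

end cacc

theorem cmoser_intOn {W : E n → ℝ} {x₀ : E n} {R ρ : ℝ} (hW : ContDiffOn ℝ 1 W (ball x₀ R))
    (h1 : ∀ x ∈ ball x₀ R, 1 ≤ W x) (hρ : ρ < R) (s : ℝ) : IntegrableOn (fun x => W x ^ s) (ball x₀ ρ) :=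
  (((cmoser_pow hW h1 s).continuousOn.mono (closedBall_subset_ball hρ)).integrableOn_compact
    (isCompact_closedBall _ _)).mono_set ball_subset_closedBall

/-- one Moser step -/
theorem moser_step (hn : 2 ≤ n) {l L : ℝ} (hl : 0 < l) (hL : l ≤ L) :
    ∃ C₁ : ℝ, 0 < C₁ ∧ ∀ (x₀ : E n) (R K ρ' ρ p : ℝ) (W : E n → ℝ) (Φ : E n → E n),
      0 < R → 0 ≤ K → K * R ^ 2 ≤ 1 → R ≤ ρ' → ρ' < ρ → ρ ≤ 3 / 2 * R → 2 ≤ p →
      Sub l L K W Φ (ball x₀ (2 * R)) → (∀ x ∈ ball x₀ (2 * R), 1 ≤ W x) →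
      (∫ x in ball x₀ ρ', W x ^ (p * (n / (n - 1) : ℝ))) ^ ((n - 1) / n : ℝ) ≤
        C₁ * p / (ρ - ρ') * ∫ x in ball x₀ ρ, W x ^ p := by
  obtain ⟨C₀, hC₀, hS⟩ := cmoser_sob hn
  obtain ⟨D, hD, hcut⟩ := exists_cutoff n
  have hL0 : 0 < L := hl.trans_le hL
  refine ⟨C₀ * ((1 + 2 * L ^ 2 * D ^ 2 / l) / l + D + 1 / 2), by positivity,
    fun x₀ R K ρ' ρ p W Φ hR hK hKR h1 h2 h3 hp h hW => ?_⟩
  obtain ⟨ζ, a1, a2, a3, a4, a5, a6⟩ := hcut x₀ ρ' ρ (by linarith) h2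
  have a1' : ContDiff ℝ 1 ζ := a1.of_le (by simp)
  obtain ⟨δ, hδ⟩ : ∃ δ, δ = ρ - ρ' := ⟨_, rfl⟩
  rw [← hδ] at a6 ⊢
  have hδ0 : 0 < δ := by linarith
  have hsub : ball x₀ ρ ⊆ ball x₀ (2 * R) := ball_subset_ball (by linarith)
  have hI := cmoser_intOn h.cd hW (show ρ < 2 * R by linarith) p
  have b1 := cmoser_cacc hl hL0.le hK hp isOpen_ball h hW a1' a2 a4 a6 measurableSet_ball a3 hsub hI
  have b2 := cmoser_grad hδ0 (by linarith : 0 ≤ p) isOpen_ball h.cd hW a1' a2 a4 a6 measurableSet_ball a3 hsub hI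
  have hg0 : ∀ x, 0 ≤ ζ x * (ζ x * W x ^ p) := fun x => by
    by_cases hx : x ∈ tsupport ζ
    · have := (a4 x).1
      have := zero_le_one.trans (hW x (hsub (a3 hx)))
      positivity
    · rw [image_eq_zero_of_notMem_tsupport hx, zero_mul]
  obtain ⟨i1, b3⟩ := hS _ (cmoser_cd isOpen_ball h.cd hW a1' (a3.trans hsub) p) a2.mul_right hg0
  have hsub' : ball x₀ ρ' ⊆ ball x₀ (2 * R) := ball_subset_ball (by linarith)
  have b4 : ∫ x in ball x₀ ρ', W x ^ (p * (n / (n - 1) : ℝ)) ≤ ∫ x, (ζ x * (ζ x * W x ^ p)) ^ (n / (n - 1) : ℝ) := by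
    refine le_trans (le_of_eq ?_) (setIntegral_le_integral (s := ball x₀ ρ') i1
      (ae_of_all _ fun x => Real.rpow_nonneg (hg0 x) _))
    refine setIntegral_congr_fun measurableSet_ball fun x hx => ?_
    simp only [a5 x hx, one_mul]
    exact Real.rpow_mul (zero_le_one.trans (hW x (hsub' hx))) _ _
  have h2n : (2 : ℝ) ≤ n := by exact_mod_cast hn
  have b5 := Real.rpow_le_rpow (setIntegral_nonneg measurableSet_ball fun x hx =>
    Real.rpow_nonneg (zero_le_one.trans (hW x (hsub' hx))) _) b4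
    (div_nonneg (by linarith) (by linarith) : (0 : ℝ) ≤ (n - 1) / n)
  have hI0 : 0 ≤ ∫ x in ball x₀ ρ, W x ^ p := setIntegral_nonneg measurableSet_ball fun x hx =>
    Real.rpow_nonneg (zero_le_one.trans (hW x (hsub hx))) _
  refine b5.trans (b3.trans ((mul_le_mul_of_nonneg_left b2 hC₀.le).trans ?_))
  generalize ∫ x in ball x₀ ρ, W x ^ p = I at *
  generalize ∫ x, ζ x ^ 2 * W x ^ (p - 2) * ‖fderiv ℝ W x‖ ^ 2 = En at *
  have c1 : K ≤ 1 / δ ^ 2 := by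
    rw [le_div_iff₀ (by positivity)]
    have : δ ^ 2 ≤ R ^ 2 := pow_le_pow_left₀ hδ0.le (by linarith) 2
    exact (mul_le_mul_of_nonneg_left this hK).trans hKR
  have c2 := b1.trans (mul_le_mul_of_nonneg_right (add_le_add_left c1 _) hI0)
  have c3 := mul_le_mul_of_nonneg_left c2 (by positivity : 0 ≤ p * δ / l)
  have c4 : p * δ / l * (l / 2 * En) = p * δ / 2 * En := by field_simp
  have c5 : p * δ / l * ((1 / δ ^ 2 + 2 * L ^ 2 * (D / δ) ^ 2 / l) * I) =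
      (1 + 2 * L ^ 2 * D ^ 2 / l) / l * p / δ * I := by field_simp
  have c6 : 2 * (D / δ * I) ≤ p * (D / δ * I) := mul_le_mul_of_nonneg_right hp (by positivity)
  have c7 : C₀ * ((1 + 2 * L ^ 2 * D ^ 2 / l) / l + D + 1 / 2) * p / δ * I =
      C₀ * ((1 + 2 * L ^ 2 * D ^ 2 / l) / l * p / δ * I + p * (D / δ * I) + p / (2 * δ) * I) := by
    field_simp
  rw [c7]
  refine mul_le_mul_of_nonneg_left ?_ hC₀.le
  linarith

theorem cmoser_iter {θ A : ℝ} (h0 : 0 < θ) (h1 : θ < 1) (hA : 1 ≤ A) : ∃ K₁ : ℝ, 0 ≤ K₁ ∧ ∀ J : ℕ → ℝ,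
    (∀ k, 0 ≤ J k) → (∀ k, J (k + 1) ^ θ ≤ A * 4 ^ k * J k) → ∀ k, J k ^ θ ^ k ≤ K₁ * J 0 := by
  have hs : Summable fun k : ℕ => Real.log (A * 4 ^ k) * θ ^ k := by
    have s1 := (summable_geometric_of_lt_one h0.le h1).mul_left (Real.log A)
    have s2 := (summable_pow_mul_geometric_of_norm_lt_one 1 (r := θ)
      (by rwa [Real.norm_of_nonneg h0.le])).mul_left (Real.log 4)
    refine (s1.add s2).congr fun k => ?_
    rw [Real.log_mul (by positivity) (by positivity), Real.log_pow]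
    ring
  refine ⟨Real.exp (∑' k : ℕ, Real.log (A * 4 ^ k) * θ ^ k), (Real.exp_pos _).le, fun J hJ h k => ?_⟩
  have h2 : ∀ k, J k ^ θ ^ k ≤ Real.exp (∑ i ∈ Finset.range k, Real.log (A * 4 ^ i) * θ ^ i) * J 0 := by
    intro k
    induction k with
    | zero => simp
    | succ k ih =>
      have h3 := Real.rpow_le_rpow (Real.rpow_nonneg (hJ _) _) (h k) (pow_pos h0 k).le
      rw [← Real.rpow_mul (hJ _), ← pow_succ', Real.mul_rpow (by positivity) (hJ _),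
        Real.rpow_def_of_pos (x := A * 4 ^ k) (by positivity)] at h3
      rw [Finset.sum_range_succ, Real.exp_add, mul_comm (Real.exp _), mul_assoc]
      exact h3.trans (mul_le_mul_of_nonneg_left ih (Real.exp_pos _).le)
  refine (h2 k).trans (mul_le_mul_of_nonneg_right (Real.exp_le_exp.2 ?_) (hJ 0))
  refine hs.sum_le_tsum _ fun i _ => mul_nonneg (Real.log_nonneg ?_) (pow_pos h0 i).le
  exact one_le_mul_of_one_le_of_one_le hA (one_le_pow₀ (by norm_num))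

theorem moser (hn : 2 ≤ n) {l L : ℝ} (hl : 0 < l) (hL : l ≤ L) :
    ∃ K₁ : ℝ, 0 ≤ K₁ ∧ ∀ (x₀ : E n) (R K : ℝ) (W : E n → ℝ) (Φ : E n → E n),
      0 < R → 0 ≤ K → K * R ^ 2 ≤ 1 → Sub l L K W Φ (ball x₀ (2 * R)) →
      (∀ x ∈ ball x₀ (2 * R), 1 ≤ W x) →
      ∀ x ∈ ball x₀ R, W x ^ 2 ≤ K₁ / R ^ n * ∫ y in ball x₀ (3 / 2 * R), W y ^ 2 := by
  obtain ⟨C₁, hC₁, hS⟩ := moser_step hn hl hL
  have h2n : (2 : ℝ) ≤ n := by exact_mod_cast hn
  obtain ⟨χ, hχ⟩ : ∃ χ : ℝ, χ = n / (n - 1) := ⟨_, rfl⟩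
  obtain ⟨θ, hθ⟩ : ∃ θ : ℝ, θ = (n - 1) / n := ⟨_, rfl⟩
  have hn1 : (0 : ℝ) < n - 1 := by linarith
  have hχθ : χ * θ = 1 := by rw [hχ, hθ]; field_simp
  have hθn : n * θ = n - 1 := by rw [hθ]; field_simp
  have hχ1 : 1 ≤ χ := by rw [hχ, le_div_iff₀ hn1]; linarith
  have hχ2 : χ ≤ 2 := by rw [hχ, div_le_iff₀ hn1]; linarith
  have hθ0 : 0 < θ := by rw [hθ]; positivity
  have hθ1 : θ < 1 := by rw [hθ, div_lt_one (by linarith)]; linarith
  rw [← hχ, ← hθ] at hS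
  obtain ⟨K₁, hK₁, hit⟩ := cmoser_iter hθ0 hθ1 (A := 8 * C₁ + 1) (by linarith)
  refine ⟨K₁, hK₁, fun x₀ R K W Φ hR hK hKR h hW x hx => ?_⟩
  have hr : ∀ k : ℕ, 0 < R / 2 ^ (k + 1) ∧ R / 2 ^ (k + 1) ≤ R / 2 := fun k =>
    ⟨by positivity, div_le_div_of_nonneg_left hR.le two_pos (le_self_pow₀ one_le_two k.succ_ne_zero)⟩
  have hsub : ∀ k : ℕ, ball x₀ (R + R / 2 ^ (k + 1)) ⊆ ball x₀ (2 * R) := fun k =>
    ball_subset_ball (by linarith [(hr k).2])
  have hI0 : ∀ k : ℕ, 0 ≤ ∫ y in ball x₀ (R + R / 2 ^ (k + 1)), W y ^ (2 * χ ^ k) := fun k =>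
    setIntegral_nonneg measurableSet_ball fun y hy => Real.rpow_nonneg (zero_le_one.trans (hW y (hsub k hy))) _
  have h1 := hit (fun k => (∫ y in ball x₀ (R + R / 2 ^ (k + 1)), W y ^ (2 * χ ^ k)) / R ^ n)
    (fun k => div_nonneg (hI0 k) (by positivity)) fun k => by
      have e1 : R / 2 ^ (k + 1 + 1) = R / 2 ^ (k + 1) / 2 := by rw [pow_succ, div_div]
      have h2 := hS x₀ R K (R + R / 2 ^ (k + 1 + 1)) (R + R / 2 ^ (k + 1)) (2 * χ ^ k) W Φ hR hK hKR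
        (by linarith [(hr (k + 1)).1]) (by linarith [(hr k).1]) (by linarith [(hr k).2])
        (by linarith [one_le_pow₀ (n := k) hχ1]) h hW
      rw [mul_assoc, ← pow_succ] at h2
      have e2 : (R ^ n) ^ θ = R ^ n / R := by
        rw [← Real.rpow_natCast, ← Real.rpow_mul hR.le, hθn, Real.rpow_sub_one hR.ne']
      rw [Real.div_rpow (hI0 _) (by positivity), e2, div_le_iff₀ (by positivity)]
      refine h2.trans ?_
      have e3 : C₁ * (2 * χ ^ k) / (R + R / 2 ^ (k + 1) - (R + R / 2 ^ (k + 1 + 1))) =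
          8 * C₁ * (χ ^ k * 2 ^ k) / R := by
        rw [show R + R / 2 ^ (k + 1) - (R + R / 2 ^ (k + 1 + 1)) = R / (4 * 2 ^ k) by field_simp; ring]
        field_simp
        ring
      have h3 : χ ^ k * 2 ^ k ≤ 4 ^ k := by
        rw [← mul_pow]
        exact pow_le_pow_left₀ (by linarith) (by linarith) k
      have h4 : 8 * C₁ * (χ ^ k * 2 ^ k) ≤ (8 * C₁ + 1) * 4 ^ k :=
        mul_le_mul (by linarith) h3 (by positivity) (by positivity)
      rw [e3]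
      refine (mul_le_mul_of_nonneg_right (div_le_div_of_nonneg_right h4 hR.le) (hI0 k)).trans_eq ?_
      field_simp
  have e0 : K₁ * ((∫ y in ball x₀ (R + R / 2 ^ (0 + 1)), W y ^ (2 * χ ^ 0)) / R ^ n) =
      K₁ / R ^ n * ∫ y in ball x₀ (3 / 2 * R), W y ^ 2 := by
    rw [show R + R / 2 ^ (0 + 1) = 3 / 2 * R by ring]
    simp only [pow_zero, mul_one, Real.rpow_two]
    ring
  simp only [e0] at h1
  refine le_of_forall_lt_imp_le_of_dense fun t ht => ?_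
  rcases le_or_gt t 0 with ht0 | ht0
  · refine ht0.trans (le_trans (Real.rpow_nonneg (div_nonneg (hI0 0) (by positivity)) _) (h1 0))
  have hx2 : x ∈ ball x₀ (2 * R) := ball_subset_ball (by linarith) hx
  have hc : ContinuousAt (fun y => W y ^ 2) x := (h.cd.continuousOn.continuousAt (isOpen_ball.mem_nhds hx2)).pow 2
  obtain ⟨ε, hε, hU⟩ := Metric.mem_nhds_iff.1
    (Filter.inter_mem (isOpen_ball.mem_nhds hx) (hc.eventually (lt_mem_nhds ht)))
  have hm : 0 < volume.real (ball x ε) / R ^ n :=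
    div_pos (ENNReal.toReal_pos (measure_ball_pos _ _ hε).ne' measure_ball_lt_top.ne) (by positivity)
  have h2 : ∀ k : ℕ, (volume.real (ball x ε) / R ^ n) ^ θ ^ k * t ≤ K₁ / R ^ n * ∫ y in ball x₀ (3 / 2 * R), W y ^ 2 := by
    intro k
    have hI := cmoser_intOn h.cd hW (show R + R / 2 ^ (k + 1) < 2 * R by linarith [(hr k).2]) (2 * χ ^ k)
    have hs : ball x ε ⊆ ball x₀ (R + R / 2 ^ (k + 1)) := fun y hy =>
      ball_subset_ball (by linarith [(hr k).1]) (hU hy).1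
    have h3 : volume.real (ball x ε) * t ^ χ ^ k ≤ ∫ y in ball x₀ (R + R / 2 ^ (k + 1)), W y ^ (2 * χ ^ k) := by
      refine le_trans ?_ (setIntegral_mono_set hI ((ae_restrict_iff' measurableSet_ball).2 (ae_of_all _ fun y hy =>
        Real.rpow_nonneg (zero_le_one.trans (hW y (hsub k hy))) _)) hs.eventuallyLE)
      rw [← smul_eq_mul, ← setIntegral_const]
      refine setIntegral_mono_on (integrableOn_const measure_ball_lt_top.ne) (hI.mono_set hs) measurableSet_ball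
        fun y hy => ?_
      rw [Real.rpow_mul (zero_le_one.trans (hW y (hsub k (hs hy)))), Real.rpow_two]
      exact Real.rpow_le_rpow ht0.le (le_of_lt (hU hy).2) (by positivity)
    have h4 := Real.rpow_le_rpow (by positivity) (div_le_div_of_nonneg_right h3 (by positivity : 0 ≤ R ^ n))
      (pow_pos hθ0 k).le
    rw [mul_div_right_comm, Real.mul_rpow hm.le (by positivity), ← Real.rpow_mul ht0.le, ← mul_pow, hχθ, one_pow,
      Real.rpow_one] at h4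
    exact h4.trans (h1 k)
  have h3 := (tendsto_const_nhds.rpow (tendsto_pow_atTop_nhds_zero_of_lt_one hθ0.le hθ1)
    (Or.inl hm.ne')).mul_const t
  rw [Real.rpow_zero, one_mul] at h3
  exact le_of_tendsto' h3 h2

end Crest.Agent.R238
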