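import Crest.Agent.R238.CPoin
import Crest.Agent.R238.CMoser

/-!
# R238 / CGrow: the growth lemma (Moser's logarithmic estimate)

`v = M - W ≥ 0`, `ε > K R²` (let `ε ↓ K R²` at the end), `G(v) = log(v+ε+ℓ) - log(v+ε)`:
`G > 0`, `G' < 0`, `|G'| ≤ 1/ε`, `G'' ≥ G'²`, and `G ≤ log 2` on `{v ≥ ℓ}`.
`W' = G(v) + 1` has `dW' = -G'(v) dW`; flux `Φ' = -G'(v) Φ`.  For `η ≥ 0` test `Sub.weak` with
`-G'(v) η`:  `∫ dη(Φ') ≤ (K/ε) ∫η - l ∫ η |dW'|²`   (`log_sub`).
So `W'` is a `Sub` with constant `K/ε ≤ R⁻²`, and `η = ζ²` (`ζ = 1` on `B_{3R/2}`, support in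
`B_{2R}`, `|∇ζ| ≤ D/R`, `exists_cutoff`) gives
`∫_{B_{3R/2}} |dW'|² ≤ C R^{n-2}`.  `poin_ball` on `B_{3R/2}` (proportion `δ (2/3)^n`) bounds
`∫_{B_{3R/2}} W'² ≤ C R^n`, `moser` bounds `W' ≤ C₂` on `B_R`, i.e. `ℓ ≤ e^{C₂} (v + ε)`.
-/

set_option autoImplicit false
open MeasureTheory Matrix Set Metric
open scoped RealInnerProductSpace ContDiff BigOperators

namespace Crest.Agent.R238

variable {n : ℕ}

theorem cgrow_int {B C : Set (E n)} (hB : IsOpen B) (hC : IsCompact C) (hs : C ⊆ B)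
    {A : E n → E n →L[ℝ] ℝ} (hA : ContinuousOn A B) (h0 : ∀ x, x ∉ C → A x = 0) {Φ : E n → E n}
    (hm : AEStronglyMeasurable Φ (volume.restrict B)) {b : E n → ℝ} (hb : ContinuousOn b B)
    (hle : ∀ᵐ x : E n, x ∈ B → ‖Φ x‖ ≤ b x) : Integrable fun x => A x (Φ x) := by
  obtain ⟨M, hM⟩ := hC.exists_bound_of_continuousOn ((hA.norm.mul hb).mono hs)
  have m1 : AEStronglyMeasurable (fun x => A x (Φ x)) (volume.restrict B) :=
    (ContinuousLinearMap.id ℝ (E n →L[ℝ] ℝ)).aestronglyMeasurable_comp₂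
      (hA.aestronglyMeasurable hB.measurableSet) hm
  have i1 : IntegrableOn (fun x => A x (Φ x)) C := by
    refine Integrable.mono' (g := fun _ => M) (integrableOn_const hC.measure_lt_top.ne)
      (m1.mono_measure (Measure.restrict_mono hs le_rfl)) ?_
    filter_upwards [ae_restrict_of_ae hle, ae_restrict_mem hC.measurableSet] with x h1 hx
    refine ((A x).le_opNorm _).trans ((mul_le_mul_of_nonneg_left (h1 (hs hx)) (norm_nonneg _)).trans ?_)
    exact (le_abs_self _).trans (hM x hx)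
  exact i1.integrable_of_forall_notMem_eq_zero fun x hx => by rw [h0 x hx]; rfl

/-- the logarithmic substitution -/
theorem cgrow_log {l L K M ε ℓ : ℝ} {W : E n → ℝ} {Φ : E n → E n} {B : Set (E n)} (hB : IsOpen B)
    (hl : 0 < l) (hK : 0 ≤ K) (hε : 0 < ε) (hℓ : 0 < ℓ) (h : Sub l L K W Φ B)
    (hM : ∀ x ∈ B, W x ≤ M) :
    ∃ Φ' : E n → E n,
      Sub l L (K / ε) (fun x => Real.log (M - W x + ε + ℓ) - Real.log (M - W x + ε) + 1) Φ' B ∧
      ∀ η : E n → ℝ, ContDiff ℝ 1 η → HasCompactSupport η → tsupport η ⊆ B → (∀ x, 0 ≤ η x) →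
        ∃ f : E n → ℝ, Integrable f ∧ ∫ x, f x ≤ K / ε * ∫ x, η x ∧
          ∀ᵐ x : E n, fderiv ℝ η x (Φ' x) + l * (η x * ‖fderiv ℝ
            (fun x => Real.log (M - W x + ε + ℓ) - Real.log (M - W x + ε) + 1) x‖ ^ 2) ≤ f x := by
  have p1 : ∀ x ∈ B, 0 < M - W x + ε := fun x hx => by linarith [hM x hx]
  have p2 : ∀ x ∈ B, 0 < M - W x + ε + ℓ := fun x hx => by linarith [hM x hx]
  have c1 : ContDiffOn ℝ 1 (fun x => M - W x + ε) B := (contDiffOn_const.sub h.cd).add contDiffOn_const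
  have c2 : ContDiffOn ℝ 1 (fun x => M - W x + ε + ℓ) B := c1.add contDiffOn_const
  set g : E n → ℝ := fun x => (M - W x + ε)⁻¹ - (M - W x + ε + ℓ)⁻¹ with hg
  set V : E n → ℝ := fun x => Real.log (M - W x + ε + ℓ) - Real.log (M - W x + ε) + 1 with hV
  have cg : ContDiffOn ℝ 1 g B :=
    (c1.inv fun x hx => (p1 x hx).ne').sub (c2.inv fun x hx => (p2 x hx).ne')
  have cV : ContDiffOn ℝ 1 V B :=
    ((c2.log fun x hx => (p2 x hx).ne').sub (c1.log fun x hx => (p1 x hx).ne')).add contDiffOn_const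
  have g0 : ∀ x ∈ B, 0 ≤ g x := fun x hx =>
    sub_nonneg.2 (inv_anti₀ (p1 x hx) (by linarith))
  have g1 : ∀ x ∈ B, g x ≤ ε⁻¹ := fun x hx => by
    have a1 : (M - W x + ε)⁻¹ ≤ ε⁻¹ := inv_anti₀ hε (by linarith [hM x hx])
    have a2 := inv_pos.2 (p2 x hx)
    simp only [hg]; linarith
  have dW : ∀ x ∈ B, HasFDerivAt W (fderiv ℝ W x) x := fun x hx =>
    ((h.cd.differentiableOn one_ne_zero).differentiableAt (hB.mem_nhds hx)).hasFDerivAt
  have d1 : ∀ t c : ℝ, HasDerivAt (fun t => M - t + c) (-1) t := fun t c => by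
    simpa using ((hasDerivAt_id t).const_sub M).add_const c
  have dV : ∀ x ∈ B, fderiv ℝ V x = g x • fderiv ℝ W x := fun x hx => by
    have a : HasDerivAt (fun t => Real.log (M - t + ε + ℓ) - Real.log (M - t + ε) + 1) (g x) (W x) := by
      refine (((((d1 (W x) ε).add_const ℓ).log (p2 x hx).ne').sub
        ((d1 (W x) ε).log (p1 x hx).ne')).add_const 1).congr_deriv ?_
      simp only [hg]; ring
    exact (a.comp_hasFDerivAt x (dW x hx)).fderiv
  have dg : ∀ x ∈ B, HasFDerivAt g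
      (((M - W x + ε)⁻¹ ^ 2 - (M - W x + ε + ℓ)⁻¹ ^ 2) • fderiv ℝ W x) x := fun x hx => by
    have a : HasDerivAt (fun t => (M - t + ε)⁻¹ - (M - t + ε + ℓ)⁻¹)
        ((M - W x + ε)⁻¹ ^ 2 - (M - W x + ε + ℓ)⁻¹ ^ 2) (W x) := by
      refine (((d1 (W x) ε).inv (p1 x hx).ne').sub
        (((d1 (W x) ε).add_const ℓ).inv (p2 x hx).ne')).congr_deriv ?_
      simp only [inv_pow]; ring
    exact a.comp_hasFDerivAt x (dW x hx)
  have cdW : ContinuousOn (fderiv ℝ W) B := h.cd.continuousOn_fderiv_of_isOpen hB le_rfl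
  have key : ∀ η : E n → ℝ, ContDiff ℝ 1 η → HasCompactSupport η → tsupport η ⊆ B → (∀ x, 0 ≤ η x) →
      ∃ f : E n → ℝ, Integrable f ∧ ∫ x, f x ≤ K / ε * ∫ x, η x ∧
        ∀ᵐ x : E n, fderiv ℝ η x (g x • Φ x) + l * (η x * ‖fderiv ℝ V x‖ ^ 2) ≤ f x := by
    intro η hη hc hs h0
    have t1 : ContDiff ℝ 1 fun x => η x * g x := contDiff_mul_of_tsupport hB hη hs cg
    have t2 : tsupport (fun x => η x * g x) ⊆ tsupport η := tsupport_mul_subset_left
    have t3 : ∀ x, 0 ≤ η x * g x ∧ η x * g x ≤ ε⁻¹ * η x := fun x => by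
      by_cases hx : x ∈ B
      · exact ⟨mul_nonneg (h0 x) (g0 x hx), by nlinarith [g1 x hx, h0 x]⟩
      · rw [image_eq_zero_of_notMem_tsupport fun h => hx (hs h)]; simp
    refine ⟨fun x => fderiv ℝ (fun x => η x * g x) x (Φ x), cgrow_int hB hc hs
      (t1.continuous_fderiv one_ne_zero).continuousOn
      (fun x hx => fderiv_of_notMem_tsupport ℝ fun h => hx (t2 h)) h.meas
      (continuousOn_const.mul cdW.norm) h.hi, ?_, ?_⟩
    · refine (h.weak _ t1 hc.mul_right (t2.trans hs) fun x => (t3 x).1).trans ?_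
      rw [div_eq_mul_inv, mul_assoc, ← integral_const_mul ε⁻¹]
      exact mul_le_mul_of_nonneg_left (integral_mono_of_nonneg (.of_forall fun x => (t3 x).1)
        ((hη.continuous.integrable_of_hasCompactSupport hc).const_mul _)
        (.of_forall fun x => (t3 x).2)) hK
    · filter_upwards [h.lo] with x hlo
      by_cases hx : x ∈ B
      · have e := ((hη.differentiable one_ne_zero x).hasFDerivAt.mul (dg x hx)).fderiv
        have e' : fderiv ℝ (fun x => η x * g x) x = _ := e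
        rw [e', dV x hx, norm_smul, mul_pow, Real.norm_eq_abs, sq_abs]
        simp only [_root_.add_apply, _root_.smul_apply, smul_eq_mul, map_smul]
        have a1 := hlo hx
        have a2 : g x ^ 2 ≤ (M - W x + ε)⁻¹ ^ 2 - (M - W x + ε + ℓ)⁻¹ ^ 2 := by
          have := mul_nonneg (g0 x hx) (inv_pos.2 (p2 x hx)).le
          simp only [hg] at this ⊢
          nlinarith
        have a3 : 0 ≤ fderiv ℝ W x (Φ x) := le_trans (by positivity) a1
        have a4 := mul_le_mul_of_nonneg_left (mul_le_mul a2 a1 (by positivity)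
          ((sq_nonneg _).trans a2)) (h0 x)
        nlinarith
      · have hx' : x ∉ tsupport η := fun h => hx (hs h)
        rw [fderiv_of_notMem_tsupport ℝ hx', fderiv_of_notMem_tsupport ℝ fun h => hx' (t2 h),
          image_eq_zero_of_notMem_tsupport hx']
        simp
  have mΦ : AEStronglyMeasurable (fun x => g x • Φ x) (volume.restrict B) :=
    (cg.continuousOn.aestronglyMeasurable hB.measurableSet).smul h.meas
  have hi' : ∀ᵐ x : E n, x ∈ B → ‖g x • Φ x‖ ≤ L * ‖fderiv ℝ V x‖ := by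
    filter_upwards [h.hi] with x hhi hx
    rw [dV x hx, norm_smul, norm_smul, mul_left_comm]
    exact mul_le_mul_of_nonneg_left (hhi hx) (norm_nonneg _)
  refine ⟨fun x => g x • Φ x, ⟨cV, mΦ, ?_, hi', fun η hη hc hs h0 => ?_⟩, key⟩
  · filter_upwards [h.lo] with x hlo hx
    rw [dV x hx, norm_smul, mul_pow, Real.norm_eq_abs, sq_abs]
    simp only [_root_.smul_apply, smul_eq_mul, map_smul]
    nlinarith [mul_le_mul_of_nonneg_left (hlo hx) (sq_nonneg (g x))]
  · obtain ⟨f, hf, h1, h2⟩ := key η hη hc hs h0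
    refine le_trans (integral_mono_ae (cgrow_int hB hc hs
      (hη.continuous_fderiv one_ne_zero).continuousOn (fun x hx => fderiv_of_notMem_tsupport ℝ hx) mΦ
      (continuousOn_const.mul (cV.continuousOn_fderiv_of_isOpen hB le_rfl).norm) hi') hf ?_) h1
    filter_upwards [h2] with x hx
    have := h0 x
    exact le_trans (le_add_of_nonneg_right (by positivity)) hx

theorem cgrow_vol (x₀ : E n) {r : ℝ} (hr : 0 < r) :
    volume.real (ball x₀ r) = r ^ n * volume.real (ball (0 : E n) 1) := by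
  rw [Measure.real, Measure.addHaar_ball_of_pos _ _ hr, ENNReal.toReal_mul,
    ENNReal.toReal_ofReal (by positivity), finrank_euclideanSpace_fin]
  rfl

/-- the energy estimate -/
theorem cgrow_energy {l L : ℝ} (hl : 0 < l) (hL : l ≤ L) : ∃ A : ℝ, 0 ≤ A ∧
    ∀ (x₀ : E n) (R K : ℝ) (V : E n → ℝ) (Φ : E n → E n), 0 < R → 0 ≤ K → K * R ^ 2 ≤ 1 →
      (∀ᵐ x : E n, x ∈ ball x₀ (2 * R) → ‖Φ x‖ ≤ L * ‖fderiv ℝ V x‖) →
      (∀ η : E n → ℝ, ContDiff ℝ 1 η → HasCompactSupport η → tsupport η ⊆ ball x₀ (2 * R) →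
        (∀ x, 0 ≤ η x) → ∃ f : E n → ℝ, Integrable f ∧ ∫ x, f x ≤ K * ∫ x, η x ∧
          ∀ᵐ x : E n, fderiv ℝ η x (Φ x) + l * (η x * ‖fderiv ℝ V x‖ ^ 2) ≤ f x) →
      R ^ 2 * ∫ x in ball x₀ (3 / 2 * R), ‖fderiv ℝ V x‖ ^ 2 ≤ A * R ^ n := by
  obtain ⟨D, hD, hcut⟩ := exists_cutoff n
  have hc0 : 0 ≤ volume.real (ball (0 : E n) 1) := measureReal_nonneg
  have hL0 : 0 < L := hl.trans_le hL
  refine ⟨2 / l * (1 + 2 * L ^ 2 / l * (2 * D) ^ 2) * (2 ^ n * volume.real (ball (0 : E n) 1)),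
    by positivity, fun x₀ R K V Φ hR hK hKR hhi H => ?_⟩
  obtain ⟨ζ, hζ, hc, hs, h01, h1, hd⟩ := hcut x₀ (3 / 2 * R) (2 * R) (by positivity) (by linarith)
  have hζ1 : ContDiff ℝ 1 ζ := hζ.of_le (by norm_cast)
  have ts : tsupport (fun x => ζ x * ζ x) ⊆ tsupport ζ := tsupport_mul_subset_left
  obtain ⟨f, hf, hf1, hf2⟩ := H (fun x => ζ x * ζ x) (hζ1.mul hζ1) hc.mul_right (ts.trans hs)
    fun x => mul_self_nonneg _
  have fin : volume (ball x₀ (2 * R)) ≠ ⊤ := measure_ball_lt_top.ne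
  have ic : ∀ c : ℝ, Integrable ((ball x₀ (2 * R)).indicator fun _ => c) := fun c =>
    (integrable_indicator_iff measurableSet_ball).2 (integrableOn_const fin)
  have ec : ∀ c : ℝ, ∫ x, (ball x₀ (2 * R)).indicator (fun _ => c) x =
      (2 * R) ^ n * volume.real (ball (0 : E n) 1) * c := fun c => by
    rw [integral_indicator measurableSet_ball, setIntegral_const, cgrow_vol x₀ (by positivity),
      smul_eq_mul]
  have k1 : ∫ x, ζ x * ζ x ≤ (2 * R) ^ n * volume.real (ball (0 : E n) 1) * 1 := by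
    rw [← ec]
    refine integral_mono_of_nonneg (.of_forall fun x => mul_self_nonneg _) (ic 1)
      (.of_forall fun x => ?_)
    by_cases hx : x ∈ ball x₀ (2 * R)
    · simp only [indicator_of_mem hx]
      exact mul_le_one₀ (h01 x).2 (h01 x).1 (h01 x).2
    · simp [indicator_of_notMem hx, image_eq_zero_of_notMem_tsupport fun h => hx (hs h)]
  have eD : D / (2 * R - 3 / 2 * R) = 2 * D / R := by field_simp; ring
  rw [eD] at hd
  have k2 : ∫ x, (ball x₀ (3 / 2 * R)).indicator (fun x => l / 2 * ‖fderiv ℝ V x‖ ^ 2) x ≤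
      ∫ x, (f x + (ball x₀ (2 * R)).indicator (fun _ => 2 * L ^ 2 / l * (2 * D / R) ^ 2) x) := by
    refine integral_mono_of_nonneg (.of_forall fun x => indicator_nonneg (fun _ _ => by positivity) x)
      (hf.add (ic _)) ?_
    filter_upwards [hf2, hhi] with x a1 a2
    by_cases hx : x ∈ ball x₀ (2 * R)
    · have b0 : (ball x₀ (3 / 2 * R)).indicator (fun x => l / 2 * ‖fderiv ℝ V x‖ ^ 2) x ≤
          l / 2 * (ζ x * ‖fderiv ℝ V x‖) ^ 2 := by
        by_cases hx' : x ∈ ball x₀ (3 / 2 * R)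
        · rw [indicator_of_mem hx', h1 x hx', one_mul]
        · rw [indicator_of_notMem hx']; positivity
      have hz := (hζ1.differentiable one_ne_zero x).hasFDerivAt
      have e' : fderiv ℝ (fun x => ζ x * ζ x) x = _ := (hz.mul hz).fderiv
      rw [e'] at a1
      simp only [_root_.add_apply, _root_.smul_apply, smul_eq_mul] at a1
      have b1 : |fderiv ℝ ζ x (Φ x)| ≤ 2 * D / R * (L * ‖fderiv ℝ V x‖) :=
        ((fderiv ℝ ζ x).le_opNorm _).trans (mul_le_mul (hd x) (a2 hx) (norm_nonneg _) (by positivity))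
      have b2 := mul_le_mul_of_nonneg_left (abs_le.1 b1).1 (h01 x).1
      rw [indicator_of_mem hx]
      generalize 2 * D / R = d at b2 ⊢
      have b3 : 0 ≤ l / 2 * (ζ x * ‖fderiv ℝ V x‖ - 2 * L / l * d) ^ 2 := by positivity
      have b4 : l / 2 * (ζ x * ‖fderiv ℝ V x‖ - 2 * L / l * d) ^ 2 = l / 2 * (ζ x * ‖fderiv ℝ V x‖) ^ 2 -
          2 * (ζ x * (d * (L * ‖fderiv ℝ V x‖))) + 2 * L ^ 2 / l * d ^ 2 := by
        field_simp; ring
      nlinarith
    · have hx' : x ∉ tsupport ζ := fun h => hx (hs h)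
      rw [fderiv_of_notMem_tsupport ℝ fun h => hx' (ts h), image_eq_zero_of_notMem_tsupport hx'] at a1
      rw [indicator_of_notMem hx, indicator_of_notMem fun h => hx (ball_subset_ball (by linarith) h)]
      simpa using a1
  rw [integral_add hf (ic _), ec, integral_indicator measurableSet_ball, integral_const_mul] at k2
  have k3 := mul_le_mul_of_nonneg_left k1 hK
  set I := ∫ x in ball x₀ (3 / 2 * R), ‖fderiv ℝ V x‖ ^ 2
  set Q := (2 * R) ^ n * volume.real (ball (0 : E n) 1) with hQ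
  have hQ0 : 0 ≤ Q := by positivity
  have k4 : l / 2 * I ≤ K * Q + Q * (2 * L ^ 2 / l * (2 * D / R) ^ 2) := by linarith
  have k5 := mul_le_mul_of_nonneg_left k4 (show 0 ≤ 2 / l * R ^ 2 by positivity)
  have k6 := mul_le_mul_of_nonneg_left hKR (show 0 ≤ 2 / l * Q by positivity)
  calc R ^ 2 * I = 2 / l * R ^ 2 * (l / 2 * I) := by field_simp
    _ ≤ 2 / l * Q * (K * R ^ 2) + 2 / l * (2 * L ^ 2 / l * (2 * D) ^ 2) * Q := by
        refine k5.trans (le_of_eq ?_); field_simp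
    _ ≤ 2 / l * Q * 1 + 2 / l * (2 * L ^ 2 / l * (2 * D) ^ 2) * Q := by linarith
    _ = _ := by rw [hQ, mul_pow]; ring

theorem growth (hn : 2 ≤ n) {l L δ : ℝ} (hl : 0 < l) (hL : l ≤ L) (hδ : 0 < δ) :
    ∃ c₁ : ℝ, 0 < c₁ ∧ ∀ (x₀ : E n) (R K M ℓ : ℝ) (W : E n → ℝ) (Φ : E n → E n),
      0 < R → 0 ≤ K → 0 < ℓ → Sub l L K W Φ (ball x₀ (2 * R)) →
      (∀ x ∈ ball x₀ (2 * R), W x ≤ M) →
      δ * volume.real (ball x₀ R) ≤ volume.real {x | x ∈ ball x₀ R ∧ W x ≤ M - ℓ} →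
      ∀ x ∈ ball x₀ R, c₁ * ℓ ≤ M - W x + K * R ^ 2 := by
  obtain ⟨A, hA, hen⟩ := cgrow_energy (n := n) hl hL
  obtain ⟨Kp, hKp, hpo⟩ := poin_ball n
  obtain ⟨K₁, hK₁, hmo⟩ := moser hn hl hL
  have hc0 : 0 ≤ volume.real (ball (0 : E n) 1) := measureReal_nonneg
  refine ⟨Real.exp (-(K₁ * (2 * (Kp / (δ * (2 / 3) ^ n) * ((3 / 2) ^ 2 * A)) +
      (3 / 2) ^ n * volume.real (ball (0 : E n) 1) * (2 * (Real.log 2 + 1) ^ 2)))), Real.exp_pos _,
    fun x₀ R K M ℓ W Φ hR hK hℓ hS hM hvol x hx => le_of_forall_pos_le_add fun θ hθ => ?_⟩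
  obtain ⟨ε, hεd⟩ : ∃ ε, ε = K * R ^ 2 + θ := ⟨_, rfl⟩
  have hε : 0 < ε := by rw [hεd]; positivity
  have hKR : K / ε * R ^ 2 ≤ 1 := by
    rw [div_mul_eq_mul_div, div_le_one hε]; linarith
  obtain ⟨Φ', hS', H⟩ := cgrow_log isOpen_ball hl hK hε hℓ hS hM
  set V : E n → ℝ := fun x => Real.log (M - W x + ε + ℓ) - Real.log (M - W x + ε) + 1 with hV
  have p1 : ∀ x ∈ ball x₀ (2 * R), 0 < M - W x + ε := fun x hx => by linarith [hM x hx]
  have V1 : ∀ x ∈ ball x₀ (2 * R), 1 ≤ V x := fun x hx => by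
    have := Real.log_le_log (p1 x hx) (show M - W x + ε ≤ M - W x + ε + ℓ by linarith)
    simp only [hV]; linarith
  have e1 := hen x₀ R (K / ε) V Φ' hR (by positivity) hKR hS'.hi H
  have e2 := hpo x₀ (3 / 2 * R) (2 * R) (δ * (2 / 3) ^ n) (Real.log 2 + 1) V (by positivity)
    (by linarith) (by positivity) hS'.cd (by
      refine le_trans (le_of_eq ?_) (hvol.trans (measureReal_mono (fun y hy => ?_)
        (ne_top_of_le_ne_top (measure_ball_lt_top (x := x₀) (r := 3 / 2 * R)).ne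
          (measure_mono fun y hy => hy.1))))
      · rw [cgrow_vol x₀ hR, cgrow_vol x₀ (by positivity), mul_pow]
        have : ((2 : ℝ) / 3) ^ n * (3 / 2) ^ n = 1 := by rw [← mul_pow]; norm_num
        calc _ = δ * ((2 / 3) ^ n * (3 / 2) ^ n) * (R ^ n * volume.real (ball (0 : E n) 1)) := by ring
          _ = _ := by rw [this, mul_one]
      · refine ⟨ball_subset_ball (by linarith) hy.1, ?_⟩
        have a1 : 0 < M - W y + ε := by linarith [hy.2]
        have a2 := Real.log_le_log (by linarith) (show M - W y + ε + ℓ ≤ 2 * (M - W y + ε) by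
          linarith [hy.2])
        rw [Real.log_mul two_ne_zero a1.ne'] at a2
        simp only [hV]; linarith)
  have sub : closedBall x₀ (3 / 2 * R) ⊆ ball x₀ (2 * R) := closedBall_subset_ball (by linarith)
  have i1 : IntegrableOn (fun y => max (V y - (Real.log 2 + 1)) 0 ^ 2) (ball x₀ (3 / 2 * R)) :=
    (((((hS'.cd.continuousOn.mono sub).sub continuousOn_const).sup continuousOn_const).pow
      2).integrableOn_compact (isCompact_closedBall _ _)).mono_set ball_subset_closedBall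
  have i2 : IntegrableOn (fun _ : E n => 2 * (Real.log 2 + 1) ^ 2) (ball x₀ (3 / 2 * R)) :=
    integrableOn_const measure_ball_lt_top.ne
  have e3 : ∫ y in ball x₀ (3 / 2 * R), V y ^ 2 ≤ ∫ y in ball x₀ (3 / 2 * R),
      (2 * max (V y - (Real.log 2 + 1)) 0 ^ 2 + 2 * (Real.log 2 + 1) ^ 2) := by
    refine integral_mono_of_nonneg (.of_forall fun y => sq_nonneg _) ((i1.const_mul _).add i2) ?_
    filter_upwards [ae_restrict_mem measurableSet_ball] with y hy
    have a1 := V1 y (sub (ball_subset_closedBall hy))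
    have a2 := pow_le_pow_left₀ (by linarith : 0 ≤ V y)
      (show V y ≤ max (V y - (Real.log 2 + 1)) 0 + (Real.log 2 + 1) by
        linarith [le_max_left (V y - (Real.log 2 + 1)) 0]) 2
    nlinarith [sq_nonneg (max (V y - (Real.log 2 + 1)) 0 - (Real.log 2 + 1))]
  rw [integral_add (i1.const_mul _) i2, integral_const_mul, setIntegral_const,
    cgrow_vol x₀ (by positivity), smul_eq_mul] at e3
  have e4 := hmo x₀ R (K / ε) V Φ' hR (by positivity) hKR hS' V1 x hx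
  have e5 := mul_le_mul_of_nonneg_left e1 (show 0 ≤ Kp / (δ * (2 / 3) ^ n) * (3 / 2) ^ 2 by positivity)
  have e6 : ∫ y in ball x₀ (3 / 2 * R), V y ^ 2 ≤ (2 * (Kp / (δ * (2 / 3) ^ n) * ((3 / 2) ^ 2 * A)) +
      (3 / 2) ^ n * volume.real (ball (0 : E n) 1) * (2 * (Real.log 2 + 1) ^ 2)) * R ^ n := by
    rw [mul_pow] at e2 e3
    linarith
  have e7 := e4.trans (mul_le_mul_of_nonneg_left e6 (by positivity))
  generalize 2 * (Kp / (δ * (2 / 3) ^ n) * ((3 / 2) ^ 2 * A)) +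
      (3 / 2) ^ n * volume.real (ball (0 : E n) 1) * (2 * (Real.log 2 + 1) ^ 2) = T at e7 ⊢
  have e8 : K₁ / R ^ n * (T * R ^ n) = K₁ * T := by field_simp
  rw [e8] at e7
  have hx2 : x ∈ ball x₀ (2 * R) := ball_subset_ball (by linarith) hx
  have a1 := V1 x hx2
  have a2 := p1 x hx2
  have a3 : Real.log (M - W x + ε + ℓ) + -(K₁ * T) ≤ Real.log (M - W x + ε) := by
    have : V x ≤ V x ^ 2 := by nlinarith
    simp only [hV] at this e7
    linarith
  have a4 := Real.exp_le_exp.2 a3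
  rw [Real.exp_add, Real.exp_log (by linarith), Real.exp_log a2] at a4
  nlinarith [Real.exp_pos (-(K₁ * T))]

end Crest.Agent.R238
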