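import Crest.Agent.R238.Calc

/-!
# R238 / CPoin: Poincaré inequality on balls

For `x ∈ B`, `y ∈ S = {W ≤ ℓ} ∩ B`: `(W x - ℓ)₊² ≤ (W x - W y)²`, so
`δ|B| ∫_B (W-ℓ)₊² ≤ ∫_B∫_B (W x - W y)² ≤ (2R)² ∫₀¹∫_B∫_B |∇W((1-s)x+sy)|²`; for `s ≥ 1/2`
substitute in `y` (Jacobian `s^{-n} ≤ 2^n`, the image stays in the convex set `B`), for `s ≤ 1/2`
in `x`.  So `K = 2^(n+2)` works.  (Working with `lintegral` avoids integrability side goals;
`‖fderiv W‖` is continuous on the larger ball, hence bounded on `B`.)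
-/

set_option autoImplicit false
set_option linter.unusedSectionVars false
open MeasureTheory Matrix Set Metric
open scoped RealInnerProductSpace ContDiff BigOperators

namespace Crest.Agent.R238

variable {n : ℕ}

section

open Filter Topology
open scoped Gradient ENNReal

variable {V : Type} [NormedAddCommGroup V] [InnerProductSpace ℝ V] [FiniteDimensional ℝ V]
  [MeasurableSpace V] [BorelSpace V]

/-- Cauchy-Schwarz on the unit interval -/
theorem cpoin_sq_integral {g : ℝ → ℝ} (hg : Continuous g) :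
    (∫ t in (0 : ℝ)..1, g t) ^ 2 ≤ ∫ t in (0 : ℝ)..1, g t ^ 2 := by
  set c := ∫ t in (0 : ℝ)..1, g t with hc
  have h0 : 0 ≤ ∫ t in (0 : ℝ)..1, (g t - c) ^ 2 :=
    intervalIntegral.integral_nonneg zero_le_one fun t _ => sq_nonneg _
  have h1 : (fun t => (g t - c) ^ 2) = fun t => (g t ^ 2 - 2 * c * g t) + c ^ 2 := by
    funext t
    ring
  rw [h1, intervalIntegral.integral_add (by apply Continuous.intervalIntegrable; fun_prop)
    (by apply Continuous.intervalIntegrable; fun_prop),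
    intervalIntegral.integral_sub (by apply Continuous.intervalIntegrable; fun_prop)
    (by apply Continuous.intervalIntegrable; fun_prop), intervalIntegral.integral_const_mul, ← hc] at h0
  simp only [intervalIntegral.integral_const, sub_zero, smul_eq_mul, one_mul] at h0
  nlinarith

theorem cpoin_cont_grad {φ : V → ℝ} (hφ : ContDiff ℝ 1 φ) : Continuous (∇ φ) :=
  (InnerProductSpace.toDual ℝ V).symm.continuous.comp (hφ.continuous_fderiv one_ne_zero)

/-- the fundamental theorem of calculus along a segment -/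
theorem cpoin_seg {φ : V → ℝ} (hφ : ContDiff ℝ 1 φ) (x y : V) :
    (φ x - φ y) ^ 2 ≤ ‖x - y‖ ^ 2 * ∫ t in (0 : ℝ)..1, ‖∇ φ (x + t • (y - x))‖ ^ 2 := by
  have hc := cpoin_cont_grad hφ
  have hd : ∀ t : ℝ, HasDerivAt (fun t : ℝ => φ (x + t • (y - x))) ⟪∇ φ (x + t • (y - x)), y - x⟫ t := by
    intro t
    have h1 : HasDerivAt (fun t : ℝ => x + t • (y - x)) (y - x) t := by
      simpa using ((hasDerivAt_id' t).smul_const (y - x)).const_add x
    have h2 := ((hφ.differentiable one_ne_zero) (x + t • (y - x))).hasGradientAt.hasFDerivAt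
    have h3 := h2.comp_hasDerivAt t h1
    simpa [Function.comp_def] using h3
  have hcont : Continuous fun t : ℝ => ⟪∇ φ (x + t • (y - x)), y - x⟫ := by fun_prop
  have h1 := intervalIntegral.integral_eq_sub_of_hasDerivAt (a := 0) (b := 1) (fun t _ => hd t)
    (hcont.intervalIntegrable _ _)
  simp only [one_smul, add_sub_cancel, zero_smul, add_zero] at h1
  have h2 := cpoin_sq_integral hcont
  rw [h1] at h2
  have h3 : ∫ t in (0 : ℝ)..1, ⟪∇ φ (x + t • (y - x)), y - x⟫ ^ 2 ≤
      ∫ t in (0 : ℝ)..1, ‖x - y‖ ^ 2 * ‖∇ φ (x + t • (y - x))‖ ^ 2 := by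
    refine intervalIntegral.integral_mono_on zero_le_one (by apply Continuous.intervalIntegrable; fun_prop)
      (by apply Continuous.intervalIntegrable; fun_prop) fun t _ => ?_
    have := abs_real_inner_le_norm (∇ φ (x + t • (y - x))) (y - x)
    rw [← sq_abs, ← mul_pow, norm_sub_rev x y, mul_comm]
    exact pow_le_pow_left₀ (abs_nonneg _) this 2
  rw [intervalIntegral.integral_const_mul] at h3
  calc (φ x - φ y) ^ 2 = (φ y - φ x) ^ 2 := by ring
    _ ≤ _ := h2.trans h3

/-- substitution -/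
theorem cpoin_scale {U : Set V} (hUm : MeasurableSet U) {H : V → ℝ≥0∞} (hH : Measurable H) (a : V) {t : ℝ}
    (ht : 1 / 2 ≤ t) (hm : ∀ y ∈ U, a + t • y ∈ U) :
    ∫⁻ y in U, H (a + t • y) ≤ 2 ^ Module.finrank ℝ V * ∫⁻ z in U, H z := by
  have ht0 : 0 < t := by linarith
  have h1 : ∫⁻ y in U, H (a + t • y) ≤ ∫⁻ y, U.indicator H (a + t • y) := by
    rw [← lintegral_indicator hUm]
    refine lintegral_mono fun y => ?_
    by_cases hy : y ∈ U
    · rw [indicator_of_mem hy, indicator_of_mem (hm y hy)]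
    · rw [indicator_of_notMem hy]
      exact zero_le
  have hI : Measurable fun z => U.indicator H (a + z) := (hH.indicator hUm).comp (by fun_prop)
  have h2 : ∫⁻ y, U.indicator H (a + t • y) = ∫⁻ z, U.indicator H (a + z) ∂(Measure.map (t • ·) volume) := by
    rw [lintegral_map hI (by fun_prop)]
  rw [Measure.map_addHaar_smul volume ht0.ne', lintegral_smul_measure, lintegral_add_left_eq_self,
    lintegral_indicator hUm] at h2
  refine h1.trans ?_
  rw [h2, smul_eq_mul]
  refine mul_le_mul_left ?_ _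
  have h3 : |(t ^ Module.finrank ℝ V)⁻¹| ≤ (2 : ℝ) ^ Module.finrank ℝ V := by
    rw [abs_of_nonneg (by positivity), ← inv_pow]
    refine pow_le_pow_left₀ (by positivity) ?_ _
    rw [inv_le_comm₀ ht0 two_pos]
    linarith
  refine (ENNReal.ofReal_le_ofReal h3).trans ?_
  rw [ENNReal.ofReal_pow zero_le_two]
  simp

theorem cpoin_slice {U : Set V} (hU : Convex ℝ U) (hUm : MeasurableSet U) {H : V → ℝ≥0∞} (hH : Measurable H)
    {t : ℝ} (h0 : 0 ≤ t) (h1 : t ≤ 1) :
    ∫⁻ p : V × V, H (p.1 + t • (p.2 - p.1)) ∂((volume.restrict U).prod (volume.restrict U)) ≤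
      2 ^ Module.finrank ℝ V * (∫⁻ z in U, H z) * volume U := by
  have hm : Measurable fun p : V × V => H (p.1 + t • (p.2 - p.1)) := hH.comp (by fun_prop)
  rcases le_total (1 / 2) t with ht | ht
  · rw [lintegral_prod _ hm.aemeasurable]
    calc _ ≤ ∫⁻ _ in U, 2 ^ Module.finrank ℝ V * (∫⁻ z in U, H z) := by
          refine setLIntegral_mono' hUm fun x hx => ?_
          have e : ∀ y, x + t • (y - x) = (1 - t) • x + t • y := fun y => by module
          simp only [e]
          exact cpoin_scale hUm hH _ ht fun y hy => hU hx hy (by linarith) h0 (by ring)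
      _ = _ := by rw [setLIntegral_const]
  · rw [lintegral_prod_symm _ hm.aemeasurable]
    calc _ ≤ ∫⁻ _ in U, 2 ^ Module.finrank ℝ V * (∫⁻ z in U, H z) := by
          refine setLIntegral_mono' hUm fun y hy => ?_
          have e : ∀ x, x + t • (y - x) = t • y + (1 - t) • x := fun x => by module
          simp only [e]
          exact cpoin_scale hUm hH _ (by linarith) fun x hx => hU hy hx h0 (by linarith) (by ring)
      _ = _ := by rw [setLIntegral_const]

/-- the inequality for smooth functions -/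
theorem cpoin_smooth {U : Set V} (hU : Convex ℝ U) (hUm : MeasurableSet U) {D : ℝ}
    (hD : ∀ x ∈ U, ∀ y ∈ U, ‖x - y‖ ≤ D) {φ : V → ℝ} (hφ : ContDiff ℝ 1 φ) :
    ∫⁻ x in U, ∫⁻ y in U, ENNReal.ofReal ((φ x - φ y) ^ 2) ≤
      ENNReal.ofReal (D ^ 2) * (2 ^ Module.finrank ℝ V * volume U) *
        ∫⁻ z in U, ENNReal.ofReal (‖∇ φ z‖ ^ 2) := by
  have hc := cpoin_cont_grad hφ
  set H : V → ℝ≥0∞ := fun z => ENNReal.ofReal (‖∇ φ z‖ ^ 2) with hHdef
  have hH : Measurable H := (by fun_prop : Continuous fun z => ‖∇ φ z‖ ^ 2).measurable.ennreal_ofReal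
  have hm : Measurable fun q : (V × V) × ℝ => H (q.1.1 + q.2 • (q.1.2 - q.1.1)) := hH.comp (by fun_prop)
  have hm' : Measurable fun p : V × V => ∫⁻ t in Ioc (0 : ℝ) 1, H (p.1 + t • (p.2 - p.1)) :=
    hm.lintegral_prod_right'
  calc ∫⁻ x in U, ∫⁻ y in U, ENNReal.ofReal ((φ x - φ y) ^ 2)
      ≤ ∫⁻ x in U, ∫⁻ y in U, ENNReal.ofReal (D ^ 2) * ∫⁻ t in Ioc (0 : ℝ) 1, H (x + t • (y - x)) := by
        refine setLIntegral_mono' hUm fun x hx => setLIntegral_mono' hUm fun y hy => ?_
        have h1 := cpoin_seg hφ x y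
        have hcont : Continuous fun t : ℝ => ‖∇ φ (x + t • (y - x))‖ ^ 2 := by fun_prop
        have h2 : ENNReal.ofReal (∫ t in (0 : ℝ)..1, ‖∇ φ (x + t • (y - x))‖ ^ 2) =
            ∫⁻ t in Ioc (0 : ℝ) 1, H (x + t • (y - x)) := by
          rw [intervalIntegral.integral_of_le zero_le_one]
          exact ofReal_integral_eq_lintegral_ofReal (hcont.intervalIntegrable 0 1).1
            (Eventually.of_forall fun t => sq_nonneg _)
        rw [← h2, ← ENNReal.ofReal_mul (sq_nonneg _)]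
        refine ENNReal.ofReal_le_ofReal (h1.trans (mul_le_mul_of_nonneg_right ?_ ?_))
        · exact pow_le_pow_left₀ (norm_nonneg _) (hD x hx y hy) 2
        · exact intervalIntegral.integral_nonneg zero_le_one fun t _ => sq_nonneg _
    _ = ∫⁻ p : V × V, ENNReal.ofReal (D ^ 2) * ∫⁻ t in Ioc (0 : ℝ) 1, H (p.1 + t • (p.2 - p.1))
          ∂volume ∂((volume.restrict U).prod (volume.restrict U)) := by
        rw [lintegral_prod _ (hm'.const_mul _).aemeasurable]
    _ = ENNReal.ofReal (D ^ 2) * ∫⁻ t in Ioc (0 : ℝ) 1, ∫⁻ p : V × V, H (p.1 + t • (p.2 - p.1))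
          ∂((volume.restrict U).prod (volume.restrict U)) := by
        rw [lintegral_const_mul _ hm', lintegral_lintegral_swap hm.aemeasurable]
    _ ≤ ENNReal.ofReal (D ^ 2) * ∫⁻ _ in Ioc (0 : ℝ) 1,
          2 ^ Module.finrank ℝ V * (∫⁻ z in U, H z) * volume U := by
        refine mul_le_mul_right (setLIntegral_mono' measurableSet_Ioc fun t ht => ?_) _
        exact cpoin_slice hU hUm hH ht.1.le ht.2
    _ = _ := by
        rw [setLIntegral_const]
        simp only [Real.volume_Ioc, sub_zero, ENNReal.ofReal_one, mul_one]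
        ring

theorem cpoin_glob (x₀ : V) {R δ l : ℝ} {φ : V → ℝ} (hR : 0 < R) (hδ : 0 < δ) (hφ : ContDiff ℝ 1 φ)
    (h : δ * volume.real (ball x₀ R) ≤ volume.real {x | x ∈ ball x₀ R ∧ φ x ≤ l}) :
    ∫ x in ball x₀ R, (max (φ x - l) 0) ^ 2 ≤
      2 ^ (Module.finrank ℝ V + 2) / δ * R ^ 2 * ∫ x in ball x₀ R, ‖fderiv ℝ φ x‖ ^ 2 := by
  have hc := hφ.continuous
  have hc' := hφ.continuous_fderiv one_ne_zero
  have hS : MeasurableSet {x | x ∈ ball x₀ R ∧ φ x ≤ l} :=
    measurableSet_ball.inter (isClosed_le hc continuous_const).measurableSet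
  have hi : ∀ g : V → ℝ, Continuous g → (∀ x, 0 ≤ g x) →
      ∫⁻ x in ball x₀ R, ENNReal.ofReal (g x) = ENNReal.ofReal (∫ x in ball x₀ R, g x) := fun g hg h0 =>
    (ofReal_integral_eq_lintegral_ofReal
      ((hg.continuousOn.integrableOn_compact (isCompact_closedBall x₀ R)).mono_set ball_subset_closedBall)
      (Eventually.of_forall h0)).symm
  have h1 := cpoin_smooth (convex_ball x₀ R) measurableSet_ball (D := 2 * R) (fun x hx y hy => by
    rw [← dist_eq_norm]
    linarith [dist_triangle_right x y x₀, mem_ball.1 hx, mem_ball.1 hy]) hφ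
  have h2 : (∫⁻ x in ball x₀ R, ENNReal.ofReal ((max (φ x - l) 0) ^ 2)) * volume {x | x ∈ ball x₀ R ∧ φ x ≤ l} ≤
      ∫⁻ x in ball x₀ R, ∫⁻ y in ball x₀ R, ENNReal.ofReal ((φ x - φ y) ^ 2) := by
    rw [← lintegral_mul_const _ (by fun_prop)]
    refine lintegral_mono fun x => ?_
    rw [← setLIntegral_const]
    refine le_trans (setLIntegral_mono' hS fun y hy => ENNReal.ofReal_le_ofReal ?_)
      (lintegral_mono_set fun y hy => hy.1)
    rcases le_total (φ x - l) 0 with h3 | h3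
    · rw [max_eq_right h3, zero_pow two_ne_zero]
      exact sq_nonneg _
    · rw [max_eq_left h3]
      exact pow_le_pow_left₀ h3 (by linarith [hy.2]) 2
  have e : ∀ z, ‖∇ φ z‖ = ‖fderiv ℝ φ z‖ := fun z => LinearIsometryEquiv.norm_map _ _
  have h3 := h2.trans h1
  simp only [e] at h3
  rw [hi _ (by fun_prop) fun x => sq_nonneg _, hi _ (by fun_prop) fun x => sq_nonneg _] at h3
  have hB : volume (ball x₀ R) ≠ ⊤ := measure_ball_lt_top.ne
  have h4 := ENNReal.toReal_mono (by finiteness) h3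
  have hI : 0 ≤ ∫ x in ball x₀ R, (max (φ x - l) 0) ^ 2 := integral_nonneg fun x => sq_nonneg _
  have hJ : 0 ≤ ∫ x in ball x₀ R, ‖fderiv ℝ φ x‖ ^ 2 := integral_nonneg fun x => sq_nonneg _
  simp only [ENNReal.toReal_mul, ENNReal.toReal_ofReal hI, ENNReal.toReal_ofReal hJ,
    ENNReal.toReal_ofReal (sq_nonneg (2 * R)), ENNReal.toReal_pow, ENNReal.toReal_ofNat] at h4
  have hB0 : 0 < volume.real (ball x₀ R) := ENNReal.toReal_pos (measure_ball_pos _ _ hR).ne' hB
  have h5 := (mul_le_mul_of_nonneg_left h hI).trans h4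
  rw [div_mul_eq_mul_div, div_mul_eq_mul_div, le_div_iff₀ hδ]
  refine le_of_mul_le_mul_right ?_ hB0
  rw [mul_assoc]
  refine h5.trans_eq ?_
  rw [Measure.real]
  ring

end

theorem poin_ball (n : ℕ) : ∃ K : ℝ, 0 ≤ K ∧ ∀ (x₀ : E n) (R R' δ l : ℝ) (W : E n → ℝ),
    0 < R → R < R' → 0 < δ → ContDiffOn ℝ 1 W (ball x₀ R') →
    δ * volume.real (ball x₀ R) ≤ volume.real {x | x ∈ ball x₀ R ∧ W x ≤ l} →
    ∫ x in ball x₀ R, (max (W x - l) 0) ^ 2 ≤
      K / δ * R ^ 2 * ∫ x in ball x₀ R, ‖fderiv ℝ W x‖ ^ 2 := by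
  refine ⟨2 ^ (Module.finrank ℝ (E n) + 2), by positivity, fun x₀ R R' δ l W hR hR' hδ hW h => ?_⟩
  let χ : ContDiffBump x₀ := ⟨R, (R + R') / 2, hR, by linarith⟩
  have hφ : ContDiff ℝ 1 fun x => χ x * W x := by
    refine contDiff_iff_contDiffAt.2 fun x => ?_
    by_cases hx : x ∈ ball x₀ R'
    · exact χ.contDiff.contDiffAt.mul (hW.contDiffAt (isOpen_ball.mem_nhds hx))
    · have h0 : (χ : E n → ℝ) =ᶠ[nhds x] 0 := notMem_tsupport_iff_eventuallyEq.1 fun h => hx (by
        rw [χ.tsupport_eq] at h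
        exact closedBall_subset_ball (show (R + R') / 2 < R' by linarith) h)
      refine (contDiffAt_const (c := (0 : ℝ))).congr_of_eventuallyEq ?_
      filter_upwards [h0] with y hy
      simp [hy]
  have e1 : ∀ x ∈ ball x₀ R, χ x * W x = W x := fun x hx => by
    rw [χ.one_of_mem_closedBall (ball_subset_closedBall hx), one_mul]
  have e2 : ∀ x ∈ ball x₀ R, fderiv ℝ (fun x => χ x * W x) x = fderiv ℝ W x := fun x hx =>
    Filter.EventuallyEq.fderiv_eq (Filter.eventually_of_mem (isOpen_ball.mem_nhds hx) e1)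
  have e3 : {x | x ∈ ball x₀ R ∧ χ x * W x ≤ l} = {x | x ∈ ball x₀ R ∧ W x ≤ l} :=
    Set.ext fun x => and_congr_right fun hx => by rw [e1 x hx]
  have key := cpoin_glob x₀ hR hδ hφ (l := l) (e3 ▸ h)
  rwa [setIntegral_congr_fun measurableSet_ball (g := fun x => (max (W x - l) 0) ^ 2)
      (fun x hx => by simp only [e1 x hx]),
    setIntegral_congr_fun measurableSet_ball (f := fun x => ‖fderiv ℝ (fun x => χ x * W x) x‖ ^ 2)
      (g := fun x => ‖fderiv ℝ W x‖ ^ 2)
      (fun x hx => by simp only [e2 x hx])] at key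

end Crest.Agent.R238
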