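import Crest.Agent.R238.MatL
import Crest.Agent.R238.AnMat2
import Crest.Agent.R238.AnInv

/-!
# R238 / MatD: `log det` (concavity, Jacobi formula along a segment) and the net lemma
-/

set_option autoImplicit false
open MeasureTheory Matrix Set Metric
open scoped RealInnerProductSpace ContDiff BigOperators

namespace Crest.Agent.R238

variable {n : ℕ}

theorem matd_ell {c C : ℝ} {A : Mat n} (hA : Ell c C A) : An.Ell A c C :=
  ⟨Matrix.IsSymm.ext fun i j => hA.symm j i, fun ξ => ⟨hA.lo ξ, hA.hi ξ⟩⟩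

theorem matd_seg (A X : Mat n) (s : ℝ) : (1 - s) • A + s • X = A + s • (X - A) := by
  rw [smul_sub, sub_smul, one_smul]; abel

/-- the spectral theorem for a symmetric matrix -/
theorem matd_spec {K : Mat n} (hK : K.IsSymm) :
    ∃ (U : Mat n) (l : Fin n → ℝ), U * Uᵀ = 1 ∧ Uᵀ * U = 1 ∧ K = U * diagonal l * Uᵀ := by
  have hb : ∀ i j, |K i j| ≤ ∑ i, ∑ j, |K i j| := fun i j =>
    (Finset.single_le_sum (f := fun j => |K i j|) (fun _ _ => abs_nonneg _)
      (Finset.mem_univ j)).trans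
      (Finset.single_le_sum (f := fun i => ∑ j, |K i j|)
        (fun _ _ => Finset.sum_nonneg fun _ _ => abs_nonneg _) (Finset.mem_univ i))
  have hE : An.Ell K (-(n * ∑ i, ∑ j, |K i j|)) (n * ∑ i, ∑ j, |K i j|) := by
    refine ⟨hK, fun ξ => ?_⟩
    have := abs_le.1 (An.abs_quad_le hb ξ)
    constructor <;> linarith [this.1, this.2]
  obtain ⟨U, l, h1, h2, h3, -⟩ := An.m2_spec hE
  exact ⟨U, l, h1, h2, h3⟩

/-- diagonal entries of `Uᵀ T U` -/
theorem matd_diag (U T : Mat n) (i : Fin n) :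
    (Uᵀ * T * U) i i = (fun k => U k i) ⬝ᵥ T *ᵥ (fun k => U k i) := by
  simp only [Matrix.mul_apply, Matrix.transpose_apply, dotProduct, Matrix.mulVec, Finset.sum_mul,
    Finset.mul_sum]
  rw [Finset.sum_comm]
  exact Finset.sum_congr rfl fun _ _ => Finset.sum_congr rfl fun _ _ => by ring

theorem matd_col {U : Mat n} (h2 : Uᵀ * U = 1) (i : Fin n) :
    (fun k => U k i) ⬝ᵥ (fun k => U k i) = 1 := by
  have := congrFun (congrFun h2 i) i
  simpa [Matrix.mul_apply, dotProduct] using this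

theorem matd_conj {U : Mat n} (h2 : Uᵀ * U = 1) (l : Fin n → ℝ) :
    Uᵀ * (U * diagonal l * Uᵀ) * U = diagonal l := by
  calc Uᵀ * (U * diagonal l * Uᵀ) * U = (Uᵀ * U) * diagonal l * (Uᵀ * U) := by
        simp only [Matrix.mul_assoc]
    _ = diagonal l := by rw [h2, Matrix.one_mul, Matrix.mul_one]

/-- concavity of `log det` (frame with `A⁻¹ = B Bᵀ`, `Bᵀ X B` diagonal; `log k ≤ k - 1`). -/
theorem logdet_le {c C : ℝ} {A X : Mat n} (hA : Ell c C A) (hX : Ell c C X) (hc : 0 < c) :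
    Real.log X.det ≤ Real.log A.det + (A⁻¹ * (X - A)).trace := by
  have hA' := matd_ell hA
  have hX' := matd_ell hX
  obtain ⟨b, -, hb⟩ := An.exists_root (n := n) c C hc
  obtain ⟨B, B', hB, h1, h2, -, -⟩ := hb A hA'
  have hinv : A⁻¹ = B'ᵀ * B' := by
    apply Matrix.inv_eq_right_inv
    calc A * (B'ᵀ * B') = B * (B' * B)ᵀ * B' := by
          rw [← hB, Matrix.transpose_mul]; simp only [Matrix.mul_assoc]
      _ = 1 := by rw [h2, Matrix.transpose_one, Matrix.mul_one, h1]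
  have hM : (B' * X * B'ᵀ).IsSymm := by
    unfold Matrix.IsSymm
    rw [Matrix.transpose_mul, Matrix.transpose_mul, Matrix.transpose_transpose, hX'.1.eq,
      Matrix.mul_assoc]
  obtain ⟨U, l, hU1, hU2, hU3⟩ := matd_spec hM
  have hdA := hA'.det_pos hc
  have hdX := hX'.det_pos hc
  have hdet : ∏ i, l i = X.det / A.det := by
    rw [← An.m2_det hU1 l, ← hU3, Matrix.det_mul, Matrix.det_mul, Matrix.det_transpose,
      eq_div_iff hdA.ne', ← hB, Matrix.det_mul, Matrix.det_transpose]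
    have e : B.det * B'.det = 1 := by rw [← Matrix.det_mul, h1, Matrix.det_one]
    calc B'.det * X.det * B'.det * (B.det * B.det) = X.det * (B.det * B'.det) ^ 2 := by ring
      _ = X.det := by rw [e]; ring
  have hl0 : ∀ i, 0 ≤ l i := by
    intro i
    have e1 : l i = ((B'ᵀ * U)ᵀ * X * (B'ᵀ * U)) i i := by
      have : (B'ᵀ * U)ᵀ * X * (B'ᵀ * U) = Uᵀ * (B' * X * B'ᵀ) * U := by
        rw [Matrix.transpose_mul, Matrix.transpose_transpose]; simp only [Matrix.mul_assoc]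
      rw [this, hU3, matd_conj hU2, diagonal_apply_eq]
    rw [e1, matd_diag]
    exact le_trans (mul_nonneg hc.le (An.amat_nn _)) (hX.lo _)
  have hne : ∏ i, l i ≠ 0 := by rw [hdet]; positivity
  have hpos : ∀ i, 0 < l i := fun i =>
    lt_of_le_of_ne (hl0 i) (Finset.prod_ne_zero_iff.1 hne i (Finset.mem_univ i)).symm
  have htr : (A⁻¹ * (X - A)).trace = ∑ i, (l i - 1) := by
    rw [Matrix.mul_sub, hA'.inv_mul hc, Matrix.trace_sub, Matrix.trace_one, Finset.sum_sub_distrib,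
      ← An.m2_trace hU2 l, ← hU3, hinv, Matrix.mul_assoc B'ᵀ, Matrix.trace_mul_comm B'ᵀ]
    simp
  have hlog : Real.log X.det - Real.log A.det = ∑ i, Real.log (l i) := by
    rw [← Real.log_div hdX.ne' hdA.ne', ← hdet, Real.log_prod fun i _ => (hpos i).ne']
  have : ∑ i, Real.log (l i) ≤ ∑ i, (l i - 1) :=
    Finset.sum_le_sum fun i _ => Real.log_le_sub_one_of_pos (hpos i)
  linarith

/-- Jacobi along a segment.  E.g. `g s = log det ((1-s)A + sX)` is differentiable (`det` is a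
polynomial, `det > 0`), and by `logdet_le` the function
`s' ↦ g s' - (s'-s) tr(A_s⁻¹ (X-A))` is maximal at `s' = s` on `[0,1]`, so
`g' s = tr(A_s⁻¹ (X-A))` on `(0,1)`; or use `Matrix.det_one_add_smul`.  Then FTC. -/
theorem logdet_diff {c C : ℝ} {A X : Mat n} (hA : Ell c C A) (hX : Ell c C X) (hc : 0 < c) :
    Real.log X.det - Real.log A.det = ∑ i, ∑ j, avgInv A X i j * (X - A) i j := by
  rw [An.logdet_sub (matd_ell hA) (matd_ell hX) hc]
  simp only [avgInv, Matrix.of_apply, matd_seg, Matrix.sub_apply]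

theorem avgInv_self (A : Mat n) : avgInv A A = A⁻¹ := by
  ext i j
  simp [avgInv, matd_seg]

/-- `X⁻¹ - Y⁻¹ = X⁻¹ (Y - X) Y⁻¹` -/
theorem avgInv_lip {c C : ℝ} (hc : 0 < c) (hC : c ≤ C) {A X A' X' : Mat n} (hA : Ell c C A)
    (hX : Ell c C X) (hA' : Ell c C A') (hX' : Ell c C X') {η : ℝ}
    (h1 : ∀ i j, |A i j - A' i j| ≤ η) (h2 : ∀ i j, |X i j - X' i j| ≤ η) (i j : Fin n) :
    |avgInv A X i j - avgInv A' X' i j| ≤ (n : ℝ) ^ 2 * c⁻¹ ^ 2 * η := by
  have _ := hC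
  have hcont : ∀ {A X : Mat n}, Ell c C A → Ell c C X →
      IntervalIntegrable (fun s : ℝ => (A + s • (X - A))⁻¹ i j) volume 0 1 := by
    intro A X hA hX
    apply ContinuousOn.intervalIntegrable
    rw [uIcc_of_le zero_le_one]
    refine An.continuousOn_inv_curve (a := fun s : ℝ => A + s • (X - A)) (fun a b => ?_)
      (fun s hs => ?_) i j
    · simp only [Matrix.add_apply, Matrix.smul_apply, smul_eq_mul]
      fun_prop
    · exact (((matd_ell hA).convex (matd_ell hX) hs.1 hs.2).det_pos hc).ne'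
  simp only [avgInv, Matrix.of_apply, matd_seg]
  rw [← intervalIntegral.integral_sub (hcont hA hX) (hcont hA' hX'), ← Real.norm_eq_abs]
  have key := intervalIntegral.norm_integral_le_of_norm_le_const (a := 0) (b := 1)
    (f := fun s : ℝ => (A + s • (X - A))⁻¹ i j - (A' + s • (X' - A'))⁻¹ i j)
    (C := (n : ℝ) ^ 2 * c⁻¹ ^ 2 * η) (fun s hs => by
      rw [uIoc_of_le zero_le_one] at hs
      have h := An.Ell.inv_sub (δ := η) ((matd_ell hA).convex (matd_ell hX) hs.1.le hs.2)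
        ((matd_ell hA').convex (matd_ell hX') hs.1.le hs.2) hc (fun a b => by
          simp only [Matrix.add_apply, Matrix.smul_apply, Matrix.sub_apply, smul_eq_mul]
          have e1 := abs_le.1 (h1 a b)
          have e2 := abs_le.1 (h2 a b)
          have s0 := hs.1.le
          have s1 : 0 ≤ 1 - s := by linarith [hs.2]
          rw [abs_le]
          constructor <;> nlinarith [mul_le_mul_of_nonneg_left e1.1 s1,
            mul_le_mul_of_nonneg_left e1.2 s1, mul_le_mul_of_nonneg_left e2.1 s0,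
            mul_le_mul_of_nonneg_left e2.2 s0]) i j
      rw [Real.norm_eq_abs]
      calc _ ≤ _ := h
        _ = _ := by ring)
  simpa using key

/-- a unit vector close to the `i`-th eigenvector almost sees the `i`-th eigenvalue -/
theorem matd_near {U : Mat n} (h1 : U * Uᵀ = 1) (h2 : Uᵀ * U = 1) {l : Fin n → ℝ} {ν σ : ℝ}
    (hl : ∀ j, |l j| ≤ ν) (i : Fin n) {e : E n} (he : ‖e‖ = 1)
    (hd : ‖(WithLp.toLp 2 fun k => U k i : E n) - e‖ ^ 2 ≤ σ) :
    l i ≤ e.ofLp ⬝ᵥ (U * diagonal l * Uᵀ) *ᵥ e.ofLp + 2 * ν * σ := by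
  have hν : 0 ≤ ν := (abs_nonneg _).trans (hl i)
  have he1 : e.ofLp ⬝ᵥ e.ofLp = 1 := by
    have := EuclideanSpace.real_norm_sq_eq e
    rw [he] at this
    simp only [dotProduct, ← sq]
    linarith
  have hy : ∑ j, (Uᵀ *ᵥ e.ofLp) j ^ 2 = 1 := by rw [← An.m2_norm h1, he1]
  have hu := matd_col h2 i
  have hyi : 2 - 2 * (Uᵀ *ᵥ e.ofLp) i ≤ σ := by
    rw [EuclideanSpace.real_norm_sq_eq] at hd
    have e1 : ∑ k, ((WithLp.toLp 2 fun k => U k i : E n) - e).ofLp k ^ 2 =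
        (fun k => U k i) ⬝ᵥ (fun k => U k i) - 2 * (Uᵀ *ᵥ e.ofLp) i + e.ofLp ⬝ᵥ e.ofLp := by
      simp only [dotProduct, Matrix.mulVec, Matrix.transpose_apply, Finset.mul_sum,
        ← Finset.sum_sub_distrib, ← Finset.sum_add_distrib, PiLp.sub_apply]
      exact Finset.sum_congr rfl fun k _ => by ring
    rw [e1, hu, he1] at hd
    linarith
  rw [An.m2_quad]
  generalize Uᵀ *ᵥ e.ofLp = y at hy hyi
  have hs := Finset.single_le_sum (f := fun j => (l j - l i + 2 * ν) * y j ^ 2)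
    (fun j _ => mul_nonneg (by linarith [(abs_le.1 (hl j)).1, (abs_le.1 (hl i)).2]) (sq_nonneg _))
    (Finset.mem_univ i)
  have e2 : ∑ j, (l j - l i + 2 * ν) * y j ^ 2 =
      ∑ j, l j * y j ^ 2 + (2 * ν - l i) * ∑ j, y j ^ 2 := by
    rw [Finset.mul_sum, ← Finset.sum_add_distrib]
    exact Finset.sum_congr rfl fun j _ => by ring
  simp only [e2, hy] at hs
  have h3 : 1 - y i ^ 2 ≤ σ := by nlinarith [sq_nonneg (1 - y i)]
  nlinarith [mul_le_mul_of_nonneg_left h3 hν]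

/-- Net lemma.  Let `D = X - A` with eigenvalues `λ_i`, `λ⁺ = max(λ_max,0)`, `ν = max |λ_i|`.
In an orthonormal eigenbasis `tr(A⁻¹ D) = Σ (A⁻¹)_{ii} λ_i` with `(A⁻¹)_{ii} ∈ [1/C, 1/c]`, so
`ν ≤ K₁ (λ⁺ + η)` with `K₁ = n C/c + C + 1`.  Take a finite `δ`-net `e_k` of the unit sphere with
`2 δ K₁ ≤ 1/2`: `λ⁺ ≤ η + 2 δ ν`.  Hence `ν ≤ 4 K₁ η`, and entries are bounded by `ν`. -/
theorem net_lemma (n : ℕ) {c C : ℝ} (hc : 0 < c) (hC : c ≤ C) :
    ∃ (N : ℕ) (e : Fin N → E n) (K : ℝ), 0 ≤ K ∧ (∀ k, ‖e k‖ = 1) ∧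
      ∀ (A X : Mat n) (η : ℝ), Ell c C A → Ell c C X → 0 ≤ η →
        (∀ k, (e k).ofLp ⬝ᵥ ((X - A) *ᵥ (e k).ofLp) ≤ η) → -η ≤ (A⁻¹ * (X - A)).trace →
        ∀ i j, |X i j - A i j| ≤ K * η := by
  have hC0 : 0 < C := hc.trans_le hC
  obtain ⟨K₁, hK₁⟩ : ∃ K₁ : ℝ, K₁ = n * (C * c⁻¹) + C + 1 := ⟨_, rfl⟩
  have hK0 : 0 < K₁ := by rw [hK₁]; positivity
  have hδ : 0 < √(1 / (4 * K₁)) := Real.sqrt_pos.2 (by positivity)
  obtain ⟨t, ht1, ht2, ht3⟩ := (isCompact_sphere (0 : E n) 1).finite_cover_balls hδ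
  obtain ⟨N, e, -, he⟩ := ht2.fin_param
  have hen : ∀ k, ‖e k‖ = 1 := fun k => by
    have : e k ∈ sphere (0 : E n) 1 := ht1 (he ▸ mem_range_self k)
    simpa using this
  refine ⟨N, e, 4 * K₁, by positivity, hen, fun A X η hA hX hη hnet htr i j => ?_⟩
  have hD : (X - A).IsSymm := (matd_ell hX).1.sub (matd_ell hA).1
  obtain ⟨U, l, h1, h2, h3⟩ := matd_spec hD
  obtain ⟨i₀, -, hi₀⟩ := Finset.exists_max_image Finset.univ (fun j => |l j|) ⟨i, Finset.mem_univ i⟩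
  obtain ⟨ν, hν⟩ : ∃ ν, ν = |l i₀| := ⟨_, rfl⟩
  have hl : ∀ j, |l j| ≤ ν := fun j => hν ▸ hi₀ j (Finset.mem_univ j)
  have hν0 : 0 ≤ ν := hν ▸ abs_nonneg _
  obtain ⟨μ, hμ⟩ : ∃ μ, μ = η + 2 * ν * (1 / (4 * K₁)) := ⟨_, rfl⟩
  have hμ0 : 0 ≤ μ := by rw [hμ]; positivity
  have hup : ∀ j, l j ≤ μ := by
    intro j
    have hu : (WithLp.toLp 2 fun k => U k j : E n) ∈ sphere (0 : E n) 1 := by
      have h4 := EuclideanSpace.real_norm_sq_eq (WithLp.toLp 2 fun k => U k j : E n)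
      have h5 := matd_col h2 j
      simp only [dotProduct, ← sq] at h5
      simp only [h5] at h4
      rw [mem_sphere_zero_iff_norm]
      exact (sq_eq_sq₀ (norm_nonneg _) zero_le_one).1 (by rw [h4]; norm_num)
    obtain ⟨x, hx, hb⟩ := mem_iUnion₂.1 (ht3 hu)
    obtain ⟨k, rfl⟩ : x ∈ range e := he ▸ hx
    rw [mem_ball, dist_eq_norm] at hb
    have hd : ‖(WithLp.toLp 2 fun k => U k j : E n) - e k‖ ^ 2 ≤ 1 / (4 * K₁) := by
      have := pow_le_pow_left₀ (norm_nonneg _) hb.le 2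
      rwa [Real.sq_sqrt (by positivity)] at this
    have h6 := matd_near h1 h2 hl j (hen k) hd
    rw [← h3] at h6
    linarith [hnet k]
  have hT := (matd_ell hA).inv hc hC0
  have htr2 : (A⁻¹ * (X - A)).trace = ∑ j, (Uᵀ * A⁻¹ * U) j j * l j := by
    rw [h3, ← Matrix.mul_assoc, Matrix.trace_mul_comm, ← Matrix.mul_assoc, ← Matrix.mul_assoc]
    simp only [Matrix.trace, Matrix.diag_apply, Matrix.mul_diagonal]
  have ha : ∀ j, C⁻¹ ≤ (Uᵀ * A⁻¹ * U) j j ∧ (Uᵀ * A⁻¹ * U) j j ≤ c⁻¹ := by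
    intro j
    have := hT.2 fun k => U k j
    rw [matd_col h2, mul_one, mul_one] at this
    rwa [matd_diag]
  rw [htr2] at htr
  generalize Uᵀ * A⁻¹ * U = T at htr ha
  have hCi : 0 < C⁻¹ := inv_pos.2 hC0
  have hci : 0 < c⁻¹ := inv_pos.2 hc
  have hterm : ∀ j, T j j * l j ≤ c⁻¹ * μ := fun j =>
    (mul_le_mul_of_nonneg_left (hup j) (hCi.le.trans (ha j).1)).trans
      (mul_le_mul_of_nonneg_right (ha j).2 hμ0)
  have hsum : -η ≤ T i₀ i₀ * l i₀ + n * (c⁻¹ * μ) := by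
    have hs := Finset.single_le_sum (f := fun j => c⁻¹ * μ - T j j * l j)
      (fun j _ => sub_nonneg.2 (hterm j)) (Finset.mem_univ i₀)
    simp only [Finset.sum_sub_distrib, Finset.sum_const, Finset.card_univ, Fintype.card_fin,
      nsmul_eq_mul] at hs
    have : 0 ≤ c⁻¹ * μ := by positivity
    linarith
  have hnn : 0 ≤ (n : ℝ) * (C * c⁻¹) := by positivity
  have hνK : ν ≤ K₁ * (μ + η) := by
    rcases le_total 0 (l i₀) with h | h
    · rw [abs_of_nonneg h] at hν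
      have := hup i₀
      rw [hK₁]
      nlinarith [mul_nonneg hnn hμ0, mul_nonneg hnn hη, mul_nonneg hC0.le hμ0, mul_nonneg hC0.le hη]
    · rw [abs_of_nonpos h] at hν
      have h7 : C⁻¹ * ν ≤ η + n * (c⁻¹ * μ) := by
        have := mul_le_mul_of_nonneg_right (ha i₀).1 hν0
        rw [hν] at this ⊢
        linarith
      have h8 : ν ≤ C * (η + n * (c⁻¹ * μ)) := by
        have := mul_le_mul_of_nonneg_left h7 hC0.le
        rwa [← mul_assoc, mul_inv_cancel₀ hC0.ne', one_mul] at this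
      rw [hK₁]
      nlinarith [mul_nonneg hnn hμ0, mul_nonneg hnn hη, mul_nonneg hC0.le hμ0, mul_nonneg hC0.le hη]
  have hfin : ν ≤ 4 * K₁ * η := by
    have e : K₁ * (μ + η) = 2 * K₁ * η + ν / 2 := by rw [hμ]; field_simp; ring
    linarith
  have hE := An.m2_ell h1 (l := l) (lo := -ν) (hi := ν) fun j => abs_le.1 (hl j)
  rw [← h3] at hE
  have := An.amat_entry (η := ν) hD (fun ξ => by
    have := hE.2 ξ
    constructor <;> linarith [this.1, this.2]) i j
  rw [Matrix.sub_apply] at this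
  exact this.trans hfin

end Crest.Agent.R238
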