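import Crest.Agent.R238.PotL
import Crest.Agent.R238.MatD

/-!
# R238 / CSub: second difference quotients are subsolutions

`v = dq2 u e h` is `C¹` with gradient `h⁻²(G(x+he) + G(x-he) - 2G x)`, a Lipschitz map.  Flux
`Φ x = rho φ x • (jac G x)⁻¹ ∇v x`.  For a.e. `x` (translate the null sets by `±he`), `G` is
differentiable and the equation holds at `x`, `x ± he`; `logdet_le` at `A = jac G x` gives
`tr(τ D²v) - x·∇v ≥ h⁻²[h ⟪e, G(x+he) - G(x-he)⟫] - v - dq2 φ ≥ -(C + β)` (`Quad.mono`,
`Quad.dq2_bounds` for `u` and for `φ` via `Pot.quad`).  `Weak.stein` with `F = η · ∂_d v`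
(Lipschitz with compact support: product of a `C¹_c` function and a Lipschitz function; product rule
a.e.), summed over `d`: `∫ dη(Φ) = -∫ rho η (tr(τ D²v) - x·∇v) ≤ (C+β) sup rho ∫ η`.
Ellipticity: `l = m/C`, `L = M/c` with `Pot.rho_bounds`, `Ell.inv`, `Ell.mulVec_sq`.
-/

set_option autoImplicit false
open MeasureTheory Matrix Set Metric
open scoped RealInnerProductSpace ContDiff BigOperators

namespace Crest.Agent.R238

variable {n : ℕ}

/-- second difference of a scalar function -/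
noncomputable def csub_sd (f : E n → ℝ) (a : E n) (k : ℝ) (y : E n) : ℝ := (f (y + a) + f (y - a) - 2 * f y) / k

theorem csub_d2 {f : E n → ℝ} {a x : E n} (k : ℝ) (h0 : DifferentiableAt ℝ f x)
    (h1 : DifferentiableAt ℝ f (x + a)) (h2 : DifferentiableAt ℝ f (x - a)) :
    DifferentiableAt ℝ (csub_sd f a k) x ∧ ∀ i, pd i (csub_sd f a k) x = csub_sd (pd i f) a k x := by
  have a1 : HasFDerivAt (fun y => f (y + a)) (fderiv ℝ f (x + a)) x :=
    (hasFDerivAt_comp_add_right a).2 h1.hasFDerivAt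
  have a2 : HasFDerivAt (fun y => f (y - a)) (fderiv ℝ f (x - a)) x :=
    (hasFDerivAt_comp_sub a).2 h2.hasFDerivAt
  have a3 := ((a1.add a2).sub (h0.hasFDerivAt.const_mul 2)).const_mul k⁻¹
  have e : csub_sd f a k = fun y => k⁻¹ * (f (y + a) + f (y - a) - 2 * f y) := by
    funext y
    rw [csub_sd, div_eq_inv_mul]
  have a4 : HasFDerivAt (csub_sd f a k) _ x := e ▸ a3
  refine ⟨a4.differentiableAt, fun i => ?_⟩
  rw [pd, a4.fderiv]
  simp only [csub_sd, pd, div_eq_inv_mul]
  simp

theorem csub_pdG {G : E n → E n} {x : E n} (h : DifferentiableAt ℝ G x) (d : Fin n) :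
    DifferentiableAt ℝ (fun y => G y d) x ∧ ∀ e, pd e (fun y => G y d) x = jac G x d e := by
  have a1 : HasFDerivAt (fun y => G y d) _ x :=
    (EuclideanSpace.proj (𝕜 := ℝ) d).hasFDerivAt.comp x h.hasFDerivAt
  refine ⟨a1.differentiableAt, fun e => ?_⟩
  rw [pd, a1.fderiv]
  rfl

theorem csub_tr {c C : ℝ} {A X Y : Mat n} (hA : Ell c C A) (hX : Ell c C X) (hY : Ell c C Y) (hc : 0 < c) :
    Real.log X.det + Real.log Y.det - 2 * Real.log A.det ≤
      ∑ d, ∑ e, A⁻¹ d e * (X d e + Y d e - 2 * A d e) := by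
  have h1 := logdet_le hA hX hc
  have h2 := logdet_le hA hY hc
  have e : (A⁻¹ * (X - A)).trace + (A⁻¹ * (Y - A)).trace =
      ∑ d, ∑ e, A⁻¹ d e * (X d e + Y d e - 2 * A d e) := by
    simp only [Matrix.trace, Matrix.diag_apply, Matrix.mul_apply, Matrix.sub_apply, ← Finset.sum_add_distrib]
    refine Finset.sum_congr rfl fun d _ => Finset.sum_congr rfl fun e _ => ?_
    rw [hA.symm e d, hX.symm e d, hY.symm e d]
    ring
  linarith

theorem csub_lipmul {f g : E n → ℝ} {K K' : NNReal} {M M' : ℝ} (hf : LipschitzWith K f)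
    (hg : LipschitzWith K' g) (bf : ∀ x, |f x| ≤ M) (bg : ∀ x, |g x| ≤ M') :
    ∃ L : NNReal, LipschitzWith L fun x => f x * g x := by
  refine ⟨(K * M' + M * K').toNNReal, LipschitzWith.of_dist_le_mul fun x y => ?_⟩
  have h1 := hf.dist_le_mul x y
  have h2 := hg.dist_le_mul x y
  rw [Real.dist_eq] at h1 h2 ⊢
  have h3 : f x * g x - f y * g y = (f x - f y) * g x + f y * (g x - g y) := by ring
  have h4 := abs_add_le ((f x - f y) * g x) (f y * (g x - g y))
  rw [abs_mul, abs_mul] at h4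
  have h5 := mul_le_mul h1 (bg x) (abs_nonneg _) (by positivity)
  have h6 := mul_le_mul (bf y) h2 (abs_nonneg _) ((abs_nonneg _).trans (bf y))
  have h7 := mul_le_mul_of_nonneg_right (Real.le_coe_toNNReal (K * M' + M * K')) (dist_nonneg (x := x) (y := y))
  rw [h3]
  linarith

theorem csub_lip {c C : ℝ} {u : E n → ℝ} {G : E n → E n} (hq : Quad c C u G) (a : E n) (k : ℝ) (d : Fin n) :
    (∃ K, LipschitzWith K (csub_sd (fun y => G y d) a k)) ∧
      ∃ M, ∀ y, |csub_sd (fun y => G y d) a k y| ≤ M := by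
  have h1 : ∀ x y, |G x d - G y d| ≤ C * ‖x - y‖ := fun x y =>
    (PiLp.norm_apply_le (G x - G y) d).trans (hq.lip x y)
  refine ⟨⟨(4 * C / |k|).toNNReal, LipschitzWith.of_dist_le_mul fun x y => ?_⟩, 2 * C * ‖a‖ / |k|, fun y => ?_⟩
  · refine le_trans ?_ (mul_le_mul_of_nonneg_right (Real.le_coe_toNNReal _) dist_nonneg)
    rw [Real.dist_eq, csub_sd, csub_sd, ← sub_div, abs_div, div_mul_eq_mul_div, dist_eq_norm]
    refine div_le_div_of_nonneg_right ?_ (abs_nonneg _)
    have a1 := abs_le.1 (h1 (x + a) (y + a))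
    have a2 := abs_le.1 (h1 (x - a) (y - a))
    have a3 := abs_le.1 (h1 x y)
    rw [add_sub_add_right_eq_sub] at a1
    rw [sub_sub_sub_cancel_right] at a2
    exact abs_le.2 ⟨by linarith [a1.1, a2.1, a3.2], by linarith [a1.2, a2.2, a3.1]⟩
  · rw [csub_sd, abs_div]
    refine div_le_div_of_nonneg_right ?_ (abs_nonneg _)
    have a1 := abs_le.1 (h1 (y + a) y)
    have a2 := abs_le.1 (h1 (y - a) y)
    rw [add_sub_cancel_left] at a1
    rw [sub_sub_cancel_left, norm_neg] at a2
    exact abs_le.2 ⟨by linarith [a1.1, a2.1], by linarith [a1.2, a2.2]⟩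

theorem csub_int {F : E n → ℝ} {K : NNReal} (hF : LipschitzWith K F) (hc : HasCompactSupport F) (e : Fin n) :
    Integrable (pd e F) := by
  have hm : MeasurableSet (tsupport F) := (isClosed_tsupport F).measurableSet
  refine ((integrableOn_const (C := K * ‖(ee e : E n)‖) hc.isCompact.measure_lt_top.ne).integrable_indicator
    hm).mono' (measurable_fderiv_apply_const ℝ F (ee e)).aestronglyMeasurable
    (Filter.Eventually.of_forall fun x => ?_)
  by_cases hx : x ∈ tsupport F
  · rw [indicator_of_mem hx]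
    exact (ContinuousLinearMap.le_opNorm _ _).trans
      (mul_le_mul_of_nonneg_right (norm_fderiv_le_of_lipschitz ℝ hF) (norm_nonneg _))
  · rw [indicator_of_notMem hx, pd_eq_zero hx, norm_zero]

/-- the pointwise inequality -/
theorem csub_pt {α β c C c₀ h : ℝ} {φ u : E n → ℝ} {G : E n → E n} (hP : Pot α β φ) (hW : Weak φ c C u G)
    {e x : E n} (he : ‖e‖ = 1) (hh : 0 < h) (d0 : DifferentiableAt ℝ G x)
    (d1 : DifferentiableAt ℝ G (x + h • e)) (d2 : DifferentiableAt ℝ G (x - h • e))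
    (m0 : Real.log (jac G x).det = ⟪x, G x⟫ - u x - φ x + c₀)
    (m1 : Real.log (jac G (x + h • e)).det = ⟪x + h • e, G (x + h • e)⟫ - u (x + h • e) - φ (x + h • e) + c₀)
    (m2 : Real.log (jac G (x - h • e)).det = ⟪x - h • e, G (x - h • e)⟫ - u (x - h • e) - φ (x - h • e) + c₀) :
    ∑ d, x d * csub_sd (fun y => G y d) (h • e) (h ^ 2) x - (C + β) ≤
      ∑ d, ∑ i, (jac G x)⁻¹ d i * pd i (csub_sd (fun y => G y d) (h • e) (h ^ 2)) x := by
  have hk : 0 < h ^ 2 := by positivity
  have h1 := csub_tr (hW.quad.jac_ell d0) (hW.quad.jac_ell d1) (hW.quad.jac_ell d2) hW.cpos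
  have h2 := (hW.quad.dq2_bounds e hh.ne' x).2
  have h3 := (hP.quad.dq2_bounds e hh.ne' x).2
  rw [he, one_pow, mul_one, dq2, div_le_iff₀ hk] at h2 h3
  have h4 := (hW.quad.mono (x + h • e) (x - h • e)).1
  have h5 : 0 ≤ c * ‖x + h • e - (x - h • e)‖ ^ 2 := mul_nonneg hW.cpos.le (sq_nonneg _)
  have e1 : ∑ d, ∑ i, (jac G x)⁻¹ d i * pd i (csub_sd (fun y => G y d) (h • e) (h ^ 2)) x =
      (∑ d, ∑ i, (jac G x)⁻¹ d i *
        (jac G (x + h • e) d i + jac G (x - h • e) d i - 2 * jac G x d i)) / h ^ 2 := by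
    simp only [Finset.sum_div]
    refine Finset.sum_congr rfl fun d _ => Finset.sum_congr rfl fun i _ => ?_
    rw [(csub_d2 _ (csub_pdG d0 d).1 (csub_pdG d1 d).1 (csub_pdG d2 d).1).2, csub_sd, (csub_pdG d0 d).2,
      (csub_pdG d1 d).2, (csub_pdG d2 d).2, mul_div_assoc]
  have e2 : ∑ d, x d * csub_sd (fun y => G y d) (h • e) (h ^ 2) x =
      (⟪x, G (x + h • e)⟫ + ⟪x, G (x - h • e)⟫ - 2 * ⟪x, G x⟫) / h ^ 2 := by
    simp only [PiLp.inner_apply, RCLike.inner_apply, conj_trivial, Finset.mul_sum, ← Finset.sum_add_distrib,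
      ← Finset.sum_sub_distrib, Finset.sum_div, csub_sd]
    refine Finset.sum_congr rfl fun d _ => ?_
    ring
  rw [e1, e2, sub_le_iff_le_add, div_add' _ _ _ hk.ne', div_le_div_iff_of_pos_right hk]
  rw [inner_add_left] at m1
  rw [inner_sub_left] at m2
  rw [real_inner_comm, show x + h • e - (x - h • e) = h • e + h • e by abel, inner_add_left,
    inner_sub_right] at h4
  rw [show x + h • e - (x - h • e) = h • e + h • e by abel] at h5
  linarith

theorem sub_dq2 {α β c C : ℝ} {φ u : E n → ℝ} {G : E n → E n} (hP : Pot α β φ)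
    (hW : Weak φ c C u G) (x₁ : E n) :
    ∃ l L K : ℝ, 0 < l ∧ l ≤ L ∧ 0 ≤ K ∧ ∀ (e : E n) (h : ℝ), ‖e‖ = 1 → 0 < h →
      ∃ Φ : E n → E n, Sub l L K (dq2 u e h) Φ (ball x₁ 1) := by
  obtain ⟨m, M, hm, hmM, hlo, hhi⟩ := hP.rho_bounds x₁ 1
  have hc := hW.cpos
  have hC : 0 < C := hc.trans_le hW.cle
  have hβ : 0 < β := hP.apos.trans_le hP.ale
  have hM : 0 < M := hm.trans_le hmM
  have hci : C⁻¹ ≤ c⁻¹ := inv_anti₀ hc hW.cle
  refine ⟨m * C⁻¹, M * c⁻¹, M * (C + β), by positivity, mul_le_mul hmM hci (by positivity) hM.le, by positivity,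
    fun e h he hh => ?_⟩
  obtain ⟨c₀, hma⟩ := hW.ma
  have hu := hW.quad.contDiff
  have hud := hu.differentiable one_ne_zero
  obtain ⟨p, hp⟩ : ∃ p : Fin n → E n → ℝ, p = fun d => csub_sd (fun y => G y d) (h • e) (h ^ 2) := ⟨_, rfl⟩
  have hpd : ∀ d x, pd d (dq2 u e h) x = p d x := fun d x => by
    have := (csub_d2 (a := h • e) (x := x) (h ^ 2) (hud _) (hud _) (hud _)).2 d
    refine this.trans ?_
    simp only [hp, csub_sd, hW.quad.pd]
  have hpl : ∀ d, (∃ K, LipschitzWith K (p d)) ∧ ∃ M, ∀ y, |p d y| ≤ M := fun d => by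
    rw [hp]
    exact csub_lip hW.quad _ _ d
  have hpc : ∀ d, Continuous (p d) := fun d => (hpl d).1.choose_spec.continuous
  have hell : ∀ᵐ x : E n, Ell C⁻¹ c⁻¹ (jac G x)⁻¹ :=
    hW.quad.ae_diff.mono fun x hx => (hW.quad.jac_ell hx).inv hc hW.cle
  have hn : ∀ x, ‖fderiv ℝ (dq2 u e h) x‖ ^ 2 = (fun d => p d x) ⬝ᵥ fun d => p d x := fun x => by
    rw [norm_fderiv_sq]
    simp only [hpd, dotProduct, sq]
  refine ⟨fun x => WithLp.toLp 2 fun i => rho φ x * ((jac G x)⁻¹ *ᵥ fun d => p d x) i, ?_, ?_, ?_, ?_, ?_⟩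
  · refine ContDiff.contDiffOn ?_
    exact (((hu.comp (contDiff_id.add contDiff_const)).add (hu.comp (contDiff_id.sub contDiff_const))).sub
      (contDiff_const.mul hu)).div_const _
  · refine ((WithLp.measurable_toLp 2 _).comp (measurable_pi_lambda _ fun i => ?_)).aestronglyMeasurable
    exact hP.continuous_rho.measurable.mul
      (Finset.measurable_sum (f := fun d x => (jac G x)⁻¹ i d * p d x) Finset.univ fun d _ =>
        (measurable_jac_inv G i d).mul (hpc d).measurable)
  · filter_upwards [hell] with x hx hxB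
    have e1 : fderiv ℝ (dq2 u e h) x (WithLp.toLp 2 fun i => rho φ x * ((jac G x)⁻¹ *ᵥ fun d => p d x) i) =
        rho φ x * ((fun d => p d x) ⬝ᵥ ((jac G x)⁻¹ *ᵥ fun d => p d x)) := by
      rw [fderiv_eq_sum, dotProduct, Finset.mul_sum]
      refine Finset.sum_congr rfl fun i _ => ?_
      rw [hpd]
      ring
    rw [e1, mul_assoc]
    refine mul_le_mul (hlo x hxB) ?_ (by positivity) (rho_pos φ x).le
    rw [hn]
    exact hx.lo _
  · filter_upwards [hell] with x hx _
    refine abs_le_of_sq_le_sq' ?_ (by positivity) |>.2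
    have e1 : ‖(WithLp.toLp 2 fun i => rho φ x * ((jac G x)⁻¹ *ᵥ fun d => p d x) i : E n)‖ ^ 2 =
        rho φ x ^ 2 * (((jac G x)⁻¹ *ᵥ fun d => p d x) ⬝ᵥ ((jac G x)⁻¹ *ᵥ fun d => p d x)) := by
      rw [EuclideanSpace.real_norm_sq_eq, dotProduct, Finset.mul_sum]
      refine Finset.sum_congr rfl fun i _ => ?_
      ring
    rw [e1, mul_pow, mul_pow, mul_assoc]
    refine (mul_le_mul_of_nonneg_left (hx.mulVec_sq (by positivity) _) (sq_nonneg _)).trans ?_
    rw [← hn]
    exact mul_le_mul_of_nonneg_right (pow_le_pow_left₀ (rho_pos φ x).le (hhi x) 2) (by positivity)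
  · intro η hη hcs _ hη0
    have iη : Integrable η := hη.continuous.integrable_of_hasCompactSupport hcs
    by_cases hI : Integrable fun x =>
      fderiv ℝ η x (WithLp.toLp 2 fun i => rho φ x * ((jac G x)⁻¹ *ᵥ fun d => p d x) i)
    swap
    · rw [integral_undef hI]
      exact mul_nonneg (by positivity) (integral_nonneg hη0)
    obtain ⟨Kη, hKη⟩ := hη.lipschitzWith_of_hasCompactSupport hcs one_ne_zero
    obtain ⟨Mη, hMη⟩ := hη.continuous.bounded_above_of_compact_support hcs
    have hF : ∀ d, ∃ L : NNReal, LipschitzWith L fun x => η x * p d x := fun d =>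
      csub_lipmul hKη (hpl d).1.choose_spec hMη (hpl d).2.choose_spec
    have hFc : ∀ d, HasCompactSupport fun x => η x * p d x := fun d => hcs.mul_right
    have iL : ∀ d, Integrable fun x : E n => rho φ x * (x d * (η x * p d x)) := fun d =>
      (hP.continuous_rho.mul ((contDiff_coord (m := 0) d).continuous.mul
        (hη.continuous.mul (hpc d)))).integrable_of_hasCompactSupport (hFc d).mul_left.mul_left
    have iR : ∀ d, Integrable fun x : E n =>
        rho φ x * ∑ i, (jac G x)⁻¹ d i * pd i (fun x => η x * p d x) x := fun d => by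
      refine Integrable.bdd_mul (c := M) (integrable_finsetSum _ fun i _ => ?_)
        hP.continuous_rho.aestronglyMeasurable (Filter.Eventually.of_forall fun x => ?_)
      · exact (csub_int (hF d).choose_spec (hFc d) i).bdd_mul (c := c⁻¹)
          (measurable_jac_inv G d i).aestronglyMeasurable (hell.mono fun x hx => hx.entry_le (by positivity) d i)
      · rw [Real.norm_of_nonneg (rho_pos φ x).le]
        exact hhi x
    have hgood := hW.quad.ae_diff.and hma
    have hg1 := (measurePreserving_add_right volume (h • e)).quasiMeasurePreserving.ae hgood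
    have hg2 := (measurePreserving_sub_right volume (h • e)).quasiMeasurePreserving.ae hgood
    have iS := ((integrable_finsetSum Finset.univ fun d _ => iR d).sub
      (integrable_finsetSum Finset.univ fun d _ => iL d))
    have hb : ∀ᵐ x : E n, fderiv ℝ η x (WithLp.toLp 2 fun i => rho φ x * ((jac G x)⁻¹ *ᵥ fun d => p d x) i) ≤
        (∑ d, rho φ x * ∑ i, (jac G x)⁻¹ d i * pd i (fun x => η x * p d x) x) -
          (∑ d, rho φ x * (x d * (η x * p d x))) + M * (C + β) * η x := by
      filter_upwards [hgood, hg1, hg2, hell] with x g0 g1 g2 hx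
      have k1 := csub_pt hP hW he hh g0.1 g1.1 g2.1 g0.2 g1.2 g2.2
      have k2 : ∀ d, DifferentiableAt ℝ (p d) x := fun d => by
        rw [hp]
        exact (csub_d2 _ (csub_pdG g0.1 d).1 (csub_pdG g1.1 d).1 (csub_pdG g2.1 d).1).1
      have k3 : ∑ d, x d * p d x - (C + β) ≤ ∑ d, ∑ i, (jac G x)⁻¹ d i * pd i (p d) x := by
        rw [hp]
        exact k1
      have e1 : ∑ d, rho φ x * ∑ i, (jac G x)⁻¹ d i * pd i (fun x => η x * p d x) x =
          fderiv ℝ η x (WithLp.toLp 2 fun i => rho φ x * ((jac G x)⁻¹ *ᵥ fun d => p d x) i) +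
            rho φ x * η x * ∑ d, ∑ i, (jac G x)⁻¹ d i * pd i (p d) x := by
        rw [fderiv_eq_sum]
        simp only [Matrix.mulVec, dotProduct, Finset.mul_sum, Finset.sum_mul]
        rw [Finset.sum_comm (f := fun i d => rho φ x * ((jac G x)⁻¹ i d * p d x) * pd i η x),
          ← Finset.sum_add_distrib]
        refine Finset.sum_congr rfl fun d _ => ?_
        rw [← Finset.sum_add_distrib]
        refine Finset.sum_congr rfl fun i _ => ?_
        rw [pd_mul i (hη.differentiable one_ne_zero x) (k2 d), hx.symm i d]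
        ring
      have e2 : ∑ d, rho φ x * (x d * (η x * p d x)) = rho φ x * η x * ∑ d, x d * p d x := by
        rw [Finset.mul_sum]
        refine Finset.sum_congr rfl fun d _ => ?_
        ring
      have k4 := mul_le_mul_of_nonneg_left k3 (mul_nonneg (rho_pos φ x).le (hη0 x))
      have k5 := mul_le_mul_of_nonneg_right (hhi x) (mul_nonneg (hη0 x) (add_pos hC hβ).le)
      rw [e1, e2]
      linarith
    refine (integral_mono_ae hI (iS.add (iη.const_mul _)) hb).trans (le_of_eq ?_)
    rw [integral_add' iS (iη.const_mul _), integral_const_mul,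
      integral_sub' (integrable_finsetSum Finset.univ fun d _ => iR d)
        (integrable_finsetSum Finset.univ fun d _ => iL d),
      integral_finsetSum _ fun d _ => iR d, integral_finsetSum _ fun d _ => iL d,
      Finset.sum_congr rfl fun d _ => hW.stein _ _ (hF d).choose_spec (hFc d) d, sub_self, zero_add]

end Crest.Agent.R238
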