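import Crest.Agent.R238.CGrow
import Crest.Agent.R238.CSub

/-!
# R238 / CStep: one Evans–Krylov step

Take `N, e, K` from `net_lemma`, `c₁` from `growth` with `δ = 1/(2N+2)`, `l L K₀` from `sub_dq2`.
Fix `x₀ ∈ ball x₁ (1/2)`, `R ≤ 1/8`, `M_k = Msup u (e k) x₀ (4R)`, `d_k = M_k - Msup u (e k) x₀ R ≥ 0`
(the sets are nonempty and bounded by `Quad.dq2_bounds`).
* halving: `dq2 u e h x = ¼ dq2 u e (h/2) (x+he/2) + ½ dq2 u e (h/2) x + ¼ dq2 u e (h/2) (x-he/2)`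
  and the new stencils lie on the old segment, so for every `θ > 0` there are `h₀ ≤ R` and for
  each `j` a point `x_j ∈ ball x₀ R` with `dq2 u e (h₀/2^j) x_j ≥ Msup(R) - θ`.
* `growth` (contrapositive) for `W = dq2 u (e k) (h₀/2^j) ≤ M_k` on `ball x₀ (2R)`,
  `ℓ = (d + 2θ + K₀R²)/c₁` with `d = Σ d_k`, `θ = R`: `|{W ≤ M_k - ℓ} ∩ B_R| < δ|B_R|` for all `j`;
  by `Quad.dq2_tendsto` and Fatou (liminf of sets) `|{eᵀ jac e < M_k - ℓ} ∩ B_R| ≤ δ|B_R|`.
* hence there is a good `y ∈ B_R` (differentiable, equation holds, `e_kᵀ jac G y e_k ≥ M_k - ℓ`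
  for all `k`).  For a.e. `x ∈ B_{4R}`: `e_kᵀ jac G x e_k ≤ M_k` (small stencils), and
  `tr(A⁻¹(X - A)) ≥ log det X - log det A = F x - F y ≥ -L_F 8R` (`logdet_le`;
  `F = ⟪x,G x⟫ - u - φ` is Lipschitz on `ball x₁ 1`).  `net_lemma` with `A = jac G y`.
-/

set_option autoImplicit false
open MeasureTheory Matrix Set Metric
open scoped RealInnerProductSpace ContDiff BigOperators

namespace Crest.Agent.R238

variable {n : ℕ}

section aux

variable {c C : ℝ} {u : E n → ℝ} {G : E n → E n} {e x₀ : E n} {r : ℝ}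

theorem cstep_bdd (hq : Quad c C u G) (he : ‖e‖ = 1) (x₀ : E n) (r : ℝ) :
    BddAbove {t | ∃ h x, 0 < h ∧ x + h • e ∈ ball x₀ r ∧ x - h • e ∈ ball x₀ r ∧ t = dq2 u e h x} :=
  ⟨C, by
    rintro t ⟨h, x, hh, -, -, rfl⟩
    simpa [he] using (hq.dq2_bounds e hh.ne' x).2⟩

theorem cstep_le (hq : Quad c C u G) (he : ‖e‖ = 1) {h : ℝ} {x : E n} (hh : 0 < h)
    (h1 : x + h • e ∈ ball x₀ r) (h2 : x - h • e ∈ ball x₀ r) : dq2 u e h x ≤ Msup u e x₀ r :=
  le_csSup (cstep_bdd hq he x₀ r) ⟨h, x, hh, h1, h2, rfl⟩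

theorem cstep_ne (he : ‖e‖ = 1) (hr : 0 < r) :
    {t | ∃ h x, 0 < h ∧ x + h • e ∈ ball x₀ r ∧ x - h • e ∈ ball x₀ r ∧ t = dq2 u e h x}.Nonempty :=
  ⟨_, r / 2, x₀, half_pos hr, by simp [norm_smul, he, abs_of_pos hr, hr],
    by simp [norm_smul, he, abs_of_pos hr, hr], rfl⟩

theorem cstep_mono (hq : Quad c C u G) (he : ‖e‖ = 1) (hr : 0 < r) {r' : ℝ} (h : r ≤ r') :
    Msup u e x₀ r ≤ Msup u e x₀ r' :=
  csSup_le_csSup (cstep_bdd hq he x₀ r') (cstep_ne he hr) fun _ ⟨h', x, hh, h1, h2, ht⟩ =>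
    ⟨h', x, hh, ball_subset_ball h h1, ball_subset_ball h h2, ht⟩

theorem cstep_seg {x : E n} {h : ℝ} (h1 : x + h • e ∈ ball x₀ r) (h2 : x - h • e ∈ ball x₀ r) {s : ℝ}
    (hs : -1 ≤ s) (hs' : s ≤ 1) : x + (s * h) • e ∈ ball x₀ r := by
  have := convex_ball x₀ r h1 h2 (show 0 ≤ (1 + s) / 2 by linarith) (show 0 ≤ (1 - s) / 2 by linarith) (by ring)
  convert this using 1
  module

theorem cstep_half {x : E n} {h : ℝ} (hh : 0 < h) (h1 : x + h • e ∈ ball x₀ r) (h2 : x - h • e ∈ ball x₀ r) :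
    ∃ y, y + (h / 2) • e ∈ ball x₀ r ∧ y - (h / 2) • e ∈ ball x₀ r ∧ dq2 u e h x ≤ dq2 u e (h / 2) y := by
  have a0 : x ∈ ball x₀ r := by simpa using cstep_seg h1 h2 (s := 0) (by norm_num) (by norm_num)
  have a1 : x + (h / 2) • e ∈ ball x₀ r := by
    have := cstep_seg h1 h2 (s := 1 / 2) (by norm_num) (by norm_num)
    rwa [show 1 / 2 * h = h / 2 by ring] at this
  have a2 : x - (h / 2) • e ∈ ball x₀ r := by
    have := cstep_seg h1 h2 (s := -(1 / 2)) (by norm_num) (by norm_num)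
    rwa [show -(1 / 2) * h = -(h / 2) by ring, neg_smul, ← sub_eq_add_neg] at this
  have e1 : x + (h / 2) • e + (h / 2) • e = x + h • e := by module
  have e2 : x + (h / 2) • e - (h / 2) • e = x := by module
  have e3 : x - (h / 2) • e + (h / 2) • e = x := by module
  have e4 : x - (h / 2) • e - (h / 2) • e = x - h • e := by module
  have key : 4 * dq2 u e h x =
      dq2 u e (h / 2) (x + (h / 2) • e) + 2 * dq2 u e (h / 2) x + dq2 u e (h / 2) (x - (h / 2) • e) := by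
    simp only [dq2, e1, e2, e3, e4]
    field_simp
    ring
  by_contra hn
  push Not at hn
  have b1 := hn (x + (h / 2) • e) (by rwa [e1]) (by rwa [e2])
  have b2 := hn x a1 a2
  have b3 := hn (x - (h / 2) • e) (by rwa [e3]) (by rwa [e4])
  linarith

theorem cstep_iter {x : E n} {h : ℝ} (hh : 0 < h) (h1 : x + h • e ∈ ball x₀ r) (h2 : x - h • e ∈ ball x₀ r)
    (j : ℕ) : ∃ y, y + (h / 2 ^ j) • e ∈ ball x₀ r ∧ y - (h / 2 ^ j) • e ∈ ball x₀ r ∧
      dq2 u e h x ≤ dq2 u e (h / 2 ^ j) y := by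
  induction j with
  | zero => exact ⟨x, by simpa using h1, by simpa using h2, by simp⟩
  | succ j ih =>
    obtain ⟨y, a1, a2, a3⟩ := ih
    obtain ⟨z, b1, b2, b3⟩ := cstep_half (u := u) (by positivity) a1 a2
    rw [show h / 2 ^ j / 2 = h / 2 ^ (j + 1) by ring] at b1 b2 b3
    exact ⟨z, b1, b2, a3.trans b3⟩

theorem cstep_lt (he : ‖e‖ = 1) {x : E n} {h : ℝ} (hh : 0 < h) (h1 : x + h • e ∈ ball x₀ r)
    (h2 : x - h • e ∈ ball x₀ r) : h < r := by
  have a := dist_triangle_right (x + h • e) (x - h • e) x₀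
  rw [dist_eq_norm, show x + h • e - (x - h • e) = (2 * h) • e by module, norm_smul, he,
    Real.norm_of_nonneg (by positivity)] at a
  rw [mem_ball] at h1 h2
  linarith

theorem cstep_sub {l L K : ℝ} {W : E n → ℝ} {Φ : E n → E n} {B B' : Set (E n)} (h : Sub l L K W Φ B)
    (hs : B' ⊆ B) : Sub l L K W Φ B' :=
  ⟨h.cd.mono hs, h.meas.mono_measure (Measure.restrict_mono hs le_rfl),
    h.lo.mono fun _ hx hx' => hx (hs hx'), h.hi.mono fun _ hx hx' => hx (hs hx'),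
    fun η h1 h2 h3 h4 => h.weak η h1 h2 (h3.trans hs) h4⟩

/-- the Hessian is bounded by the supremum of the difference quotients -/
theorem cstep_hess (hq : Quad c C u G) (he : ‖e‖ = 1) {x : E n} (hx : x ∈ ball x₀ r)
    (hd : DifferentiableAt ℝ G x) : e.ofLp ⬝ᵥ (jac G x *ᵥ e.ofLp) ≤ Msup u e x₀ r := by
  refine le_of_tendsto (hq.dq2_tendsto hd e) ?_
  have c1 : ContinuousAt (fun t : ℝ => x + t • e) 0 := by fun_prop
  have c2 : ContinuousAt (fun t : ℝ => x - t • e) 0 := by fun_prop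
  filter_upwards [self_mem_nhdsWithin,
    nhdsWithin_le_nhds (c1.eventually (isOpen_ball.mem_nhds (by simpa using hx))),
    nhdsWithin_le_nhds (c2.eventually (isOpen_ball.mem_nhds (by simpa using hx)))] with t ht h1 h2
  exact cstep_le hq he ht h1 h2

/-- the measure estimate in one direction -/
theorem cstep_bad (hq : Quad c C u G) (he : ‖e‖ = 1) {R K δ c₁ ℓ : ℝ} (hR : 0 < R)
    (hgr : ∀ h, 0 < h → (∀ x ∈ ball x₀ (2 * R), dq2 u e h x ≤ Msup u e x₀ (4 * R)) →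
      δ * volume.real (ball x₀ R) ≤
        volume.real {x | x ∈ ball x₀ R ∧ dq2 u e h x ≤ Msup u e x₀ (4 * R) - ℓ} →
      ∀ x ∈ ball x₀ R, c₁ * ℓ ≤ Msup u e x₀ (4 * R) - dq2 u e h x + K * R ^ 2)
    (hℓ : Msup u e x₀ (4 * R) - Msup u e x₀ R + R + K * R ^ 2 ≤ c₁ * ℓ) :
    volume {x | x ∈ ball x₀ R ∧ DifferentiableAt ℝ G x ∧
      e.ofLp ⬝ᵥ (jac G x *ᵥ e.ofLp) < Msup u e x₀ (4 * R) - ℓ} ≤
      ENNReal.ofReal (δ * volume.real (ball x₀ R)) := by
  obtain ⟨_, ⟨h, x, hh, h1, h2, rfl⟩, h3⟩ :=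
    exists_lt_of_lt_csSup (cstep_ne (u := u) (x₀ := x₀) he hR) (sub_lt_self (Msup u e x₀ R) hR)
  have hR' := cstep_lt he hh h1 h2
  obtain ⟨A, hA⟩ : ∃ A : ℕ → Set (E n), A = fun j =>
    {x | x ∈ ball x₀ R ∧ dq2 u e (h / 2 ^ j) x ≤ Msup u e x₀ (4 * R) - ℓ} := ⟨_, rfl⟩
  have hj : ∀ j, volume (A j) ≤ ENNReal.ofReal (δ * volume.real (ball x₀ R)) := fun j => by
    have hp : 0 < h / 2 ^ j := by positivity
    have hl : h / 2 ^ j ≤ h := div_le_self hh.le (one_le_pow₀ one_le_two)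
    obtain ⟨y, a1, a2, a3⟩ := cstep_iter (u := u) hh h1 h2 j
    have a0 : y ∈ ball x₀ R := by simpa using cstep_seg a1 a2 (s := 0) (by norm_num) (by norm_num)
    have hfin : volume (A j) ≠ ⊤ :=
      ne_top_of_le_ne_top measure_ball_lt_top.ne (measure_mono (by rw [hA]; exact fun x hx => hx.1))
    rw [← ENNReal.ofReal_toReal hfin]
    refine ENNReal.ofReal_le_ofReal (le_of_not_ge fun hc => ?_)
    have := hgr _ hp (fun z hz => cstep_le hq he hp ?_ ?_) (by rw [hA] at hc; exact hc) y a0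
    · linarith
    · rw [mem_ball, dist_eq_norm] at hz ⊢
      have := norm_add_le (z - x₀) ((h / 2 ^ j) • e)
      rw [norm_smul, he, Real.norm_of_nonneg hp.le] at this
      rw [show z + (h / 2 ^ j) • e - x₀ = z - x₀ + (h / 2 ^ j) • e by module]
      linarith
    · rw [mem_ball, dist_eq_norm] at hz ⊢
      have := norm_sub_le (z - x₀) ((h / 2 ^ j) • e)
      rw [norm_smul, he, Real.norm_of_nonneg hp.le] at this
      rw [show z - (h / 2 ^ j) • e - x₀ = z - x₀ - (h / 2 ^ j) • e by module]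
      linarith
  have hm : Monotone fun J : ℕ => ⋂ j, ⋂ (_ : J ≤ j), A j := fun a b hab =>
    iInter_mono fun j => iInter_mono' fun hj => ⟨hab.trans hj, subset_rfl⟩
  refine le_trans (measure_mono (t := ⋃ J : ℕ, ⋂ j, ⋂ (_ : J ≤ j), A j) ?_) ?_
  · rintro z ⟨z1, z2, z3⟩
    have t1 : Filter.Tendsto (fun j : ℕ => h / 2 ^ j) Filter.atTop (nhdsWithin 0 (Ioi 0)) := by
      refine tendsto_nhdsWithin_iff.2 ⟨?_, Filter.Eventually.of_forall fun j => ?_⟩
      · exact Filter.Tendsto.const_div_atTop (tendsto_pow_atTop_atTop_of_one_lt one_lt_two) h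
      · show 0 < h / 2 ^ j
        positivity
    obtain ⟨J, hJ⟩ := Filter.eventually_atTop.1
      (((hq.dq2_tendsto z2 e).comp t1).eventually (gt_mem_nhds z3))
    refine mem_iUnion.2 ⟨J, mem_iInter₂.2 fun j hj => ?_⟩
    rw [hA]
    exact ⟨z1, (hJ j hj).le⟩
  · rw [hm.measure_iUnion]
    exact iSup_le fun J => (measure_mono (iInter₂_subset J le_rfl)).trans (hj J)

end aux

theorem ek_step (hn : 2 ≤ n) {α β c C : ℝ} {φ u : E n → ℝ} {G : E n → E n} (hP : Pot α β φ)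
    (hW : Weak φ c C u G) (x₁ : E n) :
    ∃ (N : ℕ) (e : Fin N → E n) (K : ℝ), 0 ≤ K ∧ (∀ k, ‖e k‖ = 1) ∧
      ∀ x₀ ∈ ball x₁ (1 / 2), ∀ R : ℝ, 0 < R → R ≤ 1 / 8 → ∃ A : Mat n,
        ∀ᵐ x : E n, x ∈ ball x₀ (4 * R) → ∀ i j, |jac G x i j - A i j| ≤
          K * ((∑ k, (Msup u (e k) x₀ (4 * R) - Msup u (e k) x₀ R)) + R) := by
  have hq := hW.quad
  obtain ⟨N, e, K₁, hK₁, he, hnet⟩ := net_lemma n hW.cpos hW.cle
  obtain ⟨l, L, K₀, hl, hlL, hK₀, hsub⟩ := sub_dq2 hP hW x₁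
  obtain ⟨c₁, hc₁, hgr⟩ := growth hn hl hlL (δ := 1 / (2 * (N : ℝ) + 2)) (by positivity)
  obtain ⟨c₀, hma⟩ := hW.ma
  have hF : LocallyLipschitz fun x : E n => ⟪x, G x⟫ - u x - φ x := by
    have h1 : LocallyLipschitz fun p : E n × E n => ⟪p.1, p.2⟫ - u p.1 - φ p.1 :=
      ContDiff.locallyLipschitz (𝕂 := ℝ) (((contDiff_fst.inner ℝ contDiff_snd).sub
        (hq.contDiff.comp contDiff_fst)).sub (hP.quad.contDiff.comp contDiff_fst))
    exact LocallyLipschitz.comp (g := fun x : E n => (x, G x)) h1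
      (LocallyLipschitz.id.prodMk hq.lipschitz.locallyLipschitz)
  obtain ⟨LF, hLF⟩ := hF.locallyLipschitzOn.exists_lipschitzOnWith_of_compact (isCompact_closedBall x₁ 1)
  refine ⟨N, e, K₁ * ((2 + K₀) / c₁ + 5 * LF), by positivity, he, fun x₀ hx₀ R hR hR8 => ?_⟩
  have hin : ∀ r, r ≤ 4 * R → ball x₀ r ⊆ ball x₁ 1 := fun r hr =>
    ball_subset_ball' (by rw [mem_ball] at hx₀; linarith)
  obtain ⟨d, hd⟩ : ∃ d, d = ∑ k, (Msup u (e k) x₀ (4 * R) - Msup u (e k) x₀ R) := ⟨_, rfl⟩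
  have hdk : ∀ k, 0 ≤ Msup u (e k) x₀ (4 * R) - Msup u (e k) x₀ R := fun k =>
    sub_nonneg.2 (cstep_mono hq (he k) hR (by linarith))
  have hd0 : 0 ≤ d := hd ▸ Finset.sum_nonneg fun k _ => hdk k
  have hdk' : ∀ k, Msup u (e k) x₀ (4 * R) - Msup u (e k) x₀ R ≤ d := fun k =>
    hd ▸ Finset.single_le_sum (fun k _ => hdk k) (Finset.mem_univ k)
  obtain ⟨ℓ, hℓ⟩ : ∃ ℓ, ℓ = (d + R + K₀ * R ^ 2) / c₁ := ⟨_, rfl⟩
  have hℓ0 : 0 < ℓ := hℓ ▸ by positivity
  have hbad := fun k => cstep_bad (x₀ := x₀) (K := K₀) (δ := 1 / (2 * (N : ℝ) + 2)) (c₁ := c₁) (ℓ := ℓ) hq (he k) hR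
    (fun h hh => by
      obtain ⟨Φ, hΦ⟩ := hsub (e k) h (he k) hh
      exact hgr x₀ R K₀ _ ℓ _ Φ hR hK₀ hℓ0 (cstep_sub hΦ (hin _ (by linarith))))
    (by rw [hℓ, mul_div_cancel₀ _ hc₁.ne']; linarith [hdk' k])
  obtain ⟨y, hy, hyd, hym, hyk⟩ : ∃ y ∈ ball x₀ R, DifferentiableAt ℝ G y ∧
      Real.log (jac G y).det = ⟪y, G y⟫ - u y - φ y + c₀ ∧
      ∀ k, Msup u (e k) x₀ (4 * R) - ℓ ≤ (e k).ofLp ⬝ᵥ (jac G y *ᵥ (e k).ofLp) := by
    by_contra hcon
    push Not at hcon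
    have h1 : volume (ball x₀ R) ≤ volume (⋃ k, {x | x ∈ ball x₀ R ∧ DifferentiableAt ℝ G x ∧
        (e k).ofLp ⬝ᵥ (jac G x *ᵥ (e k).ofLp) < Msup u (e k) x₀ (4 * R) - ℓ}) := by
      refine measure_mono_ae ?_
      filter_upwards [hq.ae_diff, hma] with x h1 h2 hx
      obtain ⟨k, hk⟩ := hcon x hx h1 h2
      exact mem_iUnion.2 ⟨k, hx, h1, hk⟩
    have h2 := (h1.trans (measure_iUnion_fintype_le _ _)).trans (Finset.sum_le_sum fun k _ => hbad k)
    have hv : 0 < volume.real (ball x₀ R) :=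
      ENNReal.toReal_pos (measure_ball_pos _ _ hR).ne' measure_ball_lt_top.ne
    rw [← ENNReal.ofReal_sum_of_nonneg fun _ _ => by positivity, ← ENNReal.ofReal_toReal measure_ball_lt_top.ne,
      ENNReal.ofReal_le_ofReal_iff (Finset.sum_nonneg fun _ _ => by positivity)] at h2
    simp only [Finset.sum_const, Finset.card_univ, Fintype.card_fin, nsmul_eq_mul] at h2
    have h3 : (N : ℝ) * (1 / (2 * (N : ℝ) + 2)) < 1 := by
      rw [mul_one_div, div_lt_one (by positivity)]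
      linarith [(Nat.cast_nonneg N : (0 : ℝ) ≤ N)]
    have h4 := mul_lt_mul_of_pos_right h3 hv
    rw [Measure.real] at h4 h2
    linarith
  refine ⟨jac G y, ?_⟩
  filter_upwards [hq.ae_diff, hma] with x h1 h2 hx i j
  have hA := hq.jac_ell hyd
  have hX := hq.jac_ell h1
  have hxy : dist x y ≤ 5 * R := by
    have := dist_triangle_right x y x₀
    rw [mem_ball] at hx hy
    linarith
  have hL := hLF.dist_le_mul x (ball_subset_closedBall (hin _ le_rfl hx)) y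
    (ball_subset_closedBall (hin _ (by linarith) hy))
  have hL' := (abs_le.1 (hL.trans (mul_le_mul_of_nonneg_left hxy LF.coe_nonneg))).1
  have hld := logdet_le hA hX hW.cpos
  have hLR : 0 ≤ LF * (5 * R) := by positivity
  have := hnet (jac G y) (jac G x) (ℓ + LF * (5 * R)) hA hX (by positivity) (fun k => by
    rw [sub_mulVec, dotProduct_sub]
    linarith [cstep_hess hq (he k) hx h1, hyk k]) (by linarith) i j
  refine this.trans ?_
  rw [← hd, mul_assoc]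
  refine mul_le_mul_of_nonneg_left ?_ hK₁
  have e1 : ℓ ≤ (2 + K₀) / c₁ * (d + R) := by
    rw [hℓ, div_mul_eq_mul_div]
    refine div_le_div_of_nonneg_right ?_ hc₁.le
    have : K₀ * R ^ 2 ≤ K₀ * R := mul_le_mul_of_nonneg_left (by nlinarith) hK₀
    nlinarith [mul_nonneg hK₀ hd0]
  have e2 : LF * (5 * R) ≤ 5 * LF * (d + R) := by nlinarith [mul_nonneg LF.coe_nonneg hd0]
  linarith

end Crest.Agent.R238
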