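import Crest.Agent.R238.Defs

/-!
# R238 / Calc: calculus toolkit for `pd`, `cut` (all routine)
-/

set_option autoImplicit false
open MeasureTheory Matrix Set Metric
open scoped RealInnerProductSpace ContDiff BigOperators

namespace Crest.Agent.R238

variable {n : ℕ}

theorem pd_add {f g : E n → ℝ} {x : E n} (i : Fin n) (hf : DifferentiableAt ℝ f x)
    (hg : DifferentiableAt ℝ g x) : pd i (fun y => f y + g y) x = pd i f x + pd i g x := by
  simp only [pd, fderiv_fun_add hf hg]; rfl

theorem pd_sub {f g : E n → ℝ} {x : E n} (i : Fin n) (hf : DifferentiableAt ℝ f x)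
    (hg : DifferentiableAt ℝ g x) : pd i (fun y => f y - g y) x = pd i f x - pd i g x := by
  simp only [pd, fderiv_fun_sub hf hg]; rfl

theorem pd_mul {f g : E n → ℝ} {x : E n} (i : Fin n) (hf : DifferentiableAt ℝ f x)
    (hg : DifferentiableAt ℝ g x) :
    pd i (fun y => f y * g y) x = pd i f x * g x + f x * pd i g x := by
  simp only [pd, fderiv_fun_mul hf hg]
  simp [mul_comm, add_comm]

theorem pd_const_mul (i : Fin n) (k : ℝ) (f : E n → ℝ) (x : E n) :
    pd i (fun y => k * f y) x = k * pd i f x := by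
  have : fderiv ℝ (fun y => k * f y) x = k • fderiv ℝ f x :=
    congrFun (fderiv_const_smul_field (𝕜 := ℝ) (f := f) k) x
  simp only [pd, this]; rfl

theorem pd_neg (i : Fin n) (f : E n → ℝ) (x : E n) : pd i (fun y => -f y) x = -pd i f x := by
  simp only [pd, fderiv_fun_neg]; rfl

theorem pd_const (i : Fin n) (k : ℝ) (x : E n) : pd i (fun _ => k) x = 0 := by
  simp [pd]

theorem pd_sum {ι : Type*} (s : Finset ι) {f : ι → E n → ℝ} {x : E n} (i : Fin n)
    (hf : ∀ k ∈ s, DifferentiableAt ℝ (f k) x) :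
    pd i (fun y => ∑ k ∈ s, f k y) x = ∑ k ∈ s, pd i (f k) x := by
  simp only [pd, fderiv_fun_sum hf]
  simp

theorem contDiff_coord {m : WithTop ℕ∞} (j : Fin n) : ContDiff ℝ m fun y : E n => y j := by
  exact (EuclideanSpace.proj j : E n →L[ℝ] ℝ).contDiff

theorem pd_coord (i j : Fin n) (x : E n) :
    pd i (fun y => y j) x = if i = j then 1 else 0 := by
  have : fderiv ℝ (fun x : E n => x j) x = EuclideanSpace.proj j :=
    (EuclideanSpace.proj j : E n →L[ℝ] ℝ).fderiv
  simp only [pd, this]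
  simp [ee, eq_comm]

theorem pd_inner (i : Fin n) (a x : E n) : pd i (fun y => ⟪y, a⟫) x = a i := by
  have e : (fun y : E n => ⟪y, a⟫) = innerSL ℝ a := by
    funext y; simp [real_inner_comm]
  simp only [pd, e, ContinuousLinearMap.fderiv]
  simp [ee, EuclideanSpace.inner_single_right]

theorem pd_normSq (i : Fin n) (x : E n) : pd i (fun y => ‖y‖ ^ 2) x = 2 * x i := by
  simp only [pd, (hasStrictFDerivAt_norm_sq x).hasFDerivAt.fderiv]
  simp [ee, EuclideanSpace.inner_single_right]

theorem pd_comp {g : ℝ → ℝ} {g' : ℝ} {f : E n → ℝ} {x : E n} (i : Fin n)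
    (hg : HasDerivAt g g' (f x)) (hf : DifferentiableAt ℝ f x) :
    pd i (fun y => g (f y)) x = g' * pd i f x := by
  have := (hg.comp_hasFDerivAt x hf.hasFDerivAt).fderiv
  simp only [pd]
  erw [this]; rfl

theorem pd_translate (i : Fin n) (f : E n → ℝ) (a x : E n) :
    pd i (fun y => f (y + a)) x = pd i f (x + a) := by
  simp only [pd, fderiv_comp_add_right]

theorem rho_pos (φ : E n → ℝ) (x : E n) : 0 < rho φ x := Real.exp_pos _

theorem contDiff_rho {φ : E n → ℝ} {m : WithTop ℕ∞} (h : ContDiff ℝ m φ) :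
    ContDiff ℝ m (rho φ) := by
  exact h.neg.exp

theorem pd_rho {φ : E n → ℝ} {x : E n} (i : Fin n) (h : DifferentiableAt ℝ φ x) :
    pd i (rho φ) x = -(pd i φ x * rho φ x) := by
  have := pd_comp (g := fun t => Real.exp (-t)) (g' := -Real.exp (-φ x)) (f := φ) i
    (by simpa using (hasDerivAt_neg (φ x)).exp) h
  show pd i (fun y => Real.exp (-φ y)) x = _
  rw [this, rho]; ring

theorem contDiff_pd {f : E n → ℝ} {m k : WithTop ℕ∞} (hf : ContDiff ℝ k f) (h : m + 1 ≤ k)
    (i : Fin n) : ContDiff ℝ m (pd i f) := by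
  exact (hf.fderiv_right (m := m) h).clm_apply contDiff_const

theorem continuous_pd {f : E n → ℝ} (hf : ContDiff ℝ 1 f) (i : Fin n) : Continuous (pd i f) := by
  exact (hf.continuous_fderiv (by norm_num)).clm_apply continuous_const

theorem contDiff_hess {f : E n → ℝ} {m k : WithTop ℕ∞} (hf : ContDiff ℝ k f) (h : m + 2 ≤ k)
    (i j : Fin n) : ContDiff ℝ m fun x => hess f x i j := by
  have h1 : ContDiff ℝ (m + 1) (pd j f) := contDiff_pd hf (by
    rw [add_assoc, one_add_one_eq_two]; exact h) j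
  exact contDiff_pd h1 le_rfl i

theorem continuous_hess {f : E n → ℝ} (hf : ContDiff ℝ 2 f) (i j : Fin n) :
    Continuous fun x => hess f x i j := by
  exact (contDiff_hess (m := 0) hf (by norm_num) i j).continuous

theorem tsupport_pd (i : Fin n) (f : E n → ℝ) : tsupport (pd i f) ⊆ tsupport f := by
  refine (closure_mono fun x hx => ?_).trans (tsupport_fderiv_subset ℝ)
  intro h0
  exact hx (by simp [pd, h0])

theorem cs_pd {f : E n → ℝ} (hf : HasCompactSupport f) (i : Fin n) :
    HasCompactSupport (pd i f) := by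
  exact hf.of_isClosed_subset (isClosed_tsupport _) (tsupport_pd i f)

theorem pd_eq_zero {f : E n → ℝ} {x : E n} (h : x ∉ tsupport f) (i : Fin n) : pd i f x = 0 := by
  exact image_eq_zero_of_notMem_tsupport fun h' => h (tsupport_pd i f h')

theorem Tst.pd {s : E n → ℝ} (hs : Tst s) (i : Fin n) : Tst (pd i s) := by
  exact ⟨contDiff_pd hs.cd (by simp) i, cs_pd hs.cs i⟩

theorem Tst.sub {s t : E n → ℝ} (hs : Tst s) (ht : Tst t) : Tst fun x => s x - t x := by
  exact ⟨hs.cd.sub ht.cd, hs.cs.sub ht.cs⟩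

theorem Tst.add {s t : E n → ℝ} (hs : Tst s) (ht : Tst t) : Tst fun x => s x + t x := by
  exact ⟨hs.cd.add ht.cd, hs.cs.add ht.cs⟩

theorem Tst.const_mul {s : E n → ℝ} (hs : Tst s) (k : ℝ) : Tst fun x => k * s x := by
  exact ⟨contDiff_const.mul hs.cd, hs.cs.mul_left⟩

theorem Tst.neg_arg {s : E n → ℝ} (hs : Tst s) : Tst fun x => s (-x) := by
  exact ⟨hs.cd.comp contDiff_neg, hs.cs.comp_homeomorph (Homeomorph.neg (E n))⟩

theorem calc_pd_pd {f : E n → ℝ} (hf : ContDiff ℝ 2 f) (i j : Fin n) (x : E n) :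
    pd i (pd j f) x = fderiv ℝ (fderiv ℝ f) x (ee i) (ee j) := by
  have d : DifferentiableAt ℝ (fderiv ℝ f) x :=
    (hf.fderiv_right (m := 1) (by norm_num)).differentiable (by norm_num) x
  have : pd j f = fun y => fderiv ℝ f y (ee j) := rfl
  rw [pd, this, fderiv_clm_apply d (differentiableAt_const _)]
  simp

theorem pd_comm {f : E n → ℝ} (hf : ContDiff ℝ 2 f) (i j : Fin n) (x : E n) :
    pd i (pd j f) x = pd j (pd i f) x := by
  rw [calc_pd_pd hf, calc_pd_pd hf]
  exact (hf.contDiffAt.isSymmSndFDerivAt (by simp)).eq _ _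

theorem pd_comm' {f : E n → ℝ} (hf : ContDiff ℝ 2 f) (i j : Fin n) :
    pd i (pd j f) = pd j (pd i f) := funext (pd_comm hf i j)

theorem hess_symm {f : E n → ℝ} (hf : ContDiff ℝ 2 f) (x : E n) (i j : Fin n) :
    hess f x i j = hess f x j i := pd_comm hf i j x

/-- third derivatives: `pdM e (hess f) = hess (pd e f)` -/
theorem pdM_hess {f : E n → ℝ} (hf : ContDiff ℝ 3 f) (e : Fin n) (x : E n) :
    pdM e (hess f) x = hess (pd e f) x := by
  ext i j
  have h2 : ContDiff ℝ 2 f := hf.of_le (by norm_num)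
  show pd e (pd i (pd j f)) x = pd i (pd j (pd e f)) x
  rw [pd_comm (contDiff_pd hf (by norm_num) j) e i x, pd_comm' h2 e j]

theorem pdM_hess_symm1 {f : E n → ℝ} (hf : ContDiff ℝ 3 f) (x : E n) (e i j : Fin n) :
    pdM e (hess f) x i j = pdM e (hess f) x j i := by
  have h2 : ContDiff ℝ 2 f := hf.of_le (by norm_num)
  show pd e (pd i (pd j f)) x = pd e (pd j (pd i f)) x
  rw [pd_comm' h2 i j]

theorem pdM_hess_symm2 {f : E n → ℝ} (hf : ContDiff ℝ 3 f) (x : E n) (e i j : Fin n) :
    pdM e (hess f) x i j = pdM i (hess f) x e j := by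
  show pd e (pd i (pd j f)) x = pd i (pd e (pd j f)) x
  exact pd_comm (contDiff_pd hf (by norm_num) j) e i x

theorem contDiff_mul_entry {A B : E n → Mat n} {m : WithTop ℕ∞}
    (hA : ∀ i j, ContDiff ℝ m fun x => A x i j) (hB : ∀ i j, ContDiff ℝ m fun x => B x i j)
    (i j : Fin n) : ContDiff ℝ m fun x => (A x * B x) i j := by
  simp only [Matrix.mul_apply]
  exact ContDiff.sum fun k _ => (hA i k).mul (hB k j)

theorem continuous_mul_entry {A B : E n → Mat n}
    (hA : ∀ i j, Continuous fun x => A x i j) (hB : ∀ i j, Continuous fun x => B x i j)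
    (i j : Fin n) : Continuous fun x => (A x * B x) i j := by
  simp only [Matrix.mul_apply]
  exact continuous_finsetSum _ fun k _ => (hA i k).mul (hB k j)

theorem continuous_trace {A : E n → Mat n} (hA : ∀ i j, Continuous fun x => A x i j) :
    Continuous fun x => (A x).trace := by
  simp only [Matrix.trace, Matrix.diag]
  exact continuous_finsetSum _ fun k _ => hA k k

/-- Leibniz rule for matrix fields -/
theorem pdM_mul {A B : E n → Mat n} (hA : ∀ i j, ContDiff ℝ 1 fun x => A x i j)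
    (hB : ∀ i j, ContDiff ℝ 1 fun x => B x i j) (e : Fin n) (x : E n) :
    pdM e (fun y => A y * B y) x = pdM e A x * B x + A x * pdM e B x := by
  ext i j
  have dA := fun i j => (hA i j).differentiable (by norm_num) x
  have dB := fun i j => (hB i j).differentiable (by norm_num) x
  simp only [pdM, Matrix.of_apply, Matrix.mul_apply, Matrix.add_apply]
  rw [pd_sum (f := fun k y => A y i k * B y k j) _ e fun k _ => (dA i k).mul (dB k j),
    ← Finset.sum_add_distrib]
  exact Finset.sum_congr rfl fun k _ => pd_mul e (dA i k) (dB k j)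

theorem calc_sum (v : E n) : v = ∑ i, v i • ee i := by
  ext j
  simp [ee, Pi.single_apply]

theorem fderiv_eq_sum (f : E n → ℝ) (x v : E n) : fderiv ℝ f x v = ∑ i, v i * pd i f x := by
  conv_lhs => rw [calc_sum v]
  simp [pd]

theorem norm_fderiv_sq (f : E n → ℝ) (x : E n) : ‖fderiv ℝ f x‖ ^ 2 = ∑ i, pd i f x ^ 2 := by
  simp only [pd]
  obtain ⟨v, hv⟩ := (InnerProductSpace.toDual ℝ (E n)).surjective (fderiv ℝ f x)
  rw [← hv, LinearIsometryEquiv.norm_map, EuclideanSpace.real_norm_sq_eq]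
  refine Finset.sum_congr rfl fun k _ => ?_
  simp [ee, EuclideanSpace.inner_single_right]

theorem pd_of_hasGradientAt {f : E n → ℝ} {v x : E n} (h : HasGradientAt f v x) (i : Fin n) :
    pd i f x = v i := by
  simp only [pd, h.hasFDerivAt.fderiv]
  simp [ee, EuclideanSpace.inner_single_right]

theorem pd_neg_arg (i : Fin n) (f : E n → ℝ) (x : E n) :
    pd i (fun y => f (-y)) x = -pd i f (-x) := by
  have := (ContinuousLinearEquiv.neg ℝ : E n ≃L[ℝ] E n).comp_right_fderiv (f := f) (x := x)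
  simp only [pd]
  erw [this]
  simp

theorem pd_even {f : E n → ℝ} (hf : ∀ x, f (-x) = f x) (i : Fin n) (x : E n) :
    pd i f (-x) = -pd i f x := by
  have h := pd_neg_arg i f x
  rw [show (fun y => f (-y)) = f from funext hf] at h
  linarith

theorem pd_odd {f : E n → ℝ} (hf : ∀ x, f (-x) = -f x) (i : Fin n) (x : E n) :
    pd i f (-x) = pd i f x := by
  have h := pd_neg_arg i f x
  rw [show (fun y => f (-y)) = fun y => -f y from funext hf, pd_neg] at h
  linarith

theorem hess_even {f : E n → ℝ} (hf : ∀ x, f (-x) = f x) (x : E n) : hess f (-x) = hess f x := by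
  ext i j
  exact pd_odd (pd_even hf j) i x

theorem integral_odd {f : E n → ℝ} (hf : ∀ x, f (-x) = -f x) : ∫ x, f x = 0 := by
  have h := integral_neg_eq_self f (volume : Measure (E n))
  simp only [hf, integral_neg] at h
  linarith

/-- integration by parts -/
theorem ibp {f g : E n → ℝ} (hf : ContDiff ℝ 1 f) (hg : ContDiff ℝ 1 g)
    (hc : HasCompactSupport f ∨ HasCompactSupport g) (i : Fin n) :
    ∫ x, f x * pd i g x = -∫ x, pd i f x * g x := by
  have c1 := continuous_pd hf i
  have c2 := continuous_pd hg i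
  refine integral_mul_fderiv_eq_neg_fderiv_mul_of_integrable ?_ ?_ ?_
    (fun x _ => hf.differentiable (by norm_num) x) (fun x _ => hg.differentiable (by norm_num) x)
  · refine (c1.mul hg.continuous).integrable_of_hasCompactSupport ?_
    rcases hc with h | h
    · exact (cs_pd h i).mul_right
    · exact h.mul_left
  · refine (hf.continuous.mul c2).integrable_of_hasCompactSupport ?_
    rcases hc with h | h
    · exact h.mul_right
    · exact (cs_pd h i).mul_left
  · refine (hf.continuous.mul hg.continuous).integrable_of_hasCompactSupport ?_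
    rcases hc with h | h
    · exact h.mul_right
    · exact h.mul_left

theorem integral_pd {f : E n → ℝ} (hf : ContDiff ℝ 1 f) (hc : HasCompactSupport f) (i : Fin n) :
    ∫ x, pd i f x = 0 := by
  have := ibp (f := fun _ => (1 : ℝ)) contDiff_const hf (Or.inr hc) i
  simpa [pd_const] using this

/-- the fundamental lemma of the calculus of variations -/
theorem eq_zero_of_tst {A : E n → ℝ} (hA : Continuous A)
    (h : ∀ N, Tst N → ∫ x, A x * N x = 0) (x : E n) : A x = 0 := by
  have h1 : ∀ᵐ x : E n, A x = 0 :=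
    ae_eq_zero_of_integral_contDiff_smul_eq_zero hA.locallyIntegrable fun g hg hc => by
      simpa [mul_comm] using h g ⟨hg, hc⟩
  exact congrFun ((Continuous.ae_eq_iff_eq volume hA continuous_const).1 h1) x

/-- Cauchy–Schwarz for weighted integrals over a set -/
theorem cs_int {w f g : E n → ℝ} {s : Set (E n)} (hw : ∀ x, 0 ≤ w x)
    (hf : IntegrableOn (fun x => w x * f x ^ 2) s) (hg : IntegrableOn (fun x => w x * g x ^ 2) s)
    (hfg : IntegrableOn (fun x => w x * (f x * g x)) s) :
    (∫ x in s, w x * (f x * g x)) ^ 2 ≤ (∫ x in s, w x * f x ^ 2) * ∫ x in s, w x * g x ^ 2 := by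
  set a := ∫ x in s, w x * f x ^ 2
  set b := ∫ x in s, w x * (f x * g x)
  set c := ∫ x in s, w x * g x ^ 2
  have key : ∀ t : ℝ, 0 ≤ a * (t * t) + (2 * b) * t + c := fun t => by
    have e : a * (t * t) + (2 * b) * t + c = ∫ x in s, w x * (t * f x + g x) ^ 2 := by
      have : (fun x => w x * (t * f x + g x) ^ 2) = fun x => (t * t * (w x * f x ^ 2) +
          2 * t * (w x * (f x * g x))) + w x * g x ^ 2 := by funext x; ring
      have i1 : Integrable (fun x => t * t * (w x * f x ^ 2) + 2 * t * (w x * (f x * g x)))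
          (volume.restrict s) := (hf.const_mul _).add (hfg.const_mul _)
      rw [this, integral_add i1 hg,
        integral_add (hf.const_mul _) (hfg.const_mul _), integral_const_mul, integral_const_mul]
      ring
    rw [e]
    exact integral_nonneg fun x => mul_nonneg (hw x) (sq_nonneg _)
  have := discrim_le_zero key
  unfold discrim at this
  nlinarith

theorem contDiff_cut (R : ℝ) : ContDiff ℝ ∞ (cut R : E n → ℝ) := by
  exact (bump1 n).contDiff.comp (contDiff_const_smul _)

theorem cut_nonneg (R : ℝ) (x : E n) : 0 ≤ cut R x := by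
  exact (bump1 n).nonneg

theorem cut_le_one (R : ℝ) (x : E n) : cut R x ≤ 1 := by
  exact (bump1 n).le_one

theorem cut_one {R : ℝ} (hR : 0 < R) {x : E n} (hx : ‖x‖ ≤ R) : cut R x = 1 := by
  refine (bump1 n).one_of_mem_closedBall ?_
  rw [mem_closedBall_zero_iff, norm_smul, Real.norm_eq_abs, abs_of_pos (inv_pos.2 hR)]
  show R⁻¹ * ‖x‖ ≤ 1
  rwa [inv_mul_le_iff₀ hR, mul_one]

theorem cut_zero {R : ℝ} (hR : 0 < R) {x : E n} (hx : 3 / 2 * R ≤ ‖x‖) : cut R x = 0 := by
  refine (bump1 n).zero_of_le_dist ?_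
  rw [dist_zero_right, norm_smul, Real.norm_eq_abs, abs_of_pos (inv_pos.2 hR)]
  show 3 / 2 ≤ R⁻¹ * ‖x‖
  rw [le_inv_mul_iff₀ hR]; linarith

theorem tsupport_cut {R : ℝ} (hR : 0 < R) :
    tsupport (cut R : E n → ℝ) ⊆ closedBall 0 (3 / 2 * R) := by
  refine closure_minimal (fun x hx => ?_) isClosed_closedBall
  rw [mem_closedBall_zero_iff]
  by_contra h
  exact hx (cut_zero hR (not_le.1 h).le)

theorem tst_cut {R : ℝ} (hR : 0 < R) : Tst (cut R : E n → ℝ) := by
  exact ⟨contDiff_cut R, (isCompact_closedBall _ _).of_isClosed_subset (isClosed_tsupport _)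
    (tsupport_cut hR)⟩

theorem pd_cut_in {R : ℝ} (hR : 0 < R) {x : E n} (hx : ‖x‖ < R) (i : Fin n) :
    pd i (cut R) x = 0 := by
  have : cut R =ᶠ[nhds x] fun _ : E n => (1 : ℝ) := by
    filter_upwards [isOpen_ball.mem_nhds (mem_ball_zero_iff.2 hx)] with y hy
    exact cut_one hR (mem_ball_zero_iff.1 hy).le
  simp [pd, this.fderiv_eq]

theorem pd_cut_out {R : ℝ} (hR : 0 < R) {x : E n} (hx : 3 / 2 * R < ‖x‖) (i : Fin n) :
    pd i (cut R) x = 0 := by
  refine pd_eq_zero (fun h => ?_) i
  have := mem_closedBall_zero_iff.1 (tsupport_cut hR h)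
  linarith

theorem pd_cut_le (n : ℕ) : ∃ D : ℝ, 0 ≤ D ∧ ∀ R : ℝ, 0 < R → ∀ (x : E n) (i : Fin n),
    |pd i (cut R) x| ≤ D / R := by
  have hb : ContDiff ℝ 1 (bump1 n : E n → ℝ) := (bump1 n).contDiff
  obtain ⟨D, hD⟩ := ((bump1 n).hasCompactSupport.fderiv ℝ).exists_bound_of_continuous
    (hb.continuous_fderiv (by norm_num))
  refine ⟨D, (norm_nonneg _).trans (hD 0), fun R hR x i => ?_⟩
  have h1 : HasFDerivAt (fun x : E n => R⁻¹ • x) (R⁻¹ • ContinuousLinearMap.id ℝ (E n)) x :=
    (hasFDerivAt_id x).const_smul R⁻¹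
  have h2 := ((hb.differentiable (by norm_num) (R⁻¹ • x)).hasFDerivAt.comp x h1).fderiv
  have h3 : pd i (cut R) x = R⁻¹ * fderiv ℝ (bump1 n) (R⁻¹ • x) (ee i) := by
    simp only [pd]
    erw [h2]
    simp
  rw [h3, abs_mul, abs_of_pos (inv_pos.2 hR), div_eq_inv_mul]
  refine mul_le_mul_of_nonneg_left ?_ (inv_pos.2 hR).le
  have h4 := (fderiv ℝ (bump1 n) (R⁻¹ • x)).le_opNorm (ee i)
  have h5 : ‖(ee i : E n)‖ = 1 := by simp [ee]
  rw [h5, mul_one] at h4
  exact h4.trans (hD _)

end Crest.Agent.R238
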