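import Crest.Agent.R238.Calc

/-!
# R238 / Cutoff: cut-off functions between concentric balls

`ζ x = g((‖x-x₀‖² - ρ'²)/(ρ''² - ρ'²))`, `ρ'' = (ρ+ρ')/2`, `g s = smoothTransition (1 - s)`;
`|g'| ≤ D₀` (continuous, compactly supported derivative), `‖∇ζ‖ ≤ D₀ 2ρ''/(ρ''² - ρ'²) ≤ 4D₀/(ρ-ρ')`.
-/

set_option autoImplicit false
open MeasureTheory Matrix Set Metric
open scoped RealInnerProductSpace ContDiff BigOperators

namespace Crest.Agent.R238

variable {n : ℕ}

theorem cutoff_deriv_neg {t : ℝ} (ht : t < 0) : deriv Real.smoothTransition t = 0 := by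
  have h : Real.smoothTransition =ᶠ[nhds t] fun _ => 0 := by
    filter_upwards [Iio_mem_nhds ht] with s hs
    exact Real.smoothTransition.zero_of_nonpos (le_of_lt hs)
  rw [h.deriv_eq, deriv_const]

theorem cutoff_bound : ∃ D : ℝ, 0 < D ∧ ∀ t, |deriv Real.smoothTransition t| ≤ D := by
  have hc : Continuous (deriv Real.smoothTransition) :=
    (Real.smoothTransition.contDiff (n := 1)).continuous_deriv le_rfl
  obtain ⟨D, hD⟩ := (isCompact_Icc (a := (0 : ℝ)) (b := 1)).exists_bound_of_continuousOn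
    hc.continuousOn
  refine ⟨max D 1, lt_max_of_lt_right one_pos, fun t => ?_⟩
  rcases lt_or_ge t 0 with h0 | h0
  · rw [cutoff_deriv_neg h0, abs_zero]
    positivity
  rcases le_or_gt t 1 with h1 | h1
  · exact (hD t ⟨h0, h1⟩).trans (le_max_left _ _)
  · have h : Real.smoothTransition =ᶠ[nhds t] fun _ => 1 := by
      filter_upwards [Ioi_mem_nhds h1] with s hs
      exact Real.smoothTransition.one_of_one_le (le_of_lt hs)
    rw [h.deriv_eq, deriv_const, abs_zero]
    positivity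

theorem exists_cutoff (n : ℕ) : ∃ D : ℝ, 0 < D ∧ ∀ (x₀ : E n) (ρ' ρ : ℝ), 0 < ρ' → ρ' < ρ →
    ∃ ζ : E n → ℝ, ContDiff ℝ ∞ ζ ∧ HasCompactSupport ζ ∧ tsupport ζ ⊆ ball x₀ ρ ∧
      (∀ x, 0 ≤ ζ x ∧ ζ x ≤ 1) ∧ (∀ x ∈ ball x₀ ρ', ζ x = 1) ∧
      ∀ x, ‖fderiv ℝ ζ x‖ ≤ D / (ρ - ρ') := by
  obtain ⟨D, hD0, hD⟩ := cutoff_bound
  refine ⟨4 * D, by positivity, fun x₀ ρ' ρ h0 h1 => ?_⟩
  obtain ⟨r, hr⟩ : ∃ r, r = (ρ + ρ') / 2 := ⟨_, rfl⟩
  have r1 : ρ' < r := by rw [hr]; linarith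
  have r2 : r < ρ := by rw [hr]; linarith
  have r0 : 0 < r := h0.trans r1
  obtain ⟨A, hA⟩ : ∃ A, A = r ^ 2 - ρ' ^ 2 := ⟨_, rfl⟩
  have hA0 : 0 < A := by rw [hA]; nlinarith
  have hsub : tsupport (fun x : E n => Real.smoothTransition ((r ^ 2 - ‖x - x₀‖ ^ 2) / A)) ⊆
      closedBall x₀ r := by
    refine closure_minimal (fun x hx => ?_) isClosed_closedBall
    by_contra hc
    rw [mem_closedBall, dist_eq_norm, not_le] at hc
    refine hx (Real.smoothTransition.zero_of_nonpos (div_nonpos_of_nonpos_of_nonneg ?_ hA0.le))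
    nlinarith
  refine ⟨fun x => Real.smoothTransition ((r ^ 2 - ‖x - x₀‖ ^ 2) / A), ?_,
    (isCompact_closedBall x₀ r).of_isClosed_subset (isClosed_tsupport _) hsub,
    hsub.trans (closedBall_subset_ball r2),
    fun x => ⟨Real.smoothTransition.nonneg _, Real.smoothTransition.le_one _⟩, fun x hx => ?_,
    fun x => ?_⟩
  · exact Real.smoothTransition.contDiff.comp ((contDiff_const.sub
      ((contDiff_norm_sq ℝ).comp (contDiff_id.sub contDiff_const))).div_const A)
  · rw [mem_ball, dist_eq_norm] at hx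
    refine Real.smoothTransition.one_of_one_le ?_
    rw [le_div_iff₀ hA0, hA]
    nlinarith [norm_nonneg (x - x₀)]
  · have d1 : HasFDerivAt (fun y : E n => ‖y - x₀‖ ^ 2)
        (2 • (innerSL ℝ (x - x₀)).comp (ContinuousLinearMap.id ℝ (E n))) x :=
      ((hasFDerivAt_id x).sub_const x₀).norm_sq
    have d2 := ((d1.const_sub (r ^ 2)).mul_const A⁻¹)
    have d3 : HasDerivAt Real.smoothTransition
        (deriv Real.smoothTransition ((r ^ 2 - ‖x - x₀‖ ^ 2) * A⁻¹))
        ((r ^ 2 - ‖x - x₀‖ ^ 2) * A⁻¹) :=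
      ((Real.smoothTransition.contDiff (n := 1)).differentiable (by simp) _).hasDerivAt
    have d4 := d3.comp_hasFDerivAt x d2
    simp only [div_eq_mul_inv (_ - _) A]
    rw [show (fun y : E n => Real.smoothTransition ((r ^ 2 - ‖y - x₀‖ ^ 2) * A⁻¹)) =
      Real.smoothTransition ∘ fun y : E n => (r ^ 2 - ‖y - x₀‖ ^ 2) * A⁻¹ from rfl, d4.fderiv]
    have hρ : 0 < ρ - ρ' := sub_pos.2 h1
    rcases le_or_gt ‖x - x₀‖ r with hx | hx
    · rw [norm_smul, norm_smul, norm_neg, ContinuousLinearMap.comp_id, two_smul, Real.norm_eq_abs,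
        Real.norm_eq_abs, abs_of_pos (inv_pos.2 hA0)]
      have h2 : ‖innerSL ℝ (x - x₀) + innerSL ℝ (x - x₀)‖ ≤ 2 * r := by
        refine (norm_add_le _ _).trans ?_
        rw [innerSL_apply_norm]
        linarith
      have h3 : A⁻¹ * (2 * r) ≤ 4 / (ρ - ρ') := by
        rw [inv_mul_eq_div, div_le_div_iff₀ hA0 hρ, hA, hr]
        nlinarith
      refine (mul_le_mul (hD _) (mul_le_mul_of_nonneg_left h2 (inv_pos.2 hA0).le) (by positivity)
        hD0.le).trans ((mul_le_mul_of_nonneg_left h3 hD0.le).trans (le_of_eq ?_))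
      ring
    · rw [cutoff_deriv_neg (mul_neg_of_neg_of_pos (by nlinarith) (inv_pos.2 hA0)), zero_smul,
        norm_zero]
      positivity

/-- a function which is `C¹` on an open set times a function supported there -/
theorem contDiff_mul_of_tsupport {ζ f : E n → ℝ} {B : Set (E n)} (hB : IsOpen B)
    (hζ : ContDiff ℝ 1 ζ) (hs : tsupport ζ ⊆ B) (hf : ContDiffOn ℝ 1 f B) :
    ContDiff ℝ 1 fun x => ζ x * f x := by
  refine contDiff_iff_contDiffAt.2 fun x => ?_
  by_cases hx : x ∈ B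
  · exact hζ.contDiffAt.mul (hf.contDiffAt (hB.mem_nhds hx))
  · have h : (fun x => ζ x * f x) =ᶠ[nhds x] fun _ => 0 := by
      filter_upwards [notMem_tsupport_iff_eventuallyEq.1 fun h => hx (hs h)] with y hy
      rw [hy, Pi.zero_apply, zero_mul]
    exact contDiffAt_const.congr_of_eventuallyEq h

end Crest.Agent.R238
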