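import Crest.Agent.R238.EMol
import Crest.Agent.R238.MatL

/-! # R238 / DConstA: scaled convolutions and the kernel adapted to a constant matrix -/

set_option autoImplicit false
open MeasureTheory Matrix Set Metric
open scoped RealInnerProductSpace ContDiff BigOperators

namespace Crest.Agent.R238

variable {n : ℕ}

/-- scaled convolution -/
noncomputable def dcv (w f : E n → ℝ) (s : ℝ) (x : E n) : ℝ := ∫ z, w z * f (x - s • z)

theorem Tst.dc1 {w : E n → ℝ} (hw : Tst w) : ContDiff ℝ 1 w := hw.cd.of_le (by simp)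
theorem Tst.dc2 {w : E n → ℝ} (hw : Tst w) : ContDiff ℝ 2 w := contDiff_infty.1 hw.cd 2
theorem Tst.dc0 {w : E n → ℝ} (hw : Tst w) : Continuous w := hw.cd.continuous

theorem dconst_int {w F : E n → ℝ} (hw : Tst w) (hF : Continuous F) :
    Integrable fun z => w z * F z :=
  (hw.dc0.mul hF).integrable_of_hasCompactSupport hw.cs.mul_right

theorem dconst_int' {w f : E n → ℝ} (hw : Tst w) (hf : Continuous f) (s : ℝ) (x : E n) :
    Integrable fun z => w z * f (x - s • z) := dconst_int hw (by fun_prop)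

theorem dconst_tst_sum {ι : Type*} (s : Finset ι) {f : ι → E n → ℝ} (hf : ∀ k, Tst (f k)) :
    Tst fun x => ∑ k ∈ s, f k x := by
  classical
  induction s using Finset.induction_on with
  | empty =>
    simp only [Finset.sum_empty]
    exact ⟨contDiff_const, HasCompactSupport.zero⟩
  | insert a s ha ih => simpa only [Finset.sum_insert ha] using (hf a).add ih

theorem dconst_ibp {w f : E n → ℝ} (hw : Tst w) (hf : ContDiff ℝ 1 f) (i : Fin n) (s : ℝ)
    (x : E n) : s * dcv w (pd i f) s x = dcv (pd i w) f s x := by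
  have h1 : ContDiff ℝ 1 fun z : E n => f (x - s • z) := hf.comp (by fun_prop)
  have h2 := ibp hw.dc1 h1 (Or.inl hw.cs) i
  have h3 : ∀ z, pd i (fun z : E n => f (x - s • z)) z = -s * pd i f (x - s • z) := by
    intro z
    have := ((hf.differentiable one_ne_zero (x - s • z)).hasFDerivAt.comp z
      (((hasFDerivAt_id z).const_smul s).const_sub x)).fderiv
    refine (congrArg (fun L : E n →L[ℝ] ℝ => L (ee i)) this).trans ?_
    simp [pd]
  simp only [h3] at h2
  unfold dcv
  rw [← integral_const_mul, ← neg_inj, ← h2, ← integral_neg]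
  congr 1; funext z; ring

theorem dconst_deriv {w f : E n → ℝ} (hw : Tst w) (hf : Tst f) {p m : E n → E n}
    (hp : Continuous p) (hm : Continuous m) (t : ℝ) :
    HasDerivAt (fun t : ℝ => ∫ z, w z * f (p z + t • m z))
      (∑ k, ∫ z, (w z * m z k) * pd k f (p z + t • m z)) t := by
  have hc : Continuous (fderiv ℝ f) := hf.dc1.continuous_fderiv one_ne_zero
  obtain ⟨M, hM⟩ := hc.bounded_above_of_compact_support (hf.cs.fderiv ℝ)
  have hfc := hf.dc0
  have key := (hasDerivAt_integral_of_dominated_loc_of_deriv_le (μ := volume) (x₀ := t)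
    (F := fun t z => w z * f (p z + t • m z))
    (F' := fun t z => w z * fderiv ℝ f (p z + t • m z) (m z)) (bound := fun z => ‖w z * (M * ‖m z‖)‖)
    (s := univ) Filter.univ_mem
    (Filter.Eventually.of_forall fun t => (dconst_int hw (by fun_prop)).aestronglyMeasurable)
    (dconst_int hw (by fun_prop)) (dconst_int hw (by fun_prop)).aestronglyMeasurable
    (Filter.Eventually.of_forall fun z t _ => ?_) (dconst_int hw (by fun_prop)).norm
    (Filter.Eventually.of_forall fun z t _ => ?_)).2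
  · refine key.congr_deriv ?_
    rw [← integral_finsetSum]
    · congr 1; funext z
      rw [fderiv_eq_sum, Finset.mul_sum]
      exact Finset.sum_congr rfl fun k _ => by ring
    · intro k _
      have := continuous_pd hf.dc1 k
      simp only [mul_assoc]
      exact dconst_int hw (by fun_prop)
  · rw [norm_mul, norm_mul]
    refine mul_le_mul_of_nonneg_left ?_ (norm_nonneg _)
    exact ((fderiv ℝ f _).le_of_opNorm_le (hM _) _).trans (le_abs_self _)
  · have h1 : HasDerivAt (fun t : ℝ => p z + t • m z) (m z) t := by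
      simpa using ((hasDerivAt_id t).smul_const (m z)).const_add (p z)
    exact ((hf.dc1.differentiable one_ne_zero _).hasFDerivAt.comp_hasDerivAt t h1).const_mul (w z)

theorem dconst_deriv_s {w f : E n → ℝ} (hw : Tst w) (hf : Tst f) (x : E n) (s : ℝ) :
    HasDerivAt (fun s => dcv w f s x) (∑ k, dcv (fun z => -(z k * w z)) (pd k f) s x) s := by
  have := dconst_deriv hw hf (p := fun _ => x) (m := fun z => -z) continuous_const continuous_neg s
  simp only [smul_neg, ← sub_eq_add_neg] at this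
  refine this.congr_deriv (Finset.sum_congr rfl fun k _ => ?_)
  unfold dcv
  congr 1; funext z
  simp [mul_comm]

theorem dconst_deriv_x {w f : E n → ℝ} (hw : Tst w) (hf : Tst f) (x v : E n) (s t : ℝ) :
    HasDerivAt (fun t : ℝ => dcv w f s (x + t • v)) (∑ k, v k * dcv w (pd k f) s (x + t • v)) t := by
  have := dconst_deriv hw hf (p := fun z => x - s • z) (m := fun _ => v) (by fun_prop)
    continuous_const t
  simp only [sub_add_eq_add_sub] at this
  refine this.congr_deriv (Finset.sum_congr rfl fun k _ => ?_)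
  unfold dcv
  rw [← integral_const_mul]
  congr 1; funext z; ring

theorem dconst_zero {w : E n → ℝ} (hw : ∫ z, w z = 1) (f : E n → ℝ) (x : E n) : dcv w f 0 x = f x := by
  simp [dcv, integral_mul_const, hw]

theorem dconst_bdd {w f : E n → ℝ} (hw : Tst w) (hf : Tst f) : ∃ M, ∀ s x, |dcv w f s x| ≤ M := by
  obtain ⟨M, hM⟩ := hf.dc0.bounded_above_of_compact_support hf.cs
  refine ⟨∫ z, ‖w z * M‖, fun s x => ?_⟩
  unfold dcv
  rw [← Real.norm_eq_abs]
  refine norm_integral_le_of_norm_le (dconst_int hw continuous_const).norm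
    (Filter.Eventually.of_forall fun z => ?_)
  rw [norm_mul, norm_mul]
  exact mul_le_mul_of_nonneg_left ((hM _).trans (le_abs_self _)) (norm_nonneg _)

theorem dconst_hol {γ : ℝ} (hγ : 0 < γ) {w : E n → ℝ} (hw : Tst w) (h0 : ∫ z, w z = 0) :
    ∃ A, 0 ≤ A ∧ ∀ (g : E n → ℝ) (K : ℝ), Continuous g → Hol γ K g univ → ∀ s, 0 ≤ s → ∀ x,
      |dcv w g s x| ≤ A * K * s ^ γ := by
  have hc : Continuous fun z : E n => ‖z‖ ^ γ := continuous_norm.rpow_const fun _ => Or.inr hγ.le
  refine ⟨∫ z, ‖w z * ‖z‖ ^ γ‖, integral_nonneg fun z => norm_nonneg _, fun g K hg hK s hs x => ?_⟩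
  have e : dcv w g s x = ∫ z, w z * (g (x - s • z) - g x) := by
    simp only [mul_sub]
    rw [integral_sub (dconst_int' hw hg s x) (dconst_int hw continuous_const), integral_mul_const, h0]
    simp [dcv]
  rw [e, mul_assoc, ← integral_mul_const, ← Real.norm_eq_abs]
  refine norm_integral_le_of_norm_le ((dconst_int hw hc).norm.mul_const _)
    (Filter.Eventually.of_forall fun z => ?_)
  have := hK (x - s • z) (mem_univ _) x (mem_univ _)
  rw [sub_sub_cancel_left, norm_neg, norm_smul, Real.norm_of_nonneg hs,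
    Real.mul_rpow hs (norm_nonneg _)] at this
  rw [norm_mul, norm_mul, Real.norm_of_nonneg (Real.rpow_nonneg (norm_nonneg z) γ), mul_assoc]
  exact mul_le_mul_of_nonneg_left (this.trans (le_of_eq (by ring))) (norm_nonneg _)

theorem dconst_mvt {f f' B B' : ℝ → ℝ} {a b : ℝ} (hab : a ≤ b) (hf : ContinuousOn f (Icc a b))
    (hB : ContinuousOn B (Icc a b)) (hf' : ∀ s ∈ Ioo a b, HasDerivAt f (f' s) s)
    (hB' : ∀ s ∈ Ioo a b, HasDerivAt B (B' s) s) (h : ∀ s ∈ Ioo a b, |f' s| ≤ B' s) :
    |f b - f a| ≤ B b - B a := by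
  have h1 := monotoneOn_of_hasDerivWithinAt_nonneg (f := fun s => B s - f s)
    (f' := fun s => B' s - f' s) (convex_Icc a b) (hB.sub hf)
    (fun s hs => by
      rw [interior_Icc] at hs ⊢; exact ((hB' s hs).sub (hf' s hs)).hasDerivWithinAt)
    (fun s hs => by rw [interior_Icc] at hs; linarith [(abs_le.1 (h s hs)).2])
    (left_mem_Icc.2 hab) (right_mem_Icc.2 hab) hab
  have h2 := monotoneOn_of_hasDerivWithinAt_nonneg (f := fun s => B s + f s)
    (f' := fun s => B' s + f' s) (convex_Icc a b) (hB.add hf)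
    (fun s hs => by
      rw [interior_Icc] at hs ⊢; exact ((hB' s hs).add (hf' s hs)).hasDerivWithinAt)
    (fun s hs => by rw [interior_Icc] at hs; linarith [(abs_le.1 (h s hs)).1])
    (left_mem_Icc.2 hab) (right_mem_Icc.2 hab) hab
  simp only at h1 h2
  exact abs_le.2 ⟨by linarith, by linarith⟩

theorem dconst_kernel {c C : ℝ} {a : Mat n} (ha : Ell c C a) (hc : 0 < c) :
    ∃ ρ Θ : E n → ℝ, Tst ρ ∧ Tst Θ ∧ ∫ z, ρ z = 1 ∧
      ∀ k z, -(z k * ρ z) = ∑ l, a k l * pd l Θ z := by
  have hvv : ∀ v : Fin n → ℝ, 0 ≤ v ⬝ᵥ v := fun v => Finset.sum_nonneg fun i _ => mul_self_nonneg _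
  have ha' : Ell c (max c C) a := ⟨ha.symm, ha.lo, fun v =>
    (ha.hi v).trans (mul_le_mul_of_nonneg_right (le_max_right _ _) (hvv v))⟩
  have hb := ha'.inv hc (le_max_left _ _)
  have hC : 0 < max c C := hc.trans_le (le_max_left _ _)
  set Q : E n → ℝ := fun z => ∑ i, z i * ∑ j, a⁻¹ i j * z j with hQ
  have hQs : ContDiff ℝ ∞ Q := by fun_prop
  have hQ1 : ∀ z : E n, z ∉ closedBall (0 : E n) √(max c C) → 1 - Q z ≤ 0 := by
    intro z hz
    rw [mem_closedBall_zero_iff, not_le, Real.sqrt_lt' ((Real.sqrt_nonneg _).trans_lt (by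
      simpa using hz)), EuclideanSpace.real_norm_sq_eq] at hz
    have h1 : (max c C)⁻¹ * (z.ofLp ⬝ᵥ z.ofLp) ≤ Q z := hb.lo z.ofLp
    have h2 : z.ofLp ⬝ᵥ z.ofLp = ∑ i, z i ^ 2 := Finset.sum_congr rfl fun i _ => (sq _).symm
    rw [h2] at h1
    have h3 := mul_le_mul_of_nonneg_left hz.le (inv_pos.2 hC).le
    rw [inv_mul_cancel₀ hC.ne'] at h3
    linarith
  have hpd : ∀ l z, pd l Q z = 2 * ∑ j, a⁻¹ l j * z j := by
    intro l z
    have h1 : ∀ i, pd l (fun z : E n => ∑ j, a⁻¹ i j * z j) z = a⁻¹ l i := by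
      intro i
      rw [pd_sum _ _ (fun j _ => by fun_prop)]
      simp [pd_const_mul, pd_coord, hb.symm i l]
    rw [hQ, pd_sum _ _ (fun j _ => by fun_prop)]
    rw [Finset.sum_congr rfl fun i _ => pd_mul l (by fun_prop) (by fun_prop)]
    simp only [h1, pd_coord, ite_mul, one_mul, zero_mul, Finset.sum_add_distrib, Finset.sum_ite_eq,
      Finset.mem_univ, if_true, mul_comm (z _)]
    ring
  have he : ∀ t, HasDerivAt expNegInvGlue (t⁻¹ ^ 2 * expNegInvGlue t) t := fun t => by
    simpa using expNegInvGlue.hasDerivAt_polynomial_eval_inv_mul 1 t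
  have he1 : ContDiff ℝ ∞ fun t : ℝ => t⁻¹ ^ 2 * expNegInvGlue t := by
    have := (contDiff_infty_iff_deriv.1 (expNegInvGlue.contDiff (n := ⊤))).2
    rwa [show deriv expNegInvGlue = fun t : ℝ => t⁻¹ ^ 2 * expNegInvGlue t from
      funext fun t => (he t).deriv] at this
  have t1 : Tst fun z => (1 - Q z)⁻¹ ^ 2 * expNegInvGlue (1 - Q z) :=
    ⟨he1.comp (contDiff_const.sub hQs), HasCompactSupport.intro (isCompact_closedBall _ _)
      fun z hz => by rw [expNegInvGlue.zero_of_nonpos (hQ1 z hz), mul_zero]⟩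
  have t2 : Tst fun z => expNegInvGlue (1 - Q z) :=
    ⟨expNegInvGlue.contDiff.comp (contDiff_const.sub hQs),
      HasCompactSupport.intro (isCompact_closedBall _ _)
        fun z hz => expNegInvGlue.zero_of_nonpos (hQ1 z hz)⟩
  have hpos : 0 < ∫ z, (1 - Q z)⁻¹ ^ 2 * expNegInvGlue (1 - Q z) :=
    t1.dc0.integral_pos_of_hasCompactSupport_nonneg_nonzero t1.cs
      (fun z => mul_nonneg (sq_nonneg _) (expNegInvGlue.nonneg _)) (x := 0)
      (by simp [hQ])
  refine ⟨_, _, t1.const_mul (∫ z, (1 - Q z)⁻¹ ^ 2 * expNegInvGlue (1 - Q z))⁻¹,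
    t2.const_mul ((∫ z, (1 - Q z)⁻¹ ^ 2 * expNegInvGlue (1 - Q z))⁻¹ / 2), ?_, fun k z => ?_⟩
  · rw [integral_const_mul, inv_mul_cancel₀ hpos.ne']
  · have hd : DifferentiableAt ℝ Q z := hQs.differentiable (by simp) z
    have h1 : ∀ l, pd l (fun z => expNegInvGlue (1 - Q z)) z =
        (1 - Q z)⁻¹ ^ 2 * expNegInvGlue (1 - Q z) * -(2 * ∑ j, a⁻¹ l j * z j) := by
      intro l
      rw [pd_comp (f := fun z => 1 - Q z) l (he _) ((differentiableAt_const _).sub hd),
        pd_sub l (differentiableAt_const _) hd, pd_const, hpd, zero_sub]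
    have h2 : ∑ l, a k l * ∑ j, a⁻¹ l j * z j = z k := by
      have := congrFun (congrArg (fun M : Mat n => M *ᵥ z.ofLp) (ha.mul_inv hc)) k
      simp only [← Matrix.mulVec_mulVec, Matrix.one_mulVec] at this
      exact this
    simp only [pd_const_mul, h1]
    rw [← h2, Finset.sum_mul, ← Finset.sum_neg_distrib]
    exact Finset.sum_congr rfl fun l _ => by ring

end Crest.Agent.R238
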