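import Crest.Agent.R238.EMol
import Crest.Agent.R238.MatL
import Crest.Agent.R238.DConstA

/-!
# R238 / DConst: Schauder estimate for constant coefficients   [SUB-LEAD size: ~900 lines]

Kernel: `Q z = zᵀ a⁻¹ z`, `h : ℝ → ℝ` smooth, antitone, `h = 0` on `[1,∞)`, `h = 1` on `(-∞,0]`
(`h s = smoothTransition (1-s)`), `Θ = h∘Q/2`, `ρ = -κ h'(Q)` with `κ` s.t. `∫ρ = 1`.  Then
`a∇Θ = z h'(Q)`, so `div(zρ) = -κ a:D²Θ`.  With `f_r z = r^{-n} f(z/r)`:
`∂_r ρ_r = -(1/r)(div(zρ))_r = κ r a:D²(Θ_r)`.  Put `I(r,x) = ∫ ρ_r(x-y) q_{ij}(y) dy`.  Two + two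
integrations by parts: `∂_r I(r,x) = κ r ∫ ∂_{ij}(Θ_r)(x-y) g(y) dy = (κ/r) ∫ (∂_{ij}Θ)(z) g(x - r z) dz`,
`g = a : D²q`.  (Simplest: write `I(r,x) = ∫ ρ(z) q_{ij}(x - r z) dz`; to avoid differentiating
`q_{ij}`, first prove everything for `q` smooth and then apply it to `mol ε q`, whose `g` has the same
Hölder constant, `ε → 0`.)  Since `∫∂_{ij}Θ = 0`: `|∂_r I| ≤ C K r^{γ-1}`, so
`|I(r,x) - q_{ij}(x)| ≤ C K r^γ/γ`.  For `J(s,x) = ∫ ∂_{ij}Θ(z) g(x - s z)dz`:
`|∇_x J| ≤ C K s^{γ-1}` (put the derivative on `Θ`, mean zero again), so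
`|I(r,x) - I(r,y)| ≤ ∫_r^∞ C K |x-y| s^{γ-2} ds` because `I(s,·) → 0` as `s → ∞` (`n ≥ 1`).
Take `r = |x-y|`.
-/

set_option autoImplicit false
open MeasureTheory Matrix Set Metric
open scoped RealInnerProductSpace ContDiff BigOperators

namespace Crest.Agent.R238

variable {n : ℕ}

/-- the operator -/
noncomputable def dL (a : Mat n) (u : E n → ℝ) (x : E n) : ℝ := ∑ k, ∑ l, a k l * pd k (pd l u) x

theorem dconst_tst_L (a : Mat n) {u : E n → ℝ} (hu : Tst u) : Tst (dL a u) :=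
  dconst_tst_sum _ fun k => dconst_tst_sum _ fun l => ((hu.pd l).pd k).const_mul _

theorem dconst_L_pd (a : Mat n) {u : E n → ℝ} (hu : Tst u) (i : Fin n) :
    dL a (pd i u) = pd i (dL a u) := by
  funext x
  have hd : ∀ {v : E n → ℝ}, Tst v → DifferentiableAt ℝ v x := fun hv =>
    hv.dc1.differentiable one_ne_zero x
  unfold dL
  rw [pd_sum _ _ fun k _ => hd (dconst_tst_sum _ fun l => ((hu.pd l).pd k).const_mul _)]
  refine Finset.sum_congr rfl fun k _ => ?_
  rw [pd_sum _ _ fun l _ => hd (((hu.pd l).pd k).const_mul _)]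
  refine Finset.sum_congr rfl fun l _ => ?_
  rw [pd_const_mul, pd_comm (hu.pd l).dc2 i k, pd_comm' hu.dc2 i l]

theorem dconst_flow {a : Mat n} {ρ Θ : E n → ℝ} (hρ : Tst ρ) (hΘ : Tst Θ) (hs : ∀ i j, a i j = a j i)
    (h : ∀ k z, -(z k * ρ z) = ∑ l, a k l * pd l Θ z) {u : E n → ℝ} (hu : Tst u) (x : E n) (s : ℝ) :
    HasDerivAt (fun s => dcv ρ u s x) (s * dcv Θ (dL a u) s x) s := by
  refine (dconst_deriv_s hρ hu x s).congr_deriv ?_
  have e1 : ∀ k, dcv (fun z => -(z k * ρ z)) (pd k u) s x =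
      ∑ l, a k l * (s * dcv Θ (pd l (pd k u)) s x) := by
    intro k
    simp only [dconst_ibp hΘ (hu.pd k).dc1, h]
    unfold dcv
    simp only [Finset.sum_mul, mul_assoc]
    rw [integral_finsetSum _ fun l _ => (dconst_int' (hΘ.pd l) (hu.pd k).dc0 s x).const_mul _]
    simp only [integral_const_mul]
  have e2 : dcv Θ (dL a u) s x = ∑ k, ∑ l, a k l * dcv Θ (pd k (pd l u)) s x := by
    unfold dcv dL
    simp only [Finset.mul_sum, mul_left_comm (Θ _)]
    rw [integral_finsetSum _ fun k _ => integrable_finsetSum _ fun l _ =>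
      (dconst_int' hΘ ((hu.pd l).pd k).dc0 s x).const_mul _]
    refine Finset.sum_congr rfl fun k _ => ?_
    rw [integral_finsetSum _ fun l _ => (dconst_int' hΘ ((hu.pd l).pd k).dc0 s x).const_mul _]
    simp only [integral_const_mul]
  simp only [e1, e2, Finset.mul_sum]
  rw [Finset.sum_comm]
  exact Finset.sum_congr rfl fun k _ => Finset.sum_congr rfl fun l _ => by rw [hs l k]; ring

theorem dconst_grad {γ : ℝ} (hγ : 0 < γ) {w : E n → ℝ} (hw : Tst w) :
    ∃ A, 0 ≤ A ∧ ∀ (g : E n → ℝ) (K : ℝ), Tst g → 0 ≤ K → Hol γ K g univ → ∀ s, 0 < s → ∀ x y,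
      |dcv w g s x - dcv w g s y| ≤ A * K * s ^ (γ - 1) * ‖x - y‖ := by
  choose A hA0 hA using fun k => dconst_hol hγ (hw.pd k) (integral_pd hw.dc1 hw.cs k)
  refine ⟨∑ k, A k, Finset.sum_nonneg fun k _ => hA0 k, fun g K hg hK0 hK s hs x y => ?_⟩
  have hd := dconst_deriv_x hw hg y (x - y) s
  have := dconst_mvt (a := 0) (b := 1) (B := fun t => (∑ k, A k) * K * s ^ (γ - 1) * ‖x - y‖ * t)
    zero_le_one (fun t _ => (hd t).continuousAt.continuousWithinAt) (by fun_prop)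
    (fun t _ => hd t) (fun t _ => (hasDerivAt_id' t).const_mul _) fun t _ => by
      refine (Finset.abs_sum_le_sum_abs _ _).trans ?_
      simp only [Finset.sum_mul, mul_one]
      refine Finset.sum_le_sum fun k _ => ?_
      have h1 := hA k g K hg.dc0 hK s hs.le (y + t • (x - y))
      rw [← dconst_ibp hw hg.dc1, abs_mul, abs_of_pos hs] at h1
      have h2 : |dcv w (pd k g) s (y + t • (x - y))| ≤ A k * K * s ^ (γ - 1) := by
        rw [Real.rpow_sub_one hs.ne', ← mul_div_assoc, le_div_iff₀ hs]; linarith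
      rw [abs_mul, mul_comm]
      exact mul_le_mul h2 (PiLp.norm_apply_le (x - y) k) (abs_nonneg _) ((abs_nonneg _).trans h2)
  simpa using this

theorem dconst_smooth {c C γ : ℝ} {a : Mat n} (ha : Ell c C a) (hc : 0 < c) (hγ : 0 < γ)
    (hγ1 : γ < 1) (i j : Fin n) : ∃ Cs : ℝ, 0 ≤ Cs ∧ ∀ (q : E n → ℝ) (K : ℝ), Tst q → 0 ≤ K →
      Hol γ K (dL a q) univ → Hol γ (Cs * K) (pd i (pd j q)) univ := by
  obtain ⟨ρ, Θ, hρ, hΘ, h1, h2⟩ := dconst_kernel ha hc
  have hw := (hΘ.pd i).pd j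
  obtain ⟨A, hA0, hA⟩ := dconst_hol hγ hw (integral_pd (hΘ.pd i).dc1 (hΘ.pd i).cs j)
  obtain ⟨A', hA0', hA'⟩ := dconst_grad hγ hw
  have hγ2 : 0 < 1 - γ := by linarith
  refine ⟨2 * A / γ + A' / (1 - γ), by positivity, fun q K hq hK0 hK x _ y _ => ?_⟩
  have hf := (hq.pd j).pd i
  have hg := dconst_tst_L a hq
  have hd := dconst_flow hρ hΘ ha.symm h2 hf
  have hd' : ∀ x s, 0 < s → HasDerivAt (fun s => dcv ρ (pd i (pd j q)) s x)
      (dcv (pd j (pd i Θ)) (dL a q) s x / s) s := by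
    intro x s hs
    refine (hd x s).congr_deriv ?_
    rw [dconst_L_pd a (hq.pd j), dconst_L_pd a hq, dconst_ibp hΘ (hg.pd j).dc1,
      ← dconst_ibp (hΘ.pd i) hg.dc1, mul_div_cancel_left₀ _ hs.ne']
  rcases eq_or_ne x y with rfl | hxy
  · simp [Real.zero_rpow hγ.ne']
  have hr : 0 < ‖x - y‖ := norm_pos_iff.2 (sub_ne_zero.2 hxy)
  set r := ‖x - y‖ with hrd
  have near : ∀ x, |dcv ρ (pd i (pd j q)) r x - pd i (pd j q) x| ≤ A * K * r ^ γ / γ := by
    intro x
    have := dconst_mvt (B := fun s => A * K * s ^ γ / γ) (B' := fun s => A * K * s ^ (γ - 1)) hr.le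
      (fun s _ => (hd x s).continuousAt.continuousWithinAt)
      (((continuous_const.mul (Real.continuous_rpow_const hγ.le)).div_const γ).continuousOn)
      (fun s hs => hd' x s hs.1)
      (fun s hs => (((Real.hasDerivAt_rpow_const (p := γ) (Or.inl hs.1.ne')).const_mul
        (A * K)).div_const γ).congr_deriv (by field_simp)) fun s hs => by
        rw [abs_div, abs_of_pos hs.1, Real.rpow_sub_one hs.1.ne', ← mul_div_assoc]
        exact div_le_div_of_nonneg_right (hA _ K hg.dc0 hK s hs.1.le x) hs.1.le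
    simpa [dconst_zero h1, Real.zero_rpow hγ.ne'] using this
  obtain ⟨M, hM⟩ := dconst_bdd (hρ.pd i) (hq.pd j)
  have far : |dcv ρ (pd i (pd j q)) r x - dcv ρ (pd i (pd j q)) r y| ≤ A' * K * r ^ γ / (1 - γ) := by
    refine le_of_forall_pos_le_add fun η hη => ?_
    set R := max r (2 * M / η) with hR
    have hrR : r ≤ R := le_max_left _ _
    have hR0 : 0 < R := hr.trans_le hrR
    have hB : ∀ s, 0 < s → HasDerivAt (fun s : ℝ => -(A' * K * r * s ^ (γ - 1) / (1 - γ)))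
        (A' * K * s ^ (γ - 1) * r / s) s := fun s hs =>
      ((((Real.hasDerivAt_rpow_const (p := γ - 1) (Or.inl hs.ne')).const_mul
        (A' * K * r)).div_const (1 - γ)).neg).congr_deriv (by
          rw [Real.rpow_sub_one hs.ne' (γ - 1)]; field_simp; ring)
    have h3 := dconst_mvt hrR
      (fun s _ => ((hd x s).sub (hd y s)).continuousAt.continuousWithinAt)
      (fun s hs => (hB s (hr.trans_le hs.1)).continuousAt.continuousWithinAt)
      (fun s hs => (hd' x s (hr.trans hs.1)).sub (hd' y s (hr.trans hs.1)))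
      (fun s hs => hB s (hr.trans hs.1)) fun s hs => by
        have hs0 := hr.trans hs.1
        rw [← sub_div, abs_div, abs_of_pos hs0]
        exact div_le_div_of_nonneg_right (hA' _ K hg hK0 hK s hs0 x y) hs0.le
    have h4 : ∀ x, |dcv ρ (pd i (pd j q)) R x| ≤ η / 2 := by
      intro x
      have h5 := hM R x
      rw [← dconst_ibp hρ (hq.pd j).dc1, abs_mul, abs_of_pos hR0] at h5
      have h6 : 2 * M ≤ R * η := (div_le_iff₀ hη).1 (le_max_right _ _)
      refine le_of_mul_le_mul_left ?_ hR0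
      linarith
    have h5 : 0 ≤ A' * K * r * R ^ (γ - 1) / (1 - γ) := by positivity
    have h6 : A' * K * r * r ^ (γ - 1) / (1 - γ) = A' * K * r ^ γ / (1 - γ) := by
      rw [Real.rpow_sub_one hr.ne']; field_simp
    simp only [Pi.sub_apply] at h3
    obtain ⟨k1, k2⟩ := abs_le.1 h3
    obtain ⟨k3, k4⟩ := abs_le.1 (h4 x)
    obtain ⟨k5, k6⟩ := abs_le.1 (h4 y)
    exact abs_le.2 ⟨by linarith, by linarith⟩
  obtain ⟨k1, k2⟩ := abs_le.1 far
  obtain ⟨k3, k4⟩ := abs_le.1 (near x)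
  obtain ⟨k5, k6⟩ := abs_le.1 (near y)
  have e : (2 * A / γ + A' / (1 - γ)) * K * r ^ γ =
      2 * (A * K * r ^ γ / γ) + A' * K * r ^ γ / (1 - γ) := by ring
  rw [e]
  exact abs_le.2 ⟨by linarith, by linarith⟩

theorem dconst_mol_hol {γ K ε : ℝ} (hε : 0 < ε) {g : E n → ℝ} (hg : Continuous g)
    (h : Hol γ K g univ) : Hol γ K (mol ε g) univ := by
  intro x _ y _
  have e : mol ε g x = mol ε (fun u => g (u + (x - y))) y := by
    unfold mol
    rw [← integral_add_right_eq_self _ (x - y)]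
    congr 1; funext u; congr 2; abel
  have hg' : Continuous fun u => g (u + (x - y)) := by fun_prop
  have := mol_close hε (hg'.sub hg).locallyIntegrable (x := y) (m := 0) (η := K * ‖x - y‖ ^ γ)
    (Filter.Eventually.of_forall fun u _ => by
      simpa using h (u + (x - y)) (mem_univ _) u (mem_univ _))
  rw [e, ← congrFun (mol_sub hε hg'.locallyIntegrable hg.locallyIntegrable) y]
  rwa [sub_zero] at this


theorem schauder_const {c C γ : ℝ} {a : Mat n} (ha : Ell c C a) (hc : 0 < c) (hγ : 0 < γ)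
    (hγ1 : γ < 1) : ∃ Cs : ℝ, 0 ≤ Cs ∧ ∀ (q : E n → ℝ) (K : ℝ), ContDiff ℝ 2 q →
      HasCompactSupport q → 0 ≤ K →
      Hol γ K (fun x => ∑ i, ∑ j, a i j * hess q x i j) univ →
      ∀ i j, Hol γ (Cs * K) (fun x => hess q x i j) univ := by
  choose Cs hCs0 hCs using fun i j => dconst_smooth ha hc hγ hγ1 i j
  refine ⟨∑ i, ∑ j, Cs i j, Finset.sum_nonneg fun i _ => Finset.sum_nonneg fun j _ => hCs0 i j,
    fun q K hq hqc hK0 hK i j x _ y _ => ?_⟩
  have hle : Cs i j ≤ ∑ i, ∑ j, Cs i j :=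
    (Finset.single_le_sum (fun j _ => hCs0 i j) (Finset.mem_univ j)).trans
      (Finset.single_le_sum (f := fun i => ∑ j, Cs i j)
        (fun i _ => Finset.sum_nonneg fun j _ => hCs0 i j) (Finset.mem_univ i))
  refine le_trans ?_ (mul_le_mul_of_nonneg_right (mul_le_mul_of_nonneg_right hle hK0)
    (Real.rpow_nonneg (norm_nonneg _) _))
  refine le_of_forall_pos_le_add fun η hη => ?_
  have hH := continuous_hess hq
  obtain ⟨ε, hε, h1⟩ := mol_unif (hH i j) (max ‖x‖ ‖y‖) (half_pos hη)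
  have h2 := h1 ε hε le_rfl
  have e1 : ∀ k l, pd k (pd l (mol ε q)) = mol ε fun x => hess q x k l := fun k l => by
    rw [pd_mol_C1 hε (hq.of_le (by norm_num)), pd_mol_C1 hε (contDiff_pd hq (by norm_num) l)]
    rfl
  have e2 : dL a (mol ε q) = mol ε fun x => ∑ i, ∑ j, a i j * hess q x i j := by
    rw [mol_sum hε _ fun k _ => Continuous.locallyIntegrable (by fun_prop)]
    funext z
    refine Finset.sum_congr rfl fun k _ => ?_
    rw [mol_sum hε _ fun l _ => Continuous.locallyIntegrable (by fun_prop)]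
    refine Finset.sum_congr rfl fun l _ => ?_
    rw [mol_const_mul, e1]
  have h3 := hCs i j (mol ε q) K ⟨contDiff_mol hε hq.continuous.locallyIntegrable, cs_mol hε hqc⟩ hK0
    (e2 ▸ dconst_mol_hol hε (by fun_prop) hK) x (mem_univ _) y (mem_univ _)
  rw [e1] at h3
  obtain ⟨k1, k2⟩ := abs_le.1 h3
  obtain ⟨k3, k4⟩ := abs_le.1 (h2 x (le_max_left _ _))
  obtain ⟨k5, k6⟩ := abs_le.1 (h2 y (le_max_right _ _))
  exact abs_le.2 ⟨by linarith, by linarith⟩
end Crest.Agent.R238
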