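import Crest.Agent.R238.EMol

/-!
# R238 / DQuot: equi-Hölder difference quotients ⇒ `C¹`

`g_h = (f(·+h e_i) - f)/h`.  On `ball x₀ (r/2)`, for `ε < r/4`:
`pd i (mol ε f) = lim_{h↓0} mol ε g_h` is `(γ,K)`-Hölder; `mol ε'` and `mol ε` commute (or:
`|mol ε g_h - mol ε' g_h| ≤ K(ε^γ + ε'^γ)` by `mol_close` with `m = g_h x`, then `h ↓ 0`), so
`pd i (mol ε f)` is uniformly Cauchy as `ε ↓ 0`; `hasFDerivAt_of_tendstoUniformlyOn` (with
`fderiv_eq_sum`) shows that `f` is differentiable on the ball with continuous derivative.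
-/

set_option autoImplicit false
open MeasureTheory Matrix Set Metric
open scoped RealInnerProductSpace ContDiff BigOperators

namespace Crest.Agent.R238

variable {n : ℕ}

theorem dquot_sym {F : ℝ → ℝ} (hF : Continuous F) (h k : ℝ) :
    ∫ t in (0 : ℝ)..h, (F (t + k) - F t) = ∫ t in (0 : ℝ)..k, (F (t + h) - F t) := by
  have hi : ∀ a b, IntervalIntegrable F volume a b := fun a b => hF.intervalIntegrable a b
  have hi' : ∀ c a b, IntervalIntegrable (fun t => F (t + c)) volume a b := fun c a b =>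
    (hF.comp (continuous_id.add continuous_const)).intervalIntegrable a b
  rw [intervalIntegral.integral_sub (hi' k 0 h) (hi 0 h), intervalIntegral.integral_sub (hi' h 0 k) (hi 0 k),
    intervalIntegral.integral_comp_add_right, intervalIntegral.integral_comp_add_right, zero_add, zero_add,
    add_comm k h]
  have e1 := intervalIntegral.integral_add_adjacent_intervals (hi 0 k) (hi k (h + k))
  have e2 := intervalIntegral.integral_add_adjacent_intervals (hi 0 h) (hi h (h + k))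
  linarith

theorem dquot_avg {F : ℝ → ℝ} (hF : Continuous F) {h k A : ℝ} (hh : 0 < h) (hk : 0 < k)
    (H : ∀ t ∈ Icc (0 : ℝ) h, |(F (t + k) - F t) / k - (F k - F 0) / k| ≤ A) :
    |(∫ t in (0 : ℝ)..h, (F (t + k) - F t)) - h * (F k - F 0)| ≤ A * k * h := by
  have hi : IntervalIntegrable (fun t => F (t + k) - F t) volume 0 h :=
    ((hF.comp (continuous_id.add continuous_const)).sub hF).intervalIntegrable 0 h
  have e : (∫ t in (0 : ℝ)..h, (F (t + k) - F t)) - h * (F k - F 0) =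
      ∫ t in (0 : ℝ)..h, (F (t + k) - F t - (F k - F 0)) := by
    rw [intervalIntegral.integral_sub hi intervalIntegrable_const, intervalIntegral.integral_const]
    simp
  rw [e]
  have h1 := intervalIntegral.norm_integral_le_of_norm_le_const (a := 0) (b := h) (C := A * k)
    (f := fun t => F (t + k) - F t - (F k - F 0)) fun t ht => by
      rw [uIoc_of_le hh.le] at ht
      have h2 := H t ⟨ht.1.le, ht.2⟩
      rw [← sub_div, abs_div, abs_of_pos hk, div_le_iff₀ hk] at h2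
      exact h2
  rwa [sub_zero, abs_of_pos hh] at h1

theorem dquot_cauchy {F : ℝ → ℝ} (hF : Continuous F) {h k A B : ℝ} (hh : 0 < h) (hk : 0 < k)
    (HA : ∀ t ∈ Icc (0 : ℝ) h, |(F (t + k) - F t) / k - (F k - F 0) / k| ≤ A)
    (HB : ∀ t ∈ Icc (0 : ℝ) k, |(F (t + h) - F t) / h - (F h - F 0) / h| ≤ B) :
    |(F k - F 0) / k - (F h - F 0) / h| ≤ A + B := by
  have h1 := dquot_avg hF hh hk HA
  have h2 := dquot_avg hF hk hh HB
  rw [← dquot_sym hF h k] at h2
  have e : (F k - F 0) / k - (F h - F 0) / h = (h * (F k - F 0) - k * (F h - F 0)) / (h * k) := by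
    field_simp
  rw [e, abs_div, abs_of_pos (mul_pos hh hk), div_le_iff₀ (mul_pos hh hk)]
  rw [abs_le] at h1 h2 ⊢
  constructor <;> nlinarith [h1.1, h1.2, h2.1, h2.2]

theorem dquot_norm_ee (i : Fin n) : ‖(ee i : E n)‖ = 1 := by
  simp [ee]

theorem dquot_sum (v : E n) : ∑ i, v i • (ee i : E n) = v := by
  ext j
  simp [ee, Pi.single_apply]

/-- the limit of the difference quotients in one direction -/
theorem dquot_lim {f : E n → ℝ} (hf : Continuous f) {x₀ e : E n} (he : ‖e‖ = 1) {r γ K h₀ : ℝ}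
    (hγ : 0 < γ) (hh : 0 < h₀) (hK : 0 ≤ K) (hhr : h₀ ≤ r / 2)
    (H : ∀ h : ℝ, 0 < h → h ≤ h₀ → Hol γ K (fun x => (f (x + h • e) - f x) / h) (ball x₀ r)) :
    ∃ g : E n → ℝ, Hol γ K g (ball x₀ (r / 2)) ∧ ∀ x ∈ ball x₀ (r / 2), ∀ h : ℝ, 0 < h → h ≤ h₀ →
      |(f (x + h • e) - f x) / h - g x| ≤ K * h ^ γ := by
  have hr : 0 < r := by linarith
  have hsub : ball x₀ (r / 2) ⊆ ball x₀ r := ball_subset_ball (by linarith)
  have hmem : ∀ x ∈ ball x₀ (r / 2), ∀ t : ℝ, 0 ≤ t → t ≤ h₀ → x + t • e ∈ ball x₀ r := by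
    intro x hx t ht0 ht
    rw [mem_ball_iff_norm] at hx ⊢
    have h1 : x + t • e - x₀ = (x - x₀) + t • e := by abel
    have h2 := norm_add_le (x - x₀) (t • e)
    rw [norm_smul, he, mul_one, Real.norm_of_nonneg ht0] at h2
    rw [h1]
    linarith
  have hosc : ∀ x ∈ ball x₀ (r / 2), ∀ h k : ℝ, 0 < k → k ≤ h₀ → h ≤ h₀ → ∀ t ∈ Icc (0 : ℝ) h,
      |(f (x + (t + k) • e) - f (x + t • e)) / k - (f (x + k • e) - f (x + (0 : ℝ) • e)) / k| ≤ K * h ^ γ := by
    intro x hx h k hk hk0 hh0 t ht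
    have h1 := H k hk hk0 (x + t • e) (hmem x hx t ht.1 (ht.2.trans hh0)) x (hsub hx)
    simp only [add_sub_cancel_left, norm_smul, he, mul_one, Real.norm_of_nonneg ht.1] at h1
    rw [add_smul, ← add_assoc, zero_smul, add_zero]
    exact h1.trans (mul_le_mul_of_nonneg_left (Real.rpow_le_rpow ht.1 ht.2 hγ.le) hK)
  have hc : ∀ x ∈ ball x₀ (r / 2), ∀ h k : ℝ, 0 < h → h ≤ h₀ → 0 < k → k ≤ h₀ →
      |(f (x + k • e) - f x) / k - (f (x + h • e) - f x) / h| ≤ K * h ^ γ + K * k ^ γ := by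
    intro x hx h k h0 h1 k0 k1
    have hF : Continuous fun t : ℝ => f (x + t • e) := by fun_prop
    have := dquot_cauchy hF h0 k0 (hosc x hx h k k0 k1 h1) (hosc x hx k h h0 h1 k1)
    simpa only [zero_smul, add_zero] using this
  set a : ℕ → ℝ := fun m => h₀ / ((m : ℝ) + 1) with ha
  have a0 : ∀ m, 0 < a m := fun m => by positivity
  have a1 : ∀ m, a m ≤ h₀ := fun m => div_le_self hh.le (by linarith [Nat.cast_nonneg (α := ℝ) m])
  have a2 : ∀ N m, N ≤ m → a m ≤ a N := fun N m hm => by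
    have : (N : ℝ) ≤ m := by exact_mod_cast hm
    simp only [ha]
    gcongr
  have a3 : Filter.Tendsto a Filter.atTop (nhds 0) := by
    have := tendsto_one_div_add_atTop_nhds_zero_nat.const_mul h₀
    simpa only [mul_zero, mul_one_div] using this
  have a4 : Filter.Tendsto (fun m => K * a m ^ γ) Filter.atTop (nhds 0) := by
    have := (a3.rpow_const (Or.inr hγ.le)).const_mul K
    simpa only [Real.zero_rpow hγ.ne', mul_zero] using this
  have hlim : ∀ x, ∃ g : ℝ, x ∈ ball x₀ (r / 2) →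
      Filter.Tendsto (fun m => (f (x + a m • e) - f x) / a m) Filter.atTop (nhds g) := by
    intro x
    by_cases hx : x ∈ ball x₀ (r / 2)
    · have : CauchySeq fun m => (f (x + a m • e) - f x) / a m := by
        refine cauchySeq_of_le_tendsto_0 (fun N => K * a N ^ γ + K * a N ^ γ) (fun p q N hp hq => ?_)
          (by simpa using a4.add a4)
        rw [Real.dist_eq]
        refine (hc x hx (a q) (a p) (a0 q) (a1 q) (a0 p) (a1 p)).trans ?_
        have b1 := Real.rpow_le_rpow (a0 q).le (a2 N q hq) hγ.le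
        have b2 := Real.rpow_le_rpow (a0 p).le (a2 N p hp) hγ.le
        gcongr
      obtain ⟨g, hg⟩ := cauchySeq_tendsto_of_complete this
      exact ⟨g, fun _ => hg⟩
    · exact ⟨0, fun h => absurd h hx⟩
  choose g hg using hlim
  refine ⟨g, fun x hx y hy => ?_, fun x hx h h0 h1 => ?_⟩
  · exact le_of_tendsto' ((hg x hx).sub (hg y hy)).abs fun m => H (a m) (a0 m) (a1 m) x (hsub hx) y (hsub hy)
  · have t1 := ((hg x hx).const_sub ((f (x + h • e) - f x) / h)).abs
    have t2 := a4.add_const (K * h ^ γ)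
    rw [zero_add] at t2
    exact le_of_tendsto_of_tendsto' t1 t2 fun m => hc x hx (a m) h (a0 m) (a1 m) h0 h1

/-- one step along a coordinate line -/
theorem dquot_step {f g : E n → ℝ} {e : E n} (he : ‖e‖ = 1) {s : Set (E n)} {γ K h₀ : ℝ}
    (hγ : 0 < γ) (hK : 0 ≤ K) (hg : Hol γ K g s)
    (H : ∀ x ∈ s, ∀ h : ℝ, 0 < h → h ≤ h₀ → |(f (x + h • e) - f x) / h - g x| ≤ K * h ^ γ)
    {x z : E n} {t ρ : ℝ} (hx : x ∈ s) (hz : z ∈ s) (hz' : z + t • e ∈ s) (ht : |t| ≤ h₀) (htρ : |t| ≤ ρ)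
    (h1 : ‖z - x‖ ≤ ρ) (h2 : ‖z + t • e - x‖ ≤ ρ) :
    |f (z + t • e) - f z - t * g x| ≤ 2 * K * ρ ^ γ * |t| := by
  have key : ∀ w ∈ s, ∀ h : ℝ, 0 < h → h ≤ h₀ → h ≤ ρ → ‖w - x‖ ≤ ρ →
      |f (w + h • e) - f w - h * g x| ≤ 2 * K * ρ ^ γ * h := by
    intro w hw h h0 hh hρ hw'
    have b1 := H w hw h h0 hh
    have b2 := hg w hw x hx
    have b3 : K * h ^ γ ≤ K * ρ ^ γ := mul_le_mul_of_nonneg_left (Real.rpow_le_rpow h0.le hρ hγ.le) hK
    have b4 : K * ‖w - x‖ ^ γ ≤ K * ρ ^ γ :=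
      mul_le_mul_of_nonneg_left (Real.rpow_le_rpow (norm_nonneg _) hw' hγ.le) hK
    have b5 := abs_sub_le ((f (w + h • e) - f w) / h) (g w) (g x)
    have e1 : f (w + h • e) - f w - h * g x = ((f (w + h • e) - f w) / h - g x) * h := by
      field_simp
    rw [e1, abs_mul, abs_of_pos h0]
    refine mul_le_mul_of_nonneg_right ?_ h0.le
    linarith
  rcases lt_trichotomy t 0 with h | h | h
  · rw [abs_of_neg h] at ht htρ ⊢
    have b := key (z + t • e) hz' (-t) (by linarith) ht htρ h2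
    rw [neg_smul, add_neg_cancel_right] at b
    rw [← abs_neg]
    refine le_of_eq_of_le (congrArg _ ?_) b
    ring
  · subst h
    simp
  · rw [abs_of_pos h] at ht htρ ⊢
    exact key z hz t h ht htρ h1

theorem c1_of_dq {f : E n → ℝ} (hf : Continuous f) {x₀ : E n} {r γ K h₀ : ℝ} (hr : 0 < r)
    (hγ : 0 < γ) (hh : 0 < h₀)
    (H : ∀ i, ∀ h : ℝ, 0 < h → h ≤ h₀ →
      Hol γ K (fun x => (f (x + h • ee i) - f x) / h) (ball x₀ r)) :
    ContDiffAt ℝ 1 f x₀ := by
  have hK : 0 ≤ max K 0 := le_max_right _ _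
  have hh1 : 0 < min h₀ (r / 2) := lt_min hh (by linarith)
  have H' : ∀ i, ∀ h : ℝ, 0 < h → h ≤ min h₀ (r / 2) →
      Hol γ (max K 0) (fun x => (f (x + h • ee i) - f x) / h) (ball x₀ r) := fun i h h0 h1 x hx y hy =>
    (H i h h0 (h1.trans (min_le_left _ _)) x hx y hy).trans
      (mul_le_mul_of_nonneg_right (le_max_left _ _) (by positivity))
  choose g hg1 hg2 using fun i => dquot_lim hf (dquot_norm_ee i) hγ hh1 hK (min_le_right _ _) (H' i)
  set K' := max K 0
  set h₁ := min h₀ (r / 2)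
  have hcont : ∀ i, ContinuousOn (g i) (ball x₀ (r / 2)) := by
    intro i x hx
    rw [ContinuousWithinAt, tendsto_iff_norm_sub_tendsto_zero]
    have t : Filter.Tendsto (fun y : E n => K' * ‖y - x‖ ^ γ) (nhds x) (nhds 0) := by
      have c : Continuous fun y : E n => K' * ‖y - x‖ ^ γ :=
        continuous_const.mul ((continuous_id.sub continuous_const).norm.rpow_const fun _ => Or.inr hγ.le)
      simpa [Real.zero_rpow hγ.ne'] using c.tendsto x
    refine squeeze_zero' (Filter.Eventually.of_forall fun _ => norm_nonneg _) ?_ (t.mono_left nhdsWithin_le_nhds)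
    filter_upwards [self_mem_nhdsWithin] with y hy
    exact hg1 i y hy x hx
  rw [contDiffAt_one_iff]
  refine ⟨fun x => ∑ i, g i x • (EuclideanSpace.proj i : E n →L[ℝ] ℝ), ball x₀ (r / 2),
    ball_mem_nhds x₀ (by linarith), continuousOn_finset_sum _ fun i _ => (hcont i).smul continuousOn_const,
    fun x hx => ?_⟩
  rw [hasFDerivAt_iff_isLittleO_nhds_zero, Asymptotics.isLittleO_iff]
  intro c hc
  have t1 : Filter.Tendsto (fun v : E n => ((n : ℝ) + 1) * ‖v‖) (nhds 0) (nhds 0) := by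
    have : Continuous fun v : E n => ((n : ℝ) + 1) * ‖v‖ := by fun_prop
    simpa using this.tendsto 0
  have t2 : Filter.Tendsto (fun v : E n => (n : ℝ) * (2 * K' * (((n : ℝ) + 1) * ‖v‖) ^ γ)) (nhds 0) (nhds 0) := by
    have := ((t1.rpow_const (Or.inr hγ.le)).const_mul (2 * K')).const_mul (n : ℝ)
    simpa only [Real.zero_rpow hγ.ne', mul_zero] using this
  have hd : 0 < r / 2 - ‖x - x₀‖ := sub_pos.2 (mem_ball_iff_norm.1 hx)
  filter_upwards [t1.eventually (gt_mem_nhds hd), t1.eventually (gt_mem_nhds hh1), t2.eventually (gt_mem_nhds hc)]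
    with v v1 v2 v3
  set ρ := ((n : ℝ) + 1) * ‖v‖ with hρ
  have hv : ∀ i, |v i| ≤ ‖v‖ := fun i => by simpa using PiLp.norm_apply_le v i
  have hvρ : ‖v‖ ≤ ρ := le_mul_of_one_le_left (norm_nonneg v) (by linarith [Nat.cast_nonneg (α := ℝ) n])
  have hn : ∀ s : Finset (Fin n), ‖x + ∑ i ∈ s, v i • (ee i : E n) - x‖ ≤ ρ := by
    intro s
    rw [add_sub_cancel_left]
    refine (norm_sum_le _ _).trans ?_
    refine (Finset.sum_le_card_nsmul s _ ‖v‖ fun i _ => ?_).trans ?_
    · rw [norm_smul, dquot_norm_ee, mul_one]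
      exact hv i
    · have : (s.card : ℝ) ≤ n := by simpa using Finset.card_le_univ s
      rw [nsmul_eq_mul]
      exact mul_le_mul_of_nonneg_right (by linarith) (norm_nonneg v)
  have hm : ∀ s : Finset (Fin n), x + ∑ i ∈ s, v i • (ee i : E n) ∈ ball x₀ (r / 2) := by
    intro s
    rw [mem_ball_iff_norm]
    have := norm_sub_le_norm_sub_add_norm_sub (x + ∑ i ∈ s, v i • (ee i : E n)) x x₀
    linarith [hn s]
  have hρ0 : 0 ≤ 2 * K' * ρ ^ γ := by positivity
  have key : ∀ s : Finset (Fin n), |f (x + ∑ i ∈ s, v i • ee i) - f x - ∑ i ∈ s, v i * g i x| ≤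
      s.card * (2 * K' * ρ ^ γ * ‖v‖) := by
    intro s
    induction s using Finset.induction_on with
    | empty => simp
    | insert i s hi ih =>
      have m1 := hm (insert i s)
      have n1 := hn (insert i s)
      rw [Finset.sum_insert hi, add_comm (v i • ee i), ← add_assoc] at m1 n1
      rw [Finset.sum_insert hi, Finset.sum_insert hi, Finset.card_insert_of_notMem hi, add_comm (v i • ee i),
        ← add_assoc]
      have b1 := dquot_step (dquot_norm_ee i) hγ hK (hg1 i) (hg2 i) hx (hm s) m1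
        (((hv i).trans hvρ).trans v2.le) ((hv i).trans hvρ) (hn s) n1
      have b2 : 2 * K' * ρ ^ γ * |v i| ≤ 2 * K' * ρ ^ γ * ‖v‖ := mul_le_mul_of_nonneg_left (hv i) hρ0
      rw [abs_le] at b1 ih ⊢
      push_cast
      constructor <;> linarith [b1.1, b1.2, ih.1, ih.2]
  have k := key Finset.univ
  rw [dquot_sum, Finset.card_univ, Fintype.card_fin] at k
  have e : (∑ i, g i x • (EuclideanSpace.proj i : E n →L[ℝ] ℝ)) v = ∑ i, v i * g i x := by
    simp [mul_comm]
  rw [e, Real.norm_eq_abs]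
  refine k.trans ?_
  rw [← mul_assoc]
  exact mul_le_mul_of_nonneg_right v3.le (norm_nonneg v)

end Crest.Agent.R238
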