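import Crest.Agent.R238.DPert
import Crest.Agent.R238.DQuot
import Crest.Agent.R238.PotL
import Crest.Agent.R238.MatD

/-!
# R238 / DMain: `C^{2,γ}_loc ⇒ C³`

`u ∈ C²` with `hess u = jac G` (`hess_eq_jac`), the equation holds everywhere (both sides are
continuous: `Continuous.ae_eq_iff_eq`).  Fix `x₀`, `γ r₁ K₁` from `LocHol`, `a₀ = (jac G x₀)⁻¹`,
`δ` from `schauder_loc`, `r` small with `3r ≤ r₁`, `n² c⁻² K₁ (3r)^γ ≤ δ`.  For `0 < h ≤ r`:
`q = (u(·+h e_k) - u)/h`, `a x = avgInv (jac G x) (jac G (x+h e_k))` (`avgInv_lip`,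
`avgInv_self`), and by `logdet_diff`
`a : hess q = ⟪x,∇q⟫ + G(x+h e_k)_k - q - (φ(x+h e_k) - φ x)/h`.  The bounds `|q|, |∇q| ≤ K`,
`∇q` Hölder (`∂_i q = ∫₀¹ jac G (x + s h e_k) i k ds`, or mean value theorem applied to
`s ↦ G_i(x + s e_k) - G_i(y + s e_k)`) and the Lipschitz bound for the `φ`-quotient (`Pot.quad.lip`)
are uniform in `h`.  `schauder_loc` + `c1_of_dq` for `f = hess u · i j` (`hess q` is its
difference quotient); then `ContDiff ℝ 3 u` from `C¹` entries of the Hessian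
(`contDiff_succ_iff_fderiv`, `fderiv_eq_sum`: lemma `contDiff_succ_of_pd`).
-/

set_option autoImplicit false
open MeasureTheory Matrix Set Metric
open scoped RealInnerProductSpace ContDiff BigOperators

namespace Crest.Agent.R238

variable {n : ℕ}

theorem contDiff_succ_of_pd {f : E n → ℝ} {m : ℕ} (hf : Differentiable ℝ f)
    (h : ∀ i, ContDiff ℝ m (pd i f)) : ContDiff ℝ (m + 1 : ℕ) f := by
  rw [Nat.cast_succ, contDiff_succ_iff_fderiv]
  refine ⟨hf, by simp, contDiff_clm_apply_iff.2 fun v => ?_⟩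
  simp only [fderiv_eq_sum]
  exact ContDiff.sum fun i _ => contDiff_const.mul (h i)

theorem dmain_hasF {G : E n → E n} {x : E n} (hx : DifferentiableAt ℝ G x) (i : Fin n) :
    HasFDerivAt (fun y => G y i) ((EuclideanSpace.proj i : E n →L[ℝ] ℝ).comp (fderiv ℝ G x)) x :=
  (EuclideanSpace.proj i : E n →L[ℝ] ℝ).hasFDerivAt.comp x hx.hasFDerivAt

theorem dmain_pd {G : E n → E n} {x : E n} (hx : DifferentiableAt ℝ G x) (i j : Fin n) :
    pd j (fun y => G y i) x = jac G x i j := by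
  rw [pd, (dmain_hasF hx i).fderiv]
  rfl

theorem dmain_cont {G : E n → E n} (hH : LocHol G) (i j : Fin n) : Continuous fun x => jac G x i j := by
  refine continuous_iff_continuousAt.2 fun x₀ => ?_
  obtain ⟨γ, r, K, hγ, -, hr, -, h⟩ := hH.2 x₀
  have h1 : Continuous fun x : E n => K * ‖x - x₀‖ ^ γ :=
    continuous_const.mul ((continuous_id.sub continuous_const).norm.rpow_const fun _ => Or.inr hγ.le)
  have h2 := h1.tendsto x₀
  simp only [sub_self, norm_zero, Real.zero_rpow hγ.ne', mul_zero] at h2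
  refine tendsto_iff_norm_sub_tendsto_zero.2 (squeeze_zero' (.of_forall fun _ => norm_nonneg _) ?_ h2)
  filter_upwards [ball_mem_nhds x₀ hr] with x hx
  exact h x hx x₀ (mem_ball_self hr) i j

theorem c2_of_locHol {c C : ℝ} {u : E n → ℝ} {G : E n → E n} (hq : Quad c C u G)
    (hH : LocHol G) : ContDiff ℝ 2 u := by
  have hd : ∀ i, Differentiable ℝ fun x => G x i := fun i x => (dmain_hasF (hH.1 x) i).differentiableAt
  refine contDiff_succ_of_pd (m := 1) (hq.contDiff.differentiable one_ne_zero) fun i => ?_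
  rw [show pd i u = fun x => G x i from funext (hq.pd i)]
  refine contDiff_succ_of_pd (m := 0) (hd i) fun j => ?_
  rw [show pd j (fun x => G x i) = fun x => jac G x i j from funext fun x => dmain_pd (hH.1 x) i j]
  exact contDiff_zero.2 (dmain_cont hH i j)

theorem hess_eq_jac {c C : ℝ} {u : E n → ℝ} {G : E n → E n} (hq : Quad c C u G) {x : E n}
    (hx : DifferentiableAt ℝ G x) : hess u x = jac G x := by
  ext i j
  rw [(hq.jac_ell hx).symm i j, ← dmain_pd hx j i, hess, Matrix.of_apply,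
    show pd j u = fun x => G x j from funext (hq.pd j)]

theorem dmain_coord (a b : E n) (k : Fin n) : |a k - b k| ≤ ‖a - b‖ := by
  simpa using PiLp.norm_apply_le (a - b) k

theorem dmain_small {r γ δ : ℝ} (hr : 0 < r) (hγ : 0 < γ) (hδ : 0 < δ) (A : ℝ) :
    ∃ ρ : ℝ, 0 < ρ ∧ ρ ≤ r ∧ ρ ≤ 1 / 2 ∧ A * ρ ^ γ ≤ δ := by
  have h1 : Continuous fun t : ℝ => A * t ^ γ :=
    continuous_const.mul (continuous_id.rpow_const fun _ => Or.inr hγ.le)
  have h2 := h1.tendsto 0
  simp only [Real.zero_rpow hγ.ne', mul_zero] at h2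
  have h3 : ∀ᶠ t in nhdsWithin (0 : ℝ) (Ioi 0), A * t ^ γ ≤ δ :=
    (h2.eventually_le_const hδ).filter_mono nhdsWithin_le_nhds
  obtain ⟨ρ, h4, h5, h6⟩ :=
    (h3.and ((Filter.eventually_of_mem (Ioc_mem_nhdsGT hr) fun _ h => h).and
      (Filter.eventually_of_mem (Ioc_mem_nhdsGT one_half_pos) fun _ h => h))).exists
  exact ⟨ρ, h5.1, h5.2, h6.2, h4⟩

theorem dmain_hol_mono {γ K K' : ℝ} {f : E n → ℝ} {s : Set (E n)} (h : Hol γ K f s) (hK : K ≤ K') :
    Hol γ K' f s := fun x hx y hy =>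
  (h x hx y hy).trans (mul_le_mul_of_nonneg_right hK (Real.rpow_nonneg (norm_nonneg _) _))

/-- bounded and Hölder on `s` -/
def dmain_HB (γ : ℝ) (s : Set (E n)) (f : E n → ℝ) : Prop :=
  ∃ K : ℝ, 0 ≤ K ∧ (∀ x ∈ s, |f x| ≤ K) ∧ Hol γ K f s

theorem dmain_HB.of {γ A B : ℝ} {s : Set (E n)} {f : E n → ℝ} (h1 : ∀ x ∈ s, |f x| ≤ A) (h2 : Hol γ B f s)
    (hA : 0 ≤ A) (hB : 0 ≤ B) : dmain_HB γ s f :=
  ⟨A + B, by positivity, fun x hx => (h1 x hx).trans (by linarith), dmain_hol_mono h2 (by linarith)⟩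

theorem dmain_HB.add {γ : ℝ} {s : Set (E n)} {f g : E n → ℝ} (hf : dmain_HB γ s f) (hg : dmain_HB γ s g) :
    dmain_HB γ s fun x => f x + g x := by
  obtain ⟨A, hA, a1, a2⟩ := hf
  obtain ⟨B, hB, b1, b2⟩ := hg
  refine ⟨A + B, by positivity, fun x hx => (abs_add_le _ _).trans (add_le_add (a1 x hx) (b1 x hx)),
    fun x hx y hy => ?_⟩
  rw [add_sub_add_comm, add_mul]
  exact (abs_add_le _ _).trans (add_le_add (a2 x hx y hy) (b2 x hx y hy))

theorem dmain_HB.sub {γ : ℝ} {s : Set (E n)} {f g : E n → ℝ} (hf : dmain_HB γ s f) (hg : dmain_HB γ s g) :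
    dmain_HB γ s fun x => f x - g x := by
  obtain ⟨B, hB, b1, b2⟩ := hg
  simp only [sub_eq_add_neg]
  refine hf.add ⟨B, hB, fun x hx => by rw [abs_neg]; exact b1 x hx, fun x hx y hy => ?_⟩
  rw [neg_sub_neg, abs_sub_comm]
  exact b2 x hx y hy

theorem dmain_HB.mul {γ : ℝ} {s : Set (E n)} {f g : E n → ℝ} (hf : dmain_HB γ s f) (hg : dmain_HB γ s g) :
    dmain_HB γ s fun x => f x * g x := by
  obtain ⟨A, hA, a1, a2⟩ := hf
  obtain ⟨B, hB, b1, b2⟩ := hg
  refine dmain_HB.of (A := A * B) (B := A * B + A * B) (fun x hx => ?_) (fun x hx y hy => ?_) (by positivity)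
    (by positivity)
  · rw [abs_mul]
    exact mul_le_mul (a1 x hx) (b1 x hx) (abs_nonneg _) hA
  · have hd : 0 ≤ ‖x - y‖ ^ γ := Real.rpow_nonneg (norm_nonneg _) _
    rw [show f x * g x - f y * g y = f x * (g x - g y) + (f x - f y) * g y by ring]
    refine (abs_add_le _ _).trans ?_
    rw [abs_mul, abs_mul]
    have e1 := mul_le_mul (a1 x hx) (b2 x hx y hy) (abs_nonneg _) hA
    have e2 := mul_le_mul (a2 x hx y hy) (b1 y hy) (abs_nonneg _) (mul_nonneg hA hd)
    linarith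

theorem dmain_HB.sum {γ : ℝ} {s : Set (E n)} {ι : Type} (t : Finset ι) {f : ι → E n → ℝ}
    (hf : ∀ l ∈ t, dmain_HB γ s (f l)) : dmain_HB γ s fun x => ∑ l ∈ t, f l x := by
  classical
  induction t using Finset.induction_on with
  | empty => exact ⟨0, le_rfl, by simp, fun x _ y _ => by simp⟩
  | insert a t ha ih =>
    simp only [Finset.sum_insert ha]
    exact (hf a (Finset.mem_insert_self _ _)).add (ih fun l hl => hf l (Finset.mem_insert_of_mem hl))

theorem dmain_HB.unif {γ : ℝ} {s : Set (E n)} {ι : Type} [Fintype ι] {f : ι → E n → ℝ}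
    (hf : ∀ l, dmain_HB γ s (f l)) : ∃ K : ℝ, 0 ≤ K ∧ ∀ l, (∀ x ∈ s, |f l x| ≤ K) ∧ Hol γ K (f l) s := by
  choose K h0 h1 h2 using hf
  have e : ∀ l, K l ≤ ∑ l, K l := fun l => Finset.single_le_sum (fun l _ => h0 l) (Finset.mem_univ l)
  exact ⟨∑ l, K l, Finset.sum_nonneg fun l _ => h0 l, fun l =>
    ⟨fun x hx => (h1 l x hx).trans (e l), dmain_hol_mono (h2 l) (e l)⟩⟩

theorem dmain_lip {γ ρ L : ℝ} (hγ1 : γ ≤ 1) (hρ : ρ ≤ 1 / 2) (hL : 0 ≤ L) {f : E n → ℝ} {x₀ : E n}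
    (h : ∀ x y, |f x - f y| ≤ L * ‖x - y‖) : dmain_HB γ (ball x₀ ρ) f := by
  refine dmain_HB.of (A := |f x₀| + L) (B := L) (fun x hx => ?_) (fun x hx y hy => ?_) (by positivity) hL
  · have h1 := h x x₀
    have h2 : ‖x - x₀‖ ≤ 1 := by linarith [mem_ball_iff_norm.1 hx]
    have h3 := mul_le_mul_of_nonneg_left h2 hL
    have h4 := abs_sub_abs_le_abs_sub (f x) (f x₀)
    linarith
  · refine (h x y).trans (mul_le_mul_of_nonneg_left ?_ hL)
    have h1 : ‖x - y‖ ≤ 1 := by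
      have := dist_triangle_right x y x₀
      rw [← dist_eq_norm]
      linarith [mem_ball.1 hx, mem_ball.1 hy]
    exact Real.self_le_rpow_of_le_one (norm_nonneg _) h1 hγ1

theorem dmain_mem {x x₀ : E n} {r ρ h : ℝ} (hx : x ∈ ball x₀ r) (h0 : 0 ≤ h) (hρ : r + h ≤ ρ) (k : Fin n) :
    x + h • ee k ∈ ball x₀ ρ := by
  rw [mem_ball_iff_norm] at hx ⊢
  have h1 : ‖h • (ee k : E n)‖ = h := by
    rw [norm_smul, Real.norm_of_nonneg h0]
    simp [ee]
  rw [add_sub_right_comm]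
  linarith [norm_add_le (x - x₀) (h • ee k)]

theorem dmain_line {f : E n → ℝ} (hf : Differentiable ℝ f) (x : E n) (k : Fin n) (s : ℝ) :
    HasDerivAt (fun t : ℝ => f (x + t • ee k)) (pd k f (x + s • ee k)) s := by
  have h1 : HasDerivAt (fun t : ℝ => x + t • (ee k : E n)) (ee k) s := by
    simpa using ((hasDerivAt_id s).smul_const (ee k : E n)).const_add x
  exact (hf _).hasFDerivAt.comp_hasDerivAt s h1

theorem dmain_dq {f : E n → ℝ} (hf : Differentiable ℝ f) {k : Fin n} {x₀ : E n} {ρ r γ K h : ℝ} (hh : 0 < h)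
    (hr : r + h ≤ ρ) (hb : ∀ x ∈ ball x₀ ρ, |pd k f x| ≤ K) (hH : Hol γ K (pd k f) (ball x₀ ρ)) :
    (∀ x ∈ ball x₀ r, |(f (x + h • ee k) - f x) / h| ≤ K) ∧
      Hol γ K (fun x => (f (x + h • ee k) - f x) / h) (ball x₀ r) := by
  refine ⟨fun x hx => ?_, fun x hx y hy => ?_⟩
  · obtain ⟨s, hs, e⟩ := exists_hasDerivAt_eq_slope _ _ hh
      (fun t _ => (dmain_line hf x k t).continuousAt.continuousWithinAt) (fun t _ => dmain_line hf x k t)
    simp only [zero_smul, add_zero, sub_zero] at e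
    rw [← e]
    exact hb _ (dmain_mem hx hs.1.le (by linarith [hs.2]) k)
  · obtain ⟨s, hs, e⟩ := exists_hasDerivAt_eq_slope (fun t : ℝ => f (x + t • ee k) - f (y + t • ee k)) _ hh
      (fun t _ => ((dmain_line hf x k t).sub (dmain_line hf y k t)).continuousAt.continuousWithinAt)
      (fun t _ => (dmain_line hf x k t).sub (dmain_line hf y k t))
    simp only [zero_smul, add_zero, sub_zero] at e
    have e2 := hH _ (dmain_mem hx hs.1.le (by linarith [hs.2]) k) _ (dmain_mem hy hs.1.le (by linarith [hs.2]) k)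
    rw [add_sub_add_right_eq_sub, e] at e2
    simp only
    rw [← sub_div, sub_sub_sub_comm]
    exact e2

theorem dmain_pd_dq {f : E n → ℝ} (hf : Differentiable ℝ f) (b : E n) (h : ℝ) (i : Fin n) :
    pd i (fun x => (f (x + b) - f x) / h) = fun x => (pd i f (x + b) - pd i f x) / h := by
  funext x
  have h1 : DifferentiableAt ℝ (fun y => f (y + b)) x := (hf _).comp x (differentiableAt_id.add_const b)
  simp only [div_eq_inv_mul]
  rw [pd_const_mul, pd_sub i h1 (hf x), pd_translate]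

theorem c3_of_locHol {α β c C : ℝ} {φ u : E n → ℝ} {G : E n → E n} (hP : Pot α β φ)
    (hW : Weak φ c C u G) (hH : LocHol G) : ContDiff ℝ 3 u := by
  have hq := hW.quad
  have hc := hW.cpos
  have hC : 0 < C := hc.trans_le hW.cle
  have hu2 := c2_of_locHol hq hH
  have hu : Differentiable ℝ u := hu2.differentiable two_ne_zero
  have hφ : Differentiable ℝ φ := hP.cd.differentiable two_ne_zero
  have hJ : ∀ x, hess u x = jac G x := fun x => hess_eq_jac hq (hH.1 x)
  have hE : ∀ x, Ell c C (jac G x) := fun x => hq.jac_ell (hH.1 x)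
  have hpu : ∀ i, pd i u = fun x => G x i := fun i => funext (hq.pd i)
  have hd : ∀ i, Differentiable ℝ fun x => G x i := fun i x => (dmain_hasF (hH.1 x) i).differentiableAt
  have hpG : ∀ i j, pd j (fun x => G x i) = fun x => jac G x i j := fun i j =>
    funext fun x => dmain_pd (hH.1 x) i j
  -- the equation holds everywhere
  set Ψ : E n → ℝ := fun x => ∑ l, x l * G x l - u x - φ x with hΨ
  have hco : ∀ l, Differentiable ℝ fun x : E n => x l := fun l =>
    (contDiff_coord (m := 1) l).differentiable one_ne_zero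
  have hS : Differentiable ℝ fun x : E n => ∑ l, x l * G x l :=
    Differentiable.fun_sum fun l _ => (hco l).mul (hd l)
  have hΨd : Differentiable ℝ Ψ := (hS.sub hu).sub hφ
  obtain ⟨c₀, hma⟩ : ∃ c₀ : ℝ, ∀ x, Real.log (jac G x).det = Ψ x + c₀ := by
    obtain ⟨c₀, h⟩ := hW.ma
    have h1 : Continuous fun x => Real.log (jac G x).det :=
      (continuous_matrix (dmain_cont hH)).matrix_det.log fun x => ((hE x).det_pos hc).ne'
    refine ⟨c₀, fun x => congrFun ((h1.ae_eq_iff_eq volume (hΨd.continuous.add continuous_const)).1 ?_) x⟩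
    filter_upwards [h] with y hy
    rw [hy, hΨ]
    simp [PiLp.inner_apply, mul_comm]
  have hpΨ : ∀ k, pd k Ψ = fun x => ∑ l, x l * jac G x l k - pd k φ x := by
    intro k
    funext x
    rw [hΨ, pd_sub k ((hS x).fun_sub (hu x)) (hφ x), pd_sub k (hS x) (hu x),
      pd_sum _ k fun l _ => (hco l x).fun_mul (hd l x), hpu]
    simp only [pd_mul k (hco _ x) (hd _ x), pd_coord, hpG, Finset.sum_add_distrib, ite_mul, one_mul, zero_mul,
      Finset.sum_ite_eq, Finset.mem_univ, if_true]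
    ring
  refine contDiff_succ_of_pd (m := 2) hu fun j => contDiff_succ_of_pd (m := 1)
    ((contDiff_pd (m := 1) hu2 (by norm_num) j).differentiable one_ne_zero) fun i => ?_
  refine contDiff_iff_contDiffAt.2 fun x₀ => ?_
  obtain ⟨γ, r₁, K₁, hγ, hγ1, hr₁, hK₁, hol⟩ := hH.2 x₀
  obtain ⟨δ, hδ, hsch⟩ := schauder_loc ((hE x₀).inv hc hW.cle) (inv_pos.2 hC) hγ hγ1
  obtain ⟨ρ, hρ0, hρ1, hρ2, hρ3⟩ := dmain_small hr₁ hγ hδ ((n : ℝ) ^ 2 * c⁻¹ ^ 2 * K₁)
  have hol' : ∀ i j, Hol γ K₁ (fun x => jac G x i j) (ball x₀ ρ) := fun i j x hx y hy =>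
    hol x (ball_subset_ball hρ1 hx) y (ball_subset_ball hρ1 hy) i j
  -- bounded Hölder functions on the ball
  have b1 : ∀ i j, dmain_HB γ (ball x₀ ρ) fun x => jac G x i j := fun i j =>
    dmain_HB.of (fun x _ => (hE x).entry_le hc.le i j) (hol' i j) hC.le hK₁
  have b2 : ∀ k, dmain_HB γ (ball x₀ ρ) fun x => G x k := fun k =>
    dmain_lip hγ1.le hρ2 hC.le fun x y => (dmain_coord _ _ k).trans (hq.lip x y)
  have b3 : ∀ k, dmain_HB γ (ball x₀ ρ) fun x => x k := fun k =>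
    dmain_lip hγ1.le hρ2 zero_le_one fun x y => by rw [one_mul]; exact dmain_coord _ _ k
  have b4 : ∀ k, dmain_HB γ (ball x₀ ρ) (pd k φ) := fun k =>
    dmain_lip hγ1.le hρ2 (hP.apos.le.trans hP.ale) fun x y => by
      rw [hP.quad.pd, hP.quad.pd]
      exact (dmain_coord _ _ k).trans (hP.quad.lip x y)
  have b5 : ∀ k, dmain_HB γ (ball x₀ ρ) (pd k Ψ) := fun k => by
    rw [hpΨ]
    exact (dmain_HB.sum _ fun l _ => (b3 l).mul (b1 l k)).sub (b4 k)
  obtain ⟨Ka, hKa, ha⟩ := dmain_HB.unif (fun p : Fin n × Fin n => b1 p.1 p.2)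
  obtain ⟨Kb, hKb, hb⟩ := dmain_HB.unif b2
  obtain ⟨Kc, hKc, hcc⟩ := dmain_HB.unif b5
  have hr : 0 < ρ / 3 := by positivity
  obtain ⟨K', -, hK'⟩ := hsch (ρ / 3) (Ka + Kb + Kc) hr (by linarith) (by positivity)
  refine c1_of_dq (f := fun x => hess u x i j) (continuous_hess hu2 i j) (K := K') (half_pos hr) hγ hr
    fun k h h0 h1 => ?_
  have hρ : 2 * (ρ / 3) + h ≤ ρ := by linarith
  have m1 : ∀ x ∈ ball x₀ (2 * (ρ / 3)), x ∈ ball x₀ ρ := fun x hx => ball_subset_ball (by linarith) hx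
  have m2 : ∀ x ∈ ball x₀ (2 * (ρ / 3)), x + h • ee k ∈ ball x₀ ρ := fun x hx => dmain_mem hx h0.le hρ k
  have q1 : ∀ i, pd i (fun x => (u (x + h • ee k) - u x) / h) = fun x => (G (x + h • ee k) i - G x i) / h :=
    fun i => by rw [dmain_pd_dq hu, hpu]
  have q2 : ∀ x i j, hess (fun x => (u (x + h • ee k) - u x) / h) x i j =
      (jac G (x + h • ee k) i j - jac G x i j) / h := fun x i j => by
    rw [hess, Matrix.of_apply, q1, dmain_pd_dq (hd j), hpG, (hE _).symm i j, (hE x).symm i j]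
  have q3 : ∀ x, ∑ i, ∑ j, avgInv (jac G x) (jac G (x + h • ee k)) i j *
      hess (fun x => (u (x + h • ee k) - u x) / h) x i j = (Ψ (x + h • ee k) - Ψ x) / h := fun x => by
    have e := logdet_diff (hE x) (hE (x + h • ee k)) hc
    rw [hma, hma, add_sub_add_right_eq_sub] at e
    rw [e]
    simp only [q2, Finset.sum_div, Matrix.sub_apply, mul_div_assoc]
  have d1 := dmain_dq hΨd h0 hρ (K := Ka + Kb + Kc) (fun x hx => ((hcc k).1 x hx).trans (by linarith))
    (dmain_hol_mono (hcc k).2 (by linarith))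
  have d2 := dmain_dq hu h0 hρ (k := k) (K := Ka + Kb + Kc)
    (fun x hx => by rw [hpu]; exact ((hb k).1 x hx).trans (by linarith))
    (by rw [hpu]; exact dmain_hol_mono (hb k).2 (by linarith))
  have d3 := fun i => dmain_dq (hd i) h0 hρ (k := k) (K := Ka + Kb + Kc)
    (fun x hx => by rw [hpG]; exact ((ha (i, k)).1 x hx).trans (by linarith))
    (by rw [hpG]; exact dmain_hol_mono (ha (i, k)).2 (by linarith))
  have hA : 0 ≤ (n : ℝ) ^ 2 * c⁻¹ ^ 2 * K₁ := by positivity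
  have key := hK' x₀ (fun x => avgInv (jac G x) (jac G (x + h • ee k))) (fun x => (u (x + h • ee k) - u x) / h)
    (((hu2.comp (contDiff_id.add contDiff_const)).sub hu2).div_const h)
    ⟨2 * K₁ / h, fun i j x hx y hy => ?_⟩ (fun x hx i j => ?_) (fun i j x hx y hy => ?_)
    (fun x hx => by rw [q3]; exact d1.1 x hx) (by simp only [q3]; exact d1.2)
    (fun x hx => ⟨d2.1 x hx, fun i => by rw [q1]; exact (d3 i).1 x hx⟩) (fun i => by rw [q1]; exact (d3 i).2) i j
  · have e := key.2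
    simp only [q2] at e
    simpa only [hJ] using e
  · have e1 := hol' i j _ (m1 x hx) _ (m1 y hy)
    have e2 := hol' i j _ (m2 x hx) _ (m2 y hy)
    rw [add_sub_add_right_eq_sub] at e2
    simp only [q2]
    rw [← sub_div, abs_div, abs_of_pos h0, div_mul_eq_mul_div]
    refine div_le_div_of_nonneg_right ?_ h0.le
    rw [abs_le] at e1 e2 ⊢
    constructor <;> linarith [e1.1, e1.2, e2.1, e2.2]
  · have e : ∀ z ∈ ball x₀ ρ, ∀ i j, |jac G z i j - jac G x₀ i j| ≤ K₁ * ρ ^ γ := fun z hz i j =>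
      (hol' i j z hz x₀ (mem_ball_self hρ0)).trans (mul_le_mul_of_nonneg_left
        (Real.rpow_le_rpow (norm_nonneg _) (mem_ball_iff_norm.1 hz).le hγ.le) hK₁)
    rw [← avgInv_self (jac G x₀)]
    refine (avgInv_lip hc hW.cle (hE _) (hE _) (hE _) (hE _) (e _ (m1 x hx)) (e _ (m2 x hx)) i j).trans ?_
    rw [← mul_assoc]
    exact hρ3
  · refine (avgInv_lip hc hW.cle (hE _) (hE _) (hE _) (hE _) (η := K₁ * ‖x - y‖ ^ γ)
      (fun i j => hol' i j _ (m1 x hx) _ (m1 y hy)) (fun i j => ?_) i j).trans ?_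
    · have e2 := hol' i j _ (m2 x hx) _ (m2 y hy)
      rwa [add_sub_add_right_eq_sub] at e2
    · rw [← mul_assoc]
      refine mul_le_mul_of_nonneg_right ?_ (Real.rpow_nonneg (norm_nonneg _) _)
      rw [le_div_iff₀ (Real.rpow_pos_of_pos hr _)]
      exact (mul_le_mul_of_nonneg_left (Real.rpow_le_rpow hr.le (by linarith) hγ.le) hA).trans hρ3

end Crest.Agent.R238
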