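import Crest.Agent.R238.DConst

/-!
# R238 / DPert: local Schauder estimate by freezing coefficients

`χ x = cut (r/2) (x - x₀)` (`= 1` on `closedBall x₀ (r/2)`, support in `closedBall x₀ (3r/4)`),
`p = χ q`, `hess p = χ hess q + ∇χ⊗∇q + ∇q⊗∇χ + q hess χ =: χ hess q + b`.
`a₀ : hess p = χ F + (a₀ - a) : (hess p - b) + a₀ : b` on `ball x₀ (2r)`, and everything vanishes
outside `closedBall x₀ (3r/4)`.  Let `H` be the least Hölder constant of all entries of `hess p` on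
`univ` (finite by the qualitative hypothesis); `|hess p| ≤ H (2r)^γ` (compare with a point at
distance `≤ 2r` outside the support... any point of `sphere x₀ r`; `n ≥ 1` as there are indices).
A function supported in `closedBall x₀ (3r/4)` which is `(γ,K)`-Hölder on `ball x₀ (2r)` is
`(γ, K)`-Hölder on `univ` up to a fixed factor (if `y ∉ ball x₀ (2r)` go through the point of the
segment on `sphere x₀ r`).  So `H ≤ Cs (n² (δ + 2 δ)·C H + K₂)`; take `δ` with the factor `≤ 1/2`.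
-/

set_option autoImplicit false
open MeasureTheory Matrix Set Metric
open scoped RealInnerProductSpace ContDiff BigOperators

namespace Crest.Agent.R238

variable {n : ℕ}

/-- bounded and Hölder with the same constant -/
def DpHB (γ M : ℝ) (f : E n → ℝ) (s : Set (E n)) : Prop := (∀ x ∈ s, |f x| ≤ M) ∧ Hol γ M f s

section
variable {γ : ℝ} {f g : E n → ℝ} {s : Set (E n)}

theorem dpert_mono {K K' : ℝ} (h : Hol γ K f s) (hK : K ≤ K') : Hol γ K' f s := fun x hx y hy =>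
  (h x hx y hy).trans (mul_le_mul_of_nonneg_right hK (Real.rpow_nonneg (norm_nonneg _) _))

theorem dpert_sub {K : ℝ} {t : Set (E n)} (h : Hol γ K f s) (ht : t ⊆ s) : Hol γ K f t :=
  fun x hx y hy => h x (ht hx) y (ht hy)

theorem dpert_congr {K : ℝ} (h : Hol γ K f s) (e : ∀ x ∈ s, g x = f x) : Hol γ K g s :=
  fun x hx y hy => by rw [e x hx, e y hy]; exact h x hx y hy

theorem dpert_add {K K' : ℝ} (h : Hol γ K f s) (h' : Hol γ K' g s) :
    Hol γ (K + K') (fun x => f x + g x) s := fun x hx y hy => by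
  have a := abs_add_le (f x - f y) (g x - g y)
  have e : f x + g x - (f y + g y) = f x - f y + (g x - g y) := by ring
  rw [e, add_mul]
  linarith [h x hx y hy, h' x hx y hy]

theorem dpert_sum {ι : Type*} (t : Finset ι) {K : ℝ} {F : ι → E n → ℝ} (h : ∀ i, Hol γ K (F i) s) :
    Hol γ (t.card * K) (fun x => ∑ i ∈ t, F i x) s := fun x hx y hy => by
  rw [← Finset.sum_sub_distrib]
  refine (Finset.abs_sum_le_sum_abs _ _).trans
    ((Finset.sum_le_sum fun i _ => h i x hx y hy).trans (le_of_eq ?_))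
  rw [Finset.sum_const, nsmul_eq_mul, mul_assoc]

theorem dpert_sum2 {K : ℝ} {F : Fin n → Fin n → E n → ℝ} (h : ∀ i j, Hol γ K (F i j) s) :
    Hol γ (n * (n * K)) (fun x => ∑ i, ∑ j, F i j x) s := by
  simpa using dpert_sum Finset.univ fun i => dpert_sum Finset.univ (h i)

theorem dpert_mul {M M' K K' : ℝ} (hb : ∀ x ∈ s, |f x| ≤ M) (h : Hol γ K f s)
    (hb' : ∀ x ∈ s, |g x| ≤ M') (h' : Hol γ K' g s) :
    Hol γ (M * K' + K * M') (fun x => f x * g x) s := fun x hx y hy => by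
  have e : f x * g x - f y * g y = f x * (g x - g y) + (f x - f y) * g y := by ring
  have a1 := mul_le_mul (hb x hx) (h' x hx y hy) (abs_nonneg _) ((abs_nonneg _).trans (hb x hx))
  have a2 := mul_le_mul (h x hx y hy) (hb' y hy) (abs_nonneg _) ((abs_nonneg _).trans (h x hx y hy))
  have a3 := abs_add_le (f x * (g x - g y)) ((f x - f y) * g y)
  rw [abs_mul, abs_mul] at a3
  rw [e]
  linarith

theorem DpHB.mono {M M' : ℝ} (h : DpHB γ M f s) (hM : M ≤ M') : DpHB γ M' f s :=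
  ⟨fun x hx => (h.1 x hx).trans hM, dpert_mono h.2 hM⟩

theorem DpHB.add {M M' : ℝ} (h : DpHB γ M f s) (h' : DpHB γ M' g s) :
    DpHB γ (M + M') (fun x => f x + g x) s :=
  ⟨fun x hx => (abs_add_le _ _).trans (add_le_add (h.1 x hx) (h'.1 x hx)), dpert_add h.2 h'.2⟩

theorem DpHB.mul {M M' : ℝ} (hM : 0 ≤ M) (hM' : 0 ≤ M') (h : DpHB γ M f s) (h' : DpHB γ M' g s) :
    DpHB γ (2 * M * M') (fun x => f x * g x) s := by
  refine ⟨fun x hx => ?_, dpert_mono (dpert_mul h.1 h.2 h'.1 h'.2) (le_of_eq (by ring))⟩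
  rw [abs_mul]
  nlinarith [mul_le_mul (h.1 x hx) (h'.1 x hx) (abs_nonneg _) hM, mul_nonneg hM hM']

theorem DpHB.shift {M : ℝ} (h : DpHB γ M f univ) (v : E n) (s : Set (E n)) :
    DpHB γ M (fun x => f (x + v)) s :=
  ⟨fun x _ => h.1 _ (mem_univ _), fun x _ y _ => by
    simpa using h.2 (x + v) (mem_univ _) (y + v) (mem_univ _)⟩

theorem dpert_fin {ι : Type} [Finite ι] {F : ι → E n → ℝ} (h : ∀ i, ∃ M, DpHB γ M (F i) s) :
    ∃ M, 0 ≤ M ∧ ∀ i, DpHB γ M (F i) s := by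
  choose M hM using h
  obtain ⟨B, hB⟩ := Finite.exists_le M
  exact ⟨max B 0, le_max_right _ _, fun i => (hM i).mono ((hB i).trans (le_max_left _ _))⟩

theorem dpert_lip (hγ : 0 < γ) (hγ1 : γ < 1) {M L : ℝ} (hM : 0 ≤ M) (hL : 0 ≤ L)
    (hb : ∀ x ∈ s, |f x| ≤ M) (hl : ∀ x ∈ s, ∀ y ∈ s, |f x - f y| ≤ L * ‖x - y‖) :
    DpHB γ (2 * M + L) f s := by
  refine ⟨fun x hx => (hb x hx).trans (by linarith), fun x hx y hy => ?_⟩
  have h0 : 0 ≤ ‖x - y‖ ^ γ := Real.rpow_nonneg (norm_nonneg _) _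
  rcases le_total ‖x - y‖ 1 with h | h
  · have h1 : ‖x - y‖ ≤ ‖x - y‖ ^ γ := Real.self_le_rpow_of_le_one (norm_nonneg _) h hγ1.le
    nlinarith [hl x hx y hy, mul_le_mul_of_nonneg_left h1 hL, mul_nonneg hM h0]
  · have h1 : 1 ≤ ‖x - y‖ ^ γ := Real.one_le_rpow h hγ.le
    have h2 := abs_sub (f x) (f y)
    nlinarith [hb x hx, hb y hy, mul_le_mul_of_nonneg_left h1 hM, mul_nonneg hL h0]

theorem dpert_tst (hγ : 0 < γ) (hγ1 : γ < 1) (hf : Tst f) : ∃ M, DpHB γ M f univ := by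
  obtain ⟨L, hL⟩ := ContDiff.lipschitzWith_of_hasCompactSupport hf.cs hf.cd (by simp)
  obtain ⟨M, hM⟩ := hf.cd.continuous.bounded_above_of_compact_support hf.cs
  exact ⟨_, dpert_lip hγ hγ1 ((norm_nonneg _).trans (hM 0)) L.coe_nonneg (fun x _ => hM x)
    fun x _ y _ => hL.norm_sub_le x y⟩

theorem dpert_sup (hγ : 0 < γ) (hγ1 : γ < 1) (i : Fin n) {x₀ : E n} {r K : ℝ} (hr : 0 < r)
    (hK : 0 ≤ K) (h0 : ∀ x, r ≤ ‖x - x₀‖ → f x = 0) (h : Hol γ K f (ball x₀ (2 * r))) (x : E n) :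
    |f x| ≤ 2 * K * r ^ γ := by
  rcases le_or_gt r ‖x - x₀‖ with hx | hx
  · rw [h0 x hx, abs_zero]; positivity
  · have hz : ‖x₀ + r • ee i - x₀‖ = r := by
      rw [add_sub_cancel_left, norm_smul, ee, PiLp.norm_single, norm_one, mul_one,
        Real.norm_of_nonneg hr.le]
    have a1 := h x (mem_ball_iff_norm.2 (by linarith)) (x₀ + r • ee i)
      (mem_ball_iff_norm.2 (by linarith))
    rw [h0 _ hz.ge, sub_zero] at a1
    have a2 : ‖x - (x₀ + r • ee i)‖ ≤ 2 * r := by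
      have := norm_sub_le (x - x₀) (x₀ + r • ee i - x₀)
      rw [sub_sub_sub_cancel_right] at this
      linarith
    have a3 := Real.rpow_le_rpow (norm_nonneg _) a2 hγ.le
    rw [Real.mul_rpow (by norm_num) hr.le] at a3
    have a4 : (2 : ℝ) ^ γ ≤ 2 := Real.rpow_le_self_of_one_le (by norm_num) hγ1.le
    have a5 := mul_le_mul_of_nonneg_right a4 (Real.rpow_nonneg hr.le γ)
    nlinarith [mul_le_mul_of_nonneg_left (a3.trans a5) hK]

theorem dpert_ext (hγ : 0 < γ) (hγ1 : γ < 1) (i : Fin n) {x₀ : E n} {r K : ℝ} (hr : 0 < r)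
    (hK : 0 ≤ K) (h0 : ∀ x, r ≤ ‖x - x₀‖ → f x = 0) (h : Hol γ K f (ball x₀ (2 * r))) :
    Hol γ (2 * K) f univ := by
  have key : ∀ x y, y ∉ ball x₀ (2 * r) → |f x - f y| ≤ 2 * K * ‖x - y‖ ^ γ := by
    intro x y hy
    rw [mem_ball_iff_norm, not_lt] at hy
    rw [h0 y (by linarith), sub_zero]
    rcases le_or_gt r ‖x - x₀‖ with hx | hx
    · rw [h0 x hx, abs_zero]; positivity
    · refine (dpert_sup hγ hγ1 i hr hK h0 h x).trans
        (mul_le_mul_of_nonneg_left (Real.rpow_le_rpow hr.le ?_ hγ.le) (by positivity))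
      have := norm_sub_le (x - x₀) (x - y)
      rw [sub_sub_sub_cancel_left] at this
      linarith
  intro x _ y _
  by_cases hy : y ∈ ball x₀ (2 * r)
  · by_cases hx : x ∈ ball x₀ (2 * r)
    · exact dpert_mono h (by linarith) x hx y hy
    · rw [abs_sub_comm, norm_sub_rev]; exact key y x hx
  · exact key x y hy

theorem dpert_hess_mul (hf : ContDiff ℝ 2 f) (hg : ContDiff ℝ 2 g) (x : E n) (i j : Fin n) :
    hess (fun y => f y * g y) x i j = f x * hess g x i j +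
      (hess f x i j * g x + pd j f x * pd i g x + pd i f x * pd j g x) := by
  have d0 : ∀ {u : E n → ℝ}, ContDiff ℝ 2 u → ∀ y, DifferentiableAt ℝ u y := fun hu y =>
    hu.differentiable (by norm_num) y
  have d1 : ∀ {u : E n → ℝ}, ContDiff ℝ 2 u → ∀ k y, DifferentiableAt ℝ (pd k u) y := fun hu k y =>
    (contDiff_pd (m := 1) hu (by norm_num) k).differentiable (by norm_num) y
  have e : pd j (fun y => f y * g y) = fun y => pd j f y * g y + f y * pd j g y :=
    funext fun y => pd_mul j (d0 hf y) (d0 hg y)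
  simp only [hess, Matrix.of_apply]
  rw [e, pd_add i ((d1 hf j x).fun_mul (d0 hg x)) ((d0 hf x).fun_mul (d1 hg j x)),
    pd_mul i (d1 hf j x) (d0 hg x), pd_mul i (d0 hf x) (d1 hg j x)]
  ring

theorem dpert_hess_congr {x : E n} (h : f =ᶠ[nhds x] g) (i j : Fin n) :
    hess f x i j = hess g x i j := by
  have e : pd j f =ᶠ[nhds x] pd j g := by
    filter_upwards [h.fderiv (𝕜 := ℝ)] with y hy
    simp only [pd, hy]
  simp only [hess, Matrix.of_apply]
  rw [pd, pd, e.fderiv_eq]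

end

theorem schauder_loc {c C γ : ℝ} {a₀ : Mat n} (ha : Ell c C a₀) (hc : 0 < c) (hγ : 0 < γ)
    (hγ1 : γ < 1) : ∃ δ : ℝ, 0 < δ ∧ ∀ r K : ℝ, 0 < r → r ≤ 1 → 0 ≤ K → ∃ K' : ℝ, 0 ≤ K' ∧
      ∀ (x₀ : E n) (a : E n → Mat n) (q : E n → ℝ), ContDiff ℝ 2 q →
        (∃ K₀, ∀ i j, Hol γ K₀ (fun x => hess q x i j) (ball x₀ (2 * r))) →
        (∀ x ∈ ball x₀ (2 * r), ∀ i j, |a x i j - a₀ i j| ≤ δ) →
        (∀ i j, Hol γ (δ / r ^ γ) (fun x => a x i j) (ball x₀ (2 * r))) →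
        (∀ x ∈ ball x₀ (2 * r), |∑ i, ∑ j, a x i j * hess q x i j| ≤ K) →
        Hol γ K (fun x => ∑ i, ∑ j, a x i j * hess q x i j) (ball x₀ (2 * r)) →
        (∀ x ∈ ball x₀ (2 * r), |q x| ≤ K ∧ ∀ i, |pd i q x| ≤ K) →
        (∀ i, Hol γ K (pd i q) (ball x₀ (2 * r))) →
        ∀ i j, (∀ x ∈ ball x₀ (r / 2), |hess q x i j| ≤ K') ∧
          Hol γ K' (fun x => hess q x i j) (ball x₀ (r / 2)) := by
  obtain ⟨Cs, hCs, hsc⟩ := schauder_const ha hc hγ hγ1
  obtain ⟨δ, hδ, hδ1⟩ : ∃ δ : ℝ, 0 < δ ∧ Cs * (2 * (n * (n * (3 * δ)))) ≤ 1 / 2 := by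
    refine ⟨(12 * Cs * n ^ 2 + 1)⁻¹, by positivity, ?_⟩
    have : Cs * (2 * (n * (n * (3 * (12 * Cs * n ^ 2 + 1)⁻¹)))) =
        6 * Cs * n ^ 2 / (12 * Cs * n ^ 2 + 1) := by ring
    rw [this, div_le_iff₀ (by positivity)]
    linarith
  obtain ⟨A₀, hA₀⟩ := Finite.exists_le fun p : Fin n × Fin n => |a₀ p.1 p.2|
  refine ⟨δ, hδ, fun r K hr hr1 hK => ?_⟩
  have hT : Tst (cut (r / 2) : E n → ℝ) := tst_cut (half_pos hr)
  obtain ⟨M, hM, hM'⟩ := dpert_fin (γ := γ) (s := univ) (ι := Option (Fin n) × Option (Fin n))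
    (F := fun p => p.1.elim id pd (p.2.elim id pd (cut (r / 2)))) (by
      rintro ⟨_ | i, _ | j⟩
      exacts [dpert_tst hγ hγ1 hT, dpert_tst hγ hγ1 (hT.pd j), dpert_tst hγ hγ1 (hT.pd i),
        dpert_tst hγ hγ1 ((hT.pd j).pd i)])
  have hrγ : 0 < r ^ γ := Real.rpow_pos_of_pos hr γ
  obtain ⟨Mb, hMb⟩ : ∃ Mb, Mb = 2 * M * (2 * K + √n * K) + 2 * M * K + 2 * M * K := ⟨_, rfl⟩
  have hMb0 : 0 ≤ Mb := by rw [hMb]; positivity
  obtain ⟨Ma, hMa⟩ : ∃ Ma, Ma = |A₀| + δ + δ / r ^ γ := ⟨_, rfl⟩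
  have hMa0 : 0 ≤ Ma := by rw [hMa]; positivity
  obtain ⟨K₂, hK₂⟩ : ∃ K₂, K₂ = 2 * M * K + n * (n * (2 * Ma * Mb)) := ⟨_, rfl⟩
  have hK₂0 : 0 ≤ K₂ := by rw [hK₂]; positivity
  refine ⟨2 * (2 * (Cs * (2 * K₂))), by positivity,
    fun x₀ a q hq ⟨K₀, hK₀⟩ ha1 ha2 hF1 hF2 hq1 hq2 i₀ j₀ => ?_⟩
  set χ : E n → ℝ := fun x => cut (r / 2) (x + -x₀) with hχ
  have cχ : ContDiff ℝ 2 χ :=
    ((contDiff_cut (r / 2)).of_le (by norm_cast)).comp (contDiff_id.add contDiff_const)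
  have e1 : ∀ i, pd i χ = fun x => pd i (cut (r / 2)) (x + -x₀) := fun i =>
    funext fun x => pd_translate i _ _ x
  have b0 : DpHB γ M χ (ball x₀ (2 * r)) := (hM' (none, none)).shift _ _
  have b1 : ∀ i, DpHB γ M (pd i χ) (ball x₀ (2 * r)) := fun i => by
    rw [e1]; exact (hM' (none, some i)).shift _ _
  have b2 : ∀ i j, DpHB γ M (fun x => hess χ x i j) (ball x₀ (2 * r)) := fun i j => by
    simp only [hess, Matrix.of_apply, e1 j, pd_translate]
    exact (hM' (some i, some j)).shift _ _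
  have bq : DpHB γ (2 * K + √n * K) q (ball x₀ (2 * r)) := by
    refine dpert_lip hγ hγ1 hK (by positivity) (fun x hx => (hq1 x hx).1) fun x hx y hy => ?_
    refine (convex_ball x₀ (2 * r)).norm_image_sub_le_of_norm_fderiv_le (𝕜 := ℝ)
      (fun z _ => hq.differentiable (by norm_num) z) (fun z hz => ?_) hy hx
    refine (pow_le_pow_iff_left₀ (norm_nonneg _) (by positivity) two_ne_zero).1 ?_
    rw [norm_fderiv_sq, mul_pow, Real.sq_sqrt (Nat.cast_nonneg n)]
    refine (Finset.sum_le_sum fun i _ => sq_le_sq' (abs_le.1 ((hq1 z hz).2 i)).1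
      (abs_le.1 ((hq1 z hz).2 i)).2).trans (le_of_eq ?_)
    simp
  have bq1 : ∀ i, DpHB γ K (pd i q) (ball x₀ (2 * r)) := fun i => ⟨fun x hx => (hq1 x hx).2 i, hq2 i⟩
  have bb : ∀ i j, DpHB γ Mb (fun x => hess χ x i j * q x + pd j χ x * pd i q x + pd i χ x * pd j q x)
      (ball x₀ (2 * r)) := fun i j => by
    rw [hMb]
    exact (((b2 i j).mul hM (by positivity) bq).add ((b1 j).mul hM hK (bq1 i))).add
      ((b1 i).mul hM hK (bq1 j))
  have ba : ∀ i j, DpHB γ Ma (fun x => a x i j) (ball x₀ (2 * r)) := fun i j => by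
    have t1 : 0 ≤ δ / r ^ γ := by positivity
    refine ⟨fun x hx => ?_, dpert_mono (ha2 i j) (by linarith [abs_nonneg A₀])⟩
    have t2 := abs_add_le (a x i j - a₀ i j) (a₀ i j)
    rw [sub_add_cancel] at t2
    linarith [ha1 x hx i j, hA₀ (i, j), le_abs_self A₀]
  set p : E n → ℝ := fun x => χ x * q x with hp
  have cp : ContDiff ℝ 2 p := cχ.mul hq
  have sp : tsupport p ⊆ closedBall x₀ (3 / 2 * (r / 2)) := by
    refine closure_minimal (fun x hx => ?_) isClosed_closedBall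
    by_contra hn
    rw [mem_closedBall_iff_norm, not_le, sub_eq_add_neg] at hn
    exact hx (by simp only [hp, hχ, cut_zero (half_pos hr) hn.le, zero_mul])
  have kp : HasCompactSupport p :=
    (isCompact_closedBall x₀ _).of_isClosed_subset (isClosed_tsupport p) sp
  have z2 : ∀ i j x, r ≤ ‖x - x₀‖ → hess p x i j = 0 := fun i j x hx =>
    pd_eq_zero (fun h => by
      have := mem_closedBall_iff_norm.1 (sp (tsupport_pd j p h))
      linarith) i
  have hm : ∀ x i j, hess p x i j = χ x * hess q x i j +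
      (hess χ x i j * q x + pd j χ x * pd i q x + pd i χ x * pd j q x) :=
    dpert_hess_mul cχ hq
  have step : ∀ H, 0 ≤ H → (∀ i j, Hol γ H (fun x => hess p x i j) univ) →
      ∀ i j, Hol γ (H / 2 + Cs * (2 * K₂)) (fun x => hess p x i j) univ := by
    intro H hH h
    have t1 : ∀ i j, Hol γ (3 * δ * H) (fun x => (a₀ i j - a x i j) * hess p x i j)
        (ball x₀ (2 * r)) := fun i j => by
      refine dpert_mono (dpert_mul (M := δ) (K := δ / r ^ γ)
        (fun x hx => by rw [abs_sub_comm]; exact ha1 x hx i j) (fun x hx y hy => ?_)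
        (fun x _ => dpert_sup hγ hγ1 i hr hH (z2 i j) (dpert_sub (h i j) (subset_univ _)) x)
        (dpert_sub (h i j) (subset_univ _))) (le_of_eq ?_)
      · rw [sub_sub_sub_cancel_left, abs_sub_comm]
        exact ha2 i j x hx y hy
      · field_simp; ring
    have t2 := dpert_add (dpert_sum2 t1) (dpert_add (b0.mul hM hK ⟨hF1, hF2⟩).2
      (dpert_sum2 fun i j => ((ba i j).mul hMa0 hMb0 (bb i j)).2))
    rw [← hK₂] at t2
    have t3 : Hol γ (n * (n * (3 * δ * H)) + K₂) (fun x => ∑ i, ∑ j, a₀ i j * hess p x i j)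
        (ball x₀ (2 * r)) := by
      refine dpert_congr t2 fun x _ => ?_
      simp only [Finset.mul_sum, ← Finset.sum_add_distrib]
      refine Finset.sum_congr rfl fun i _ => Finset.sum_congr rfl fun j _ => ?_
      rw [hm x i j]; ring
    have t4 := dpert_ext hγ hγ1 i₀ hr (by positivity) (fun x hx => by simp [z2 _ _ x hx]) t3
    intro i j
    refine dpert_mono (hsc p _ cp kp (by positivity) t4 i j) ?_
    nlinarith [mul_le_mul_of_nonneg_right hδ1 hH]
  obtain ⟨H₁, hH₁, hH₁'⟩ := dpert_fin (γ := γ) (s := ball x₀ (2 * r)) (ι := Fin n × Fin n)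
    (F := fun t x => hess p x t.1 t.2) fun t => by
      obtain ⟨B, hB⟩ := (isCompact_closedBall x₀ (2 * r)).exists_bound_of_continuousOn
        (continuous_hess hq t.1 t.2).continuousOn
      have t1 : DpHB γ (max (max B K₀) 0) (fun x => hess q x t.1 t.2) (ball x₀ (2 * r)) :=
        ⟨fun x hx => (hB x (ball_subset_closedBall hx)).trans
          ((le_max_left _ _).trans (le_max_left _ _)),
          dpert_mono (hK₀ _ _) ((le_max_right _ _).trans (le_max_left _ _))⟩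
      simp only [hm]
      exact ⟨_, (b0.mul hM (le_max_right _ _) t1).add (bb _ _)⟩
  have cl : IsClosed {H : ℝ | 0 ≤ H ∧ ∀ i j, Hol γ H (fun x => hess p x i j) univ} := by
    refine isClosed_of_closure_subset fun H hH => ⟨?_, fun i j x hx y hy => ?_⟩
    · exact closure_minimal (fun H h => h.1) isClosed_Ici hH
    · exact closure_minimal (t := {H : ℝ | |hess p x i j - hess p y i j| ≤ H * ‖x - y‖ ^ γ})
        (fun H h => h.2 i j x hx y hy)
        (isClosed_le continuous_const (continuous_id.mul continuous_const)) hH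
  have bdd : BddBelow {H : ℝ | 0 ≤ H ∧ ∀ i j, Hol γ H (fun x => hess p x i j) univ} :=
    ⟨0, fun H hH => hH.1⟩
  obtain ⟨m1, m2⟩ := cl.csInf_mem ⟨2 * H₁, by positivity, fun i j =>
    dpert_ext hγ hγ1 i hr hH₁ (z2 i j) (hH₁' (i, j)).2⟩ bdd
  have m3 := csInf_le bdd ⟨by positivity, step _ m1 m2⟩
  have fin : Hol γ (2 * (Cs * (2 * K₂))) (fun x => hess p x i₀ j₀) univ :=
    dpert_mono (m2 i₀ j₀) (by linarith)
  have eq : ∀ x ∈ ball x₀ (r / 2), hess q x i₀ j₀ = hess p x i₀ j₀ := fun x hx => by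
    refine dpert_hess_congr ?_ i₀ j₀
    filter_upwards [isOpen_ball.mem_nhds hx] with y hy
    rw [mem_ball_iff_norm, sub_eq_add_neg] at hy
    simp only [hp, hχ, cut_one (half_pos hr) hy.le, one_mul]
  have h0 : 0 ≤ Cs * (2 * K₂) := by positivity
  refine ⟨fun x hx => ?_, dpert_congr (dpert_mono (dpert_sub fin (subset_univ _)) (by linarith)) eq⟩
  rw [eq x hx]
  refine (dpert_sup hγ hγ1 i₀ hr (by positivity) (z2 i₀ j₀) (dpert_sub fin (subset_univ _)) x).trans ?_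
  exact mul_le_of_le_one_right (by positivity) (Real.rpow_le_one hr.le hr1 hγ.le)

end Crest.Agent.R238
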