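import Mathlib

/-!
# R238 (log-Brunn–Minkowski, S0369): definitions

Overview of the proof: see the docstring of `Crest/Agent/R238/Plan.lean`.
Conventions: `E n` Euclidean space, `pd i f` partial derivative, `hess f x i j = pd i (pd j f) x`,
`rho φ = exp (-φ)` the (unnormalised) weight, all integrals are against Lebesgue measure.
-/

set_option autoImplicit false
open MeasureTheory Matrix Set
open scoped RealInnerProductSpace ContDiff BigOperators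

namespace Crest.Agent.R238

abbrev E (n : ℕ) : Type := EuclideanSpace ℝ (Fin n)
abbrev Mat (n : ℕ) : Type := Matrix (Fin n) (Fin n) ℝ

variable {n : ℕ}

/-- basis vector -/
noncomputable def ee (i : Fin n) : E n := EuclideanSpace.single i 1

/-- partial derivative -/
noncomputable def pd (i : Fin n) (f : E n → ℝ) : E n → ℝ := fun x => fderiv ℝ f x (ee i)

/-- gradient as a plain vector -/
noncomputable def grad (f : E n → ℝ) (x : E n) : Fin n → ℝ := fun i => pd i f x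

/-- Hessian matrix -/
noncomputable def hess (f : E n → ℝ) (x : E n) : Mat n := Matrix.of fun i j => pd i (pd j f) x

/-- entrywise partial derivative of a matrix field -/
noncomputable def pdM (e : Fin n) (A : E n → Mat n) (x : E n) : Mat n :=
  Matrix.of fun i j => pd e (fun y => A y i j) x

/-- Jacobian matrix of a map: `jac G x i j = ∂_j G_i` -/
noncomputable def jac (G : E n → E n) (x : E n) : Mat n :=
  Matrix.of fun i j => fderiv ℝ G x (ee j) i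

/-- squared Frobenius norm -/
def nsq (M : Mat n) : ℝ := ∑ i, ∑ j, M i j ^ 2

/-- the weight `e^{-φ}` -/
noncomputable def rho (φ : E n → ℝ) (x : E n) : ℝ := Real.exp (-φ x)

/-- symmetric matrix with `c ≤ M ≤ C` -/
structure Ell (c C : ℝ) (M : Mat n) : Prop where
  symm : ∀ i j, M i j = M j i
  lo : ∀ v : Fin n → ℝ, c * (v ⬝ᵥ v) ≤ v ⬝ᵥ (M *ᵥ v)
  hi : ∀ v : Fin n → ℝ, v ⬝ᵥ (M *ᵥ v) ≤ C * (v ⬝ᵥ v)

/-- even `C²` potential with `α ≤ D²φ ≤ β` -/
structure Pot (α β : ℝ) (φ : E n → ℝ) : Prop where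
  apos : 0 < α
  ale : α ≤ β
  cd : ContDiff ℝ 2 φ
  even : ∀ x, φ (-x) = φ x
  ell : ∀ x, Ell α β (hess φ x)

/-- polynomial growth -/
def PolyG (h : E n → ℝ) : Prop := ∃ (K : ℝ) (k : ℕ), ∀ x, |h x| ≤ K * (1 + ‖x‖) ^ k

/-- smooth compactly supported test functions -/
structure Tst (s : E n → ℝ) : Prop where
  cd : ContDiff ℝ ∞ s
  cs : HasCompactSupport s

/-! ### Part B: the weak (`C^{1,1}`) moment potential -/

/-- even functions vanishing at `0` which are `c`-convex and `C`-concave -/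
structure Cls (c C : ℝ) (ψ : E n → ℝ) : Prop where
  zero : ψ 0 = 0
  even : ∀ y, ψ (-y) = ψ y
  lo : ConvexOn ℝ univ fun y => ψ y - c / 2 * ‖y‖ ^ 2
  hi : ConvexOn ℝ univ fun y => C / 2 * ‖y‖ ^ 2 - ψ y

/-- `f` has gradient map `T` and `c ≤ D² f ≤ C` in the two-point form -/
structure Quad (c C : ℝ) (f : E n → ℝ) (T : E n → E n) : Prop where
  grad : ∀ x, HasGradientAt f (T x) x
  lo : ∀ x y, c / 2 * ‖y - x‖ ^ 2 ≤ f y - f x - ⟪T x, y - x⟫
  hi : ∀ x y, f y - f x - ⟪T x, y - x⟫ ≤ C / 2 * ‖y - x‖ ^ 2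
  lip : ∀ x y, ‖T x - T y‖ ≤ C * ‖x - y‖

/-- Legendre pair: `T = ∇ψ`, `G = T⁻¹ = ∇u`, `u = ψ^*` -/
structure Leg (c C : ℝ) (ψ : E n → ℝ) (T G : E n → E n) (u : E n → ℝ) : Prop where
  qψ : Quad c C ψ T
  qu : Quad C⁻¹ c⁻¹ u G
  GT : ∀ y, G (T y) = y
  TG : ∀ x, T (G x) = x
  val : ∀ x, u x = ⟪x, G x⟫ - ψ (G x)
  ueven : ∀ x, u (-x) = u x

/-- `G` pushes `e^{-φ}/Z` to `e^{-ψ}/Z'` -/
def Push (φ ψ : E n → ℝ) (G : E n → E n) : Prop :=
  ∀ b : E n → ℝ, Continuous b → (∃ M, ∀ y, |b y| ≤ M) →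
    (∫ y, rho ψ y * b y) / (∫ y, rho ψ y) = (∫ x, rho φ x * b (G x)) / ∫ x, rho φ x

/-- `C^{1,1}` solution of `log det D²u = x·∇u - u - φ + c₀` with the weak Stein identity
`div (e^{-φ} (D²u)⁻¹) = - e^{-φ} x`. -/
structure Weak (φ : E n → ℝ) (c C : ℝ) (u : E n → ℝ) (G : E n → E n) : Prop where
  cpos : 0 < c
  cle : c ≤ C
  quad : Quad c C u G
  even : ∀ x, u (-x) = u x
  ma : ∃ c₀ : ℝ, ∀ᵐ x : E n, Real.log (jac G x).det = ⟪x, G x⟫ - u x - φ x + c₀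
  stein : ∀ (F : E n → ℝ) (K : NNReal), LipschitzWith K F → HasCompactSupport F → ∀ d,
    ∫ x, rho φ x * (x d * F x) = ∫ x, rho φ x * ∑ e, (jac G x)⁻¹ d e * pd e F x

/-- log-Laplace transform of `e^{-W}` -/
noncomputable def lap (W : E n → ℝ) (x : E n) : ℝ := Real.log (∫ y, Real.exp (⟪x, y⟫ - W y))

/-- entropic potential `u_ψ(x) = ε log ∫ exp ((x·y - (1+ε) ψ y)/ε) dy` -/
noncomputable def uE (ε : ℝ) (ψ : E n → ℝ) (x : E n) : ℝ :=
  ε * lap (fun y => (1 + ε) / ε * ψ y) (ε⁻¹ • x)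

/-- conditional density `π(y | x)` -/
noncomputable def cond (ε : ℝ) (ψ : E n → ℝ) (x y : E n) : ℝ :=
  Real.exp ((⟪x, y⟫ - (1 + ε) * ψ y - uE ε ψ x) / ε)

/-- second entropic potential -/
noncomputable def psiHat (φ : E n → ℝ) (ε : ℝ) (ψ : E n → ℝ) (y : E n) : ℝ :=
  ε * lap (fun x => uE ε ψ x / ε + φ x) (ε⁻¹ • y)

/-- one step of the alternating minimisation -/
noncomputable def psiNew (φ : E n → ℝ) (ε : ℝ) (ψ : E n → ℝ) (y : E n) : ℝ :=
  (psiHat φ ε ψ y - psiHat φ ε ψ 0 + ε * ψ y) / (1 + ε)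

/-- the entropic functional -/
noncomputable def Jf (φ : E n → ℝ) (ε : ℝ) (ψ : E n → ℝ) : ℝ :=
  (∫ x, rho φ x * uE ε ψ x) / (∫ x, rho φ x) - (1 + ε) * Real.log (∫ y, rho ψ y)

/-- density of the `y`-marginal of `e^{-φ}(dx)/Z · π(dy|x)` -/
noncomputable def pm (φ : E n → ℝ) (ε : ℝ) (ψ : E n → ℝ) (y : E n) : ℝ :=
  Real.exp ((psiHat φ ε ψ y - (1 + ε) * ψ y) / ε) / ∫ x, rho φ x

/-! ### Part C/D: regularity -/

/-- `W` is a `C¹` subsolution on `B` with flux `Φ`: `-div Φ ≤ K` weakly, `Φ ≈ a ∇W`,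
`l ≤ a ≤ L`. -/
structure Sub (l L K : ℝ) (W : E n → ℝ) (Φ : E n → E n) (B : Set (E n)) : Prop where
  cd : ContDiffOn ℝ 1 W B
  meas : AEStronglyMeasurable Φ (volume.restrict B)
  lo : ∀ᵐ x : E n, x ∈ B → l * ‖fderiv ℝ W x‖ ^ 2 ≤ fderiv ℝ W x (Φ x)
  hi : ∀ᵐ x : E n, x ∈ B → ‖Φ x‖ ≤ L * ‖fderiv ℝ W x‖
  weak : ∀ η : E n → ℝ, ContDiff ℝ 1 η → HasCompactSupport η → tsupport η ⊆ B →
    (∀ x, 0 ≤ η x) → ∫ x, fderiv ℝ η x (Φ x) ≤ K * ∫ x, η x

/-- `∫₀¹ ((1-s) A + s B)⁻¹ ds` -/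
noncomputable def avgInv (A B : Mat n) : Mat n :=
  Matrix.of fun i j => ∫ s in (0 : ℝ)..1, ((1 - s) • A + s • B)⁻¹ i j

/-- second difference quotient -/
noncomputable def dq2 (u : E n → ℝ) (e : E n) (h : ℝ) (x : E n) : ℝ :=
  (u (x + h • e) + u (x - h • e) - 2 * u x) / h ^ 2

/-- supremum of the second difference quotients in direction `e` with stencil in `ball x₀ r` -/
noncomputable def Msup (u : E n → ℝ) (e x₀ : E n) (r : ℝ) : ℝ :=
  sSup {t | ∃ h x, 0 < h ∧ x + h • e ∈ Metric.ball x₀ r ∧ x - h • e ∈ Metric.ball x₀ r ∧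
    t = dq2 u e h x}

/-- `G` is differentiable with locally Hölder Jacobian -/
def LocHol (G : E n → E n) : Prop :=
  Differentiable ℝ G ∧ ∀ x₀ : E n, ∃ γ r K : ℝ, 0 < γ ∧ γ < 1 ∧ 0 < r ∧ 0 ≤ K ∧
    ∀ x ∈ Metric.ball x₀ r, ∀ y ∈ Metric.ball x₀ r, ∀ i j,
      |jac G x i j - jac G y i j| ≤ K * ‖x - y‖ ^ γ

/-- `γ`-Hölder with constant `K` on `s` -/
def Hol (γ K : ℝ) (f : E n → ℝ) (s : Set (E n)) : Prop :=
  ∀ x ∈ s, ∀ y ∈ s, |f x - f y| ≤ K * ‖x - y‖ ^ γ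

/-! ### Part E/F: the smooth moment structure -/

/-- `τ = (D²u)⁻¹`, `U = -D³u`: Stein kernel of `e^{-φ}` whose inverse is a Hessian -/
structure MS (φ : E n → ℝ) (c C : ℝ) (τ : E n → Mat n) (U : E n → Fin n → Mat n) : Prop where
  cpos : 0 < c
  cle : c ≤ C
  ell : ∀ x, Ell c C (τ x)
  cd : ∀ i j, ContDiff ℝ 1 fun x => τ x i j
  even : ∀ x, τ (-x) = τ x
  Ucont : ∀ e i j, Continuous fun x => U x e i j
  Usym1 : ∀ x e i j, U x e i j = U x e j i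
  Usym2 : ∀ x e i j, U x e i j = U x i e j
  dτ : ∀ x e, pdM e τ x = τ x * U x e * τ x
  stein : ∀ N : E n → ℝ, ContDiff ℝ 1 N → HasCompactSupport N → ∀ d,
    ∫ x, rho φ x * (x d * N x) = ∫ x, rho φ x * ∑ e, τ x d e * pd e N x

/-- `L s = τ^{ij} s_{ij} - x·∇s` -/
noncomputable def Lop (τ : E n → Mat n) (s : E n → ℝ) (x : E n) : ℝ :=
  (∑ i, ∑ j, τ x i j * hess s x i j) - ∑ i, x i * pd i s x

/-- `Λ_a = ∂_a (L+1) s` -/
noncomputable def Lam (τ : E n → Mat n) (s : E n → ℝ) (x : E n) : Fin n → ℝ :=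
  fun a => pd a (fun y => Lop τ s y + s y) x

/-- `A_a = L (∂_a s)` -/
noncomputable def Avec (τ : E n → Mat n) (s : E n → ℝ) (x : E n) : Fin n → ℝ :=
  fun a => Lop τ (pd a s) x

/-- weighted mean -/
noncomputable def mean (φ h : E n → ℝ) : ℝ := (∫ x, rho φ x * h x) / ∫ x, rho φ x

/-- `T_λ s = λ (s - mean s) - L s` -/
noncomputable def Tl (φ : E n → ℝ) (τ : E n → Mat n) (l : ℝ) (s : E n → ℝ) (x : E n) : ℝ :=
  l * (s x - mean φ s) - Lop τ s x

/-- `T_λ` (even test functions) is dense in the even mean-zero part of `L²(e^{-φ})`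
(continuous targets suffice). -/
def Dense0 (φ : E n → ℝ) (τ : E n → Mat n) (l : ℝ) : Prop :=
  ∀ f : E n → ℝ, Continuous f → Integrable (fun x => rho φ x * f x ^ 2) →
    (∀ x, f (-x) = f x) → ∫ x, rho φ x * f x = 0 →
    ∀ η : ℝ, 0 < η → ∃ s, Tst s ∧ (∀ x, s (-x) = s x) ∧
      ∫ x, rho φ x * (Tl φ τ l s x - f x) ^ 2 ≤ η

/-- the fixed bump -/
noncomputable def bump0 (n : ℕ) : ContDiffBump (0 : E n) := ⟨1 / 2, 1, by norm_num, by norm_num⟩

/-- mollifier kernel at scale `ε` (even, nonnegative, integral `1`, support in `ball 0 ε`) -/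
noncomputable def kern (ε : ℝ) (z : E n) : ℝ :=
  (ε ^ n)⁻¹ * (bump0 n).normed volume (ε⁻¹ • z)

/-- mollification -/
noncomputable def mol (ε : ℝ) (g : E n → ℝ) (x : E n) : ℝ := ∫ y, kern ε (x - y) * g y

/-- locally square integrable -/
def L2loc (g : E n → ℝ) : Prop :=
  AEStronglyMeasurable g volume ∧ ∀ R : ℝ, IntegrableOn (fun x => g x ^ 2) (Metric.ball 0 R)

/-- Friedrichs commutator -/
noncomputable def comm (ε : ℝ) (e : Fin n) (a g : E n → ℝ) (x : E n) : ℝ :=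
  pd e (mol ε fun y => a y * g y) x - a x * pd e (mol ε g) x - pd e a x * mol ε g x

/-- the fixed cut-off: `1` on `closedBall 0 1`, supported in `closedBall 0 (3/2)` -/
noncomputable def bump1 (n : ℕ) : ContDiffBump (0 : E n) := ⟨1, 3 / 2, by norm_num, by norm_num⟩

/-- cut-off at scale `R` -/
noncomputable def cut (R : ℝ) (x : E n) : ℝ := bump1 n (R⁻¹ • x)

/-- `M = τ^{cj} [2 tr(∂_jσ S3_c) - 2 tr(σ U_j τ S3_c) + tr(τ U_j ∂_c(κ²))]` -/
def Malg (t S : Mat n) (U S3 : Fin n → Mat n) : ℝ :=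
  ∑ c, ∑ j, t c j *
    (2 * ((t * U j * (t * S * t) + t * S3 j * t + t * S * t * U j * t) * S3 c).trace
      - 2 * (t * S * t * U j * t * S3 c).trace
      + (t * U j * (t * U c * t * S * t * S + t * S3 c * t * S + t * S * t * U c * t * S
          + t * S * t * S3 c)).trace)

/-- the part of the cut-off error that is controlled by `Malg` -/
def Ralg (t S : Mat n) (U S3 : Fin n → Mat n) (q : Fin n → ℝ) : ℝ :=
  ∑ b, ∑ c, q b *
    (4 * t b c * (t * S * t * S3 c).trace + 4 * (t * S * t) b c * (U c * (t * S * t)).trace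
      + 2 * t b c * (U c * (t * S * t * S * t)).trace
      - 2 * (t * S * t * S * t) b c * (t * U c).trace)

/-- `ξ = τ ∇w` -/
noncomputable def xi (τ : E n → Mat n) (w : E n → ℝ) (a : Fin n) (x : E n) : ℝ :=
  ∑ c, τ x a c * pd c w x

/-- `(Dξ)^a_b = ∂_b ξ^a` -/
noncomputable def Dxi (τ : E n → Mat n) (w : E n → ℝ) (x : E n) : Mat n :=
  Matrix.of fun a b => pd b (xi τ w a) x

/-! ### Part A: ridge potentials -/

/-- even convex `C²` profile with bounded first and second derivative -/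
structure Prof (m : ℝ) (v : ℝ → ℝ) : Prop where
  cd : ContDiff ℝ 2 v
  even : ∀ y, v (-y) = v y
  nn : ∀ y, 0 ≤ v y
  d1 : ∀ y, |deriv v y| ≤ m
  d2 : ∀ y, 0 ≤ deriv (deriv v) y
  d2' : ∀ y, deriv (deriv v) y ≤ m

/-- ridge potential -/
noncomputable def ridge {N : ℕ} (δ : ℝ) (v : ℝ → ℝ) (a : Fin N → E n) (x : E n) : ℝ :=
  δ / 2 * ‖x‖ ^ 2 + ∑ j, v ⟪x, a j⟫

/-- Gaussian weight of a set -/
noncomputable def gw (δ : ℝ) (A : Set (E n)) : ℝ := ∫ x in A, Real.exp (-(δ / 2 * ‖x‖ ^ 2))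

/-- symmetric polyhedron -/
def poly {N : ℕ} (a : Fin N → E n) (h : Fin N → ℝ) : Set (E n) := {x | ∀ j, |⟪x, a j⟫| ≤ h j}

end Crest.Agent.R238
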