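import Crest.Agent.R238.ECont

/-!
# R238 / EApprox: approximate solutions of `(L+1)s = -w` in `H¹_loc`   [~600 lines]

`f = w - mean w`; `dense_all` at `λ = -1` gives even tests `s_k` with `e_k = T_{-1}s_k - f`,
`‖e_k‖² ≤ 1/(k+1)`; `gap` for `s_k` and `s_k - s_l` (`Tl_sub`, `hess_sub`): `hess s_k`, `∇s_k` are
bounded and Cauchy in `L²(ρ)`.  `(L+1)s_k = -w - e_k + const`.  For `s = mol ε s_k`
(`hess s = mol(hess s_k)`, `pd_mol_C1`):
`Λ_a(s) + ∂_a w = (∂_a w - mol ∂_a w) - ∂_a mol e_k - Σ_{ij} comm ε a τ_{ij} (s_k)_{ij}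
  + Σ_i comm ε a x_i (s_k)_i`   (`Lam_mol`).
Given `η`: `k₀` with `‖hess(s_k - s_{k₀})‖² ≤ η/8` for `k ≥ k₀`, `R₀` beyond the support of `s_{k₀}`.
Given `R, η'`: `m ≤ ρ ≤ M` on `B_{2R+1}` (`Pot.rho_bounds`); choose `k₁ ≥ k₀` (Cauchy,
`comm_bound`, `mol_L2`), then `ε ≤ 1` (`comm_small`, `mol_unif` for `s_{k₁}`, `∂w`), then `k ≥ k₁`
(`pd_mol_L2` for `e_k`).
-/

set_option autoImplicit false
open MeasureTheory Matrix Set Metric
open scoped RealInnerProductSpace ContDiff BigOperators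

namespace Crest.Agent.R238

variable {n : ℕ}

variable {α β c C : ℝ} {φ : E n → ℝ} {τ : E n → Mat n} {U : E n → Fin n → Mat n}

theorem eapprox_hess_mol {s : E n → ℝ} (hs : Tst s) {ε : ℝ} (hε : 0 < ε) (x : E n) (i j : Fin n) :
    hess (mol ε s) x i j = mol ε (fun y => hess s y i j) x := by
  have h1 : ContDiff ℝ 1 s := hs.cd.of_le (by norm_cast)
  have h2 : ContDiff ℝ 1 (pd j s) := (hs.pd j).cd.of_le (by norm_cast)
  show pd i (pd j (mol ε s)) x = mol ε (pd i (pd j s)) x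
  rw [pd_mol_C1 hε h1, pd_mol_C1 hε h2]

theorem eapprox_hc {s : E n → ℝ} (hs : Tst s) (i j : Fin n) : Continuous fun y => hess s y i j :=
  continuous_hess (hs.cd.of_le (by norm_cast)) i j

theorem eapprox_pc {s : E n → ℝ} (hs : Tst s) (i : Fin n) : Continuous (pd i s) :=
  (hs.pd i).cd.continuous

theorem eapprox_dm {ε : ℝ} (hε : 0 < ε) {g : E n → ℝ} (hg : Continuous g) (x : E n) :
    DifferentiableAt ℝ (mol ε g) x :=
  (contDiff_mol hε hg.locallyIntegrable).differentiable (by simp) x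

theorem Lam_mol (hM : MS φ c C τ U) {s : E n → ℝ} (hs : Tst s) {ε : ℝ} (hε : 0 < ε) (x : E n)
    (a : Fin n) :
    Lam τ (mol ε s) x a = pd a (mol ε fun y => Lop τ s y + s y) x
      - (∑ i, ∑ j, comm ε a (fun y => τ y i j) (fun y => hess s y i j) x)
      + ∑ i, comm ε a (fun y => y i) (pd i s) x := by
  have h1 : ContDiff ℝ 1 s := hs.cd.of_le (by norm_cast)
  have cτ : ∀ i j, Continuous fun y => τ y i j * hess s y i j := fun i j =>
    (hM.continuous i j).mul (eapprox_hc hs i j)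
  have cx : ∀ i, Continuous fun y : E n => y i * pd i s y := fun i =>
    (contDiff_coord (m := 0) i).continuous.mul (eapprox_pc hs i)
  have dτ : ∀ i j, DifferentiableAt ℝ (fun y => τ y i j) x := fun i j =>
    (hM.cd i j).differentiable one_ne_zero x
  have dx : ∀ i, DifferentiableAt ℝ (fun y : E n => y i) x := fun i =>
    (contDiff_coord (m := 1) i).differentiable one_ne_zero x
  have e1 : (fun y => Lop τ (mol ε s) y + mol ε s y) = fun y =>
      ((∑ i, ∑ j, τ y i j * mol ε (fun z => hess s z i j) y) - ∑ i, y i * mol ε (pd i s) y) + mol ε s y := by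
    funext y
    simp only [Lop, eapprox_hess_mol hs hε, pd_mol_C1 hε h1]
  have c1 : ∀ i, Continuous fun y => ∑ j, τ y i j * hess s y i j := fun i =>
    continuous_finsetSum _ fun j _ => cτ i j
  have c2 : Continuous fun y => ∑ i, ∑ j, τ y i j * hess s y i j := continuous_finsetSum _ fun i _ => c1 i
  have c3 : Continuous fun y : E n => ∑ i, y i * pd i s y := continuous_finsetSum _ fun i _ => cx i
  have e2 : (mol ε fun y => Lop τ s y + s y) = fun y =>
      ((∑ i, ∑ j, mol ε (fun z => τ z i j * hess s z i j) y) - ∑ i, mol ε (fun z : E n => z i * pd i s z) y)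
        + mol ε s y := by
    simp only [Lop]
    rw [mol_add hε (c2.fun_sub c3).locallyIntegrable hs.cd.continuous.locallyIntegrable,
      mol_sub hε c2.locallyIntegrable c3.locallyIntegrable,
      mol_sum hε _ fun i _ => (c1 i).locallyIntegrable, mol_sum hε _ fun i _ => (cx i).locallyIntegrable]
    funext y
    have e : ∀ i, mol ε (fun z => ∑ j, τ z i j * hess s z i j) y =
        ∑ j, mol ε (fun z => τ z i j * hess s z i j) y := fun i => by
      rw [mol_sum hε _ fun j _ => (cτ i j).locallyIntegrable]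
    simp only [e]
  have d1 : ∀ i j, DifferentiableAt ℝ (fun y => τ y i j * mol ε (fun z => hess s z i j) y) x := fun i j =>
    (dτ i j).mul (eapprox_dm hε (eapprox_hc hs i j) x)
  have d2 : ∀ i, DifferentiableAt ℝ (fun y : E n => y i * mol ε (pd i s) y) x := fun i =>
    (dx i).mul (eapprox_dm hε (eapprox_pc hs i) x)
  have d3 : ∀ i, DifferentiableAt ℝ (fun y => ∑ j, τ y i j * mol ε (fun z => hess s z i j) y) x := fun i =>
    DifferentiableAt.fun_sum fun j _ => d1 i j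
  have d4 : ∀ i, DifferentiableAt ℝ (fun y => ∑ j, mol ε (fun z => τ z i j * hess s z i j) y) x := fun i =>
    DifferentiableAt.fun_sum fun j _ => eapprox_dm hε (cτ i j) x
  have d5 := DifferentiableAt.fun_sum (u := Finset.univ) fun i _ => d3 i
  have d6 := DifferentiableAt.fun_sum (u := Finset.univ) fun i _ => d2 i
  have d7 := DifferentiableAt.fun_sum (u := Finset.univ) fun i _ => d4 i
  have d8 := DifferentiableAt.fun_sum (u := Finset.univ) fun i _ => eapprox_dm hε (cx i) x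
  have d9 := eapprox_dm hε hs.cd.continuous x
  have f1 : ∀ i, pd a (fun y => ∑ j, τ y i j * mol ε (fun z => hess s z i j) y) x =
      ∑ j, (pd a (fun y => τ y i j) x * mol ε (fun z => hess s z i j) x +
        τ x i j * pd a (mol ε fun z => hess s z i j) x) := fun i => by
    rw [pd_sum _ a fun j _ => d1 i j]
    exact Finset.sum_congr rfl fun j _ => pd_mul a (dτ i j) (eapprox_dm hε (eapprox_hc hs i j) x)
  have f2 : ∀ i, pd a (fun y : E n => y i * mol ε (pd i s) y) x =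
      pd a (fun y : E n => y i) x * mol ε (pd i s) x + x i * pd a (mol ε (pd i s)) x := fun i =>
    pd_mul a (dx i) (eapprox_dm hε (eapprox_pc hs i) x)
  have f3 : ∀ i, pd a (fun y => ∑ j, mol ε (fun z => τ z i j * hess s z i j) y) x =
      ∑ j, pd a (mol ε fun z => τ z i j * hess s z i j) x := fun i =>
    pd_sum _ a fun j _ => eapprox_dm hε (cτ i j) x
  show pd a (fun y => Lop τ (mol ε s) y + mol ε s y) x = _
  rw [e1, e2, pd_add a (d5.fun_sub d6) d9, pd_sub a d5 d6, pd_add a (d7.fun_sub d8) d9, pd_sub a d7 d8,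
    pd_sum _ a fun i _ => d3 i, pd_sum _ a fun i _ => d2 i, pd_sum _ a fun i _ => d4 i,
    pd_sum _ a fun i _ => eapprox_dm hε (cx i) x]
  simp only [f1, f2, f3, comm, Finset.sum_add_distrib, Finset.sum_sub_distrib]
  ring

/-- continuous and small in `L²(B_r)` -/
def eapprox_Sm (r θ : ℝ) (F : E n → ℝ) : Prop := Continuous F ∧ ∫ x in ball (0 : E n) r, F x ^ 2 ≤ θ

theorem eapprox_int {F : E n → ℝ} (hF : Continuous F) (r : ℝ) : IntegrableOn F (ball 0 r) :=
  (hF.continuousOn.integrableOn_compact (isCompact_closedBall 0 r)).mono_set ball_subset_closedBall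

theorem eapprox_Sm.add {r a b : ℝ} {F G : E n → ℝ} (hF : eapprox_Sm r a F) (hG : eapprox_Sm r b G) :
    eapprox_Sm r (2 * a + 2 * b) fun x => F x + G x := by
  refine ⟨hF.1.add hG.1, ?_⟩
  have i1 := eapprox_int (hF.1.fun_pow 2) r
  have i2 := eapprox_int (hG.1.fun_pow 2) r
  calc _ ≤ ∫ x in ball (0 : E n) r, (2 * F x ^ 2 + 2 * G x ^ 2) :=
        integral_mono (eapprox_int ((hF.1.fun_add hG.1).fun_pow 2) r) ((i1.const_mul 2).add (i2.const_mul 2))
          fun x => by nlinarith [sq_nonneg (F x - G x)]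
    _ ≤ _ := by
        rw [integral_add (i1.const_mul 2) (i2.const_mul 2), integral_const_mul, integral_const_mul]
        linarith [hF.2, hG.2]

theorem eapprox_Sm.neg {r a : ℝ} {F : E n → ℝ} (hF : eapprox_Sm r a F) : eapprox_Sm r a fun x => -F x :=
  ⟨hF.1.neg, by simpa only [neg_sq] using hF.2⟩

theorem eapprox_Sm.congr {r a b : ℝ} {F G : E n → ℝ} (hF : eapprox_Sm r a F) (hab : a ≤ b) (h : ∀ x, G x = F x) :
    eapprox_Sm r b G := by
  rw [show G = F from funext h]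
  exact ⟨hF.1, hF.2.trans hab⟩

theorem eapprox_sumsq {ι : Type} [Fintype ι] {r θ : ℝ} {F : ι → E n → ℝ} (h : ∀ i, eapprox_Sm r θ (F i)) :
    ∫ x in ball (0 : E n) r, ∑ i, F i x ^ 2 ≤ Fintype.card ι * θ := by
  rw [integral_finsetSum _ fun i _ => eapprox_int ((h i).1.fun_pow 2) r]
  calc _ ≤ ∑ _i : ι, θ := Finset.sum_le_sum fun i _ => (h i).2
    _ = _ := by simp

theorem eapprox_sum {r θ : ℝ} {F : Fin n → E n → ℝ} (h : ∀ i, eapprox_Sm r θ (F i)) :
    eapprox_Sm r (n * (n * θ)) fun x => ∑ i, F i x := by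
  have c1 : Continuous fun x => ∑ i, F i x := continuous_finsetSum _ fun i _ => (h i).1
  have c2 : Continuous fun x => ∑ i, F i x ^ 2 := continuous_finsetSum _ fun i _ => (h i).1.pow 2
  refine ⟨c1, ?_⟩
  calc _ ≤ ∫ x in ball (0 : E n) r, (n : ℝ) * ∑ i, F i x ^ 2 :=
        integral_mono (eapprox_int (c1.pow 2) r) ((eapprox_int c2 r).const_mul _)
          fun x => by simpa using sq_sum_le_card_mul_sum_sq (s := Finset.univ) (f := fun i => F i x)
    _ ≤ _ := by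
        rw [integral_const_mul]
        refine mul_le_mul_of_nonneg_left ?_ (Nat.cast_nonneg n)
        simpa using eapprox_sumsq h

/-- weighted sum of squares on a subset of the ball -/
theorem eapprox_w {ι : Type} [Fintype ι] {r θ M : ℝ} {F : ι → E n → ℝ} (h : ∀ i, eapprox_Sm r θ (F i))
    (hM : ∀ x, rho φ x ≤ M) {S : Set (E n)} (hS : S ⊆ ball 0 r) :
    ∫ x in S, rho φ x * ∑ i, F i x ^ 2 ≤ M * (Fintype.card ι * θ) := by
  have c2 : Continuous fun x => ∑ i, F i x ^ 2 := continuous_finsetSum _ fun i _ => (h i).1.pow 2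
  have hM0 : 0 ≤ M := (rho_pos φ 0).le.trans (hM 0)
  have n0 : ∀ x, 0 ≤ ∑ i, F i x ^ 2 := fun x => Finset.sum_nonneg fun i _ => sq_nonneg _
  have i1 := (eapprox_int c2 r).const_mul M
  calc _ ≤ ∫ x in S, M * ∑ i, F i x ^ 2 :=
        integral_mono_of_nonneg (ae_of_all _ fun x => mul_nonneg (rho_pos φ x).le (n0 x))
          (IntegrableOn.mono_set i1 hS) (ae_of_all _ fun x => mul_le_mul_of_nonneg_right (hM x) (n0 x))
    _ ≤ ∫ x in ball (0 : E n) r, M * ∑ i, F i x ^ 2 :=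
        setIntegral_mono_set i1 (ae_of_all _ fun x => mul_nonneg hM0 (n0 x)) hS.eventuallyLE
    _ ≤ _ := by
        rw [integral_const_mul]
        exact mul_le_mul_of_nonneg_left (eapprox_sumsq h) hM0

/-- from weighted global to unweighted local bounds -/
theorem eapprox_loc {r r' m κ : ℝ} (hm : 0 < m) (h : ∀ x ∈ ball (0 : E n) r', m ≤ rho φ x) (hr : r ≤ r')
    {g G : E n → ℝ} (hg : Continuous g) (hG : Integrable fun x => rho φ x * G x) (hle : ∀ x, g x ^ 2 ≤ G x)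
    (hκ : ∫ x, rho φ x * G x ≤ κ) : eapprox_Sm r (κ / m) g := by
  refine ⟨hg, ?_⟩
  rw [le_div_iff₀' hm, ← integral_const_mul]
  have n0 : ∀ x, 0 ≤ rho φ x * G x := fun x => mul_nonneg (rho_pos φ x).le ((sq_nonneg _).trans (hle x))
  calc _ ≤ ∫ x in ball (0 : E n) r, rho φ x * G x :=
        setIntegral_mono_on ((eapprox_int (hg.pow 2) r).const_mul m) hG.integrableOn measurableSet_ball
          fun x hx => mul_le_mul (h x (ball_subset_ball hr hx)) (hle x) (sq_nonneg _) (rho_pos φ x).le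
    _ ≤ ∫ x, rho φ x * G x := setIntegral_le_integral hG (ae_of_all _ n0)
    _ ≤ κ := hκ

theorem eapprox_two {μ : Measure (E n)} {F u v : E n → ℝ} (hu : Integrable (fun x => rho φ x * u x) μ)
    (hv : Integrable (fun x => rho φ x * v x) μ) (h0 : ∀ x, 0 ≤ F x) (h : ∀ x, F x ≤ 2 * u x + 2 * v x) :
    ∫ x, rho φ x * F x ∂μ ≤ 2 * (∫ x, rho φ x * u x ∂μ) + 2 * ∫ x, rho φ x * v x ∂μ := by
  rw [← integral_const_mul, ← integral_const_mul, ← integral_add (hu.const_mul 2) (hv.const_mul 2)]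
  refine integral_mono_of_nonneg (ae_of_all _ fun x => mul_nonneg (rho_pos φ x).le (h0 x))
    ((hu.const_mul 2).add (hv.const_mul 2)) (ae_of_all _ fun x => ?_)
  have := mul_le_mul_of_nonneg_left (h x) (rho_pos φ x).le
  show rho φ x * F x ≤ 2 * (rho φ x * u x) + 2 * (rho φ x * v x)
  linarith

theorem eapprox_psub {f g : E n → ℝ} (hf : PolyG f) (hg : PolyG g) : PolyG fun x => f x - g x := by
  have h := hf.add ((polyG_of_bdd (f := fun _ : E n => (-1 : ℝ)) (M := 1) fun _ => by simp).mul hg)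
  exact h.of_le fun x => le_of_eq (by congr 1; ring)

theorem eapprox_isq (hP : Pot α β φ) {f : E n → ℝ} (hc : Continuous f) (hf : PolyG f) :
    Integrable fun x => rho φ x * f x ^ 2 :=
  hP.integrable (hc.pow 2).aestronglyMeasurable ((hf.mul hf).of_le fun x => le_of_eq (by rw [sq]))

theorem eapprox_pf {w : E n → ℝ} (hw : Tst w) : PolyG fun x => w x - mean φ w :=
  eapprox_psub (polyG_of_cs hw.cd.continuous hw.cs) (polyG_of_bdd (M := |mean φ w|) fun _ => le_rfl)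

/-- even test functions which solve the equation up to `δ` -/
def eapprox_G (φ : E n → ℝ) (τ : E n → Mat n) (w : E n → ℝ) (δ : ℝ) (s : E n → ℝ) : Prop :=
  Tst s ∧ (∀ x, s (-x) = s x) ∧ ∫ x, rho φ x * (Tl φ τ (-1) s x - (w x - mean φ w)) ^ 2 ≤ δ

theorem eapprox_ex (hP : Pot α β φ) (hM : MS φ c C τ U) {w : E n → ℝ} (hw : Tst w) (hwe : ∀ x, w (-x) = w x)
    {δ : ℝ} (hδ : 0 < δ) : ∃ s, eapprox_G φ τ w δ s := by
  have hc : Continuous fun x => w x - mean φ w := hw.cd.continuous.sub continuous_const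
  refine dense_all hP hM le_rfl (by norm_num) _ hc (eapprox_isq hP hc (eapprox_pf hw)) (fun x => by rw [hwe]) ?_ δ hδ
  have i1 := hP.integrable hw.cd.continuous.aestronglyMeasurable (polyG_of_cs hw.cd.continuous hw.cs)
  simp only [mul_sub]
  rw [integral_sub i1 (hP.integrable_rho.mul_const _), integral_mul_const, mean,
    mul_div_cancel₀ _ hP.Z_pos.ne', sub_self]

theorem eapprox_ie (hP : Pot α β φ) (hM : MS φ c C τ U) {w s : E n → ℝ} (hw : Tst w) (hs : Tst s) :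
    Continuous (fun x => Tl φ τ (-1) s x - (w x - mean φ w)) ∧
      Integrable fun x => rho φ x * (Tl φ τ (-1) s x - (w x - mean φ w)) ^ 2 := by
  have hc : Continuous fun x => Tl φ τ (-1) s x - (w x - mean φ w) :=
    (continuous_Tl hM _ hs).sub (hw.cd.continuous.sub continuous_const)
  exact ⟨hc, eapprox_isq hP hc (eapprox_psub (polyG_Tl hM _ hs) (eapprox_pf hw))⟩

theorem eapprox_ih (hP : Pot α β φ) {s : E n → ℝ} (hs : Tst s) :
    (Integrable fun x => rho φ x * nsq (hess s x)) ∧ Integrable fun x => rho φ x * ∑ i, pd i s x ^ 2 := by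
  have h : ∀ {t : E n → ℝ}, Tst t → Integrable fun x => rho φ x * t x ^ 2 := fun ht =>
    eapprox_isq hP ht.cd.continuous (polyG_of_cs ht.cd.continuous ht.cs)
  simp only [nsq, Finset.mul_sum]
  exact ⟨integrable_finsetSum _ fun i _ => integrable_finsetSum _ fun j _ => h ((hs.pd j).pd i),
    integrable_finsetSum _ fun i _ => h (hs.pd i)⟩

theorem eapprox_cauchy (hP : Pot α β φ) (hM : MS φ c C τ U) {w : E n → ℝ} (hw : Tst w) :
    ∃ K M₁ : ℝ, 0 < K ∧ (∀ s, eapprox_G φ τ w 1 s → ∫ x, rho φ x * nsq (hess s x) ≤ M₁) ∧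
      ∀ δ s t, eapprox_G φ τ w δ s → eapprox_G φ τ w δ t →
        ∫ x, rho φ x * nsq (hess (fun y => s y - t y) x) ≤ K * δ ∧
        ∫ x, rho φ x * ∑ i, pd i (fun y => s y - t y) x ^ 2 ≤ K * δ := by
  obtain ⟨c₀, hc, H⟩ := gap hP hM
  have hf : Continuous fun x => w x - mean φ w := hw.cd.continuous.sub continuous_const
  refine ⟨4 / c₀, (2 * 1 + 2 * ∫ x, rho φ x * (w x - mean φ w) ^ 2) / c₀, by positivity, fun s hs => ?_,
    fun δ s t hs ht => ?_⟩
  · rw [le_div_iff₀' hc]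
    refine (H s hs.1 hs.2.1 (-1) le_rfl (by norm_num)).2.2.trans ?_
    refine (eapprox_two (eapprox_ie hP hM hw hs.1).2 (eapprox_isq hP hf (eapprox_pf hw)) (fun x => sq_nonneg _)
      fun x => ?_).trans (by linarith [hs.2.2])
    nlinarith [sq_nonneg (Tl φ τ (-1) s x - 2 * (w x - mean φ w))]
  · have h1 := H _ (hs.1.sub ht.1) (fun x => by rw [hs.2.1, ht.2.1]) (-1) le_rfl (by norm_num)
    have h2 : ∫ x, rho φ x * Tl φ τ (-1) (fun y => s y - t y) x ^ 2 ≤ 4 * δ := by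
      refine (eapprox_two (eapprox_ie hP hM hw hs.1).2 (eapprox_ie hP hM hw ht.1).2 (fun x => sq_nonneg _)
        fun x => ?_).trans (by linarith [hs.2.2, ht.2.2])
      rw [Tl_sub hP _ hs.1 ht.1]
      nlinarith [sq_nonneg (Tl φ τ (-1) s x + Tl φ τ (-1) t x - 2 * (w x - mean φ w))]
    rw [div_mul_eq_mul_div, le_div_iff₀' hc, le_div_iff₀' hc]
    exact ⟨h1.2.2.trans h2, h1.2.1.trans h2⟩

theorem eapprox_ev {p : ℝ → Prop} (h : ∃ ε₀ : ℝ, 0 < ε₀ ∧ ∀ ε : ℝ, 0 < ε → ε ≤ ε₀ → p ε) :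
    ∀ᶠ ε in nhdsWithin (0 : ℝ) (Ioi 0), p ε := by
  obtain ⟨ε₀, h0, h⟩ := h
  filter_upwards [Ioc_mem_nhdsGT h0] with ε hε using h ε hε.1 hε.2

theorem eapprox_ev' (K : ℝ) {θ : ℝ} (hθ : 0 < θ) : ∀ᶠ δ in nhdsWithin (0 : ℝ) (Ioi 0), K * δ ≤ θ := by
  have h : Filter.Tendsto (fun δ : ℝ => K * δ) (nhds 0) (nhds (K * 0)) := (continuous_const.mul continuous_id).tendsto 0
  rw [mul_zero] at h
  exact (h.eventually (ge_mem_nhds hθ)).filter_mono nhdsWithin_le_nhds

theorem eapprox_comm {r θ κ K ε : ℝ} (hε : 0 < ε) {e : Fin n} {a g₁ g₂ : E n → ℝ} (ha : ContDiff ℝ 1 a)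
    (h1 : Continuous g₁) (h2 : Continuous g₂) (hK : 0 ≤ K)
    (hb : ∀ g : E n → ℝ, L2loc g →
      ∫ x in ball (0 : E n) r, comm ε e a g x ^ 2 ≤ K * ∫ y in ball (0 : E n) (r + 1), g y ^ 2)
    (hs : ∫ x in ball (0 : E n) r, comm ε e a g₁ x ^ 2 ≤ θ) (hd : eapprox_Sm (r + 1) κ fun x => g₂ x - g₁ x)
    (hκ : K * κ ≤ θ) : eapprox_Sm r (4 * θ) (comm ε e a g₂) := by
  have l1 := l2loc_of_continuous h1
  have l2 := l2loc_of_continuous h2
  have l3 := l2loc_of_continuous hd.1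
  have s1 : eapprox_Sm r θ (comm ε e a g₁) := ⟨continuous_comm hε e ha l1, hs⟩
  have s2 : eapprox_Sm r θ (comm ε e a fun x => g₂ x - g₁ x) :=
    ⟨continuous_comm hε e ha l3, (hb _ l3).trans ((mul_le_mul_of_nonneg_left hd.2 hK).trans hκ)⟩
  refine (s1.add s2).congr (by linarith) fun x => ?_
  rw [comm_sub hε e ha.continuous l2 l1]
  ring

theorem eapprox_core (hP : Pot α β φ) (hM : MS φ c C τ U) {w : E n → ℝ} (hw : Tst w) (hwe : ∀ x, w (-x) = w x)
    (r : ℝ) {θ δ₀ : ℝ} (hθ : 0 < θ) (hδ : 0 < δ₀) :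
    ∃ s₁ s : E n → ℝ, eapprox_G φ τ w δ₀ s₁ ∧ ContDiff ℝ ∞ s ∧
      (∀ i j, eapprox_Sm r (4 * θ) fun x => hess s x i j - hess s₁ x i j) ∧
      ∀ a, eapprox_Sm r ((16 + 16 * n ^ 4 + 8 * n ^ 2) * θ) fun x => Lam τ s x a + pd a w x := by
  obtain ⟨K, -, hK, -, H⟩ := eapprox_cauchy hP hM hw
  obtain ⟨m, M, hm, -, hmρ, -⟩ := hP.rho_bounds 0 (r + 1)
  choose Kτ hKτ0 hKτ using fun i j => comm_bound (hM.cd i j) r
  choose Kx hKx0 hKx using fun i : Fin n => comm_bound (contDiff_coord (m := 1) i) r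
  obtain ⟨δ₁, ⟨⟨⟨a1, a2⟩, a3⟩, a4⟩, hδ₁⟩ := (((((eapprox_ev' 1 hδ).and (eapprox_ev' (K / m) hθ)).and
    (Filter.eventually_all.2 fun i => Filter.eventually_all.2 fun j => eapprox_ev' (Kτ i j * (K / m)) hθ)).and
    (Filter.eventually_all.2 fun i => eapprox_ev' (Kx i * (K / m)) hθ)).and self_mem_nhdsWithin).exists
  obtain ⟨s₁, g₁⟩ := eapprox_ex hP hM hw hwe hδ₁
  obtain ⟨ε, ⟨⟨⟨⟨b1, b2⟩, b3⟩, b4⟩, b5⟩, hε⟩ := ((((((eapprox_ev' 1 one_pos).and
    (Filter.eventually_all.2 fun a => Filter.eventually_all.2 fun i => Filter.eventually_all.2 fun j =>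
      eapprox_ev (comm_small (hM.cd i j) (l2loc_of_continuous (eapprox_hc g₁.1 i j)) r a hθ))).and
    (Filter.eventually_all.2 fun a => Filter.eventually_all.2 fun i =>
      eapprox_ev (comm_small (contDiff_coord i) (l2loc_of_continuous (eapprox_pc g₁.1 i)) r a hθ))).and
    (Filter.eventually_all.2 fun i => Filter.eventually_all.2 fun j =>
      eapprox_ev (mol_tendsto_L2 (l2loc_of_continuous (eapprox_hc g₁.1 i j)) r hθ))).and
    (Filter.eventually_all.2 fun a =>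
      eapprox_ev (mol_tendsto_L2 (l2loc_of_continuous (eapprox_pc hw a)) r hθ))).and self_mem_nhdsWithin).exists
  have hε : 0 < ε := hε
  rw [one_mul] at a1 b1
  obtain ⟨K', hK', H'⟩ := pd_mol_L2 (n := n) hε
  obtain ⟨δ₂, ⟨c1, c2⟩, hδ₂⟩ := (((eapprox_ev' 1 hδ₁).and (eapprox_ev' (K' / m) hθ)).and self_mem_nhdsWithin).exists
  rw [one_mul] at c1
  obtain ⟨s₂, g₂⟩ := eapprox_ex hP hM hw hwe hδ₂
  have g₂' : eapprox_G φ τ w δ₁ s₂ := ⟨g₂.1, g₂.2.1, g₂.2.2.trans c1⟩
  obtain ⟨H1, H2⟩ := H δ₁ s₂ s₁ g₂' g₁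
  obtain ⟨i1, i2⟩ := eapprox_ih hP (g₂.1.sub g₁.1)
  have t2 : ∀ {s : E n → ℝ}, Tst s → ContDiff ℝ 2 s := fun hs => hs.cd.of_le (by norm_cast)
  have t1 : ∀ {s : E n → ℝ}, Tst s → ContDiff ℝ 1 s := fun hs => hs.cd.of_le (by norm_cast)
  have l1 : ∀ r', r' ≤ r + 1 → ∀ i j, eapprox_Sm r' (K * δ₁ / m) fun x => hess s₂ x i j - hess s₁ x i j := by
    intro r' hr i j
    refine eapprox_loc hm hmρ hr ((eapprox_hc g₂.1 i j).sub (eapprox_hc g₁.1 i j)) i1 (fun x => ?_) H1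
    rw [hess_sub (t2 g₂.1) (t2 g₁.1)]
    calc _ = (hess s₂ x - hess s₁ x) i j ^ 2 := rfl
      _ ≤ ∑ j, (hess s₂ x - hess s₁ x) i j ^ 2 :=
          Finset.single_le_sum (f := fun j => (hess s₂ x - hess s₁ x) i j ^ 2) (fun _ _ => sq_nonneg _)
            (Finset.mem_univ j)
      _ ≤ _ := Finset.single_le_sum (f := fun i => ∑ j, (hess s₂ x - hess s₁ x) i j ^ 2)
            (fun _ _ => Finset.sum_nonneg fun _ _ => sq_nonneg _) (Finset.mem_univ i)
  have l2 : ∀ i, eapprox_Sm (r + 1) (K * δ₁ / m) fun x => pd i s₂ x - pd i s₁ x := by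
    intro i
    refine eapprox_loc hm hmρ le_rfl ((eapprox_pc g₂.1 i).sub (eapprox_pc g₁.1 i)) i2 (fun x => ?_) H2
    rw [← pd_sub i ((t1 g₂.1).differentiable one_ne_zero x) ((t1 g₁.1).differentiable one_ne_zero x)]
    exact Finset.single_le_sum (f := fun i => pd i (fun y => s₂ y - s₁ y) x ^ 2) (fun _ _ => sq_nonneg _)
      (Finset.mem_univ i)
  obtain ⟨ce, ie⟩ := eapprox_ie hP hM hw g₂.1
  have l3 := eapprox_loc hm hmρ (show r + ε ≤ r + 1 by linarith) ce ie (fun _ => le_rfl) g₂.2.2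
  have cm : ∀ {g : E n → ℝ}, Continuous g → ContDiff ℝ ∞ (mol ε g) := fun hg => contDiff_mol hε hg.locallyIntegrable
  refine ⟨s₁, mol ε s₂, ⟨g₁.1, g₁.2.1, g₁.2.2.trans a1⟩, cm g₂.1.cd.continuous, fun i j => ?_, fun a => ?_⟩
  · have h := l1 (r + ε) (by linarith) i j
    have s1 : eapprox_Sm r θ (mol ε fun x => hess s₂ x i j - hess s₁ x i j) :=
      ⟨(cm h.1).continuous, (mol_L2 hε r (l2loc_of_continuous h.1)).trans (h.2.trans (le_of_eq_of_le (by ring) a2))⟩
    have s2 : eapprox_Sm r θ fun x => mol ε (fun y => hess s₁ y i j) x - hess s₁ x i j :=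
      ⟨(cm (eapprox_hc g₁.1 i j)).continuous.sub (eapprox_hc g₁.1 i j), b4 i j⟩
    refine (s1.add s2).congr (by linarith) fun x => ?_
    rw [eapprox_hess_mol g₂.1 hε, mol_sub hε (eapprox_hc g₂.1 i j).locallyIntegrable (eapprox_hc g₁.1 i j).locallyIntegrable]
    ring
  · have s1 : eapprox_Sm r θ fun x => mol ε (pd a w) x - pd a w x :=
      ⟨(cm (eapprox_pc hw a)).continuous.sub (eapprox_pc hw a), b5 a⟩
    have s2 : eapprox_Sm r θ (pd a (mol ε fun x => Tl φ τ (-1) s₂ x - (w x - mean φ w))) :=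
      ⟨continuous_pd ((cm ce).of_le (by norm_cast)) a, (H' r a _ (l2loc_of_continuous ce)).trans
        ((mul_le_mul_of_nonneg_left l3.2 hK').trans (le_of_eq_of_le (by ring) c2))⟩
    have s3 := eapprox_sum fun i => eapprox_sum fun j => eapprox_comm hε (hM.cd i j) (eapprox_hc g₁.1 i j)
      (eapprox_hc g₂.1 i j) (hKτ0 i j) (hKτ i j ε hε b1 a) (b2 a i j) (l1 _ le_rfl i j)
      (le_of_eq_of_le (by ring) (a3 i j))
    have s4 := eapprox_sum fun i => eapprox_comm hε (contDiff_coord i) (eapprox_pc g₁.1 i)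
      (eapprox_pc g₂.1 i) (hKx0 i) (hKx i ε hε b1 a) (b3 a i) (l2 i) (le_of_eq_of_le (by ring) (a4 i))
    refine (((s1.add s2).add s3).neg.add s4).congr (le_of_eq (by ring)) fun x => ?_
    have e : (fun y => Lop τ s₂ y + s₂ y) = fun y =>
        (mean φ s₂ + mean φ w) - (w y + (Tl φ τ (-1) s₂ y - (w y - mean φ w))) := by
      funext y
      simp only [Tl]
      ring
    have hwc := hw.cd.continuous
    rw [Lam_mol hM g₂.1 hε, e, mol_sub hε continuous_const.locallyIntegrable (hwc.fun_add ce).locallyIntegrable,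
      mol_const hε, mol_add hε hwc.locallyIntegrable ce.locallyIntegrable,
      pd_sub a (differentiableAt_const _) ((eapprox_dm hε hwc x).fun_add (eapprox_dm hε ce x)),
      pd_add a (eapprox_dm hε hwc x) (eapprox_dm hε ce x), pd_const, pd_mol_C1 hε (t1 hw)]
    ring

theorem approx (hP : Pot α β φ) (hM : MS φ c C τ U) {w : E n → ℝ} (hw : Tst w)
    (hwe : ∀ x, w (-x) = w x) :
    ∃ M₀ : ℝ, ∀ η : ℝ, 0 < η → ∃ R₀ : ℝ, ∀ R : ℝ, R₀ ≤ R → ∀ η' : ℝ, 0 < η' →
      ∃ s : E n → ℝ, ContDiff ℝ ∞ s ∧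
        ∫ x in ball (0 : E n) (2 * R), rho φ x * nsq (hess s x) ≤ M₀ ∧
        ∫ x in ball (0 : E n) (2 * R) \ ball 0 R, rho φ x * nsq (hess s x) ≤ η ∧
        ∫ x in ball (0 : E n) (2 * R), rho φ x * ∑ a, (Lam τ s x a + pd a w x) ^ 2 ≤ η' := by
  obtain ⟨K, M₁, hK, HM, H⟩ := eapprox_cauchy hP hM hw
  obtain ⟨m, M, -, -, -, hMρ⟩ := hP.rho_bounds 0 1
  refine ⟨2 * M₁ + 2, fun η hη => ?_⟩
  obtain ⟨δ₀, ⟨a1, a2⟩, hδ₀⟩ := (((eapprox_ev' 1 one_pos).and (eapprox_ev' K (show 0 < η / 4 by positivity))).and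
    self_mem_nhdsWithin).exists
  rw [one_mul] at a1
  obtain ⟨s₀, g₀⟩ := eapprox_ex hP hM hw hwe hδ₀
  obtain ⟨R₀, hR₀⟩ := g₀.1.cs.isCompact.isBounded.subset_ball (0 : E n)
  refine ⟨R₀, fun R hR η' hη' => ?_⟩
  obtain ⟨θ, ⟨⟨b1, b2⟩, b3⟩, hθ⟩ := ((((eapprox_ev' (M * (n * n * 4)) one_pos).and
    (eapprox_ev' (M * (n * n * 4)) (show 0 < η / 4 by positivity))).and
    (eapprox_ev' (M * (n * (16 + 16 * n ^ 4 + 8 * n ^ 2))) hη')).and self_mem_nhdsWithin).exists
  obtain ⟨s₁, s, g₁, hs, h1, h2⟩ := eapprox_core hP hM hw hwe (2 * R) hθ hδ₀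
  have i1 := (eapprox_ih hP g₁.1).1
  have key : ∀ S : Set (E n), S ⊆ ball 0 (2 * R) → ∫ x in S, rho φ x * nsq (hess s x) ≤
      2 * (∫ x in S, rho φ x * nsq (hess s₁ x)) + 2 * (M * (n * n * 4) * θ) := by
    intro S hS
    have w1 := eapprox_w (ι := Fin n × Fin n) (F := fun p x => hess s x p.1 p.2 - hess s₁ x p.1 p.2)
      (fun p => h1 p.1 p.2) hMρ hS
    have c1 : Continuous fun x => rho φ x * ∑ p : Fin n × Fin n, (hess s x p.1 p.2 - hess s₁ x p.1 p.2) ^ 2 :=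
      hP.continuous_rho.mul (continuous_finsetSum _ fun p _ => (h1 p.1 p.2).1.pow 2)
    refine (eapprox_two i1.integrableOn ((eapprox_int c1 _).mono_set hS) (fun x => nsq_nonneg _) fun x => ?_).trans ?_
    · simp only [nsq, Fintype.sum_prod_type, Finset.mul_sum, ← Finset.sum_add_distrib]
      exact Finset.sum_le_sum fun i _ => Finset.sum_le_sum fun j _ => by
        nlinarith [sq_nonneg (hess s x i j - 2 * hess s₁ x i j)]
    · simp only [Fintype.card_prod, Fintype.card_fin, Nat.cast_mul] at w1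
      linarith
  have n0 : ∀ (t : E n → ℝ) x, 0 ≤ rho φ x * nsq (hess t x) := fun t x => mul_nonneg (rho_pos φ x).le (nsq_nonneg _)
  refine ⟨s, hs, (key _ subset_rfl).trans ?_, (key _ sdiff_subset).trans ?_, ?_⟩
  · have := (setIntegral_le_integral (s := ball (0 : E n) (2 * R)) i1 (ae_of_all _ (n0 s₁))).trans
      (HM s₁ ⟨g₁.1, g₁.2.1, g₁.2.2.trans a1⟩)
    linarith
  · have e : ∫ x in ball (0 : E n) (2 * R) \ ball 0 R, rho φ x * nsq (hess s₁ x) =
        ∫ x in ball (0 : E n) (2 * R) \ ball 0 R, rho φ x * nsq (hess (fun y => s₁ y - s₀ y) x) := by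
      refine setIntegral_congr_fun (measurableSet_ball.diff measurableSet_ball) fun x hx => ?_
      have hx' : x ∉ tsupport s₀ := fun h => hx.2 (ball_subset_ball hR (hR₀ h))
      have z : hess s₀ x = 0 := by
        ext i j
        exact pd_eq_zero (fun h => hx' (tsupport_pd j s₀ h)) i
      show rho φ x * nsq (hess s₁ x) = rho φ x * nsq (hess (fun y => s₁ y - s₀ y) x)
      rw [hess_sub (g₁.1.cd.of_le (by norm_cast)) (g₀.1.cd.of_le (by norm_cast)), z, sub_zero]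
    have := (setIntegral_le_integral (s := ball (0 : E n) (2 * R) \ ball 0 R) (eapprox_ih hP (g₁.1.sub g₀.1)).1
      (ae_of_all _ (n0 _))).trans (H δ₀ s₁ s₀ g₁ g₀).1
    rw [e]
    linarith
  · have w1 := eapprox_w (ι := Fin n) h2 hMρ subset_rfl
    rw [Fintype.card_fin] at w1
    exact w1.trans (le_of_eq_of_le (by ring) b3)

end Crest.Agent.R238
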