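import Crest.Agent.R238.EMol

/-!
# R238 / Ext: extending weak identities from test functions to `C¹_c`; the swap identity

`ext_C1`: apply the hypothesis to `mol ε N` (`Tst` by `contDiff_mol`, `cs_mol`), `pd_mol_C1`,
`mol_unif` for `N` and `pd e N`; all supports lie in a fixed ball (`mol_zero_of`).
`swap`: for `N` a test function integrate by parts twice (`ibp`, `pd_comm`):
`∫ M ∂_aU ∂_bN = -∫ U ∂_a(M ∂_bN)`; then `ext_C1` (with `A = 0`).
-/

set_option autoImplicit false
open MeasureTheory Matrix Set Metric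
open scoped RealInnerProductSpace ContDiff BigOperators

namespace Crest.Agent.R238

variable {n : ℕ}

theorem ext_int {A g : E n → ℝ} (hA : Continuous A) (hg : Continuous g)
    (hc : HasCompactSupport g) : Integrable fun x => A x * g x :=
  (hA.mul hg).integrable_of_hasCompactSupport hc.mul_left

theorem ext_tst {ε : ℝ} (hε : 0 < ε) {g : E n → ℝ} (hg : Continuous g) (hc : HasCompactSupport g) :
    Tst (mol ε g) :=
  ⟨contDiff_mol hε hg.locallyIntegrable, cs_mol hε hc⟩

open Filter Topology in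
theorem ext_lim {A g : E n → ℝ} (hA : Continuous A) (hg : Continuous g)
    (hc : HasCompactSupport g) :
    Tendsto (fun k : ℕ => ∫ x, A x * mol (1 / ((k : ℝ) + 1)) g x) atTop (𝓝 (∫ x, A x * g x)) := by
  have hε : ∀ k : ℕ, (0 : ℝ) < 1 / ((k : ℝ) + 1) := fun k => Nat.one_div_pos_of_nat
  have hε0 : Tendsto (fun k : ℕ => 1 / ((k : ℝ) + 1)) atTop (𝓝 0) :=
    tendsto_one_div_add_atTop_nhds_zero_nat
  have e : ∀ k : ℕ, ∫ x, g x * mol (1 / ((k : ℝ) + 1)) A x =
      ∫ x, A x * mol (1 / ((k : ℝ) + 1)) g x := fun k => by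
    rw [mol_adj (hε k) hg hc hA.locallyIntegrable]
    simp only [mul_comm]
  have hu : ∀ R η : ℝ, 0 < η → ∀ᶠ k : ℕ in atTop, ∀ x : E n, ‖x‖ ≤ R →
      |mol (1 / ((k : ℝ) + 1)) A x - A x| ≤ η := fun R η hη => by
    obtain ⟨ε₀, h0, h1⟩ := mol_unif hA R hη
    filter_upwards [hε0.eventually (ge_mem_nhds h0)] with k hk using h1 _ (hε k) hk
  simp only [← e, mul_comm (A _) (g _)]
  obtain ⟨R, hR⟩ := hc.isCompact.isBounded.subset_closedBall 0
  refine tendsto_integral_filter_of_dominated_convergence (fun x => (|A x| + 1) * |g x|)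
    (Eventually.of_forall fun k => ?_) ?_ (ext_int (hA.abs.add continuous_const) hg.abs hc.abs)
    (Eventually.of_forall fun x => ?_)
  · exact (hg.mul (contDiff_mol (hε k) hA.locallyIntegrable).continuous).aestronglyMeasurable
  · filter_upwards [hu R 1 one_pos] with k hk
    refine Eventually.of_forall fun x => ?_
    by_cases hx : x ∈ tsupport g
    · have h1 := hk x (mem_closedBall_zero_iff.1 (hR hx))
      have h2 := abs_sub_abs_le_abs_sub (mol (1 / ((k : ℝ) + 1)) A x) (A x)
      rw [Real.norm_eq_abs, abs_mul, mul_comm]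
      exact mul_le_mul_of_nonneg_right (by linarith) (abs_nonneg _)
    · simp [image_eq_zero_of_notMem_tsupport hx]
  · refine Tendsto.const_mul _ (Metric.tendsto_nhds.2 fun η hη => ?_)
    filter_upwards [hu ‖x‖ (η / 2) (half_pos hη)] with k hk
    rw [Real.dist_eq]
    exact (hk x le_rfl).trans_lt (half_lt_self hη)


theorem ext_C1 {A : E n → ℝ} {B : Fin n → E n → ℝ} (hA : Continuous A) (hB : ∀ e, Continuous (B e))
    (h : ∀ N, Tst N → ∫ x, (A x * N x + ∑ e, B e x * pd e N x) = 0) {N : E n → ℝ}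
    (hN : ContDiff ℝ 1 N) (hc : HasCompactSupport N) :
    ∫ x, (A x * N x + ∑ e, B e x * pd e N x) = 0 := by
  have hε : ∀ k : ℕ, (0 : ℝ) < 1 / ((k : ℝ) + 1) := fun k => Nat.one_div_pos_of_nat
  have split : ∀ {P : E n → ℝ} {Q : Fin n → E n → ℝ}, Continuous P → HasCompactSupport P →
      (∀ e, Continuous (Q e)) → (∀ e, HasCompactSupport (Q e)) →
      ∫ x, (A x * P x + ∑ e, B e x * Q e x) = (∫ x, A x * P x) + ∑ e, ∫ x, B e x * Q e x := by
    intro P Q h1 h2 h3 h4
    have i2 : ∀ e ∈ Finset.univ, Integrable fun x => B e x * Q e x := fun e _ =>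
      ext_int (hB e) (h3 e) (h4 e)
    rw [integral_add (ext_int hA h1 h2) (integrable_finsetSum _ i2), integral_finsetSum _ i2]
  have hl := (ext_lim hA hN.continuous hc).add (tendsto_finsetSum Finset.univ fun e _ =>
    ext_lim (hB e) (continuous_pd hN e) (cs_pd hc e))
  rw [split hN.continuous hc (continuous_pd hN) (cs_pd hc)]
  refine tendsto_nhds_unique hl (tendsto_const_nhds.congr fun k => ?_)
  have ht := ext_tst (hε k) hN.continuous hc
  have h1 := h _ ht
  rw [split ht.cd.continuous ht.cs (fun e => (ht.pd e).cd.continuous) (fun e => (ht.pd e).cs)] at h1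
  simp only [pd_mol_C1 (hε k) hN] at h1
  exact h1.symm
theorem swap {M U N : E n → ℝ} (hM : ContDiff ℝ 1 M) (hU : ContDiff ℝ 1 U) (hN : ContDiff ℝ 1 N)
    (hc : HasCompactSupport N) (a b : Fin n) :
    ∫ x, M x * (pd a U x * pd b N x - pd b U x * pd a N x) =
      -∫ x, U x * (pd a M x * pd b N x - pd b M x * pd a N x) := by
  have hε : ∀ k : ℕ, (0 : ℝ) < 1 / ((k : ℝ) + 1) := fun k => Nat.one_div_pos_of_nat
  have hP : ContDiff ℝ 1 fun x => M x * U x := hM.mul hU
  have key : ∫ x, pd a (fun x => M x * U x) x * pd b N x =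
      ∫ x, pd b (fun x => M x * U x) x * pd a N x := by
    refine tendsto_nhds_unique (ext_lim (continuous_pd hP a) (continuous_pd hN b) (cs_pd hc b))
      ((ext_lim (continuous_pd hP b) (continuous_pd hN a) (cs_pd hc a)).congr fun k => ?_)
    have ht := ext_tst (hε k) hN.continuous hc
    simp only [← pd_mol_C1 (hε k) hN]
    have h1 := ibp ((ht.pd a).cd.of_le (by exact_mod_cast le_top)) hP (Or.inl (ht.pd a).cs) b
    have h2 := ibp ((ht.pd b).cd.of_le (by exact_mod_cast le_top)) hP (Or.inl (ht.pd b).cs) a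
    rw [pd_comm' (ht.cd.of_le (ENat.natCast_le_of_coe_top_le_withTop le_rfl 2)) a b, ← h1] at h2
    simp only [mul_comm (pd _ (fun x => M x * U x) _)]
    exact h2.symm
  have d1 := hM.differentiable one_ne_zero
  have d2 := hU.differentiable one_ne_zero
  have c1 := hM.continuous
  have c2 := hU.continuous
  have hi : ∀ {F : E n → ℝ}, Continuous F → ∀ e, Integrable fun x => F x * pd e N x :=
    fun hF e => ext_int hF (continuous_pd hN e) (cs_pd hc e)
  have i1 := hi (c1.mul (continuous_pd hU a)) b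
  have i2 := hi (c1.mul (continuous_pd hU b)) a
  have i3 := hi ((continuous_pd hM a).mul c2) b
  have i4 := hi ((continuous_pd hM b).mul c2) a
  simp only [Pi.mul_apply] at i1 i2 i3 i4
  simp only [pd_mul _ (d1 _) (d2 _), add_mul] at key
  rw [integral_add i3 i1, integral_add i4 i2] at key
  have e1 : ∫ x, M x * (pd a U x * pd b N x - pd b U x * pd a N x) =
      (∫ x, M x * pd a U x * pd b N x) - ∫ x, M x * pd b U x * pd a N x := by
    rw [← integral_sub i1 i2]
    exact integral_congr_ae (Filter.Eventually.of_forall fun x => by ring)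
  have e2 : ∫ x, U x * (pd a M x * pd b N x - pd b M x * pd a N x) =
      (∫ x, pd a M x * U x * pd b N x) - ∫ x, pd b M x * U x * pd a N x := by
    rw [← integral_sub i3 i4]
    exact integral_congr_ae (Filter.Eventually.of_forall fun x => by ring)
  rw [e1, e2]
  linarith
end Crest.Agent.R238
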