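import Crest.Agent.R238.EGreen
import Crest.Agent.R238.Ext

/-!
# R238 / EBoch: the two Bochner identities

`bochner`: `green` with `h = L s` gives `∫ρ(Ls)² = -∫ρ ξ·∇(Ls)`, `ξ = xi τ s`,
`∂_a(Ls) = Λ_a - s_a = A_a + B_a - s_a` (`Lam_eq`); `green` with `h = ξ^a`, `s := ∂_a s` gives
`-∫ρ ξ^a A_a = ∫ρ ∇ξ^a · τ ∇s_a = ∫ρ [tr(κκ) + ξ^a B_a]` (expand `∂_bξ^a` with `MS.pd_entry` and use
the total symmetry of `U`).
`flat_bochner`: with `D = Σ_a(∂_aξ^a - φ_a ξ^a)`, `ρ D = Σ_a ∂_a(ρ ξ^a)`;
`∫ρ ∂_aξ^a ∂_bξ^b - ∫ρ ∂_bξ^a∂_aξ^b = ∫ρ ξ^a(φ_a ∂_bξ^b - φ_b∂_aξ^b)` (`swap` with `M = ρ`), and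
`∫ρ φ_{ab}ξ^aξ^b = -∫ φ_b ∂_a(ρ ξ^a ξ^b)` (`ibp`).
-/

set_option autoImplicit false
open MeasureTheory Matrix Set Metric
open scoped RealInnerProductSpace ContDiff BigOperators

namespace Crest.Agent.R238

variable {n : ℕ}

variable {α β c C : ℝ} {φ : E n → ℝ} {τ : E n → Mat n} {U : E n → Fin n → Mat n}

theorem eboch_int {f v : E n → ℝ} (hf : Continuous f) (hv : HasCompactSupport v)
    (h : ∀ x, x ∉ tsupport v → f x = 0) : Integrable f :=
  hf.integrable_of_hasCompactSupport (HasCompactSupport.intro hv h)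

theorem eboch_alg (t S : Mat n) (V : Fin n → Mat n) (g : Fin n → ℝ) (hS : ∀ i j, S i j = S j i)
    (h1 : ∀ e i j, V e i j = V e j i) (h2 : ∀ e i j, V e i j = V i e j) :
    ∑ a, (fun b => ∑ c, ((t * V b * t) a c * g c + t a c * S b c)) ⬝ᵥ (t *ᵥ fun d => S d a) =
      (t * S * (t * S)).trace + ∑ j, (∑ c, t j c * g c) * (V j * (t * S * t)).trace := by
  have e1 : ∀ a b, (t *ᵥ fun d => S d a) b = (t * S) b a := fun a b => rfl
  have e2 : ∀ a b, ∑ c, t a c * S b c = (t * S) a b := fun a b => by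
    rw [Matrix.mul_apply]
    exact Finset.sum_congr rfl fun c _ => by rw [hS b c]
  have e3 : ∀ a b, ∑ c, (t * V b * t) a c * g c = ∑ i, t a i * ∑ j, V b i j * ∑ c, t j c * g c := fun a b => by
    change ((t * V b * t) *ᵥ g) a = (t *ᵥ (V b *ᵥ (t *ᵥ g))) a
    rw [Matrix.mulVec_mulVec, Matrix.mulVec_mulVec]
  simp only [dotProduct, e1, Finset.sum_add_distrib, e2, e3, add_mul]
  rw [add_comm]
  congr 1
  set ξ : Fin n → ℝ := fun j => ∑ c, t j c * g c with hξ
  have hξ' : ∀ j, ∑ c, t j c * g c = ξ j := fun j => rfl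
  simp only [hξ']
  have e4 : ∀ j, (V j * (t * S * t)).trace = ∑ i, ∑ b, V j i b * ∑ a, (t * S) b a * t a i := fun j => rfl
  simp only [e4]
  generalize t * S = κ
  calc ∑ a, ∑ b, (∑ i, t a i * ∑ j, V b i j * ξ j) * κ b a
      = ∑ a, ∑ b, ∑ i, ∑ j, ξ j * (V j i b * (κ b a * t a i)) := by
        refine Finset.sum_congr rfl fun a _ => Finset.sum_congr rfl fun b _ => ?_
        rw [Finset.sum_mul]
        refine Finset.sum_congr rfl fun i _ => ?_
        rw [Finset.mul_sum, Finset.sum_mul]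
        refine Finset.sum_congr rfl fun j _ => ?_
        rw [h1 b i j, h2 b j i, h1 j b i]
        ring
    _ = ∑ j, ∑ i, ∑ b, ∑ a, ξ j * (V j i b * (κ b a * t a i)) := by
        rw [Finset.sum_comm]
        simp only [Finset.sum_comm (f := fun a i => ∑ j, ξ j * (V j i _ * (κ _ a * t a i)))]
        simp only [Finset.sum_comm (f := fun a j => ξ j * (V j _ _ * (κ _ a * t a _)))]
        rw [Finset.sum_comm]
        simp only [Finset.sum_comm (f := fun b j => ∑ a, ξ j * (V j _ b * (κ b a * t a _)))]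
        rw [Finset.sum_comm]
    _ = _ := by simp only [Finset.mul_sum]

theorem bochner (hP : Pot α β φ) (hM : MS φ c C τ U) {s : E n → ℝ} (hs : ContDiff ℝ 3 s)
    (hc : HasCompactSupport s) :
    ∫ x, rho φ x * Lop τ s x ^ 2 =
      (∫ x, rho φ x * (τ x * hess s x * (τ x * hess s x)).trace) +
        ∫ x, rho φ x * (grad s x ⬝ᵥ (τ x *ᵥ grad s x)) := by
  have hs2 : ContDiff ℝ 2 s := hs.of_le (by norm_num)
  have hs1 : ContDiff ℝ 1 s := hs.of_le (by norm_num)
  have hsa : ∀ a, ContDiff ℝ 2 (pd a s) := fun a => contDiff_pd hs (by norm_num) a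
  have hρ : Continuous (rho φ) := hP.continuous_rho
  have hL : ContDiff ℝ 1 (Lop τ s) := contDiff_Lop hM hs
  have hξ : ∀ a, ContDiff ℝ 1 (xi τ s a) := contDiff_xi hM hs2
  have hξc : ∀ a, Continuous (xi τ s a) := fun a => (hξ a).continuous
  have hξ0 : ∀ a x, x ∉ tsupport s → xi τ s a x = 0 := fun a x hx => by
    simp only [xi, pd_eq_zero hx, mul_zero, Finset.sum_const_zero]
  have hS0 : ∀ x, x ∉ tsupport s → hess s x = 0 := fun x hx => by
    ext i j
    exact pd_eq_zero (fun h => hx (tsupport_pd j s h)) i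
  have hκ : ∀ i j, Continuous fun x => (τ x * hess s x) i j :=
    continuous_mul_entry hM.continuous (continuous_hess hs2)
  have hB : ∀ a, Continuous fun x => (U x a * (τ x * hess s x * τ x)).trace := fun a =>
    continuous_trace (continuous_mul_entry (hM.Ucont a) (continuous_mul_entry hκ hM.continuous))
  have hT : Continuous fun x => (τ x * hess s x * (τ x * hess s x)).trace :=
    continuous_trace (continuous_mul_entry hκ hκ)
  -- the derivative of `L s`
  have hdL : ∀ x a, pd a (Lop τ s) x =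
      Avec τ s x a + (U x a * (τ x * hess s x * τ x)).trace - pd a s x := fun x a => by
    have h1 := Lam_eq hM hs x a
    rw [Lam, pd_add a (hL.differentiable one_ne_zero x) (hs1.differentiable one_ne_zero x)] at h1
    linarith
  -- the derivative of `ξ`
  have hdξ : ∀ x a b, pd b (xi τ s a) x =
      ∑ c, ((τ x * U x b * τ x) a c * pd c s x + τ x a c * hess s x b c) := fun x a b => by
    have h1 : ∀ c, DifferentiableAt ℝ (fun y => τ y a c) x := fun c =>
      (hM.cd a c).differentiable one_ne_zero x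
    have h2 : ∀ c, DifferentiableAt ℝ (pd c s) x := fun c => (hsa c).differentiable two_ne_zero x
    change pd b (fun y => ∑ c, τ y a c * pd c s y) x = _
    rw [pd_sum (f := fun c y => τ y a c * pd c s y) _ b fun c _ => (h1 c).mul (h2 c)]
    refine Finset.sum_congr rfl fun c _ => ?_
    rw [pd_mul b (h1 c) (h2 c), hM.pd_entry]
    rfl
  have i1 : ∀ a, Integrable fun x => rho φ x * (xi τ s a x * Avec τ s x a) := fun a =>
    eboch_int (hρ.mul ((hξc a).mul (continuous_Avec hM hs a))) hc fun x hx => by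
      rw [hξ0 a x hx, zero_mul, mul_zero]
  have i2 : Integrable fun x => rho φ x * ∑ a, xi τ s a x * (U x a * (τ x * hess s x * τ x)).trace :=
    eboch_int (hρ.mul (continuous_finsetSum _ fun a _ => (hξc a).mul (hB a))) hc fun x hx => by
      simp only [hξ0 _ x hx, zero_mul, mul_zero, Finset.sum_const_zero]
  have i3 : Integrable fun x => rho φ x * ∑ a, pd a s x * xi τ s a x :=
    eboch_int (hρ.mul (continuous_finsetSum _ fun a _ => (continuous_pd hs1 a).mul (hξc a))) hc
      fun x hx => by simp only [hξ0 _ x hx, mul_zero, Finset.sum_const_zero]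
  have i4 : Integrable fun x => rho φ x * (τ x * hess s x * (τ x * hess s x)).trace :=
    eboch_int (hρ.mul hT) hc fun x hx => by
      simp only [hS0 x hx, Matrix.trace_zero, mul_zero]
  have i5 : ∀ a, Integrable fun x => rho φ x * (grad (xi τ s a) x ⬝ᵥ (τ x *ᵥ grad (pd a s) x)) := fun a => by
    refine eboch_int (hρ.mul ?_) hc fun x hx => ?_
    · simp only [dotProduct, Matrix.mulVec, grad]
      exact continuous_finsetSum _ fun b _ => (continuous_pd (hξ a) b).mul
        (continuous_finsetSum _ fun d _ => (hM.continuous b d).mul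
          (continuous_pd ((hsa a).of_le (by norm_num)) d))
    · have : grad (pd a s) x = 0 := by
        funext d
        exact pd_eq_zero (fun h => hx (tsupport_pd a s h)) d
      rw [this, Matrix.mulVec_zero, dotProduct_zero, mul_zero]
  have g1 := green hP hM hL hs2 (Or.inr hc)
  have g2 : ∀ a, ∫ x, rho φ x * (xi τ s a x * Avec τ s x a) =
      -∫ x, rho φ x * (grad (xi τ s a) x ⬝ᵥ (τ x *ᵥ grad (pd a s) x)) := fun a =>
    green hP hM (hξ a) (hsa a) (Or.inr (cs_pd hc a))
  have e1 : ∀ x, rho φ x * (grad (Lop τ s) x ⬝ᵥ (τ x *ᵥ grad s x)) =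
      (∑ a, rho φ x * (xi τ s a x * Avec τ s x a)) +
        rho φ x * ∑ a, xi τ s a x * (U x a * (τ x * hess s x * τ x)).trace -
        rho φ x * ∑ a, pd a s x * xi τ s a x := fun x => by
    rw [← Finset.mul_sum, ← mul_add, ← mul_sub, ← Finset.sum_add_distrib, ← Finset.sum_sub_distrib]
    congr 1
    refine Finset.sum_congr rfl fun a _ => ?_
    change pd a (Lop τ s) x * xi τ s a x = _
    rw [hdL]
    ring
  have e2 : ∀ x, ∑ a, rho φ x * (grad (xi τ s a) x ⬝ᵥ (τ x *ᵥ grad (pd a s) x)) =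
      rho φ x * (τ x * hess s x * (τ x * hess s x)).trace +
        rho φ x * ∑ a, xi τ s a x * (U x a * (τ x * hess s x * τ x)).trace := fun x => by
    rw [← Finset.mul_sum, ← mul_add]
    congr 1
    refine Eq.trans (Finset.sum_congr rfl fun a _ => ?_)
      (eboch_alg (τ x) (hess s x) (U x) (fun c => pd c s x) (hess_symm hs2 x) (hM.Usym1 x) (hM.Usym2 x))
    congr 1
    funext b
    exact hdξ x a b
  have e3 : ∫ x, rho φ x * (grad s x ⬝ᵥ (τ x *ᵥ grad s x)) = ∫ x, rho φ x * ∑ a, pd a s x * xi τ s a x := rfl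
  have e4 : ∫ x, rho φ x * Lop τ s x ^ 2 = ∫ x, rho φ x * (Lop τ s x * Lop τ s x) := by simp only [sq]
  have e5 : ∑ a, ∫ x, rho φ x * (grad (xi τ s a) x ⬝ᵥ (τ x *ᵥ grad (pd a s) x)) =
      (∫ x, rho φ x * (τ x * hess s x * (τ x * hess s x)).trace) +
        ∫ x, rho φ x * ∑ a, xi τ s a x * (U x a * (τ x * hess s x * τ x)).trace := by
    rw [← integral_finsetSum _ fun a _ => i5 a, ← integral_add i4 i2]
    exact integral_congr_ae (Filter.Eventually.of_forall e2)
  rw [e4, g1, e3, integral_congr_ae (Filter.Eventually.of_forall e1),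
    integral_sub ((integrable_finsetSum _ fun a _ => i1 a).fun_add i2) i3,
    integral_add (integrable_finsetSum _ fun a _ => i1 a) i2, integral_finsetSum _ fun a _ => i1 a,
    Finset.sum_congr rfl fun a _ => g2 a, Finset.sum_neg_distrib, e5]
  ring

theorem eboch_pair (hφ : ContDiff ℝ 2 φ) {u v : E n → ℝ} (hu : ContDiff ℝ 1 u) (hv : ContDiff ℝ 1 v)
    (hc : HasCompactSupport v) (a b : Fin n) :
    ∫ x, rho φ x * ((pd a u x - pd a φ x * u x) * (pd b v x - pd b φ x * v x)) =
      (∫ x, rho φ x * (pd b u x * pd a v x)) + ∫ x, rho φ x * (hess φ x a b * (u x * v x)) := by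
  have hφ1 : ContDiff ℝ 1 φ := hφ.of_le (by norm_num)
  have hρ1 : ContDiff ℝ 1 (rho φ) := contDiff_rho hφ1
  have hρ := hρ1.continuous
  have hv0 : ∀ x, x ∉ tsupport v → v x = 0 := fun x hx => image_eq_zero_of_notMem_tsupport hx
  have hf : ContDiff ℝ 1 fun x => rho φ x * (u x * v x) := hρ1.mul (hu.mul hv)
  have hfc : HasCompactSupport fun x => rho φ x * (u x * v x) :=
    HasCompactSupport.intro hc fun x hx => by rw [hv0 x hx, mul_zero, mul_zero]
  have h1 := swap hρ1 hu hv hc a b
  have h2 := ibp hf (contDiff_pd hφ (by norm_num) b) (Or.inl hfc) a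
  have dρ : ∀ i x, pd i (rho φ) x = -(pd i φ x * rho φ x) := fun i x =>
    pd_rho i (hφ1.differentiable one_ne_zero x)
  have df : ∀ x, pd a (fun x => rho φ x * (u x * v x)) x =
      -(pd a φ x * rho φ x) * (u x * v x) + rho φ x * (pd a u x * v x + u x * pd a v x) := fun x => by
    rw [pd_mul a (hρ1.differentiable one_ne_zero x) ((hu.mul hv).differentiable one_ne_zero x),
      pd_mul a (hu.differentiable one_ne_zero x) (hv.differentiable one_ne_zero x), dρ]
  have cu := continuous_pd hu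
  have cv := continuous_pd hv
  have iY : Integrable fun x => rho φ x * (pd b u x * pd a v x) :=
    eboch_int (hρ.mul ((cu b).mul (cv a))) hc fun x hx => by simp only [pd_eq_zero hx, mul_zero]
  have iP : Integrable fun x => rho φ x * (pd a u x * pd b v x - pd b u x * pd a v x) :=
    eboch_int (hρ.mul (((cu a).mul (cv b)).sub ((cu b).mul (cv a)))) hc fun x hx => by
      simp only [pd_eq_zero hx, mul_zero, sub_zero]
  have iQ : Integrable fun x => u x * (pd a (rho φ) x * pd b v x - pd b (rho φ) x * pd a v x) :=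
    eboch_int (hu.continuous.mul (((continuous_pd hρ1 a).mul (cv b)).sub
      ((continuous_pd hρ1 b).mul (cv a)))) hc fun x hx => by simp only [pd_eq_zero hx, mul_zero, sub_zero]
  have iW : Integrable fun x => pd a (fun x => rho φ x * (u x * v x)) x * pd b φ x :=
    eboch_int ((continuous_pd hf a).mul (continuous_pd hφ1 b)) hfc fun x hx => by
      rw [pd_eq_zero hx, zero_mul]
  have e : ∀ x, rho φ x * ((pd a u x - pd a φ x * u x) * (pd b v x - pd b φ x * v x)) =
      rho φ x * (pd b u x * pd a v x) + rho φ x * (pd a u x * pd b v x - pd b u x * pd a v x) +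
        u x * (pd a (rho φ) x * pd b v x - pd b (rho φ) x * pd a v x) -
        pd a (fun x => rho φ x * (u x * v x)) x * pd b φ x := fun x => by
    rw [df, dρ, dρ]
    ring
  have e' : ∫ x, rho φ x * (hess φ x a b * (u x * v x)) = ∫ x, rho φ x * (u x * v x) * pd a (pd b φ) x :=
    integral_congr_ae (Filter.Eventually.of_forall fun x => by
      change rho φ x * (pd a (pd b φ) x * (u x * v x)) = rho φ x * (u x * v x) * pd a (pd b φ) x
      ring)
  rw [integral_congr_ae (Filter.Eventually.of_forall e), integral_sub ((iY.fun_add iP).fun_add iQ) iW,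
    integral_add (iY.fun_add iP) iQ, integral_add iY iP, h1, e', h2]
  ring

theorem flat_bochner (hφ : ContDiff ℝ 2 φ) {ξ : Fin n → E n → ℝ} (hξ : ∀ a, ContDiff ℝ 1 (ξ a))
    (hc : ∀ a, HasCompactSupport (ξ a)) :
    ∫ x, rho φ x * (∑ a, (pd a (ξ a) x - pd a φ x * ξ a x)) ^ 2 =
      (∫ x, rho φ x * ∑ a, ∑ b, pd b (ξ a) x * pd a (ξ b) x) +
        ∫ x, rho φ x * ∑ a, ∑ b, hess φ x a b * (ξ a x * ξ b x) := by
  have hρ : Continuous (rho φ) := (contDiff_rho hφ).continuous
  have hφ1 : ContDiff ℝ 1 φ := hφ.of_le (by norm_num)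
  have hd : ∀ a b, Continuous (pd b (ξ a)) := fun a b => continuous_pd (hξ a) b
  have hx0 : ∀ a x, x ∉ tsupport (ξ a) → ξ a x = 0 := fun a x hx => image_eq_zero_of_notMem_tsupport hx
  have hD : ∀ a, Continuous fun x => pd a (ξ a) x - pd a φ x * ξ a x := fun a =>
    (hd a a).sub ((continuous_pd hφ1 a).mul (hξ a).continuous)
  have i1 : ∀ a b, Integrable fun x => rho φ x *
      ((pd a (ξ a) x - pd a φ x * ξ a x) * (pd b (ξ b) x - pd b φ x * ξ b x)) := fun a b =>
    eboch_int (hρ.mul ((hD a).mul (hD b))) (hc b) fun x hx => by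
      simp only [pd_eq_zero hx, hx0 b x hx, mul_zero, sub_zero]
  have i2 : ∀ a b, Integrable fun x => rho φ x * (pd b (ξ a) x * pd a (ξ b) x) := fun a b =>
    eboch_int (hρ.mul ((hd a b).mul (hd b a))) (hc b) fun x hx => by
      simp only [pd_eq_zero hx, mul_zero]
  have i3 : ∀ a b, Integrable fun x => rho φ x * (hess φ x a b * (ξ a x * ξ b x)) := fun a b =>
    eboch_int (hρ.mul ((continuous_hess hφ a b).mul ((hξ a).continuous.mul (hξ b).continuous))) (hc b)
      fun x hx => by simp only [hx0 b x hx, mul_zero]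
  simp only [sq, Finset.sum_mul_sum]
  simp only [Finset.mul_sum]
  rw [integral_finsetSum _ fun a _ => integrable_finsetSum _ fun b _ => i1 a b,
    integral_finsetSum _ fun a _ => integrable_finsetSum _ fun b _ => i2 a b,
    integral_finsetSum _ fun a _ => integrable_finsetSum _ fun b _ => i3 a b, ← Finset.sum_add_distrib]
  refine Finset.sum_congr rfl fun a _ => ?_
  rw [integral_finsetSum _ fun b _ => i1 a b, integral_finsetSum _ fun b _ => i2 a b,
    integral_finsetSum _ fun b _ => i3 a b, ← Finset.sum_add_distrib]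
  exact Finset.sum_congr rfl fun b _ => eboch_pair hφ (hξ a) (hξ b) (hc b) a b

end Crest.Agent.R238
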