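import Crest.Agent.R238.EDense

/-!
# R238 / ECont: continuation in `λ`

If `Dense0 l₀`, `l₀ ∈ [-1,1]`, `(l - l₀)² ≤ c₀/16` then `Dense0 l`: for admissible `f` with
`‖f‖² = a > 0` pick `s` with `‖T_{l₀}s - f‖² ≤ a/16`; `‖T_l s - f‖² ≤ 2a/16 + 2(l-l₀)²‖s - s̄‖²
≤ a/8 + (1/8)‖T_{l₀}s‖² ≤ a/8 + (1/8)(2a/16 + 2a) ≤ a/2`.  `f - T_l s` is admissible again
(`continuous_Tl`, `Tl_even`, `integral_Tl`, `polyG_Tl`); induction gives `‖T_l s_m - f‖² ≤ 2^{-m} a`
(`Tl_add`).  Finitely many steps cover `[-1,1]`.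
-/

set_option autoImplicit false
open MeasureTheory Matrix Set Metric
open scoped RealInnerProductSpace ContDiff BigOperators

namespace Crest.Agent.R238

variable {n : ℕ}

theorem econt_sq {α β : ℝ} {φ : E n → ℝ} (hP : Pot α β φ) {f g : E n → ℝ} (hf : Continuous f) (hg : Continuous g)
    (f2 : Integrable fun x => rho φ x * f x ^ 2) (g2 : Integrable fun x => rho φ x * g x ^ 2) :
    (Integrable fun x => rho φ x * (f x + g x) ^ 2) ∧
      ∫ x, rho φ x * (f x + g x) ^ 2 ≤ 2 * (∫ x, rho φ x * f x ^ 2) + 2 * ∫ x, rho φ x * g x ^ 2 := by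
  have hb : Integrable fun x => 2 * (rho φ x * f x ^ 2) + 2 * (rho φ x * g x ^ 2) :=
    (f2.const_mul 2).add (g2.const_mul 2)
  have hle : ∀ x, rho φ x * (f x + g x) ^ 2 ≤ 2 * (rho φ x * f x ^ 2) + 2 * (rho φ x * g x ^ 2) := fun x => by
    have := mul_nonneg (rho_pos φ x).le (sq_nonneg (f x - g x))
    nlinarith
  have hi : Integrable fun x => rho φ x * (f x + g x) ^ 2 := by
    refine hb.mono' (hP.continuous_rho.mul ((hf.add hg).pow 2)).aestronglyMeasurable
      (Filter.Eventually.of_forall fun x => ?_)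
    rw [Real.norm_eq_abs, abs_of_nonneg (mul_nonneg (rho_pos φ x).le (sq_nonneg _))]
    exact hle x
  refine ⟨hi, (integral_mono hi hb hle).trans (le_of_eq ?_)⟩
  rw [integral_add (f2.const_mul 2) (g2.const_mul 2), integral_const_mul, integral_const_mul]

theorem econt_poly {α β : ℝ} {φ : E n → ℝ} (hP : Pot α β φ) {g : E n → ℝ} (hg : Continuous g) (hp : PolyG g) :
    Integrable fun x => rho φ x * g x ^ 2 := by
  simp only [sq]
  exact hP.integrable (hg.mul hg).aestronglyMeasurable (hp.mul hp)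

theorem econt_sub {α β c C : ℝ} {φ : E n → ℝ} {τ : E n → Mat n} {U : E n → Fin n → Mat n}
    (hP : Pot α β φ) (hM : MS φ c C τ U) (l : ℝ) {s f : E n → ℝ} (hs : Tst s) (hf : Continuous f)
    (f2 : Integrable fun x => rho φ x * f x ^ 2) :
    Integrable fun x => rho φ x * (Tl φ τ l s x - f x) ^ 2 := by
  have := (econt_sq hP (g := fun x => -f x) (continuous_Tl hM l hs) hf.neg (econt_poly hP (continuous_Tl hM l hs) (polyG_Tl hM l hs))
    (by simpa only [neg_sq] using f2)).1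
  simpa only [sub_eq_add_neg] using this

theorem econt_half {α β c C c₀ l₀ l : ℝ} {φ : E n → ℝ} {τ : E n → Mat n} {U : E n → Fin n → Mat n}
    (hP : Pot α β φ) (hM : MS φ c C τ U) (hD : Dense0 φ τ l₀)
    (hg : ∀ s : E n → ℝ, Tst s → (∀ x, s (-x) = s x) →
      c₀ * ∫ x, rho φ x * (s x - mean φ s) ^ 2 ≤ ∫ x, rho φ x * Tl φ τ l₀ s x ^ 2)
    (hl : (l - l₀) ^ 2 ≤ c₀ / 16) {f : E n → ℝ} (hf : Continuous f) (f2 : Integrable fun x => rho φ x * f x ^ 2)
    (fe : ∀ x, f (-x) = f x) (f0 : ∫ x, rho φ x * f x = 0) {a : ℝ} (ha : 0 < a)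
    (hfa : ∫ x, rho φ x * f x ^ 2 ≤ a) :
    ∃ s, Tst s ∧ (∀ x, s (-x) = s x) ∧ ∫ x, rho φ x * (Tl φ τ l s x - f x) ^ 2 ≤ a / 2 := by
  obtain ⟨s, hs, se, h1⟩ := hD f hf f2 fe f0 (a / 16) (by positivity)
  refine ⟨s, hs, se, ?_⟩
  have hc : Continuous fun x => Tl φ τ l₀ s x - f x := (continuous_Tl hM l₀ hs).sub hf
  have i1 := econt_sub hP hM l₀ hs hf f2
  have h2 := (econt_sq hP hc hf i1 f2).2
  simp only [sub_add_cancel] at h2
  have h3 := hg s hs se
  have hsc : Continuous s := hs.cd.continuous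
  have hm : Continuous fun x => (l - l₀) * (s x - mean φ s) := by fun_prop
  have hp : PolyG fun x => (l - l₀) * (s x - mean φ s) := by
    have p1 : PolyG fun _ : E n => l - l₀ := polyG_of_bdd (M := |l - l₀|) fun _ => le_rfl
    have p2 : PolyG fun _ : E n => -mean φ s := polyG_of_bdd (M := |-mean φ s|) fun _ => le_rfl
    simpa only [sub_eq_add_neg] using p1.mul ((polyG_of_cs hsc hs.cs).add p2)
  have h4 := (econt_sq hP hc hm i1 (econt_poly hP hm hp)).2
  have e1 : ∀ x, Tl φ τ l₀ s x - f x + (l - l₀) * (s x - mean φ s) = Tl φ τ l s x - f x := fun x => by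
    unfold Tl
    ring
  have e2 : ∫ x, rho φ x * ((l - l₀) * (s x - mean φ s)) ^ 2 =
      (l - l₀) ^ 2 * ∫ x, rho φ x * (s x - mean φ s) ^ 2 := by
    rw [← integral_const_mul]
    congr 1
    funext x
    ring
  simp only [e1] at h4
  rw [e2] at h4
  have h5 : 0 ≤ ∫ x, rho φ x * (s x - mean φ s) ^ 2 :=
    integral_nonneg fun x => mul_nonneg (rho_pos φ x).le (sq_nonneg _)
  have h6 := mul_le_mul_of_nonneg_right hl h5
  linarith

theorem econt_step {α β c C c₀ l₀ l : ℝ} {φ : E n → ℝ} {τ : E n → Mat n} {U : E n → Fin n → Mat n}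
    (hP : Pot α β φ) (hM : MS φ c C τ U) (hD : Dense0 φ τ l₀)
    (hg : ∀ s : E n → ℝ, Tst s → (∀ x, s (-x) = s x) →
      c₀ * ∫ x, rho φ x * (s x - mean φ s) ^ 2 ≤ ∫ x, rho φ x * Tl φ τ l₀ s x ^ 2)
    (hl : (l - l₀) ^ 2 ≤ c₀ / 16) : Dense0 φ τ l := by
  intro f hf f2 fe f0 η hη
  set a := (∫ x, rho φ x * f x ^ 2) + 1 with had
  have h0 : 0 ≤ ∫ x, rho φ x * f x ^ 2 := integral_nonneg fun x => mul_nonneg (rho_pos φ x).le (sq_nonneg _)
  have ha : 0 < a := by linarith
  have key : ∀ m : ℕ, ∃ s, Tst s ∧ (∀ x, s (-x) = s x) ∧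
      ∫ x, rho φ x * (Tl φ τ l s x - f x) ^ 2 ≤ a * (1 / 2) ^ m := by
    intro m
    induction m with
    | zero =>
      obtain ⟨s, hs, se, h1⟩ := econt_half hP hM hD hg hl hf f2 fe f0 ha (by linarith)
      exact ⟨s, hs, se, by linarith [h1, pow_zero (1 / 2 : ℝ)]⟩
    | succ m ih =>
      obtain ⟨s, hs, se, h1⟩ := ih
      have e : ∀ x, (f x - Tl φ τ l s x) ^ 2 = (Tl φ τ l s x - f x) ^ 2 := fun x => by ring
      obtain ⟨t, ht, te, h2⟩ := econt_half hP hM hD hg hl (f := fun x => f x - Tl φ τ l s x)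
        (hf.sub (continuous_Tl hM l hs)) (by simpa only [e] using econt_sub hP hM l hs hf f2)
        (fun x => by rw [fe, Tl_even hM l se])
        (by
          simp only [mul_sub]
          rw [integral_sub (hP.integrable_of_sq hf.aestronglyMeasurable f2)
            (hP.integrable (continuous_Tl hM l hs).aestronglyMeasurable (polyG_Tl hM l hs)), f0,
            integral_Tl hP hM l hs, sub_zero])
        (a := a * (1 / 2) ^ m) (by positivity) (by simpa only [e] using h1)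
      refine ⟨fun x => s x + t x, hs.add ht, fun x => by simp only [se, te], ?_⟩
      have e2 : ∀ x, Tl φ τ l (fun x => s x + t x) x - f x = Tl φ τ l t x - (f x - Tl φ τ l s x) := fun x => by
        rw [Tl_add hP l hs ht]
        ring
      simp only [e2]
      refine h2.trans (le_of_eq ?_)
      ring
  obtain ⟨m, hm⟩ := exists_pow_lt_of_lt_one (div_pos hη ha) (by norm_num : (1 / 2 : ℝ) < 1)
  obtain ⟨s, hs, se, h1⟩ := key m
  refine ⟨s, hs, se, h1.trans ?_⟩
  rw [lt_div_iff₀ ha] at hm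
  linarith

theorem dense_all {α β c C : ℝ} {φ : E n → ℝ} {τ : E n → Mat n} {U : E n → Fin n → Mat n}
    (hP : Pot α β φ) (hM : MS φ c C τ U) {l : ℝ} (h1 : -1 ≤ l) (h2 : l ≤ 1) : Dense0 φ τ l := by
  obtain ⟨c₀, hc₀, hg⟩ := gap hP hM
  set r := √c₀ / 4 with hr
  have hr0 : 0 < r := by positivity
  have hr2 : r ^ 2 = c₀ / 16 := by
    rw [hr, div_pow, Real.sq_sqrt hc₀.le]
    norm_num
  have key : ∀ m : ℕ, ∀ l : ℝ, -1 ≤ l → l ≤ 1 → 1 - l ≤ m * r → Dense0 φ τ l := by
    intro m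
    induction m with
    | zero =>
      intro l _ h2 h3
      have : l = 1 := by
        simp only [Nat.cast_zero, zero_mul] at h3
        linarith
      rw [this]
      exact dense_one hP hM
    | succ m ih =>
      intro l h1 h2 h3
      have hm : 0 ≤ (m : ℝ) * r := by positivity
      push_cast at h3
      have a1 : l ≤ min 1 (l + r) := le_min h2 (by linarith)
      have a2 : min 1 (l + r) ≤ l + r := min_le_right _ _
      have a3 : 1 - min 1 (l + r) ≤ m * r := by
        rcases min_choice 1 (l + r) with h | h <;> rw [h] <;> linarith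
      refine econt_step hP hM (ih _ (by linarith) (min_le_left _ _) a3)
        (fun s hs se => (hg s hs se _ (by linarith) (min_le_left _ _)).1) ?_
      rw [← hr2]
      exact sq_le_sq' (by linarith) (by linarith)
  obtain ⟨m, hm⟩ := exists_nat_ge ((1 - l) / r)
  exact key m l h1 h2 ((div_le_iff₀ hr0).1 hm)

end Crest.Agent.R238
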