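import Crest.Agent.R238.PotL
import Crest.Agent.R285.Poinc

/-!
# R238 / EPoin: Poincaré inequality for `e^{-φ}`

From `Crest.Agent.R285.poincare` with `W = φ - φ 0 - α/2‖·‖²`, `t = α`, centre `0`, `δ = β - α`
(`dens W α 0 = e^{φ 0} rho φ`).  For `R285.Pot`: `⟪fderiv (gradient W) x v, v⟫ = vᵀ hess W x v`
(or use `Quad.mono`/`Quad.jac_ell` for `Pot.quad`).
-/

set_option autoImplicit false
open MeasureTheory Matrix Set Metric
open scoped RealInnerProductSpace ContDiff BigOperators

namespace Crest.Agent.R238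

variable {n : ℕ}

theorem epoin_pot {α β : ℝ} {φ : E n → ℝ} (hP : Pot α β φ) :
    R285.Pot n (β - α) fun x => φ x - φ 0 - α / 2 * ‖x‖ ^ 2 := by
  have hq := hP.quad
  have hg : (gradient fun x : E n => φ x - φ 0 - α / 2 * ‖x‖ ^ 2) =
      fun x => gradient φ x - α • x := by
    funext x
    have h1 : HasFDerivAt (fun x : E n => φ x - φ 0 - α / 2 * ‖x‖ ^ 2) _ x :=
      ((hq.grad x).hasFDerivAt.sub_const (φ 0)).sub
        ((hasStrictFDerivAt_norm_sq x).hasFDerivAt.const_mul (α / 2))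
    refine HasGradientAt.gradient ?_
    rw [hasGradientAt_iff_hasFDerivAt]
    refine h1.congr_fderiv ?_
    ext v
    simp [inner_sub_left, inner_smul_left]
    ring
  have hd : Differentiable ℝ (gradient φ) := by
    have h1 : ContDiff ℝ 1 (fderiv ℝ φ) := hP.cd.fderiv_right (m := 1) (by norm_num)
    exact (InnerProductSpace.toDual ℝ (E n)).symm.toContinuousLinearEquiv.differentiable.comp
      (h1.differentiable (by norm_num))
  have key : ∀ x v : E n, ⟪fderiv ℝ (fun x => gradient φ x - α • x) x v, v⟫ =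
      v.ofLp ⬝ᵥ (jac (gradient φ) x *ᵥ v.ofLp) - α * (v.ofLp ⬝ᵥ v.ofLp) := by
    intro x v
    have h1 : HasFDerivAt (fun x : E n => gradient φ x - α • x)
        (fderiv ℝ (gradient φ) x - α • ContinuousLinearMap.id ℝ (E n)) x :=
      (hd x).hasFDerivAt.sub ((hasFDerivAt_id x).const_smul α)
    rw [h1.fderiv]
    simp only [PiLp.inner_apply, dotProduct, Matrix.mulVec, Finset.mul_sum,
      ← Finset.sum_sub_distrib]
    refine Finset.sum_congr rfl fun i _ => ?_
    simp [jac_apply, Finset.mul_sum, mul_sub]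
    ring
  have hn : ∀ v : E n, ‖v‖ ^ 2 = v.ofLp ⬝ᵥ v.ofLp := fun v => by
    rw [EuclideanSpace.real_norm_sq_eq]
    simp [dotProduct, sq]
  refine ⟨(hP.cd.sub contDiff_const).sub (contDiff_const.mul (contDiff_norm_sq ℝ)), by simp,
    ?_, fun x v => ?_, fun x v => ?_⟩
  · rw [hg]
    ext i
    have h1 := pd_even hP.even i 0
    rw [neg_zero, hq.pd] at h1
    simp
    linarith
  · rw [hg, key]
    linarith [(hq.jac_ell (hd x)).lo v.ofLp]
  · rw [hg, key, hn]
    linarith [(hq.jac_ell (hd x)).hi v.ofLp]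

theorem epoin_int {α β : ℝ} {φ : E n → ℝ} (hP : Pot α β φ) (f : E n → ℝ) :
    ∫ z, f z ∂(R285.mu (fun x => φ x - φ 0 - α / 2 * ‖x‖ ^ 2) α 0) =
      (∫ x, rho φ x * f x) / ∫ x, rho φ x := by
  have hZ := hP.Z_pos
  have hd : ∀ z, R285.dens (fun x => φ x - φ 0 - α / 2 * ‖x‖ ^ 2) α 0 z =
      Real.exp (φ 0) * rho φ z := fun z => by
    simp only [R285.dens, rho, ← Real.exp_add, sub_zero]
    congr 1; ring
  have hZc : R285.Zc (fun x => φ x - φ 0 - α / 2 * ‖x‖ ^ 2) α 0 =
      Real.exp (φ 0) * ∫ x, rho φ x := by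
    simp only [R285.Zc, hd, integral_const_mul]
  have hm : Measurable fun z => ENNReal.ofReal (rho φ z / ∫ x, rho φ x) :=
    (hP.continuous_rho.measurable.div_const _).ennreal_ofReal
  simp only [R285.mu, hd, hZc, mul_div_mul_left _ _ (Real.exp_pos (φ 0)).ne']
  rw [integral_withDensity_eq_integral_toReal_smul hm (by simp), ← integral_div]
  refine integral_congr_ae (Filter.Eventually.of_forall fun z => ?_)
  simp only [smul_eq_mul]
  rw [ENNReal.toReal_ofReal (div_pos (rho_pos φ z) hZ).le]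
  ring

theorem poincare {α β : ℝ} {φ : E n → ℝ} (hP : Pot α β φ) {h : E n → ℝ} (hh : ContDiff ℝ 1 h)
    (hc : HasCompactSupport h) :
    ∫ x, rho φ x * (h x - mean φ h) ^ 2 ≤ α⁻¹ * ∫ x, rho φ x * ∑ i, pd i h x ^ 2 := by
  have hZ := hP.Z_pos
  have pg : ∀ {f : E n → ℝ}, Continuous f → HasCompactSupport f → R285.PG f := fun hf hs =>
    ⟨hf.measurable, polyG_of_cs hf hs⟩
  have H := R285.poincare (epoin_pot hP) hP.apos 0 hh (pg hh.continuous hc)
    fun k => pg (continuous_pd hh k) (cs_pd hc k)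
  rw [epoin_int hP, epoin_int hP, epoin_int hP] at H
  have i1 : Integrable fun x => rho φ x * h x :=
    (hP.continuous_rho.mul hh.continuous).integrable_of_hasCompactSupport hc.mul_left
  have i2 : Integrable fun x => rho φ x * h x ^ 2 := by
    refine (hP.continuous_rho.mul (hh.continuous.pow 2)).integrable_of_hasCompactSupport ?_
    simp only [sq]
    exact hc.mul_left.mul_left
  have e : ∫ x, rho φ x * (h x - mean φ h) ^ 2 = (∫ x, rho φ x * h x ^ 2) -
      2 * mean φ h * (∫ x, rho φ x * h x) + mean φ h ^ 2 * ∫ x, rho φ x := by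
    have : (fun x => rho φ x * (h x - mean φ h) ^ 2) = fun x => (rho φ x * h x ^ 2 -
        2 * mean φ h * (rho φ x * h x)) + mean φ h ^ 2 * rho φ x := by funext x; ring
    have i3 : Integrable fun x => rho φ x * h x ^ 2 - 2 * mean φ h * (rho φ x * h x) :=
      i2.sub (i1.const_mul _)
    rw [this, integral_add i3 (hP.integrable_rho.const_mul _), integral_sub i2 (i1.const_mul _),
      integral_const_mul, integral_const_mul]
  rw [e, mean]
  have H' := mul_le_mul_of_nonneg_right H hZ.le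
  have e2 : (∫ x, rho φ x * ∑ k, R285.dd (R285.ee k) h x ^ 2) =
      ∫ x, rho φ x * ∑ i, pd i h x ^ 2 := rfl
  rw [e2] at H'
  refine le_of_eq_of_le ?_ (H'.trans (le_of_eq ?_))
  · field_simp; ring
  · field_simp

end Crest.Agent.R238
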