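import Crest.Agent.R238.EBoch
import Crest.Agent.R238.EPoin

/-!
# R238 / EGap: uniform coercivity of `T_λ`, `λ ∈ [-1,1]`, on even functions

`a = ∫ρ(Ls)²`, `b = ∫ρ ∇s·τ∇s = -∫ρ (s - s̄) Ls` (`green`, `integral_Lop`), `N = ∫ρ(s - s̄)²`,
`k = ∫ρ tr(κκ)`.  `a = k + b` (`bochner`); `k ≥ c² ∫ρ nsq(hess s) ≥ c² α ∫ρ|∇s|² ≥ θ b`,
`θ = c²α/C` (`tr_sq_lo`; `poincare` for the odd functions `∂_i s`, whose mean is `0`);
`N ≤ α⁻¹∫ρ|∇s|² ≤ b/(αc)`; `b² ≤ a N` (`cs_int`).  `‖T_λ s‖² = a + 2λ b + λ² N ≥ (a + λ b)²/a ≥ k²/a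
≥ a (θ/(1+θ))²` (trivial if `a = 0`).
-/

set_option autoImplicit false
open MeasureTheory Matrix Set Metric
open scoped RealInnerProductSpace ContDiff BigOperators

namespace Crest.Agent.R238

variable {n : ℕ}

variable {α β c C : ℝ} {φ : E n → ℝ} {τ : E n → Mat n} {U : E n → Fin n → Mat n}

theorem egap_le (m : ℕ) : ((m : ℕ∞) : WithTop ℕ∞) ≤ ∞ := WithTop.coe_le_coe.2 le_top

theorem egap_cd {s : E n → ℝ} (hs : Tst s) (m : ℕ) : ContDiff ℝ m s := hs.cd.of_le (egap_le m)

theorem egap_cd1 {s : E n → ℝ} (hs : Tst s) : ContDiff ℝ 1 s := by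
  simpa using egap_cd hs 1

theorem egap_cd2 {s : E n → ℝ} (hs : Tst s) : ContDiff ℝ 2 s := by
  simpa using egap_cd hs 2

theorem egap_cd3 {s : E n → ℝ} (hs : Tst s) : ContDiff ℝ 3 s := by
  simpa using egap_cd hs 3

theorem egap_const (k : ℝ) : PolyG fun _ : E n => k := polyG_of_bdd (M := |k|) fun _ => le_rfl

theorem egap_sub {f g : E n → ℝ} (hf : PolyG f) (hg : PolyG g) : PolyG fun x => f x - g x := by
  have := hf.add ((egap_const (-1)).mul hg)
  simpa [sub_eq_add_neg] using this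

theorem egap_sq {f : E n → ℝ} (hf : PolyG f) : PolyG fun x => f x ^ 2 := by
  simpa [pow_two] using hf.mul hf

theorem egap_int (hP : Pot α β φ) {h : E n → ℝ} (hc : Continuous h) (hh : PolyG h) :
    Integrable fun x => rho φ x * h x := hP.integrable hc.aestronglyMeasurable hh

theorem egap_tst {s : E n → ℝ} (hs : Tst s) : PolyG s := polyG_of_cs hs.cd.continuous hs.cs

theorem egap_polyL (hM : MS φ c C τ U) {s : E n → ℝ} (hs : Tst s) : PolyG (Lop τ s) :=
  polyG_of_cs (continuous_Lop hM (egap_cd2 hs)) (cs_Lop hs.cs)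

theorem mean_sub (hP : Pot α β φ) {s t : E n → ℝ} (hs : Tst s) (ht : Tst t) :
    mean φ (fun x => s x - t x) = mean φ s - mean φ t := by
  unfold mean
  rw [← sub_div, ← integral_sub (egap_int hP hs.cd.continuous (egap_tst hs))
    (egap_int hP ht.cd.continuous (egap_tst ht))]
  simp only [mul_sub]

theorem egap_mean_add (hP : Pot α β φ) {s t : E n → ℝ} (hs : Tst s) (ht : Tst t) :
    mean φ (fun x => s x + t x) = mean φ s + mean φ t := by
  unfold mean
  rw [← add_div, ← integral_add (egap_int hP hs.cd.continuous (egap_tst hs))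
    (egap_int hP ht.cd.continuous (egap_tst ht))]
  simp only [mul_add]

theorem Tl_sub (hP : Pot α β φ) (l : ℝ) {s t : E n → ℝ} (hs : Tst s) (ht : Tst t) (x : E n) :
    Tl φ τ l (fun y => s y - t y) x = Tl φ τ l s x - Tl φ τ l t x := by
  unfold Tl
  rw [mean_sub hP hs ht, Lop_sub (egap_cd2 hs) (egap_cd2 ht)]
  ring

theorem Tl_add (hP : Pot α β φ) (l : ℝ) {s t : E n → ℝ} (hs : Tst s) (ht : Tst t) (x : E n) :
    Tl φ τ l (fun y => s y + t y) x = Tl φ τ l s x + Tl φ τ l t x := by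
  unfold Tl
  rw [egap_mean_add hP hs ht, Lop_add (egap_cd2 hs) (egap_cd2 ht)]
  ring

theorem continuous_Tl (hM : MS φ c C τ U) (l : ℝ) {s : E n → ℝ} (hs : Tst s) :
    Continuous (Tl φ τ l s) :=
  (continuous_const.mul (hs.cd.continuous.sub continuous_const)).sub
    (continuous_Lop hM (egap_cd2 hs))

theorem polyG_Tl (hM : MS φ c C τ U) (l : ℝ) {s : E n → ℝ} (hs : Tst s) :
    PolyG (Tl φ τ l s) :=
  egap_sub ((egap_const l).mul (egap_sub (egap_tst hs) (egap_const _))) (egap_polyL hM hs)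

theorem Tl_even (hM : MS φ c C τ U) (l : ℝ) {s : E n → ℝ} (hs : ∀ x, s (-x) = s x) (x : E n) :
    Tl φ τ l s (-x) = Tl φ τ l s x := by
  unfold Tl
  rw [hs, Lop_even hM hs]

theorem integral_Tl (hP : Pot α β φ) (hM : MS φ c C τ U) (l : ℝ) {s : E n → ℝ} (hs : Tst s) :
    ∫ x, rho φ x * Tl φ τ l s x = 0 := by
  have i1 := egap_int hP hs.cd.continuous (egap_tst hs)
  have i2 := egap_int hP (continuous_Lop hM (egap_cd2 hs)) (egap_polyL hM hs)
  have i0 := hP.integrable_rho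
  have e : ∀ x, rho φ x * Tl φ τ l s x =
      l * (rho φ x * s x) - l * mean φ s * rho φ x - rho φ x * Lop τ s x := fun x => by
    unfold Tl
    ring
  simp only [e]
  rw [integral_sub ((i1.const_mul l).sub' (i0.const_mul _)) i2,
    integral_sub (i1.const_mul l) (i0.const_mul _), integral_const_mul, integral_const_mul,
    integral_Lop hP hM (egap_cd2 hs) hs.cs]
  have hZ := hP.Z_pos.ne'
  unfold mean
  field_simp
  ring

theorem egap_real {a b k N l θ T : ℝ} (hθ : 0 < θ) (hb : 0 ≤ b) (ha : a = k + b) (hk : θ * b ≤ k)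
    (hcs : b ^ 2 ≤ N * a) (h1 : -1 ≤ l) (hT : T = l ^ 2 * N + 2 * l * b + a) (hT0 : 0 ≤ T) :
    (θ / (1 + θ)) ^ 2 * a ≤ T := by
  have hk0 : 0 ≤ k := le_trans (by positivity) hk
  have ha0 : 0 ≤ a := by linarith
  rcases ha0.eq_or_lt with h | h
  · rw [← h, mul_zero]
    exact hT0
  · have e1 : (a + l * b) ^ 2 ≤ a * T := by
      rw [hT]
      nlinarith [mul_le_mul_of_nonneg_left hcs (sq_nonneg l)]
    have e2 : k ≤ a + l * b := by nlinarith
    have e3 : θ / (1 + θ) * a ≤ k := by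
      rw [div_mul_eq_mul_div, div_le_iff₀ (by linarith)]
      nlinarith
    have e4 : (θ / (1 + θ) * a) ^ 2 ≤ (a + l * b) ^ 2 :=
      pow_le_pow_left₀ (by positivity) (e3.trans e2) 2
    refine le_of_mul_le_mul_left ?_ h
    nlinarith

theorem egap_dot (v : Fin n → ℝ) : v ⬝ᵥ v = ∑ i, v i ^ 2 := by
  simp only [dotProduct, pow_two]

theorem gap (hP : Pot α β φ) (hM : MS φ c C τ U) : ∃ c₀ : ℝ, 0 < c₀ ∧ ∀ s : E n → ℝ, Tst s →
    (∀ x, s (-x) = s x) → ∀ l : ℝ, -1 ≤ l → l ≤ 1 →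
      c₀ * ∫ x, rho φ x * (s x - mean φ s) ^ 2 ≤ ∫ x, rho φ x * Tl φ τ l s x ^ 2 ∧
      c₀ * ∫ x, rho φ x * ∑ i, pd i s x ^ 2 ≤ ∫ x, rho φ x * Tl φ τ l s x ^ 2 ∧
      c₀ * ∫ x, rho φ x * nsq (hess s x) ≤ ∫ x, rho φ x * Tl φ τ l s x ^ 2 := by
  have hα := hP.apos
  have hc := hM.cpos
  have hC : 0 < C := hc.trans_le hM.cle
  set θ := c ^ 2 * α / C with hθd
  have hθ : 0 < θ := by positivity
  set μ := min 1 α with hμd
  have hμ : 0 < μ := lt_min one_pos hα
  have hμ1 : μ ≤ 1 := min_le_left _ _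
  have hμ2 : μ ≤ α := min_le_right _ _
  refine ⟨(θ / (1 + θ)) ^ 2 * c ^ 2 * μ ^ 2, by positivity, fun s hs he l h1 _ => ?_⟩
  have c1 := egap_cd1 hs
  have c2 := egap_cd2 hs
  have hρ : ∀ x, 0 ≤ rho φ x := fun x => (rho_pos φ x).le
  have cp : Continuous fun x => s x - mean φ s := hs.cd.continuous.sub continuous_const
  have gp : PolyG fun x => s x - mean φ s := egap_sub (egap_tst hs) (egap_const _)
  have cq := continuous_Lop hM c2
  have gq := egap_polyL hM hs
  have iN : Integrable fun x => rho φ x * (s x - mean φ s) ^ 2 :=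
    egap_int hP (cp.pow 2) (egap_sq gp)
  have ia : Integrable fun x => rho φ x * Lop τ s x ^ 2 := egap_int hP (cq.pow 2) (egap_sq gq)
  have iX : Integrable fun x => rho φ x * ((s x - mean φ s) * Lop τ s x) :=
    egap_int hP (cp.mul cq) (gp.mul gq)
  have cd1 : ∀ i, Continuous (pd i s) := fun i => (hs.pd i).cd.continuous
  have gd1 : ∀ i, PolyG (pd i s) := fun i => egap_tst (hs.pd i)
  have cd2 : ∀ i j, Continuous fun x => hess s x i j := fun i j => ((hs.pd j).pd i).cd.continuous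
  have gd2 : ∀ i j, PolyG fun x => hess s x i j := fun i j => egap_tst ((hs.pd j).pd i)
  have gτ : ∀ i j, PolyG fun x => τ x i j := fun i j => polyG_of_bdd fun x => hM.entry_le x i j
  have iP : Integrable fun x => rho φ x * ∑ i, pd i s x ^ 2 :=
    egap_int hP (continuous_finsetSum _ fun i _ => (cd1 i).pow 2)
      (PolyG.sum _ fun i _ => egap_sq (gd1 i))
  have iH : Integrable fun x => rho φ x * nsq (hess s x) :=
    egap_int hP (continuous_finsetSum _ fun i _ => continuous_finsetSum _ fun j _ => (cd2 i j).pow 2)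
      (PolyG.sum _ fun i _ => PolyG.sum _ fun j _ => egap_sq (gd2 i j))
  have ib : Integrable fun x => rho φ x * (grad s x ⬝ᵥ (τ x *ᵥ grad s x)) :=
    egap_int hP (h := fun x => ∑ i, pd i s x * ∑ j, τ x i j * pd j s x)
      (continuous_finsetSum _ fun i _ => (cd1 i).mul
        (continuous_finsetSum _ fun j _ => (hM.continuous i j).mul (cd1 j)))
      (PolyG.sum _ fun i _ => (gd1 i).mul (PolyG.sum _ fun j _ => (gτ i j).mul (gd1 j)))
  have cκ : ∀ i j, Continuous fun x => (τ x * hess s x) i j :=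
    continuous_mul_entry hM.continuous cd2
  have gκ : ∀ i j, PolyG fun x => (τ x * hess s x) i j := fun i j => by
    simp only [Matrix.mul_apply]
    exact PolyG.sum (f := fun k x => τ x i k * hess s x k j) _ fun k _ => (gτ i k).mul (gd2 k j)
  have ik : Integrable fun x => rho φ x * (τ x * hess s x * (τ x * hess s x)).trace :=
    egap_int hP (h := fun x => ∑ i, ∑ j, (τ x * hess s x) i j * (τ x * hess s x) j i)
      (continuous_finsetSum _ fun i _ => continuous_finsetSum _ fun j _ => (cκ i j).mul (cκ j i))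
      (PolyG.sum _ fun i _ => PolyG.sum _ fun j _ => (gκ i j).mul (gκ j i))
  -- the identities
  have hX : ∫ x, rho φ x * ((s x - mean φ s) * Lop τ s x) =
      -∫ x, rho φ x * (grad s x ⬝ᵥ (τ x *ᵥ grad s x)) := by
    rw [green hP hM (h := fun x => s x - mean φ s) (c1.sub contDiff_const) c2 (Or.inr hs.cs)]
    have : grad (fun x => s x - mean φ s) = grad s := by
      funext x i
      unfold grad
      rw [pd_sub i ((c1.differentiable one_ne_zero) x) (differentiableAt_const _), pd_const, sub_zero]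
    rw [this]
  have hT : ∫ x, rho φ x * Tl φ τ l s x ^ 2 =
      l ^ 2 * (∫ x, rho φ x * (s x - mean φ s) ^ 2) +
        2 * l * (∫ x, rho φ x * (grad s x ⬝ᵥ (τ x *ᵥ grad s x))) + ∫ x, rho φ x * Lop τ s x ^ 2 := by
    have e : ∀ x, rho φ x * Tl φ τ l s x ^ 2 = l ^ 2 * (rho φ x * (s x - mean φ s) ^ 2) -
        2 * l * (rho φ x * ((s x - mean φ s) * Lop τ s x)) + rho φ x * Lop τ s x ^ 2 := fun x => by
      unfold Tl
      ring
    simp only [e]
    rw [integral_add ((iN.const_mul _).sub' (iX.const_mul _)) ia,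
      integral_sub (iN.const_mul _) (iX.const_mul _), integral_const_mul, integral_const_mul, hX]
    ring
  have ha := bochner hP hM (egap_cd3 hs) hs.cs
  have hcs := cs_int (w := rho φ) (f := fun x => s x - mean φ s) (g := Lop τ s) (s := univ) hρ
    iN.integrableOn ia.integrableOn iX.integrableOn
  simp only [Measure.restrict_univ] at hcs
  rw [hX, neg_sq] at hcs
  have hk : c ^ 2 * ∫ x, rho φ x * nsq (hess s x) ≤
      ∫ x, rho φ x * (τ x * hess s x * (τ x * hess s x)).trace := by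
    rw [← integral_const_mul]
    refine integral_mono (iH.const_mul _) ik fun x => ?_
    have := mul_le_mul_of_nonneg_left (tr_sq_lo (hM.ell x) hc (hess_symm c2 x)) (hρ x)
    simp only
    linarith
  have hH : α * ∫ x, rho φ x * ∑ i, pd i s x ^ 2 ≤ ∫ x, rho φ x * nsq (hess s x) := by
    have j1 : ∀ i, Integrable fun x => rho φ x * pd i s x ^ 2 := fun i =>
      egap_int hP ((cd1 i).pow 2) (egap_sq (gd1 i))
    have j2 : ∀ i, Integrable fun x => rho φ x * ∑ j, pd j (pd i s) x ^ 2 := fun i =>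
      egap_int hP (continuous_finsetSum _ fun j _ => (cd2 j i).pow 2)
        (PolyG.sum _ fun j _ => egap_sq (gd2 j i))
    have e1 : ∫ x, rho φ x * ∑ i, pd i s x ^ 2 = ∑ i, ∫ x, rho φ x * pd i s x ^ 2 := by
      rw [← integral_finsetSum _ fun i _ => j1 i]
      simp only [Finset.mul_sum]
    have e2 : ∫ x, rho φ x * nsq (hess s x) = ∑ i, ∫ x, rho φ x * ∑ j, pd j (pd i s) x ^ 2 := by
      rw [← integral_finsetSum _ fun i _ => j2 i]
      refine integral_congr_ae (Filter.Eventually.of_forall fun x => ?_)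
      simp only [← Finset.mul_sum]
      rw [nsq, Finset.sum_comm]
      rfl
    rw [e1, e2, Finset.mul_sum]
    refine Finset.sum_le_sum fun i _ => ?_
    have h0 : mean φ (pd i s) = 0 := by
      unfold mean
      rw [integral_odd (f := fun x => rho φ x * pd i s x), zero_div]
      intro x
      rw [pd_even he, rho, rho, hP.even]
      ring
    have := poincare hP (egap_cd1 (hs.pd i)) (hs.pd i).cs
    rw [h0] at this
    simp only [sub_zero] at this
    rwa [le_inv_mul_iff₀ hα] at this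
  have hN : α * ∫ x, rho φ x * (s x - mean φ s) ^ 2 ≤ ∫ x, rho φ x * ∑ i, pd i s x ^ 2 := by
    have := poincare hP c1 hs.cs
    rwa [le_inv_mul_iff₀ hα] at this
  have hb1 : ∫ x, rho φ x * (grad s x ⬝ᵥ (τ x *ᵥ grad s x)) ≤ C * ∫ x, rho φ x * ∑ i, pd i s x ^ 2 := by
    rw [← integral_const_mul]
    refine integral_mono ib (iP.const_mul _) fun x => ?_
    have := mul_le_mul_of_nonneg_left ((hM.ell x).hi (grad s x)) (hρ x)
    rw [egap_dot] at this
    simp only [grad] at this ⊢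
    linarith
  have hb0 : 0 ≤ ∫ x, rho φ x * (grad s x ⬝ᵥ (τ x *ᵥ grad s x)) := by
    refine integral_nonneg fun x => mul_nonneg (hρ x) (le_trans ?_ ((hM.ell x).lo (grad s x)))
    rw [egap_dot]
    positivity
  have hN0 : 0 ≤ ∫ x, rho φ x * (s x - mean φ s) ^ 2 :=
    integral_nonneg fun x => mul_nonneg (hρ x) (sq_nonneg _)
  have hP0 : 0 ≤ ∫ x, rho φ x * ∑ i, pd i s x ^ 2 :=
    integral_nonneg fun x => mul_nonneg (hρ x) (Finset.sum_nonneg fun i _ => sq_nonneg _)
  have hT0 : 0 ≤ ∫ x, rho φ x * Tl φ τ l s x ^ 2 :=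
    integral_nonneg fun x => mul_nonneg (hρ x) (sq_nonneg _)
  generalize (∫ x, rho φ x * Tl φ τ l s x ^ 2) = T at *
  generalize (∫ x, rho φ x * (s x - mean φ s) ^ 2) = N at *
  generalize (∫ x, rho φ x * ∑ i, pd i s x ^ 2) = P at *
  generalize (∫ x, rho φ x * nsq (hess s x)) = H at *
  generalize (∫ x, rho φ x * (grad s x ⬝ᵥ (τ x *ᵥ grad s x))) = b at *
  generalize (∫ x, rho φ x * (τ x * hess s x * (τ x * hess s x)).trace) = k at *
  generalize (∫ x, rho φ x * Lop τ s x ^ 2) = a at *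
  have hH0 : 0 ≤ H := le_trans (by positivity) hH
  have hθb : θ * b ≤ k := by
    rw [hθd, div_mul_eq_mul_div, div_le_iff₀ hC]
    have e1 : c ^ 2 * α * b ≤ c ^ 2 * α * (C * P) := by gcongr
    have e2 : c ^ 2 * (α * P) ≤ c ^ 2 * H := by gcongr
    nlinarith
  have main := egap_real hθ hb0 ha hθb hcs h1 hT hT0
  have hr : 0 ≤ (θ / (1 + θ)) ^ 2 := sq_nonneg _
  generalize (θ / (1 + θ)) ^ 2 = r at *
  have f0 : r * c ^ 2 * H ≤ T := by
    have : r * (c ^ 2 * H) ≤ r * a := by gcongr; linarith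
    linarith
  have g1 : μ * P ≤ H := le_trans (by gcongr) hH
  have g2 : μ * N ≤ P := le_trans (by gcongr) hN
  have g3 : μ ^ 2 * H ≤ H := by nlinarith [mul_le_one₀ hμ1 hμ.le hμ1]
  have g4 : μ ^ 2 * P ≤ H := by nlinarith [mul_le_mul_of_nonneg_left g1 hμ.le]
  have g5 : μ ^ 2 * N ≤ H := by nlinarith [mul_le_mul_of_nonneg_left g2 hμ.le]
  have hrc : 0 ≤ r * c ^ 2 := by positivity
  refine ⟨?_, ?_, ?_⟩
  · nlinarith [mul_le_mul_of_nonneg_left g5 hrc]
  · nlinarith [mul_le_mul_of_nonneg_left g4 hrc]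
  · nlinarith [mul_le_mul_of_nonneg_left g3 hrc]

end Crest.Agent.R238
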