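import Crest.Agent.R238.EUniq
import Crest.Agent.R238.EGap

/-!
# R238 / EDense: density at `λ = 1`

In the Hilbert space `Lp ℝ 2 volume` let `V` be the span (it is already a subspace) of the classes
of `√ρ (s - L s)`, `s` an even test function.  If `γ ⊥ V`, put `g = γ/√ρ` and
`g_e x = g x + g(-x)`: for any test `s`, `∫ρ g_e (s - Ls) = ∫ρ g (s_e - L s_e) = 0`,
`s_e = s + s(-·)` (`Lop_neg_arg`, `integral_neg_eq_self`), so `g_e = 0` a.e. (`uniq`) and
`⟪γ, √ρ f⟫ = ½∫ρ g_e f = 0` for even `f`.  Hence `√ρ f ∈ Vᗮᗮ = closure V`.  Finally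
`T_1 s - f = h - mean h` for `h = s - Ls - f`, and `∫ρ(h - mean h)² ≤ ∫ρ h²`.
-/

set_option autoImplicit false
open MeasureTheory Matrix Set Metric
open scoped RealInnerProductSpace ContDiff BigOperators

namespace Crest.Agent.R238

variable {n : ℕ}

theorem edense_two : (2 : WithTop ℕ∞) ≤ ∞ := by
  exact WithTop.coe_le_coe.2 (le_top : (2 : ℕ∞) ≤ ⊤)

theorem edense_sq (φ : E n → ℝ) (x : E n) : √(rho φ x) * √(rho φ x) = rho φ x :=
  Real.mul_self_sqrt (rho_pos φ x).le

theorem edense_memLp {α β : ℝ} {φ f : E n → ℝ} (hP : Pot α β φ) (hf : Continuous f)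
    (h2 : Integrable fun x => rho φ x * f x ^ 2) : MemLp (fun x => √(rho φ x) * f x) 2 volume := by
  refine (memLp_two_iff_integrable_sq
    (hP.continuous_rho.sqrt.mul hf).aestronglyMeasurable).2 (h2.congr ?_)
  filter_upwards with x
  rw [Pi.mul_apply, mul_pow, Real.sq_sqrt (rho_pos φ x).le]

theorem edense_cs {φ f : E n → ℝ} (hφ : Continuous (rho φ)) (hf : Continuous f)
    (hc : HasCompactSupport f) : Integrable fun x => rho φ x * f x ^ 2 := by
  refine (hφ.mul (hf.pow 2)).integrable_of_hasCompactSupport ?_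
  simp only [sq]
  exact hc.mul_left.mul_left

/-- the range of `1 - L` on even test functions -/
def edenseV (φ : E n → ℝ) (τ : E n → Mat n) : Submodule ℝ (Lp ℝ 2 (volume : Measure (E n))) where
  carrier := {γ | ∃ s, Tst s ∧ (∀ x, s (-x) = s x) ∧
    ∀ᵐ x : E n, γ x = √(rho φ x) * (s x - Lop τ s x)}
  zero_mem' := by
    refine ⟨fun _ => 0, ⟨contDiff_const, HasCompactSupport.zero⟩, fun _ => rfl, ?_⟩
    filter_upwards [Lp.coeFn_zero ℝ 2 (volume : Measure (E n))] with x hx
    have := Lop_const_mul (τ := τ) 0 (fun _ => 0) x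
    simp only [mul_zero, zero_mul] at this
    rw [hx, this]; simp
  add_mem' := by
    rintro a b ⟨s, hs, es, h1⟩ ⟨t, ht, et, h2⟩
    refine ⟨fun x => s x + t x, hs.add ht, fun x => by simp only [es, et], ?_⟩
    filter_upwards [Lp.coeFn_add a b, h1, h2] with x hx h1 h2
    rw [hx, Pi.add_apply, h1, h2, Lop_add (hs.cd.of_le edense_two) (ht.cd.of_le edense_two)]
    ring
  smul_mem' := by
    rintro k a ⟨s, hs, es, h1⟩
    refine ⟨fun x => k * s x, hs.const_mul k, fun x => by simp only [es], ?_⟩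
    filter_upwards [Lp.coeFn_smul k a, h1] with x hx h1
    rw [hx, Pi.smul_apply, h1, Lop_const_mul, smul_eq_mul]
    ring

theorem edense_mul {φ g h : E n → ℝ} (hφ : Continuous (rho φ))
    (hg : AEStronglyMeasurable g volume) (hh : AEStronglyMeasurable h volume)
    (g2 : Integrable fun x => rho φ x * g x ^ 2) (h2 : Integrable fun x => rho φ x * h x ^ 2) :
    Integrable fun x => rho φ x * (g x * h x) := by
  refine (g2.add h2).mono' (hφ.aestronglyMeasurable.mul (hg.mul hh)) ?_
  filter_upwards with x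
  have := rho_pos φ x
  rw [Real.norm_eq_abs, abs_mul, abs_of_pos this, Pi.add_apply, ← mul_add]
  refine mul_le_mul_of_nonneg_left (abs_le.2 ⟨?_, ?_⟩) this.le
  · nlinarith [sq_nonneg (g x + h x), sq_nonneg (g x), sq_nonneg (h x)]
  · nlinarith [sq_nonneg (g x - h x), sq_nonneg (g x), sq_nonneg (h x)]

theorem edense_orth {α β c C : ℝ} {φ : E n → ℝ} {τ : E n → Mat n} {U : E n → Fin n → Mat n}
    (hP : Pot α β φ) (hM : MS φ c C τ U) {g f : E n → ℝ} (hg : AEStronglyMeasurable g volume)
    (g2 : Integrable fun x => rho φ x * g x ^ 2)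
    (h : ∀ s, Tst s → (∀ x, s (-x) = s x) → ∫ x, rho φ x * (g x * (s x - Lop τ s x)) = 0)
    (hf : Continuous f) (f2 : Integrable fun x => rho φ x * f x ^ 2) (fe : ∀ x, f (-x) = f x) :
    ∫ x, rho φ x * (g x * f x) = 0 := by
  have hρ := hP.continuous_rho
  have ρe : ∀ x, rho φ (-x) = rho φ x := fun x => by simp only [rho, hP.even]
  have hg' : AEStronglyMeasurable (fun x => g (-x)) volume :=
    hg.comp_quasiMeasurePreserving (Measure.measurePreserving_neg _).quasiMeasurePreserving
  have g2' : Integrable fun x => rho φ x * g (-x) ^ 2 := by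
    simpa only [ρe] using g2.comp_neg
  have sw : ∀ k : E n → ℝ, ∫ x, rho φ x * (g (-x) * k x) = ∫ x, rho φ x * (g x * k (-x)) :=
    fun k => by
      rw [← integral_neg_eq_self]
      simp only [ρe, neg_neg]
  have spl : ∀ k : E n → ℝ, Continuous k → (Integrable fun x => rho φ x * k x ^ 2) →
      ∫ x, rho φ x * ((g x + g (-x)) * k x) = ∫ x, rho φ x * (g x * (k x + k (-x))) := by
    intro k hk k2
    have hk' : Continuous fun x => k (-x) := hk.comp continuous_neg
    have k2' : Integrable fun x => rho φ x * k (-x) ^ 2 := by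
      simpa only [ρe] using k2.comp_neg
    simp only [add_mul, mul_add]
    rw [integral_add (edense_mul hρ hg hk.aestronglyMeasurable g2 k2)
      (edense_mul hρ hg' hk.aestronglyMeasurable g2' k2),
      integral_add (edense_mul hρ hg hk.aestronglyMeasurable g2 k2)
      (edense_mul hρ hg hk'.aestronglyMeasurable g2 k2'), sw]
  have z : ∀ᵐ x : E n, g x + g (-x) = 0 := by
    refine uniq hP hM (hg.add hg') ?_ fun s hs => ?_
    · refine ((g2.add g2').const_mul 2).mono' (hρ.aestronglyMeasurable.mul ((hg.add hg').pow 2)) ?_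
      filter_upwards with x
      have := rho_pos φ x
      rw [Real.norm_eq_abs, abs_of_nonneg (by positivity), Pi.add_apply]
      nlinarith [mul_nonneg this.le (sq_nonneg (g x - g (-x)))]
    · have s2 : ContDiff ℝ 2 s := hs.cd.of_le edense_two
      have s2' : ContDiff ℝ 2 fun x => s (-x) := hs.neg_arg.cd.of_le edense_two
      have hc : Continuous fun x => s x - Lop τ s x := s2.continuous.sub (continuous_Lop hM s2)
      rw [spl _ hc (edense_cs hρ hc (hs.cs.sub (cs_Lop hs.cs))),
        ← h (fun x => s x + s (-x)) (hs.add hs.neg_arg) fun x => by rw [neg_neg, add_comm]]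
      refine integral_congr_ae (Filter.Eventually.of_forall fun x => ?_)
      simp only
      rw [Lop_add s2 s2', Lop_neg_arg hM]
      ring
  have e1 := spl f hf f2
  have e2 : ∫ x, rho φ x * ((g x + g (-x)) * f x) = 0 := by
    refine integral_eq_zero_of_ae ?_
    filter_upwards [z] with x hx
    simp [hx]
  have e3 : ∫ x, rho φ x * (g x * (f x + f (-x))) = 2 * ∫ x, rho φ x * (g x * f x) := by
    rw [← integral_const_mul]
    refine integral_congr_ae (Filter.Eventually.of_forall fun x => ?_)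
    simp only [fe]
    ring
  linarith

theorem edense_raw {α β c C : ℝ} {φ : E n → ℝ} {τ : E n → Mat n} {U : E n → Fin n → Mat n}
    (hP : Pot α β φ) (hM : MS φ c C τ U) {f : E n → ℝ} (hf : Continuous f)
    (f2 : Integrable fun x => rho φ x * f x ^ 2) (fe : ∀ x, f (-x) = f x) {η : ℝ} (hη : 0 < η) :
    ∃ s, Tst s ∧ (∀ x, s (-x) = s x) ∧ ∫ x, rho φ x * (s x - Lop τ s x - f x) ^ 2 ≤ η := by
  have hρ := hP.continuous_rho
  have sp : ∀ x, 0 < √(rho φ x) := fun x => Real.sqrt_pos.2 (rho_pos φ x)
  set F := (edense_memLp hP hf f2).toLp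
  have hF : ∀ᵐ x : E n, F x = √(rho φ x) * f x := (edense_memLp hP hf f2).coeFn_toLp
  have mem : F ∈ (edenseV φ τ).topologicalClosure := by
    rw [← Submodule.orthogonal_orthogonal_eq_closure, Submodule.mem_orthogonal]
    intro γ hγ
    have inn : ∀ (δ : Lp ℝ 2 (volume : Measure (E n))) (k : E n → ℝ),
        (∀ᵐ x : E n, δ x = √(rho φ x) * k x) →
        ⟪γ, δ⟫ = ∫ x, rho φ x * (γ x / √(rho φ x) * k x) := by
      intro δ k hk
      rw [L2.inner_def]
      refine integral_congr_ae ?_
      filter_upwards [hk] with x hx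
      have := (sp x).ne'
      rw [hx]
      nth_rewrite 2 [← edense_sq φ x]
      simp only [RCLike.inner_apply, conj_trivial]
      field_simp
    rw [inn F f hF]
    refine edense_orth hP hM ((Lp.aestronglyMeasurable γ).div₀ hρ.sqrt.aestronglyMeasurable) ?_
      (fun s hs es => ?_) hf f2 fe
    · refine ((memLp_two_iff_integrable_sq (Lp.aestronglyMeasurable γ)).1 (Lp.memLp γ)).congr ?_
      filter_upwards with x
      have := (rho_pos φ x).ne'
      rw [div_pow, Real.sq_sqrt (rho_pos φ x).le]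
      field_simp
    · have s2 : ContDiff ℝ 2 s := hs.cd.of_le edense_two
      have hc : Continuous fun x => s x - Lop τ s x := s2.continuous.sub (continuous_Lop hM s2)
      have m := edense_memLp hP hc (edense_cs hρ hc (hs.cs.sub (cs_Lop hs.cs)))
      rw [← inn m.toLp _ m.coeFn_toLp]
      exact (Submodule.mem_orthogonal' _ _).1 hγ _ ⟨s, hs, es, m.coeFn_toLp⟩
  obtain ⟨v, ⟨s, hs, es, hv⟩, hd⟩ := Metric.mem_closure_iff.1 mem √η (Real.sqrt_pos.2 hη)
  refine ⟨s, hs, es, ?_⟩
  have e : ∫ x, rho φ x * (s x - Lop τ s x - f x) ^ 2 = ‖v - F‖ ^ 2 := by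
    rw [← real_inner_self_eq_norm_sq, L2.inner_def]
    refine integral_congr_ae ?_
    filter_upwards [Lp.coeFn_sub v F, hv, hF] with x h1 h2 h3
    rw [h1, Pi.sub_apply, h2, h3]
    nth_rewrite 1 [← edense_sq φ x]
    simp only [RCLike.inner_apply, conj_trivial]
    ring
  rw [e, ← dist_eq_norm, dist_comm]
  exact (pow_le_pow_left₀ dist_nonneg hd.le 2).trans (Real.sq_sqrt hη.le).le

theorem dense_one {α β c C : ℝ} {φ : E n → ℝ} {τ : E n → Mat n} {U : E n → Fin n → Mat n}
    (hP : Pot α β φ) (hM : MS φ c C τ U) : Dense0 φ τ 1 := by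
  intro f hf f2 fe f0 η hη
  obtain ⟨s, hs, es, h⟩ := edense_raw hP hM hf f2 fe hη
  refine ⟨s, hs, es, le_trans ?_ h⟩
  have hρ := hP.continuous_rho
  have hZ := hP.Z_pos
  have s2 : ContDiff ℝ 2 s := hs.cd.of_le edense_two
  have hL := continuous_Lop hM s2
  have hc : Continuous fun x => s x - Lop τ s x := s2.continuous.sub hL
  have c2 := edense_cs hρ hc (hs.cs.sub (cs_Lop hs.cs))
  have i2 : Integrable fun x => rho φ x * (s x - Lop τ s x - f x) ^ 2 := by
    refine ((c2.add f2).const_mul 2).mono' (hρ.mul ((hc.sub hf).pow 2)).aestronglyMeasurable ?_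
    filter_upwards with x
    have := rho_pos φ x
    rw [Real.norm_eq_abs, abs_of_nonneg (by positivity), Pi.add_apply]
    nlinarith [mul_nonneg this.le (sq_nonneg (s x - Lop τ s x + f x))]
  have j1 : Integrable fun x => rho φ x * s x :=
    (hρ.mul s2.continuous).integrable_of_hasCompactSupport hs.cs.mul_left
  have j2 : Integrable fun x => rho φ x * Lop τ s x :=
    (hρ.mul hL).integrable_of_hasCompactSupport (cs_Lop hs.cs).mul_left
  have j3 := hP.integrable_of_sq hf.aestronglyMeasurable f2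
  have j12 : Integrable fun x => rho φ x * s x - rho φ x * Lop τ s x := j1.sub j2
  have i1 : Integrable fun x => rho φ x * (s x - Lop τ s x - f x) := by
    simp only [mul_sub]
    exact j12.sub j3
  have e1 : ∫ x, rho φ x * (s x - Lop τ s x - f x) = mean φ s * ∫ x, rho φ x := by
    simp only [mul_sub]
    rw [integral_sub j12 j3, integral_sub j1 j2, f0, integral_Lop hP hM s2 hs.cs, mean]
    field_simp
    ring
  have e : (fun x => rho φ x * (Tl φ τ 1 s x - f x) ^ 2) = fun x =>
      (rho φ x * (s x - Lop τ s x - f x) ^ 2 - 2 * mean φ s * (rho φ x * (s x - Lop τ s x - f x)))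
        + mean φ s ^ 2 * rho φ x := by
    funext x
    simp only [Tl]
    ring
  have i3 : Integrable fun x => rho φ x * (s x - Lop τ s x - f x) ^ 2 -
      2 * mean φ s * (rho φ x * (s x - Lop τ s x - f x)) := i2.sub (i1.const_mul _)
  rw [e, integral_add i3 (hP.integrable_rho.const_mul _), integral_sub i2 (i1.const_mul _),
    integral_const_mul, integral_const_mul, e1]
  nlinarith [mul_nonneg (sq_nonneg (mean φ s)) hZ.le]

end Crest.Agent.R238
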