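import Crest.Agent.R238.EMolL2

/-!
# R238 / EFried: Friedrichs' commutator lemma

`comm ε e a g x = ∫ [∂_e k_ε(x-y) (a y - a x) - ∂_e a(x) k_ε(x-y)] g y dy` (`pd_mol`).  With
`Λ = sup_{B_{R+1}} ‖∇a‖` the bracket is bounded by `Λ(|∂_e k_ε(z)||z| + k_ε(z))`, `z = x-y`, whose
integral is `≤ Λ(D+1)` (`kern_grad`): `schur`.  For `g ∈ C¹`:
`comm = mol(∂a g) + mol(a ∂g) - a mol(∂g) - ∂a mol g → 0` uniformly on `B_R` (`pd_mol_C1`,
`mol_unif`).  General `g`: approximate in `L²(B_{R+1})` by a continuous `g'` (`approx_L2`) and `g'`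
by the smooth `mol ε' g'` (`mol_unif`).
-/

set_option autoImplicit false
open MeasureTheory Matrix Set Metric
open scoped RealInnerProductSpace ContDiff BigOperators

namespace Crest.Agent.R238

variable {n : ℕ}

theorem efried_int {k g : E n → ℝ} (hk : Continuous k) (hc : HasCompactSupport k)
    (hg : LocallyIntegrable g) (x : E n) : Integrable fun y => k (x - y) * g y :=
  hg.integrable_smul_left_of_hasCompactSupport (g := fun y => k (x - y))
    (hk.comp (continuous_const.sub continuous_id)) (hc.comp_homeomorph (Homeomorph.subLeft x))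

theorem efried_c1 {ε : ℝ} (hε : 0 < ε) {g : E n → ℝ} (hg : L2loc g) : ContDiff ℝ 1 (mol ε g) :=
  (contDiff_mol hε hg.locInt).of_le (by exact_mod_cast le_top)

theorem efried_intOn {F : E n → ℝ} (hF : Continuous F) (R : ℝ) :
    IntegrableOn (fun x => F x ^ 2) (ball (0 : E n) R) :=
  (l2loc_of_continuous hF).2 R

theorem efried_pd_le (f : E n → ℝ) (e : Fin n) (x : E n) : |pd e f x| ≤ ‖fderiv ℝ f x‖ := by
  have h := (fderiv ℝ f x).le_opNorm (ee e)
  have h1 : ‖(ee e : E n)‖ = 1 := by simp [ee]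
  rwa [h1, mul_one] at h

theorem efried_bd {F : Type} [NormedAddCommGroup F] {f : E n → F} (hf : Continuous f) (R : ℝ) :
    ∃ M : ℝ, 0 ≤ M ∧ ∀ x : E n, ‖x‖ ≤ R → ‖f x‖ ≤ M := by
  obtain ⟨M, hM⟩ := (isCompact_closedBall (0 : E n) R).exists_bound_of_continuousOn hf.continuousOn
  exact ⟨max M 0, le_max_right _ _, fun x hx =>
    (hM x (mem_closedBall_zero_iff.2 hx)).trans (le_max_left _ _)⟩

theorem continuous_comm {ε : ℝ} (hε : 0 < ε) (e : Fin n) {a g : E n → ℝ} (ha : ContDiff ℝ 1 a)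
    (hg : L2loc g) : Continuous (comm ε e a g) := by
  exact ((continuous_pd (efried_c1 hε (L2loc.mul ha.continuous hg)) e).sub
    (ha.continuous.mul (continuous_pd (efried_c1 hε hg) e))).sub
    ((continuous_pd ha e).mul (efried_c1 hε hg).continuous)

theorem comm_sub {ε : ℝ} (hε : 0 < ε) (e : Fin n) {a g g' : E n → ℝ} (ha : Continuous a)
    (hg : L2loc g) (hg' : L2loc g') (x : E n) :
    comm ε e a (fun y => g y - g' y) x = comm ε e a g x - comm ε e a g' x := by
  have d : ∀ {f : E n → ℝ}, L2loc f → DifferentiableAt ℝ (mol ε f) x := fun hf =>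
    (efried_c1 hε hf).differentiable one_ne_zero x
  have h1 := L2loc.mul ha hg
  have h2 := L2loc.mul ha hg'
  simp only [comm, mul_sub]
  rw [mol_sub hε h1.locInt h2.locInt, mol_sub hε hg.locInt hg'.locInt, pd_sub e (d h1) (d h2),
    pd_sub e (d hg) (d hg')]
  ring

theorem comm_bound {a : E n → ℝ} (ha : ContDiff ℝ 1 a) (R : ℝ) : ∃ K : ℝ, 0 ≤ K ∧
    ∀ ε : ℝ, 0 < ε → ε ≤ 1 → ∀ (e : Fin n) (g : E n → ℝ), L2loc g →
      ∫ x in ball (0 : E n) R, comm ε e a g x ^ 2 ≤ K * ∫ y in ball (0 : E n) (R + 1), g y ^ 2 := by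
  obtain ⟨Λ, hΛ, hb⟩ := efried_bd (ha.continuous_fderiv one_ne_zero) (R + 1)
  obtain ⟨D, hD, hk⟩ := kern_grad n
  refine ⟨(Λ * (D + 1)) ^ 2, by positivity, fun ε hε hε1 e g hg => ?_⟩
  have t0 := tst_kern (n := n) hε
  have t1 := t0.pd e
  have c0 := t0.cd.continuous
  have c1 := t1.cd.continuous
  obtain ⟨kk, hkk⟩ : ∃ kk : E n → ℝ, kk = fun z => Λ * (|pd e (kern ε) z| * ‖z‖ + kern ε z) :=
    ⟨_, rfl⟩
  have ck : Continuous kk := by rw [hkk]; fun_prop
  have k0 : ∀ z, 0 ≤ kk z := fun z => by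
    rw [hkk]
    have := kern_nonneg hε z
    positivity
  have ks : ∀ z, ε ≤ ‖z‖ → kk z = 0 := fun z hz => by
    simp [hkk, kern_zero hε hz, pd_kern_zero hε hz]
  have kc : HasCompactSupport kk :=
    HasCompactSupport.intro (isCompact_closedBall (0 : E n) ε) fun z hz =>
      ks z (le_of_lt (by simpa using hz))
  have hs := schur (R := R) hε ck k0 ks hg (continuous_comm hε e ha hg) fun x hx => by
    have hx' : ‖x‖ < R := mem_ball_zero_iff.1 hx
    have i1 := efried_int c1 t1.cs (L2loc.mul ha.continuous hg).locInt x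
    have i2 := efried_int c1 t1.cs hg.locInt x
    have i3 := efried_int c0 t0.cs hg.locInt x
    have i4 : Integrable fun y => kk (x - y) * |g y| := by
      refine (efried_int ck kc hg.locInt x).norm.congr (Filter.Eventually.of_forall fun y => ?_)
      simp [abs_of_nonneg (k0 _)]
    have e1 : comm ε e a g x = ∫ y, (pd e (kern ε) (x - y) * (a y * g y) -
        a x * (pd e (kern ε) (x - y) * g y) - pd e a x * (kern ε (x - y) * g y)) := by
      have i5 : Integrable fun y => pd e (kern ε) (x - y) * (a y * g y) -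
          a x * (pd e (kern ε) (x - y) * g y) := i1.sub (i2.const_mul _)
      rw [integral_sub i5 (i3.const_mul _), integral_sub i1 (i2.const_mul _),
        integral_const_mul, integral_const_mul, comm,
        pd_mol hε (L2loc.mul ha.continuous hg).locInt, pd_mol hε hg.locInt]
      rfl
    rw [e1, ← Real.norm_eq_abs]
    refine norm_integral_le_of_norm_le i4 (Filter.Eventually.of_forall fun y => ?_)
    by_cases hy : ε ≤ ‖x - y‖
    · simp [kern_zero hε hy, pd_kern_zero hε hy, ks _ hy]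
    push Not at hy
    have hy' : ‖y‖ ≤ R + 1 := by
      have := norm_sub_norm_le y x
      rw [norm_sub_rev] at this
      linarith
    have m1 : ‖a y - a x‖ ≤ Λ * ‖y - x‖ :=
      (convex_closedBall (0 : E n) (R + 1)).norm_image_sub_le_of_norm_fderiv_le
        (fun z _ => ha.differentiable one_ne_zero z)
        (fun z hz => hb z (mem_closedBall_zero_iff.1 hz))
        (mem_closedBall_zero_iff.2 (by linarith)) (mem_closedBall_zero_iff.2 hy')
    rw [norm_sub_rev y x, Real.norm_eq_abs] at m1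
    have m2 : |pd e a x| ≤ Λ := (efried_pd_le a e x).trans (hb x (by linarith))
    have m3 := kern_nonneg hε (x - y)
    have e2 : pd e (kern ε) (x - y) * (a y * g y) - a x * (pd e (kern ε) (x - y) * g y) -
        pd e a x * (kern ε (x - y) * g y) =
        (pd e (kern ε) (x - y) * (a y - a x) - pd e a x * kern ε (x - y)) * g y := by ring
    rw [e2, Real.norm_eq_abs, abs_mul]
    refine mul_le_mul_of_nonneg_right ((abs_sub _ _).trans ?_) (abs_nonneg _)
    rw [abs_mul, abs_mul, abs_of_nonneg m3, hkk]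
    calc |pd e (kern ε) (x - y)| * |a y - a x| + |pd e a x| * kern ε (x - y)
        ≤ |pd e (kern ε) (x - y)| * (Λ * ‖x - y‖) + Λ * kern ε (x - y) := by gcongr
      _ = _ := by ring
  have j1 : Integrable fun z : E n => |pd e (kern ε) z| * ‖z‖ :=
    (c1.abs.mul continuous_norm).integrable_of_hasCompactSupport
      (HasCompactSupport.intro (isCompact_closedBall (0 : E n) ε) fun z hz => by
        simp [pd_kern_zero hε (le_of_lt (by simpa using hz) : ε ≤ ‖z‖)])
  have j2 : Integrable (kern ε : E n → ℝ) := c0.integrable_of_hasCompactSupport t0.cs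
  have h1 : ∫ z, kk z ≤ Λ * (D + 1) := by
    rw [hkk, integral_const_mul, integral_add j1 j2, integral_kern hε]
    gcongr
    exact hk ε hε e
  have h0 : 0 ≤ ∫ z, kk z := integral_nonneg k0
  have h2 : ∫ y in ball (0 : E n) (R + ε), g y ^ 2 ≤ ∫ y in ball (0 : E n) (R + 1), g y ^ 2 :=
    setIntegral_mono_set (hg.2 _) (Filter.Eventually.of_forall fun y => sq_nonneg _)
      (ball_subset_ball (by linarith)).eventuallyLE
  have h3 : 0 ≤ ∫ y in ball (0 : E n) (R + ε), g y ^ 2 := integral_nonneg fun y => sq_nonneg _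
  refine hs.trans ?_
  gcongr

theorem efried_smooth {a g : E n → ℝ} (ha : ContDiff ℝ 1 a) (hg : ContDiff ℝ 1 g) (R : ℝ)
    (e : Fin n) {η : ℝ} (hη : 0 < η) : ∃ ε₀ : ℝ, 0 < ε₀ ∧ ∀ ε : ℝ, 0 < ε → ε ≤ ε₀ →
      ∀ x : E n, ‖x‖ ≤ R → |comm ε e a g x| ≤ η := by
  obtain ⟨M, hM, b1⟩ := efried_bd ha.continuous R
  obtain ⟨N, hN, b2⟩ := efried_bd (continuous_pd ha e) R
  have hag : ContDiff ℝ 1 fun y => a y * g y := ha.mul hg
  have hδ : 0 < η / (1 + M + N) := by positivity
  obtain ⟨ε₁, p1, q1⟩ := mol_unif (continuous_pd hag e) R hδ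
  obtain ⟨ε₂, p2, q2⟩ := mol_unif (continuous_pd hg e) R hδ
  obtain ⟨ε₃, p3, q3⟩ := mol_unif hg.continuous R hδ
  refine ⟨min ε₁ (min ε₂ ε₃), by positivity, fun ε hε hle x hx => ?_⟩
  have r1 := q1 ε hε (hle.trans (min_le_left _ _)) x hx
  have r2 := q2 ε hε (hle.trans ((min_le_right _ _).trans (min_le_left _ _))) x hx
  have r3 := q3 ε hε (hle.trans ((min_le_right _ _).trans (min_le_right _ _))) x hx
  have s1 : |a x| ≤ M := b1 x hx
  have s2 : |pd e a x| ≤ N := b2 x hx
  have e1 : comm ε e a g x =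
      (mol ε (pd e fun y => a y * g y) x - pd e (fun y => a y * g y) x) -
        a x * (mol ε (pd e g) x - pd e g x) - pd e a x * (mol ε g x - g x) := by
    rw [comm, pd_mol_C1 hε hag, pd_mol_C1 hε hg,
      pd_mul e (ha.differentiable one_ne_zero x) (hg.differentiable one_ne_zero x)]
    ring
  rw [e1]
  refine (abs_sub _ _).trans ((add_le_add_left (abs_sub _ _) _).trans ?_)
  rw [abs_mul, abs_mul]
  calc _ ≤ η / (1 + M + N) + M * (η / (1 + M + N)) + N * (η / (1 + M + N)) := by gcongr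
    _ = η := by field_simp

theorem efried_smooth2 {a g : E n → ℝ} (ha : ContDiff ℝ 1 a) (hg : ContDiff ℝ 1 g) (R : ℝ)
    (e : Fin n) {η : ℝ} (hη : 0 < η) : ∃ ε₀ : ℝ, 0 < ε₀ ∧ ∀ ε : ℝ, 0 < ε → ε ≤ ε₀ →
      ∫ x in ball (0 : E n) R, comm ε e a g x ^ 2 ≤ η := by
  obtain ⟨V, hV⟩ : ∃ V, V = volume.real (ball (0 : E n) R) := ⟨_, rfl⟩
  have V0 : 0 ≤ V := by rw [hV]; exact measureReal_nonneg
  have hδ : 0 < η / (V + 1) := by positivity
  obtain ⟨ε₀, p, q⟩ := efried_smooth ha hg R e (Real.sqrt_pos.2 hδ)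
  refine ⟨ε₀, p, fun ε hε hle => ?_⟩
  have h1 := norm_setIntegral_le_of_norm_le_const (μ := volume) (s := ball (0 : E n) R)
    (f := fun x => comm ε e a g x ^ 2) (C := η / (V + 1)) measure_ball_lt_top fun x hx => by
      have := q ε hε hle x (mem_ball_zero_iff.1 hx).le
      rw [Real.norm_eq_abs, abs_pow, ← Real.sq_sqrt hδ.le]
      gcongr
  rw [← hV] at h1
  refine (le_abs_self _).trans (h1.trans ?_)
  rw [div_mul_eq_mul_div, div_le_iff₀ (by positivity)]
  nlinarith

theorem comm_small {a g : E n → ℝ} (ha : ContDiff ℝ 1 a) (hg : L2loc g) (R : ℝ) (e : Fin n)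
    {η : ℝ} (hη : 0 < η) : ∃ ε₀ : ℝ, 0 < ε₀ ∧ ∀ ε : ℝ, 0 < ε → ε ≤ ε₀ →
      ∫ x in ball (0 : E n) R, comm ε e a g x ^ 2 ≤ η := by
  obtain ⟨K, hK, hb⟩ := comm_bound ha R
  obtain ⟨ε₁, p1, q1⟩ := mol_tendsto_L2 hg (R + 1) (η := η / (4 * (K + 1))) (by positivity)
  have hs := efried_c1 p1 hg
  have hl := l2loc_of_continuous hs.continuous
  obtain ⟨ε₂, p2, q2⟩ := efried_smooth2 ha hs R e (η := η / 4) (by positivity)
  refine ⟨min 1 ε₂, by positivity, fun ε hε hle => ?_⟩
  have r1 := hb ε hε (hle.trans (min_le_left _ _)) e _ (hl.sub hg)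
  have r2 := q2 ε hε (hle.trans (min_le_right _ _))
  have r3 : K * ∫ y in ball (0 : E n) (R + 1), (mol ε₁ g y - g y) ^ 2 ≤ η / 4 := by
    calc _ ≤ K * (η / (4 * (K + 1))) := mul_le_mul_of_nonneg_left (q1 ε₁ p1 le_rfl) hK
      _ ≤ (K + 1) * (η / (4 * (K + 1))) := by gcongr; linarith
      _ = η / 4 := by field_simp
  have i0 := efried_intOn (continuous_comm hε e ha hg) R
  have i1 := efried_intOn (continuous_comm hε e ha hl) R
  have i2 := efried_intOn (continuous_comm hε e ha (hl.sub hg)) R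
  have h := setIntegral_mono_on i0 ((i1.const_mul 2).add (i2.const_mul 2)) measurableSet_ball
    fun x _ => by
      simp only [Pi.add_apply]
      rw [comm_sub hε e ha.continuous hl hg x]
      nlinarith [sq_nonneg (2 * comm ε e a (mol ε₁ g) x - comm ε e a g x)]
  simp only [Pi.add_apply] at h
  rw [integral_add (i1.const_mul 2) (i2.const_mul 2), integral_const_mul, integral_const_mul] at h
  linarith

end Crest.Agent.R238
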