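import Crest.Agent.R238.PotL

/-!
# R238 / EGreen: the operator `L`, Green's formula, pointwise Stein identity

`green`: `MS.stein` with `N = h · ∂_d s`, summed over `d` (`τ` and `hess s` symmetric).
`stein_pt`: integrate `MS.stein` by parts (`ibp` with `f = rho τ_{de}`), `eq_zero_of_tst`.
`trU`: `Σ_e ∂_e τ_{de} = Σ_e (τ U_e τ)_{de} = Σ_i τ_{di} tr(τ U_i)` by the total symmetry of `U`.
`stein_poly`: apply `MS.stein` to `cut R · N`, `R → ∞` (dominated convergence, `pd_cut_le`).
-/

set_option autoImplicit false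
open MeasureTheory Matrix Set Metric
open scoped RealInnerProductSpace ContDiff BigOperators

namespace Crest.Agent.R238

variable {n : ℕ}

variable {α β c C : ℝ} {φ : E n → ℝ} {τ : E n → Mat n} {U : E n → Fin n → Mat n}

theorem MS.continuous (hM : MS φ c C τ U) (i j : Fin n) : Continuous fun x => τ x i j :=
  (hM.cd i j).continuous

theorem MS.entry_le (hM : MS φ c C τ U) (x : E n) (i j : Fin n) : |τ x i j| ≤ C :=
  (hM.ell x).entry_le hM.cpos.le i j

theorem MS.pd_entry (hM : MS φ c C τ U) (x : E n) (e i j : Fin n) :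
    pd e (fun y => τ y i j) x = (τ x * U x e * τ x) i j := by
  rw [← hM.dτ x e]; rfl

theorem egreen_hess_zero {s : E n → ℝ} {x : E n} (hx : x ∉ tsupport s) (i j : Fin n) :
    hess s x i j = 0 :=
  pd_eq_zero (fun h => hx (tsupport_pd j s h)) i

theorem egreen_d2 {s : E n → ℝ} (hs : ContDiff ℝ 2 s) (x : E n) : DifferentiableAt ℝ s x :=
  hs.differentiable (by norm_num) x

theorem egreen_d2' {s : E n → ℝ} (hs : ContDiff ℝ 2 s) (j : Fin n) (x : E n) :
    DifferentiableAt ℝ (pd j s) x :=
  (contDiff_pd (m := 1) hs (by norm_num) j).differentiable (by norm_num) x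

theorem egreen_hess_add {s t : E n → ℝ} (hs : ContDiff ℝ 2 s) (ht : ContDiff ℝ 2 t) (x : E n) :
    hess (fun y => s y + t y) x = hess s x + hess t x := by
  ext i j
  have h1 : pd j (fun y => s y + t y) = fun y => pd j s y + pd j t y :=
    funext fun y => pd_add j (egreen_d2 hs y) (egreen_d2 ht y)
  simp only [hess, Matrix.of_apply, Matrix.add_apply]
  rw [h1, pd_add i (egreen_d2' hs j x) (egreen_d2' ht j x)]

theorem egreen_hess_sub {s t : E n → ℝ} (hs : ContDiff ℝ 2 s) (ht : ContDiff ℝ 2 t) (x : E n) :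
    hess (fun y => s y - t y) x = hess s x - hess t x := by
  ext i j
  have h1 : pd j (fun y => s y - t y) = fun y => pd j s y - pd j t y :=
    funext fun y => pd_sub j (egreen_d2 hs y) (egreen_d2 ht y)
  simp only [hess, Matrix.of_apply, Matrix.sub_apply]
  rw [h1, pd_sub i (egreen_d2' hs j x) (egreen_d2' ht j x)]

theorem egreen_int {f : E n → ℝ} {K : Set (E n)} (hK : IsCompact K) (hf : Continuous f)
    (hz : ∀ x ∉ K, f x = 0) : Integrable f :=
  hf.integrable_of_hasCompactSupport (HasCompactSupport.intro hK hz)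

theorem egreen_pd_xi (hM : MS φ c C τ U) {w : E n → ℝ} (hw : ContDiff ℝ 2 w) (x : E n)
    (b a : Fin n) : pd b (xi τ w a) x
      = ∑ e, (pd b (fun y => τ y a e) x * pd e w x + τ x a e * hess w x b e) := by
  have hτ : ∀ e, DifferentiableAt ℝ (fun y => τ y a e) x :=
    fun e => (hM.cd a e).differentiable (by norm_num) x
  have h1 : pd b (xi τ w a) x = ∑ e, pd b (fun y => τ y a e * pd e w y) x :=
    pd_sum _ b fun e _ => (hτ e).mul (egreen_d2' hw e x)
  rw [h1]
  exact Finset.sum_congr rfl fun e _ => pd_mul b (hτ e) (egreen_d2' hw e x)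

theorem Lop_eq_trace {s : E n → ℝ} (hs : ContDiff ℝ 2 s) (x : E n) :
    Lop τ s x = (τ x * hess s x).trace - ∑ i, x i * pd i s x := by
  unfold Lop
  congr 1
  simp only [Matrix.trace, Matrix.diag, Matrix.mul_apply]
  refine Finset.sum_congr rfl fun i _ => Finset.sum_congr rfl fun j _ => ?_
  rw [hess_symm hs x i j]

theorem continuous_Lop (hM : MS φ c C τ U) {s : E n → ℝ} (hs : ContDiff ℝ 2 s) :
    Continuous (Lop τ s) := by
  have h1 : ContDiff ℝ 1 s := hs.of_le (by norm_num)
  unfold Lop
  refine Continuous.sub ?_ ?_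
  · exact continuous_finsetSum _ fun i _ => continuous_finsetSum _ fun j _ =>
      (hM.continuous i j).mul (continuous_hess hs i j)
  · exact continuous_finsetSum _ fun i _ =>
      (contDiff_coord (m := 0) i).continuous.mul (continuous_pd h1 i)

theorem contDiff_Lop (hM : MS φ c C τ U) {s : E n → ℝ} (hs : ContDiff ℝ 3 s) :
    ContDiff ℝ 1 (Lop τ s) := by
  unfold Lop
  refine ContDiff.sub ?_ ?_
  · exact ContDiff.sum fun i _ => ContDiff.sum fun j _ =>
      (hM.cd i j).mul (contDiff_hess hs (by norm_num) i j)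
  · exact ContDiff.sum fun i _ =>
      (contDiff_coord i).mul (contDiff_pd hs (by norm_num) i)

theorem cs_Lop {s : E n → ℝ} (hs : HasCompactSupport s) : HasCompactSupport (Lop τ s) := by
  refine HasCompactSupport.intro hs.isCompact fun x hx => ?_
  unfold Lop
  simp [egreen_hess_zero hx, pd_eq_zero hx]

theorem Lop_neg_arg (hM : MS φ c C τ U) (s : E n → ℝ) (x : E n) :
    Lop τ (fun y => s (-y)) x = Lop τ s (-x) := by
  unfold Lop
  rw [hM.even x]
  have h1 : ∀ j, pd j (fun y => s (-y)) = fun y => -pd j s (-y) := fun j =>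
    funext fun y => pd_neg_arg j s y
  congr 1
  · refine Finset.sum_congr rfl fun i _ => Finset.sum_congr rfl fun j _ => ?_
    congr 1
    simp only [hess, Matrix.of_apply]
    rw [h1, pd_neg i (fun y => pd j s (-y)) x, pd_neg_arg i (pd j s) x, neg_neg]
  · refine Finset.sum_congr rfl fun i _ => ?_
    rw [h1]
    simp

theorem Lop_even (hM : MS φ c C τ U) {s : E n → ℝ} (hs : ∀ x, s (-x) = s x) (x : E n) :
    Lop τ s (-x) = Lop τ s x := by
  rw [← Lop_neg_arg hM s x]
  congr 1
  exact funext hs

theorem Lop_add {s t : E n → ℝ} (hs : ContDiff ℝ 2 s) (ht : ContDiff ℝ 2 t) (x : E n) :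
    Lop τ (fun y => s y + t y) x = Lop τ s x + Lop τ t x := by
  unfold Lop
  rw [egreen_hess_add hs ht]
  have h1 : ∀ i, pd i (fun y => s y + t y) x = pd i s x + pd i t x := fun i =>
    pd_add i (egreen_d2 hs x) (egreen_d2 ht x)
  simp only [h1, Matrix.add_apply, mul_add, Finset.sum_add_distrib]
  ring

theorem Lop_sub {s t : E n → ℝ} (hs : ContDiff ℝ 2 s) (ht : ContDiff ℝ 2 t) (x : E n) :
    Lop τ (fun y => s y - t y) x = Lop τ s x - Lop τ t x := by
  unfold Lop
  rw [egreen_hess_sub hs ht]
  have h1 : ∀ i, pd i (fun y => s y - t y) x = pd i s x - pd i t x := fun i =>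
    pd_sub i (egreen_d2 hs x) (egreen_d2 ht x)
  simp only [h1, Matrix.sub_apply, mul_sub, Finset.sum_sub_distrib]
  ring

theorem Lop_const_mul (k : ℝ) (s : E n → ℝ) (x : E n) :
    Lop τ (fun y => k * s y) x = k * Lop τ s x := by
  unfold Lop
  have h1 : ∀ j, pd j (fun y => k * s y) = fun y => k * pd j s y := fun j =>
    funext fun y => pd_const_mul j k s y
  simp only [hess, Matrix.of_apply, h1, pd_const_mul, mul_sub, Finset.mul_sum]
  congr 1
  · refine Finset.sum_congr rfl fun i _ => Finset.sum_congr rfl fun j _ => by ring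
  · refine Finset.sum_congr rfl fun i _ => by ring

theorem hess_sub {s t : E n → ℝ} (hs : ContDiff ℝ 2 s) (ht : ContDiff ℝ 2 t) (x : E n) :
    hess (fun y => s y - t y) x = hess s x - hess t x := by
  exact egreen_hess_sub hs ht x

theorem green (hP : Pot α β φ) (hM : MS φ c C τ U) {h s : E n → ℝ} (hh : ContDiff ℝ 1 h)
    (hs : ContDiff ℝ 2 s) (hc : HasCompactSupport h ∨ HasCompactSupport s) :
    ∫ x, rho φ x * (h x * Lop τ s x) = -∫ x, rho φ x * (grad h x ⬝ᵥ (τ x *ᵥ grad s x)) := by
  have hs1 : ContDiff ℝ 1 s := hs.of_le (by norm_num)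
  have hds : ∀ d, ContDiff ℝ 1 (pd d s) := fun d => contDiff_pd hs (by norm_num) d
  obtain ⟨K, hK, hz⟩ : ∃ K : Set (E n), IsCompact K ∧ ∀ x ∉ K,
      (h x = 0 ∧ ∀ e, pd e h x = 0) ∨ ((∀ d, pd d s x = 0) ∧ ∀ e d, pd e (pd d s) x = 0) := by
    rcases hc with hc | hc
    · exact ⟨_, hc.isCompact, fun x hx => Or.inl
        ⟨image_eq_zero_of_notMem_tsupport hx, fun e => pd_eq_zero hx e⟩⟩
    · exact ⟨_, hc.isCompact, fun x hx => Or.inr
        ⟨fun d => pd_eq_zero hx d, fun e d => egreen_hess_zero hx e d⟩⟩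
  have hρ := hP.continuous_rho
  have hco : ∀ d : Fin n, Continuous fun y : E n => y d :=
    fun d => (contDiff_coord (m := 0) d).continuous
  have hN : ∀ d, ContDiff ℝ 1 fun y => h y * pd d s y := fun d => hh.mul (hds d)
  have hNc : ∀ d, HasCompactSupport fun y => h y * pd d s y := fun d =>
    HasCompactSupport.intro hK fun x hx => by
      rcases hz x hx with h1 | h1
      · simp [h1.1]
      · simp [h1.1]
  have hpd : ∀ d e x, pd e (fun y => h y * pd d s y) x
      = pd e h x * pd d s x + h x * pd e (pd d s) x := fun d e x =>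
    pd_mul e (hh.differentiable (by norm_num) x) ((hds d).differentiable (by norm_num) x)
  have iA : ∀ d, Integrable fun x => rho φ x * (x d * (h x * pd d s x)) := fun d =>
    egreen_int hK (hρ.mul ((hco d).mul (hN d).continuous)) fun x hx => by
      rcases hz x hx with h1 | h1
      · simp [h1.1]
      · simp [h1.1]
  have iB : ∀ d, Integrable fun x =>
      rho φ x * ∑ e, τ x d e * pd e (fun y => h y * pd d s y) x := fun d =>
    egreen_int hK (hρ.mul (continuous_finsetSum _ fun e _ =>
      (hM.continuous d e).mul (continuous_pd (hN d) e))) fun x hx => by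
      simp only [hpd]
      rcases hz x hx with h1 | h1
      · simp [h1.1, h1.2]
      · simp [h1.1, h1.2]
  have iG : Integrable fun x => rho φ x * (grad h x ⬝ᵥ (τ x *ᵥ grad s x)) := by
    refine egreen_int hK (hρ.mul ?_) fun x hx => ?_
    · simp only [dotProduct, Matrix.mulVec, grad]
      exact continuous_finsetSum _ fun e _ => (continuous_pd hh e).mul
        (continuous_finsetSum _ fun d _ => (hM.continuous e d).mul (continuous_pd hs1 d))
    · simp only [dotProduct, Matrix.mulVec, grad]
      rcases hz x hx with h1 | h1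
      · simp [h1.2]
      · simp [h1.1]
  have key : ∀ x, rho φ x * (h x * Lop τ s x) =
      ((∑ d, rho φ x * ∑ e, τ x d e * pd e (fun y => h y * pd d s y) x)
        - ∑ d, rho φ x * (x d * (h x * pd d s x)))
        - rho φ x * (grad h x ⬝ᵥ (τ x *ᵥ grad s x)) := by
    intro x
    simp only [hpd, Lop, dotProduct, Matrix.mulVec, grad, hess, Matrix.of_apply]
    rw [← Finset.mul_sum, ← Finset.mul_sum, ← mul_sub, ← mul_sub]
    congr 1
    have e1 : ∑ d, ∑ e, τ x d e * (pd e h x * pd d s x + h x * pd e (pd d s) x)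
        = ∑ i, pd i h x * ∑ j, τ x i j * pd j s x + h x * ∑ i, ∑ j, τ x i j * pd i (pd j s) x := by
      simp only [mul_add, Finset.sum_add_distrib, Finset.mul_sum]
      congr 1
      · rw [Finset.sum_comm]
        refine Finset.sum_congr rfl fun i _ => Finset.sum_congr rfl fun j _ => ?_
        rw [(hM.ell x).symm j i]; ring
      · rw [Finset.sum_comm]
        refine Finset.sum_congr rfl fun i _ => Finset.sum_congr rfl fun j _ => ?_
        rw [(hM.ell x).symm j i]; ring
    have e2 : ∑ d, x d * (h x * pd d s x) = h x * ∑ i, x i * pd i s x := by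
      rw [Finset.mul_sum]
      exact Finset.sum_congr rfl fun i _ => by ring
    rw [e1, e2]; ring
  simp only [key]
  have iBA : Integrable fun x =>
      ((∑ d, rho φ x * ∑ e, τ x d e * pd e (fun y => h y * pd d s y) x)
        - ∑ d, rho φ x * (x d * (h x * pd d s x))) :=
    (integrable_finsetSum _ fun d _ => iB d).sub (integrable_finsetSum _ fun d _ => iA d)
  rw [integral_sub iBA iG,
    integral_sub (integrable_finsetSum _ fun d _ => iB d)
      (integrable_finsetSum _ fun d _ => iA d),
    integral_finsetSum _ fun d _ => iB d, integral_finsetSum _ fun d _ => iA d]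
  have hst : ∀ d, ∫ x, rho φ x * (x d * (h x * pd d s x)) =
      ∫ x, rho φ x * ∑ e, τ x d e * pd e (fun y => h y * pd d s y) x :=
    fun d => hM.stein _ (hN d) (hNc d) d
  simp only [hst]
  ring

theorem integral_Lop (hP : Pot α β φ) (hM : MS φ c C τ U) {s : E n → ℝ} (hs : ContDiff ℝ 2 s)
    (hc : HasCompactSupport s) : ∫ x, rho φ x * Lop τ s x = 0 := by
  have h := green hP hM (h := fun _ => (1 : ℝ)) contDiff_const hs (Or.inr hc)
  have h0 : ∀ x : E n, grad (fun _ : E n => (1 : ℝ)) x = 0 := fun x =>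
    funext fun i => pd_const i 1 x
  simpa [h0] using h

theorem stein_pt (hP : Pot α β φ) (hM : MS φ c C τ U) (x : E n) (d : Fin n) :
    ∑ e, pd e (fun y => τ y d e) x - ∑ e, τ x d e * pd e φ x = -x d := by
  have hφ1 : ContDiff ℝ 1 φ := hP.cd.of_le (by norm_num)
  have hρ := hP.continuous_rho
  have hco : Continuous fun y : E n => y d := (contDiff_coord (m := 0) d).continuous
  have hf : ∀ e, ContDiff ℝ 1 fun y => rho φ y * τ y d e :=
    fun e => (contDiff_rho hφ1).mul (hM.cd d e)
  have hpd : ∀ e y, pd e (fun y => rho φ y * τ y d e) y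
      = rho φ y * (pd e (fun z => τ z d e) y - τ y d e * pd e φ y) := by
    intro e y
    rw [pd_mul e ((contDiff_rho hφ1).differentiable (by norm_num) y)
      ((hM.cd d e).differentiable (by norm_num) y),
      pd_rho e (hφ1.differentiable (by norm_num) y)]
    ring
  have hA : Continuous fun y : E n =>
      rho φ y * y d + ∑ e, pd e (fun y => rho φ y * τ y d e) y :=
    (hρ.mul hco).add (continuous_finsetSum _ fun e _ => continuous_pd (hf e) e)
  have hz := eq_zero_of_tst hA (fun N hN => by
    have hN1 : ContDiff ℝ 1 N := hN.cd.of_le (by exact_mod_cast le_top)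
    have hK := hN.cs.isCompact
    have i1 : Integrable fun y : E n => rho φ y * (y d * N y) :=
      egreen_int hK (hρ.mul (hco.mul hN1.continuous)) fun y hy => by
        simp [image_eq_zero_of_notMem_tsupport hy]
    have i2 : ∀ e, Integrable fun y : E n => pd e (fun y => rho φ y * τ y d e) y * N y :=
      fun e => egreen_int hK ((continuous_pd (hf e) e).mul hN1.continuous) fun y hy => by
        simp [image_eq_zero_of_notMem_tsupport hy]
    have i3 : ∀ e, Integrable fun y : E n => rho φ y * τ y d e * pd e N y :=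
      fun e => egreen_int hK ((hf e).continuous.mul (continuous_pd hN1 e)) fun y hy => by
        simp [pd_eq_zero hy]
    have e1 : ∀ y : E n, (rho φ y * y d + ∑ e, pd e (fun y => rho φ y * τ y d e) y) * N y
        = rho φ y * (y d * N y) + ∑ e, pd e (fun y => rho φ y * τ y d e) y * N y := by
      intro y; rw [add_mul, Finset.sum_mul]; ring
    have e2 : ∀ y : E n, rho φ y * ∑ e, τ y d e * pd e N y
        = ∑ e, rho φ y * τ y d e * pd e N y := by
      intro y; rw [Finset.mul_sum]; exact Finset.sum_congr rfl fun e _ => by ring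
    simp only [e1]
    rw [integral_add i1 (integrable_finsetSum _ fun e _ => i2 e),
      integral_finsetSum _ fun e _ => i2 e, hM.stein N hN1 hN.cs d]
    simp only [e2]
    rw [integral_finsetSum _ fun e _ => i3 e, ← Finset.sum_add_distrib]
    refine Finset.sum_eq_zero fun e _ => ?_
    rw [ibp (hf e) hN1 (Or.inr hN.cs) e]
    ring) x
  simp only [hpd] at hz
  rw [← Finset.mul_sum, ← mul_add, Finset.sum_sub_distrib] at hz
  have h2 := (mul_eq_zero.1 hz).resolve_left (rho_pos φ x).ne'
  linarith

theorem trU (hP : Pot α β φ) (hM : MS φ c C τ U) (x : E n) (d : Fin n) :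
    ∑ i, τ x d i * (τ x * U x i).trace = ∑ e, τ x d e * pd e φ x - x d := by
  have h := stein_pt hP hM x d
  have e : ∑ i, τ x d i * (τ x * U x i).trace = ∑ e, pd e (fun y => τ y d e) x := by
    simp only [hM.pd_entry, Matrix.trace, Matrix.diag, Matrix.mul_apply, Finset.mul_sum,
      Finset.sum_mul]
    rw [Finset.sum_comm]
    refine Finset.sum_congr rfl fun e _ => ?_
    rw [Finset.sum_comm]
    refine Finset.sum_congr rfl fun b _ => Finset.sum_congr rfl fun a _ => ?_
    rw [hM.Usym2 x e a b, hM.Usym1 x a e b, (hM.ell x).symm e b]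
    ring
  rw [e]; linarith

theorem stein_poly (hP : Pot α β φ) (hM : MS φ c C τ U) {N : E n → ℝ} (hN : ContDiff ℝ 1 N)
    (h0 : PolyG N) (h1 : ∀ e, PolyG (pd e N)) (d : Fin n) :
    ∫ x, rho φ x * (x d * N x) = ∫ x, rho φ x * ∑ e, τ x d e * pd e N x := by
  obtain ⟨D, hD0, hD⟩ := pd_cut_le n
  have hρ := hP.continuous_rho
  have hco : Continuous fun y : E n => y d := (contDiff_coord (m := 0) d).continuous
  have hRpos : ∀ k : ℕ, (0 : ℝ) < k + 1 := fun k => by positivity
  have hc1 : ∀ k : ℕ, ContDiff ℝ 1 (cut ((k : ℝ) + 1) : E n → ℝ) :=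
    fun k => (contDiff_cut _).of_le (by exact_mod_cast le_top)
  have hNk : ∀ k : ℕ, ContDiff ℝ 1 fun y => cut ((k : ℝ) + 1) y * N y :=
    fun k => (hc1 k).mul hN
  have hpd : ∀ (k : ℕ) e x, pd e (fun y => cut ((k : ℝ) + 1) y * N y) x
      = pd e (cut ((k : ℝ) + 1)) x * N x + cut ((k : ℝ) + 1) x * pd e N x := fun k e x =>
    pd_mul e ((hc1 k).differentiable (by norm_num) x) (hN.differentiable (by norm_num) x)
  have hst : ∀ k : ℕ, ∫ x, rho φ x * (x d * (cut ((k : ℝ) + 1) x * N x))
      = ∫ x, rho φ x * ∑ e, τ x d e * pd e (fun y => cut ((k : ℝ) + 1) y * N y) x :=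
    fun k => hM.stein _ (hNk k) ((tst_cut (hRpos k)).cs.mul_right) d
  have hev : ∀ x : E n, ∀ᶠ k : ℕ in Filter.atTop, ‖x‖ < (k : ℝ) + 1 := by
    intro x
    filter_upwards [Filter.eventually_ge_atTop ⌈‖x‖⌉₊] with k hk
    have h1 : (⌈‖x‖⌉₊ : ℝ) ≤ k := by exact_mod_cast hk
    have h2 := Nat.le_ceil ‖x‖
    linarith
  have hcabs : ∀ (k : ℕ) (x : E n), |cut ((k : ℝ) + 1) x| ≤ 1 := fun k x => by
    rw [abs_of_nonneg (cut_nonneg _ _)]; exact cut_le_one _ _
  have t1 : Filter.Tendsto (fun k : ℕ => ∫ x, rho φ x * (x d * (cut ((k : ℝ) + 1) x * N x)))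
      Filter.atTop (nhds (∫ x, rho φ x * (x d * N x))) := by
    have hint : Integrable fun x : E n => rho φ x * (x d * N x) :=
      hP.integrable (hco.mul hN.continuous).aestronglyMeasurable ((polyG_coord d).mul h0)
    refine tendsto_integral_of_dominated_convergence (fun x => ‖rho φ x * (x d * N x)‖)
      (fun k => (hρ.mul (hco.mul (hNk k).continuous)).aestronglyMeasurable) hint.norm
      (fun k => Filter.Eventually.of_forall fun x => ?_)
      (Filter.Eventually.of_forall fun x => ?_)
    · have : rho φ x * (x d * (cut ((k : ℝ) + 1) x * N x))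
          = cut ((k : ℝ) + 1) x * (rho φ x * (x d * N x)) := by ring
      rw [this, norm_mul, Real.norm_eq_abs]
      exact mul_le_of_le_one_left (norm_nonneg _) (hcabs k x)
    · refine tendsto_const_nhds.congr' ?_
      filter_upwards [hev x] with k hk
      rw [cut_one (hRpos k) hk.le, one_mul]
  have t2 : Filter.Tendsto (fun k : ℕ =>
      ∫ x, rho φ x * ∑ e, τ x d e * pd e (fun y => cut ((k : ℝ) + 1) y * N y) x)
      Filter.atTop (nhds (∫ x, rho φ x * ∑ e, τ x d e * pd e N x)) := by
    have hpg : PolyG fun x : E n => ∑ e, C * (D * |N x| + |pd e N x|) :=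
      PolyG.sum _ fun e _ => (polyG_of_bdd (f := fun _ => C) (M := |C|) fun _ => le_rfl).mul
        (((polyG_of_bdd (f := fun _ => D) (M := |D|) fun _ => le_rfl).mul
          (h0.of_le fun x => by rw [abs_abs])).add ((h1 e).of_le fun x => by rw [abs_abs]))
    have hcont : Continuous fun x : E n => ∑ e, C * (D * |N x| + |pd e N x|) :=
      continuous_finsetSum _ fun e _ => continuous_const.mul
        ((continuous_const.mul hN.continuous.abs).add (continuous_pd hN e).abs)
    have hint := hP.integrable hcont.aestronglyMeasurable hpg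
    refine tendsto_integral_of_dominated_convergence _
      (fun k => (hρ.mul (continuous_finsetSum _ fun e _ =>
        (hM.continuous d e).mul (continuous_pd (hNk k) e))).aestronglyMeasurable) hint
      (fun k => Filter.Eventually.of_forall fun x => ?_)
      (Filter.Eventually.of_forall fun x => ?_)
    · rw [norm_mul, Real.norm_eq_abs, Real.norm_eq_abs, abs_of_pos (rho_pos φ x)]
      refine mul_le_mul_of_nonneg_left ?_ (rho_pos φ x).le
      refine (Finset.abs_sum_le_sum_abs _ _).trans (Finset.sum_le_sum fun e _ => ?_)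
      rw [abs_mul, hpd]
      refine mul_le_mul (hM.entry_le x d e) ?_ (abs_nonneg _) (hM.cpos.le.trans hM.cle)
      refine (abs_add_le _ _).trans (add_le_add ?_ ?_)
      · rw [abs_mul]
        refine mul_le_mul_of_nonneg_right ((hD _ (hRpos k) x e).trans ?_) (abs_nonneg _)
        refine div_le_self hD0 ?_
        have : (0 : ℝ) ≤ k := Nat.cast_nonneg k
        linarith
      · rw [abs_mul]
        exact mul_le_of_le_one_left (abs_nonneg _) (hcabs k x)
    · refine tendsto_const_nhds.congr' ?_
      filter_upwards [hev x] with k hk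
      simp only [hpd, cut_one (hRpos k) hk.le, pd_cut_in (hRpos k) hk, one_mul, zero_mul, zero_add]
  simp only [hst] at t1
  exact tendsto_nhds_unique t1 t2

theorem Lam_eq (hM : MS φ c C τ U) {s : E n → ℝ} (hs : ContDiff ℝ 3 s) (x : E n) (a : Fin n) :
    Lam τ s x a = Avec τ s x a + (U x a * (τ x * hess s x * τ x)).trace := by
  have hs2 : ContDiff ℝ 2 s := hs.of_le (by norm_num)
  have hH : ∀ i j, ContDiff ℝ 1 fun y => hess s y i j :=
    fun i j => contDiff_hess hs (by norm_num) i j
  have hP1 : ∀ i, ContDiff ℝ 1 (pd i s) := fun i => contDiff_pd hs (by norm_num) i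
  have hco : ∀ i, ContDiff ℝ 1 fun y : E n => y i := fun i => contDiff_coord i
  have d1 : ∀ {f : E n → ℝ}, ContDiff ℝ 1 f → DifferentiableAt ℝ f x :=
    fun hf => hf.differentiable (by norm_num) x
  have hA : ContDiff ℝ 1 fun y => ∑ i, ∑ j, τ y i j * hess s y i j :=
    ContDiff.sum fun i _ => ContDiff.sum fun j _ => (hM.cd i j).mul (hH i j)
  have hB : ContDiff ℝ 1 fun y : E n => ∑ i, y i * pd i s y :=
    ContDiff.sum fun i _ => (hco i).mul (hP1 i)
  have eA : pd a (fun y => ∑ i, ∑ j, τ y i j * hess s y i j) x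
      = (U x a * (τ x * hess s x * τ x)).trace + ∑ i, ∑ j, τ x i j * hess (pd a s) x i j := by
    rw [pd_sum _ a fun i _ => d1 (ContDiff.sum fun j _ => (hM.cd i j).mul (hH i j))]
    have e1 : (U x a * (τ x * hess s x * τ x)).trace
        = ∑ i, ∑ j, (τ x * U x a * τ x) i j * hess s x i j := by
      have : U x a * (τ x * hess s x * τ x) = (U x a * τ x * hess s x) * τ x := by
        simp only [Matrix.mul_assoc]
      rw [this, Matrix.trace_mul_comm, ← Matrix.mul_assoc, ← Matrix.mul_assoc]
      generalize τ x * U x a * τ x = M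
      simp only [Matrix.trace, Matrix.diag, Matrix.mul_apply]
      refine Finset.sum_congr rfl fun i _ => Finset.sum_congr rfl fun j _ => ?_
      rw [hess_symm hs2 x i j]
    rw [e1, ← Finset.sum_add_distrib]
    refine Finset.sum_congr rfl fun i _ => ?_
    rw [pd_sum _ a fun j _ => d1 ((hM.cd i j).mul (hH i j)), ← Finset.sum_add_distrib]
    refine Finset.sum_congr rfl fun j _ => ?_
    rw [pd_mul a (d1 (hM.cd i j)) (d1 (hH i j)), hM.pd_entry, ← pdM_hess hs a x]
    rfl
  have eB : pd a (fun y : E n => ∑ i, y i * pd i s y) x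
      = pd a s x + ∑ i, x i * pd i (pd a s) x := by
    rw [pd_sum _ a fun i _ => d1 ((hco i).mul (hP1 i))]
    have : ∀ i, pd a (fun y : E n => y i * pd i s y) x
        = (if a = i then pd i s x else 0) + x i * pd i (pd a s) x := by
      intro i
      rw [pd_mul a (d1 (hco i)) (d1 (hP1 i)), pd_coord, pd_comm hs2 a i x]
      split_ifs <;> simp
    simp only [this, Finset.sum_add_distrib, Finset.sum_ite_eq, Finset.mem_univ, if_true]
  unfold Lam Avec
  rw [pd_add a (d1 (contDiff_Lop hM hs)) (egreen_d2 hs2 x)]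
  have eL : pd a (Lop τ s) x = pd a (fun y => ∑ i, ∑ j, τ y i j * hess s y i j) x
      - pd a (fun y : E n => ∑ i, y i * pd i s y) x := pd_sub a (d1 hA) (d1 hB)
  rw [eL, eA, eB]
  unfold Lop
  ring

theorem continuous_Avec (hM : MS φ c C τ U) {s : E n → ℝ} (hs : ContDiff ℝ 3 s) (a : Fin n) :
    Continuous fun x => Avec τ s x a := by
  exact continuous_Lop hM (contDiff_pd hs (by norm_num) a)

theorem continuous_Lam (hM : MS φ c C τ U) {s : E n → ℝ} (hs : ContDiff ℝ 3 s) (a : Fin n) :
    Continuous fun x => Lam τ s x a := by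
  exact continuous_pd ((contDiff_Lop hM hs).add (hs.of_le (by norm_num))) a

theorem contDiff_xi (hM : MS φ c C τ U) {w : E n → ℝ} (hw : ContDiff ℝ 2 w) (a : Fin n) :
    ContDiff ℝ 1 (xi τ w a) := by
  unfold xi
  exact ContDiff.sum fun e _ => (hM.cd a e).mul (contDiff_pd hw (by norm_num) e)

theorem tsupport_xi (w : E n → ℝ) (a : Fin n) : tsupport (xi τ w a) ⊆ tsupport w := by
  refine closure_minimal (fun x hx => ?_) (isClosed_tsupport w)
  by_contra h
  apply hx
  unfold xi
  simp [pd_eq_zero h]

theorem Lop_eq_div (hP : Pot α β φ) (hM : MS φ c C τ U) {w : E n → ℝ} (hw : ContDiff ℝ 2 w)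
    (x : E n) : Lop τ w x = ∑ a, (pd a (xi τ w a) x - pd a φ x * xi τ w a x) := by
  have hst := stein_pt hP hM x
  have e1 : ∀ a, pd a (xi τ w a) x - pd a φ x * xi τ w a x
      = ∑ e, τ x a e * hess w x a e
        + ∑ e, (pd a (fun y => τ y e a) x - τ x e a * pd a φ x) * pd e w x := by
    intro a
    rw [egreen_pd_xi hM hw x a a]
    unfold xi
    rw [Finset.mul_sum, ← Finset.sum_sub_distrib, ← Finset.sum_add_distrib]
    refine Finset.sum_congr rfl fun e _ => ?_
    have : (fun y => τ y e a) = fun y => τ y a e := funext fun y => (hM.ell y).symm e a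
    rw [this, (hM.ell x).symm e a]
    ring
  simp only [e1]
  rw [Finset.sum_add_distrib, Finset.sum_comm (f := fun a e =>
    (pd a (fun y => τ y e a) x - τ x e a * pd a φ x) * pd e w x)]
  unfold Lop
  rw [sub_eq_add_neg, ← Finset.sum_neg_distrib]
  congr 1
  refine Finset.sum_congr rfl fun e _ => ?_
  rw [← Finset.sum_mul, Finset.sum_sub_distrib, hst e]
  ring

/-- `Dξ = τ Y` with `Y = hess w + (U_{bij} ξ^j)` symmetric -/
theorem Dxi_eq (hM : MS φ c C τ U) {w : E n → ℝ} (hw : ContDiff ℝ 2 w) (x : E n) :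
    ∃ Y : Mat n, (∀ i j, Y i j = Y j i) ∧ Dxi τ w x = τ x * Y := by
  refine ⟨Matrix.of fun i b => hess w x b i + ∑ j, U x b i j * xi τ w j x, fun i j => ?_, ?_⟩
  · simp only [Matrix.of_apply]
    rw [hess_symm hw x j i]
    congr 1
    exact Finset.sum_congr rfl fun k _ => by rw [hM.Usym2 x j i k]
  · ext a b
    simp only [Dxi, Matrix.of_apply]
    rw [egreen_pd_xi hM hw x b a]
    simp only [hM.pd_entry, Matrix.mul_apply, Matrix.of_apply, xi, mul_add,
      Finset.sum_add_distrib, Finset.mul_sum, Finset.sum_mul]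
    rw [add_comm]
    congr 1
    rw [Finset.sum_comm]
    rw [Finset.sum_comm (f := fun i j => ∑ e, τ x a i * (U x b i j * (τ x j e * pd e w x)))]
    refine Finset.sum_congr rfl fun j _ => ?_
    rw [Finset.sum_comm]
    refine Finset.sum_congr rfl fun i _ => Finset.sum_congr rfl fun e _ => by ring

end Crest.Agent.R238
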