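import Crest.Agent.R238.Calc

/-!
# R238 / EMol: mollifier API

`mol ε g = kern ε ⋆ g` (Mathlib convolution with `ContinuousLinearMap.lsmul ℝ ℝ`, see
`convolution_lsmul_swap`/`HasCompactSupport.contDiff_convolution_left`,
`HasCompactSupport.hasFDerivAt_convolution_left`; cf. `Crest/Agent/R214/Moll.lean`).
`schur`: Cauchy–Schwarz `(∫ k(x-y)|g y|)² ≤ (∫k) ∫ k(x-y) g y²`, then Fubini.
-/

set_option autoImplicit false
open MeasureTheory Matrix Set Metric
open scoped RealInnerProductSpace ContDiff BigOperators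

namespace Crest.Agent.R238

variable {n : ℕ}

theorem kern_nonneg {ε : ℝ} (hε : 0 < ε) (z : E n) : 0 ≤ kern ε z := by
  exact mul_nonneg (inv_nonneg.2 (pow_nonneg hε.le n)) ((bump0 n).nonneg_normed _)

theorem kern_neg (ε : ℝ) (z : E n) : kern ε (-z) = kern ε z := by
  simp only [kern, smul_neg, ContDiffBump.normed_neg]

theorem contDiff_kern (ε : ℝ) : ContDiff ℝ ∞ (kern ε : E n → ℝ) := by
  exact contDiff_const.mul ((bump0 n).contDiff_normed.comp (contDiff_id.const_smul ε⁻¹))

theorem kern_zero {ε : ℝ} (hε : 0 < ε) {z : E n} (hz : ε ≤ ‖z‖) : kern ε z = 0 := by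
  have h : ε⁻¹ • z ∉ Function.support ((bump0 n).normed volume) := by
    rw [ContDiffBump.support_normed_eq, mem_ball_zero_iff, norm_smul, norm_inv, Real.norm_of_nonneg hε.le,
      not_lt]
    show 1 ≤ ε⁻¹ * ‖z‖
    rw [← div_eq_inv_mul, one_le_div hε]
    exact hz
  rw [kern, Function.notMem_support.1 h, mul_zero]

theorem pd_kern_zero {ε : ℝ} (hε : 0 < ε) {z : E n} (hz : ε ≤ ‖z‖) (e : Fin n) :
    pd e (kern ε) z = 0 := by
  have h : IsLocalMin (kern ε) z := Filter.Eventually.of_forall fun y => by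
    rw [kern_zero hε hz]
    exact kern_nonneg hε y
  rw [pd, h.fderiv_eq_zero]
  rfl

theorem tst_kern {ε : ℝ} (hε : 0 < ε) : Tst (kern ε : E n → ℝ) := by
  exact ⟨contDiff_kern ε, HasCompactSupport.intro (isCompact_closedBall 0 ε) fun x hx =>
    kern_zero hε (not_le.1 fun h => hx (mem_closedBall_zero_iff.2 h)).le⟩

theorem emol_scale {ε : ℝ} (hε : 0 < ε) (F : E n → ℝ) : ∫ z : E n, (ε ^ n)⁻¹ * F (ε⁻¹ • z) = ∫ z, F z := by
  rw [integral_const_mul, Measure.integral_comp_inv_smul_of_nonneg volume F hε.le, finrank_euclideanSpace_fin,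
    smul_eq_mul, ← mul_assoc, inv_mul_cancel₀ (pow_pos hε n).ne', one_mul]

theorem integral_kern {ε : ℝ} (hε : 0 < ε) : ∫ z : E n, kern ε z = 1 := by
  exact (emol_scale hε _).trans (bump0 n).integral_normed

/-- scale invariance of `∫ |∂k_ε| |z|` -/
theorem kern_grad (n : ℕ) : ∃ D : ℝ, 0 ≤ D ∧ ∀ ε : ℝ, 0 < ε → ∀ e : Fin n,
    ∫ z : E n, |pd e (kern ε) z| * ‖z‖ ≤ D := by
  have h0 : ∀ e : Fin n, 0 ≤ ∫ z : E n, |pd e ((bump0 n).normed volume) z| * ‖z‖ := fun e =>
    integral_nonneg fun z => mul_nonneg (abs_nonneg _) (norm_nonneg _)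
  refine ⟨∑ e : Fin n, ∫ z : E n, |pd e ((bump0 n).normed volume) z| * ‖z‖, Finset.sum_nonneg fun e _ => h0 e,
    fun ε hε e => le_trans (le_of_eq ?_) (Finset.single_le_sum (fun e _ => h0 e) (Finset.mem_univ e))⟩
  rw [← emol_scale hε fun z => |pd e ((bump0 n).normed volume) z| * ‖z‖]
  refine integral_congr_ae (Filter.Eventually.of_forall fun z => ?_)
  have hd : HasFDerivAt (fun z : E n => (bump0 n).normed volume (ε⁻¹ • z))
      ((fderiv ℝ ((bump0 n).normed volume) (ε⁻¹ • z)).comp (ε⁻¹ • ContinuousLinearMap.id ℝ (E n))) z :=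
    (((bump0 n).contDiff_normed (n := 1)).differentiable one_ne_zero _).hasFDerivAt.comp z
      ((hasFDerivAt_id z).const_smul ε⁻¹)
  have e1 : pd e (kern ε) z = (ε ^ n)⁻¹ * (ε⁻¹ * pd e ((bump0 n).normed volume) (ε⁻¹ • z)) := by
    refine (pd_const_mul e _ _ z).trans ?_
    simp only [pd, hd.fderiv]
    simp
  simp only [e1, abs_mul, norm_smul, norm_inv, Real.norm_of_nonneg hε.le, abs_inv, abs_of_pos hε,
    abs_of_pos (pow_pos hε n)]
  ring

theorem L2loc.locInt {g : E n → ℝ} (h : L2loc g) : LocallyIntegrable g := by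
  intro x
  refine ⟨ball 0 (‖x‖ + 1), isOpen_ball.mem_nhds (mem_ball_zero_iff.2 (lt_add_one _)), ?_⟩
  refine ((h.2 (‖x‖ + 1)).add (integrableOn_const (C := (1 : ℝ)) measure_ball_lt_top.ne)).mono' h.1.restrict
    (Filter.Eventually.of_forall fun y => ?_)
  simp only [Pi.add_apply, Real.norm_eq_abs]
  nlinarith [sq_nonneg (|g y| - 1), sq_abs (g y), abs_nonneg (g y)]

theorem l2loc_of_continuous {g : E n → ℝ} (h : Continuous g) : L2loc g := by
  exact ⟨h.aestronglyMeasurable, fun R =>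
    ((h.pow 2).continuousOn.integrableOn_compact (isCompact_closedBall 0 R)).mono_set ball_subset_closedBall⟩

theorem L2loc.add {f g : E n → ℝ} (hf : L2loc f) (hg : L2loc g) : L2loc fun x => f x + g x := by
  refine ⟨hf.1.add hg.1, fun R => (((hf.2 R).const_mul 2).add ((hg.2 R).const_mul 2)).mono'
    ((hf.1.add hg.1).pow 2).restrict (Filter.Eventually.of_forall fun y => ?_)⟩
  simp only [Pi.add_apply, Real.norm_eq_abs, abs_pow, sq_abs]
  nlinarith [sq_nonneg (f y - g y)]

theorem L2loc.sub {f g : E n → ℝ} (hf : L2loc f) (hg : L2loc g) : L2loc fun x => f x - g x := by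
  refine ⟨hf.1.sub hg.1, fun R => (((hf.2 R).const_mul 2).add ((hg.2 R).const_mul 2)).mono'
    ((hf.1.sub hg.1).pow 2).restrict (Filter.Eventually.of_forall fun y => ?_)⟩
  simp only [Pi.add_apply, Real.norm_eq_abs, abs_pow, sq_abs]
  nlinarith [sq_nonneg (f y + g y)]

theorem L2loc.mul {a g : E n → ℝ} (ha : Continuous a) (hg : L2loc g) :
    L2loc fun x => a x * g x := by
  refine ⟨ha.aestronglyMeasurable.mul hg.1, fun R => ?_⟩
  simp only [mul_pow]
  exact IntegrableOn.continuousOn_mul_of_subset (ha.pow 2).continuousOn (hg.2 R) (isCompact_closedBall 0 R)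
    measurableSet_ball ball_subset_closedBall

theorem emol_eq (ε : ℝ) (g : E n → ℝ) :
    mol ε g = convolution g (kern ε) (ContinuousLinearMap.mul ℝ ℝ) volume := by
  funext x
  simp only [mol, convolution_def, ContinuousLinearMap.mul_apply', mul_comm]

theorem emol_cd (ε : ℝ) (x : E n) : ContDiff ℝ 1 fun y => kern ε (x - y) :=
  ((contDiff_kern ε).of_le (by norm_cast)).comp (contDiff_const.sub contDiff_id)

theorem emol_cs {ε : ℝ} (hε : 0 < ε) (x : E n) : HasCompactSupport fun y => kern ε (x - y) :=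
  HasCompactSupport.intro (isCompact_closedBall x ε) fun y hy =>
    kern_zero hε (not_le.1 fun h => hy (mem_closedBall'.2 (by rwa [dist_eq_norm]))).le

theorem emol_int {ε : ℝ} (hε : 0 < ε) {g : E n → ℝ} (hg : LocallyIntegrable g) (x : E n) :
    Integrable fun y => kern ε (x - y) * g y :=
  hg.integrable_smul_left_of_hasCompactSupport (emol_cd ε x).continuous (emol_cs hε x)

theorem emol_pd (k : E n → ℝ) (x y : E n) (e : Fin n) : pd e (fun y => k (x - y)) y = -pd e k (x - y) := by
  have h := pd_neg_arg e (fun z => k (z + x)) y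
  simp only [pd_translate, neg_add_eq_sub] at h
  exact h

theorem emol_one {ε : ℝ} (hε : 0 < ε) (x : E n) : ∫ y, kern ε (x - y) = 1 :=
  (integral_sub_left_eq_self (kern ε) volume x).trans (integral_kern hε)

theorem contDiff_mol {ε : ℝ} (hε : 0 < ε) {g : E n → ℝ} (hg : LocallyIntegrable g) :
    ContDiff ℝ ∞ (mol ε g) := by
  rw [emol_eq]
  exact (tst_kern hε).cs.contDiff_convolution_right _ hg (contDiff_kern ε)

theorem pd_mol {ε : ℝ} (hε : 0 < ε) {g : E n → ℝ} (hg : LocallyIntegrable g) (e : Fin n)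
    (x : E n) : pd e (mol ε g) x = ∫ y, pd e (kern ε) (x - y) * g y := by
  have h1 : ContDiff ℝ 1 (kern ε : E n → ℝ) := (contDiff_kern ε).of_le (by norm_cast)
  rw [emol_eq, pd, ((tst_kern hε).cs.hasFDerivAt_convolution_right _ hg h1 x).fderiv,
    convolution_precompR_apply _ hg ((tst_kern hε).cs.fderiv ℝ) (h1.continuous_fderiv one_ne_zero)]
  simp only [convolution_def, ContinuousLinearMap.mul_apply', mul_comm, pd]

theorem pd_mol_C1 {ε : ℝ} (hε : 0 < ε) {g : E n → ℝ} (hg : ContDiff ℝ 1 g) (e : Fin n) :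
    pd e (mol ε g) = mol ε (pd e g) := by
  funext x
  rw [pd_mol hε hg.continuous.locallyIntegrable, mol, ibp (emol_cd ε x) hg (Or.inl (emol_cs hε x)), ← integral_neg]
  simp only [emol_pd, neg_mul, neg_neg]

/-- for Lipschitz `g` (use `LipschitzWith.integral_lineDeriv_mul_eq` and Rademacher) -/
theorem pd_mol_lip {ε : ℝ} (hε : 0 < ε) {g : E n → ℝ} {K : NNReal} (hg : LipschitzWith K g)
    (e : Fin n) : pd e (mol ε g) = mol ε (pd e g) := by
  funext x
  obtain ⟨D, hD⟩ := (emol_cd ε x).lipschitzWith_of_hasCompactSupport (emol_cs hε x) one_ne_zero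
  have h := hg.integral_lineDeriv_mul_eq (μ := volume) hD (emol_cs hε x) (ee e)
  rw [pd_mol hε hg.continuous.locallyIntegrable, mol]
  have e1 : ∀ y, lineDeriv ℝ (fun y => kern ε (x - y)) y (-ee e) = pd e (kern ε) (x - y) := by
    intro y
    rw [((emol_cd ε x).differentiable one_ne_zero y).lineDeriv_eq_fderiv, map_neg]
    exact neg_eq_iff_eq_neg.2 (emol_pd _ x y e)
  simp only [e1] at h
  rw [← h]
  refine integral_congr_ae ((hg.ae_differentiableAt (μ := volume)).mono fun y hy => ?_)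
  simp only [hy.lineDeriv_eq_fderiv, pd, mul_comm]

theorem mol_zero_of {ε R : ℝ} (hε : 0 < ε) {g : E n → ℝ} (hg : ∀ y, R ≤ ‖y‖ → g y = 0) {x : E n}
    (hx : R + ε ≤ ‖x‖) : mol ε g x = 0 := by
  refine integral_eq_zero_of_ae (Filter.Eventually.of_forall fun y => ?_)
  by_cases h : R ≤ ‖y‖
  · simp [hg y h]
  · have h1 := norm_sub_norm_le x y
    simp [kern_zero hε (show ε ≤ ‖x - y‖ by linarith [not_le.1 h])]

theorem cs_mol {ε : ℝ} (hε : 0 < ε) {g : E n → ℝ} (hg : HasCompactSupport g) :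
    HasCompactSupport (mol ε g) := by
  obtain ⟨R, hR⟩ := hg.isCompact.isBounded.subset_ball 0
  refine HasCompactSupport.intro (isCompact_closedBall 0 (R + ε)) fun x hx =>
    mol_zero_of (R := R) hε (fun y hy => ?_) (not_le.1 fun h => hx (mem_closedBall_zero_iff.2 h)).le
  exact image_eq_zero_of_notMem_tsupport fun h => not_lt.2 hy (mem_ball_zero_iff.1 (hR h))

theorem mol_add {ε : ℝ} (hε : 0 < ε) {f g : E n → ℝ} (hf : LocallyIntegrable f)
    (hg : LocallyIntegrable g) : (mol ε fun y => f y + g y) = fun x => mol ε f x + mol ε g x := by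
  funext x
  simp only [mol, mul_add]
  exact integral_add (emol_int hε hf x) (emol_int hε hg x)

theorem mol_sub {ε : ℝ} (hε : 0 < ε) {f g : E n → ℝ} (hf : LocallyIntegrable f)
    (hg : LocallyIntegrable g) : (mol ε fun y => f y - g y) = fun x => mol ε f x - mol ε g x := by
  funext x
  simp only [mol, mul_sub]
  exact integral_sub (emol_int hε hf x) (emol_int hε hg x)

theorem mol_const_mul (ε k : ℝ) (f : E n → ℝ) :
    (mol ε fun y => k * f y) = fun x => k * mol ε f x := by
  funext x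
  simp only [mol, ← integral_const_mul, mul_left_comm]

theorem mol_sum {ε : ℝ} (hε : 0 < ε) {ι : Type*} (s : Finset ι) {f : ι → E n → ℝ}
    (hf : ∀ k ∈ s, LocallyIntegrable (f k)) :
    (mol ε fun y => ∑ k ∈ s, f k y) = fun x => ∑ k ∈ s, mol ε (f k) x := by
  funext x
  simp only [mol, Finset.mul_sum]
  exact integral_finsetSum s fun k hk => emol_int hε (hf k hk) x

theorem mol_const {ε : ℝ} (hε : 0 < ε) (k : ℝ) : (mol ε fun _ : E n => k) = fun _ => k := by
  funext x
  rw [mol, integral_mul_const, emol_one hε, one_mul]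

/-- `|mol ε g x - m| ≤ η` as soon as `|g - m| ≤ η` a.e. on `ball x ε` -/
theorem mol_close {ε : ℝ} (hε : 0 < ε) {g : E n → ℝ} (hg : LocallyIntegrable g) {x : E n}
    {m η : ℝ} (h : ∀ᵐ y : E n, y ∈ ball x ε → |g y - m| ≤ η) : |mol ε g x - m| ≤ η := by
  have i0 : Integrable fun y => kern ε (x - y) := (emol_cd ε x).continuous.integrable_of_hasCompactSupport (emol_cs hε x)
  have e1 : mol ε g x - m = ∫ y, kern ε (x - y) * (g y - m) := by
    simp only [mul_sub]
    rw [integral_sub (emol_int hε hg x) (i0.mul_const m), integral_mul_const, emol_one hε, one_mul, mol]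
  have e2 : η = ∫ y, kern ε (x - y) * η := by rw [integral_mul_const, emol_one hε, one_mul]
  rw [e1, e2, ← Real.norm_eq_abs]
  refine norm_integral_le_of_norm_le (i0.mul_const η) (h.mono fun y hy => ?_)
  rw [Real.norm_eq_abs, abs_mul, abs_of_nonneg (kern_nonneg hε _)]
  by_cases h1 : y ∈ ball x ε
  · exact mul_le_mul_of_nonneg_left (hy h1) (kern_nonneg hε _)
  · rw [kern_zero hε (not_lt.1 fun h2 => h1 (mem_ball'.2 (by rwa [dist_eq_norm]))), zero_mul, zero_mul]

theorem mol_unif {g : E n → ℝ} (hg : Continuous g) (R : ℝ) {η : ℝ} (hη : 0 < η) :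
    ∃ ε₀ : ℝ, 0 < ε₀ ∧ ∀ ε : ℝ, 0 < ε → ε ≤ ε₀ → ∀ x : E n, ‖x‖ ≤ R → |mol ε g x - g x| ≤ η := by
  obtain ⟨δ, hδ, h⟩ := Metric.uniformContinuousOn_iff.1
    ((isCompact_closedBall (0 : E n) (R + 1)).uniformContinuousOn_of_continuous hg.continuousOn) η hη
  refine ⟨min δ 1, lt_min hδ one_pos, fun ε hε h1 x hx =>
    mol_close hε hg.locallyIntegrable (Filter.Eventually.of_forall fun y hy => ?_)⟩
  have h2 : dist y x < min δ 1 := (mem_ball.1 hy).trans_le h1
  have h3 : ‖y‖ ≤ R + 1 := by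
    have h4 := norm_sub_norm_le y x
    rw [← dist_eq_norm] at h4
    linarith [min_le_right δ 1]
  exact (h y (mem_closedBall_zero_iff.2 h3) x (mem_closedBall_zero_iff.2 (by linarith))
    (h2.trans_le (min_le_left _ _))).le

theorem mol_adj {ε : ℝ} (hε : 0 < ε) {ζ g : E n → ℝ} (hζ : Continuous ζ)
    (hc : HasCompactSupport ζ) (hg : LocallyIntegrable g) :
    ∫ x, ζ x * mol ε g x = ∫ y, mol ε ζ y * g y := by
  obtain ⟨R, hR⟩ := hc.isCompact.isBounded.subset_ball 0
  have hz : ∀ x, R ≤ ‖x‖ → ζ x = 0 := fun x hx =>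
    image_eq_zero_of_notMem_tsupport fun h => not_lt.2 hx (mem_ball_zero_iff.1 (hR h))
  have i1 : Integrable ((closedBall (0 : E n) (R + ε)).indicator g) :=
    (integrable_indicator_iff measurableSet_closedBall).2 (hg.integrableOn_isCompact (isCompact_closedBall _ _))
  obtain ⟨M, hM⟩ := (contDiff_kern (n := n) ε).continuous.bounded_above_of_compact_support (tst_kern hε).cs
  have i2 := ((hζ.integrable_of_hasCompactSupport (μ := volume) hc).mul_prod i1).bdd_mul
    (f := fun p : E n × E n => kern ε (p.1 - p.2))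
    ((contDiff_kern ε).continuous.comp (continuous_fst.sub continuous_snd)).aestronglyMeasurable
    (Filter.Eventually.of_forall fun p => hM _)
  have i3 : Integrable (Function.uncurry fun x y : E n => ζ x * (kern ε (x - y) * g y)) (volume.prod volume) := by
    refine i2.congr (Filter.Eventually.of_forall fun p => ?_)
    simp only [Function.uncurry]
    by_cases h1 : p.2 ∈ closedBall (0 : E n) (R + ε)
    · rw [indicator_of_mem h1]
      ring
    · rw [indicator_of_notMem h1]
      by_cases h2 : R ≤ ‖p.1‖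
      · simp [hz _ h2]
      · have h3 := norm_sub_norm_le p.2 p.1
        rw [norm_sub_rev] at h3
        have h4 : R + ε < ‖p.2‖ := not_le.1 fun h => h1 (mem_closedBall_zero_iff.2 h)
        simp [kern_zero hε (show ε ≤ ‖p.1 - p.2‖ by linarith [not_le.1 h2])]
  simp only [mol, ← integral_const_mul, ← integral_mul_const]
  rw [integral_integral_swap i3]
  congr 1
  funext y
  congr 1
  funext x
  rw [← neg_sub y x, kern_neg]
  ring

end Crest.Agent.R238
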