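import Crest.Agent.R238.EMol

/-!
# R238 / EMolL2: `L²` estimates for mollifiers

`schur`: Cauchy–Schwarz `(∫ k(x-y)|g y|)² ≤ (∫k) ∫ k(x-y) g y²`, then Fubini.
`approx_L2`: `MemLp.exists_hasCompactSupport_eLpNorm_sub_le` (or the `integral_rpow` version) applied
to `indicator (ball 0 R) g`.  `mol_tendsto_L2`: `g = g' + (g-g')`, `mol_unif`, `mol_L2`.
-/

set_option autoImplicit false
open MeasureTheory Matrix Set Metric
open scoped RealInnerProductSpace ContDiff BigOperators

namespace Crest.Agent.R238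

variable {n : ℕ}

theorem emoll2_int {F : E n → ℝ} (hF : Continuous F) (R : ℝ) : IntegrableOn F (ball (0 : E n) R) :=
  (hF.continuousOn.integrableOn_compact (isCompact_closedBall 0 R)).mono_set ball_subset_closedBall

theorem schur {ε R : ℝ} (hε : 0 < ε) {k g F : E n → ℝ} (hk : Continuous k) (hk0 : ∀ z, 0 ≤ k z)
    (hks : ∀ z, ε ≤ ‖z‖ → k z = 0) (hg : L2loc g) (hF : Continuous F)
    (h : ∀ x ∈ ball (0 : E n) R, |F x| ≤ ∫ y, k (x - y) * |g y|) :
    ∫ x in ball (0 : E n) R, F x ^ 2 ≤ (∫ z, k z) ^ 2 * ∫ y in ball (0 : E n) (R + ε), g y ^ 2 := by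
  have hkc : HasCompactSupport k :=
    HasCompactSupport.intro (isCompact_closedBall 0 ε) fun z hz => hks z (le_of_lt (by simpa using hz))
  have hki : Integrable k := hk.integrable_of_hasCompactSupport hkc
  obtain ⟨M, hM⟩ := hk.bounded_above_of_compact_support hkc
  have hA : 0 ≤ ∫ z, k z := integral_nonneg hk0
  obtain ⟨G, hG⟩ : ∃ G : E n → ℝ, G = (ball (0 : E n) (R + ε)).indicator fun y => g y ^ 2 := ⟨_, rfl⟩
  have hGi : Integrable G := hG ▸ (integrable_indicator_iff measurableSet_ball).2 (hg.2 _)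
  have hG0 : ∀ y, 0 ≤ G y := fun y => hG ▸ indicator_nonneg (fun y _ => sq_nonneg _) y
  have hci := hGi.integrable_convolution (ContinuousLinearMap.mul ℝ ℝ) hki
  have hcv := integral_convolution (ContinuousLinearMap.mul ℝ ℝ) hGi hki
  have hc0 : ∀ x, 0 ≤ convolution G k (ContinuousLinearMap.mul ℝ ℝ) volume x := fun x =>
    integral_nonneg fun y => mul_nonneg (hG0 y) (hk0 _)
  have key : ∀ x ∈ ball (0 : E n) R,
      F x ^ 2 ≤ (∫ z, k z) * convolution G k (ContinuousLinearMap.mul ℝ ℝ) volume x := by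
    intro x hx
    have e : ∀ y, k (x - y) * |g y| ^ 2 = G y * k (x - y) := fun y => by
      by_cases hy : y ∈ ball (0 : E n) (R + ε)
      · rw [hG, indicator_of_mem hy, sq_abs, mul_comm]
      · rw [hks (x - y), zero_mul, mul_zero]
        rw [mem_ball_zero_iff] at hx hy
        have := norm_sub_norm_le y x
        rw [norm_sub_rev] at this
        linarith [not_lt.1 hy]
    have hkx : Continuous fun y => k (x - y) := hk.comp (continuous_const.sub continuous_id)
    have i1 : Integrable fun y => k (x - y) * (1 : ℝ) ^ 2 := by simpa using hki.comp_sub_left x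
    have i2 : Integrable fun y => k (x - y) * |g y| ^ 2 := by
      simp only [e]
      exact hGi.mul_bdd hkx.aestronglyMeasurable (Filter.Eventually.of_forall fun y => hM _)
    have i3 : Integrable fun y => k (x - y) * (1 * |g y|) := by
      refine (i1.add i2).mono' (hkx.aestronglyMeasurable.mul (aestronglyMeasurable_const.mul hg.1.norm))
        (Filter.Eventually.of_forall fun y => ?_)
      rw [Real.norm_eq_abs, abs_of_nonneg (mul_nonneg (hk0 _) (by positivity))]
      have := mul_nonneg (hk0 (x - y)) (sq_nonneg (|g y| - 1))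
      have := mul_nonneg (hk0 (x - y)) (abs_nonneg (g y))
      simp only [Pi.add_apply]
      nlinarith
    have h1 := cs_int (s := univ) (w := fun y => k (x - y)) (f := fun _ => 1) (g := fun y => |g y|)
      (fun y => hk0 _) i1.integrableOn i2.integrableOn i3.integrableOn
    simp only [Measure.restrict_univ, e, one_pow, mul_one, one_mul] at h1
    rw [integral_sub_left_eq_self k volume x] at h1
    refine le_trans ?_ h1
    rw [← sq_abs]
    exact pow_le_pow_left₀ (abs_nonneg _) (h x hx) 2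
  calc ∫ x in ball (0 : E n) R, F x ^ 2
      ≤ ∫ x in ball (0 : E n) R, (∫ z, k z) * convolution G k (ContinuousLinearMap.mul ℝ ℝ) volume x :=
        setIntegral_mono_on (emoll2_int (hF.pow 2) R) (hci.const_mul _).integrableOn measurableSet_ball key
    _ ≤ ∫ x, (∫ z, k z) * convolution G k (ContinuousLinearMap.mul ℝ ℝ) volume x :=
        setIntegral_le_integral (hci.const_mul _) (Filter.Eventually.of_forall fun x => mul_nonneg hA (hc0 x))
    _ = _ := by
        rw [integral_const_mul, hcv, ContinuousLinearMap.mul_apply', hG, integral_indicator measurableSet_ball]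
        ring

theorem mol_L2 {ε : ℝ} (hε : 0 < ε) (R : ℝ) {g : E n → ℝ} (hg : L2loc g) :
    ∫ x in ball (0 : E n) R, mol ε g x ^ 2 ≤ ∫ y in ball (0 : E n) (R + ε), g y ^ 2 := by
  have h := schur (R := R) hε (contDiff_kern ε).continuous (kern_nonneg hε) (fun z hz => kern_zero hε hz) hg
    (contDiff_mol hε hg.locInt).continuous fun x _ => by
      refine abs_integral_le_integral_abs.trans (le_of_eq ?_)
      simp only [abs_mul, abs_of_nonneg (kern_nonneg hε _)]
  rwa [integral_kern hε, one_pow, one_mul] at h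

theorem pd_mol_L2 {ε : ℝ} (hε : 0 < ε) : ∃ K : ℝ, 0 ≤ K ∧ ∀ (R : ℝ) (e : Fin n) (g : E n → ℝ),
    L2loc g → ∫ x in ball (0 : E n) R, pd e (mol ε g) x ^ 2 ≤
      K * ∫ y in ball (0 : E n) (R + ε), g y ^ 2 := by
  refine ⟨∑ e : Fin n, (∫ z : E n, |pd e (kern ε) z|) ^ 2, by positivity, fun R e g hg => ?_⟩
  have h := schur (R := R) hε (k := fun z => |pd e (kern ε) z|)
    (continuous_pd ((contDiff_kern ε).of_le (by simp)) e).abs (fun z => abs_nonneg _)
    (fun z hz => by rw [pd_kern_zero hε hz, abs_zero]) hg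
    (continuous_pd ((contDiff_mol hε hg.locInt).of_le (by simp)) e) fun x _ => by
      rw [pd_mol hε hg.locInt]
      refine abs_integral_le_integral_abs.trans (le_of_eq ?_)
      simp only [abs_mul]
  refine h.trans (mul_le_mul_of_nonneg_right ?_ (integral_nonneg fun y => sq_nonneg _))
  exact Finset.single_le_sum (f := fun e : Fin n => (∫ z : E n, |pd e (kern ε) z|) ^ 2)
    (fun i _ => sq_nonneg _) (Finset.mem_univ e)

theorem approx_L2 {g : E n → ℝ} (hg : L2loc g) (R : ℝ) {η : ℝ} (hη : 0 < η) :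
    ∃ g' : E n → ℝ, Continuous g' ∧ ∫ x in ball (0 : E n) R, (g x - g' x) ^ 2 ≤ η := by
  have h1 : MemLp ((ball (0 : E n) R).indicator g) 2 volume :=
    (memLp_indicator_iff_restrict measurableSet_ball).2 ((memLp_two_iff_integrable_sq hg.1.restrict).2 (hg.2 R))
  have h2 : MemLp ((ball (0 : E n) R).indicator g) (ENNReal.ofReal 2) volume := by simpa using h1
  obtain ⟨g', -, h3, h4, h5⟩ := h2.exists_hasCompactSupport_integral_rpow_sub_le two_pos hη
  refine ⟨g', h4, le_trans ?_ h3⟩
  have h6 : MemLp g' 2 volume := by simpa using h5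
  have h7 : Integrable fun x => ((ball (0 : E n) R).indicator g x - g' x) ^ 2 := (h1.sub h6).integrable_sq
  simp only [Real.rpow_two, Real.norm_eq_abs, sq_abs]
  refine le_trans (le_of_eq ?_) (setIntegral_le_integral (s := ball 0 R) h7
    (Filter.Eventually.of_forall fun x => sq_nonneg _))
  exact setIntegral_congr_fun measurableSet_ball fun x hx => by simp only [indicator_of_mem hx]

theorem mol_tendsto_L2 {g : E n → ℝ} (hg : L2loc g) (R : ℝ) {η : ℝ} (hη : 0 < η) :
    ∃ ε₀ : ℝ, 0 < ε₀ ∧ ∀ ε : ℝ, 0 < ε → ε ≤ ε₀ →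
      ∫ x in ball (0 : E n) R, (mol ε g x - g x) ^ 2 ≤ η := by
  obtain ⟨g', hg', h1⟩ := approx_L2 hg (R + 1) (η := η / 9) (by positivity)
  obtain ⟨V, hV⟩ : ∃ V, V = volume.real (ball (0 : E n) R) := ⟨_, rfl⟩
  have hV0 : 0 ≤ V := hV ▸ measureReal_nonneg
  obtain ⟨ε₀, hε₀, h2⟩ := mol_unif hg' R (η := √(η / 9 / (V + 1))) (Real.sqrt_pos.2 (by positivity))
  refine ⟨min ε₀ 1, by positivity, fun ε hε hle => ?_⟩
  have hd := hg.sub (l2loc_of_continuous hg')
  have hmono : ∀ R' : ℝ, R' ≤ R + 1 → ∫ x in ball (0 : E n) R', (g x - g' x) ^ 2 ≤ η / 9 := fun R' hR' =>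
    (setIntegral_mono_set (hd.2 _) (Filter.Eventually.of_forall fun x => sq_nonneg _)
      (ball_subset_ball hR').eventuallyLE).trans h1
  have h3 := (mol_L2 hε R hd).trans (hmono _ (by linarith [hle.trans (min_le_right _ _)]))
  have h4 := hmono R (by linarith)
  have hc := (contDiff_mol hε hd.locInt).continuous
  have i1 : IntegrableOn (fun x => mol ε (fun y => g y - g' y) x ^ 2) (ball (0 : E n) R) :=
    emoll2_int (hc.pow 2) R
  have i2 : IntegrableOn (fun _ : E n => η / 9 / (V + 1)) (ball (0 : E n) R) := emoll2_int continuous_const R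
  have i3 : IntegrableOn (fun x => (g x - g' x) ^ 2) (ball (0 : E n) R) := hd.2 R
  have i0 := ((l2loc_of_continuous (contDiff_mol hε hg.locInt).continuous).sub hg).2 R
  have h5 : ∫ x in ball (0 : E n) R, (mol ε g x - g x) ^ 2 ≤ ∫ x in ball (0 : E n) R,
      3 * (mol ε (fun y => g y - g' y) x ^ 2 + η / 9 / (V + 1) + (g x - g' x) ^ 2) := by
    refine setIntegral_mono_on i0 (((i1.add i2).add i3).const_mul 3) measurableSet_ball fun x hx => ?_
    have h6 := h2 ε hε (hle.trans (min_le_left _ _)) x (mem_ball_zero_iff.1 hx).le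
    have h7 : (mol ε g' x - g' x) ^ 2 ≤ η / 9 / (V + 1) := by
      rw [← sq_abs, ← Real.sq_sqrt (x := η / 9 / (V + 1)) (by positivity)]
      exact pow_le_pow_left₀ (abs_nonneg _) h6 2
    rw [mol_sub hε hg.locInt (l2loc_of_continuous hg').locInt]
    beta_reduce
    nlinarith [sq_nonneg (mol ε g x - mol ε g' x - (mol ε g' x - g' x)), sq_nonneg (mol ε g x - mol ε g' x + (g x - g' x)),
      sq_nonneg (mol ε g' x - g' x + (g x - g' x))]
  have i12 : IntegrableOn (fun x => mol ε (fun y => g y - g' y) x ^ 2 + η / 9 / (V + 1)) (ball (0 : E n) R) :=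
    i1.add i2
  rw [integral_const_mul, integral_add i12 i3, integral_add i1 i2, integral_const, measureReal_restrict_apply_univ,
    ← hV, smul_eq_mul] at h5
  have h8 : V * (η / 9 / (V + 1)) ≤ η / 9 := by
    rw [← mul_div_assoc, div_le_iff₀ (by positivity)]
    nlinarith
  linarith

end Crest.Agent.R238
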