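import Crest.Agent.R238.EGreen
import Crest.Agent.R238.EFried

/-!
# R238 / EUniq: `(1 - L)` has dense range (duality, Friedrichs)   [~600 lines]

`Γ = rho g ∈ L²_loc`, `Γ_ε = mol ε Γ`.  For a test function `ζ`, `s = mol ε ζ` is a test function,
`pd`/`hess` commute with `mol`; move `mol` to the other side (`mol_adj`) and integrate by parts
once: `∫ ζ Γ_ε + Σ_i ∫ ∂_iζ Φ^i_ε = 0`, `Φ^i_ε = Σ_j ∂_j mol(τ_{ij}Γ) + mol(x_i Γ)`; by `ext_C1`-type
density (or take `ζ` only `C²_c`: `mol ε ζ` is still a test function) use `ζ = χ² g_ε`,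
`g_ε = e^{φ} Γ_ε` (`C²`), `χ = cut R`.  `Φ^i_ε = ρ τ_{ij}∂_j g_ε + E^i_ε` with
`E^i_ε = Σ_j comm ε j τ_{ij} Γ + (mol(x_iΓ) - x_i Γ_ε)` (use `stein_pt`), which tends to `0` in
`L²(B_{2R})` (`comm_small`; `|mol(x_iΓ) - x_iΓ_ε| ≤ ε mol|Γ|`, `mol_L2`).  Absorb the gradient
terms (`c ≤ τ ≤ C`): `∫ρχ²g_ε² ≤ C' D²/R² ∫_{B_{2R}} ρ g_ε² + o(1)`; let `ε → 0`
(`mol_tendsto_L2`), then `R → ∞`.
-/

set_option autoImplicit false
open MeasureTheory Matrix Set Metric
open scoped RealInnerProductSpace ContDiff BigOperators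

namespace Crest.Agent.R238

variable {n : ℕ}

/-- tends to zero in `L²` of the ball as `ε → 0` -/
def euniq_Sm (R : ℝ) (F : ℝ → E n → ℝ) : Prop :=
  (∀ ε, 0 < ε → L2loc (F ε)) ∧
    Filter.Tendsto (fun ε => ∫ x in ball (0 : E n) R, F ε x ^ 2) (nhdsWithin 0 (Ioi 0)) (nhds 0)

theorem euniq_of_eps {R : ℝ} {F : ℝ → E n → ℝ} (h1 : ∀ ε, 0 < ε → L2loc (F ε))
    (h2 : ∀ η : ℝ, 0 < η → ∃ ε₀ : ℝ, 0 < ε₀ ∧ ∀ ε : ℝ, 0 < ε → ε ≤ ε₀ →
      ∫ x in ball (0 : E n) R, F ε x ^ 2 ≤ η) : euniq_Sm R F := by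
  refine ⟨h1, tendsto_order.2 ⟨fun a ha => Filter.Eventually.of_forall fun ε =>
    ha.trans_le (integral_nonneg fun x => sq_nonneg _), fun a ha => ?_⟩⟩
  obtain ⟨ε₀, h0, h⟩ := h2 (a / 2) (half_pos ha)
  filter_upwards [Ioc_mem_nhdsGT h0] with ε hε
  exact (h ε hε.1 hε.2).trans_lt (half_lt_self ha)

theorem euniq_Sm.add {R : ℝ} {F G : ℝ → E n → ℝ} (hF : euniq_Sm R F) (hG : euniq_Sm R G) :
    euniq_Sm R fun ε x => F ε x + G ε x := by
  refine ⟨fun ε hε => (hF.1 ε hε).add (hG.1 ε hε), ?_⟩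
  have h1 := (hF.2.const_mul 2).add (hG.2.const_mul 2)
  simp only [mul_zero, add_zero] at h1
  refine squeeze_zero' (Filter.Eventually.of_forall fun ε => integral_nonneg fun x => sq_nonneg _) ?_ h1
  filter_upwards [self_mem_nhdsWithin] with ε hε
  have i1 := (hF.1 ε hε).2 R
  have i2 := (hG.1 ε hε).2 R
  rw [← integral_const_mul, ← integral_const_mul, ← integral_add (i1.const_mul 2) (i2.const_mul 2)]
  refine integral_mono (((hF.1 ε hε).add (hG.1 ε hε)).2 R) ((i1.const_mul 2).add (i2.const_mul 2)) fun x => ?_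
  simp only
  nlinarith [sq_nonneg (F ε x - G ε x)]

theorem euniq_Sm.mul {R : ℝ} {F : ℝ → E n → ℝ} (hF : euniq_Sm R F) {a : E n → ℝ} (ha : Continuous a) :
    euniq_Sm R fun ε x => a x * F ε x := by
  refine ⟨fun ε hε => (hF.1 ε hε).mul ha, ?_⟩
  obtain ⟨M, hM⟩ := (isCompact_closedBall (0 : E n) R).exists_bound_of_continuousOn ha.continuousOn
  have h1 := hF.2.const_mul (M ^ 2)
  simp only [mul_zero] at h1
  refine squeeze_zero' (Filter.Eventually.of_forall fun ε => integral_nonneg fun x => sq_nonneg _) ?_ h1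
  filter_upwards [self_mem_nhdsWithin] with ε hε
  have i1 := (hF.1 ε hε).2 R
  rw [← integral_const_mul]
  refine setIntegral_mono_on (((hF.1 ε hε).mul ha).2 R) (i1.const_mul _) measurableSet_ball fun x hx => ?_
  rw [mul_pow]
  refine mul_le_mul_of_nonneg_right ?_ (sq_nonneg _)
  have := hM x (ball_subset_closedBall hx)
  rw [Real.norm_eq_abs] at this
  exact sq_le_sq' (abs_le.1 this).1 (abs_le.1 this).2

theorem euniq_sum {R : ℝ} {ι : Type*} (s : Finset ι) {F : ι → ℝ → E n → ℝ} (h : ∀ i ∈ s, euniq_Sm R (F i)) :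
    euniq_Sm R fun ε x => ∑ i ∈ s, F i ε x := by
  classical
  induction s using Finset.induction_on with
  | empty =>
    simp only [Finset.sum_empty]
    refine ⟨fun ε _ => l2loc_of_continuous continuous_const, ?_⟩
    simp
  | insert a s ha ih =>
    simp only [Finset.sum_insert ha]
    exact (h a (Finset.mem_insert_self _ _)).add (ih fun i hi => h i (Finset.mem_insert_of_mem hi))

theorem euniq_mol {g : E n → ℝ} (hg : L2loc g) (R : ℝ) : euniq_Sm R fun ε x => mol ε g x - g x :=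
  euniq_of_eps (fun _ hε => (l2loc_of_continuous (contDiff_mol hε hg.locInt).continuous).sub hg)
    fun _ hη => mol_tendsto_L2 hg R hη

theorem euniq_comm {a g : E n → ℝ} (ha : ContDiff ℝ 1 a) (hg : L2loc g) (R : ℝ) (e : Fin n) :
    euniq_Sm R fun ε x => comm ε e a g x :=
  euniq_of_eps (fun _ hε => l2loc_of_continuous (continuous_comm hε e ha hg))
    fun _ hη => comm_small ha hg R e hη

theorem euniq_int {f g : E n → ℝ} (hf : Continuous f) (hc : HasCompactSupport f)
    (hg : LocallyIntegrable g) : Integrable fun x => f x * g x :=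
  hg.integrable_smul_left_of_hasCompactSupport hf hc

/-- the mollified equation in weak form -/
theorem euniq_weak {c C : ℝ} {φ : E n → ℝ} {τ : E n → Mat n} {U : E n → Fin n → Mat n}
    (hM : MS φ c C τ U) {Γ : E n → ℝ} (hΓ : L2loc Γ)
    (h : ∀ s, Tst s → ∫ x, Γ x * (s x - Lop τ s x) = 0) {ε : ℝ} (hε : 0 < ε) {ζ : E n → ℝ}
    (hζ : ContDiff ℝ 2 ζ) (hc : HasCompactSupport ζ) :
    ∫ x, (ζ x * mol ε Γ x + ∑ i, pd i ζ x *
      (∑ j, pd j (mol ε fun y => τ y i j * Γ y) x + mol ε (fun y => y i * Γ y) x)) = 0 := by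
  have hζ1 : ContDiff ℝ 1 ζ := hζ.of_le (by norm_num)
  have hp1 : ∀ i, ContDiff ℝ 1 (pd i ζ) := fun i => contDiff_pd hζ (by norm_num) i
  have hp0 : ∀ i j, Continuous (pd j (pd i ζ)) := fun i j => continuous_pd (hp1 i) j
  have hs : Tst (mol ε ζ) := ⟨contDiff_mol hε hζ.continuous.locallyIntegrable, cs_mol hε hc⟩
  have hτ : ∀ i j, LocallyIntegrable fun y => τ y i j * Γ y := fun i j =>
    (hΓ.mul (hM.continuous i j)).locInt
  have hx : ∀ i, LocallyIntegrable fun y : E n => y i * Γ y := fun i =>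
    (hΓ.mul (contDiff_coord (m := 0) i).continuous).locInt
  have hmc : ∀ {f : E n → ℝ}, Continuous f → Continuous (mol ε f) := fun hf =>
    (contDiff_mol hε hf.locallyIntegrable).continuous
  have h1 := h _ hs
  have e1 : ∀ x, Γ x * (mol ε ζ x - Lop τ (mol ε ζ) x) = mol ε ζ x * Γ x +
      ∑ i, (mol ε (pd i ζ) x * (x i * Γ x) - ∑ j, mol ε (pd j (pd i ζ)) x * (τ x i j * Γ x)) := by
    intro x
    have e2 : ∀ i j, hess (mol ε ζ) x i j = mol ε (pd j (pd i ζ)) x := by
      intro i j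
      rw [hess_symm (contDiff_infty.1 hs.cd 2)]
      change pd j (pd i (mol ε ζ)) x = _
      rw [pd_mol_C1 hε hζ1, pd_mol_C1 hε (hp1 i)]
    simp only [Lop, e2, pd_mol_C1 hε hζ1, Finset.sum_sub_distrib, mul_sub, Finset.mul_sum]
    have e3 : ∑ i, Γ x * (x i * mol ε (pd i ζ) x) = ∑ i, mol ε (pd i ζ) x * (x i * Γ x) :=
      Finset.sum_congr rfl fun i _ => by ring
    have e4 : ∑ i, ∑ j, Γ x * (τ x i j * mol ε (pd j (pd i ζ)) x) =
        ∑ i, ∑ j, mol ε (pd j (pd i ζ)) x * (τ x i j * Γ x) :=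
      Finset.sum_congr rfl fun i _ => Finset.sum_congr rfl fun j _ => by ring
    rw [e3, e4]
    ring
  simp only [e1] at h1
  have i0 : Integrable fun x => mol ε ζ x * Γ x := euniq_int hs.cd.continuous hs.cs hΓ.locInt
  have i1 : ∀ i, Integrable fun x => mol ε (pd i ζ) x * (x i * Γ x) := fun i =>
    euniq_int (hmc (hp1 i).continuous) (cs_mol hε (cs_pd hc i)) (hx i)
  have i2 : ∀ i j, Integrable fun x => mol ε (pd j (pd i ζ)) x * (τ x i j * Γ x) := fun i j =>
    euniq_int (hmc (hp0 i j)) (cs_mol hε (cs_pd (cs_pd hc i) j)) (hτ i j)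
  have i3 : ∀ i, Integrable fun x => ∑ j, mol ε (pd j (pd i ζ)) x * (τ x i j * Γ x) := fun i =>
    integrable_finsetSum _ fun j _ => i2 i j
  have i4 : ∀ i, Integrable fun x => mol ε (pd i ζ) x * (x i * Γ x) -
      ∑ j, mol ε (pd j (pd i ζ)) x * (τ x i j * Γ x) := fun i => (i1 i).sub (i3 i)
  rw [integral_add i0 (integrable_finsetSum _ fun i _ => i4 i), integral_finsetSum _ fun i _ => i4 i] at h1
  have j0 : Integrable fun x => ζ x * mol ε Γ x :=
    euniq_int hζ.continuous hc (contDiff_mol hε hΓ.locInt).continuous.locallyIntegrable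
  have j1 : ∀ i, Integrable fun x => pd i ζ x * mol ε (fun y => y i * Γ y) x := fun i =>
    euniq_int (hp1 i).continuous (cs_pd hc i) (contDiff_mol hε (hx i)).continuous.locallyIntegrable
  have hτ1 : ∀ i j, ContDiff ℝ 1 (mol ε fun y => τ y i j * Γ y) := fun i j =>
    (contDiff_mol hε (hτ i j)).of_le (by exact_mod_cast le_top)
  have j2 : ∀ i j, Integrable fun x => pd i ζ x * pd j (mol ε fun y => τ y i j * Γ y) x := fun i j =>
    euniq_int (hp1 i).continuous (cs_pd hc i) (continuous_pd (hτ1 i j) j).locallyIntegrable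
  have j3 : ∀ i, Integrable fun x => ∑ j, pd i ζ x * pd j (mol ε fun y => τ y i j * Γ y) x := fun i =>
    integrable_finsetSum _ fun j _ => j2 i j
  have j4 : ∀ i, Integrable fun x => ∑ j, pd i ζ x * pd j (mol ε fun y => τ y i j * Γ y) x +
      pd i ζ x * mol ε (fun y => y i * Γ y) x := fun i => (j3 i).add (j1 i)
  simp only [mul_add, Finset.mul_sum]
  rw [integral_add j0 (integrable_finsetSum _ fun i _ => j4 i),
    integral_finsetSum _ fun i _ => j4 i, mol_adj hε hζ.continuous hc hΓ.locInt, ← h1]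
  congr 1
  refine Finset.sum_congr rfl fun i _ => ?_
  rw [integral_add (j3 i) (j1 i), integral_sub (i1 i) (i3 i), integral_finsetSum _ fun j _ => j2 i j,
    integral_finsetSum _ fun j _ => i2 i j, mol_adj hε (hp1 i).continuous (cs_pd hc i) (hx i), sub_eq_neg_add,
    ← Finset.sum_neg_distrib]
  congr 1
  refine Finset.sum_congr rfl fun j _ => ?_
  rw [ibp (hp1 i) (hτ1 i j) (Or.inl (cs_pd hc i)) j, mol_adj hε (hp0 i j) (cs_pd (cs_pd hc i) j) (hτ i j)]

/-- the pointwise absorption -/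
theorem euniq_alg {c C : ℝ} {t : Mat n} (ht : Ell c C t) (hc : 0 < c) {r : ℝ} (hr : 0 < r) (χ G : ℝ)
    (p q e : Fin n → ℝ) :
    r * χ ^ 2 * G ^ 2 ≤ (χ ^ 2 * G * (r * G) +
      ∑ i, (2 * χ * q i * G + χ ^ 2 * p i) * (r * ∑ j, t i j * p j + e i)) +
      (2 * C + 1) * (r * G ^ 2 * ∑ i, q i ^ 2) + (1 + 1 / (2 * c)) * (χ ^ 2 * ∑ i, e i ^ 2 / r) := by
  have hsym : p ⬝ᵥ (t *ᵥ q) = q ⬝ᵥ (t *ᵥ p) := by
    rw [dotProduct_mulVec, ← mulVec_transpose, ht.transpose, dotProduct_comm]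
  have h1 : 0 ≤ χ ^ 2 * (p ⬝ᵥ (t *ᵥ p)) + 4 * χ * G * (q ⬝ᵥ (t *ᵥ p)) + 4 * G ^ 2 * (q ⬝ᵥ (t *ᵥ q)) := by
    have h2 := ht.lo (χ • p + (2 * G) • q)
    have h3 : 0 ≤ (χ • p + (2 * G) • q) ⬝ᵥ (χ • p + (2 * G) • q) :=
      Finset.sum_nonneg fun i _ => mul_self_nonneg _
    have h4 := (mul_nonneg hc.le h3).trans h2
    simp only [mulVec_add, mulVec_smul, add_dotProduct, dotProduct_add, smul_dotProduct, dotProduct_smul,
      smul_eq_mul, hsym] at h4
    nlinarith
  have h2 := ht.lo p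
  have h3 := ht.hi q
  have e1 : ∑ i, (2 * χ * q i * G + χ ^ 2 * p i) * (r * ∑ j, t i j * p j + e i) =
      r * (2 * χ * G * (q ⬝ᵥ (t *ᵥ p)) + χ ^ 2 * (p ⬝ᵥ (t *ᵥ p))) +
        ∑ i, (2 * χ * q i * G + χ ^ 2 * p i) * e i := by
    simp only [dotProduct, mulVec, Finset.mul_sum, ← Finset.sum_add_distrib, mul_add]
    refine Finset.sum_congr rfl fun i _ => ?_
    congr 1
    refine Finset.sum_congr rfl fun j _ => ?_
    ring
  have h4 : -(r * G ^ 2 * ∑ i, q i ^ 2) - r * (χ ^ 2 * (c * (p ⬝ᵥ p)) / 2) -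
      (1 + 1 / (2 * c)) * (χ ^ 2 * ∑ i, e i ^ 2 / r) ≤ ∑ i, (2 * χ * q i * G + χ ^ 2 * p i) * e i := by
    simp only [dotProduct, Finset.mul_sum, Finset.sum_div, ← Finset.sum_neg_distrib, ← Finset.sum_sub_distrib]
    refine Finset.sum_le_sum fun i _ => ?_
    have a1 : 0 ≤ (r * G * q i + χ * e i) ^ 2 / r := by positivity
    have a2 : 0 ≤ χ ^ 2 * (r * c * p i + e i) ^ 2 / (2 * c * r) := by positivity
    have a3 : (2 * χ * q i * G + χ ^ 2 * p i) * e i - (-(r * G ^ 2 * q i ^ 2) -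
        r * (χ ^ 2 * (c * (p i * p i)) / 2) - (1 + 1 / (2 * c)) * (χ ^ 2 * (e i ^ 2 / r))) =
        (r * G * q i + χ * e i) ^ 2 / r + χ ^ 2 * (r * c * p i + e i) ^ 2 / (2 * c * r) := by
      field_simp
      ring
    linarith
  have e2 : q ⬝ᵥ q = ∑ i, q i ^ 2 := Finset.sum_congr rfl fun i _ => (sq _).symm
  rw [e2] at h3
  rw [e1]
  have h5 := mul_le_mul_of_nonneg_left h2 (mul_nonneg hr.le (sq_nonneg χ))
  have h6 := mul_le_mul_of_nonneg_left h3 (mul_nonneg hr.le (sq_nonneg G))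
  have h7 := mul_nonneg hr.le h1
  nlinarith

/-- the estimate for a fixed cut-off -/
theorem euniq_est {α β c C : ℝ} {φ : E n → ℝ} {τ : E n → Mat n} {U : E n → Fin n → Mat n}
    (hP : Pot α β φ) (hM : MS φ c C τ U) {g : E n → ℝ} (hg : AEStronglyMeasurable g volume)
    (h2 : Integrable fun x => rho φ x * g x ^ 2)
    (h : ∀ s, Tst s → ∫ x, rho φ x * (g x * (s x - Lop τ s x)) = 0) {R δ : ℝ} (hR : 0 < R)
    (hδ : ∀ x : E n, ∑ i, pd i (cut R) x ^ 2 ≤ δ) :
    ∫ x in ball (0 : E n) (2 * R), cut R x ^ 2 * (rho φ x * g x ^ 2) ≤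
      4 * (2 * C + 1) * δ * ∫ x, rho φ x * g x ^ 2 := by
  have hc := hM.cpos
  have hC : 0 ≤ C := hc.le.trans hM.cle
  have hδ0 : 0 ≤ δ := (Finset.sum_nonneg fun i _ => sq_nonneg _).trans (hδ 0)
  have hρc : Continuous (rho φ) := hP.continuous_rho
  have hφ1 : ∀ x, DifferentiableAt ℝ φ x := fun x => hP.cd.differentiable (by norm_num) x
  set Γ : E n → ℝ := fun x => rho φ x * g x with hΓdef
  have hΓ : L2loc Γ := by
    refine ⟨hρc.aestronglyMeasurable.mul hg, fun r => Integrable.integrableOn ?_⟩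
    obtain ⟨m, M, -, -, -, hMb⟩ := hP.rho_bounds 0 1
    refine (h2.bdd_mul (c := M) hρc.aestronglyMeasurable (Filter.Eventually.of_forall fun x => ?_)).congr
      (Filter.Eventually.of_forall fun x => ?_)
    · rw [Real.norm_eq_abs, abs_of_pos (rho_pos φ x)]; exact hMb x
    · simp only [hΓdef]; ring
  have hw : ∀ s, Tst s → ∫ x, Γ x * (s x - Lop τ s x) = 0 := fun s hs => by
    rw [← h s hs]
    exact integral_congr_ae (Filter.Eventually.of_forall fun x => by simp only [hΓdef]; ring)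
  have hco : ∀ i : Fin n, Continuous fun y : E n => y i := fun i => (contDiff_coord (m := 0) i).continuous
  have hwc : Continuous fun x => Real.exp (φ x / 2) := (hP.cd.continuous.div_const 2).rexp
  have hwsq : ∀ x, Real.exp (φ x / 2) ^ 2 = (rho φ x)⁻¹ := fun x => by
    rw [rho, Real.exp_neg, inv_inv, ← Real.exp_nat_mul]; congr 1; push_cast; ring
  -- the small terms
  have hW := (euniq_mol hΓ (2 * R)).mul hwc
  have hV : ∀ i : Fin n, euniq_Sm (2 * R) fun ε x => Real.exp (φ x / 2) *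
      (∑ j, comm ε j (fun y => τ y i j) Γ x + ((mol ε (fun y => y i * Γ y) x - x i * Γ x) +
        -x i * (mol ε Γ x - Γ x))) := fun i =>
    ((euniq_sum _ fun j _ => euniq_comm (hM.cd i j) hΓ _ j).add
      ((euniq_mol (hΓ.mul (hco i)) _).add ((euniq_mol hΓ _).mul (hco i).neg))).mul hwc
  have hlim := ((hW.2.const_mul (2 + 4 * (2 * C + 1) * δ)).add
    ((tendsto_finsetSum Finset.univ fun i _ => (hV i).2).const_mul (2 * (1 + 1 / (2 * c))))).const_add
      (4 * (2 * C + 1) * δ * ∫ x, rho φ x * g x ^ 2)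
  simp only [mul_zero, add_zero, Finset.sum_const_zero] at hlim
  refine ge_of_tendsto hlim ?_
  filter_upwards [self_mem_nhdsWithin] with ε hε
  replace hε : 0 < ε := hε
  -- fixed `ε`
  have hm2 : ContDiff ℝ 2 (mol ε Γ) := contDiff_infty.1 (contDiff_mol hε hΓ.locInt) 2
  set G : E n → ℝ := fun x => Real.exp (φ x) * mol ε Γ x with hGdef
  have hG2 : ContDiff ℝ 2 G := hP.cd.exp.mul hm2
  have hG1 : ∀ x, DifferentiableAt ℝ G x := fun x => hG2.differentiable (by norm_num) x
  have hmG : mol ε Γ = fun x => rho φ x * G x := by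
    funext x
    simp only [hGdef, rho]
    rw [← mul_assoc, ← Real.exp_add, neg_add_cancel, Real.exp_zero, one_mul]
  have hχ2 : ContDiff ℝ 2 (cut R : E n → ℝ) := contDiff_infty.1 (contDiff_cut R) 2
  have hχ1 : ∀ x, DifferentiableAt ℝ (cut R : E n → ℝ) x := fun x => hχ2.differentiable (by norm_num) x
  have hζ : ContDiff ℝ 2 fun x => cut R x * cut R x * G x := (hχ2.mul hχ2).mul hG2
  have hζs : tsupport (fun x => cut R x * cut R x * G x) ⊆ tsupport (cut R : E n → ℝ) :=
    (tsupport_mul_subset_left).trans tsupport_mul_subset_left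
  have hζc : HasCompactSupport fun x => cut R x * cut R x * G x :=
    ((tst_cut hR).cs.mul_right (f' := cut R)).mul_right
  have hI := euniq_weak hM hΓ hw hε hζ hζc
  set I : E n → ℝ := fun x => cut R x * cut R x * G x * mol ε Γ x +
    ∑ i, pd i (fun x => cut R x * cut R x * G x) x *
      (∑ j, pd j (mol ε fun y => τ y i j * Γ y) x + mol ε (fun y => y i * Γ y) x) with hIdef
  have hIc : Continuous I := by
    refine (hζ.continuous.mul hm2.continuous).add (continuous_finsetSum _ fun i _ =>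
      (continuous_pd (hζ.of_le (by norm_num)) i).mul ((continuous_finsetSum _ fun j _ => ?_).add ?_))
    · exact continuous_pd (contDiff_infty.1 (contDiff_mol hε (hΓ.mul (hM.continuous i j)).locInt) 1) j
    · exact (contDiff_mol hε (hΓ.mul (hco i)).locInt).continuous
  have hI0 : ∫ x in ball (0 : E n) (2 * R), I x = 0 := by
    rw [setIntegral_eq_integral_of_forall_compl_eq_zero, hI]
    intro x hx
    have hx' : x ∉ tsupport fun x => cut R x * cut R x * G x := fun h' => hx (by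
      have := tsupport_cut hR (hζs h')
      exact closedBall_subset_ball (by linarith) this)
    simp only [hIdef, pd_eq_zero hx', zero_mul, Finset.sum_const_zero, add_zero]
    rw [image_eq_zero_of_notMem_tsupport hx', zero_mul]
  have iI : IntegrableOn I (ball (0 : E n) (2 * R)) :=
    (hIc.continuousOn.integrableOn_compact (isCompact_closedBall (0 : E n) (2 * R))).mono_set
      ball_subset_closedBall
  -- pointwise
  have hpt : ∀ x, cut R x ^ 2 * (rho φ x * g x ^ 2) ≤ 2 * I x + (4 * (2 * C + 1) * δ * (rho φ x * g x ^ 2) +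
      ((2 + 4 * (2 * C + 1) * δ) * (Real.exp (φ x / 2) * (mol ε Γ x - Γ x)) ^ 2 +
        2 * (1 + 1 / (2 * c)) * ∑ i, (Real.exp (φ x / 2) *
          (∑ j, comm ε j (fun y => τ y i j) Γ x + ((mol ε (fun y => y i * Γ y) x - x i * Γ x) +
            -x i * (mol ε Γ x - Γ x)))) ^ 2)) := by
    intro x
    have hr := rho_pos φ x
    set e : Fin n → ℝ := fun i => ∑ j, comm ε j (fun y => τ y i j) Γ x +
      ((mol ε (fun y => y i * Γ y) x - x i * Γ x) + -x i * (mol ε Γ x - Γ x)) with he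
    have a1 := euniq_alg (hM.ell x) hc hr (cut R x) (G x) (fun i => pd i G x) (fun i => pd i (cut R) x) e
    have hmx : mol ε Γ x = rho φ x * G x := congrFun hmG x
    have hpm : ∀ j, pd j (mol ε Γ) x = -(pd j φ x * rho φ x) * G x + rho φ x * pd j G x := by
      intro j
      rw [hmG, pd_mul j ((contDiff_rho hP.cd).differentiable (by norm_num) x) (hG1 x), pd_rho j (hφ1 x)]
    have a2 : I x = cut R x ^ 2 * G x * (rho φ x * G x) +
        ∑ i, (2 * cut R x * pd i (cut R) x * G x + cut R x ^ 2 * pd i G x) *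
          (rho φ x * ∑ j, τ x i j * pd j G x + e i) := by
      simp only [hIdef]
      rw [hmx, sq]
      congr 1
      refine Finset.sum_congr rfl fun i _ => ?_
      rw [pd_mul i ((hχ1 x).fun_mul (hχ1 x)) (hG1 x), pd_mul i (hχ1 x) (hχ1 x)]
      have b1 := stein_pt hP hM x i
      have b2 : ∑ j, comm ε j (fun y => τ y i j) Γ x = ∑ j, pd j (mol ε fun y => τ y i j * Γ y) x -
          rho φ x * ∑ j, τ x i j * pd j G x -
          (∑ j, pd j (fun y => τ y i j) x - ∑ j, τ x i j * pd j φ x) * (rho φ x * G x) := by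
        simp only [comm, hpm, hmx, Finset.mul_sum, sub_mul, Finset.sum_mul, ← Finset.sum_sub_distrib]
        exact Finset.sum_congr rfl fun j _ => by ring
      rw [b1] at b2
      simp only [he, b2, hmx]
      ring
    rw [← a2] at a1
    have a3 : (Real.exp (φ x / 2) * (mol ε Γ x - Γ x)) ^ 2 = rho φ x * (G x - g x) ^ 2 := by
      rw [mul_pow, hwsq, hmx]
      simp only [hΓdef]
      field_simp
    have a4 : ∑ i, (Real.exp (φ x / 2) * e i) ^ 2 = ∑ i, e i ^ 2 / rho φ x :=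
      Finset.sum_congr rfl fun i _ => by rw [mul_pow, hwsq, div_eq_inv_mul]
    change _ ≤ 2 * I x + (_ + (_ + _ * ∑ i, (Real.exp (φ x / 2) * e i) ^ 2))
    rw [a3, a4]
    have hχ : cut R x ^ 2 ≤ 1 := pow_le_one₀ (cut_nonneg R x) (cut_le_one R x)
    have hS : 0 ≤ ∑ i, e i ^ 2 / rho φ x := Finset.sum_nonneg fun i _ => by positivity
    generalize ∑ i, e i ^ 2 / rho φ x = S at a1 hS ⊢
    have hk : 0 ≤ 1 + 1 / (2 * c) := by positivity
    generalize 1 + 1 / (2 * c) = k at a1 hk ⊢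
    have a5 : cut R x ^ 2 * S ≤ S := mul_le_of_le_one_left hS hχ
    have a6 := mul_le_mul_of_nonneg_left a5 hk
    have a7 : rho φ x * G x ^ 2 * ∑ i, pd i (cut R) x ^ 2 ≤
        (2 * (rho φ x * g x ^ 2) + 2 * (rho φ x * (G x - g x) ^ 2)) * δ := by
      refine mul_le_mul ?_ (hδ x) (Finset.sum_nonneg fun i _ => sq_nonneg _) (by positivity)
      nlinarith [mul_nonneg hr.le (sq_nonneg (G x - 2 * g x))]
    have a8 := mul_le_mul_of_nonneg_left a7 (show 0 ≤ 2 * C + 1 by positivity)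
    have a9 : cut R x ^ 2 * (rho φ x * g x ^ 2) ≤ 2 * (rho φ x * cut R x ^ 2 * G x ^ 2) +
        2 * (cut R x ^ 2 * (rho φ x * (G x - g x) ^ 2)) := by
      nlinarith [mul_nonneg (mul_nonneg hr.le (sq_nonneg (cut R x))) (sq_nonneg (2 * G x - g x))]
    have a10 : cut R x ^ 2 * (rho φ x * (G x - g x) ^ 2) ≤ rho φ x * (G x - g x) ^ 2 :=
      mul_le_of_le_one_left (by positivity) hχ
    linarith
  have i1 : IntegrableOn (fun x => cut R x ^ 2 * (rho φ x * g x ^ 2)) (ball (0 : E n) (2 * R)) :=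
    (h2.bdd_mul (c := 1) (hχ2.continuous.pow 2).aestronglyMeasurable (Filter.Eventually.of_forall fun x => by
      rw [Real.norm_eq_abs, abs_of_nonneg (sq_nonneg _)]
      exact pow_le_one₀ (cut_nonneg R x) (cut_le_one R x))).integrableOn
  have i2 := (h2.integrableOn (s := ball (0 : E n) (2 * R))).const_mul (4 * (2 * C + 1) * δ)
  have i3 := ((hW.1 ε hε).2 (2 * R)).const_mul (2 + 4 * (2 * C + 1) * δ)
  have i4 := fun i => ((hV i).1 ε hε).2 (2 * R)
  have i5 := (integrable_finsetSum Finset.univ fun i _ => i4 i).const_mul (2 * (1 + 1 / (2 * c)))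
  have i6 := i3.fun_add i5
  have i7 := i2.fun_add i6
  have k1 := integral_mono i1 ((iI.const_mul 2).fun_add i7) hpt
  rw [integral_add (iI.const_mul 2) i7, integral_add i2 i6, integral_add i3 i5, integral_const_mul,
    integral_const_mul, integral_const_mul, integral_const_mul, integral_finsetSum _ fun i _ => i4 i, hI0,
    mul_zero, zero_add] at k1
  refine k1.trans (add_le_add_left (mul_le_mul_of_nonneg_left ?_ (by positivity)) _)
  exact setIntegral_le_integral h2 (Filter.Eventually.of_forall fun x =>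
    mul_nonneg (rho_pos φ x).le (sq_nonneg _))

theorem uniq {α β c C : ℝ} {φ : E n → ℝ} {τ : E n → Mat n} {U : E n → Fin n → Mat n}
    (hP : Pot α β φ) (hM : MS φ c C τ U) {g : E n → ℝ} (hg : AEStronglyMeasurable g volume)
    (h2 : Integrable fun x => rho φ x * g x ^ 2)
    (h : ∀ s, Tst s → ∫ x, rho φ x * (g x * (s x - Lop τ s x)) = 0) : ∀ᵐ x : E n, g x = 0 := by
  obtain ⟨D, hD0, hD⟩ := pd_cut_le n
  have hC : 0 ≤ C := hM.cpos.le.trans hM.cle
  have hnn : ∀ x, 0 ≤ rho φ x * g x ^ 2 := fun x => mul_nonneg (rho_pos φ x).le (sq_nonneg _)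
  have key : ∀ k : ℕ, ∀ᵐ x : E n, x ∈ ball (0 : E n) k → g x = 0 := by
    intro k
    have h1 : ∫ x in ball (0 : E n) k, rho φ x * g x ^ 2 ≤ 0 := by
      have hlim : Filter.Tendsto (fun R : ℝ => 4 * (2 * C + 1) * (n * (D / R) ^ 2) * ∫ x, rho φ x * g x ^ 2)
          Filter.atTop (nhds (4 * (2 * C + 1) * (n * (0 : ℝ) ^ 2) * ∫ x, rho φ x * g x ^ 2)) :=
        (((((tendsto_const_nhds (x := D)).div_atTop Filter.tendsto_id).pow 2).const_mul _).const_mul _).mul_const _
      simp only [ne_eq, OfNat.ofNat_ne_zero, not_false_eq_true, zero_pow, mul_zero, zero_mul] at hlim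
      refine ge_of_tendsto hlim ?_
      filter_upwards [Filter.eventually_ge_atTop (k : ℝ), Filter.eventually_gt_atTop (0 : ℝ)] with R hkR hR
      refine le_trans ?_ (euniq_est hP hM hg h2 h hR fun x => ?_)
      · have i1 : Integrable fun x => cut R x ^ 2 * (rho φ x * g x ^ 2) :=
          h2.bdd_mul (c := 1) ((contDiff_cut R).continuous.pow 2).aestronglyMeasurable
            (Filter.Eventually.of_forall fun x => by
              rw [Real.norm_eq_abs, abs_of_nonneg (sq_nonneg _)]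
              exact pow_le_one₀ (cut_nonneg R x) (cut_le_one R x))
        calc ∫ x in ball (0 : E n) k, rho φ x * g x ^ 2
            = ∫ x in ball (0 : E n) k, cut R x ^ 2 * (rho φ x * g x ^ 2) := by
              refine setIntegral_congr_fun measurableSet_ball fun x hx => ?_
              rw [cut_one hR ((mem_ball_zero_iff.1 hx).le.trans hkR), one_pow, one_mul]
          _ ≤ _ := setIntegral_mono_set i1.integrableOn
              (Filter.Eventually.of_forall fun x => mul_nonneg (sq_nonneg _) (hnn x))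
              (ball_subset_ball (by linarith)).eventuallyLE
      · calc ∑ i, pd i (cut R) x ^ 2 ≤ ∑ _i : Fin n, (D / R) ^ 2 := Finset.sum_le_sum fun i _ =>
              sq_le_sq' (abs_le.1 (hD R hR x i)).1 (abs_le.1 (hD R hR x i)).2
          _ = n * (D / R) ^ 2 := by simp
    have h3 := (setIntegral_eq_zero_iff_of_nonneg_ae (Filter.Eventually.of_forall hnn) h2.integrableOn).1
      (le_antisymm h1 (integral_nonneg hnn))
    filter_upwards [(ae_restrict_iff' measurableSet_ball).1 h3] with x hx hxk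
    have h4 : rho φ x * g x ^ 2 = 0 := hx hxk
    exact pow_eq_zero_iff two_ne_zero |>.1 ((mul_eq_zero.1 h4).resolve_left (rho_pos φ x).ne')
  filter_upwards [ae_all_iff.2 key] with x hx
  obtain ⟨k, hk⟩ := exists_nat_gt ‖x‖
  exact hx k (mem_ball_zero_iff.2 hk)

end Crest.Agent.R238
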