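import Crest.Agent.R238.FOne

/-!
# R238 / FAbs: the abstract variance inequality

`f₀ = g - mean g`; `dense_all` at `λ = 0` gives an even test `w` with `f = -L w`, `‖f - f₀‖² ≤ η`.
`∫ρ f g = ∫ρ ξ·∇g` (`green`), `∫ρ f = 0`, `∫ρ f² = ∫ρ tr(DξDξ) + ∫ρ ξᵀHξ` (`Lop_eq_div`,
`flat_bochner`), `h1` and `one_w` give `2∫ρ f f₀ - ∫ρ f² ≤ B`, i.e. `‖f₀‖² - ‖f - f₀‖² ≤ B`.
-/

set_option autoImplicit false
open MeasureTheory Matrix Set Metric
open scoped RealInnerProductSpace ContDiff BigOperators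

namespace Crest.Agent.R238

variable {n : ℕ}

theorem fabs_int {w F : E n → ℝ} (hw : HasCompactSupport w) (hF : Continuous F)
    (h : ∀ x, x ∉ tsupport w → F x = 0) : Integrable F :=
  hF.integrable_of_hasCompactSupport (HasCompactSupport.intro hw h)

theorem abs_var {α β c C : ℝ} {φ : E n → ℝ} {τ : E n → Mat n} {U : E n → Fin n → Mat n}
    (hP : Pot α β φ) (hM : MS φ c C τ U) {g₁ g₂ b₁ b₂ : E n → ℝ} (hg₁ : ContDiff ℝ 1 g₁)
    (hg₂ : ContDiff ℝ 2 g₂) (he : ∀ x, g₁ (-x) + g₂ (-x) = g₁ x + g₂ x)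
    (hi : Integrable fun x => rho φ x * (g₁ x + g₂ x) ^ 2)
    (hg1 : Integrable fun x => rho φ x * ∑ a, pd a g₂ x ^ 2)
    (hb₁ : Integrable fun x => rho φ x * b₁ x) (hb₂ : Integrable fun x => rho φ x * b₂ x)
    (h1 : ∀ (x : E n) (ξ : Fin n → ℝ), 2 * (ξ ⬝ᵥ grad g₁ x) ≤ ξ ⬝ᵥ (hess φ x *ᵥ ξ) + b₁ x)
    (h2 : ∀ (x : E n) (S : Mat n), (∀ i j, S i j = S j i) →
      2 * (τ x * S * τ x * hess g₂ x).trace ≤
        (hess φ x * (τ x * S * τ x * S * τ x)).trace + b₂ x) :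
    ∫ x, rho φ x * (g₁ x + g₂ x - mean φ fun y => g₁ y + g₂ y) ^ 2 ≤
      (∫ x, rho φ x * b₁ x) + ∫ x, rho φ x * b₂ x := by
  have hg₂' : ContDiff ℝ 1 g₂ := hg₂.of_le (by norm_num)
  have hg : ContDiff ℝ 1 fun x => g₁ x + g₂ x := hg₁.add hg₂'
  obtain ⟨m, hm⟩ : ∃ m, m = mean φ fun y => g₁ y + g₂ y := ⟨_, rfl⟩
  rw [← hm]
  have hρ := hP.continuous_rho
  have i1 : Integrable fun x => rho φ x * (g₁ x + g₂ x) :=
    hP.integrable_of_sq hg.continuous.aestronglyMeasurable hi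
  have i0 := hP.integrable_rho
  have iF : Integrable fun x => rho φ x * (g₁ x + g₂ x - m) ^ 2 :=
    ((hi.sub (i1.const_mul (2 * m))).add (i0.const_mul (m ^ 2))).congr
      (ae_of_all _ fun x => by simp only [Pi.add_apply, Pi.sub_apply]; ring)
  have hz : ∫ x, rho φ x * (g₁ x + g₂ x - m) = 0 := by
    have : (fun x => rho φ x * (g₁ x + g₂ x - m)) = fun x => rho φ x * (g₁ x + g₂ x) - m * rho φ x := by
      funext x; ring
    rw [this, integral_sub i1 (i0.const_mul m), integral_const_mul, hm, mean, div_mul_cancel₀ _ hP.Z_pos.ne',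
      sub_self]
  refine le_of_forall_pos_le_add fun η hη => ?_
  obtain ⟨w, hw, hwe, hη'⟩ := dense_all hP hM (l := 0) (by norm_num) (by norm_num)
    (fun x => g₁ x + g₂ x - m) (hg.continuous.sub continuous_const) iF (fun x => by rw [he]) hz η hη
  have hw2 : ContDiff ℝ 2 w := hw.cd.of_le (WithTop.coe_le_coe.2 (le_top (a := (2 : ℕ∞))))
  have hL := continuous_Lop hM hw2
  have hLc : HasCompactSupport (Lop τ w) := cs_Lop hw.cs
  have hξ := contDiff_xi hM hw2
  have hξ0 : ∀ x, x ∉ tsupport w → ∀ a, xi τ w a x = 0 := fun x hx a =>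
    image_eq_zero_of_notMem_tsupport fun h => hx (tsupport_xi w a h)
  have hξc : ∀ a, HasCompactSupport (xi τ w a) := fun a =>
    hw.cs.of_isClosed_subset (isClosed_tsupport _) (tsupport_xi w a)
  have j1 : Integrable fun x => rho φ x * Lop τ w x ^ 2 :=
    fabs_int hLc (hρ.mul (hL.pow 2)) fun x hx => by simp [image_eq_zero_of_notMem_tsupport hx]
  have j2 : Integrable fun x => rho φ x * ((g₁ x + g₂ x) * Lop τ w x) :=
    fabs_int hLc (hρ.mul (hg.continuous.mul hL)) fun x hx => by simp [image_eq_zero_of_notMem_tsupport hx]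
  have j3 : Integrable fun x => rho φ x * Lop τ w x :=
    fabs_int hLc (hρ.mul hL) fun x hx => by simp [image_eq_zero_of_notMem_tsupport hx]
  have j4 : ∀ g : E n → ℝ, ContDiff ℝ 1 g → Integrable fun x => rho φ x * ∑ a, xi τ w a x * pd a g x :=
    fun g hg => fabs_int hw.cs
      (hρ.mul (continuous_finsetSum _ fun a _ => (hξ a).continuous.mul (continuous_pd hg a)))
      fun x hx => by simp [hξ0 x hx]
  have j5 : Integrable fun x => rho φ x * ∑ a, ∑ b, hess φ x a b * (xi τ w a x * xi τ w b x) :=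
    fabs_int hw.cs (hρ.mul (continuous_finsetSum _ fun a _ => continuous_finsetSum _ fun b _ =>
      (continuous_hess hP.cd a b).mul ((hξ a).continuous.mul (hξ b).continuous))) fun x hx => by simp [hξ0 x hx]
  -- expansion of the square
  have e1 : ∫ x, rho φ x * (Tl φ τ 0 w x - (g₁ x + g₂ x - m)) ^ 2 =
      (∫ x, rho φ x * Lop τ w x ^ 2) + 2 * (∫ x, rho φ x * ((g₁ x + g₂ x) * Lop τ w x)) -
        2 * m * (∫ x, rho φ x * Lop τ w x) + ∫ x, rho φ x * (g₁ x + g₂ x - m) ^ 2 := by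
    have k1 : Integrable fun x => rho φ x * Lop τ w x ^ 2 + 2 * (rho φ x * ((g₁ x + g₂ x) * Lop τ w x)) :=
      j1.add (j2.const_mul 2)
    have k2 : Integrable fun x => rho φ x * Lop τ w x ^ 2 + 2 * (rho φ x * ((g₁ x + g₂ x) * Lop τ w x)) -
        2 * m * (rho φ x * Lop τ w x) := k1.sub (j3.const_mul _)
    rw [← integral_const_mul, ← integral_const_mul, ← integral_add j1 (j2.const_mul 2),
      ← integral_sub k1 (j3.const_mul _), ← integral_add k2 iF]
    refine integral_congr_ae (ae_of_all _ fun x => ?_)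
    simp only [Tl]
    ring
  have e2 : ∫ x, rho φ x * ((g₁ x + g₂ x) * Lop τ w x) =
      -((∫ x, rho φ x * ∑ a, xi τ w a x * pd a g₁ x) + ∫ x, rho φ x * ∑ a, xi τ w a x * pd a g₂ x) := by
    rw [green hP hM hg hw2 (Or.inr hw.cs), ← integral_add (j4 _ hg₁) (j4 _ hg₂')]
    congr 1
    refine integral_congr_ae (ae_of_all _ fun x => ?_)
    beta_reduce
    rw [← mul_add, ← Finset.sum_add_distrib]
    congr 1
    refine Finset.sum_congr rfl fun a _ => ?_
    rw [grad, pd_add a (hg₁.differentiable (by simp) x) (hg₂'.differentiable (by simp) x), ← mul_add, mul_comm]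
    rfl
  have e3 : ∫ x, rho φ x * Lop τ w x ^ 2 = (∫ x, rho φ x * (Dxi τ w x * Dxi τ w x).trace) +
      ∫ x, rho φ x * ∑ a, ∑ b, hess φ x a b * (xi τ w a x * xi τ w b x) := by
    simp only [Lop_eq_div hP hM hw2]
    rw [flat_bochner hP.cd hξ hξc]
    rfl
  have e4 : 2 * ∫ x, rho φ x * ∑ a, xi τ w a x * pd a g₁ x ≤
      (∫ x, rho φ x * ∑ a, ∑ b, hess φ x a b * (xi τ w a x * xi τ w b x)) + ∫ x, rho φ x * b₁ x := by
    rw [← integral_const_mul, ← integral_add j5 hb₁]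
    refine integral_mono ((j4 _ hg₁).const_mul 2) (j5.add hb₁) fun x => ?_
    have h3 := mul_le_mul_of_nonneg_left (h1 x fun a => xi τ w a x) (rho_pos φ x).le
    have h4 : (fun a => xi τ w a x) ⬝ᵥ (hess φ x *ᵥ fun a => xi τ w a x) =
        ∑ a, ∑ b, hess φ x a b * (xi τ w a x * xi τ w b x) := by
      simp only [dotProduct, mulVec, Finset.mul_sum]
      exact Finset.sum_congr rfl fun a _ => Finset.sum_congr rfl fun b _ => by ring
    have h5 : (fun a => xi τ w a x) ⬝ᵥ grad g₁ x = ∑ a, xi τ w a x * pd a g₁ x := rfl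
    rw [h4, h5] at h3
    beta_reduce
    linarith
  have e5 := one_w hP hM hw hwe hg₂ hg1 hb₂ h2
  rw [e1, e2, e3, integral_Lop hP hM hw2 hw.cs] at hη'
  linarith

end Crest.Agent.R238
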