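import Crest.Agent.R238.MatL

/-!
# R238 / FAlg: the pointwise algebraic inequality

`exists_frame`: `t = B Bᵀ`, `Bᵀ S B = diag k`.  Put `Û_{abc} = Σ B_{ea} B_{ib} B_{jc} U_{eij}`,
`Ŝ3` likewise (both totally symmetric), `q̂ = Bᵀ q`.  (Slice-wise: `(Bᵀ U_e B)` and then contract the
slice index with `B`; all traces are invariant by cyclicity.)  With
`P_{e;ad} = Ŝ3_{ead} + (k_a + k_d)/2 Û_{ead}`:
`Malg = 2 Σ P²`, `Ralg = 4 Σ_{a,b} q̂_b [k_a P_{a;ab} + k_b (P_{b;aa} - P_{a;ab})]`,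
`qᵀ t q = Σ q̂²`, `tr(tStS) = Σ k²`.  Each of the three sums is bounded by AM-GM:
`4χ X ≥ -(2/3)χ² ΣP² - 6 n |q̂|²|k|²`.  `K = 18 n` works (for `n ≥ 1`).
Suggested split: `alg_diag` = the case `t = 1`, `S = diagonal k`; `Malg_frame`, `Ralg_frame` =
invariance.
-/

set_option autoImplicit false
open MeasureTheory Matrix Set Metric
open scoped RealInnerProductSpace ContDiff BigOperators

namespace Crest.Agent.R238

variable {n : ℕ}

/-- a three-tensor in the frame `B` -/
def falg_hat (B : Mat n) (X : Fin n → Mat n) (a : Fin n) : Mat n := Bᵀ * (∑ e, B e a • X e) * B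

theorem falg_hat_apply (B : Mat n) (X : Fin n → Mat n) (a b c : Fin n) :
    falg_hat B X a b c = ∑ j, ∑ i, ∑ e, B e a * B i b * B j c * X e i j := by
  rw [falg_hat, Matrix.mul_apply]
  refine Finset.sum_congr rfl fun j _ => ?_
  rw [Matrix.mul_apply, Finset.sum_mul]
  refine Finset.sum_congr rfl fun i _ => ?_
  rw [Matrix.sum_apply, Finset.mul_sum, Finset.sum_mul]
  refine Finset.sum_congr rfl fun e _ => ?_
  simp only [Matrix.transpose_apply, Matrix.smul_apply, smul_eq_mul]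
  ring

theorem falg_sym1 (B : Mat n) {X : Fin n → Mat n} (h : ∀ e i j, X e i j = X e j i) (a b c : Fin n) :
    falg_hat B X a b c = falg_hat B X a c b := by
  rw [falg_hat_apply, falg_hat_apply, Finset.sum_comm]
  refine Finset.sum_congr rfl fun j _ => Finset.sum_congr rfl fun i _ => Finset.sum_congr rfl fun e _ => ?_
  rw [h e j i]
  ring

theorem falg_sym2 (B : Mat n) {X : Fin n → Mat n} (h : ∀ e i j, X e i j = X i e j) (a b c : Fin n) :
    falg_hat B X a b c = falg_hat B X b a c := by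
  rw [falg_hat_apply, falg_hat_apply]
  refine Finset.sum_congr rfl fun j _ => ?_
  rw [Finset.sum_comm]
  refine Finset.sum_congr rfl fun i _ => Finset.sum_congr rfl fun e _ => ?_
  rw [h i e j]
  ring

/-- the matrix with eigenvalues `α` in the frame `B` -/
def falg_T (B : Mat n) (α : Fin n → ℝ) : Mat n := B * Matrix.diagonal α * Bᵀ

theorem falg_T_apply (B : Mat n) (α : Fin n → ℝ) (b c : Fin n) :
    falg_T B α b c = ∑ a, B b a * α a * B c a := by
  rw [falg_T, Matrix.mul_apply]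
  simp only [Matrix.mul_diagonal, Matrix.transpose_apply]

theorem falg_tr2 (α β : Fin n → ℝ) (X Y : Mat n) :
    (Matrix.diagonal α * X * Matrix.diagonal β * Y).trace = ∑ i, ∑ l, α i * X i l * β l * Y l i := by
  simp only [Matrix.trace, Matrix.diag_apply]
  refine Finset.sum_congr rfl fun i _ => ?_
  rw [Matrix.mul_apply]
  simp only [Matrix.mul_diagonal, Matrix.diagonal_mul]

theorem falg_L1 (B : Mat n) (α β : Fin n → ℝ) (X Y : Fin n → Mat n) :
    ∑ c, ∑ j, (B * Bᵀ) c j * (falg_T B α * X j * falg_T B β * Y c).trace =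
      ∑ a, ∑ i, ∑ l, α i * falg_hat B X a i l * β l * falg_hat B Y a l i := by
  have h : ∀ a, ∑ i, ∑ l, α i * falg_hat B X a i l * β l * falg_hat B Y a l i =
      ∑ c, ∑ j, B c a * B j a * (falg_T B α * X j * falg_T B β * Y c).trace := fun a => by
    have e : Matrix.diagonal α * falg_hat B X a * Matrix.diagonal β * falg_hat B Y a =
        (Matrix.diagonal α * Bᵀ * (∑ e, B e a • X e) * falg_T B β * (∑ e, B e a • Y e)) * B := by
      simp only [falg_hat, falg_T, Matrix.mul_assoc]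
    have e' : B * (Matrix.diagonal α * Bᵀ * (∑ e, B e a • X e) * falg_T B β * (∑ e, B e a • Y e)) =
        falg_T B α * (∑ e, B e a • X e) * falg_T B β * (∑ e, B e a • Y e) := by
      simp only [falg_T, Matrix.mul_assoc]
    rw [← falg_tr2, e, Matrix.trace_mul_comm, e']
    simp only [Matrix.sum_mul, Matrix.mul_smul, Matrix.smul_mul, Matrix.trace_sum,
      Matrix.trace_smul, smul_eq_mul, Finset.mul_sum, mul_assoc]
  simp only [h, Matrix.mul_apply (M := B), Matrix.transpose_apply, Finset.sum_mul]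
  rw [Finset.sum_comm (f := fun a c => ∑ j, B c a * B j a * (falg_T B α * X j * falg_T B β * Y c).trace)]
  exact Finset.sum_congr rfl fun c _ => Finset.sum_comm

theorem falg_L2 (B : Mat n) (α β q : Fin n → ℝ) (X : Fin n → Mat n) :
    ∑ b, ∑ c, q b * (falg_T B α b c * (falg_T B β * X c).trace) =
      ∑ a, ∑ i, (∑ b, q b * B b a) * α a * (β i * falg_hat B X a i i) := by
  have h : ∀ a, ∑ i, β i * falg_hat B X a i i = ∑ c, B c a * (falg_T B β * X c).trace := fun a => by
    have e0 : ∑ i, β i * falg_hat B X a i i = (Matrix.diagonal β * falg_hat B X a).trace := by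
      simp only [Matrix.trace, Matrix.diag_apply, Matrix.diagonal_mul]
    have e : Matrix.diagonal β * falg_hat B X a = (Matrix.diagonal β * Bᵀ * (∑ e, B e a • X e)) * B := by
      simp only [falg_hat, Matrix.mul_assoc]
    have e' : B * (Matrix.diagonal β * Bᵀ * (∑ e, B e a • X e)) = falg_T B β * (∑ e, B e a • X e) := by
      simp only [falg_T, Matrix.mul_assoc]
    rw [e0, e, Matrix.trace_mul_comm, e']
    simp only [Matrix.mul_sum, Matrix.mul_smul, Matrix.trace_sum, Matrix.trace_smul, smul_eq_mul]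
  simp only [← Finset.mul_sum, h]
  simp only [falg_T_apply B α, Finset.sum_mul, Finset.mul_sum]
  rw [Finset.sum_comm]
  refine (Finset.sum_congr rfl fun c _ => Finset.sum_comm).trans (Finset.sum_comm.trans ?_)
  refine Finset.sum_congr rfl fun a _ => Finset.sum_congr rfl fun c _ => Finset.sum_congr rfl fun b _ => ?_
  ring

theorem falg_M (B S : Mat n) (k : Fin n → ℝ) (hk : Bᵀ * S * B = Matrix.diagonal k) (U S3 : Fin n → Mat n) :
    Malg (B * Bᵀ) S U S3 = ∑ a, ∑ i, ∑ l,
      (3 * (falg_hat B U a i l * k l * falg_hat B S3 a l i) + k i * falg_hat B U a i l * falg_hat B S3 a l i +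
        2 * (falg_hat B S3 a i l * falg_hat B S3 a l i) + k i ^ 2 * falg_hat B U a i l * falg_hat B U a l i +
        k i * falg_hat B U a i l * k l * falg_hat B U a l i) := by
  have t1 : falg_T B (fun _ => 1) = B * Bᵀ := by simp [falg_T]
  have t2 : falg_T B k = B * Bᵀ * S * (B * Bᵀ) := by simp only [falg_T, ← hk, Matrix.mul_assoc]
  have t3 : falg_T B (fun i => k i ^ 2) = B * Bᵀ * S * (B * Bᵀ) * S * (B * Bᵀ) := by
    have : Matrix.diagonal (fun i => k i ^ 2) = Matrix.diagonal k * Matrix.diagonal k := by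
      simp [Matrix.diagonal_mul_diagonal, sq]
    simp only [falg_T, this, ← hk, Matrix.mul_assoc]
  have a1 := falg_L1 B (fun _ => 1) k U S3
  have a2 := falg_L1 B k (fun _ => 1) U S3
  have a3 := falg_L1 B (fun _ => 1) (fun _ => 1) S3 S3
  have a4 := falg_L1 B (fun i => k i ^ 2) (fun _ => 1) U U
  have a5 := falg_L1 B k k U U
  simp only [t1, t2, t3, one_mul, mul_one] at a1 a2 a3 a4 a5
  simp only [Finset.sum_add_distrib, ← Finset.mul_sum]
  rw [← a1, ← a2, ← a3, ← a4, ← a5]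
  generalize B * Bᵀ = t
  simp only [Malg, Finset.mul_sum, ← Finset.sum_add_distrib]
  refine Finset.sum_congr rfl fun c _ => Finset.sum_congr rfl fun j _ => ?_
  have c1 : (t * U j * (t * U c * t * S * t * S)).trace = (t * S * t * S * t * U j * t * U c).trace := by
    have : t * U j * (t * U c * t * S * t * S) = t * U j * t * U c * (t * S * t * S) := by
      simp only [Matrix.mul_assoc]
    rw [this, Matrix.trace_mul_comm]
    simp only [Matrix.mul_assoc]
  have c2 : (t * U j * (t * S3 c * t * S)).trace = (t * S * t * U j * t * S3 c).trace := by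
    have : t * U j * (t * S3 c * t * S) = t * U j * t * S3 c * (t * S) := by simp only [Matrix.mul_assoc]
    rw [this, Matrix.trace_mul_comm]
    simp only [Matrix.mul_assoc]
  have c3 : (t * U j * (t * S * t * U c * t * S)).trace = (t * S * t * U j * (t * S * t) * U c).trace := by
    have : t * U j * (t * S * t * U c * t * S) = t * U j * (t * S * t) * U c * (t * S) := by
      simp only [Matrix.mul_assoc]
    rw [this, Matrix.trace_mul_comm]
    simp only [Matrix.mul_assoc]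
  have c4 : (t * U j * (t * S * t * S3 c)).trace = (t * U j * (t * S * t) * S3 c).trace := by
    simp only [Matrix.mul_assoc]
  simp only [Matrix.mul_add, Matrix.add_mul, Matrix.trace_add]
  rw [c1, c2, c3, c4]
  ring

theorem falg_R (B S : Mat n) (k : Fin n → ℝ) (hk : Bᵀ * S * B = Matrix.diagonal k) (U S3 : Fin n → Mat n)
    (q : Fin n → ℝ) : Ralg (B * Bᵀ) S U S3 q = ∑ a, ∑ i, (∑ b, q b * B b a) *
      (4 * (k i * falg_hat B S3 a i i) + 4 * (k a * (k i * falg_hat B U a i i)) +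
        2 * (k i ^ 2 * falg_hat B U a i i) - 2 * (k a ^ 2 * falg_hat B U a i i)) := by
  have t1 : falg_T B (fun _ => 1) = B * Bᵀ := by simp [falg_T]
  have t2 : falg_T B k = B * Bᵀ * S * (B * Bᵀ) := by simp only [falg_T, ← hk, Matrix.mul_assoc]
  have t3 : falg_T B (fun i => k i ^ 2) = B * Bᵀ * S * (B * Bᵀ) * S * (B * Bᵀ) := by
    have : Matrix.diagonal (fun i => k i ^ 2) = Matrix.diagonal k * Matrix.diagonal k := by
      simp [Matrix.diagonal_mul_diagonal, sq]
    simp only [falg_T, this, ← hk, Matrix.mul_assoc]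
  have a1 := falg_L2 B (fun _ => 1) k q S3
  have a2 := falg_L2 B k k q U
  have a3 := falg_L2 B (fun _ => 1) (fun i => k i ^ 2) q U
  have a4 := falg_L2 B (fun i => k i ^ 2) (fun _ => 1) q U
  simp only [t1, t2, t3] at a1 a2 a3 a4
  have e : ∀ a i, (∑ b, q b * B b a) *
      (4 * (k i * falg_hat B S3 a i i) + 4 * (k a * (k i * falg_hat B U a i i)) +
        2 * (k i ^ 2 * falg_hat B U a i i) - 2 * (k a ^ 2 * falg_hat B U a i i)) =
      4 * ((∑ b, q b * B b a) * 1 * (k i * falg_hat B S3 a i i)) +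
        4 * ((∑ b, q b * B b a) * k a * (k i * falg_hat B U a i i)) +
        2 * ((∑ b, q b * B b a) * 1 * (k i ^ 2 * falg_hat B U a i i)) -
        2 * ((∑ b, q b * B b a) * k a ^ 2 * (1 * falg_hat B U a i i)) := fun a i => by ring
  simp only [e]
  simp only [Finset.sum_add_distrib, Finset.sum_sub_distrib, ← Finset.mul_sum (a := (4 : ℝ)),
    ← Finset.mul_sum (a := (2 : ℝ))]
  rw [← a1, ← a2, ← a3, ← a4]
  generalize B * Bᵀ = t
  simp only [Ralg, Finset.mul_sum, ← Finset.sum_add_distrib, ← Finset.sum_sub_distrib]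
  refine Finset.sum_congr rfl fun b _ => Finset.sum_congr rfl fun c _ => ?_
  rw [Matrix.trace_mul_comm (U c) (t * S * t), Matrix.trace_mul_comm (U c) (t * S * t * S * t)]
  ring

theorem falg_diag (χ : ℝ) (k q : Fin n → ℝ) (u s : Fin n → Mat n) (u1 : ∀ e i j, u e i j = u e j i)
    (u2 : ∀ e i j, u e i j = u i e j) (s1 : ∀ e i j, s e i j = s e j i) (s2 : ∀ e i j, s e i j = s i e j) :
    0 ≤ χ ^ 2 * (∑ a, ∑ i, ∑ l, (3 * (u a i l * k l * s a l i) + k i * u a i l * s a l i +
        2 * (s a i l * s a l i) + k i ^ 2 * u a i l * u a l i + k i * u a i l * k l * u a l i)) +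
      χ * (∑ a, ∑ i, q a * (4 * (k i * s a i i) + 4 * (k a * (k i * u a i i)) +
        2 * (k i ^ 2 * u a i i) - 2 * (k a ^ 2 * u a i i))) +
      (6 + 12 * n) * (∑ a, q a ^ 2) * ∑ i, k i ^ 2 := by
  set P : Fin n → Fin n → Fin n → ℝ := fun a i l => s a i l + (k i + k l) / 2 * u a i l with hP
  have hM : ∀ a, ∑ i, ∑ l, (3 * (u a i l * k l * s a l i) + k i * u a i l * s a l i +
      2 * (s a i l * s a l i) + k i ^ 2 * u a i l * u a l i + k i * u a i l * k l * u a l i) =
      2 * ∑ i, ∑ l, P a i l ^ 2 := fun a => by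
    set f : Fin n → Fin n → ℝ := fun i l => 3 * (u a i l * k l * s a l i) + k i * u a i l * s a l i +
      2 * (s a i l * s a l i) + k i ^ 2 * u a i l * u a l i + k i * u a i l * k l * u a l i with hf
    have h1 : ∑ i, ∑ l, f i l = ∑ i, ∑ l, f l i := Finset.sum_comm
    have h2 : ∑ i, ∑ l, f i l + ∑ i, ∑ l, f l i = 4 * ∑ i, ∑ l, P a i l ^ 2 := by
      simp only [← Finset.sum_add_distrib, Finset.mul_sum]
      refine Finset.sum_congr rfl fun i _ => Finset.sum_congr rfl fun l _ => ?_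
      simp only [hf, hP, u1 a l i, s1 a l i]
      ring
    change ∑ i, ∑ l, f i l = _
    linarith
  have b1 : ∑ a, ∑ i, P i i a ^ 2 ≤ ∑ a, ∑ i, ∑ l, P a i l ^ 2 := by
    rw [Finset.sum_comm]
    exact Finset.sum_le_sum fun i _ => Finset.single_le_sum (f := fun j => ∑ l, P i j l ^ 2)
      (fun j _ => Finset.sum_nonneg fun l _ => sq_nonneg _) (Finset.mem_univ i)
  have b2 : ∑ a, ∑ i, P a i i ^ 2 ≤ ∑ a, ∑ i, ∑ l, P a i l ^ 2 :=
    Finset.sum_le_sum fun a _ => Finset.sum_le_sum fun i _ =>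
      Finset.single_le_sum (f := fun l => P a i l ^ 2) (fun l _ => sq_nonneg _) (Finset.mem_univ i)
  have b3 : ∑ a, q a ^ 2 * k a ^ 2 ≤ (∑ a, q a ^ 2) * ∑ i, k i ^ 2 := by
    rw [Finset.sum_mul]
    exact Finset.sum_le_sum fun a _ => mul_le_mul_of_nonneg_left
      (Finset.single_le_sum (f := fun i => k i ^ 2) (fun l _ => sq_nonneg _) (Finset.mem_univ a)) (sq_nonneg _)
  have b4 : ∑ a, ∑ i, (-(4 / 3 * χ ^ 2 * P i i a ^ 2) - 2 / 3 * χ ^ 2 * P a i i ^ 2 - 6 * (q a ^ 2 * k i ^ 2) -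
      12 * (q a ^ 2 * k a ^ 2)) ≤ χ * ∑ a, ∑ i, q a * (4 * (k i * s a i i) + 4 * (k a * (k i * u a i i)) +
        2 * (k i ^ 2 * u a i i) - 2 * (k a ^ 2 * u a i i)) := by
    simp only [Finset.mul_sum]
    refine Finset.sum_le_sum fun a _ => Finset.sum_le_sum fun i _ => ?_
    have e : q a * (4 * (k i * s a i i) + 4 * (k a * (k i * u a i i)) + 2 * (k i ^ 2 * u a i i) -
        2 * (k a ^ 2 * u a i i)) = 4 * q a * (k i * P i i a + k a * (P a i i - P i i a)) := by
      simp only [hP, u1 i i a, s1 i i a, u2 i a i, s2 i a i]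
      ring
    rw [e]
    nlinarith [sq_nonneg (χ * P i i a + 3 * (q a * k i)), sq_nonneg (χ * P a i i + 3 * (q a * k a)),
      sq_nonneg (χ * P i i a - 3 * (q a * k a))]
  have e4 : ∑ a, ∑ i, (-(4 / 3 * χ ^ 2 * P i i a ^ 2) - 2 / 3 * χ ^ 2 * P a i i ^ 2 - 6 * (q a ^ 2 * k i ^ 2) -
      12 * (q a ^ 2 * k a ^ 2)) = -(4 / 3 * χ ^ 2 * ∑ a, ∑ i, P i i a ^ 2) - 2 / 3 * χ ^ 2 * ∑ a, ∑ i, P a i i ^ 2 -
      6 * ((∑ a, q a ^ 2) * ∑ i, k i ^ 2) - 12 * (n * ∑ a, q a ^ 2 * k a ^ 2) := by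
    simp only [Finset.sum_sub_distrib, Finset.sum_neg_distrib, Finset.sum_const, Finset.card_univ,
      Fintype.card_fin, nsmul_eq_mul]
    simp only [← Finset.mul_sum, ← Finset.sum_mul]
    ring
  rw [e4] at b4
  rw [Finset.sum_congr rfl fun a _ => hM a, ← Finset.mul_sum]
  have b5 := mul_le_mul_of_nonneg_left b1 (sq_nonneg χ)
  have b6 := mul_le_mul_of_nonneg_left b2 (sq_nonneg χ)
  have b7 := mul_le_mul_of_nonneg_left b3 (Nat.cast_nonneg (α := ℝ) n)
  linarith

theorem alg_ineq (n : ℕ) : ∃ K : ℝ, 0 ≤ K ∧ ∀ (c C χ : ℝ) (t S : Mat n) (U S3 : Fin n → Mat n)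
    (q : Fin n → ℝ), 0 < c → Ell c C t → (∀ i j, S i j = S j i) →
    (∀ e i j, U e i j = U e j i) → (∀ e i j, U e i j = U i e j) →
    (∀ e i j, S3 e i j = S3 e j i) → (∀ e i j, S3 e i j = S3 i e j) →
    0 ≤ χ ^ 2 * Malg t S U S3 + χ * Ralg t S U S3 q +
      K * (q ⬝ᵥ (t *ᵥ q)) * (t * S * (t * S)).trace := by
  refine ⟨6 + 12 * n, by positivity, fun c C χ t S U S3 q hc ht hS u1 u2 s1 s2 => ?_⟩
  obtain ⟨B, k, rfl, hk⟩ := exists_frame ht hc hS
  have e1 : q ⬝ᵥ ((B * Bᵀ) *ᵥ q) = ∑ a, (∑ b, q b * B b a) ^ 2 := by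
    rw [← Matrix.mulVec_mulVec, Matrix.dotProduct_mulVec, Matrix.mulVec_transpose]
    simp only [dotProduct, Matrix.vecMul, sq]
  have e2 : (B * Bᵀ * S * (B * Bᵀ * S)).trace = ∑ i, k i ^ 2 := by
    have : B * Bᵀ * S * (B * Bᵀ * S) = B * (Bᵀ * S * B * (Bᵀ * S)) := by simp only [Matrix.mul_assoc]
    rw [this, Matrix.trace_mul_comm, Matrix.mul_assoc (Bᵀ * S * B), hk, Matrix.diagonal_mul_diagonal,
      Matrix.trace_diagonal]
    simp only [sq]
  rw [falg_M B S k hk, falg_R B S k hk, e1, e2]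
  exact falg_diag χ k (fun a => ∑ b, q b * B b a) (falg_hat B U) (falg_hat B S3) (falg_sym1 B u1)
    (falg_sym2 B u2) (falg_sym1 B s1) (falg_sym2 B s2)

end Crest.Agent.R238
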