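import Crest.Agent.R238.EGreen

/-!
# R238 / FDel: the divergence of `κ = τ D²s` and its adjoint identities

`delta_kappa`: `∂_eκ = τU_eτS + τ S3_e` (`pdM_mul`, `MS.dτ`), `Lam_eq`, total symmetry.
`delta_adj`: `MS.stein` with `N = χ² κ_{ad} V_a` (sum over `a`, then over `d`).
`Iid`: `MS.stein` with `N = S_{da} ξ^a`, or `green` with `h = ξ^a`, `s := ∂_a s`.
-/

set_option autoImplicit false
open MeasureTheory Matrix Set Metric
open scoped RealInnerProductSpace ContDiff BigOperators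

namespace Crest.Agent.R238

variable {n : ℕ}

variable {α β c C : ℝ} {φ : E n → ℝ} {τ : E n → Mat n} {U : E n → Fin n → Mat n}

theorem fdel_alg1 (t S : Mat n) (x : Fin n → ℝ) (hS : ∀ i j, S i j = S j i) (a : Fin n) :
    ∑ d, (t * S) a d * x d = ∑ b, t a b * ∑ i, x i * S i b := by
  simp only [Matrix.mul_apply, Finset.sum_mul, Finset.mul_sum]
  rw [Finset.sum_comm]
  refine Finset.sum_congr rfl fun b _ => Finset.sum_congr rfl fun d _ => ?_
  rw [hS d b]
  ring

theorem fdel_alg2 (t K : Mat n) (U : Fin n → Mat n) (hU : ∀ e i j, U e i j = U i e j) (a : Fin n) :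
    ∑ d, ∑ e, t d e * (t * U e * K) a d = ∑ b, t a b * (U b * (K * t)).trace := by
  have h1 : ∀ d e, t d e * (t * U e * K) a d = ∑ b, ∑ j, t a b * (U b e j * (K j d * t d e)) := by
    intro d e
    rw [Matrix.mul_assoc]
    simp only [Matrix.mul_apply, Finset.mul_sum]
    refine Finset.sum_congr rfl fun b _ => Finset.sum_congr rfl fun j _ => ?_
    rw [hU e b j]
    ring
  simp only [h1]
  simp only [Matrix.trace, Matrix.diag, Matrix.mul_apply, Finset.mul_sum]
  calc ∑ d, ∑ e, ∑ b, ∑ j, t a b * (U b e j * (K j d * t d e))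
      = ∑ e, ∑ d, ∑ b, ∑ j, t a b * (U b e j * (K j d * t d e)) := Finset.sum_comm
    _ = ∑ e, ∑ b, ∑ d, ∑ j, t a b * (U b e j * (K j d * t d e)) :=
        Finset.sum_congr rfl fun e _ => Finset.sum_comm
    _ = ∑ b, ∑ e, ∑ d, ∑ j, t a b * (U b e j * (K j d * t d e)) := Finset.sum_comm
    _ = _ := Finset.sum_congr rfl fun b _ => Finset.sum_congr rfl fun e _ => Finset.sum_comm

theorem fdel_alg3 (t : Mat n) (T : Fin n → Mat n) (hT : ∀ e i j, T e i j = T i j e) (a : Fin n) :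
    ∑ d, ∑ e, t d e * (t * T e) a d = ∑ b, t a b * ∑ i, ∑ j, t i j * T b i j := by
  simp only [Matrix.mul_apply, Finset.mul_sum]
  calc ∑ d, ∑ e, ∑ b, t d e * (t a b * T e b d) = ∑ d, ∑ b, ∑ e, t d e * (t a b * T e b d) :=
        Finset.sum_congr rfl fun e _ => Finset.sum_comm
    _ = ∑ b, ∑ d, ∑ e, t d e * (t a b * T e b d) := Finset.sum_comm
    _ = _ := by
        refine Finset.sum_congr rfl fun b _ => Finset.sum_congr rfl fun d _ => Finset.sum_congr rfl fun e _ => ?_
        rw [hT e b d]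
        ring

theorem fdel_alg4 (t K : Mat n) (D : Fin n → Mat n) (x V g : Fin n → ℝ) (W : Mat n) (q : ℝ) :
    ∑ d, (x d * (q ^ 2 * ∑ a, K a d * V a) -
      ∑ e, t d e * (2 * q * g e * (∑ a, K a d * V a) + q ^ 2 * ∑ a, (D e a d * V a + K a d * W a e))) =
    q ^ 2 * (∑ a, V a * (∑ d, K a d * x d - ∑ d, ∑ e, t d e * D e a d)) -
      2 * (q * (V ⬝ᵥ ((K * t) *ᵥ g))) - q ^ 2 * ∑ a, ∑ e, (K * t) a e * W a e := by
  have h1 : ∑ d, x d * (q ^ 2 * ∑ a, K a d * V a) = q ^ 2 * ∑ a, V a * ∑ d, K a d * x d := by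
    simp only [Finset.mul_sum]
    rw [Finset.sum_comm]
    exact Finset.sum_congr rfl fun a _ => Finset.sum_congr rfl fun d _ => by ring
  have h2 : ∑ d, ∑ e, t d e * (2 * q * g e * ∑ a, K a d * V a) = 2 * (q * (V ⬝ᵥ ((K * t) *ᵥ g))) := by
    simp only [dotProduct, Matrix.mulVec, Matrix.mul_apply, Finset.mul_sum, Finset.sum_mul]
    calc ∑ d, ∑ e, ∑ a, t d e * (2 * q * g e * (K a d * V a))
        = ∑ e, ∑ d, ∑ a, t d e * (2 * q * g e * (K a d * V a)) := Finset.sum_comm
      _ = ∑ e, ∑ a, ∑ d, t d e * (2 * q * g e * (K a d * V a)) :=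
          Finset.sum_congr rfl fun e _ => Finset.sum_comm
      _ = ∑ a, ∑ e, ∑ d, t d e * (2 * q * g e * (K a d * V a)) := Finset.sum_comm
      _ = _ := Finset.sum_congr rfl fun a _ => Finset.sum_congr rfl fun e _ =>
          Finset.sum_congr rfl fun d _ => by ring
  have h3 : ∑ d, ∑ e, t d e * (q ^ 2 * ∑ a, D e a d * V a) =
      q ^ 2 * ∑ a, V a * ∑ d, ∑ e, t d e * D e a d := by
    simp only [Finset.mul_sum]
    calc ∑ d, ∑ e, ∑ a, t d e * (q ^ 2 * (D e a d * V a))
        = ∑ d, ∑ a, ∑ e, t d e * (q ^ 2 * (D e a d * V a)) := Finset.sum_congr rfl fun e _ => Finset.sum_comm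
      _ = ∑ a, ∑ d, ∑ e, t d e * (q ^ 2 * (D e a d * V a)) := Finset.sum_comm
      _ = _ := Finset.sum_congr rfl fun a _ => Finset.sum_congr rfl fun e _ =>
          Finset.sum_congr rfl fun d _ => by ring
  have h4 : ∑ d, ∑ e, t d e * (q ^ 2 * ∑ a, K a d * W a e) = q ^ 2 * ∑ a, ∑ e, (K * t) a e * W a e := by
    simp only [Matrix.mul_apply, Finset.mul_sum, Finset.sum_mul]
    calc ∑ d, ∑ e, ∑ a, t d e * (q ^ 2 * (K a d * W a e))
        = ∑ e, ∑ d, ∑ a, t d e * (q ^ 2 * (K a d * W a e)) := Finset.sum_comm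
      _ = ∑ e, ∑ a, ∑ d, t d e * (q ^ 2 * (K a d * W a e)) :=
          Finset.sum_congr rfl fun e _ => Finset.sum_comm
      _ = ∑ a, ∑ e, ∑ d, t d e * (q ^ 2 * (K a d * W a e)) := Finset.sum_comm
      _ = _ := Finset.sum_congr rfl fun a _ => Finset.sum_congr rfl fun e _ =>
          Finset.sum_congr rfl fun d _ => by ring
  simp only [Finset.sum_sub_distrib, Finset.sum_add_distrib, mul_add, mul_sub]
  rw [h1, h2, h3, h4]
  ring

theorem fdel_int (hP : Pot α β φ) {f : E n → ℝ} (hf : Continuous f) (hc : HasCompactSupport f) :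
    Integrable fun x => rho φ x * f x :=
  (hP.continuous_rho.mul hf).integrable_of_hasCompactSupport hc.mul_left

theorem fdel_cs_sum {f : Fin n → E n → ℝ} (h : ∀ i, HasCompactSupport (f i)) :
    HasCompactSupport fun x => ∑ i, f i x := by
  have := HasCompactSupport.finset_sum (s := Finset.univ) (f := f) fun i _ => h i
  rwa [Finset.sum_fn] at this

theorem fdel_cont_mulVec {A : E n → Mat n} {v : E n → Fin n → ℝ} (hA : ∀ i j, Continuous fun x => A x i j)
    (hv : ∀ j, Continuous fun x => v x j) (i : Fin n) : Continuous fun x => (A x *ᵥ v x) i := by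
  simp only [Matrix.mulVec, dotProduct]
  exact continuous_finsetSum _ fun j _ => (hA i j).mul (hv j)

theorem delta_kappa (hM : MS φ c C τ U) {s : E n → ℝ} (hs : ContDiff ℝ 3 s) (x : E n)
    (a : Fin n) :
    ∑ d, (τ x * hess s x) a d * x d -
      ∑ d, ∑ e, τ x d e * pdM e (fun y => τ y * hess s y) x a d = -(τ x *ᵥ Lam τ s x) a := by
  have hH : ∀ i j, ContDiff ℝ 1 fun y => hess s y i j := contDiff_hess hs (by norm_num)
  have h2 : ContDiff ℝ 2 s := hs.of_le (by norm_num)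
  have e1 : ∀ e, pdM e (fun y => τ y * hess s y) x =
      τ x * U x e * (τ x * hess s x) + τ x * hess (pd e s) x := fun e => by
    rw [pdM_mul hM.cd hH, hM.dτ, pdM_hess hs, Matrix.mul_assoc (τ x * U x e)]
  have e2 : ∀ e i j, hess (pd e s) x i j = hess (pd i s) x j e := fun e i j => by
    rw [← pdM_hess hs, ← pdM_hess hs, pdM_hess_symm2 hs, pdM_hess_symm1 hs]
  simp only [e1, Matrix.add_apply, mul_add, Finset.sum_add_distrib]
  rw [fdel_alg1 _ _ _ (hess_symm h2 x), fdel_alg2 _ _ _ (hM.Usym2 x), fdel_alg3 _ _ e2]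
  simp only [Matrix.mulVec, dotProduct, Lam_eq hM hs, Avec, Lop, mul_add, mul_sub, Finset.sum_add_distrib,
    Finset.sum_sub_distrib]
  have e3 : ∀ i b, hess s x i b = pd i (pd b s) x := fun _ _ => rfl
  simp only [e3]
  ring

theorem delta_adj (hP : Pot α β φ) (hM : MS φ c C τ U) {s χ : E n → ℝ} {V : Fin n → E n → ℝ}
    (hs : ContDiff ℝ 3 s) (hχ : ContDiff ℝ 1 χ) (hc : HasCompactSupport χ)
    (hV : ∀ a, ContDiff ℝ 1 (V a)) :
    ∫ x, rho φ x * (χ x ^ 2 * ∑ a, ∑ e, (τ x * hess s x * τ x) a e * pd e (V a) x) =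
      -(∫ x, rho φ x * (χ x ^ 2 * ((fun a => V a x) ⬝ᵥ (τ x *ᵥ Lam τ s x)))) -
        2 * ∫ x, rho φ x * (χ x * ((fun a => V a x) ⬝ᵥ ((τ x * hess s x * τ x) *ᵥ grad χ x))) := by
  have hH : ∀ i j, ContDiff ℝ 1 fun y => hess s y i j := contDiff_hess hs (by norm_num)
  have hK : ∀ i j, ContDiff ℝ 1 fun y => (τ y * hess s y) i j := contDiff_mul_entry hM.cd hH
  have hσ : ∀ i j, Continuous fun y => (τ y * hess s y * τ y) i j :=
    continuous_mul_entry (A := fun y => τ y * hess s y) (fun i j => (hK i j).continuous) hM.continuous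
  have hc2 : HasCompactSupport fun x => χ x ^ 2 := by
    simp only [sq]
    exact hc.mul_right
  have hS : ∀ d, ContDiff ℝ 1 fun y => ∑ a, (τ y * hess s y) a d * V a y := fun d =>
    ContDiff.sum fun a _ => (hK a d).mul (hV a)
  have hN : ∀ d, ContDiff ℝ 1 fun y => χ y ^ 2 * ∑ a, (τ y * hess s y) a d * V a y := fun d =>
    (hχ.pow 2).mul (hS d)
  have hNc : ∀ d, HasCompactSupport fun y => χ y ^ 2 * ∑ a, (τ y * hess s y) a d * V a y := fun d => hc2.mul_right
  have hpd : ∀ x d e, pd e (fun y => χ y ^ 2 * ∑ a, (τ y * hess s y) a d * V a y) x =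
      2 * χ x * grad χ x e * (∑ a, (τ x * hess s x) a d * V a x) +
        χ x ^ 2 * ∑ a, (pdM e (fun y => τ y * hess s y) x a d * V a x + (τ x * hess s x) a d * pd e (V a) x) := by
    intro x d e
    rw [pd_mul e ((hχ.pow 2).differentiable one_ne_zero x) ((hS d).differentiable one_ne_zero x),
      pd_comp e (hasDerivAt_pow 2 (χ x)) (hχ.differentiable one_ne_zero x),
      pd_sum _ e fun a _ => ((hK a d).mul (hV a)).differentiable one_ne_zero x]
    congr 1
    · simp [grad]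
    · congr 1
      exact Finset.sum_congr rfl fun a _ =>
        pd_mul e ((hK a d).differentiable one_ne_zero x) ((hV a).differentiable one_ne_zero x)
  have i1 : ∀ d, Integrable fun x => rho φ x * (x d * (χ x ^ 2 * ∑ a, (τ x * hess s x) a d * V a x)) := fun d =>
    fdel_int hP ((contDiff_coord (m := 1) d).continuous.mul (hN d).continuous) (hNc d).mul_left
  have i2 : ∀ d, Integrable fun x => rho φ x *
      ∑ e, τ x d e * pd e (fun y => χ y ^ 2 * ∑ a, (τ y * hess s y) a d * V a y) x := fun d =>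
    fdel_int hP (continuous_finsetSum _ fun e _ => (hM.continuous d e).mul (continuous_pd (hN d) e))
      (fdel_cs_sum fun e => (cs_pd (hNc d) e).mul_left)
  have h0 : ∫ x, ∑ d, (rho φ x * (x d * (χ x ^ 2 * ∑ a, (τ x * hess s x) a d * V a x)) - rho φ x *
      ∑ e, τ x d e * pd e (fun y => χ y ^ 2 * ∑ a, (τ y * hess s y) a d * V a y) x) = 0 := by
    have i12 : ∀ d, Integrable fun x => rho φ x * (x d * (χ x ^ 2 * ∑ a, (τ x * hess s x) a d * V a x)) -
        rho φ x * ∑ e, τ x d e * pd e (fun y => χ y ^ 2 * ∑ a, (τ y * hess s y) a d * V a y) x :=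
      fun d => (i1 d).sub (i2 d)
    rw [integral_finsetSum _ fun d _ => i12 d]
    refine Finset.sum_eq_zero fun d _ => ?_
    rw [integral_sub (i1 d) (i2 d), hM.stein _ (hN d) (hNc d) d, sub_self]
  have jA : Integrable fun x => rho φ x * (χ x ^ 2 * ∑ a, ∑ e, (τ x * hess s x * τ x) a e * pd e (V a) x) :=
    fdel_int hP ((hχ.continuous.pow 2).mul (continuous_finsetSum _ fun a _ => continuous_finsetSum _ fun e _ =>
      (hσ a e).mul (continuous_pd (hV a) e))) hc2.mul_right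
  have jB : Integrable fun x => rho φ x * (χ x ^ 2 * ((fun a => V a x) ⬝ᵥ (τ x *ᵥ Lam τ s x))) :=
    fdel_int hP ((hχ.continuous.pow 2).mul (continuous_finsetSum _ fun a _ => (hV a).continuous.mul
      (fdel_cont_mulVec hM.continuous (continuous_Lam hM hs) a))) hc2.mul_right
  have jC : Integrable fun x =>
      rho φ x * (χ x * ((fun a => V a x) ⬝ᵥ ((τ x * hess s x * τ x) *ᵥ grad χ x))) :=
    fdel_int hP (hχ.continuous.mul (continuous_finsetSum _ fun a _ => (hV a).continuous.mul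
      (fdel_cont_mulVec (A := fun x => τ x * hess s x * τ x) (v := grad χ) hσ (continuous_pd hχ) a))) hc.mul_right
  have key : ∀ x : E n, ∑ d, (rho φ x * (x d * (χ x ^ 2 * ∑ a, (τ x * hess s x) a d * V a x)) - rho φ x *
      ∑ e, τ x d e * pd e (fun y => χ y ^ 2 * ∑ a, (τ y * hess s y) a d * V a y) x) =
      -(rho φ x * (χ x ^ 2 * ((fun a => V a x) ⬝ᵥ (τ x *ᵥ Lam τ s x)))) -
        2 * (rho φ x * (χ x * ((fun a => V a x) ⬝ᵥ ((τ x * hess s x * τ x) *ᵥ grad χ x)))) -
        rho φ x * (χ x ^ 2 * ∑ a, ∑ e, (τ x * hess s x * τ x) a e * pd e (V a) x) := by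
    intro x
    have k1 := fdel_alg4 (τ x) (τ x * hess s x) (fun e => pdM e (fun y => τ y * hess s y) x) (fun d => x d)
      (fun a => V a x) (grad χ x) (Matrix.of fun a e => pd e (V a) x) (χ x)
    simp only [Matrix.of_apply, delta_kappa hM hs] at k1
    simp only [← mul_sub, ← Finset.mul_sum, hpd]
    rw [k1]
    simp only [dotProduct, mul_neg, Finset.sum_neg_distrib]
    ring
  have jBC : Integrable fun x => -(rho φ x * (χ x ^ 2 * ((fun a => V a x) ⬝ᵥ (τ x *ᵥ Lam τ s x)))) -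
      2 * (rho φ x * (χ x * ((fun a => V a x) ⬝ᵥ ((τ x * hess s x * τ x) *ᵥ grad χ x)))) :=
    jB.neg.sub (jC.const_mul 2)
  have jB' : Integrable fun x => -(rho φ x * (χ x ^ 2 * ((fun a => V a x) ⬝ᵥ (τ x *ᵥ Lam τ s x)))) := jB.neg
  simp only [key] at h0
  rw [integral_sub jBC jA, integral_sub jB' (jC.const_mul 2), integral_neg, integral_const_mul] at h0
  linarith

theorem Iid (hP : Pot α β φ) (hM : MS φ c C τ U) {s w : E n → ℝ} (hs : ContDiff ℝ 3 s)
    (hw : Tst w) :
    ∫ x, rho φ x * (τ x * hess s x * Dxi τ w x).trace =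
      -∫ x, rho φ x * ∑ a, xi τ w a x * Avec τ s x a := by
  have hw2 : ContDiff ℝ 2 w := hw.cd.of_le (by norm_cast)
  have hx : ∀ a, ContDiff ℝ 1 (xi τ w a) := contDiff_xi hM hw2
  have hxc : ∀ a, HasCompactSupport (xi τ w a) := fun a =>
    hw.cs.of_isClosed_subset (isClosed_tsupport _) (tsupport_xi w a)
  have hs2 : ∀ a, ContDiff ℝ 2 (pd a s) := contDiff_pd hs (by norm_num)
  have i1 : ∀ a, Integrable fun x => rho φ x * (xi τ w a x * Lop τ (pd a s) x) := fun a =>
    fdel_int hP ((hx a).continuous.mul (continuous_Lop hM (hs2 a))) (hxc a).mul_right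
  have i2 : ∀ a, Integrable fun x => rho φ x * (grad (xi τ w a) x ⬝ᵥ (τ x *ᵥ grad (pd a s) x)) := fun a =>
    fdel_int hP (continuous_finsetSum _ fun i _ => (continuous_pd (hx a) i).mul
      (fdel_cont_mulVec (v := grad (pd a s)) hM.continuous (continuous_pd ((hs2 a).of_le (by norm_num))) i))
      (fdel_cs_sum fun i => (cs_pd (hxc a) i).mul_right)
  have e1 : ∀ x, rho φ x * (τ x * hess s x * Dxi τ w x).trace =
      ∑ a, rho φ x * (grad (xi τ w a) x ⬝ᵥ (τ x *ᵥ grad (pd a s) x)) := fun x => by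
    rw [← Finset.mul_sum]
    congr 1
    simp only [Matrix.trace, Matrix.diag, Matrix.mul_apply, dotProduct, Matrix.mulVec, grad, hess, Dxi,
      Matrix.of_apply]
    rw [Finset.sum_comm]
    exact Finset.sum_congr rfl fun a _ => Finset.sum_congr rfl fun i _ => mul_comm _ _
  simp only [e1, Finset.mul_sum, Avec]
  rw [integral_finsetSum _ fun a _ => i2 a, integral_finsetSum _ fun a _ => i1 a, ← Finset.sum_neg_distrib]
  refine Finset.sum_congr rfl fun a _ => ?_
  rw [green hP hM (hx a) (hs2 a) (Or.inl (hxc a)), neg_neg]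

end Crest.Agent.R238
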