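import Crest.Agent.R238.EGreen
import Crest.Agent.R238.Ext

/-!
# R238 / FT1: the differentiated Stein identity and the `X`-identity

`T1` for a test function `N`: `∫ρ ∂_aτ_{de} ∂_eN = -∫τ_{de}∂_a(ρ∂_eN) = ∫ρ φ_a τ_{de}∂_eN -
∫ρτ_{de}∂_e∂_aN`; `MS.stein` for `φ_a N` and for `∂_aN`; `∫ρ x_d ∂_aN = -∫∂_a(ρ x_d) N`.  Then
`ext_C1`.
`Xid`: sum `T1` over `a,d` with `N = χ² (κκ)_{ad}`, `κ = τ hess s`; `∂_aτ_{de} = τ_{di}U_{aij}τ_{je}`
and total symmetry give `Σ_{a,d,e} ∂_aτ_{de} ∂_eN_{ad} = Σ_{e,j} τ_{ej} tr(τ U_j ∂_eN)`;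
`pdM_mul`, `MS.dτ` for `∂_e(κκ)`.
-/

set_option autoImplicit false
open MeasureTheory Matrix Set Metric
open scoped RealInnerProductSpace ContDiff BigOperators

namespace Crest.Agent.R238

variable {n : ℕ}

variable {α β c C : ℝ} {φ : E n → ℝ} {τ : E n → Mat n} {U : E n → Fin n → Mat n}

theorem ft1_int {N f : E n → ℝ} (hc : HasCompactSupport N) (hf : Continuous f)
    (h : ∀ x, N x = 0 → (∀ e, pd e N x = 0) → f x = 0) : Integrable f :=
  hf.integrable_of_hasCompactSupport (HasCompactSupport.intro hc fun x hx =>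
    h x (image_eq_zero_of_notMem_tsupport hx) fun e => pd_eq_zero hx e)

theorem ft1_intL (hP : Pot α β φ) (hM : MS φ c C τ U) {N : E n → ℝ} (hN : ContDiff ℝ 1 N)
    (hc : HasCompactSupport N) (a d : Fin n) :
    Integrable fun x => rho φ x * ∑ e, pd a (fun y => τ y d e) x * pd e N x :=
  ft1_int hc (hP.continuous_rho.mul (continuous_finsetSum _ fun e _ =>
    (continuous_pd (hM.cd d e) a).mul (continuous_pd hN e))) fun x _ h => by simp [h]

theorem ft1_intR (hP : Pot α β φ) (hM : MS φ c C τ U) {N : E n → ℝ} (hN : ContDiff ℝ 1 N)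
    (hc : HasCompactSupport N) (a d : Fin n) :
    Integrable fun x =>
      rho φ x * (((if a = d then 1 else 0) - ∑ e, hess φ x a e * τ x d e) * N x) :=
  ft1_int hc (hP.continuous_rho.mul ((continuous_const.sub (continuous_finsetSum _ fun e _ =>
    (continuous_hess hP.cd a e).mul (hM.continuous d e))).mul hN.continuous)) fun x h _ => by simp [h]

theorem T1 (hP : Pot α β φ) (hM : MS φ c C τ U) {N : E n → ℝ} (hN : ContDiff ℝ 1 N)
    (hc : HasCompactSupport N) (a d : Fin n) :
    ∫ x, rho φ x * ∑ e, pd a (fun y => τ y d e) x * pd e N x =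
      ∫ x, rho φ x * (((if a = d then 1 else 0) - ∑ e, hess φ x a e * τ x d e) * N x) := by
  have hφ1 : ContDiff ℝ 1 φ := hP.cd.of_le (by norm_num)
  have hρ : ContDiff ℝ 1 (rho φ) := contDiff_rho hφ1
  have hφa : ContDiff ℝ 1 (pd a φ) := contDiff_pd hP.cd (by norm_num) a
  have dφ : ∀ x, DifferentiableAt ℝ φ x := fun x => hφ1.differentiable one_ne_zero x
  have dρ : ∀ x, DifferentiableAt ℝ (rho φ) x := fun x => hρ.differentiable one_ne_zero x
  have dN : ∀ x, DifferentiableAt ℝ N x := fun x => hN.differentiable one_ne_zero x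
  have cρ := hρ.continuous
  have cN := hN.continuous
  have cpN := fun e => continuous_pd hN e
  have cpρ := fun e => continuous_pd hρ e
  have cτ := fun e => hM.continuous d e
  have cpτ := fun e k => continuous_pd (hM.cd d e) k
  have cx : Continuous fun x : E n => x d := (contDiff_coord (m := 1) d).continuous
  -- the swap identities
  have i1 : ∀ e, Integrable fun x => rho φ x *
      (pd a (fun y => τ y d e) x * pd e N x - pd e (fun y => τ y d e) x * pd a N x) := fun e =>
    ft1_int hc (cρ.mul (((cpτ e a).mul (cpN e)).sub ((cpτ e e).mul (cpN a)))) fun x _ h => by simp [h]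
  have i2 : ∀ e, Integrable fun x => τ x d e * (pd a (rho φ) x * pd e N x - pd e (rho φ) x * pd a N x) :=
    fun e => ft1_int hc ((cτ e).mul (((cpρ a).mul (cpN e)).sub ((cpρ e).mul (cpN a)))) fun x _ h => by simp [h]
  have z1 : ∀ e, ∫ x, (rho φ x *
      (pd a (fun y => τ y d e) x * pd e N x - pd e (fun y => τ y d e) x * pd a N x) +
      τ x d e * (pd a (rho φ) x * pd e N x - pd e (rho φ) x * pd a N x)) = 0 := fun e => by
    rw [integral_add (i1 e) (i2 e), swap hρ (hM.cd d e) hN hc a e, neg_add_cancel]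
  have i3 := integrable_finsetSum Finset.univ fun e _ => (i1 e).add (i2 e)
  have z3 := integral_finsetSum Finset.univ fun e _ => (i1 e).add (i2 e)
  simp only [Pi.add_apply, z1, Finset.sum_const_zero] at i3 z3
  -- Stein identity for `φ_a N`
  have hst := hM.stein (fun x => pd a φ x * N x) (hφa.mul hN) hc.mul_left d
  have e4 : ∀ x e, pd e (fun x => pd a φ x * N x) x = hess φ x a e * N x + pd a φ x * pd e N x := fun x e => by
    rw [pd_mul e (hφa.differentiable one_ne_zero x) (dN x), hess_symm hP.cd x a e]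
    rfl
  simp only [e4] at hst
  have i4 : Integrable fun x => rho φ x * (x d * (pd a φ x * N x)) :=
    ft1_int hc (cρ.mul (cx.mul (hφa.continuous.mul cN))) fun x h _ => by simp [h]
  have i5 : Integrable fun x => rho φ x * ∑ e, τ x d e * (hess φ x a e * N x + pd a φ x * pd e N x) :=
    ft1_int hc (cρ.mul (continuous_finsetSum _ fun e _ => (cτ e).mul
      (((continuous_hess hP.cd a e).mul cN).add (hφa.continuous.mul (cpN e))))) fun x h h' => by simp [h, h']
  -- integration by parts
  have hx : ContDiff ℝ 1 fun x : E n => rho φ x * x d := hρ.mul (contDiff_coord d)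
  have hib := ibp hx hN (Or.inr hc) a
  have i6 : Integrable fun x => rho φ x * x d * pd a N x :=
    ft1_int hc (hx.continuous.mul (cpN a)) fun x _ h => by simp [h]
  have i7 : Integrable fun x => pd a (fun x : E n => rho φ x * x d) x * N x :=
    ft1_int hc ((continuous_pd hx a).mul cN) fun x h _ => by simp [h]
  have key : ∀ x, rho φ x * ∑ e, pd a (fun y => τ y d e) x * pd e N x =
      rho φ x * (((if a = d then 1 else 0) - ∑ e, hess φ x a e * τ x d e) * N x) +
      (∑ e, (rho φ x * (pd a (fun y => τ y d e) x * pd e N x - pd e (fun y => τ y d e) x * pd a N x) +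
        τ x d e * (pd a (rho φ) x * pd e N x - pd e (rho φ) x * pd a N x)) -
      ((rho φ x * (x d * (pd a φ x * N x)) -
        rho φ x * ∑ e, τ x d e * (hess φ x a e * N x + pd a φ x * pd e N x)) +
      (rho φ x * x d * pd a N x + pd a (fun x : E n => rho φ x * x d) x * N x))) := by
    intro x
    have s1 := stein_pt hP hM x d
    rw [pd_mul a (dρ x) ((contDiff_coord (m := 1) d).differentiable one_ne_zero x), pd_coord]
    simp only [pd_rho _ (dφ x)]
    have t1 : ∑ e, (rho φ x * (pd a (fun y => τ y d e) x * pd e N x - pd e (fun y => τ y d e) x * pd a N x) +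
        τ x d e * (-(pd a φ x * rho φ x) * pd e N x - -(pd e φ x * rho φ x) * pd a N x)) =
        rho φ x * ∑ e, pd a (fun y => τ y d e) x * pd e N x -
          rho φ x * pd a N x * (∑ e, pd e (fun y => τ y d e) x - ∑ e, τ x d e * pd e φ x) -
          rho φ x * pd a φ x * ∑ e, τ x d e * pd e N x := by
      simp only [mul_sub, Finset.mul_sum, ← Finset.sum_sub_distrib]
      exact Finset.sum_congr rfl fun e _ => by ring
    have t2 : ∑ e, τ x d e * (hess φ x a e * N x + pd a φ x * pd e N x) =
        (∑ e, hess φ x a e * τ x d e) * N x + pd a φ x * ∑ e, τ x d e * pd e N x := by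
      simp only [Finset.sum_mul, Finset.mul_sum, ← Finset.sum_add_distrib]
      exact Finset.sum_congr rfl fun e _ => by ring
    rw [t1, t2, s1]
    ring
  simp only [key]
  have q1 := integral_add (ft1_intR hP hM hN hc a d) (i3.sub ((i4.sub i5).add (i6.add i7)))
  have q2 := integral_sub i3 ((i4.sub i5).add (i6.add i7))
  have q3 := integral_add (i4.sub i5) (i6.add i7)
  simp only [Pi.add_apply, Pi.sub_apply] at q1 q2 q3
  rw [q1, q2, q3, integral_sub i4 i5, integral_add i6 i7, z3, hst, hib]
  ring

theorem ft1_alg {t : Mat n} {V : Fin n → Mat n} (ht : ∀ i j, t i j = t j i)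
    (h1 : ∀ e i j, V e i j = V e j i) (h2 : ∀ e i j, V e i j = V i e j) (Z : Mat n) (e : Fin n) :
    ∑ a, ∑ d, (t * V a * t) d e * Z a d = ∑ j, t e j * (t * V j * Z).trace := by
  simp only [Matrix.mul_apply, Matrix.trace, Matrix.diag, Finset.sum_mul, Finset.mul_sum]
  rw [Finset.sum_comm]
  rw [Finset.sum_congr rfl fun d _ => Finset.sum_comm, Finset.sum_comm]
  refine Finset.sum_congr rfl fun j _ => Finset.sum_congr rfl fun d _ => Finset.sum_congr rfl fun a _ =>
    Finset.sum_congr rfl fun i _ => ?_
  rw [h1 a i j, h2 a j i, h1 j a i, ht j e]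
  ring

theorem ft1_alg2 {t H : Mat n} (hH : ∀ i j, H i j = H j i) (K : Mat n) (k : ℝ) :
    ∑ a, ∑ d, ((if a = d then 1 else 0) - ∑ e, H a e * t d e) * (k * K a d) =
      k * K.trace - k * (H * (K * t)).trace := by
  have e1 : ∑ a, ∑ d, (if a = d then (1 : ℝ) else 0) * (k * K a d) = k * K.trace := by
    simp [Matrix.trace, Finset.mul_sum]
  have e2 : ∑ a, ∑ d, (∑ e, H a e * t d e) * (k * K a d) = k * (H * (K * t)).trace := by
    simp only [Matrix.mul_apply, Matrix.trace, Matrix.diag, Finset.sum_mul, Finset.mul_sum]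
    rw [Finset.sum_congr rfl fun a _ => Finset.sum_comm, Finset.sum_comm]
    refine Finset.sum_congr rfl fun e _ => Finset.sum_congr rfl fun a _ => Finset.sum_congr rfl fun d _ => ?_
    rw [hH a e]
    ring
  simp only [sub_mul, Finset.sum_sub_distrib, e1, e2]

theorem Xid (hP : Pot α β φ) (hM : MS φ c C τ U) {s χ : E n → ℝ} (hs : ContDiff ℝ 3 s)
    (hχ : ContDiff ℝ 1 χ) (hc : HasCompactSupport χ) :
    ∫ x, rho φ x * (χ x ^ 2 * (hess φ x * (τ x * hess s x * τ x * hess s x * τ x)).trace) =
      ∫ x, rho φ x * (χ x ^ 2 * ((τ x * hess s x * (τ x * hess s x)).trace -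
          ∑ e, ∑ j, τ x e j * (τ x * U x j *
            (τ x * U x e * τ x * hess s x * τ x * hess s x
              + τ x * pdM e (hess s) x * τ x * hess s x
              + τ x * hess s x * τ x * U x e * τ x * hess s x
              + τ x * hess s x * τ x * pdM e (hess s) x)).trace)
        - 2 * χ x * ∑ b, ∑ e, pd b χ x * (τ x b e *
            (U x e * (τ x * hess s x * τ x * hess s x * τ x)).trace)) := by
  have hS : ∀ i j, ContDiff ℝ 1 fun x => hess s x i j := contDiff_hess hs (by norm_num)
  have k1 := contDiff_mul_entry hM.cd hS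
  have k2 := contDiff_mul_entry k1 hM.cd
  have k3 := contDiff_mul_entry k2 hS
  have hχ2 : ContDiff ℝ 1 fun x => χ x ^ 2 := hχ.pow 2
  have hc2 : HasCompactSupport fun x => χ x ^ 2 :=
    HasCompactSupport.intro hc fun x hx => by simp [image_eq_zero_of_notMem_tsupport hx]
  have hN : ∀ a d, ContDiff ℝ 1 fun x => χ x ^ 2 * (τ x * hess s x * τ x * hess s x) a d :=
    fun a d => hχ2.mul (k3 a d)
  have hNc : ∀ a d, HasCompactSupport fun x => χ x ^ 2 * (τ x * hess s x * τ x * hess s x) a d :=
    fun a d => hc2.mul_right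
  have iL := integrable_finsetSum Finset.univ fun a _ => integrable_finsetSum Finset.univ fun d _ =>
    ft1_intL hP hM (hN a d) (hNc a d) a d
  have iR := integrable_finsetSum Finset.univ fun a _ => integrable_finsetSum Finset.univ fun d _ =>
    ft1_intR hP hM (hN a d) (hNc a d) a d
  have hLR : ∫ x, ∑ a, ∑ d, rho φ x * ∑ e, pd a (fun y => τ y d e) x *
      pd e (fun x => χ x ^ 2 * (τ x * hess s x * τ x * hess s x) a d) x =
      ∫ x, ∑ a, ∑ d, rho φ x * (((if a = d then 1 else 0) - ∑ e, hess φ x a e * τ x d e) *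
        (χ x ^ 2 * (τ x * hess s x * τ x * hess s x) a d)) := by
    rw [integral_finsetSum _ fun a _ => integrable_finsetSum Finset.univ fun d _ =>
        ft1_intL hP hM (hN a d) (hNc a d) a d,
      integral_finsetSum _ fun a _ => integrable_finsetSum Finset.univ fun d _ =>
        ft1_intR hP hM (hN a d) (hNc a d) a d]
    refine Finset.sum_congr rfl fun a _ => ?_
    rw [integral_finsetSum _ fun d _ => ft1_intL hP hM (hN a d) (hNc a d) a d,
      integral_finsetSum _ fun d _ => ft1_intR hP hM (hN a d) (hNc a d) a d]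
    exact Finset.sum_congr rfl fun d _ => T1 hP hM (hN a d) (hNc a d) a d
  have iP : Integrable fun x => rho φ x * (χ x ^ 2 * (τ x * hess s x * τ x * hess s x).trace) :=
    ft1_int hc (hP.continuous_rho.mul (hχ2.continuous.mul (continuous_trace fun i j => (k3 i j).continuous)))
      fun x h _ => by simp [h]
  have dK : ∀ x e, pdM e (fun y => τ y * hess s y * τ y * hess s y) x =
      τ x * U x e * τ x * hess s x * τ x * hess s x + τ x * pdM e (hess s) x * τ x * hess s x
        + τ x * hess s x * τ x * U x e * τ x * hess s x + τ x * hess s x * τ x * pdM e (hess s) x := by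
    intro x e
    rw [pdM_mul k2 hS, pdM_mul k1 hM.cd, pdM_mul hM.cd hS, hM.dτ]
    simp only [Matrix.add_mul, Matrix.mul_assoc]
  have dN : ∀ x e a d, pd e (fun x => χ x ^ 2 * (τ x * hess s x * τ x * hess s x) a d) x =
      2 * χ x * pd e χ x * (τ x * hess s x * τ x * hess s x) a d +
        χ x ^ 2 * pdM e (fun y => τ y * hess s y * τ y * hess s y) x a d := by
    intro x e a d
    have dχ := hχ.differentiable one_ne_zero x
    rw [pd_mul e (hχ2.differentiable one_ne_zero x) ((k3 a d).differentiable one_ne_zero x),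
      pd_comp (g := fun r => r ^ 2) e (hasDerivAt_pow 2 (χ x)) dχ]
    simp only [pdM, Matrix.of_apply]
    norm_num
  have eR : ∀ x, rho φ x * (χ x ^ 2 * (hess φ x * (τ x * hess s x * τ x * hess s x * τ x)).trace) =
      rho φ x * (χ x ^ 2 * (τ x * hess s x * τ x * hess s x).trace) -
      ∑ a, ∑ d, rho φ x * (((if a = d then 1 else 0) - ∑ e, hess φ x a e * τ x d e) *
        (χ x ^ 2 * (τ x * hess s x * τ x * hess s x) a d)) := by
    intro x
    simp only [← Finset.mul_sum]
    rw [ft1_alg2 (hess_symm hP.cd x)]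
    ring
  have eL : ∀ x, rho φ x * (χ x ^ 2 * ((τ x * hess s x * (τ x * hess s x)).trace -
          ∑ e, ∑ j, τ x e j * (τ x * U x j *
            (τ x * U x e * τ x * hess s x * τ x * hess s x
              + τ x * pdM e (hess s) x * τ x * hess s x
              + τ x * hess s x * τ x * U x e * τ x * hess s x
              + τ x * hess s x * τ x * pdM e (hess s) x)).trace)
        - 2 * χ x * ∑ b, ∑ e, pd b χ x * (τ x b e *
            (U x e * (τ x * hess s x * τ x * hess s x * τ x)).trace)) =
      rho φ x * (χ x ^ 2 * (τ x * hess s x * τ x * hess s x).trace) -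
      ∑ a, ∑ d, rho φ x * ∑ e, pd a (fun y => τ y d e) x *
        pd e (fun x => χ x ^ 2 * (τ x * hess s x * τ x * hess s x) a d) x := by
    intro x
    have A := ft1_alg (hM.ell x).symm (hM.Usym1 x) (hM.Usym2 x)
    simp only [← Finset.mul_sum, ← dK, dN, hM.pd_entry]
    generalize (fun e => pdM e (fun y => τ y * hess s y * τ y * hess s y) x) = Z at *
    have B : ∑ a, ∑ d, ∑ e, (τ x * U x a * τ x) d e *
        (2 * χ x * pd e χ x * (τ x * hess s x * τ x * hess s x) a d +
          χ x ^ 2 * pdM e (fun y => τ y * hess s y * τ y * hess s y) x a d) =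
        ∑ e, (2 * χ x * (pd e χ x * ∑ a, ∑ d, (τ x * U x a * τ x) d e * (τ x * hess s x * τ x * hess s x) a d) +
          χ x ^ 2 * ∑ a, ∑ d, (τ x * U x a * τ x) d e *
            pdM e (fun y => τ y * hess s y * τ y * hess s y) x a d) := by
      rw [Finset.sum_congr rfl fun a _ => Finset.sum_comm, Finset.sum_comm]
      refine Finset.sum_congr rfl fun e _ => ?_
      simp only [Finset.mul_sum, ← Finset.sum_add_distrib]
      exact Finset.sum_congr rfl fun a _ => Finset.sum_congr rfl fun d _ => by ring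
    have D : ∀ j, (τ x * U x j * (τ x * hess s x * τ x * hess s x)).trace =
        (U x j * (τ x * hess s x * τ x * hess s x * τ x)).trace := fun j => by
      rw [Matrix.mul_assoc (τ x), Matrix.trace_mul_comm, Matrix.mul_assoc (U x j)]
    rw [B]
    simp only [A, D, Finset.sum_add_distrib, ← Finset.mul_sum, ← Matrix.mul_assoc (τ x * hess s x)]
    ring
  simp only [eR, eL]
  rw [integral_sub iP iR, integral_sub iP iL, hLR]

end Crest.Agent.R238
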