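import Crest.Agent.R238.FQ
import Crest.Agent.R238.FT1
import Crest.Agent.R238.FAlg

/-!
# R238 / FK: the key inequality with cut-off

With `X` from `Xid`, `Q` from `Qid`, `q = ∇χ`, `A = Λ - B`, `B_a = tr(U_aσ)` (`Lam_eq`):
`2Q - ∫ρχ² tr κκ - X = ∫ρ[χ² Malg + χ Ralg + 2χ q_b n_{be} tr(τU_e) - 4χ Λ·σq]` (pointwise `ring`
after unfolding), `alg_ineq`, and `n_{be} tr(τU_e) = (κκ)_{bd}(τ∇φ - x)_d` (`trU`).  For
`χ = cut R`, `R ≥ 1`: `q = 0` off the annulus `R ≤ |x| ≤ 3R/2`, `|q_i| ≤ D/R`,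
`|τ∇φ - x|_i ≤ (nCβ + 1)|x|`, entries of `σ`, `κκ` are bounded by `C' √nsq S`, `C' nsq S`
(`entry_mul_le`, `entry_le_sqrt_nsq`), `tr κκ ≤ C² nsq S`, `2√nsq S |Λ_a| ≤ nsq S + Λ_a²`.
-/

set_option autoImplicit false
open MeasureTheory Matrix Set Metric
open scoped RealInnerProductSpace ContDiff BigOperators

namespace Crest.Agent.R238

variable {n : ℕ}

theorem fk_sum_le {f : Fin n → ℝ} {a : ℝ} (h : ∀ i, |f i| ≤ a) : |∑ i, f i| ≤ n * a := by
  refine (Finset.abs_sum_le_sum_abs _ _).trans ?_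
  simpa using Finset.sum_le_card_nsmul Finset.univ (fun i => |f i|) a fun i _ => h i

theorem fk_abs_mul {a b A B : ℝ} (ha : |a| ≤ A) (hb : |b| ≤ B) : |a * b| ≤ A * B := by
  rw [abs_mul]
  exact mul_le_mul ha hb (abs_nonneg _) ((abs_nonneg _).trans ha)

/-- integrand of `Qid` without the weight -/
def fkQ (χ : ℝ) (t S : Mat n) (U S3 : Fin n → Mat n) (q A : Fin n → ℝ) : ℝ :=
  χ ^ 2 * ((t * S * (t * S)).trace + ∑ e, ∑ j, t e j *
      (((t * U j * (t * S * t) + t * S3 j * t + t * S * t * U j * t) * S3 e).trace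
        - (t * S * t * U j * t * S3 e).trace))
    + 2 * χ * ((∑ b, ∑ e, q b * (t b e * (t * S * t * S3 e).trace)) - A ⬝ᵥ ((t * S * t) *ᵥ q))

/-- integrand of `Xid` without the weight -/
def fkX (χ : ℝ) (t S : Mat n) (U S3 : Fin n → Mat n) (q : Fin n → ℝ) : ℝ :=
  χ ^ 2 * ((t * S * (t * S)).trace - ∑ e, ∑ j, t e j * (t * U j *
      (t * U e * t * S * t * S + t * S3 e * t * S + t * S * t * U e * t * S
        + t * S * t * S3 e)).trace)
    - 2 * χ * ∑ b, ∑ e, q b * (t b e * (U e * (t * S * t * S * t)).trace)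

theorem fk_alg (χ : ℝ) {t S : Mat n} (U S3 : Fin n → Mat n) (q : Fin n → ℝ) {A Λ w : Fin n → ℝ}
    (ht : tᵀ = t) (hS : Sᵀ = S) (hΛ : ∀ a, Λ a = A a + (U a * (t * S * t)).trace)
    (hw : ∀ d, ∑ i, t d i * (t * U i).trace = w d) :
    2 * fkQ χ t S U S3 q A - χ ^ 2 * (t * S * (t * S)).trace - fkX χ t S U S3 q =
      χ ^ 2 * Malg t S U S3 + χ * Ralg t S U S3 q +
        (2 * χ * (∑ b, ∑ d, q b * ((t * S * t * S) b d * w d)) - 4 * χ * (Λ ⬝ᵥ ((t * S * t) *ᵥ q))) := by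
  have hM : Malg t S U S3 = 2 * (∑ e, ∑ j, t e j *
      (((t * U j * (t * S * t) + t * S3 j * t + t * S * t * U j * t) * S3 e).trace
        - (t * S * t * U j * t * S3 e).trace)) + ∑ e, ∑ j, t e j * (t * U j *
      (t * U e * t * S * t * S + t * S3 e * t * S + t * S * t * U e * t * S
        + t * S * t * S3 e)).trace := by
    unfold Malg
    simp only [Finset.mul_sum, ← Finset.sum_add_distrib]
    exact Finset.sum_congr rfl fun e _ => Finset.sum_congr rfl fun j _ => by ring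
  have hR : Ralg t S U S3 q = 4 * (∑ b, ∑ e, q b * (t b e * (t * S * t * S3 e).trace)) +
      4 * (∑ b, ∑ e, q b * ((t * S * t) b e * (U e * (t * S * t)).trace)) +
      2 * (∑ b, ∑ e, q b * (t b e * (U e * (t * S * t * S * t)).trace)) -
      2 * ∑ b, ∑ e, q b * ((t * S * t * S * t) b e * (t * U e).trace) := by
    unfold Ralg
    simp only [Finset.mul_sum, ← Finset.sum_add_distrib, ← Finset.sum_sub_distrib]
    exact Finset.sum_congr rfl fun e _ => Finset.sum_congr rfl fun j _ => by ring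
  have hσ : ∀ i j, (t * S * t) i j = (t * S * t) j i := fun i j => by
    have : (t * S * t)ᵀ = t * S * t := by
      rw [transpose_mul, transpose_mul, ht, hS, Matrix.mul_assoc]
    rw [← transpose_apply (t * S * t) i j, this]
  have hA : Λ ⬝ᵥ ((t * S * t) *ᵥ q) = A ⬝ᵥ ((t * S * t) *ᵥ q) +
      ∑ b, ∑ e, q b * ((t * S * t) b e * (U e * (t * S * t)).trace) := by
    rw [Finset.sum_comm]
    simp only [dotProduct, mulVec, hΛ, add_mul, Finset.sum_add_distrib]
    congr 1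
    refine Finset.sum_congr rfl fun e _ => ?_
    rw [Finset.mul_sum]
    exact Finset.sum_congr rfl fun b _ => by rw [hσ e b]; ring
  have hN : ∑ b, ∑ d, q b * ((t * S * t * S) b d * w d) =
      ∑ b, ∑ e, q b * ((t * S * t * S * t) b e * (t * U e).trace) := by
    refine Finset.sum_congr rfl fun b _ => ?_
    rw [← Finset.mul_sum, ← Finset.mul_sum]
    congr 1
    simp only [← hw, mul_apply (M := t * S * t * S) (N := t), Finset.mul_sum, Finset.sum_mul]
    rw [Finset.sum_comm]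
    exact Finset.sum_congr rfl fun e _ => Finset.sum_congr rfl fun j _ => by ring
  unfold fkQ fkX
  rw [hM, hR, hA, hN]
  ring

theorem fk_bound {c C D W R K χ : ℝ} {t S : Mat n} {q w : Fin n → ℝ} (Λ : Fin n → ℝ) (hc : 0 < c)
    (hC : 0 ≤ C) (ht : Ell c C t) (hS : ∀ i j, S i j = S j i) (h0 : 0 ≤ χ) (h1 : χ ≤ 1) (hD : 0 ≤ D)
    (hW : 0 ≤ W) (hK : 0 ≤ K) (hR : 1 ≤ R) (hq : ∀ i, |q i| ≤ D / R) (hw : ∀ d, |w d| ≤ W * R) :
    K * (q ⬝ᵥ (t *ᵥ q)) * (t * S * (t * S)).trace -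
        (2 * χ * (∑ b, ∑ d, q b * ((t * S * t * S) b d * w d)) - 4 * χ * (Λ ⬝ᵥ ((t * S * t) *ᵥ q))) ≤
      (K * C ^ 3 * n * D ^ 2 + 2 * n ^ 5 * C ^ 2 * D * W + 2 * n ^ 4 * C ^ 2 * D +
        2 * n ^ 3 * C ^ 2 * D) * (nsq S + R⁻¹ * ∑ a, Λ a ^ 2) := by
  have hR0 : 0 < R := one_pos.trans_le hR
  have hs0 := nsq_nonneg S
  have hr : √(nsq S) ^ 2 = nsq S := Real.sq_sqrt hs0
  have hr0 : 0 ≤ √(nsq S) := Real.sqrt_nonneg _
  have e0 := ht.entry_le hc.le
  have e1 := entry_mul_le e0 (entry_le_sqrt_nsq S)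
  have e2 := entry_mul_le e1 e0
  have e3 := entry_mul_le e2 (entry_le_sqrt_nsq S)
  have hT0 : 0 ≤ (t * S * (t * S)).trace := le_trans (by positivity) (tr_sq_lo ht hc hS)
  have hT1 := tr_sq_hi ht hc hS
  have hDR : D / R ≤ D := div_le_self hD hR
  have hΛ0 : 0 ≤ ∑ a, Λ a ^ 2 := Finset.sum_nonneg fun a _ => sq_nonneg _
  have hRi : 0 < R⁻¹ := inv_pos.2 hR0
  have hRi1 : R⁻¹ ≤ 1 := inv_le_one_of_one_le₀ hR
  generalize √(nsq S) = r at hr hr0 e1 e2 e3
  -- first term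
  have a1 : q ⬝ᵥ (t *ᵥ q) ≤ C * (n * (D * D)) := by
    refine (ht.hi q).trans (mul_le_mul_of_nonneg_left ?_ hC)
    exact (le_abs_self _).trans (fk_sum_le fun i => fk_abs_mul ((hq i).trans hDR) ((hq i).trans hDR))
  have a2 : K * (q ⬝ᵥ (t *ᵥ q)) * (t * S * (t * S)).trace ≤ K * C ^ 3 * n * D ^ 2 * nsq S :=
    calc K * (q ⬝ᵥ (t *ᵥ q)) * (t * S * (t * S)).trace
        ≤ K * (C * (n * (D * D))) * (t * S * (t * S)).trace :=
          mul_le_mul_of_nonneg_right (mul_le_mul_of_nonneg_left a1 hK) hT0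
      _ ≤ K * (C * (n * (D * D))) * (C ^ 2 * nsq S) := mul_le_mul_of_nonneg_left hT1 (by positivity)
      _ = _ := by ring
  -- second term
  have b1 : |∑ b, ∑ d, q b * ((t * S * t * S) b d * w d)| ≤ n ^ 5 * C ^ 2 * D * W * nsq S := by
    refine (fk_sum_le fun b => fk_sum_le fun d => fk_abs_mul (hq b) (fk_abs_mul (e3 b d) (hw d))).trans_eq ?_
    rw [← hr]
    field_simp
  have b2 : -(2 * χ * (∑ b, ∑ d, q b * ((t * S * t * S) b d * w d))) ≤
      2 * n ^ 5 * C ^ 2 * D * W * nsq S := by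
    have := fk_abs_mul (a := χ) (A := 1) (by rwa [abs_of_nonneg h0]) b1
    have := neg_abs_le (χ * ∑ b, ∑ d, q b * ((t * S * t * S) b d * w d))
    linarith
  -- third term
  have c1 : ∀ a, |((t * S * t) *ᵥ q) a| ≤ n ^ 3 * C ^ 2 * D * R⁻¹ * r := fun a => by
    refine (fk_sum_le fun b => fk_abs_mul (e2 a b) (hq b)).trans_eq ?_
    field_simp
  have c2 : ∀ a, |Λ a * ((t * S * t) *ᵥ q) a| ≤
      n ^ 3 * C ^ 2 * D * R⁻¹ / 2 * nsq S + n ^ 3 * C ^ 2 * D * R⁻¹ / 2 * Λ a ^ 2 := fun a => by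
    refine (fk_abs_mul le_rfl (c1 a)).trans ?_
    have hz : (0 : ℝ) ≤ n ^ 3 * C ^ 2 * D * R⁻¹ := by positivity
    rw [← hr, ← sq_abs (Λ a)]
    nlinarith [mul_nonneg hz (sq_nonneg (|Λ a| - r))]
  have c3 : |Λ ⬝ᵥ ((t * S * t) *ᵥ q)| ≤
      n * (n ^ 3 * C ^ 2 * D * R⁻¹ / 2 * nsq S) + n ^ 3 * C ^ 2 * D * R⁻¹ / 2 * ∑ a, Λ a ^ 2 := by
    refine (Finset.abs_sum_le_sum_abs _ _).trans ((Finset.sum_le_sum fun a _ => c2 a).trans_eq ?_)
    rw [Finset.sum_add_distrib, ← Finset.mul_sum, ← Finset.mul_sum]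
    simp only [Finset.sum_const, Finset.card_univ, Fintype.card_fin, nsmul_eq_mul]
    ring
  have c4 : 4 * χ * (Λ ⬝ᵥ ((t * S * t) *ᵥ q)) ≤
      2 * n ^ 4 * C ^ 2 * D * (R⁻¹ * nsq S) + 2 * n ^ 3 * C ^ 2 * D * (R⁻¹ * ∑ a, Λ a ^ 2) := by
    have := fk_abs_mul (a := χ) (A := 1) (by rwa [abs_of_nonneg h0]) c3
    have := le_abs_self (χ * (Λ ⬝ᵥ ((t * S * t) *ᵥ q)))
    linarith
  have c5 : 2 * n ^ 4 * C ^ 2 * D * (R⁻¹ * nsq S) ≤ 2 * n ^ 4 * C ^ 2 * D * nsq S :=
    mul_le_mul_of_nonneg_left (mul_le_of_le_one_left hs0 hRi1) (by positivity)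
  have d1 : 0 ≤ (K * C ^ 3 * n * D ^ 2 + 2 * n ^ 5 * C ^ 2 * D * W + 2 * n ^ 4 * C ^ 2 * D) *
      (R⁻¹ * ∑ a, Λ a ^ 2) := by positivity
  have d2 : 0 ≤ 2 * n ^ 3 * C ^ 2 * D * nsq S := by positivity
  nlinarith

theorem fk_int {F χ : E n → ℝ} (hF : Continuous F) (hc : HasCompactSupport χ)
    (h : ∀ x, χ x = 0 → F x = 0) : Integrable F :=
  hF.integrable_of_hasCompactSupport (hc.mono fun x hx h0 => hx (h x h0))

theorem fk_on {F : E n → ℝ} (hF : Continuous F) (r : ℝ) : IntegrableOn F (ball (0 : E n) r) :=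
  (hF.continuousOn.integrableOn_compact (isCompact_closedBall 0 r)).mono_set ball_subset_closedBall

theorem Kcut {α β c C : ℝ} {φ : E n → ℝ} {τ : E n → Mat n} {U : E n → Fin n → Mat n}
    (hP : Pot α β φ) (hM : MS φ c C τ U) : ∃ K : ℝ, 0 ≤ K ∧ ∀ R : ℝ, 1 ≤ R →
    ∀ s : E n → ℝ, ContDiff ℝ 4 s →
      (∫ x, rho φ x * (cut R x ^ 2 * (hess φ x * (τ x * hess s x * τ x * hess s x * τ x)).trace)) +
        ∫ x, rho φ x * (cut R x ^ 2 * (τ x * hess s x * (τ x * hess s x)).trace) ≤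
      2 * (∫ x, rho φ x * (cut R x ^ 2 * (Avec τ s x ⬝ᵥ (τ x *ᵥ Lam τ s x)))) +
        K * ((∫ x in ball (0 : E n) (2 * R) \ ball 0 R, rho φ x * nsq (hess s x)) +
          R⁻¹ * ∫ x in ball (0 : E n) (2 * R), rho φ x * ∑ a, Lam τ s x a ^ 2) := by
  obtain ⟨K₀, hK₀, halg⟩ := alg_ineq n
  obtain ⟨D, hD, hcut⟩ := pd_cut_le n
  have hc := hM.cpos
  have hC : 0 ≤ C := hc.le.trans hM.cle
  have hβ : 0 ≤ β := hP.apos.le.trans hP.ale
  have hW : (0 : ℝ) ≤ (n * (C * β) + 1) * (3 / 2) := by positivity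
  refine ⟨K₀ * C ^ 3 * n * D ^ 2 + 2 * n ^ 5 * C ^ 2 * D * ((n * (C * β) + 1) * (3 / 2)) +
    2 * n ^ 4 * C ^ 2 * D + 2 * n ^ 3 * C ^ 2 * D, by positivity, fun R hR s hs => ?_⟩
  generalize hK : K₀ * C ^ 3 * n * D ^ 2 + 2 * n ^ 5 * C ^ 2 * D * ((n * (C * β) + 1) * (3 / 2)) +
    2 * n ^ 4 * C ^ 2 * D + 2 * n ^ 3 * C ^ 2 * D = K
  have hK0 : 0 ≤ K := by rw [← hK]; positivity
  have hR0 : 0 < R := one_pos.trans_le hR
  have hs3 : ContDiff ℝ 3 s := hs.of_le (by norm_num)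
  have hs2 : ContDiff ℝ 2 s := hs.of_le (by norm_num)
  have hχ : ContDiff ℝ 1 (cut R : E n → ℝ) := (contDiff_cut R).of_le (by exact_mod_cast le_top)
  have hcs : HasCompactSupport (cut R : E n → ℝ) := (tst_cut hR0).cs
  have cρ := hP.continuous_rho
  have cχ := hχ.continuous
  have cτ : Continuous τ := continuous_matrix hM.continuous
  have cS : Continuous (hess s) := continuous_matrix (continuous_hess hs2)
  have cU : ∀ e, Continuous fun x => U x e := fun e => continuous_matrix (hM.Ucont e)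
  have c3 : ∀ e, Continuous (pdM e (hess s)) := fun e => continuous_matrix fun i j =>
    continuous_pd (contDiff_hess hs3 (by norm_num) i j) e
  have cq : Continuous (grad (cut R : E n → ℝ)) := continuous_pi fun i => continuous_pd hχ i
  have cA : Continuous (Avec τ s) := continuous_pi (continuous_Avec hM hs3)
  have cΛ : Continuous (Lam τ s) := continuous_pi (continuous_Lam hM hs3)
  have eX : ∫ x, rho φ x * (cut R x ^ 2 * (hess φ x * (τ x * hess s x * τ x * hess s x * τ x)).trace) =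
      ∫ x, rho φ x * fkX (cut R x) (τ x) (hess s x) (U x) (fun e => pdM e (hess s) x) (grad (cut R) x) :=
    Xid hP hM hs3 hχ hcs
  have eQ : ∫ x, rho φ x * (cut R x ^ 2 * (Avec τ s x ⬝ᵥ (τ x *ᵥ Lam τ s x))) =
      ∫ x, rho φ x * fkQ (cut R x) (τ x) (hess s x) (U x) (fun e => pdM e (hess s) x) (grad (cut R) x)
        (Avec τ s x) := Qid hP hM hs hχ hcs
  have iX : Integrable fun x => rho φ x *
      fkX (cut R x) (τ x) (hess s x) (U x) (fun e => pdM e (hess s) x) (grad (cut R) x) := by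
    refine fk_int ?_ hcs fun x hx => by simp [fkX, hx]
    unfold fkX
    fun_prop
  have iQ : Integrable fun x => rho φ x *
      fkQ (cut R x) (τ x) (hess s x) (U x) (fun e => pdM e (hess s) x) (grad (cut R) x) (Avec τ s x) := by
    refine fk_int ?_ hcs fun x hx => by simp [fkQ, hx]
    unfold fkQ
    fun_prop
  have iT : Integrable fun x => rho φ x * (cut R x ^ 2 * (τ x * hess s x * (τ x * hess s x)).trace) :=
    fk_int (by fun_prop) hcs fun x hx => by simp [hx]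
  have mA : MeasurableSet (ball (0 : E n) (2 * R) \ ball 0 R) := measurableSet_ball.diff measurableSet_ball
  have i1 : Integrable ((ball (0 : E n) (2 * R) \ ball 0 R).indicator fun x => rho φ x * nsq (hess s x)) := by
    refine (integrable_indicator_iff mA).2 ((fk_on ?_ (2 * R)).mono_set sdiff_subset)
    unfold nsq
    fun_prop
  have i2 : Integrable ((ball (0 : E n) (2 * R)).indicator fun x => rho φ x * ∑ a, Lam τ s x a ^ 2) :=
    (integrable_indicator_iff measurableSet_ball).2 (fk_on (by fun_prop) (2 * R))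
  have i3 : Integrable fun x => K *
      ((ball (0 : E n) (2 * R) \ ball 0 R).indicator (fun x => rho φ x * nsq (hess s x)) x +
        R⁻¹ * (ball (0 : E n) (2 * R)).indicator (fun x => rho φ x * ∑ a, Lam τ s x a ^ 2) x) :=
    (i1.add (i2.const_mul _)).const_mul _
  rw [eX, eQ, ← integral_indicator mA, ← integral_indicator measurableSet_ball, ← integral_add iX iT,
    ← integral_const_mul, ← integral_const_mul, ← integral_add i1 (i2.const_mul _), ← integral_const_mul,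
    ← integral_add (iQ.const_mul _) i3]
  refine integral_mono (iX.add iT) ((iQ.const_mul _).add i3) fun x => ?_
  have hρ := rho_pos φ x
  have h1 := halg c C (cut R x) (τ x) (hess s x) (U x) (fun e => pdM e (hess s) x) (grad (cut R) x) hc
    (hM.ell x) (hess_symm hs2 x) (hM.Usym1 x) (hM.Usym2 x) (pdM_hess_symm1 hs3 x) (pdM_hess_symm2 hs3 x)
  have h2 := fk_alg (S := hess s x) (cut R x) (U x) (fun e => pdM e (hess s) x) (grad (cut R) x) (hM.ell x).transpose
    (Matrix.ext fun i j => hess_symm hs2 x j i) (Lam_eq hM hs3 x) (trU hP hM x)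
  have key : rho φ x * (K₀ * (grad (cut R) x ⬝ᵥ (τ x *ᵥ grad (cut R) x)) *
      (τ x * hess s x * (τ x * hess s x)).trace -
        (2 * cut R x * (∑ b, ∑ d, grad (cut R) x b * ((τ x * hess s x * τ x * hess s x) b d *
          (∑ e, τ x d e * pd e φ x - x d))) -
          4 * cut R x * (Lam τ s x ⬝ᵥ ((τ x * hess s x * τ x) *ᵥ grad (cut R) x)))) ≤
      K * ((ball (0 : E n) (2 * R) \ ball 0 R).indicator (fun x => rho φ x * nsq (hess s x)) x +
        R⁻¹ * (ball (0 : E n) (2 * R)).indicator (fun x => rho φ x * ∑ a, Lam τ s x a ^ 2) x) := by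
    by_cases hx : R ≤ ‖x‖ ∧ ‖x‖ ≤ 3 / 2 * R
    · have m2 : x ∈ ball (0 : E n) (2 * R) := mem_ball_zero_iff.2 (by linarith [hx.2])
      have m1 : x ∈ ball (0 : E n) (2 * R) \ ball 0 R :=
        ⟨m2, fun h => absurd (mem_ball_zero_iff.1 h) (not_lt.2 hx.1)⟩
      rw [indicator_of_mem m1, indicator_of_mem m2]
      have hw : ∀ d, |∑ e, τ x d e * pd e φ x - x d| ≤ (n * (C * β) + 1) * (3 / 2) * R := fun d => by
        have b1 : |∑ e, τ x d e * pd e φ x| ≤ n * (C * (β * ‖x‖)) :=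
          fk_sum_le fun e => fk_abs_mul (hM.entry_le x d e) (hP.pd_le e x)
        have b2 : |x d| ≤ ‖x‖ := PiLp.norm_apply_le x d
        have b3 : (n * (C * β) + 1) * ‖x‖ ≤ (n * (C * β) + 1) * (3 / 2 * R) :=
          mul_le_mul_of_nonneg_left hx.2 (by positivity)
        have b4 := abs_sub (∑ e, τ x d e * pd e φ x) (x d)
        linarith
      have h3 := fk_bound (K := K₀) (Lam τ s x) hc hC (hM.ell x) (hess_symm hs2 x) (cut_nonneg R x)
        (cut_le_one R x) hD hW hK₀ hR (q := grad (cut R) x) (hcut R hR0 x) hw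
      rw [hK] at h3
      refine (mul_le_mul_of_nonneg_left h3 hρ.le).trans_eq ?_
      ring
    · have hq : grad (cut R : E n → ℝ) x = 0 := by
        funext i
        rcases not_and_or.1 hx with h | h
        · exact pd_cut_in hR0 (not_le.1 h) i
        · exact pd_cut_out hR0 (not_le.1 h) i
      rw [hq]
      have n1 : 0 ≤ (ball (0 : E n) (2 * R) \ ball 0 R).indicator (fun x => rho φ x * nsq (hess s x)) x :=
        indicator_nonneg (fun y _ => mul_nonneg (rho_pos φ y).le (nsq_nonneg _)) x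
      have n2 : 0 ≤ (ball (0 : E n) (2 * R)).indicator (fun x => rho φ x * ∑ a, Lam τ s x a ^ 2) x :=
        indicator_nonneg (fun y _ => mul_nonneg (rho_pos φ y).le
          (Finset.sum_nonneg fun a _ => sq_nonneg _)) x
      simp only [mulVec_zero, dotProduct_zero, Pi.zero_apply, zero_mul, mul_zero, Finset.sum_const_zero,
        sub_self]
      positivity
  have h4 := mul_nonneg hρ.le h1
  have h5 := congrArg (fun z => rho φ x * z) h2
  beta_reduce at h5 ⊢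
  linarith

end Crest.Agent.R238
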