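import Crest.Agent.R238.FK
import Crest.Agent.R238.EApprox

/-!
# R238 / FOne: the inequality for one test function `w`   [~600 lines]

Fix `η`; `R ≥ max(R₀, 1)` with `tsupport w ⊆ ball 0 R` and `1/R ≤ η`; `χ = cut R`, so `χ²ξ = ξ`;
`s` from `approx` with a tiny `η'` (depending on `K_R = sup_{B_{2R}} |U|`).  `Δ = Λ + ∇w`.
1. `∫ρ ξ·∇g₂ = -∫ρχ² ∇g₂·τΛ + ∫ρχ² ∇g₂·τΔ`, and `delta_adj` with `V = ∇g₂`:
   `-∫ρχ²∇g₂·τΛ = ∫ρχ² tr(σ hess g₂) + 2∫ρχ ∇g₂·σ∇χ`, the last term is `O((M₀ + ‖∇g₂‖²)/R)`.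
2. hypothesis `h2` (and `b₂ ≥ 0` from `S = 0`): `2∫ρχ² tr(σ hess g₂) ≤ X + ∫ρ b₂`.
3. `Kcut`: `X ≤ 2Q - ∫ρχ² tr κκ + O(η)`  (`∫_{B_{2R}}ρ|Λ|² ≤ 2η' + 2∫ρ|∇w|²`).
4. `Q = ∫ρχ² A·τΔ - ∫ρ ξ·A = ∫ρχ² A·τΔ + ∫ρ tr(κ Dξ)` (`Iid`), `A = Λ - B`,
   `|B_a| ≤ K_R' √nsq S` on `B_{2R}`, so the first term is `O(√η')`.
5. pointwise `2 tr(κDξ) - χ² tr κκ ≤ tr(DξDξ)` (`Dxi_eq`, `tr_cross` where `|x| < R`;
   `Dξ = 0` off `tsupport w`, `tr_sq_lo`).
-/

set_option autoImplicit false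
open MeasureTheory Matrix Set Metric
open scoped RealInnerProductSpace ContDiff BigOperators

namespace Crest.Agent.R238

variable {n : ℕ}

theorem fone_intOn {ρ f : E n → ℝ} (hρ : Continuous ρ) (hf : Continuous f) (r : ℝ) :
    IntegrableOn (fun x => ρ x * f x) (ball (0 : E n) r) :=
  ((hρ.mul hf).continuousOn.integrableOn_compact (isCompact_closedBall 0 r)).mono_set ball_subset_closedBall

theorem fone_int {ρ f : E n → ℝ} (hρ : Continuous ρ) (hf : Continuous f) {r : ℝ}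
    (h0 : ∀ x, x ∉ ball (0 : E n) r → f x = 0) : Integrable fun x => ρ x * f x :=
  (fone_intOn hρ hf r).integrable_of_forall_notMem_eq_zero fun x hx => by rw [h0 x hx, mul_zero]

theorem fone_mono {φ f g : E n → ℝ} (hρ : Continuous (rho φ)) (hf : Continuous f) (hg : Continuous g) {r : ℝ}
    (h : ∀ x ∈ ball (0 : E n) r, f x ≤ g x) :
    ∫ x in ball (0 : E n) r, rho φ x * f x ≤ ∫ x in ball (0 : E n) r, rho φ x * g x :=
  setIntegral_mono_on (fone_intOn hρ hf r) (fone_intOn hρ hg r) measurableSet_ball fun x hx =>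
    mul_le_mul_of_nonneg_left (h x hx) (rho_pos φ x).le

theorem fone_lin {ρ f g : E n → ℝ} (hρ : Continuous ρ) (hf : Continuous f) (hg : Continuous g) (r a b : ℝ) :
    ∫ x in ball (0 : E n) r, ρ x * (a * f x + b * g x) =
      a * (∫ x in ball (0 : E n) r, ρ x * f x) + b * ∫ x in ball (0 : E n) r, ρ x * g x := by
  rw [← integral_const_mul, ← integral_const_mul,
    ← integral_add ((fone_intOn hρ hf r).const_mul a) ((fone_intOn hρ hg r).const_mul b)]
  congr 1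
  funext x
  ring

theorem fone_mono2 {φ f g h : E n → ℝ} (hρ : Continuous (rho φ)) (hf : Continuous f) (hg : Continuous g)
    (hh : Continuous h) {r a b : ℝ} (H : ∀ x ∈ ball (0 : E n) r, f x ≤ a * g x + b * h x) :
    ∫ x in ball (0 : E n) r, rho φ x * f x ≤
      a * (∫ x in ball (0 : E n) r, rho φ x * g x) + b * ∫ x in ball (0 : E n) r, rho φ x * h x := by
  rw [← fone_lin hρ hg hh]
  exact fone_mono hρ hf (by fun_prop) H

theorem fone_le2 {φ f g h : E n → ℝ} (hρ : Continuous (rho φ)) (hf : Continuous f) (hg : Continuous g)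
    (hh : Continuous h) {r k a b : ℝ} (h0 : ∀ x, x ∉ ball (0 : E n) r → f x = 0)
    (H : ∀ x ∈ ball (0 : E n) r, k * f x ≤ a * g x + b * h x) :
    k * ∫ x, rho φ x * f x ≤
      a * (∫ x in ball (0 : E n) r, rho φ x * g x) + b * ∫ x in ball (0 : E n) r, rho φ x * h x := by
  refine le_trans (le_of_eq ?_) (fone_mono2 hρ (f := fun x => k * f x) (by fun_prop) hg hh H)
  rw [← integral_const_mul, setIntegral_eq_integral_of_forall_compl_eq_zero fun x hx => by rw [h0 x hx]; simp]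
  congr 1
  funext x
  ring

theorem fone_cut0 {R : ℝ} (hR : 0 < R) {x : E n} (hx : x ∉ ball (0 : E n) (2 * R)) : cut R x = 0 := by
  rw [mem_ball_zero_iff, not_lt] at hx
  exact cut_zero hR (by linarith)

theorem fone_cut_sq (R : ℝ) (x : E n) : cut R x ^ 2 ≤ 1 :=
  pow_le_one₀ (cut_nonneg R x) (cut_le_one R x)

theorem fone_dot_self (u : Fin n → ℝ) : u ⬝ᵥ u = ∑ a, u a ^ 2 := by
  simp only [dotProduct, sq]

theorem fone_amgm (u z : Fin n → ℝ) {θ : ℝ} (hθ : 0 < θ) :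
    2 * (u ⬝ᵥ z) ≤ θ * (∑ a, u a ^ 2) + θ⁻¹ * (z ⬝ᵥ z) := by
  rw [fone_dot_self, dotProduct, Finset.mul_sum, Finset.mul_sum, Finset.mul_sum, ← Finset.sum_add_distrib]
  refine Finset.sum_le_sum fun a _ => ?_
  have h1 : θ * u a ^ 2 + θ⁻¹ * z a ^ 2 - 2 * (u a * z a) = θ⁻¹ * (θ * u a - z a) ^ 2 := by
    field_simp
    ring
  have h2 : 0 ≤ θ⁻¹ * (θ * u a - z a) ^ 2 := by positivity
  linarith

theorem fone_mv {M : Mat n} {q : Fin n → ℝ} {m d : ℝ} (hM : ∀ i j, |M i j| ≤ m) (hq : ∀ j, |q j| ≤ d) :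
    (M *ᵥ q) ⬝ᵥ (M *ᵥ q) ≤ n * (n * m * d) ^ 2 := by
  rw [fone_dot_self]
  have h : ∀ a, (M *ᵥ q) a ^ 2 ≤ (n * m * d) ^ 2 := fun a => by
    have h1 : |(M *ᵥ q) a| ≤ n * m * d := by
      refine (Finset.abs_sum_le_sum_abs (fun j => M a j * q j) Finset.univ).trans
        ((Finset.sum_le_sum (g := fun _ => m * d) fun j _ => ?_).trans ?_)
      · rw [abs_mul]
        exact mul_le_mul (hM a j) (hq j) (abs_nonneg _) ((abs_nonneg _).trans (hM a j))
      · simp [mul_assoc]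
    rw [← sq_abs]
    exact pow_le_pow_left₀ (abs_nonneg _) h1 2
  exact (Finset.sum_le_sum fun a _ => h a).trans (by simp)

theorem fone_tr {M : Mat n} {m : ℝ} (hM : ∀ i j, |M i j| ≤ m) : |M.trace| ≤ n * m :=
  (Finset.abs_sum_le_sum_abs _ _).trans ((Finset.sum_le_sum (g := fun _ => m) fun j _ => hM j j).trans (by simp))

theorem fone_sig {t : Mat n} {C : ℝ} (ht : ∀ i j, |t i j| ≤ C) (S : Mat n) (i j : Fin n) :
    |(t * S * t) i j| ≤ n * (n * C * √(nsq S)) * C :=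
  entry_mul_le (entry_mul_le ht (entry_le_sqrt_nsq S)) ht i j

theorem fone_cnsq {S : E n → Mat n} (hS : Continuous S) : Continuous fun x => nsq (S x) :=
  continuous_finsetSum _ fun i _ => continuous_finsetSum _ fun j _ => (hS.matrix_elem i j).pow 2

theorem fone_csq {u : E n → Fin n → ℝ} (hu : Continuous u) : Continuous fun x => ∑ a, u x a ^ 2 := by
  fun_prop

section

variable {α β c C : ℝ} {φ : E n → ℝ} {τ : E n → Mat n} {U : E n → Fin n → Mat n}

theorem fone_cτ (hM : MS φ c C τ U) : Continuous τ := continuous_matrix hM.continuous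

theorem fone_chess {s : E n → ℝ} (hs : ContDiff ℝ 2 s) : Continuous (hess s) :=
  continuous_matrix (continuous_hess hs)

theorem fone_cgrad {s : E n → ℝ} (hs : ContDiff ℝ 1 s) : Continuous (grad s) :=
  continuous_pi (continuous_pd hs)

theorem fone_cLam (hM : MS φ c C τ U) {s : E n → ℝ} (hs : ContDiff ℝ 3 s) : Continuous (Lam τ s) :=
  continuous_pi (continuous_Lam hM hs)

theorem fone_cA (hM : MS φ c C τ U) {s : E n → ℝ} (hs : ContDiff ℝ 3 s) : Continuous (Avec τ s) :=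
  continuous_pi (continuous_Avec hM hs)

theorem fone_cD (hM : MS φ c C τ U) {w : E n → ℝ} (hw : ContDiff ℝ 2 w) : Continuous (Dxi τ w) :=
  continuous_matrix fun a b => continuous_pd (contDiff_xi hM hw a) b

theorem fone_D0 {w : E n → ℝ} {x : E n} (hx : x ∉ tsupport w) : Dxi τ w x = 0 := by
  ext a b
  exact pd_eq_zero (fun h => hx (tsupport_xi w a h)) b

theorem fone_E (hP : Pot α β φ) (hM : MS φ c C τ U) {R θ : ℝ} (hR : 0 < R) (hθ : 0 < θ)
    {u v : E n → Fin n → ℝ} (hu : Continuous u) (hv : Continuous v) :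
    2 * ∫ x, rho φ x * (cut R x ^ 2 * (u x ⬝ᵥ (τ x *ᵥ v x))) ≤
      θ * (∫ x in ball (0 : E n) (2 * R), rho φ x * ∑ a, u x a ^ 2) +
        θ⁻¹ * C ^ 2 * ∫ x in ball (0 : E n) (2 * R), rho φ x * ∑ a, v x a ^ 2 := by
  have cτ := fone_cτ hM
  have cχ : Continuous (cut R : E n → ℝ) := (contDiff_cut R).continuous
  refine fone_le2 hP.continuous_rho (by fun_prop) (fone_csq hu) (fone_csq hv)
    (fun x hx => by rw [fone_cut0 hR hx]; simp) fun x _ => ?_
  have h1 := fone_amgm (u x) (τ x *ᵥ v x) hθ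
  have h2 := mul_le_mul_of_nonneg_left ((hM.ell x).mulVec_sq hM.cpos.le (v x)) (inv_pos.2 hθ).le
  rw [fone_dot_self (v x)] at h2
  have h3 : 0 ≤ θ * (∑ a, u x a ^ 2) + θ⁻¹ * C ^ 2 * ∑ a, v x a ^ 2 := by positivity
  have h4 : 2 * (u x ⬝ᵥ (τ x *ᵥ v x)) ≤ θ * (∑ a, u x a ^ 2) + θ⁻¹ * C ^ 2 * ∑ a, v x a ^ 2 := by linarith
  have h5 := mul_le_mul_of_nonneg_left h4 (sq_nonneg (cut R x))
  have h6 := mul_le_mul_of_nonneg_right (fone_cut_sq R x) h3
  linarith

theorem fone_E1 (hP : Pot α β φ) (hM : MS φ c C τ U) {R D : ℝ} (hR : 0 < R)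
    (hD : ∀ (x : E n) (i : Fin n), |pd i (cut R) x| ≤ D / R) {u : E n → Fin n → ℝ} {S : E n → Mat n}
    (hu : Continuous u) (hS : Continuous S) :
    2 * ∫ x, rho φ x * (cut R x * (u x ⬝ᵥ ((τ x * S x * τ x) *ᵥ grad (cut R) x))) ≤
      R⁻¹ * (∫ x in ball (0 : E n) (2 * R), rho φ x * ∑ a, u x a ^ 2) +
        R⁻¹ * (n ^ 7 * C ^ 4 * D ^ 2) * ∫ x in ball (0 : E n) (2 * R), rho φ x * nsq (S x) := by
  have cτ := fone_cτ hM
  have cχ : Continuous (cut R : E n → ℝ) := (contDiff_cut R).continuous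
  have cq : Continuous (grad (cut R : E n → ℝ)) := fone_cgrad ((contDiff_cut R).of_le (by norm_cast))
  refine fone_le2 hP.continuous_rho (by fun_prop) (fone_csq hu) (fone_cnsq hS)
    (fun x hx => by rw [fone_cut0 hR hx]; simp) fun x _ => ?_
  have h1 := fone_amgm (u x) ((τ x * S x * τ x) *ᵥ grad (cut R) x) (inv_pos.2 hR)
  have h2 := mul_le_mul_of_nonneg_left (fone_mv (q := grad (cut R) x) (fone_sig (hM.entry_le x) (S x)) (hD x)) hR.le
  have hN := nsq_nonneg (S x)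
  have e : R * (n * (n * (n * (n * C * √(nsq (S x))) * C) * (D / R)) ^ 2) =
      R⁻¹ * (n ^ 7 * C ^ 4 * D ^ 2) * √(nsq (S x)) ^ 2 := by
    field_simp
  rw [e, Real.sq_sqrt hN] at h2
  rw [inv_inv] at h1
  have h3 : 0 ≤ R⁻¹ * (∑ a, u x a ^ 2) + R⁻¹ * (n ^ 7 * C ^ 4 * D ^ 2) * nsq (S x) := by positivity
  have h5 := mul_le_mul_of_nonneg_left (h1.trans (add_le_add le_rfl h2)) (cut_nonneg R x)
  have h6 := mul_le_mul_of_nonneg_right (cut_le_one R x) h3
  linarith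

theorem fone_split (hP : Pot α β φ) (hM : MS φ c C τ U) {R : ℝ} (hR : 0 < R) {w : E n → ℝ} (hw : Tst w)
    (hs : tsupport w ⊆ ball 0 R) {u v : E n → Fin n → ℝ} (hu : Continuous u) (hv : Continuous v) :
    ∫ x, rho φ x * ∑ a, xi τ w a x * u x a =
      (∫ x, rho φ x * (cut R x ^ 2 * (u x ⬝ᵥ (τ x *ᵥ (v x + grad w x))))) -
        ∫ x, rho φ x * (cut R x ^ 2 * (u x ⬝ᵥ (τ x *ᵥ v x))) := by
  have cτ := fone_cτ hM
  have cχ : Continuous (cut R : E n → ℝ) := (contDiff_cut R).continuous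
  have cw : Continuous (grad w) := fone_cgrad (hw.cd.of_le (by norm_cast))
  rw [← integral_sub (fone_int (r := 2 * R) hP.continuous_rho (by fun_prop) fun x hx => by rw [fone_cut0 hR hx]; simp)
    (fone_int (r := 2 * R) hP.continuous_rho (by fun_prop) fun x hx => by rw [fone_cut0 hR hx]; simp)]
  congr 1
  funext x
  have e : ∑ a, xi τ w a x * u x a = u x ⬝ᵥ (τ x *ᵥ grad w x) := by
    simp only [xi, dotProduct, mulVec, grad]
    exact Finset.sum_congr rfl fun a _ => mul_comm _ _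
  rw [e, mulVec_add, dotProduct_add]
  by_cases hx : x ∈ tsupport w
  · rw [cut_one hR (mem_ball_zero_iff.1 (hs hx)).le]
    ring
  · have : grad w x = 0 := funext fun i => pd_eq_zero hx i
    rw [this, mulVec_zero, dotProduct_zero]
    ring

/-- step 5 -/
theorem fone_five (hP : Pot α β φ) (hM : MS φ c C τ U) {R : ℝ} (hR : 0 < R) {w s : E n → ℝ} (hw : Tst w)
    (hsup : tsupport w ⊆ ball 0 R) (hs : ContDiff ℝ 2 s) :
    2 * (∫ x, rho φ x * (τ x * hess s x * Dxi τ w x).trace) -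
        ∫ x, rho φ x * (cut R x ^ 2 * (τ x * hess s x * (τ x * hess s x)).trace) ≤
      ∫ x, rho φ x * (Dxi τ w x * Dxi τ w x).trace := by
  have cτ := fone_cτ hM
  have cχ : Continuous (cut R : E n → ℝ) := (contDiff_cut R).continuous
  have hw2 : ContDiff ℝ 2 w := hw.cd.of_le (by norm_cast)
  have cD := fone_cD hM hw2
  have cS := fone_chess hs
  have i1 : Integrable fun x => rho φ x * (τ x * hess s x * Dxi τ w x).trace :=
    fone_int (r := R) hP.continuous_rho (by fun_prop) fun x hx => by rw [fone_D0 fun h => hx (hsup h)]; simp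
  have i2 : Integrable fun x => rho φ x * (cut R x ^ 2 * (τ x * hess s x * (τ x * hess s x)).trace) :=
    fone_int (r := 2 * R) hP.continuous_rho (by fun_prop) fun x hx => by rw [fone_cut0 hR hx]; simp
  have i3 : Integrable fun x => rho φ x * (Dxi τ w x * Dxi τ w x).trace :=
    fone_int (r := R) hP.continuous_rho (by fun_prop) fun x hx => by rw [fone_D0 fun h => hx (hsup h)]; simp
  rw [← integral_const_mul, ← integral_sub (i1.const_mul 2) i2]
  refine integral_mono ((i1.const_mul 2).sub i2) i3 fun x => ?_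
  have key : 2 * (τ x * hess s x * Dxi τ w x).trace - cut R x ^ 2 * (τ x * hess s x * (τ x * hess s x)).trace ≤
      (Dxi τ w x * Dxi τ w x).trace := by
    by_cases hx : x ∈ tsupport w
    · obtain ⟨Y, hY, e⟩ := Dxi_eq hM hw2 x
      rw [cut_one hR (mem_ball_zero_iff.1 (hsup hx)).le, e, one_pow, one_mul]
      exact tr_cross (hM.ell x) hM.cpos (hess_symm hs x) hY
    · have h1 := tr_sq_lo (hM.ell x) hM.cpos (hess_symm hs x)
      have h2 : 0 ≤ c ^ 2 * nsq (hess s x) := mul_nonneg (sq_nonneg _) (nsq_nonneg _)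
      have h3 := mul_nonneg (sq_nonneg (cut R x)) (h2.trans h1)
      rw [fone_D0 hx]
      simpa using h3
  have := mul_le_mul_of_nonneg_left key (rho_pos φ x).le
  simp only
  linarith

/-- step 2 -/
theorem fone_two (hP : Pot α β φ) (hM : MS φ c C τ U) {R : ℝ} (hR : 0 < R) {s g₂ b₂ : E n → ℝ}
    (hs : ContDiff ℝ 2 s) (hg : ContDiff ℝ 2 g₂) (hb : Integrable fun x => rho φ x * b₂ x)
    (h2 : ∀ (x : E n) (S : Mat n), (∀ i j, S i j = S j i) →
      2 * (τ x * S * τ x * hess g₂ x).trace ≤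
        (hess φ x * (τ x * S * τ x * S * τ x)).trace + b₂ x) :
    2 * ∫ x, rho φ x * (cut R x ^ 2 * ∑ a, ∑ e, (τ x * hess s x * τ x) a e * pd e (pd a g₂) x) ≤
      (∫ x, rho φ x * (cut R x ^ 2 * (hess φ x * (τ x * hess s x * τ x * hess s x * τ x)).trace)) +
        ∫ x, rho φ x * b₂ x := by
  have cτ := fone_cτ hM
  have cχ : Continuous (cut R : E n → ℝ) := (contDiff_cut R).continuous
  have cS := fone_chess hs
  have cg := fone_chess hg
  have cφ := fone_chess hP.cd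
  have e : ∀ x, ∑ a, ∑ e, (τ x * hess s x * τ x) a e * pd e (pd a g₂) x =
      (τ x * hess s x * τ x * hess g₂ x).trace := fun x => rfl
  simp only [e]
  have i1 : Integrable fun x => rho φ x * (cut R x ^ 2 * (τ x * hess s x * τ x * hess g₂ x).trace) :=
    fone_int (r := 2 * R) hP.continuous_rho (by fun_prop) fun x hx => by rw [fone_cut0 hR hx]; simp
  have i2 : Integrable fun x =>
      rho φ x * (cut R x ^ 2 * (hess φ x * (τ x * hess s x * τ x * hess s x * τ x)).trace) :=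
    fone_int (r := 2 * R) hP.continuous_rho (by fun_prop) fun x hx => by rw [fone_cut0 hR hx]; simp
  rw [← integral_const_mul, ← integral_add i2 hb]
  refine integral_mono (i1.const_mul 2) (i2.add hb) fun x => ?_
  have h0 : 0 ≤ b₂ x := by simpa using h2 x 0 fun _ _ => rfl
  have h1 := mul_le_mul_of_nonneg_left (h2 x _ (hess_symm hs x)) (sq_nonneg (cut R x))
  have h3 := mul_le_mul_of_nonneg_right (fone_cut_sq R x) h0
  have key : 2 * (cut R x ^ 2 * (τ x * hess s x * τ x * hess g₂ x).trace) ≤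
      cut R x ^ 2 * (hess φ x * (τ x * hess s x * τ x * hess s x * τ x)).trace + b₂ x := by linarith
  have := mul_le_mul_of_nonneg_left key (rho_pos φ x).le
  simp only
  linarith

theorem fone_L (hP : Pot α β φ) {r : ℝ} {u v : E n → Fin n → ℝ} (hu : Continuous u) (hv : Continuous v) :
    ∫ x in ball (0 : E n) r, rho φ x * ∑ a, u x a ^ 2 ≤
      2 * (∫ x in ball (0 : E n) r, rho φ x * ∑ a, (u x + v x) a ^ 2) +
        2 * ∫ x in ball (0 : E n) r, rho φ x * ∑ a, v x a ^ 2 := by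
  refine fone_mono2 hP.continuous_rho (fone_csq hu) (fone_csq (hu.add hv)) (fone_csq hv) fun x _ => ?_
  rw [Finset.mul_sum, Finset.mul_sum, ← Finset.sum_add_distrib]
  refine Finset.sum_le_sum fun a _ => ?_
  simp only [Pi.add_apply]
  nlinarith [sq_nonneg (u x a + 2 * v x a)]

theorem fone_U (hM : MS φ c C τ U) (r : ℝ) : ∃ K : ℝ, ∀ x ∈ ball (0 : E n) r, ∀ e i j, |U x e i j| ≤ K := by
  have hc : Continuous fun x => fun e i j => U x e i j :=
    continuous_pi fun e => continuous_pi fun i => continuous_pi fun j => hM.Ucont e i j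
  obtain ⟨K, hK⟩ := (isCompact_closedBall (0 : E n) r).exists_bound_of_continuousOn hc.continuousOn
  refine ⟨K, fun x hx e i j => ?_⟩
  have h := hK x (ball_subset_closedBall hx)
  exact ((norm_le_pi_norm (fun j => U x e i j) j).trans ((norm_le_pi_norm (fun i j => U x e i j) i).trans
    (norm_le_pi_norm (fun e i j => U x e i j) e))).trans h

theorem fone_A (hP : Pot α β φ) (hM : MS φ c C τ U) (r : ℝ) : ∃ K : ℝ, 0 ≤ K ∧ ∀ s : E n → ℝ, ContDiff ℝ 3 s →
    ∫ x in ball (0 : E n) r, rho φ x * ∑ a, Avec τ s x a ^ 2 ≤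
      2 * (∫ x in ball (0 : E n) r, rho φ x * ∑ a, Lam τ s x a ^ 2) +
        K * ∫ x in ball (0 : E n) r, rho φ x * nsq (hess s x) := by
  obtain ⟨K, hK⟩ := fone_U hM r
  refine ⟨2 * n * (n * (n * K * (n * (n * C) * C))) ^ 2, by positivity, fun s hs => ?_⟩
  refine fone_mono2 hP.continuous_rho (fone_csq (fone_cA hM hs)) (fone_csq (fone_cLam hM hs))
    (fone_cnsq (fone_chess (hs.of_le (by norm_cast)))) fun x hx => ?_
  have hN := nsq_nonneg (hess s x)
  have h : ∀ a, Avec τ s x a ^ 2 ≤ 2 * Lam τ s x a ^ 2 +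
      2 * (n * (n * K * (n * (n * C) * C))) ^ 2 * nsq (hess s x) := fun a => by
    have h1 := fone_tr (entry_mul_le (hK x hx a) (fone_sig (hM.entry_le x) (hess s x)))
    have h2 := pow_le_pow_left₀ (abs_nonneg _) h1 2
    have e : ((n : ℝ) * (n * K * (n * (n * C * √(nsq (hess s x))) * C))) ^ 2 =
        (n * (n * K * (n * (n * C) * C))) ^ 2 * √(nsq (hess s x)) ^ 2 := by ring
    rw [sq_abs, e, Real.sq_sqrt hN] at h2
    rw [Lam_eq hM hs]
    nlinarith [sq_nonneg (Avec τ s x a + 2 * (U x a * (τ x * hess s x * τ x)).trace)]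
  refine (Finset.sum_le_sum fun a _ => h a).trans (le_of_eq ?_)
  rw [Finset.sum_add_distrib, ← Finset.mul_sum]
  simp only [Finset.sum_const, Finset.card_univ, Fintype.card_fin, nsmul_eq_mul]
  ring

end

theorem one_w {α β c C : ℝ} {φ : E n → ℝ} {τ : E n → Mat n} {U : E n → Fin n → Mat n}
    (hP : Pot α β φ) (hM : MS φ c C τ U) {w g₂ b₂ : E n → ℝ} (hw : Tst w)
    (hwe : ∀ x, w (-x) = w x) (hg : ContDiff ℝ 2 g₂)
    (hg1 : Integrable fun x => rho φ x * ∑ a, pd a g₂ x ^ 2)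
    (hb : Integrable fun x => rho φ x * b₂ x)
    (h2 : ∀ (x : E n) (S : Mat n), (∀ i j, S i j = S j i) →
      2 * (τ x * S * τ x * hess g₂ x).trace ≤
        (hess φ x * (τ x * S * τ x * S * τ x)).trace + b₂ x) :
    2 * ∫ x, rho φ x * ∑ a, xi τ w a x * pd a g₂ x ≤
      (∫ x, rho φ x * (Dxi τ w x * Dxi τ w x).trace) + ∫ x, rho φ x * b₂ x := by
  obtain ⟨K, hK0, hK⟩ := Kcut hP hM
  obtain ⟨D, -, hD⟩ := pd_cut_le n
  obtain ⟨M₀, hA⟩ := approx hP hM hw hwe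
  obtain ⟨Rw, hRw⟩ := hw.cs.isCompact.isBounded.subset_ball (0 : E n)
  have cρ := hP.continuous_rho
  have cw : Continuous (grad w) := fone_cgrad (hw.cd.of_le (by norm_cast))
  have cV : Continuous (grad g₂) := fone_cgrad (hg.of_le (by norm_cast))
  have iw : Integrable fun x => rho φ x * ∑ a, grad w x a ^ 2 :=
    fone_int (r := Rw) cρ (fone_csq cw) fun x hx =>
      Finset.sum_eq_zero fun a _ => by rw [show grad w x a = 0 from pd_eq_zero (fun h => hx (hRw h)) a]; simp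
  have nn : ∀ (u : E n → Fin n → ℝ) (x : E n), 0 ≤ rho φ x * ∑ a, u x a ^ 2 := fun u x =>
    mul_nonneg (rho_pos φ x).le (Finset.sum_nonneg fun _ _ => sq_nonneg _)
  obtain ⟨G, hG0, hG⟩ : ∃ G : ℝ, 0 ≤ G ∧ ∀ r, ∫ x in ball (0 : E n) r, rho φ x * ∑ a, grad g₂ x a ^ 2 ≤ G :=
    ⟨_, integral_nonneg (nn (grad g₂)), fun r => setIntegral_le_integral hg1 (.of_forall (nn (grad g₂)))⟩
  obtain ⟨W, hW0, hW⟩ : ∃ W : ℝ, 0 ≤ W ∧ ∀ r, ∫ x in ball (0 : E n) r, rho φ x * ∑ a, grad w x a ^ 2 ≤ W :=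
    ⟨_, integral_nonneg (nn (grad w)), fun r => setIntegral_le_integral iw (.of_forall (nn (grad w)))⟩
  obtain ⟨C₂, hC₂, eC₂⟩ : ∃ C₂ : ℝ, 0 ≤ C₂ ∧ C₂ = n ^ 7 * C ^ 4 * D ^ 2 := ⟨_, by positivity, rfl⟩
  obtain ⟨T, hT, eT⟩ : ∃ T : ℝ, 0 < T ∧ T = 1 + 2 * C ^ 2 + 2 * (G + C₂ * |M₀|) + K * (3 + 2 * W) :=
    ⟨_, by positivity, rfl⟩
  refine le_of_forall_pos_le_add fun ε hε => ?_
  obtain ⟨η, hη, eη⟩ : ∃ η : ℝ, 0 < η ∧ η * T = ε := ⟨ε / T, by positivity, by field_simp⟩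
  obtain ⟨R₀, hA⟩ := hA η hη
  obtain ⟨R, hR0, hR1, hR2, hR3⟩ : ∃ R : ℝ, R₀ ≤ R ∧ 1 ≤ R ∧ Rw ≤ R ∧ η⁻¹ ≤ R :=
    ⟨max (max R₀ 1) (max Rw η⁻¹), (le_max_left _ _).trans (le_max_left _ _),
      (le_max_right _ _).trans (le_max_left _ _), (le_max_left _ _).trans (le_max_right _ _),
      (le_max_right _ _).trans (le_max_right _ _)⟩
  have hR : 0 < R := by linarith
  have hRη : R⁻¹ ≤ η := inv_le_of_inv_le₀ hη hR3
  have hsup : tsupport w ⊆ ball 0 R := hRw.trans (ball_subset_ball hR2)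
  obtain ⟨K', hK'0, hK'⟩ := fone_A hP hM (2 * R)
  obtain ⟨θ, hθ, eθ⟩ : ∃ θ : ℝ, 0 < θ ∧ θ * (1 + G + 2 * (2 + 2 * W) + K' * |M₀|) = η :=
    ⟨η / (1 + G + 2 * (2 + 2 * W) + K' * |M₀|), by positivity, by field_simp⟩
  obtain ⟨s, hs, hs1, hs2, hs3⟩ := hA R hR0 (min 1 (θ * η)) (lt_min one_pos (by positivity))
  have hs4 : ContDiff ℝ 4 s := hs.of_le (by norm_cast)
  have hs3' : ContDiff ℝ 3 s := hs.of_le (by norm_cast)
  have hs2' : ContDiff ℝ 2 s := hs.of_le (by norm_cast)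
  have cΛ := fone_cLam hM hs3'
  have cA := fone_cA hM hs3'
  have f1 := fone_split hP hM hR hw hsup cV cΛ
  have f2 := delta_adj hP hM hs3' ((contDiff_cut R).of_le (by norm_cast)) (tst_cut hR).cs
    (V := fun a => pd a g₂) fun a => contDiff_pd hg (by norm_num) a
  have f3 := fone_two hP hM hR hs2' hg hb h2
  have f4 := hK R hR1 s hs4
  have f5 := fone_split hP hM hR hw hsup cA cΛ
  have f6 := Iid hP hM hs3' hw
  have f7 := fone_five hP hM hR hw hsup hs2'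
  have f8 := fone_E hP hM hR hθ cV (cΛ.add cw)
  have f9 := fone_E hP hM hR hθ cA (cΛ.add cw)
  have f10 := fone_E1 hP hM hR (hD R hR) cV (fone_chess hs2')
  have f11 := fone_L hP (r := 2 * R) cΛ cw
  have f12 := hK' s hs3'
  have f13 := hG (2 * R)
  have f14 := hW (2 * R)
  have hΔ : ∫ x in ball (0 : E n) (2 * R), rho φ x * ∑ a, (Lam τ s x + grad w x) a ^ 2 ≤ min 1 (θ * η) := hs3
  have hΔ1 := hΔ.trans (min_le_left _ _)
  have hΔ2 : θ⁻¹ * C ^ 2 * ∫ x in ball (0 : E n) (2 * R), rho φ x * ∑ a, (Lam τ s x + grad w x) a ^ 2 ≤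
      η * C ^ 2 :=
    (mul_le_mul_of_nonneg_left (hΔ.trans (min_le_right _ _)) (by positivity)).trans_eq (by field_simp)
  have hN := hs1.trans (le_abs_self M₀)
  have hL : ∫ x in ball (0 : E n) (2 * R), rho φ x * ∑ a, Lam τ s x a ^ 2 ≤ 2 + 2 * W := by linarith
  have g1 := mul_le_mul_of_nonneg_left f13 hθ.le
  have g2 : θ * ∫ x in ball (0 : E n) (2 * R), rho φ x * ∑ a, Avec τ s x a ^ 2 ≤
      θ * (2 * (2 + 2 * W) + K' * |M₀|) := by
    have := mul_le_mul_of_nonneg_left hN hK'0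
    exact mul_le_mul_of_nonneg_left (by linarith) hθ.le
  have g3 : R⁻¹ * ∫ x in ball (0 : E n) (2 * R), rho φ x * ∑ a, grad g₂ x a ^ 2 ≤ η * G :=
    (mul_le_mul_of_nonneg_left f13 (inv_pos.2 hR).le).trans (mul_le_mul_of_nonneg_right hRη hG0)
  have g4 : R⁻¹ * C₂ * ∫ x in ball (0 : E n) (2 * R), rho φ x * nsq (hess s x) ≤ η * C₂ * |M₀| :=
    (mul_le_mul_of_nonneg_left hN (by positivity)).trans
      (mul_le_mul_of_nonneg_right (mul_le_mul_of_nonneg_right hRη hC₂) (abs_nonneg _))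
  have g5 : R⁻¹ * ∫ x in ball (0 : E n) (2 * R), rho φ x * ∑ a, Lam τ s x a ^ 2 ≤ η * (2 + 2 * W) :=
    (mul_le_mul_of_nonneg_left hL (inv_pos.2 hR).le).trans (mul_le_mul_of_nonneg_right hRη (by linarith))
  have g6 := mul_le_mul_of_nonneg_left (add_le_add hs2 g5) hK0
  rw [← eC₂] at f10
  rw [eT] at eη
  have f1' : ∫ x, rho φ x * ∑ a, xi τ w a x * pd a g₂ x = _ := f1
  have f2' : _ = -(∫ x, rho φ x * (cut R x ^ 2 * (grad g₂ x ⬝ᵥ (τ x *ᵥ Lam τ s x)))) -
      2 * ∫ x, rho φ x * (cut R x * (grad g₂ x ⬝ᵥ ((τ x * hess s x * τ x) *ᵥ grad (cut R) x))) := f2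
  simp only [Pi.add_apply] at f1' f5 f8 f9 hΔ2
  linarith

end Crest.Agent.R238
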