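import Crest.Agent.R238.FDel

/-!
# R238 / FQ: the `Q`-identity

`delta_adj` with `V_a = A_a = L(∂_a s)`;
`∂_e A_a = L(s_{ae}) - s_{ae} + tr(U_e τ S3_a τ)` (this is `Lam_eq` for `∂_a s`, with `pdM_hess`);
`green` with `h = χ² σ_{ae}`, `s := s_{ae}`: `-∫ρχ²σ_{ae} L s_{ae} = ∫ρ τ_{bc} ∂_b(χ²σ_{ae}) S3_{c,ae}`;
`∂_jσ = τU_jσ + τ S3_j τ + σU_jτ`; total symmetry:
`Σ_{a,e} σ_{ae} tr(U_e τ S3_a τ) = Σ_{c,j} τ_{cj} tr(σ U_j τ S3_c)`.
-/

set_option autoImplicit false
open MeasureTheory Matrix Set Metric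
open scoped RealInnerProductSpace ContDiff BigOperators

namespace Crest.Agent.R238

variable {n : ℕ}

theorem fq_sum5 (f : Fin n → Fin n → Fin n → Fin n → Fin n → ℝ) :
    ∑ a, ∑ e, ∑ i, ∑ k, ∑ m, f a e i k m = ∑ m, ∑ i, ∑ a, ∑ k, ∑ e, f a e i k m :=
  calc _ = ∑ p : Fin n × Fin n × Fin n × Fin n × Fin n, f p.1 p.2.1 p.2.2.1 p.2.2.2.1 p.2.2.2.2 := by
        simp only [Fintype.sum_prod_type]
    _ = ∑ p : Fin n × Fin n × Fin n × Fin n × Fin n, f p.2.2.1 p.2.2.2.2 p.2.1 p.2.2.2.1 p.1 :=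
        Fintype.sum_equiv ⟨fun p => (p.2.2.2.2, p.2.2.1, p.1, p.2.2.2.1, p.2.1),
          fun p => (p.2.2.1, p.2.2.2.2, p.2.1, p.2.2.2.1, p.1), fun _ => rfl, fun _ => rfl⟩ _ _
          fun _ => rfl
    _ = _ := by simp only [Fintype.sum_prod_type]

theorem fq_sum4 (f : Fin n → Fin n → Fin n → Fin n → ℝ) :
    ∑ a, ∑ e, ∑ b, ∑ c, f a e b c = ∑ b, ∑ c, ∑ a, ∑ e, f a e b c :=
  calc _ = ∑ p : Fin n × Fin n × Fin n × Fin n, f p.1 p.2.1 p.2.2.1 p.2.2.2 := by
        simp only [Fintype.sum_prod_type]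
    _ = ∑ p : Fin n × Fin n × Fin n × Fin n, f p.2.2.1 p.2.2.2 p.1 p.2.1 :=
        Fintype.sum_equiv ⟨fun p => (p.2.2.1, p.2.2.2, p.1, p.2.1),
          fun p => (p.2.2.1, p.2.2.2, p.1, p.2.1), fun _ => rfl, fun _ => rfl⟩ _ _ fun _ => rfl
    _ = _ := by simp only [Fintype.sum_prod_type]

theorem fq_tr (M N : Mat n) : (M * N).trace = ∑ a, ∑ e, M a e * N e a := by
  simp only [Matrix.trace, Matrix.diag, Matrix.mul_apply]

theorem fq_L2 (t σ : Mat n) (U S3 : Fin n → Mat n) (hU : ∀ e i j, U e i j = U i e j)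
    (h1 : ∀ e i j, S3 e i j = S3 e j i) (h2 : ∀ e i j, S3 e i j = S3 i e j) :
    ∑ a, ∑ e, σ a e * (U e * (t * S3 a * t)).trace =
      ∑ e, ∑ j, t e j * (σ * U j * t * S3 e).trace := by
  have hW : ∀ a k m, (t * S3 a) k m = (t * S3 m) k a := fun a k m => by
    simp only [Matrix.mul_apply]
    refine Finset.sum_congr rfl fun l _ => ?_
    rw [h1 a l m, h2 a m l, h1 m a l]
  simp only [Matrix.mul_assoc (σ * U _) t, fq_tr]
  generalize hX : (fun a => t * S3 a) = W
  have hX' : ∀ a, t * S3 a = W a := fun a => congrFun hX a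
  simp only [hX'] at hW ⊢
  simp only [Matrix.mul_apply, Finset.mul_sum, Finset.sum_mul]
  rw [fq_sum5]
  refine Finset.sum_congr rfl fun m _ => Finset.sum_congr rfl fun i _ => Finset.sum_congr rfl fun a _ =>
    Finset.sum_congr rfl fun k _ => Finset.sum_congr rfl fun e _ => ?_
  rw [hU e i k, hW a k m]
  ring

theorem fq_L3 (t : Mat n) (P S3 : Fin n → Mat n) :
    ∑ a, ∑ e, (fun b => P b a e) ⬝ᵥ (t *ᵥ fun c => S3 c e a) =
      ∑ b, ∑ c, t b c * (P b * S3 c).trace := by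
  simp only [fq_tr, dotProduct, Matrix.mulVec, Finset.mul_sum]
  rw [fq_sum4]
  refine Finset.sum_congr rfl fun b _ => Finset.sum_congr rfl fun c _ => Finset.sum_congr rfl fun a _ =>
    Finset.sum_congr rfl fun e _ => ?_
  ring

theorem fq_alg (t S σ : Mat n) (U S3 D : Fin n → Mat n) (ht : ∀ i j, t i j = t j i)
    (hU : ∀ e i j, U e i j = U i e j)
    (h1 : ∀ e i j, S3 e i j = S3 e j i) (h2 : ∀ e i j, S3 e i j = S3 i e j)
    (χ : ℝ) (q : Fin n → ℝ) (L : Mat n) :
    -(χ ^ 2 * ∑ a, ∑ e, σ a e * (L e a - S e a + (U e * (t * S3 a * t)).trace)) +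
      ∑ a, ∑ e, (χ ^ 2 * σ a e * L e a +
        (fun b => 2 * χ * q b * σ a e + χ ^ 2 * D b a e) ⬝ᵥ (t *ᵥ fun c => S3 c e a)) =
    χ ^ 2 * ((σ * S).trace + ∑ e, ∑ j, t e j * ((D j * S3 e).trace - (σ * U j * t * S3 e).trace)) +
      2 * χ * ∑ b, ∑ e, q b * (t b e * (σ * S3 e).trace) := by
  have k2 := fq_L2 t σ U S3 hU h1 h2
  have k3 := fq_L3 t (fun b => (2 * χ * q b) • σ + χ ^ 2 • D b) S3
  simp only [Matrix.add_apply, Matrix.smul_apply, smul_eq_mul, Matrix.add_mul, Matrix.smul_mul,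
    Matrix.trace_add, Matrix.trace_smul] at k3
  have k4 : ∑ e, ∑ j, t e j * (D j * S3 e).trace = ∑ b, ∑ c, t b c * (D b * S3 c).trace := by
    rw [Finset.sum_comm]
    exact Finset.sum_congr rfl fun b _ => Finset.sum_congr rfl fun c _ => by rw [ht]
  have k5 : ∑ b, ∑ c, t b c * (2 * χ * q b * (σ * S3 c).trace + χ ^ 2 * (D b * S3 c).trace) =
      2 * χ * ∑ b, ∑ e, q b * (t b e * (σ * S3 e).trace) +
        χ ^ 2 * ∑ b, ∑ c, t b c * (D b * S3 c).trace := by
    simp only [Finset.mul_sum, ← Finset.sum_add_distrib]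
    exact Finset.sum_congr rfl fun b _ => Finset.sum_congr rfl fun c _ => by ring
  have k6 : ∑ a, ∑ e, χ ^ 2 * σ a e * L e a = χ ^ 2 * ∑ a, ∑ e, σ a e * L e a := by
    simp only [Finset.mul_sum, mul_assoc]
  simp only [Finset.sum_add_distrib, mul_add, mul_sub, Finset.sum_sub_distrib]
  rw [k3, k2, k4, k5, k6, fq_tr σ S]
  ring

theorem fq_int {φ χ g : E n → ℝ} (hφ : Continuous (rho φ)) (hχ : Continuous χ)
    (hc : HasCompactSupport χ) (hg : Continuous g) : Integrable fun x => rho φ x * (χ x * g x) :=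
  (hφ.mul (hχ.mul hg)).integrable_of_hasCompactSupport hc.mul_right.mul_left

theorem fq_int2 {φ h s : E n → ℝ} {τ : E n → Mat n} (hφ : Continuous (rho φ)) (hh : ContDiff ℝ 1 h)
    (hc : HasCompactSupport h) (hs : ContDiff ℝ 1 s) (hτ : ∀ i j, Continuous fun x => τ x i j) :
    Integrable fun x => rho φ x * (grad h x ⬝ᵥ (τ x *ᵥ grad s x)) := by
  have e : (fun x => rho φ x * (grad h x ⬝ᵥ (τ x *ᵥ grad s x))) =
      fun x => ∑ b, rho φ x * (pd b h x * ∑ c, τ x b c * pd c s x) := by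
    funext x
    rw [← Finset.mul_sum]
    rfl
  rw [e]
  exact integrable_finsetSum _ fun b _ => fq_int hφ (continuous_pd hh b) (cs_pd hc b)
    (continuous_finsetSum _ fun c _ => (hτ b c).mul (continuous_pd hs c))

theorem fq_dA {φ : E n → ℝ} {c C : ℝ} {τ : E n → Mat n} {U : E n → Fin n → Mat n}
    (hM : MS φ c C τ U) {s : E n → ℝ} (hs : ContDiff ℝ 4 s) (x : E n) (a e : Fin n) :
    pd e (Lop τ (pd a s)) x = Lop τ (pd e (pd a s)) x - hess s x e a +
      (U x e * (τ x * pdM a (hess s) x * τ x)).trace := by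
  have h3 : ContDiff ℝ 3 (pd a s) := contDiff_pd hs (by norm_num) a
  have k := Lam_eq hM h3 x e
  rw [Lam, pd_add e ((contDiff_Lop hM h3).differentiable one_ne_zero x)
    (h3.differentiable (by norm_num) x), ← pdM_hess (hs.of_le (by norm_num))] at k
  simp only [Avec] at k
  simp only [hess, Matrix.of_apply] at k ⊢
  linarith

theorem fq_dσ {φ : E n → ℝ} {c C : ℝ} {τ : E n → Mat n} {U : E n → Fin n → Mat n}
    (hM : MS φ c C τ U) {s : E n → ℝ} (hs : ContDiff ℝ 3 s) (x : E n) (j : Fin n) :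
    pdM j (fun y => τ y * hess s y * τ y) x =
      τ x * U x j * (τ x * hess s x * τ x) + τ x * pdM j (hess s) x * τ x +
        τ x * hess s x * τ x * U x j * τ x := by
  have hS : ∀ i j, ContDiff ℝ 1 fun x => hess s x i j := contDiff_hess hs (by norm_num)
  rw [pdM_mul (contDiff_mul_entry hM.cd hS) hM.cd, pdM_mul hM.cd hS, hM.dτ]
  simp only [Matrix.add_mul, Matrix.mul_assoc]

theorem Qid {α β c C : ℝ} {φ : E n → ℝ} {τ : E n → Mat n} {U : E n → Fin n → Mat n}
    (hP : Pot α β φ) (hM : MS φ c C τ U) {s χ : E n → ℝ} (hs : ContDiff ℝ 4 s)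
    (hχ : ContDiff ℝ 1 χ) (hc : HasCompactSupport χ) :
    ∫ x, rho φ x * (χ x ^ 2 * (Avec τ s x ⬝ᵥ (τ x *ᵥ Lam τ s x))) =
      ∫ x, rho φ x * (χ x ^ 2 * ((τ x * hess s x * (τ x * hess s x)).trace +
          ∑ e, ∑ j, τ x e j *
            (((τ x * U x j * (τ x * hess s x * τ x) + τ x * pdM j (hess s) x * τ x
                + τ x * hess s x * τ x * U x j * τ x) * pdM e (hess s) x).trace
              - (τ x * hess s x * τ x * U x j * τ x * pdM e (hess s) x).trace))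
        + 2 * χ x * ((∑ b, ∑ e, pd b χ x * (τ x b e *
              (τ x * hess s x * τ x * pdM e (hess s) x).trace))
            - Avec τ s x ⬝ᵥ ((τ x * hess s x * τ x) *ᵥ grad χ x))) := by
  have hs3 : ContDiff ℝ 3 s := hs.of_le (by norm_num)
  have hρ := hP.continuous_rho
  have hS : ∀ i j, ContDiff ℝ 1 fun x => hess s x i j := contDiff_hess hs3 (by norm_num)
  have hσ : ∀ i j, ContDiff ℝ 1 fun x => (τ x * hess s x * τ x) i j :=
    contDiff_mul_entry (contDiff_mul_entry hM.cd hS) hM.cd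
  have h3 : ∀ a, ContDiff ℝ 3 (pd a s) := contDiff_pd hs (by norm_num)
  have h2 : ∀ e a, ContDiff ℝ 2 (pd e (pd a s)) := fun e a => contDiff_pd (h3 a) (by norm_num) e
  have hA : ∀ a, ContDiff ℝ 1 (Lop τ (pd a s)) := fun a => contDiff_Lop hM (h3 a)
  have hh : ∀ a e, ContDiff ℝ 1 fun x => χ x ^ 2 * (τ x * hess s x * τ x) a e :=
    fun a e => (hχ.pow 2).mul (hσ a e)
  have hc2 : HasCompactSupport fun x => χ x ^ 2 := by simp only [sq]; exact hc.mul_right
  have hhc : ∀ a e, HasCompactSupport fun x => χ x ^ 2 * (τ x * hess s x * τ x) a e :=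
    fun a e => hc2.mul_right
  have k1 := delta_adj hP hM hs3 hχ hc hA
  have i1 : Integrable fun x => rho φ x *
      (χ x ^ 2 * ∑ a, ∑ e, (τ x * hess s x * τ x) a e * pd e (Lop τ (pd a s)) x) :=
    fq_int hρ (hχ.continuous.pow 2) hc2 (continuous_finsetSum _ fun a _ =>
      continuous_finsetSum _ fun e _ => (hσ a e).continuous.mul (continuous_pd (hA a) e))
  have i2 : Integrable fun x => rho φ x *
      (χ x * ((fun a => Lop τ (pd a s) x) ⬝ᵥ ((τ x * hess s x * τ x) *ᵥ grad χ x))) :=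
    fq_int hρ hχ.continuous hc (continuous_finsetSum _ fun a _ => (hA a).continuous.mul
      (continuous_finsetSum Finset.univ fun e _ => (hσ a e).continuous.mul (continuous_pd hχ e)))
  have i3 : ∀ a e, Integrable fun x => rho φ x *
      (χ x ^ 2 * (τ x * hess s x * τ x) a e * Lop τ (pd e (pd a s)) x) := fun a e =>
    fq_int hρ (hh a e).continuous (hhc a e) (continuous_Lop hM (h2 e a))
  have i4 := fun a e => fq_int2 hρ (hh a e) (hhc a e) ((h2 e a).of_le (by norm_num)) hM.continuous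
  have k2 : ∫ x, ∑ a, ∑ e, (rho φ x * (χ x ^ 2 * (τ x * hess s x * τ x) a e * Lop τ (pd e (pd a s)) x) +
      rho φ x * (grad (fun x => χ x ^ 2 * (τ x * hess s x * τ x) a e) x ⬝ᵥ
        (τ x *ᵥ grad (pd e (pd a s)) x))) = 0 := by
    rw [integral_finsetSum _ fun a _ => integrable_finsetSum _ fun e _ => (i3 a e).fun_add (i4 a e)]
    refine Finset.sum_eq_zero fun a _ => ?_
    rw [integral_finsetSum _ fun e _ => (i3 a e).fun_add (i4 a e)]
    refine Finset.sum_eq_zero fun e _ => ?_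
    rw [integral_add (i3 a e) (i4 a e), green hP hM (hh a e) (h2 e a) (Or.inl (hhc a e)), neg_add_cancel]
  have i5 := integrable_finsetSum Finset.univ fun a _ => integrable_finsetSum Finset.univ
    fun e _ => (i3 a e).fun_add (i4 a e)
  have k3 := integral_sub (i1.fun_neg.fun_add i5) (i2.const_mul 2)
  rw [integral_add i1.fun_neg i5, integral_neg, integral_const_mul, k1, k2] at k3
  refine Eq.trans (Eq.trans ?_ k3.symm) (integral_congr_ae (Filter.Eventually.of_forall fun x => ?_))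
  · unfold Avec
    ring
  have e1 : ∀ a e, grad (fun x => χ x ^ 2 * (τ x * hess s x * τ x) a e) x = fun b =>
      2 * χ x * pd b χ x * (τ x * hess s x * τ x) a e + χ x ^ 2 *
        (τ x * U x b * (τ x * hess s x * τ x) + τ x * pdM b (hess s) x * τ x +
          τ x * hess s x * τ x * U x b * τ x) a e := fun a e => by
    funext b
    have d1 := hχ.differentiable one_ne_zero x
    rw [grad, pd_mul b (d1.fun_pow 2) ((hσ a e).differentiable one_ne_zero x), ← fq_dσ hM hs3,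
      pd_comp (g := fun y => y ^ 2) b (hasDerivAt_pow 2 (χ x)) d1]
    simp only [pdM, Matrix.of_apply]
    norm_num
  have e2 : ∀ a e, grad (pd e (pd a s)) x = fun c => pdM c (hess s) x e a := fun a e => rfl
  have k := fq_alg (τ x) (hess s x) (τ x * hess s x * τ x) (U x) (fun e => pdM e (hess s) x)
    (fun b => τ x * U x b * (τ x * hess s x * τ x) + τ x * pdM b (hess s) x * τ x +
      τ x * hess s x * τ x * U x b * τ x) (hM.ell x).symm (hM.Usym2 x) (pdM_hess_symm1 hs3 x)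
    (pdM_hess_symm2 hs3 x) (χ x) (fun b => pd b χ x) (Matrix.of fun e a => Lop τ (pd e (pd a s)) x)
  simp only [Matrix.of_apply, ← Finset.mul_sum] at k
  simp only [e1, e2, fq_dA hM hs, ← mul_add, ← Finset.mul_sum]
  rw [← Matrix.mul_assoc (τ x * hess s x) (τ x) (hess s x)]
  unfold Avec
  linear_combination rho φ x * k

end Crest.Agent.R238
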