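import Crest.Agent.R238.IF

/-!
# R238/RedDef: interface between the instantiated key inequality (`Inst*`) and the reduction (`Red*`)
(owner helper53; do not edit)

`Var4 n` is `Key.KD.key4` for honest functions (index type `Option (Fin N)`, extra piece `φ - ∑ ψ j` with weight `0`;
`eul (eul ψ) = x·Dψ + x·D²ψ x`), after the approximation `L (L + 1) s → g - mean g` in `L²(e^{-φ})`.
-/

set_option autoImplicit false
open MeasureTheory
open scoped RealInnerProductSpace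

namespace Crest.Agent.R238

variable {n N : ℕ}

/-- the variance inequality `Var (∑ z_j x·Dψ_j) ≤ E ∑ z_j² (x·D)² ψ_j` for the weight `e^{-φ}` (not normalised) -/
def VI (φ : E n → ℝ) (ψ : Fin N → E n → ℝ) (z : Fin N → ℝ) : Prop :=
  (∫ x, (∑ j, z j * eul (ψ j) x) ^ 2 * Real.exp (-φ x)) * (∫ x, Real.exp (-φ x)) -
      (∫ x, (∑ j, z j * eul (ψ j) x) * Real.exp (-φ x)) ^ 2 ≤
    (∫ x, (∑ j, z j ^ 2 * eul (eul (ψ j)) x) * Real.exp (-φ x)) * ∫ x, Real.exp (-φ x)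

/-- what the reduction needs: `theorem var4 (h : AI n) : Var4 n` (file `R238/Inst.lean`) -/
def Var4 (n : ℕ) : Prop :=
  ∀ (N : ℕ) (φ : E n → ℝ) (ψ : Fin N → E n → ℝ) (z : Fin N → ℝ), Adm φ →
    (∀ j, Cb 2 (ψ j) ∧ (∀ x, ψ j (-x) = ψ j x) ∧ HessGe 0 (ψ j)) →
    HessGe 0 (fun x => φ x - ∑ j, ψ j x) → VI φ ψ z

/-- smooth convex nondecreasing cut: `0` on the left half line, `r - c` for `r ≥ 1` -/
structure Mx (m : ℝ → ℝ) (c : ℝ) : Prop where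
  sm : ContDiff ℝ (⊤ : ℕ∞) m
  zero : ∀ r, r ≤ 0 → m r = 0
  pos : ∀ r, 0 < r → 0 < m r
  lin : ∀ r, 1 ≤ r → m r = r - c
  d1 : ∀ r, 0 ≤ deriv m r
  d2 : ∀ r, 0 ≤ deriv (deriv m) r

/-- one dimensional profiles: smooth, even, nonnegative, convex, `w'' ≤ M`, higher derivatives bounded -/
structure W1 (w : ℝ → ℝ) (M : ℝ) : Prop where
  sm : ContDiff ℝ (⊤ : ℕ∞) w
  even : ∀ y, w (-y) = w y
  nn : ∀ y, 0 ≤ w y
  d2 : ∀ y, 0 ≤ deriv (deriv w) y ∧ deriv (deriv w) y ≤ M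
  bd : ∀ k, 2 ≤ k → ∃ C : ℝ, ∀ y, |iteratedDeriv k w y| ≤ C

/-- ridge function -/
noncomputable def rdg (w : ℝ → ℝ) (a : E n) : E n → ℝ := fun x => w ⟪a, x⟫

/-- the potential `δ |x|² / 2 + ∑ w ⟪a j, x⟫` -/
noncomputable def pot (δ : ℝ) (w : ℝ → ℝ) (a : Fin N → E n) : E n → ℝ :=
  fun x => δ * (‖x‖ ^ 2 / 2) + ∑ j, rdg w (a j) x

/-- partition function -/
noncomputable def FF (δ : ℝ) (w : ℝ → ℝ) (a : Fin N → E n) : ℝ := ∫ x, Real.exp (-pot δ w a x)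

/-- the dilated directions `e^{-s z j} a j` -/
noncomputable def dil (a : Fin N → E n) (z : Fin N → ℝ) (s : ℝ) : Fin N → E n :=
  fun j => Real.exp (-(s * z j)) • a j

/-- Gaussian mass -/
noncomputable def GM (δ : ℝ) (A : Set (E n)) : ℝ := ∫ x in A, Real.exp (-(δ * (‖x‖ ^ 2 / 2)))

/-- the symmetric polyhedron `|⟪a j, x⟫| ≤ 1` -/
def Pol (a : Fin N → E n) : Set (E n) := {x | ∀ j, |⟪a j, x⟫| ≤ 1}

end Crest.Agent.R238
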