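import Crest.Agent.R238.AnKD
import Crest.Agent.R238.RedDef

/-!
# R238/Inst: the variance inequality `Var4 n` from the analytic input `AI n` (helper48)
-/

set_option autoImplicit false

namespace Crest.Agent.R238

open MeasureTheory Matrix Set Filter Topology
open scoped ContDiff

variable {n : ℕ}

theorem pd_eq (i : Fin n) (f : E n → ℝ) : pd i f = An.pd i f := rfl

theorem pdL_eq (l : List (Fin n)) (f : E n → ℝ) : pdL l f = An.pdl l f := by
  induction l with
  | nil => rfl
  | cons i l ih => exact congrArg (An.pd i) ih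

theorem hess_eq (f : E n → ℝ) : hess f = An.hess f := rfl

theorem eul_eq (f : E n → ℝ) : eul f = An.eul f := funext fun x => (An.eul_eq_sum f x).symm

theorem Lop_eq (u s : E n → ℝ) : Lop u s = An.Lop (fun y => (An.hess u y)⁻¹) s := by
  funext x
  simp only [Lop, An.Lop, eul_eq]
  rfl

theorem Cb.g2 {f : E n → ℝ} (h : Cb 2 f) : An.G2 f :=
  ⟨h.1, fun i j => ⟨An.smooth_pd i (An.smooth_pd j h.1), fun l => by
    obtain ⟨C, hC⟩ := h.2 (l ++ [i, j]) (by simp)
    rw [pdL_eq, An.pdl_append] at hC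
    exact ⟨C, hC⟩⟩⟩

theorem Cb.of_an {f : E n → ℝ} (h : An.Cb f) : Cb 0 f :=
  ⟨h.smooth, fun l _ => by rw [pdL_eq]; exact h.bd l⟩

theorem Adm.cb {φ : E n → ℝ} (h : Adm φ) : An.Cb fun x => φ x - ‖x‖ ^ 2 / 2 := by
  obtain ⟨R, _, hR⟩ := h.2.2.1.exists_pos_le_norm
  exact An.Cb.of_supp (h.1.sub An.ps_q.smooth) hR

theorem Adm.eq {φ : E n → ℝ} : φ = fun x => ‖x‖ ^ 2 / 2 + (φ x - ‖x‖ ^ 2 / 2) := by
  funext x; ring

theorem Adm.ps {φ : E n → ℝ} (h : Adm φ) : An.PS φ := by
  rw [Adm.eq (φ := φ)]; exact An.ps_q.add h.cb.ps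

theorem Adm.int {φ : E n → ℝ} (h : Adm φ) {F : E n → ℝ} (hF : An.PG F) :
    Integrable fun x => F x * Real.exp (-φ x) := by
  obtain ⟨B, hB⟩ := h.cb.bd0
  have := An.integrable_dens h.cb.smooth.continuous hB hF
  refine this.congr (Eventually.of_forall fun x => ?_)
  simp only [An.dens]
  congr 2; ring

theorem ell_of {u : E n → ℝ} (hu : Cb 2 u) {c : ℝ} (hc : HessGe c u) :
    ∃ C, ∀ x, An.Ell (An.hess u x) c C := by
  obtain ⟨M, _, hM⟩ := An.CH.exists_unif (ι := Fin n × Fin n) (f := fun p => An.pd p.1 (An.pd p.2 u))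
    fun p => (hu.g2.cb p.1 p.2).ch 0
  refine ⟨n * M, fun x => ⟨An.hess_isSymm (contDiff_infty.mp hu.1 2) x, fun ξ => ⟨?_, ?_⟩⟩⟩
  · have := hc x ξ
    simp only [dotProduct, mulVec, An.hess, of_apply, Finset.mul_sum]
    simp only [sq, Finset.mul_sum, pd_eq, mul_assoc] at this
    exact this
  · exact (le_abs_self _).trans (An.abs_quad_le (fun i j => (hM (i, j)).1 x) ξ)

theorem md_of {φ u : E n → ℝ} (hφ : Adm φ) (hu : Cb 2 u) {c : ℝ} (hc0 : 0 < c) (hc : HessGe c u)
    (hma : MA φ u) : An.MD φ u := by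
  obtain ⟨C, hC⟩ := ell_of hu hc
  exact
    { pφ := hφ.ps
      pu := hu.g2.ps
      int := fun F hF => hφ.int hF
      pτ := fun i j => (An.Cb.of_ch fun m => An.CH.inv (g := An.hess u)
        (fun i j => (hu.g2.cb i j).ch m) hC hc0 i j).ps
      pos := fun x => (hC x).posDef hc0
      ma := ⟨0, fun x => by rw [add_zero, ← eul_eq]; exact hma x⟩ }

theorem eul_eul {ψ : E n → ℝ} (h : ContDiff ℝ ∞ ψ) (x : E n) : An.eul (An.eul ψ) x =
    An.eul ψ x + ∑ a, ∑ b, x a * An.pd a (An.pd b ψ) x * x b := by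
  have c2 : ContDiff ℝ 2 ψ := contDiff_infty.mp h 2
  rw [An.eul_eq_sum (An.eul ψ)]
  simp only [An.pd_eul c2, mul_add, Finset.sum_add_distrib, An.eul_eq_sum, Finset.mul_sum]
  congr 1
  refine Finset.sum_congr rfl fun a _ => Finset.sum_congr rfl fun b _ => ?_
  rw [An.pd_comm c2 b a]; ring

section
variable {φ : E n → ℝ} (hφ : Adm φ)
include hφ

theorem Adm.Z_pos : 0 < ∫ x, Real.exp (-φ x) := by
  have := hφ.int (An.PG.const 1)
  simp only [one_mul] at this
  exact integral_exp_pos this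

theorem Adm.sq_sub {k : E n → ℝ} (hk : An.PG k) (m : ℝ) :
    ∫ x, (k x - m) ^ 2 * Real.exp (-φ x) = (∫ x, k x ^ 2 * Real.exp (-φ x)) -
      2 * m * (∫ x, k x * Real.exp (-φ x)) + m ^ 2 * ∫ x, Real.exp (-φ x) := by
  have i1 := hφ.int (hk.pow 2)
  have i2 := (hφ.int hk).const_mul (2 * m)
  have i3 := (hφ.int (An.PG.const 1)).const_mul (m ^ 2)
  simp only [one_mul] at i3
  have i4 : Integrable fun x => k x ^ 2 * Real.exp (-φ x) - 2 * m * (k x * Real.exp (-φ x)) := i1.sub i2
  rw [← integral_const_mul, ← integral_const_mul, ← integral_sub i1 i2, ← integral_add i4 i3]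
  congr 1; funext x; ring

theorem Adm.approx {g : E n → ℝ} (hg : An.PS g) (he : ∀ x, g (-x) = g x) {ε : ℝ} (hε : 0 < ε) :
    ∃ G : E n → ℝ, An.Cb G ∧ (∀ x, G (-x) = G x) ∧ ∫ x, (G x - g x) ^ 2 * Real.exp (-φ x) ≤ ε := by
  let χ : ℕ → ContDiffBump (0 : E n) := fun k => ⟨k + 1, k + 2, by positivity, by linarith⟩
  have hlim : Tendsto (fun k => ∫ x, (χ k x * g x - g x) ^ 2 * Real.exp (-φ x)) atTop
      (𝓝 (∫ _ : E n, (0 : ℝ))) := by
    refine tendsto_integral_of_dominated_convergence (fun x => g x ^ 2 * Real.exp (-φ x))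
      (fun k => ?_) (hφ.int (hg.to_pg.pow 2)) (fun k => Eventually.of_forall fun x => ?_)
      (Eventually.of_forall fun x => ?_)
    · have h1 := (χ k).continuous
      have h2 := hg.smooth.continuous
      have h3 := hφ.1.continuous
      exact Continuous.aestronglyMeasurable (by fun_prop)
    · rw [Real.norm_eq_abs, abs_of_nonneg (by positivity)]
      refine mul_le_mul_of_nonneg_right ?_ (Real.exp_pos _).le
      have h0 : 0 ≤ χ k x := (χ k).nonneg
      have h1 : χ k x ≤ 1 := (χ k).le_one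
      have : (χ k x * g x - g x) ^ 2 = (1 - χ k x) ^ 2 * g x ^ 2 := by ring
      rw [this]
      exact mul_le_of_le_one_left (sq_nonneg _) (by nlinarith)
    · refine tendsto_const_nhds.congr' ?_
      filter_upwards [eventually_ge_atTop ⌈‖x‖⌉₊] with k hk
      have : χ k x = 1 := (χ k).one_of_mem_closedBall (by
        rw [mem_closedBall_zero_iff]
        have h1 : ‖x‖ ≤ k := (Nat.le_ceil _).trans (by exact_mod_cast hk)
        change ‖x‖ ≤ k + 1
        linarith)
      simp [this]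
  rw [integral_zero] at hlim
  obtain ⟨k, hk⟩ := (hlim.eventually (gt_mem_nhds hε)).exists
  refine ⟨fun x => χ k x * g x, An.Cb.of_supp ((χ k).contDiff.mul hg.smooth) (R := k + 2) fun x hx => ?_,
    fun x => by simp only [(χ k).neg, he], hk.le⟩
  rw [(χ k).zero_of_le_dist (by rw [dist_zero_right]; exact hx), zero_mul]

end

theorem var4 (h : AI n) : Var4 n := by
  intro N φ ψ z hφ hψ hrest
  obtain ⟨u, hu, _, ⟨c, hc0, hc⟩, hma, hsol⟩ := h φ hφ
  have md := md_of hφ hu hc0 hc hma
  have pψ : ∀ j, An.PS (ψ j) := fun j => (hψ j).1.g2.ps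
  have psum : An.PS fun x => ∑ j, ψ j x := An.PS.sum _ fun j _ => pψ j
  unfold VI
  simp only [eul_eq]
  set g : E n → ℝ := fun x => ∑ j, z j * An.eul (ψ j) x with hg
  have pg : An.PS g := An.PS.sum _ fun j _ => (An.PS.const _).mul (pψ j).eul
  have eg : ∀ x, g (-x) = g x := fun x =>
    Finset.sum_congr rfl fun j _ => by rw [An.IsEven.eul (hψ j).2.1 x]
  set A : ℝ := ∫ x, (∑ j, z j ^ 2 * An.eul (An.eul (ψ j)) x) * Real.exp (-φ x) with hA
  set Z : ℝ := ∫ x, Real.exp (-φ x) with hZ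
  have Zp : 0 < Z := hφ.Z_pos
  -- the key inequality
  have key : ∀ s, An.PS s → 2 * (∫ x, Lop u (fun y => Lop u s y + s y) x * g x * Real.exp (-φ x)) -
      ∫ x, Lop u (fun y => Lop u s y + s y) x ^ 2 * Real.exp (-φ x) ≤ A := by
    intro s hs
    have hd : ∀ a b x, An.pd a (An.pd b fun x => φ x - ∑ j, ψ j x) x =
        An.pd a (An.pd b φ) x - ∑ j, An.pd a (An.pd b (ψ j)) x := by
      intro a b x
      rw [An.pd_sub b (An.ancls_diff hφ.1) (An.ancls_diff psum.smooth),
        An.pd_sum _ b fun j _ => An.ancls_diff (pψ j).smooth,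
        An.pd_sub a (An.ancls_diff (hφ.ps.pd b).smooth)
          (An.ancls_diff (An.PS.sum _ fun j _ => (pψ j).pd b).smooth),
        An.pd_sum _ a fun j _ => An.ancls_diff ((pψ j).pd b).smooth]
    have k4 := md.key4 (J := Option (Fin N))
      (ψ := fun o => Option.elim o (fun x => φ x - ∑ j, ψ j x) ψ)
      (fun o => by
        cases o with
        | none => exact hφ.ps.sub psum
        | some j => exact pψ j)
      (fun o => Option.elim o 0 z)
      (fun a b x => by
        simp only [Fintype.sum_option, Option.elim, hd]; ring)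
      (fun o x v => by
        cases o with
        | none => simpa [pd_eq] using hrest x v
        | some j => simpa [pd_eq] using (hψ j).2.2 x v) hs
    simp only [Fintype.sum_option, Option.elim, zero_mul, zero_add, ne_eq, OfNat.ofNat_ne_zero,
      not_false_eq_true, zero_pow] at k4
    simp only [Lop_eq]
    refine k4.trans (le_of_eq ?_)
    simp only [hA, Finset.sum_mul]
    rw [integral_finsetSum _ fun j _ => hφ.int ((An.PS.const _).mul (pψ j).eul.eul).to_pg]
    refine Finset.sum_congr rfl fun j _ => ?_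
    rw [← integral_const_mul]
    congr 1; funext x
    rw [eul_eul (pψ j).smooth]; ring
  set m : ℝ := (∫ x, g x * Real.exp (-φ x)) / Z with hm
  have hmZ : ∫ x, g x * Real.exp (-φ x) = m * Z := by rw [hm]; field_simp
  have hV : ∫ x, (g x - m) ^ 2 * Real.exp (-φ x) ≤ A := by
    refine le_of_forall_pos_le_add fun ε hε => ?_
    obtain ⟨G, hG, eG, hGε⟩ := hφ.approx pg eg (ε := ε / 4) (by positivity)
    set m' : ℝ := (∫ x, G x * Real.exp (-φ x)) / Z with hm'
    have hm'Z : ∫ x, G x * Real.exp (-φ x) = m' * Z := by rw [hm']; field_simp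
    have iG := hφ.int hG.ps.to_pg
    have ig := hφ.int pg.to_pg
    have i1 := hφ.int (An.PG.const 1)
    simp only [one_mul] at i1
    obtain ⟨s, hs, hsε⟩ := hsol (fun x => G x - m') (Cb.of_an (hG.sub (An.Cb.const m')))
      (fun x => by rw [eG]) (by
        simp only [sub_mul]
        rw [integral_sub iG (i1.const_mul m'), integral_const_mul, hm'Z, sub_self]) (ε / 4) (by positivity)
    have ps := hs.g2.ps
    have hk := key s ps
    have pf : An.PS (Lop u fun y => Lop u s y + s y) := by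
      simp only [Lop_eq]
      exact md.ps_L ((md.ps_L ps).add ps)
    have f0 : ∫ x, Lop u (fun y => Lop u s y + s y) x * Real.exp (-φ x) = 0 := by
      simp only [Lop_eq]
      exact md.int_L ((md.ps_L ps).add ps)
    generalize (Lop u fun y => Lop u s y + s y) = f at hk pf f0 hsε
    have h1 : ∫ x, ((G x - g x) - (m' - m)) ^ 2 * Real.exp (-φ x) ≤ ε / 4 := by
      rw [hφ.sq_sub (hG.ps.to_pg.sub pg.to_pg)]
      have : ∫ x, (G x - g x) * Real.exp (-φ x) = (m' - m) * Z := by
        simp only [sub_mul]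
        rw [integral_sub iG ig, hm'Z, hmZ]
      rw [this, ← hZ]
      nlinarith [mul_nonneg (sq_nonneg (m' - m)) Zp.le]
    have j1 := hφ.int (pf.to_pg.mul pg.to_pg)
    have j2 := hφ.int (pf.to_pg.pow 2)
    have j3 := hφ.int pf.to_pg
    have j4 := hφ.int ((pf.to_pg.sub (hG.ps.to_pg.sub (An.PG.const m'))).pow 2)
    have j5 := hφ.int (((hG.ps.to_pg.sub pg.to_pg).sub (An.PG.const (m' - m))).pow 2)
    have j6 : Integrable fun x => 2 * (f x * g x * Real.exp (-φ x)) - f x ^ 2 * Real.exp (-φ x) :=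
      (j1.const_mul 2).sub j2
    have j7 : Integrable fun x => 2 * (f x * g x * Real.exp (-φ x)) - f x ^ 2 * Real.exp (-φ x) -
        2 * m * (f x * Real.exp (-φ x)) := j6.sub (j3.const_mul _)
    have j8 : Integrable fun x => 2 * ((f x - (G x - m')) ^ 2 * Real.exp (-φ x)) +
        2 * (((G x - g x) - (m' - m)) ^ 2 * Real.exp (-φ x)) := (j4.const_mul 2).add (j5.const_mul 2)
    have h2 : ∫ x, (g x - m) ^ 2 * Real.exp (-φ x) ≤
        ∫ x, (2 * (f x * g x * Real.exp (-φ x)) - f x ^ 2 * Real.exp (-φ x) -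
          2 * m * (f x * Real.exp (-φ x))) + (2 * ((f x - (G x - m')) ^ 2 * Real.exp (-φ x)) +
          2 * (((G x - g x) - (m' - m)) ^ 2 * Real.exp (-φ x))) := by
      refine integral_mono (hφ.int ((pg.to_pg.sub (An.PG.const m)).pow 2)) (j7.add j8) fun x => ?_
      have hw := (Real.exp_pos (-φ x)).le
      have : (g x - m) ^ 2 ≤ 2 * (f x * g x) - f x ^ 2 - 2 * m * f x + (2 * (f x - (G x - m')) ^ 2 +
          2 * ((G x - g x) - (m' - m)) ^ 2) := by
        nlinarith [sq_nonneg ((f x - (G x - m')) - ((G x - g x) - (m' - m)))]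
      have := mul_le_mul_of_nonneg_right this hw
      simp only
      linarith
    rw [integral_add j7 j8, integral_sub j6 (j3.const_mul _), integral_sub (j1.const_mul 2) j2,
      integral_add (j4.const_mul 2) (j5.const_mul 2)] at h2
    simp only [integral_const_mul, f0] at h2
    linarith
  rw [hφ.sq_sub pg.to_pg, hmZ, ← hZ] at hV
  rw [hmZ]
  nlinarith [mul_le_mul_of_nonneg_right hV Zp.le]

end Crest.Agent.R238
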