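import Mathlib

/-! # R238 / KeyA : tensor contractions and flat Bochner structure (pure algebra; owner helper48) -/

set_option autoImplicit false

open Finset

namespace Crest.Agent.R238.Key

section Sums
variable {ι : Type} [Fintype ι] {A : Type} [AddCommMonoid A]

theorem sum2 (f : ι → ι → A) : ∑ a, ∑ b, f a b = ∑ p : ι × ι, f p.1 p.2 := by
  simp only [Fintype.sum_prod_type]

theorem sum3 (f : ι → ι → ι → A) :
    ∑ a, ∑ b, ∑ c, f a b c = ∑ p : ι × ι × ι, f p.1 p.2.1 p.2.2 := by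
  simp only [Fintype.sum_prod_type]

theorem sum4 (f : ι → ι → ι → ι → A) :
    ∑ a, ∑ b, ∑ c, ∑ d, f a b c d = ∑ p : ι × ι × ι × ι, f p.1 p.2.1 p.2.2.1 p.2.2.2 := by
  simp only [Fintype.sum_prod_type]

theorem sum5 (f : ι → ι → ι → ι → ι → A) :
    ∑ a, ∑ b, ∑ c, ∑ d, ∑ e, f a b c d e =
      ∑ p : ι × ι × ι × ι × ι, f p.1 p.2.1 p.2.2.1 p.2.2.2.1 p.2.2.2.2 := by
  simp only [Fintype.sum_prod_type]

theorem sum6 (f : ι → ι → ι → ι → ι → ι → A) :
    ∑ a, ∑ b, ∑ c, ∑ d, ∑ e, ∑ g, f a b c d e g =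
      ∑ p : ι × ι × ι × ι × ι × ι, f p.1 p.2.1 p.2.2.1 p.2.2.2.1 p.2.2.2.2.1 p.2.2.2.2.2 := by
  simp only [Fintype.sum_prod_type]

end Sums

section Ip
variable {ι : Type} [Fintype ι] {A : Type} [CommRing A]

/-- `P^{a a'} Q^{b b'} X_{ab} Y_{a'b'}` -/
def ip2 (P Q X Y : ι → ι → A) : A := ∑ a, ∑ b, ∑ a', ∑ b', P a a' * Q b b' * X a b * Y a' b'

/-- `τ^{a a'} τ^{b b'} τ^{c c'} X_{abc} Y_{a'b'c'}` -/
def ip3 (τ : ι → ι → A) (X Y : ι → ι → ι → A) : A :=
  ∑ a, ∑ b, ∑ c, ∑ a', ∑ b', ∑ c', τ a a' * τ b b' * τ c c' * X a b c * Y a' b' c'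

theorem ip2_comm {P Q : ι → ι → A} (hP : ∀ i j, P i j = P j i) (hQ : ∀ i j, Q i j = Q j i)
    (X Y : ι → ι → A) : ip2 P Q X Y = ip2 P Q Y X := by
  unfold ip2
  rw [sum4, sum4]
  refine Fintype.sum_equiv ⟨fun p => (p.2.2.1, p.2.2.2, p.1, p.2.1),
    fun p => (p.2.2.1, p.2.2.2, p.1, p.2.1), fun _ => rfl, fun _ => rfl⟩ _ _ ?_
  rintro ⟨a, b, a', b'⟩
  simp only [Equiv.coe_fn_mk]
  rw [hP a, hQ b]; ring

theorem ip2_sub_left (P Q X X' Y : ι → ι → A) :
    ip2 P Q (fun a b => X a b - X' a b) Y = ip2 P Q X Y - ip2 P Q X' Y := by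
  simp only [ip2, ← sum_sub_distrib]
  refine sum_congr rfl fun a _ => sum_congr rfl fun b _ => sum_congr rfl fun c _ =>
    sum_congr rfl fun d _ => by ring

theorem ip2_sub_right (P Q X Y Y' : ι → ι → A) :
    ip2 P Q X (fun a b => Y a b - Y' a b) = ip2 P Q X Y - ip2 P Q X Y' := by
  simp only [ip2, ← sum_sub_distrib]
  refine sum_congr rfl fun a _ => sum_congr rfl fun b _ => sum_congr rfl fun c _ =>
    sum_congr rfl fun d _ => by ring

theorem ip3_comm {τ : ι → ι → A} (h : ∀ i j, τ i j = τ j i) (X Y : ι → ι → ι → A) :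
    ip3 τ X Y = ip3 τ Y X := by
  unfold ip3
  rw [sum6, sum6]
  refine Fintype.sum_equiv
    ⟨fun p => (p.2.2.2.1, p.2.2.2.2.1, p.2.2.2.2.2, p.1, p.2.1, p.2.2.1),
    fun p => (p.2.2.2.1, p.2.2.2.2.1, p.2.2.2.2.2, p.1, p.2.1, p.2.2.1),
    fun _ => rfl, fun _ => rfl⟩ _ _ ?_
  rintro ⟨a, b, c, a', b', c'⟩
  simp only [Equiv.coe_fn_mk]
  rw [h a, h b, h c]; ring

theorem ip3_swap13 (τ : ι → ι → A) (X Y : ι → ι → ι → A) :
    ip3 τ (fun a b c => X c b a) (fun a b c => Y c b a) = ip3 τ X Y := by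
  unfold ip3
  rw [sum6, sum6]
  refine Fintype.sum_equiv
    ⟨fun p => (p.2.2.1, p.2.1, p.1, p.2.2.2.2.2, p.2.2.2.2.1, p.2.2.2.1),
    fun p => (p.2.2.1, p.2.1, p.1, p.2.2.2.2.2, p.2.2.2.2.1, p.2.2.2.1),
    fun _ => rfl, fun _ => rfl⟩ _ _ ?_
  rintro ⟨a, b, c, a', b', c'⟩
  simp only [Equiv.coe_fn_mk]
  ring

theorem ip3_sub_left (τ : ι → ι → A) (X X' Y : ι → ι → ι → A) :
    ip3 τ (fun a b c => X a b c - X' a b c) Y = ip3 τ X Y - ip3 τ X' Y := by
  simp only [ip3, ← sum_sub_distrib]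
  refine sum_congr rfl fun a _ => sum_congr rfl fun b _ => sum_congr rfl fun c _ =>
    sum_congr rfl fun d _ => sum_congr rfl fun c _ => sum_congr rfl fun d _ => by ring

theorem ip3_sub_right (τ : ι → ι → A) (X Y Y' : ι → ι → ι → A) :
    ip3 τ X (fun a b c => Y a b c - Y' a b c) = ip3 τ X Y - ip3 τ X Y' := by
  simp only [ip3, ← sum_sub_distrib]
  refine sum_congr rfl fun a _ => sum_congr rfl fun b _ => sum_congr rfl fun c _ =>
    sum_congr rfl fun d _ => sum_congr rfl fun c _ => sum_congr rfl fun d _ => by ring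

theorem map_ip2 {B : Type} [CommRing B] (e : A →+* B) (P Q X Y : ι → ι → A) :
    e (ip2 P Q X Y) = ip2 (fun a b => e (P a b)) (fun a b => e (Q a b)) (fun a b => e (X a b))
      (fun a b => e (Y a b)) := by
  simp only [ip2, map_sum, map_mul]

theorem map_ip3 {B : Type} [CommRing B] (e : A →+* B) (τ : ι → ι → A) (X Y : ι → ι → ι → A) :
    e (ip3 τ X Y) = ip3 (fun a b => e (τ a b)) (fun a b c => e (X a b c))
      (fun a b c => e (Y a b c)) := by
  simp only [ip3, map_sum, map_mul]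

end Ip

section Pos
variable {ι : Type} [Fintype ι]

/-- symmetric and nonnegative -/
def PSD (P : ι → ι → ℝ) : Prop := (∀ i j, P i j = P j i) ∧ ∀ v : ι → ℝ, 0 ≤ ∑ i, ∑ j, v i * P i j * v j

theorem PSD.posSemidef {κ : Type} [Fintype κ] {P : κ → κ → ℝ} (h : PSD P) : (Matrix.of P).PosSemidef := by
  refine .of_dotProduct_mulVec_nonneg ?_ fun v => ?_
  · ext i j
    simp [h.1 i j]
  · have := h.2 v
    simp only [dotProduct, Matrix.mulVec, Matrix.of_apply, star_trivial, mul_sum]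
    simpa only [mul_assoc] using this

theorem psd_of_posSemidef {κ : Type} [Fintype κ] {P : Matrix κ κ ℝ} (h : P.PosSemidef) :
    PSD (fun i j => P i j) := by
  refine ⟨fun i j => ?_, fun v => ?_⟩
  · have := h.1.apply j i
    simpa using this
  · have := h.dotProduct_mulVec_nonneg v
    simp only [dotProduct, Matrix.mulVec, star_trivial, mul_sum] at this
    simpa only [mul_assoc] using this

theorem PSD.kron {κ κ' : Type} [Fintype κ] [Fintype κ'] {P : κ → κ → ℝ} {Q : κ' → κ' → ℝ} (hP : PSD P)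
    (hQ : PSD Q) : PSD (fun (p q : κ × κ') => P p.1 q.1 * Q p.2 q.2) := by
  classical
  exact psd_of_posSemidef (hP.posSemidef.kronecker hQ.posSemidef)

theorem ip2_nonneg {P Q : ι → ι → ℝ} (hP : PSD P) (hQ : PSD Q) (X : ι → ι → ℝ) : 0 ≤ ip2 P Q X X := by
  have := (hP.kron hQ).2 (fun p => X p.1 p.2)
  simp only [Fintype.sum_prod_type] at this
  refine this.trans_eq ?_
  unfold ip2
  refine sum_congr rfl fun a _ => sum_congr rfl fun b _ => sum_congr rfl fun c _ =>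
    sum_congr rfl fun d _ => by ring

theorem ip3_nonneg {τ : ι → ι → ℝ} (h : PSD τ) (X : ι → ι → ι → ℝ) : 0 ≤ ip3 τ X X := by
  have := (h.kron (h.kron h)).2 (fun p => X p.1 p.2.1 p.2.2)
  simp only [Fintype.sum_prod_type] at this
  refine this.trans_eq ?_
  unfold ip3
  refine sum_congr rfl fun a _ => sum_congr rfl fun b _ => sum_congr rfl fun c _ =>
    sum_congr rfl fun d _ => sum_congr rfl fun c _ => sum_congr rfl fun d _ => by ring

end Pos

/-- commuting derivations with an integration by parts formula `E (D i F) = E (V i * F)` -/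
structure FS (ι A : Type) [CommRing A] [Algebra ℝ A] where
  D : ι → A →ₗ[ℝ] A
  leib : ∀ i f g, D i (f * g) = D i f * g + f * D i g
  comm : ∀ i j f, D i (D j f) = D j (D i f)
  E : A →ₗ[ℝ] ℝ
  V : ι → A
  ibp : ∀ i F, E (D i F) = E (V i * F)

namespace FS
variable {ι A : Type} [CommRing A] [Algebra ℝ A] (S : FS ι A)

/-- the adjoint of `D i` -/
def δ (i : ι) (F : A) : A := S.V i * F - S.D i F

theorem D_one (i : ι) : S.D i 1 = 0 := by
  have := S.leib i 1 1
  simp only [mul_one, one_mul] at this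
  linear_combination -this

theorem E_δ (i : ι) (F : A) : S.E (S.δ i F) = 0 := by
  simp only [δ, map_sub, S.ibp, sub_self]

theorem E_δ_mul (i : ι) (F G : A) : S.E (S.δ i F * G) = S.E (F * S.D i G) := by
  have h := S.ibp i (F * G)
  rw [S.leib, map_add] at h
  have : S.δ i F * G = S.V i * (F * G) - S.D i F * G := by unfold δ; ring
  rw [this, map_sub, ← h]; ring

theorem D_δ (i j : ι) (F : A) : S.D j (S.δ i F) = S.δ i (S.D j F) + S.D j (S.V i) * F := by
  unfold δ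
  rw [map_sub, S.leib, S.comm j i]; ring

theorem E_mul_D_δ (i j : ι) (F G : A) :
    S.E (F * S.D j (S.δ i G)) = S.E (S.D i F * S.D j G) + S.E (S.D j (S.V i) * F * G) := by
  rw [S.D_δ, mul_add, map_add, mul_comm F (S.δ i _), S.E_δ_mul, mul_comm (S.D j G)]
  congr 2; ring

theorem boch (i j : ι) (F G : A) :
    S.E (S.δ j F * S.δ i G) = S.E (S.D i F * S.D j G) + S.E (S.D j (S.V i) * F * G) := by
  rw [S.E_δ_mul, S.E_mul_D_δ]

/-- flat Bochner formula -/
theorem bochner [Fintype ι] (ξ : ι → A) :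
    S.E ((∑ a, S.δ a (ξ a)) * ∑ a, S.δ a (ξ a)) =
      S.E (∑ a, ∑ b, S.D b (ξ a) * S.D a (ξ b)) + S.E (∑ a, ∑ b, S.D a (S.V b) * ξ a * ξ b) := by
  rw [sum_mul_sum]
  simp only [map_sum, S.boch, sum_add_distrib]

end FS

end Crest.Agent.R238.Key
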