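import Crest.Agent.R238.KeyA

/-! # R238 / KeyB : the moment-measure structure, Stein identity, the operator `L` (pure algebra; owner helper48) -/

set_option autoImplicit false

open Finset

namespace Crest.Agent.R238.Key

/-- The abstract data: `A` = algebra of (temperate smooth) functions, `D i` partial derivatives, `E F = ∫ F e^{-φ}`,
`τ = (D²u)⁻¹`, `ma` = gradient of `log det D²u = x·Du - u - φ + const`. -/
structure KD (ι A : Type) [Fintype ι] [DecidableEq ι] [CommRing A] [Algebra ℝ A] where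
  D : ι → A →ₗ[ℝ] A
  leib : ∀ i f g, D i (f * g) = D i f * g + f * D i g
  comm : ∀ i j f, D i (D j f) = D j (D i f)
  E : A →ₗ[ℝ] ℝ
  φ : A
  ibp : ∀ i F, E (D i F) = E (D i φ * F)
  x : ι → A
  Dx : ∀ i j, D i (x j) = if i = j then 1 else 0
  u : A
  τ : ι → ι → A
  τ_symm : ∀ i j, τ i j = τ j i
  τ_inv : ∀ i j, ∑ k, τ i k * D k (D j u) = if i = j then 1 else 0
  ma : ∀ k, ∑ i, ∑ j, τ i j * D i (D j (D k u)) = ∑ i, x i * D i (D k u) - D k φ

namespace KD
variable {ι A : Type} [Fintype ι] [DecidableEq ι] [CommRing A] [Algebra ℝ A] (K : KD ι A)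

/-- the flat structure in `x` -/
def fx : FS ι A := ⟨K.D, K.leib, K.comm, K.E, fun i => K.D i K.φ, K.ibp⟩

/-- third derivatives of `u` -/
def U (a b c : ι) : A := K.D a (K.D b (K.D c K.u))

theorem D3_12 (f : A) (a b c : ι) : K.D a (K.D b (K.D c f)) = K.D b (K.D a (K.D c f)) := K.comm _ _ _
theorem D3_23 (f : A) (a b c : ι) : K.D a (K.D b (K.D c f)) = K.D a (K.D c (K.D b f)) := by
  rw [K.comm b c]
theorem D3_13 (f : A) (a b c : ι) : K.D a (K.D b (K.D c f)) = K.D c (K.D b (K.D a f)) := by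
  rw [K.D3_12, K.D3_23, K.D3_12]

theorem U12 (a b c : ι) : K.U a b c = K.U b a c := K.D3_12 _ _ _ _
theorem U23 (a b c : ι) : K.U a b c = K.U a c b := K.D3_23 _ _ _ _
theorem U13 (a b c : ι) : K.U a b c = K.U c b a := K.D3_13 _ _ _ _

theorem D_ite (k i j : ι) : K.D k (if i = j then 1 else 0) = 0 := by
  split_ifs
  · exact K.fx.D_one k
  · exact map_zero _

theorem inv' (i b : ι) : ∑ j, K.D i (K.D j K.u) * K.τ j b = if i = b then 1 else 0 := by
  have := K.τ_inv b i
  rw [show (if i = b then (1 : A) else 0) = if b = i then 1 else 0 by simp only [eq_comm], ← this]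
  refine sum_congr rfl fun j _ => ?_
  rw [K.comm i j, K.τ_symm j b, mul_comm]

theorem Dτ (k a b : ι) : K.D k (K.τ a b) = -∑ i, ∑ j, K.τ a i * K.U k i j * K.τ j b := by
  have h : ∀ j, ∑ i, K.D k (K.τ a i) * K.D i (K.D j K.u) = -∑ i, K.τ a i * K.U k i j := by
    intro j
    have := congrArg (K.D k) (K.τ_inv a j)
    rw [K.D_ite, map_sum] at this
    simp only [K.leib, sum_add_distrib] at this
    unfold U
    linear_combination this
  calc K.D k (K.τ a b) = ∑ i, K.D k (K.τ a i) * (if i = b then 1 else 0) := by simp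
    _ = ∑ i, ∑ j, K.D k (K.τ a i) * K.D i (K.D j K.u) * K.τ j b := by
        refine sum_congr rfl fun i _ => ?_
        rw [← K.inv' i b, mul_sum]
        exact sum_congr rfl fun j _ => by ring
    _ = ∑ j, (∑ i, K.D k (K.τ a i) * K.D i (K.D j K.u)) * K.τ j b := by
        rw [sum_comm]; simp only [sum_mul]
    _ = -∑ i, ∑ j, K.τ a i * K.U k i j * K.τ j b := by
        rw [sum_comm]; simp only [h, neg_mul, sum_mul, sum_neg_distrib]

/-- pointwise Stein identity `div_μ τ = -x` -/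
theorem stein_pt (d : ι) : ∑ e, (K.D e K.φ * K.τ d e - K.D e (K.τ d e)) = K.x d := by
  have h1 : ∑ e, K.D e (K.τ d e) = -∑ i, K.τ d i * (∑ j, K.x j * K.D j (K.D i K.u) - K.D i K.φ) := by
    simp only [K.Dτ, sum_neg_distrib, ← K.ma, mul_sum]
    congr 1
    rw [sum3, sum3]
    refine Fintype.sum_equiv ⟨fun p => (p.2.1, p.1, p.2.2), fun p => (p.2.1, p.1, p.2.2),
      fun _ => rfl, fun _ => rfl⟩ _ _ ?_
    rintro ⟨e, i, j⟩
    simp only [Equiv.coe_fn_mk]
    rw [K.U23 e i j, K.τ_symm j e]; unfold U; ring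
  have h2 : ∑ i, K.τ d i * ∑ j, K.x j * K.D j (K.D i K.u) = K.x d := by
    calc ∑ i, K.τ d i * ∑ j, K.x j * K.D j (K.D i K.u)
        = ∑ j, K.x j * ∑ i, K.τ d i * K.D i (K.D j K.u) := by
          simp only [mul_sum]
          rw [sum_comm]
          refine sum_congr rfl fun j _ => sum_congr rfl fun i _ => ?_
          rw [K.comm j i]; ring
      _ = K.x d := by simp [K.τ_inv]
  rw [sum_sub_distrib, h1]
  simp only [mul_sub, sum_sub_distrib, h2]
  have : ∑ e, K.D e K.φ * K.τ d e = ∑ e, K.τ d e * K.D e K.φ := sum_congr rfl fun _ _ => mul_comm _ _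
  rw [this]; ring

/-- the derivative `∂/∂y_d = τ^{de} ∂_e` -/
def a (d : ι) : A →ₗ[ℝ] A := ∑ e, (LinearMap.mulLeft ℝ (K.τ d e)).comp (K.D e)

theorem a_apply (d : ι) (F : A) : K.a d F = ∑ e, K.τ d e * K.D e F := by
  simp [a, LinearMap.sum_apply]

theorem a_leib (i : ι) (f g : A) : K.a i (f * g) = K.a i f * g + f * K.a i g := by
  simp only [a_apply, K.leib, mul_add, sum_add_distrib, sum_mul, mul_sum]
  congr 1 <;> exact sum_congr rfl fun _ _ => by ring

theorem D_a (k d : ι) (F : A) : K.D k (K.a d F) = K.a d (K.D k F) + ∑ e, K.D k (K.τ d e) * K.D e F := by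
  simp only [a_apply, map_sum, K.leib, sum_add_distrib, K.comm k]
  ring

theorem a_comm (c d : ι) (F : A) : K.a c (K.a d F) = K.a d (K.a c F) := by
  have key : ∀ c d, K.a c (K.a d F) = ∑ e, ∑ f, K.τ c e * K.τ d f * K.D e (K.D f F) -
      ∑ e, ∑ f, ∑ i, ∑ j, K.τ c e * K.τ d i * K.U e i j * K.τ j f * K.D f F := by
    intro c d
    rw [K.a_apply c, ← sum_sub_distrib]
    refine sum_congr rfl fun e _ => ?_
    rw [D_a, a_apply, ← sum_add_distrib, mul_sum, ← sum_sub_distrib]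
    refine sum_congr rfl fun f _ => ?_
    rw [K.Dτ, K.comm f e]
    have : ∑ i, ∑ j, K.τ c e * K.τ d i * K.U e i j * K.τ j f * K.D f F =
        K.τ c e * (∑ i, ∑ j, K.τ d i * K.U e i j * K.τ j f) * K.D f F := by
      rw [mul_sum, sum_mul]
      refine sum_congr rfl fun i _ => ?_
      rw [mul_sum, sum_mul]
      exact sum_congr rfl fun j _ => by ring
    rw [this]; ring
  rw [key, key]
  refine congrArg₂ (· - ·) ?_ ?_
  · rw [sum_comm]
    refine sum_congr rfl fun e _ => sum_congr rfl fun f _ => ?_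
    rw [K.comm f e]; ring
  · rw [sum4, sum4]
    refine Fintype.sum_equiv ⟨fun p => (p.2.2.1, p.2.1, p.1, p.2.2.2),
      fun p => (p.2.2.1, p.2.1, p.1, p.2.2.2), fun _ => rfl, fun _ => rfl⟩ _ _ ?_
    rintro ⟨e, f, i, j⟩
    simp only [Equiv.coe_fn_mk]
    rw [K.U12 e i j]; ring

theorem sum_δ_τ (d : ι) (F : A) : ∑ e, K.fx.δ e (K.τ d e * F) = K.x d * F - K.a d F := by
  rw [← K.stein_pt, a_apply, sum_mul, ← sum_sub_distrib]
  refine sum_congr rfl fun e _ => ?_
  simp only [FS.δ, fx, K.leib]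
  ring

/-- Stein's identity -/
theorem stein (d : ι) (F : A) : K.E (K.a d F) = K.E (K.x d * F) := by
  have h := congrArg K.E (K.sum_δ_τ d F)
  rw [map_sum, map_sub] at h
  have h0 : ∀ e, K.E (K.fx.δ e (K.τ d e * F)) = 0 := fun e => K.fx.E_δ _ _
  simp only [h0, sum_const_zero] at h
  linarith

/-- the flat structure in `y` -/
def fy : FS ι A := ⟨K.a, K.a_leib, K.a_comm, K.E, K.x, K.stein⟩

theorem a_x (b d : ι) : K.a b (K.x d) = K.τ b d := by
  simp [a_apply, K.Dx]

theorem sum_δ_τ' (d : ι) (F : A) : ∑ e, K.fx.δ e (K.τ d e * F) = K.fy.δ d F := K.sum_δ_τ d F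

/-- `L k = τ^{ij} k_{ij} - x · Dk` -/
def L (k : A) : A := ∑ i, ∑ j, K.τ i j * K.D i (K.D j k) - ∑ i, K.x i * K.D i k

theorem L_eq (k : A) : K.L k = -∑ d, K.fy.δ d (K.D d k) := by
  simp only [L, FS.δ, fy, a_apply, sum_sub_distrib, neg_sub]
  congr 1
  exact sum_congr rfl fun i _ => sum_congr rfl fun j _ => by rw [K.comm]

theorem L_eq' (k : A) : K.L k = -∑ e, K.fx.δ e (K.a e k) := by
  rw [L_eq]
  simp only [← sum_δ_τ']
  rw [sum_comm]
  congr 1
  refine sum_congr rfl fun e _ => ?_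
  simp only [FS.δ, a_apply, mul_sum, map_sum, sum_sub_distrib, K.τ_symm e]

theorem L_add (f g : A) : K.L (f + g) = K.L f + K.L g := by
  simp only [L, map_add, mul_add, sum_add_distrib]; ring

theorem L_neg (f : A) : K.L (-f) = -K.L f := by
  simp only [L, map_neg, mul_neg, sum_neg_distrib]; ring

theorem L_sub (f g : A) : K.L (f - g) = K.L f - K.L g := by
  rw [sub_eq_add_neg, L_add, L_neg, sub_eq_add_neg]

theorem L_smul (t : ℝ) (f : A) : K.L (t • f) = t • K.L f := by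
  simp only [L, map_smul, mul_smul_comm, smul_sub, smul_sum]

theorem E_L (k : A) : K.E (K.L k) = 0 := by
  rw [L_eq, map_neg, map_sum]
  have h0 : ∀ d, K.E (K.fy.δ d (K.D d k)) = 0 := fun e => K.fy.E_δ _ _
  simp only [h0, sum_const_zero, neg_zero]

/-- Dirichlet form -/
theorem E_L_mul (k g : A) : K.E (K.L k * g) = -K.E (∑ i, ∑ j, K.τ i j * K.D i k * K.D j g) := by
  rw [L_eq, neg_mul, map_neg, sum_mul, map_sum, map_sum]
  congr 1
  refine sum_congr rfl fun d _ => ?_
  have h := K.fy.E_δ_mul d (K.D d k) g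
  simp only [fy] at h
  refine h.trans ?_
  rw [a_apply, mul_sum]
  congr 1
  exact sum_congr rfl fun j _ => by ring

theorem L_symm (k g : A) : K.E (K.L k * g) = K.E (k * K.L g) := by
  rw [mul_comm k, E_L_mul, E_L_mul, sum_comm]
  congr 2
  exact sum_congr rfl fun i _ => sum_congr rfl fun j _ => by rw [K.τ_symm]; ring

/-- Hessian -/
def H (k : A) (i j : ι) : A := K.D i (K.D j k)

theorem H_symm (k : A) (i j : ι) : K.H k i j = K.H k j i := K.comm _ _ _

/-- bilinear Bochner formula for `L` -/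
theorem E_L_mul_L (k g : A) : K.E (K.L k * K.L g) =
    K.E (ip2 K.τ K.τ (K.H k) (K.H g)) + K.E (∑ i, ∑ j, K.τ i j * K.D i k * K.D j g) := by
  rw [L_eq, L_eq, neg_mul_neg, sum_mul_sum]
  have h : ∀ i j, K.E (K.fy.δ i (K.D i k) * K.fy.δ j (K.D j g)) =
      K.E (K.a j (K.D i k) * K.a i (K.D j g)) + K.E (K.τ i j * K.D i k * K.D j g) := by
    intro i j
    have := K.fy.boch j i (K.D i k) (K.D j g)
    simp only [fy] at this ⊢
    rw [← K.a_x]
    exact this
  simp only [map_sum, h, sum_add_distrib]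
  congr 1
  simp only [← map_sum]
  congr 1
  simp only [a_apply, sum_mul_sum, ip2, H]
  rw [sum4, sum4]
  refine Fintype.sum_equiv ⟨fun p => (p.2.2.1, p.1, p.2.1, p.2.2.2),
    fun p => (p.2.1, p.2.2.1, p.1, p.2.2.2), fun _ => rfl, fun _ => rfl⟩ _ _ ?_
  rintro ⟨i, j, e, f⟩
  simp only [Equiv.coe_fn_mk]
  rw [K.τ_symm j e, K.comm f j]; ring

/-- `E[(L+1)k · L g] = E tr(τ D²k τ D²g)` -/
theorem E_L1_mul_L (k g : A) : K.E ((K.L k + k) * K.L g) = K.E (ip2 K.τ K.τ (K.H k) (K.H g)) := by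
  rw [add_mul, map_add, E_L_mul_L, ← L_symm, E_L_mul]; ring

end KD

end Crest.Agent.R238.Key
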