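import Crest.Agent.R238.KeyB

/-! # R238 / KeyC : the key inequality (3) and step (4) of the proof of log-Brunn–Minkowski (owner helper48) -/

set_option autoImplicit false

open Finset

namespace Crest.Agent.R238.Key

section
variable {ι : Type} [Fintype ι] {A : Type} [CommRing A]

theorem ip3_add_left (τ : ι → ι → A) (X X' Y : ι → ι → ι → A) :
    ip3 τ (fun a b c => X a b c + X' a b c) Y = ip3 τ X Y + ip3 τ X' Y := by
  simp only [ip3, ← sum_add_distrib]
  refine sum_congr rfl fun a _ => sum_congr rfl fun b _ => sum_congr rfl fun c _ =>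
    sum_congr rfl fun d _ => sum_congr rfl fun c _ => sum_congr rfl fun d _ => by ring

theorem ip3_add_right (τ : ι → ι → A) (X Y Y' : ι → ι → ι → A) :
    ip3 τ X (fun a b c => Y a b c + Y' a b c) = ip3 τ X Y + ip3 τ X Y' := by
  simp only [ip3, ← sum_add_distrib]
  refine sum_congr rfl fun a _ => sum_congr rfl fun b _ => sum_congr rfl fun c _ =>
    sum_congr rfl fun d _ => sum_congr rfl fun c _ => sum_congr rfl fun d _ => by ring

end

namespace KD
variable {ι A : Type} [Fintype ι] [DecidableEq ι] [CommRing A] [Algebra ℝ A] (K : KD ι A)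

/-- `D e (a c F) = τ^{cb} hess F b e` -/
def hess (F : A) (b e : ι) : A := K.D b (K.D e F) - ∑ j, K.U b e j * K.a j F

theorem hess_symm (F : A) (b e : ι) : K.hess F b e = K.hess F e b := by
  unfold hess
  rw [K.comm b e]
  congr 1
  exact sum_congr rfl fun j _ => by rw [K.U12]

theorem D_a' (e c : ι) (F : A) : K.D e (K.a c F) = ∑ b, K.τ c b * K.hess F b e := by
  rw [D_a, a_apply]
  simp only [hess, mul_sub, sum_sub_distrib, K.Dτ]
  rw [sub_eq_add_neg]
  refine congrArg₂ (· + ·) rfl ?_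
  simp only [neg_mul, sum_neg_distrib]
  refine congrArg Neg.neg ?_
  simp only [a_apply, sum_mul, mul_sum]
  rw [sum3, sum3]
  refine Fintype.sum_equiv ⟨fun p => (p.2.1, p.2.2, p.1), fun p => (p.2.2, p.1, p.2.1),
    fun _ => rfl, fun _ => rfl⟩ _ _ ?_
  rintro ⟨f, i, j⟩
  simp only [Equiv.coe_fn_mk]
  rw [K.U12 e i j]; ring

variable (s : A)

/-- `κ = τ D²s` -/
def κ (a d : ι) : A := K.a a (K.D d s)
/-- `ξ = τ D w`, `w = -(L+1)s` -/
def ξ (a : ι) : A := K.a a (-(K.L s + s))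
/-- `f = L (L+1) s` -/
def ff : A := K.L (K.L s + s)
def S3 (a b c : ι) : A := K.D a (K.D b (K.D c s))
def W (a b d : ι) : A := ∑ j, K.U a b j * K.κ s j d
def N (a b d : ι) : A := K.hess (K.D d s) a b
def Ω (a b : ι) : A := K.hess (-(K.L s + s)) a b

theorem κ_eq (a d : ι) : K.κ s a d = ∑ e, K.τ a e * K.H s e d := K.a_apply _ _

theorem S3_eq (a b d : ι) : K.S3 s a b d = K.N s a b d + K.W s a b d := by
  unfold S3 N W hess κ; ring

theorem Dκ (e a c : ι) : K.D e (K.κ s a c) = ∑ b, K.τ a b * K.N s b e c := K.D_a' _ _ _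

theorem Dξ (e a : ι) : K.D e (K.ξ s a) = ∑ b, K.τ a b * K.Ω s b e := K.D_a' _ _ _

theorem ff_eq : K.ff s = ∑ e, K.fx.δ e (K.ξ s e) := by
  have := K.L_eq' (-(K.L s + s))
  rw [L_neg] at this
  unfold ff ξ
  linear_combination -this

theorem ξ_eq (a : ι) : K.ξ s a = ∑ d, K.fy.δ d (K.κ s a d) := by
  unfold ξ κ
  rw [L_eq, neg_add, neg_neg, map_add, map_sum, map_neg]
  have h : ∀ d, K.a a (K.fy.δ d (K.D d s)) = K.fy.δ d (K.a a (K.D d s)) + K.τ a d * K.D d s := by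
    intro d
    rw [← K.a_x]
    exact K.fy.D_δ d a (K.D d s)
  simp only [h, sum_add_distrib, ← a_apply]
  ring

theorem σ_symm (c b : ι) : ∑ d, K.κ s c d * K.τ d b = ∑ d, K.τ c d * K.κ s b d := by
  simp only [κ_eq, sum_mul, mul_sum]
  rw [sum_comm]
  refine sum_congr rfl fun e _ => sum_congr rfl fun d _ => ?_
  rw [K.H_symm s e d, K.τ_symm d b]; ring

theorem stepA : K.E (K.ff s * K.ff s) = K.E (ip2 K.τ K.τ (K.Ω s) (K.Ω s)) +
    K.E (∑ a, ∑ b, K.H K.φ a b * K.ξ s a * K.ξ s b) := by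
  rw [ff_eq]
  refine (K.fx.bochner (K.ξ s)).trans ?_
  congr 1
  change K.E (∑ a, ∑ b, K.D b (K.ξ s a) * K.D a (K.ξ s b)) = _
  congr 1
  simp only [Dξ, sum_mul_sum, ip2]
  rw [sum4, sum4]
  refine Fintype.sum_equiv ⟨fun p => (p.2.2.1, p.2.1, p.1, p.2.2.2),
    fun p => (p.2.2.1, p.2.1, p.1, p.2.2.2), fun _ => rfl, fun _ => rfl⟩ _ _ ?_
  rintro ⟨a, b, c, d⟩
  simp only [Equiv.coe_fn_mk]
  rw [K.τ_symm c a, show K.Ω s d a = K.Ω s a d from K.hess_symm _ _ _]; ring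

theorem stepB : K.E (ip2 K.τ K.τ (K.H s) (K.Ω s)) =
    K.E (ip3 K.τ (K.S3 s) (K.N s)) + K.E (ip2 K.τ K.τ (K.H s) (K.H s)) := by
  have h1 : ip2 K.τ K.τ (K.H s) (K.Ω s) = ∑ a, ∑ b, K.H s a b * K.a b (K.ξ s a) := by
    simp only [ip2, a_apply, Dξ, mul_sum]
    refine sum_congr rfl fun a _ => sum_congr rfl fun b _ => ?_
    rw [sum_comm]
    exact sum_congr rfl fun c _ => sum_congr rfl fun d _ => by ring
  have h2 : ∀ a b d, K.E (K.H s a b * K.a b (K.fy.δ d (K.κ s a d))) =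
      K.E (K.a d (K.H s a b) * K.a b (K.κ s a d)) + K.E (K.τ b d * K.H s a b * K.κ s a d) := by
    intro a b d
    rw [← K.a_x]
    exact K.fy.E_mul_D_δ d b (K.H s a b) (K.κ s a d)
  have h3 : ∑ a, ∑ b, ∑ d, K.a d (K.H s a b) * K.a b (K.κ s a d) = ip3 K.τ (K.S3 s) (K.N s) := by
    simp only [a_apply, Dκ, ip3, mul_sum, sum_mul]
    rw [sum6, sum6]
    refine Fintype.sum_equiv
      ⟨fun p => (p.1, p.2.1, p.2.2.2.2.2, p.2.2.2.2.1, p.2.2.2.1, p.2.2.1),
      fun p => (p.1, p.2.1, p.2.2.2.2.2, p.2.2.2.2.1, p.2.2.2.1, p.2.2.1),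
      fun _ => rfl, fun _ => rfl⟩ _ _ ?_
    rintro ⟨a, b, d, b', a', d'⟩
    simp only [Equiv.coe_fn_mk]
    have : K.D d' (K.H s a b) = K.S3 s a b d' := by
      unfold H S3; rw [K.D3_12, K.comm d' b]
    rw [this, K.τ_symm d d']; ring
  have h4 : ∑ a, ∑ b, ∑ d, K.τ b d * K.H s a b * K.κ s a d = ip2 K.τ K.τ (K.H s) (K.H s) := by
    simp only [κ_eq, ip2, mul_sum]
    refine sum_congr rfl fun a _ => sum_congr rfl fun b _ => ?_
    rw [sum_comm]
    exact sum_congr rfl fun c _ => sum_congr rfl fun d _ => by ring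
  rw [h1, ← h3, ← h4]
  simp only [ξ_eq, map_sum, mul_sum, h2, sum_add_distrib]

theorem divm (M : ι → ι → A) : K.E (∑ a, ∑ d, ∑ b, K.τ d b * M a d * K.H K.φ b a) =
    K.E (∑ a, M a a) - K.E (∑ a, ∑ d, ∑ e, K.D a (K.τ d e) * K.D e (M a d)) := by
  have h : ∀ a d, K.E (∑ b, K.τ d b * M a d * K.H K.φ b a) =
      K.E ((if a = d then 1 else 0) * M a d) - K.E (∑ e, K.D a (K.τ d e) * K.D e (M a d)) := by
    intro a d
    have h1 : ∀ b, K.E (K.τ d b * M a d * K.H K.φ b a) =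
        K.E (K.fx.δ b (K.τ d b * M a d) * K.D a K.φ) := fun b =>
      (K.fx.E_δ_mul b (K.τ d b * M a d) (K.D a K.φ)).symm
    rw [map_sum]
    simp only [h1]
    rw [← map_sum, ← sum_mul, sum_δ_τ, mul_comm, ← K.ibp, map_sub, K.leib, K.Dx, D_a, map_sub,
      map_add, map_add, K.stein]
    ring
  simp only [map_sum, h, sum_sub_distrib]
  congr 1
  simp only [← map_sum]
  congr 1
  simp

theorem stepC : K.E (ip2 (K.H K.φ) K.τ (K.κ s) (K.κ s)) = K.E (ip2 K.τ K.τ (K.H s) (K.H s)) +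
    K.E (ip3 K.τ (K.W s) (K.N s) + ip3 K.τ (K.W s) (fun a b c => K.N s c b a)) := by
  have h := K.divm (fun a d => ∑ c, K.κ s a c * K.κ s c d)
  have h1 : ∑ a, ∑ d, ∑ b, K.τ d b * (∑ c, K.κ s a c * K.κ s c d) * K.H K.φ b a =
      ip2 (K.H K.φ) K.τ (K.κ s) (K.κ s) := by
    have e1 : ∀ a, ∑ d, ∑ b, K.τ d b * (∑ c, K.κ s a c * K.κ s c d) * K.H K.φ b a =
        ∑ c, ∑ b, K.H K.φ a b * K.κ s a c * ∑ d, K.κ s c d * K.τ d b := by
      intro a
      simp only [mul_sum, sum_mul]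
      rw [sum3, sum3]
      refine Fintype.sum_equiv ⟨fun p => (p.2.2, p.2.1, p.1), fun p => (p.2.2, p.2.1, p.1),
        fun _ => rfl, fun _ => rfl⟩ _ _ ?_
      rintro ⟨d, b, c⟩
      simp only [Equiv.coe_fn_mk]
      rw [K.H_symm _ b a]; ring
    simp only [e1, σ_symm]
    simp only [ip2, mul_sum]
    exact sum_congr rfl fun a _ => sum_congr rfl fun c _ => sum_congr rfl fun b _ =>
      sum_congr rfl fun d _ => by ring
  have h2 : ∑ a, ∑ c, K.κ s a c * K.κ s c a = ip2 K.τ K.τ (K.H s) (K.H s) := by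
    simp only [κ_eq, ip2, sum_mul_sum]
    rw [sum4, sum4]
    refine Fintype.sum_equiv ⟨fun p => (p.2.2.1, p.2.1, p.1, p.2.2.2),
      fun p => (p.2.2.1, p.2.1, p.1, p.2.2.2), fun _ => rfl, fun _ => rfl⟩ _ _ ?_
    rintro ⟨a, c, e, f⟩
    simp only [Equiv.coe_fn_mk]
    rw [K.τ_symm e a, K.H_symm s f a]; ring
  have z1 : ∀ a j c, ∑ d, ∑ i, K.τ d i * K.U a i j * K.κ s c d = ∑ c', K.τ c c' * K.W s a j c' := by
    intro a j c
    calc ∑ d, ∑ i, K.τ d i * K.U a i j * K.κ s c d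
        = ∑ i, K.U a j i * ∑ d, K.κ s c d * K.τ d i := by
          rw [sum_comm]
          simp only [mul_sum]
          refine sum_congr rfl fun i _ => sum_congr rfl fun d _ => ?_
          rw [K.U23 a i j]; ring
      _ = ∑ c', K.τ c c' * K.W s a j c' := by
          simp only [σ_symm]
          simp only [W, mul_sum]
          rw [sum_comm]
          exact sum_congr rfl fun i _ => sum_congr rfl fun d _ => by ring
  have h3 : ∑ a, ∑ d, ∑ e, (∑ i, ∑ j, K.τ d i * K.U a i j * K.τ j e) *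
      ∑ c, K.D e (K.κ s a c) * K.κ s c d = ip3 K.τ (K.W s) (K.N s) := by
    calc ∑ a, ∑ d, ∑ e, (∑ i, ∑ j, K.τ d i * K.U a i j * K.τ j e) * ∑ c, K.D e (K.κ s a c) * K.κ s c d
        = ∑ a, ∑ j, ∑ e, ∑ c, K.τ j e * K.D e (K.κ s a c) *
            ∑ d, ∑ i, K.τ d i * K.U a i j * K.κ s c d := by
          refine sum_congr rfl fun a _ => ?_
          simp only [mul_sum, sum_mul]
          rw [sum5, sum5]
          refine Fintype.sum_equiv
            ⟨fun p => (p.2.2.2.2, p.2.1, p.2.2.1, p.1, p.2.2.2.1),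
            fun p => (p.2.2.2.1, p.2.1, p.2.2.1, p.2.2.2.2, p.1), fun _ => rfl, fun _ => rfl⟩ _ _ ?_
          rintro ⟨d, e, c, i, j⟩
          simp only [Equiv.coe_fn_mk]
          ring
      _ = ip3 K.τ (K.W s) (K.N s) := by
          simp only [z1, Dκ]
          simp only [ip3, mul_sum, sum_mul]
          refine sum_congr rfl fun a _ => sum_congr rfl fun j _ => ?_
          rw [sum4, sum4]
          refine Fintype.sum_equiv ⟨fun p => (p.2.2.1, p.2.2.2, p.1, p.2.1),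
            fun p => (p.2.2.1, p.2.2.2, p.1, p.2.1), fun _ => rfl, fun _ => rfl⟩ _ _ ?_
          rintro ⟨e, c, c', a'⟩
          simp only [Equiv.coe_fn_mk]
          rw [K.τ_symm c c']; ring
  have h4 : ∑ a, ∑ d, ∑ e, (∑ i, ∑ j, K.τ d i * K.U a i j * K.τ j e) *
      ∑ c, K.κ s a c * K.D e (K.κ s c d) = ip3 K.τ (K.W s) (fun a b c => K.N s c b a) := by
    calc ∑ a, ∑ d, ∑ e, (∑ i, ∑ j, K.τ d i * K.U a i j * K.τ j e) * ∑ c, K.κ s a c * K.D e (K.κ s c d)
        = ∑ i, ∑ j, ∑ c, ∑ d, ∑ e, K.τ d i * K.τ j e * K.D e (K.κ s c d) * K.W s i j c := by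
          simp only [W, mul_sum, sum_mul]
          rw [sum6, sum6]
          refine Fintype.sum_equiv
            ⟨fun p => (p.2.2.2.2.1, p.2.2.2.2.2, p.2.2.2.1, p.2.1, p.2.2.1, p.1),
            fun p => (p.2.2.2.2.2, p.2.2.2.1, p.2.2.2.2.1, p.2.2.1, p.1, p.2.1),
            fun _ => rfl, fun _ => rfl⟩ _ _ ?_
          rintro ⟨a, d, e, c, i, j⟩
          simp only [Equiv.coe_fn_mk]
          rw [K.U12 a i j, K.U23 i a j]; ring
      _ = ip3 K.τ (K.W s) (fun a b c => K.N s c b a) := by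
          simp only [Dκ]
          simp only [ip3, mul_sum, sum_mul]
          refine sum_congr rfl fun i _ => sum_congr rfl fun j _ => sum_congr rfl fun c _ =>
            sum_congr rfl fun d _ => sum_congr rfl fun e _ => sum_congr rfl fun c' _ => ?_
          rw [K.τ_symm d i]; ring
  have h5 : ∑ a, ∑ d, ∑ e, K.D a (K.τ d e) * K.D e (∑ c, K.κ s a c * K.κ s c d) =
      -(ip3 K.τ (K.W s) (K.N s) + ip3 K.τ (K.W s) (fun a b c => K.N s c b a)) := by
    rw [← h3, ← h4]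
    simp only [← sum_add_distrib, ← sum_neg_distrib]
    refine sum_congr rfl fun a _ => sum_congr rfl fun d _ => sum_congr rfl fun e _ => ?_
    rw [K.Dτ, map_sum]
    simp only [K.leib, sum_add_distrib]
    ring
  rw [h1, h2, h5, map_neg] at h
  rw [h]; ring

theorem stepD : 2 * (2 * ip3 K.τ (K.S3 s) (K.N s) -
      (ip3 K.τ (K.W s) (K.N s) + ip3 K.τ (K.W s) (fun a b c => K.N s c b a))) =
    ip3 K.τ (fun a b c => K.N s a b c + K.N s c b a) (fun a b c => K.N s a b c + K.N s c b a) := by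
  have e0 : K.S3 s = fun a b c => K.N s a b c + K.W s a b c := by
    funext a b c; exact K.S3_eq s a b c
  have e1 : ip3 K.τ (K.S3 s) (K.N s) = ip3 K.τ (K.N s) (K.N s) + ip3 K.τ (K.W s) (K.N s) := by
    rw [e0, ip3_add_left]
  have e2 : ip3 K.τ (K.S3 s) (K.N s) = ip3 K.τ (K.S3 s) (fun a b c => K.N s c b a) := by
    rw [← ip3_swap13 K.τ (K.S3 s) (K.N s)]
    congr 1
    funext a b c
    exact K.D3_13 _ _ _ _
  have e3 : ip3 K.τ (K.S3 s) (fun a b c => K.N s c b a) =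
      ip3 K.τ (K.N s) (fun a b c => K.N s c b a) + ip3 K.τ (K.W s) (fun a b c => K.N s c b a) := by
    rw [e0, ip3_add_left]
  have e4 := ip3_swap13 K.τ (K.N s) (K.N s)
  have e5 := ip3_comm K.τ_symm (K.N s) (fun a b c => K.N s c b a)
  rw [ip3_add_left, ip3_add_right, ip3_add_right, e4, ← e5]
  linear_combination 2 * e1 + 2 * e2 + 2 * e3

end KD

end Crest.Agent.R238.Key
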