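import Crest.Agent.R238.PDefs
import Crest.Agent.R238.AnCalc

/-!
# R238 / PCalc

Calculus of `pd`, `pds`. All elementary (`fderiv_add`, `fderiv_mul`, `ContDiff.fderiv_right`,
`second_derivative_symmetric` / `ContDiffAt.isSymmSndFDerivAt`, mean value inequality on convex sets). Induction on the list.
-/

set_option autoImplicit false
set_option linter.unusedVariables false

open MeasureTheory Set Filter
open scoped ContDiff Topology

noncomputable section

namespace Crest.Agent.R238.P

variable {n : ℕ}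

theorem pc_d {f : E n → ℝ} (hf : Sm f) : Differentiable ℝ f := hf.differentiable (by simp)
theorem pc_2 {f : E n → ℝ} (hf : Sm f) : ContDiff ℝ 2 f :=
  hf.of_le (WithTop.coe_le_coe.2 (le_top : (2 : ℕ∞) ≤ ⊤))

theorem Sm.pd {f : E n → ℝ} (hf : Sm f) (i : Fin n) : Sm (pd i f) := An.smooth_pd i hf
theorem Sm.pds {f : E n → ℝ} (hf : Sm f) (l : List (Fin n)) : Sm (pds l f) := by
  induction l with
  | nil => exact hf
  | cons i l ih => exact Sm.pd ih i
theorem sm_coord (i : Fin n) : Sm fun x : E n => x i := An.contDiff_coord i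
theorem sm_sq : Sm fun x : E n => ‖x‖ ^ 2 / 2 := (contDiff_norm_sq ℝ).div_const 2
theorem Sm.eul {f : E n → ℝ} (hf : Sm f) : Sm (eul f) := ContDiff.sum fun i _ => (sm_coord i).mul (Sm.pd hf i)
theorem Sm.lap {a : E n → Mat n} {f : E n → ℝ} (ha : ∀ i j, Sm fun x => a x i j) (hf : Sm f) :
    Sm (lap a f) :=
  ContDiff.sum fun i _ => ContDiff.sum fun j _ => (ha i j).mul (Sm.pd (Sm.pd hf j) i)
theorem Sm.Lop {a : E n → Mat n} {f : E n → ℝ} (ha : ∀ i j, Sm fun x => a x i j) (hf : Sm f) :
    Sm (Lop a f) := (Sm.lap ha hf).sub (Sm.eul hf)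

theorem pd_const (i : Fin n) (c : ℝ) : pd i (fun _ : E n => c) = fun _ => 0 := An.pd_const i c
theorem pd_coord (i j : Fin n) : pd i (fun x : E n => x j) = fun _ => if i = j then 1 else 0 :=
  (An.pd_coord i j).trans (by funext _; exact Matrix.one_apply)
theorem pd_add {f g : E n → ℝ} (hf : Sm f) (hg : Sm g) (i : Fin n) :
    pd i (fun x => f x + g x) = fun x => pd i f x + pd i g x := An.pd_add i (pc_d hf) (pc_d hg)
theorem pd_sub {f g : E n → ℝ} (hf : Sm f) (hg : Sm g) (i : Fin n) :
    pd i (fun x => f x - g x) = fun x => pd i f x - pd i g x := An.pd_sub i (pc_d hf) (pc_d hg)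
theorem pd_mul {f g : E n → ℝ} (hf : Sm f) (hg : Sm g) (i : Fin n) :
    pd i (fun x => f x * g x) = fun x => pd i f x * g x + f x * pd i g x := An.pd_mul i (pc_d hf) (pc_d hg)
theorem pd_const_mul {f : E n → ℝ} (hf : Sm f) (c : ℝ) (i : Fin n) :
    pd i (fun x => c * f x) = fun x => c * pd i f x := An.pd_const_mul i c f
theorem pd_sum {ι : Type*} (s : Finset ι) {f : ι → E n → ℝ} (hf : ∀ k ∈ s, Sm (f k)) (i : Fin n) :
    pd i (fun x => ∑ k ∈ s, f k x) = fun x => ∑ k ∈ s, pd i (f k) x :=
  An.pd_sum s i fun k hk => pc_d (hf k hk)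
theorem pd_exp {f : E n → ℝ} (hf : Sm f) (i : Fin n) :
    pd i (fun x => Real.exp (f x)) = fun x => Real.exp (f x) * pd i f x :=
  funext fun x => An.pd_comp i (pc_d hf x) (Real.hasDerivAt_exp (f x))
theorem pd_comm {f : E n → ℝ} (hf : Sm f) (i j : Fin n) : pd i (pd j f) = pd j (pd i f) := An.pd_comm (pc_2 hf) i j
theorem hs_symm {f : E n → ℝ} (hf : Sm f) (x : E n) (i j : Fin n) : hs f x i j = hs f x j i := congrFun (pd_comm hf i j) x
theorem pd_sq (i : Fin n) : pd i (fun x : E n => ‖x‖ ^ 2 / 2) = fun x => x i := by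
  have e : (fun x : E n => ‖x‖ ^ 2 / 2) = fun x => 2⁻¹ * ‖x‖ ^ 2 := by funext x; ring
  rw [e]
  refine (An.pd_const_mul i _ _).trans ?_
  funext x
  rw [An.pd_normSq]
  ring
theorem hs_sq (x : E n) : hs (fun x : E n => ‖x‖ ^ 2 / 2) x = one n := by
  funext i j
  simp only [hs, pd_sq, pd_coord, one]
theorem pds_sq {l : List (Fin n)} (hl : 3 ≤ l.length) : pds l (fun x : E n => ‖x‖ ^ 2 / 2) = fun _ => 0 := by
  induction l with
  | nil => simp at hl
  | cons i l ih =>
    rcases Nat.lt_or_ge l.length 3 with h | h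
    · match l, hl, h with
      | [j, k], _, _ => simp only [pds, pd_sq, pd_coord, pd_const]
    · simp only [pds, ih h, pd_const]
theorem eul_sq (x : E n) : eul (fun x : E n => ‖x‖ ^ 2 / 2) x = ‖x‖ ^ 2 := by
  simp only [eul, pd_sq]
  rw [EuclideanSpace.real_norm_sq_eq]
  simp only [sq]

theorem pds_append (l l' : List (Fin n)) (f : E n → ℝ) : pds (l ++ l') f = pds l (pds l' f) := by
  induction l with
  | nil => rfl
  | cons i l ih => simp only [List.cons_append, pds, ih]
theorem pds_pd {f : E n → ℝ} (hf : Sm f) (l : List (Fin n)) (i : Fin n) :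
    pds l (pd i f) = pd i (pds l f) := by
  induction l with
  | nil => rfl
  | cons j l ih => simp only [pds, ih, pd_comm (hf.pds l) i j]
theorem pds_perm {f : E n → ℝ} (hf : Sm f) {l l' : List (Fin n)} (h : l.Perm l') : pds l f = pds l' f := by
  induction h with
  | nil => rfl
  | cons i _ ih => simp only [pds, ih]
  | swap i j l => simp only [pds, pd_comm (hf.pds l) i j]
  | trans _ _ ih ih' => exact ih.trans ih'
theorem pds_zero (l : List (Fin n)) : pds l (fun _ : E n => (0 : ℝ)) = fun _ => 0 := by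
  induction l with
  | nil => rfl
  | cons i l ih => simp only [pds, ih, pd_const]
theorem pds_const {l : List (Fin n)} (hl : l ≠ []) (c : ℝ) : pds l (fun _ : E n => c) = fun _ => 0 := by
  induction l with
  | nil => exact absurd rfl hl
  | cons i l ih =>
    rcases eq_or_ne l [] with rfl | h
    · simp only [pds, pd_const]
    · simp only [pds, ih h, pd_const]
theorem pds_add {f g : E n → ℝ} (hf : Sm f) (hg : Sm g) (l : List (Fin n)) :
    pds l (fun x => f x + g x) = fun x => pds l f x + pds l g x := by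
  induction l with
  | nil => rfl
  | cons i l ih => simp only [pds, ih, pd_add (hf.pds l) (hg.pds l)]
theorem pds_sub {f g : E n → ℝ} (hf : Sm f) (hg : Sm g) (l : List (Fin n)) :
    pds l (fun x => f x - g x) = fun x => pds l f x - pds l g x := by
  induction l with
  | nil => rfl
  | cons i l ih => simp only [pds, ih, pd_sub (hf.pds l) (hg.pds l)]
theorem pds_const_mul {f : E n → ℝ} (hf : Sm f) (c : ℝ) (l : List (Fin n)) :
    pds l (fun x => c * f x) = fun x => c * pds l f x := by
  induction l with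
  | nil => rfl
  | cons i l ih => simp only [pds, ih, pd_const_mul (hf.pds l)]
theorem pds_sum {ι : Type*} (s : Finset ι) {f : ι → E n → ℝ} (hf : ∀ k ∈ s, Sm (f k)) (l : List (Fin n)) :
    pds l (fun x => ∑ k ∈ s, f k x) = fun x => ∑ k ∈ s, pds l (f k) x := by
  induction l with
  | nil => rfl
  | cons i l ih => simp only [pds, ih, pd_sum s fun k hk => (hf k hk).pds l]
theorem pc_pd_eul {f : E n → ℝ} (hf : Sm f) (i : Fin n) :
    pd i (eul f) = fun x => pd i f x + eul (pd i f) x := by
  have e : ∀ g : E n → ℝ, eul g = An.eul g := fun g => funext fun x => (An.eul_eq_sum g x).symm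
  rw [e, e]
  exact An.pd_eul (pc_2 hf) i
theorem pds_eul {f : E n → ℝ} (hf : Sm f) (l : List (Fin n)) :
    pds l (eul f) = fun x => eul (pds l f) x + l.length * pds l f x := by
  induction l with
  | nil => funext x; simp [pds]
  | cons i l ih =>
    have h := hf.pds l
    simp only [pds, ih]
    rw [pd_add h.eul (contDiff_const.mul h), pd_const_mul h, pc_pd_eul h]
    funext x
    simp only [List.length_cons]
    push_cast
    ring
theorem pds_comp_smul {f : E n → ℝ} (hf : Sm f) (c : ℝ) (l : List (Fin n)) :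
    pds l (fun x => f (c • x)) = fun x => c ^ l.length * pds l f (c • x) := by
  induction l with
  | nil => funext x; simp [pds]
  | cons i l ih =>
    simp only [pds, ih]
    refine (An.pd_const_mul i _ _).trans ?_
    rw [An.pd_smul i (pc_d (hf.pds l))]
    funext x
    simp only [List.length_cons, pow_succ, mul_assoc]
    rfl
theorem pds_comp_neg {f : E n → ℝ} (hf : Sm f) (l : List (Fin n)) :
    pds l (fun x => f (-x)) = fun x => (-1) ^ l.length * pds l f (-x) := by
  simpa only [neg_smul, one_smul] using pds_comp_smul hf (-1) l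
theorem pds_comp_add {f : E n → ℝ} (hf : Sm f) (a : E n) (l : List (Fin n)) :
    pds l (fun x => f (x + a)) = fun x => pds l f (x + a) := by
  induction l with
  | nil => rfl
  | cons i l ih =>
    simp only [pds, ih]
    exact An.pd_transl i _ a

theorem fderiv_eq_sum (f : E n → ℝ) (x v : E n) : fderiv ℝ f x v = ∑ i, v i * pd i f x := An.fderiv_eq_sum f x v
theorem hasDerivAt_line {f : E n → ℝ} (hf : Sm f) (x v : E n) (s : ℝ) :
    HasDerivAt (fun s : ℝ => f (x + s • v)) (∑ i, v i * pd i f (x + s • v)) s :=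
  An.hasDerivAt_line (pc_d hf) x v s
theorem lip_on {f : E n → ℝ} (hf : Sm f) {S : Set (E n)} (hS : Convex ℝ S) {C : ℝ}
    (h : ∀ i, ∀ x ∈ S, |pd i f x| ≤ C) {x y : E n} (hx : x ∈ S) (hy : y ∈ S) :
    |f y - f x| ≤ n * C * ‖y - x‖ :=
  An.abs_sub_le_seg (pc_d hf) fun ξ hξ i => h i ξ (hS.segment_subset hy hx hξ)
theorem taylor_on {f : E n → ℝ} (hf : Sm f) {S : Set (E n)} (hS : Convex ℝ S) {C : ℝ}
    (h : ∀ i j, ∀ x ∈ S, |pd i (pd j f) x| ≤ C) {x y : E n} (hx : x ∈ S) (hy : y ∈ S) :
    |f y - f x - ∑ i, (y - x) i * pd i f x| ≤ n ^ 2 * C * ‖y - x‖ ^ 2 := by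
  set g : E n → ℝ := fun z => f z - ∑ i, pd i f x * z i with hg
  have hl : ∀ i, Sm fun z : E n => pd i f x * z i := fun i => contDiff_const.mul (sm_coord i)
  have hl' : Sm fun z : E n => ∑ i, pd i f x * z i := ContDiff.sum fun i _ => hl i
  have hgs : Sm g := hf.sub hl'
  have hpd : ∀ j z, pd j g z = pd j f z - pd j f x := by
    intro j z
    rw [hg, pd_sub hf hl', pd_sum _ fun i _ => hl i]
    simp only [pd_const_mul (sm_coord _), pd_coord]
    simp
  have key := An.abs_sub_le_seg (pc_d hgs) (x := y) (y := x) (M := n * C * ‖y - x‖) (by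
    intro ξ hξ j
    have h1 := lip_on (hf.pd j) hS (fun i z hz => h i j z hz) hx (hS.segment_subset hy hx hξ)
    have hC : 0 ≤ C := (abs_nonneg _).trans (h j j x hx)
    have h2 : ‖ξ - x‖ ≤ ‖y - x‖ := by
      have := dist_add_dist_of_mem_segment hξ
      rw [dist_eq_norm, dist_eq_norm, dist_eq_norm] at this
      linarith [norm_nonneg (y - ξ)]
    refine le_trans (le_of_eq (congrArg _ (hpd j ξ))) (h1.trans ?_)
    gcongr)
  have e : g y - g x = f y - f x - ∑ i, (y - x) i * pd i f x := by
    simp only [hg, PiLp.sub_apply, sub_mul, Finset.sum_sub_distrib, mul_comm (pd _ f x)]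
    ring
  rw [e] at key
  refine key.trans (le_of_eq ?_)
  ring
/-- a family closed under differentiation consists of smooth functions -/
theorem sm_of_family (G : List (Fin n) → E n → ℝ)
    (h : ∀ l x, ∃ C δ : ℝ, 0 < δ ∧ ∀ y, ‖y - x‖ ≤ δ →
      |G l y - G l x - ∑ i, (y - x) i * G (i :: l) x| ≤ C * ‖y - x‖ ^ 2) :
    Sm (G []) ∧ ∀ l, pds l (G []) = G l := by
  have hd : ∀ l x, HasFDerivAt (G l)
      (∑ i, G (i :: l) x • (EuclideanSpace.proj i : E n →L[ℝ] ℝ)) x := by
    intro l x
    obtain ⟨C, δ, hδ, hC⟩ := h l x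
    rw [hasFDerivAt_iff_isLittleO]
    refine Asymptotics.IsBigO.trans_isLittleO (g := fun y => ‖y - x‖ ^ 2) ?_ ?_
    · refine Asymptotics.IsBigO.of_bound C ?_
      filter_upwards [Metric.closedBall_mem_nhds x hδ] with y hy
      have := hC y (mem_closedBall_iff_norm.1 hy)
      rw [Real.norm_eq_abs, Real.norm_eq_abs, abs_of_nonneg (sq_nonneg ‖y - x‖)]
      refine le_trans (le_of_eq ?_) this
      congr 2
      simp [mul_comm]
    · exact Asymptotics.isLittleO_pow_sub_sub x one_lt_two
  have hp : ∀ l i, pd i (G l) = G (i :: l) := by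
    intro l i
    funext x
    simp [pd, (hd l x).fderiv]
  have hs : ∀ (m : ℕ) l, ContDiff ℝ m (G l) := by
    intro m
    induction m with
    | zero => exact fun l => contDiff_zero.2 (continuous_iff_continuousAt.2 fun x => (hd l x).continuousAt)
    | succ m ih =>
      intro l
      refine An.contDiff_succ_of_pd (fun x => (hd l x).differentiableAt) fun i => ?_
      have := ih (i :: l)
      rw [← hp] at this
      exact this
  refine ⟨contDiff_infty.2 fun m => hs m [], fun l => ?_⟩
  induction l with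
  | nil => rfl
  | cons i l ih => simp only [pds, ih, hp]
/-- at a local maximum the gradient vanishes and the Hessian is nonpositive -/
theorem pd_of_isLocalMax {f : E n → ℝ} {x : E n} (h : IsLocalMax f x) (i : Fin n) : pd i f x = 0 := by
  simp [pd, h.fderiv_eq_zero]
theorem hi_of_isLocalMax {f : E n → ℝ} (hf : Sm f) {x : E n} (h : IsLocalMax f x) : Hi 0 (hs f x) := by
  intro ξ
  rw [zero_mul]
  by_contra hq
  rw [not_le] at hq
  set v : E n := WithLp.toLp 2 ξ with hv
  have h1 : ∀ s : ℝ, HasDerivAt (fun s : ℝ => f (x + s • v)) (∑ i, ξ i * pd i f (x + s • v)) s :=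
    fun s => hasDerivAt_line hf x v s
  have h2 : HasDerivAt (fun s : ℝ => ∑ i, ξ i * pd i f (x + s • v)) (qf (hs f x) ξ) 0 := by
    have := HasDerivAt.fun_sum fun i (_ : i ∈ Finset.univ) =>
      (hasDerivAt_line (hf.pd i) x v 0).const_mul (ξ i)
    refine this.congr_deriv ?_
    simp only [zero_smul, add_zero, qf, hs, Finset.mul_sum]
    rw [Finset.sum_comm]
    refine Finset.sum_congr rfl fun i _ => Finset.sum_congr rfl fun j _ => ?_
    simp only [hv]
    ring
  have hder : deriv (fun s : ℝ => f (x + s • v)) = fun s => ∑ i, ξ i * pd i f (x + s • v) :=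
    funext fun s => (h1 s).deriv
  have hmax : IsLocalMax (fun s : ℝ => f (x + s • v)) 0 := by
    have hc : ContinuousAt (fun s : ℝ => x + s • v) 0 := by fun_prop
    exact IsLocalMax.comp_continuous (g := fun s : ℝ => x + s • v) (by simpa using h) hc
  have hmin : IsLocalMin (fun s : ℝ => f (x + s • v)) 0 :=
    isLocalMin_of_deriv_deriv_pos (by rw [hder, h2.deriv]; exact hq) hmax.deriv_eq_zero
      (h1 0).continuousAt
  have hc : (fun s : ℝ => f (x + s • v)) =ᶠ[𝓝 0] fun _ => f (x + (0 : ℝ) • v) := by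
    filter_upwards [hmax, hmin] with s a b
    exact le_antisymm a b
  have h3 := hc.deriv.deriv_eq
  rw [hder, h2.deriv] at h3
  simp at h3
  exact hq.ne' h3


end Crest.Agent.R238.P
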