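import Crest.Agent.R238.PCalc

/-!
# R238 / PCb

Closure properties of `CbF`, `PGr`, `Ord`. For products prove by induction on `k`, for all `f g` at once, that the
derivatives of order `≤ k` of `f * g` are bounded (`pds (l ++ [i]) = pds l ∘ pd i`, `pd_mul`).
-/

set_option autoImplicit false

open MeasureTheory Set Filter
open scoped ContDiff Topology

noncomputable section

namespace Crest.Agent.R238.P

variable {n : ℕ}

theorem CbF.mono {k k' : ℕ} {f : E n → ℝ} (h : CbF k f) (hk : k ≤ k') : CbF k' f := sorry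
theorem CbF.pd {k : ℕ} {f : E n → ℝ} (h : CbF (k + 1) f) (i : Fin n) : CbF k (pd i f) := sorry
theorem CbF.pds {k : ℕ} {f : E n → ℝ} (l : List (Fin n)) (h : CbF (k + l.length) f) : CbF k (pds l f) := sorry
theorem CbF.pds0 {f : E n → ℝ} (h : CbF 0 f) (l : List (Fin n)) : CbF 0 (P.pds l f) := sorry
theorem cbF_const (k : ℕ) (c : ℝ) : CbF k fun _ : E n => c := sorry
theorem cbF_sq : CbF 2 fun x : E n => ‖x‖ ^ 2 / 2 := sorry
theorem CbF.add {k : ℕ} {f g : E n → ℝ} (hf : CbF k f) (hg : CbF k g) : CbF k fun x => f x + g x := sorry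
theorem CbF.sub {k : ℕ} {f g : E n → ℝ} (hf : CbF k f) (hg : CbF k g) : CbF k fun x => f x - g x := sorry
theorem CbF.const_mul {k : ℕ} {f : E n → ℝ} (hf : CbF k f) (c : ℝ) : CbF k fun x => c * f x := sorry
theorem CbF.mul {f g : E n → ℝ} (hf : CbF 0 f) (hg : CbF 0 g) : CbF 0 fun x => f x * g x := sorry
theorem CbF.sum {ι : Type*} (s : Finset ι) {k : ℕ} {f : ι → E n → ℝ} (hf : ∀ i ∈ s, CbF k (f i)) :
    CbF k fun x => ∑ i ∈ s, f i x := sorry
theorem CbF.comp_smul {k : ℕ} {f : E n → ℝ} (hf : CbF k f) (c : ℝ) : CbF k fun x => f (c • x) := sorry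
theorem CbF.ord {k : ℕ} {f : E n → ℝ} (hf : CbF k f) (q : ℕ) : ∃ B, 0 ≤ B ∧ Ord k q B f := sorry
theorem cbF_of_compact {f : E n → ℝ} (hf : Sm f) (h : HasCompactSupport f) : CbF 0 f := sorry
theorem Dat.cb2 {c : ℝ} {b : E n → ℝ} (h : Dat c b) : CbF 2 (ph b) := sorry
/-- finitely many lists: a uniform bound -/
theorem ord_unif {ι : Type*} {F : ι → E n → ℝ} {p : ℕ} (q : ℕ)
    (h : ∀ l : List (Fin n), p ≤ l.length → l.length ≤ q → ∃ C, ∀ k x, |pds l (F k) x| ≤ C) :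
    ∃ B, 0 ≤ B ∧ ∀ k, Ord p q B (F k) := sorry
theorem Ord.mono {p q p' q' : ℕ} {B B' : ℝ} {f : E n → ℝ} (h : Ord p q B f) (hp : p ≤ p') (hq : q' ≤ q)
    (hB : B ≤ B') : Ord p' q' B' f := sorry
theorem Ord.norm_hs {q : ℕ} {B : ℝ} {f : E n → ℝ} (h : Ord 2 q B f) (hq : 2 ≤ q) (hB : 0 ≤ B) (x : E n) :
    ‖hs f x‖ ≤ B := sorry

theorem CbF.pgr {k : ℕ} {f : E n → ℝ} (h : CbF k f) : PGr f := sorry
theorem pgr_coord (i : Fin n) : PGr fun x : E n => x i := sorry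
theorem PGr.pd {f : E n → ℝ} (h : PGr f) (i : Fin n) : PGr (pd i f) := sorry
theorem PGr.add {f g : E n → ℝ} (hf : PGr f) (hg : PGr g) : PGr fun x => f x + g x := sorry
theorem PGr.sub {f g : E n → ℝ} (hf : PGr f) (hg : PGr g) : PGr fun x => f x - g x := sorry
theorem PGr.mul {f g : E n → ℝ} (hf : PGr f) (hg : PGr g) : PGr fun x => f x * g x := sorry
theorem PGr.const_mul {f : E n → ℝ} (hf : PGr f) (c : ℝ) : PGr fun x => c * f x := sorry
theorem PGr.sum {ι : Type*} (s : Finset ι) {f : ι → E n → ℝ} (hf : ∀ i ∈ s, PGr (f i)) :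
    PGr fun x => ∑ i ∈ s, f i x := sorry
theorem PGr.eul {f : E n → ℝ} (h : PGr f) : PGr (eul f) := sorry
theorem PGr.Lop {a : E n → Mat n} {f : E n → ℝ} (ha : ∀ i j, PGr fun x => a x i j) (h : PGr f) :
    PGr (Lop a f) := sorry


end Crest.Agent.R238.P
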