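import Crest.Agent.R238.PConv1

/-!
# R238 / PConv

Convolution. `cv k f = k ⋆ f` up to the order of the arguments (`MeasureTheory.convolution`, `convolution_eq_swap`,
`HasCompactSupport.contDiff_convolution_left`, `HasCompactSupport.hasFDerivAt_convolution_left/right`).
`J_eta_sq`: Jensen (Cauchy–Schwarz) `(J f)² ≤ J (f²)`, Fubini, `eta_shift`.
`friedrichs`: with `C f = J (η f) - η J f` one has `∂ᵢ C f (x) = ∫ [∂ᵢρ_δ(x - y) (η y - η x) - ρ_δ(x - y) ∂ᵢη x] f y dy`, the kernel is bounded by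
`η x · k_δ(x - y)` with `k_δ ≥ 0` supported in the `δ`-ball and `∫ k_δ ≤ K` (`eta_lip`; `∫ |∂ᵢρ_δ y| ‖y‖ dy` is scale invariant);
integrate by parts (`ibp`), then `|f y P x| ≤ ε' P x² + f y²/ε'`, Fubini, `eta_shift`.
The statements about `rho` and `cv` are in `PConv1`.
-/

set_option autoImplicit false

open MeasureTheory Set Filter
open scoped ContDiff Topology

noncomputable section

namespace Crest.Agent.R238.P

variable {n : ℕ}

theorem sm_J {δ : ℝ} (hδ : 0 < δ) {f : E n → ℝ} (hf : Continuous f) : Sm (J δ f) := sm_cv (sm_rho δ) (compact_rho hδ) hf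

theorem pds_J {δ : ℝ} (hδ : 0 < δ) {f : E n → ℝ} (hf : Sm f) (l : List (Fin n)) :
    pds l (J δ f) = J δ (pds l f) := pds_cv_right (sm_rho δ) (compact_rho hδ) hf l

theorem abs_J_le {δ : ℝ} (hδ : 0 < δ) {f : E n → ℝ} {C : ℝ} (h : ∀ x, |f x| ≤ C) (x : E n) : |J δ f x| ≤ C := by
  have h1 := abs_cv_le (sm_rho δ).continuous (compact_rho hδ) h x
  simp only [abs_of_nonneg (rho_nonneg hδ _), integral_rho hδ, one_mul] at h1
  exact h1

theorem CbF.J {δ : ℝ} (hδ : 0 < δ) {f : E n → ℝ} (hf : CbF 0 f) : CbF 0 (J δ f) := by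
  refine ⟨sm_J hδ hf.sm.continuous, fun l hl => ?_⟩
  obtain ⟨C, hC⟩ := hf.bd l hl
  exact ⟨C, fun x => by rw [pds_J hδ hf.sm]; exact abs_J_le hδ hC x⟩

theorem Ord.J {δ : ℝ} (hδ : 0 < δ) {f : E n → ℝ} (hf : Sm f) {p q : ℕ} {B : ℝ} (h : Ord p q B f) :
    Ord p q B (J δ f) := fun l h1 h2 x => by
  rw [pds_J hδ hf]
  exact abs_J_le hδ (h l h1 h2) x

theorem J_sub_le {δ : ℝ} (hδ : 0 < δ) {f : E n → ℝ} (hf : Sm f) {C : ℝ} (h : ∀ i x, |pd i f x| ≤ C) (x : E n) :
    |J δ f x - f x| ≤ n * C * δ := by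
  have hC : 0 ≤ n * C := by
    rcases Nat.eq_zero_or_pos n with h0 | h0
    · simp [h0]
    · exact mul_nonneg (Nat.cast_nonneg _) ((abs_nonneg _).trans (h ⟨0, h0⟩ x))
  have h1 := cv_sub (sm_rho δ).continuous (compact_rho hδ) hf.continuous (continuous_const (y := f x)) x
  have h2 : cv (rho δ) (fun _ => f x) x = f x := by rw [cv, integral_mul_const, pconv_rho_one hδ, one_mul]
  rw [h2] at h1
  have h3 : ∫ y, rho δ (x - y) * (n * C * δ) = n * C * δ := by rw [integral_mul_const, pconv_rho_one hδ, one_mul]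
  rw [P.J, ← h1, ← h3]
  refine norm_integral_le_of_norm_le (f := fun y => rho δ (x - y) * (f y - f x))
    ((pconv_int0 (sm_rho δ).continuous (compact_rho hδ) x).mul_const _) (ae_of_all _ fun y => ?_)
  rw [Real.norm_eq_abs, abs_mul, abs_of_nonneg (rho_nonneg hδ _)]
  by_cases hy : δ ≤ ‖x - y‖
  · simp [rho_zero hδ hy]
  · refine mul_le_mul_of_nonneg_left ((lip_on hf convex_univ (fun i z _ => h i z) (mem_univ x) (mem_univ y)).trans
      (mul_le_mul_of_nonneg_left ?_ hC)) (rho_nonneg hδ _)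
    rw [norm_sub_rev]
    exact (not_le.1 hy).le

theorem J_adj {δ : ℝ} (hδ : 0 < δ) {f g : E n → ℝ} (hf : Continuous f) (hi : Integrable f) (hg : Continuous g)
    {C : ℝ} (h : ∀ x, |g x| ≤ C) : ∫ x, f x * J δ g x = ∫ x, J δ f x * g x := by
  have _ := hf
  have h1 : Integrable (Function.uncurry fun y x : E n => rho δ (y - x) * f x * g y) (volume.prod volume) :=
    (hi.convolution_integrand (ContinuousLinearMap.mul ℝ ℝ).flip (pconv_rho_int hδ)).mul_bdd (c := C)
      (hg.comp continuous_fst).aestronglyMeasurable (ae_of_all _ fun p => h p.1)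
  have h2 := integral_integral_swap h1
  simp only [P.J, cv, ← integral_const_mul, ← integral_mul_const]
  rw [h2]
  refine integral_congr_ae (ae_of_all _ fun x => integral_congr_ae (ae_of_all _ fun y => ?_))
  show f x * (rho δ (x - y) * g y) = rho δ (y - x) * f x * g y
  rw [← rho_neg δ (x - y), neg_sub]
  ring

theorem integrable_J {δ : ℝ} (hδ : 0 < δ) {f : E n → ℝ} (hf : Continuous f) (hi : Integrable f) :
    Integrable (J δ f) := by
  have _ := hf
  exact pconv_integrable (pconv_rho_int hδ) hi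

theorem pconv_bdd0 {f : E n → ℝ} (hf : CbF 0 f) : ∃ C, ∀ x, |f x| ≤ C := hf.bd [] le_rfl

theorem pconv_eta_sq {f : E n → ℝ} (hf : CbF 0 f) (a : E n) : Integrable fun x => eta a x * f x ^ 2 := by
  simpa only [sq] using (hf.mul hf).integrable_eta a

/-- Jensen -/
theorem pconv_jensen {δ : ℝ} (hδ : 0 < δ) {f : E n → ℝ} (hf : Continuous f) (x : E n) :
    J δ f x ^ 2 ≤ cv (rho δ) (fun y => f y ^ 2) x := by
  have i0 := pconv_int0 (sm_rho δ).continuous (compact_rho hδ) x
  have i1 := pconv_int (sm_rho δ).continuous (compact_rho hδ) hf x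
  have i2 := pconv_int (sm_rho δ).continuous (compact_rho hδ) (hf.pow 2) x
  obtain ⟨m, hm⟩ : ∃ m, m = J δ f x := ⟨_, rfl⟩
  have h1 : ∫ y, (2 * m * (rho δ (x - y) * f y) - m ^ 2 * rho δ (x - y)) = m ^ 2 := by
    rw [integral_sub (i1.const_mul _) (i0.const_mul _), integral_const_mul, integral_const_mul, pconv_rho_one hδ,
      show ∫ y, rho δ (x - y) * f y = m from hm.symm]
    ring
  rw [← hm, ← h1]
  refine integral_mono ((i1.const_mul _).sub (i0.const_mul _)) i2 fun y => ?_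
  have := mul_nonneg (rho_nonneg hδ (x - y)) (sq_nonneg (f y - m))
  show 2 * m * (rho δ (x - y) * f y) - m ^ 2 * rho δ (x - y) ≤ rho δ (x - y) * f y ^ 2
  nlinarith

theorem pconv_eta_le {κ h : E n → ℝ} (hκ : Continuous κ) (hc : HasCompactSupport κ) (h0 : ∀ z, 0 ≤ κ z)
    (h1 : ∀ z, 1 < ‖z‖ → κ z = 0) (hh : Continuous h) (hh0 : ∀ y, 0 ≤ h y) (a x : E n) :
    eta a x * cv κ h x ≤ 3 ^ (n + 1) * cv κ (fun y => eta a y * h y) x := by
  simp only [cv, ← integral_const_mul]
  refine integral_mono ((pconv_int hκ hc hh x).const_mul _)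
    ((pconv_int hκ hc ((cbF_eta a).sm.continuous.mul hh) x).const_mul _) fun y => ?_
  show eta a x * (κ (x - y) * h y) ≤ 3 ^ (n + 1) * (κ (x - y) * (eta a y * h y))
  by_cases hy : 1 < ‖x - y‖
  · simp [h1 _ hy]
  · have h2 := mul_le_mul_of_nonneg_right (eta_shift a (x := y) (y := x) (by rw [norm_sub_rev]; exact not_lt.1 hy))
      (mul_nonneg (h0 (x - y)) (hh0 y))
    exact h2.trans_eq (by ring)

theorem J_eta_sq {δ : ℝ} (hδ : 0 < δ) (hδ1 : δ ≤ 1) {f : E n → ℝ} (hf : CbF 0 f) (a : E n) :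
    ∫ x, eta a x * J δ f x ^ 2 ≤ 3 ^ (n + 1) * ∫ x, eta a x * f x ^ 2 := by
  obtain ⟨C, hC⟩ := pconv_bdd0 hf
  have hc := hf.sm.continuous
  have hi : Integrable fun x => eta a x * f x ^ 2 := pconv_eta_sq hf a
  have h1 : ∫ x, 3 ^ (n + 1) * cv (rho δ) (fun y => eta a y * f y ^ 2) x =
      3 ^ (n + 1) * ∫ x, eta a x * f x ^ 2 := by
    rw [integral_const_mul, pconv_integral (pconv_rho_int hδ) hi, integral_rho hδ, one_mul]
  rw [← h1]
  refine integral_mono_of_nonneg (ae_of_all _ fun x => mul_nonneg (eta_pos a x).le (sq_nonneg _))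
    ((pconv_integrable (pconv_rho_int hδ) hi).const_mul _) (ae_of_all _ fun x => ?_)
  exact (mul_le_mul_of_nonneg_left (pconv_jensen hδ hc x) (eta_pos a x).le).trans
    (pconv_eta_le (sm_rho δ).continuous (compact_rho hδ) (rho_nonneg hδ)
      (fun z hz => rho_zero hδ (hδ1.trans hz.le)) (hc.pow 2) (fun y => sq_nonneg _) a x)

theorem En_J {δ : ℝ} (hδ : 0 < δ) (hδ1 : δ ≤ 1) {f : E n → ℝ} (hf : CbF 0 f) (k : ℕ) (a : E n) :
    En k a (J δ f) ≤ 3 ^ (n + 1) * En k a f := by
  simp only [En, Finset.mul_sum]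
  refine Finset.sum_le_sum fun α _ => ?_
  rw [pds_J hδ hf.sm]
  exact J_eta_sq hδ hδ1 (hf.pds0 _) a

theorem pconv_amgm (s t : ℝ) {c : ℝ} (hc : 0 < c) : |s| * |t| ≤ c * t ^ 2 + c⁻¹ * s ^ 2 := by
  rw [← sq_abs s, ← sq_abs t]
  have h1 : 0 ≤ c⁻¹ * (c * |t| - |s|) ^ 2 := by positivity
  have h2 : c⁻¹ * (c * |t| - |s|) ^ 2 = c * |t| ^ 2 + c⁻¹ * |s| ^ 2 - 2 * (|s| * |t|) := by
    field_simp
    ring
  have h3 : 0 ≤ |s| * |t| := by positivity
  linarith

/-- Friedrichs' commutator lemma, in the form that is used -/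
theorem friedrichs (n : ℕ) : ∃ K, 0 ≤ K ∧ ∀ δ : ℝ, 0 < δ → δ ≤ 1 → ∀ (f P : E n → ℝ), CbF 0 f → CbF 0 P →
    ∀ (a : E n) (i : Fin n) (ε : ℝ), 0 < ε →
      ∫ x, eta a x * f x * J δ (pd i P) x ≤ (∫ x, eta a x * J δ f x * pd i P x) +
        ε * (∫ x, eta a x * P x ^ 2) + K / ε * ∫ x, eta a x * f x ^ 2 := by
  obtain ⟨A, hA⟩ : ∃ A : ℝ, A = n * (n + 1) * 3 ^ (n + 1) := ⟨_, rfl⟩
  have hA0 : 0 ≤ A := by rw [hA]; positivity
  obtain ⟨M, hM⟩ : ∃ M : ℝ, M = A * (∑ j, ∫ y : E n, |pd j ((bump n).normed volume) y|) + (n + 1) := ⟨_, rfl⟩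
  have hS : ∀ j : Fin n, 0 ≤ ∫ y : E n, |pd j ((bump n).normed volume) y| := fun j =>
    integral_nonneg fun y => abs_nonneg _
  have hM0 : 0 < M := by
    rw [hM]
    have := mul_nonneg hA0 (Finset.sum_nonneg fun j (_ : j ∈ Finset.univ) => hS j)
    positivity
  refine ⟨M * 3 ^ (n + 1) * M, by positivity, fun δ hδ hδ1 f P hf hP a i ε hε => ?_⟩
  have cρ := (sm_rho (n := n) δ).continuous
  have kρ := compact_rho (n := n) hδ
  have cρ' := ((sm_rho (n := n) δ).pd i).continuous
  have kρ' : HasCompactSupport (pd i (rho δ : E n → ℝ)) := compact_pds kρ [i]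
  -- the kernel
  obtain ⟨κ, hκ⟩ : ∃ κ : E n → ℝ, κ = fun z => A * δ * |pd i (rho δ) z| + (n + 1) * rho δ z := ⟨_, rfl⟩
  have cκ : Continuous κ := by
    rw [hκ]
    exact (continuous_const.mul cρ'.abs).add (continuous_const.mul cρ)
  have zκ : ∀ z, 1 < ‖z‖ → κ z = 0 := fun z hz => by
    simp only [hκ, pconv_pd_zero hδ i (hδ1.trans_lt hz), rho_zero hδ (hδ1.trans hz.le), abs_zero, mul_zero, add_zero]
  have kκ : HasCompactSupport κ :=
    HasCompactSupport.intro (isCompact_closedBall 0 1) fun z hz => zκ z (by simpa using hz)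
  have κ0 : ∀ z, 0 ≤ κ z := fun z => by
    have := rho_nonneg hδ z
    rw [hκ]
    positivity
  have iκ : Integrable κ := cκ.integrable_of_hasCompactSupport kκ
  have κM : ∫ z, κ z ≤ M := by
    rw [hκ, integral_add ((cρ'.integrable_of_hasCompactSupport kρ').abs.const_mul _) ((pconv_rho_int hδ).const_mul _),
      integral_const_mul, integral_const_mul, integral_rho hδ, mul_assoc, pconv_pd_scale hδ, hM, mul_one]
    have := Finset.single_le_sum (f := fun j => ∫ y : E n, |pd j ((bump n).normed volume) y|) (fun j _ => hS j)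
      (Finset.mem_univ i)
    gcongr
  have hker : ∀ x y, |pd i (rho δ) (x - y) * (eta a y - eta a x) - rho δ (x - y) * pd i (eta a) x| ≤
      eta a x * κ (x - y) := fun x y => by
    have h1 : |pd i (rho δ) (x - y) * (eta a y - eta a x)| ≤ eta a x * (A * δ * |pd i (rho δ) (x - y)|) := by
      by_cases hy : δ < ‖x - y‖
      · simp [pconv_pd_zero hδ i hy]
      · have h2 := eta_lip a ((not_lt.1 hy).trans hδ1)
        rw [← hA] at h2
        have h3 : A * eta a x * ‖x - y‖ ≤ A * eta a x * δ :=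
          mul_le_mul_of_nonneg_left (not_lt.1 hy) (mul_nonneg hA0 (eta_pos a x).le)
        rw [abs_mul]
        exact (mul_le_mul_of_nonneg_left (h2.trans h3) (abs_nonneg _)).trans_eq (by ring)
    have h2 : |rho δ (x - y) * pd i (eta a) x| ≤ eta a x * ((n + 1) * rho δ (x - y)) := by
      rw [abs_mul, abs_of_nonneg (rho_nonneg hδ _)]
      exact (mul_le_mul_of_nonneg_left (abs_pd_eta a x i) (rho_nonneg hδ _)).trans_eq (by ring)
    refine (abs_sub _ _).trans ((add_le_add h1 h2).trans_eq ?_)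
    rw [hκ]
    ring
  -- the commutator
  have cf := hf.sm.continuous
  have cf2 : Continuous fun y => f y ^ 2 := cf.pow 2
  have hg : CbF 0 fun x => eta a x * f x := (cbF_eta a).mul hf
  have ig : Integrable fun x => eta a x * f x := hf.integrable_eta a
  have iJg := integrable_J hδ hg.sm.continuous ig
  have iJf : Integrable fun x => eta a x * J δ f x := (hf.J hδ).integrable_eta a
  have sJg := sm_J hδ hg.sm.continuous
  have sJf := sm_J hδ cf
  obtain ⟨Cf, hCf⟩ : ∃ Cf : E n → ℝ, Cf = fun x => J δ (fun x => eta a x * f x) x - eta a x * J δ f x := ⟨_, rfl⟩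
  have sC : Sm Cf := by
    rw [hCf]
    exact sJg.sub ((cbF_eta a).sm.mul sJf)
  have iC : Integrable Cf := by
    rw [hCf]
    exact iJg.sub iJf
  have hD : ∀ x, |pd i Cf x| ≤ eta a x * cv κ (fun y => |f y|) x := fun x => by
    have i1 := pconv_int cρ' kρ' hg.sm.continuous x
    have i2 := pconv_int cρ kρ cf x
    have i3 := pconv_int cρ' kρ' cf x
    have e : pd i Cf x = ∫ y, (pd i (rho δ) (x - y) * (eta a y - eta a x) - rho δ (x - y) * pd i (eta a) x) * f y := by
      rw [hCf, pd_sub sJg ((cbF_eta a).sm.mul sJf), pd_mul (cbF_eta a).sm sJf]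
      simp only [J]
      rw [pconv_pd_left (sm_rho δ) kρ hg.sm.continuous, pconv_pd_left (sm_rho δ) kρ cf]
      simp only [cv]
      rw [← integral_const_mul, ← integral_const_mul, ← integral_add (i2.const_mul _) (i3.const_mul _),
        ← integral_sub i1 ((i2.const_mul _).fun_add (i3.const_mul _))]
      refine integral_congr_ae (ae_of_all _ fun y => ?_)
      beta_reduce
      ring
    rw [e, cv, ← integral_const_mul]
    refine norm_integral_le_of_norm_le (f := fun y => (pd i (rho δ) (x - y) * (eta a y - eta a x) -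
      rho δ (x - y) * pd i (eta a) x) * f y) ((pconv_int cκ kκ cf.abs x).const_mul _) (ae_of_all _ fun y => ?_)
    rw [Real.norm_eq_abs, abs_mul]
    exact (mul_le_mul_of_nonneg_right (hker x y) (abs_nonneg _)).trans_eq (by ring)
  obtain ⟨B, hB⟩ := pconv_bdd0 hf
  have iD : Integrable (pd i Cf) := by
    refine ((integrable_eta a).mul_const ((∫ y, |κ y|) * B)).mono' (sC.pd i).continuous.aestronglyMeasurable
      (ae_of_all _ fun x => (hD x).trans (mul_le_mul_of_nonneg_left ((le_abs_self _).trans ?_) (eta_pos a x).le))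
    exact abs_cv_le cκ kκ (fun y => by rw [abs_abs]; exact hB y) x
  have hP' : CbF 0 (pd i P) := hP.pds0 [i]
  obtain ⟨B', hB'⟩ := pconv_bdd0 hP'
  obtain ⟨B'', hB''⟩ := pconv_bdd0 hP
  have mP' := hP'.sm.continuous.aestronglyMeasurable (μ := volume)
  have e1 : ∫ x, eta a x * f x * J δ (pd i P) x = (∫ x, eta a x * J δ f x * pd i P x) - ∫ x, pd i Cf x * P x := by
    rw [J_adj hδ hg.sm.continuous ig hP'.sm.continuous hB', sub_eq_add_neg, ← ibp sC hP i iC iD,
      ← integral_add (iJf.mul_bdd mP' (ae_of_all _ hB')) (iC.mul_bdd mP' (ae_of_all _ hB'))]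
    refine integral_congr_ae (ae_of_all _ fun x => ?_)
    simp only [hCf]
    ring
  have if2 := pconv_eta_sq hf a
  have iP2 := pconv_eta_sq hP a
  have icv := pconv_integrable iκ if2
  have e2 : -∫ x, pd i Cf x * P x ≤ ∫ x, (ε * (eta a x * P x ^ 2) +
      M * 3 ^ (n + 1) / ε * cv κ (fun y => eta a y * f y ^ 2) x) := by
    rw [← integral_neg]
    refine integral_mono (iD.mul_bdd hP.sm.continuous.aestronglyMeasurable (ae_of_all _ hB'')).neg
      ((iP2.const_mul _).add (icv.const_mul _)) fun x => ?_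
    have i0 := pconv_int0 cκ kκ x
    have i2 := pconv_int cκ kκ cf2 x
    have h1 : cv κ (fun y => |f y|) x * |P x| ≤ ε * P x ^ 2 + M / ε * cv κ (fun y => f y ^ 2) x := by
      have h2 : cv κ (fun y => |f y|) x * |P x| ≤
          ∫ y, (ε / M * P x ^ 2 * κ (x - y) + M / ε * (κ (x - y) * f y ^ 2)) := by
        rw [cv, ← integral_mul_const]
        refine integral_mono ((pconv_int cκ kκ cf.abs x).mul_const _) ((i0.const_mul _).add (i2.const_mul _))
          fun y => ?_
        have h3 := mul_le_mul_of_nonneg_left (pconv_amgm (f y) (P x) (div_pos hε hM0)) (κ0 (x - y))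
        rw [inv_div] at h3
        show κ (x - y) * |f y| * |P x| ≤ ε / M * P x ^ 2 * κ (x - y) + M / ε * (κ (x - y) * f y ^ 2)
        linarith
      rw [integral_add (i0.const_mul _) (i2.const_mul _), integral_const_mul, integral_const_mul,
        integral_sub_left_eq_self κ volume x] at h2
      have h4 : ε / M * P x ^ 2 * ∫ z, κ z ≤ ε * P x ^ 2 :=
        (mul_le_mul_of_nonneg_left κM (by positivity)).trans_eq (by field_simp)
      exact h2.trans (add_le_add h4 le_rfl)
    have h5 := mul_le_mul_of_nonneg_left (pconv_eta_le cκ kκ κ0 zκ cf2 (fun y => sq_nonneg _) a x)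
      (div_pos hM0 hε).le
    have h6 : -(pd i Cf x * P x) ≤ eta a x * (cv κ (fun y => |f y|) x * |P x|) := by
      refine (neg_le_abs _).trans ?_
      rw [abs_mul, ← mul_assoc]
      exact mul_le_mul_of_nonneg_right (hD x) (abs_nonneg _)
    have h7 := mul_le_mul_of_nonneg_left h1 (eta_pos a x).le
    show -(pd i Cf x * P x) ≤ ε * (eta a x * P x ^ 2) + M * 3 ^ (n + 1) / ε * cv κ (fun y => eta a y * f y ^ 2) x
    have e3 : M * 3 ^ (n + 1) / ε * cv κ (fun y => eta a y * f y ^ 2) x =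
        M / ε * (3 ^ (n + 1) * cv κ (fun y => eta a y * f y ^ 2) x) := by ring
    rw [e3]
    linarith
  rw [integral_add (iP2.const_mul _) (icv.const_mul _), integral_const_mul, integral_const_mul,
    pconv_integral iκ if2] at e2
  have h8 : M * 3 ^ (n + 1) / ε * ((∫ x, κ x) * ∫ x, eta a x * f x ^ 2) ≤
      M * 3 ^ (n + 1) * M / ε * ∫ x, eta a x * f x ^ 2 :=
    (mul_le_mul_of_nonneg_left (mul_le_mul_of_nonneg_right κM
      (integral_nonneg fun x => mul_nonneg (eta_pos a x).le (sq_nonneg _))) (by positivity)).trans_eq (by ring)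
  rw [e1]
  linarith



end Crest.Agent.R238.P
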