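import Crest.Agent.R238.PEmb

/-!
# R238 / PConv1

The mollifier `rho` and the convolution `cv` (first part of `PConv`).
-/

set_option autoImplicit false

open MeasureTheory Set Filter
open scoped ContDiff Topology Convolution

noncomputable section

namespace Crest.Agent.R238.P

variable {n : ℕ}

theorem sm_rho (δ : ℝ) : Sm (rho δ : E n → ℝ) :=
  contDiff_const.mul ((bump n).contDiff_normed.comp (contDiff_id.const_smul δ⁻¹))

theorem rho_nonneg {δ : ℝ} (hδ : 0 < δ) (y : E n) : 0 ≤ rho δ y :=
  mul_nonneg (by positivity) ((bump n).nonneg_normed _)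

theorem rho_neg (δ : ℝ) (y : E n) : rho δ (-y) = rho δ y := by
  simp only [rho, smul_neg, ContDiffBump.normed_neg]

theorem rho_zero {δ : ℝ} (hδ : 0 < δ) {y : E n} (h : δ ≤ ‖y‖) : rho δ y = 0 := by
  have h1 : δ⁻¹ • y ∉ Function.support ((bump n).normed volume) := by
    rw [ContDiffBump.support_normed_eq, mem_ball_zero_iff, norm_smul, Real.norm_eq_abs, abs_of_pos (inv_pos.2 hδ),
      not_lt, inv_mul_eq_div, le_div_iff₀ hδ]
    show 1 * δ ≤ _
    rwa [one_mul]
  rw [rho, Function.notMem_support.1 h1, mul_zero]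

theorem pconv_tsupport {δ : ℝ} (hδ : 0 < δ) : tsupport (rho δ : E n → ℝ) ⊆ Metric.closedBall 0 δ := by
  refine closure_minimal (fun y hy => ?_) Metric.isClosed_closedBall
  rw [mem_closedBall_zero_iff]
  by_contra h
  exact hy (rho_zero hδ (not_le.1 h).le)

theorem compact_rho {δ : ℝ} (hδ : 0 < δ) : HasCompactSupport (rho δ : E n → ℝ) :=
  (isCompact_closedBall 0 δ).of_isClosed_subset (isClosed_tsupport _) (pconv_tsupport hδ)

theorem pconv_int_scale {δ : ℝ} (hδ : 0 < δ) (f : E n → ℝ) : ∫ y : E n, (δ ^ n)⁻¹ * f (δ⁻¹ • y) = ∫ y, f y := by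
  rw [integral_const_mul, Measure.integral_comp_inv_smul_of_nonneg volume f hδ.le, finrank_euclideanSpace_fin,
    smul_eq_mul, ← mul_assoc, inv_mul_cancel₀ (by positivity), one_mul]

theorem integral_rho {δ : ℝ} (hδ : 0 < δ) : ∫ y : E n, rho δ y = 1 :=
  (pconv_int_scale hδ _).trans (bump n).integral_normed

theorem compact_pds {k : E n → ℝ} (h : HasCompactSupport k) (l : List (Fin n)) : HasCompactSupport (pds l k) := by
  induction l with
  | nil => exact h
  | cons i l ih => exact ih.fderiv_apply ℝ _

theorem pconv_eq (k f : E n → ℝ) : cv k f = f ⋆[(ContinuousLinearMap.mul ℝ ℝ).flip] k := rfl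

theorem pconv_cpt {k : E n → ℝ} (hc : HasCompactSupport k) (x : E n) : HasCompactSupport fun y => k (x - y) :=
  hc.comp_homeomorph (Homeomorph.subLeft x)

theorem pconv_int {k f : E n → ℝ} (hk : Continuous k) (hc : HasCompactSupport k) (hf : Continuous f) (x : E n) :
    Integrable fun y => k (x - y) * f y :=
  ((hk.comp (continuous_const.sub continuous_id)).mul hf).integrable_of_hasCompactSupport
    (pconv_cpt hc x).mul_right

theorem pconv_int0 {k : E n → ℝ} (hk : Continuous k) (hc : HasCompactSupport k) (x : E n) :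
    Integrable fun y => k (x - y) :=
  (hk.comp (continuous_const.sub continuous_id)).integrable_of_hasCompactSupport (pconv_cpt hc x)

theorem sm_cv {k f : E n → ℝ} (hk : Sm k) (hc : HasCompactSupport k) (hf : Continuous f) : Sm (cv k f) := by
  rw [pconv_eq]
  exact hc.contDiff_convolution_right _ hf.locallyIntegrable hk

theorem pconv_pd_left {k f : E n → ℝ} (hk : Sm k) (hc : HasCompactSupport k) (hf : Continuous f) (i : Fin n) :
    pd i (cv k f) = cv (pd i k) f := by
  funext x
  have h := hc.hasFDerivAt_convolution_right (ContinuousLinearMap.mul ℝ ℝ).flip (μ := volume) hf.locallyIntegrable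
    (hk.of_le (by simp)) x
  rw [pd, pconv_eq, h.fderiv, convolution_precompR_apply _ hf.locallyIntegrable (hc.fderiv ℝ)
    (hk.continuous_fderiv (by simp))]
  rfl

theorem pds_cv_left {k f : E n → ℝ} (hk : Sm k) (hc : HasCompactSupport k) (hf : Continuous f)
    (l : List (Fin n)) : pds l (cv k f) = cv (pds l k) f := by
  induction l with
  | nil => rfl
  | cons i l ih =>
    show pd i (pds l (cv k f)) = cv (pd i (pds l k)) f
    rw [ih, pconv_pd_left (hk.pds l) (compact_pds hc l) hf]

theorem pconv_pd_right {k f : E n → ℝ} (hk : Sm k) (hc : HasCompactSupport k) (hf : Sm f) (i : Fin n) :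
    pd i (cv k f) = cv k (pd i f) := by
  rw [pconv_pd_left hk hc hf.continuous]
  funext x
  have hd : ∀ y, fderiv ℝ (fun y => k (x - y)) y (EuclideanSpace.single i 1) = -pd i k (x - y) := by
    intro y
    have h1 : HasFDerivAt (fun y : E n => x - y) (-ContinuousLinearMap.id ℝ (E n)) y :=
      (hasFDerivAt_id y).const_sub x
    have h2 := (hk.differentiable (by simp) (x - y)).hasFDerivAt.comp y h1
    rw [show (fun y => k (x - y)) = k ∘ fun y => x - y from rfl, h2.fderiv]
    simp [pd]
  have h := integral_mul_fderiv_eq_neg_fderiv_mul_of_integrable (μ := volume) (f := fun y => k (x - y)) (g := f)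
    (v := EuclideanSpace.single i 1)
    (by
      simp only [hd, neg_mul]
      exact (pconv_int (hk.pd i).continuous (compact_pds hc [i]) hf.continuous x).neg)
    (pconv_int hk.continuous hc (hf.pd i).continuous x) (pconv_int hk.continuous hc hf.continuous x)
    (fun y _ => ((hk.differentiable (by simp)).comp ((differentiable_const x).sub differentiable_id)) y)
    (fun y _ => hf.differentiable (by simp) y)
  simp only [hd, neg_mul, integral_neg, neg_neg] at h
  exact h.symm

theorem pds_cv_right {k f : E n → ℝ} (hk : Sm k) (hc : HasCompactSupport k) (hf : Sm f)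
    (l : List (Fin n)) : pds l (cv k f) = cv k (pds l f) := by
  induction l with
  | nil => rfl
  | cons i l ih =>
    show pd i (pds l (cv k f)) = cv k (pd i (pds l f))
    rw [ih, pconv_pd_right hk hc (hf.pds l)]

theorem abs_cv_le {k f : E n → ℝ} (hk : Continuous k) (hc : HasCompactSupport k) {C : ℝ} (h : ∀ x, |f x| ≤ C)
    (x : E n) : |cv k f x| ≤ (∫ y, |k y|) * C := by
  rw [← integral_sub_left_eq_self (fun y => |k y|) volume x, ← integral_mul_const]
  refine norm_integral_le_of_norm_le (f := fun y => k (x - y) * f y) ((pconv_int0 hk hc x).abs.mul_const C)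
    (ae_of_all _ fun y => ?_)
  rw [Real.norm_eq_abs, abs_mul]
  exact mul_le_mul_of_nonneg_left (h y) (abs_nonneg _)

theorem cv_sub {k f g : E n → ℝ} (hk : Continuous k) (hc : HasCompactSupport k) (hf : Continuous f)
    (hg : Continuous g) (x : E n) : cv k (fun y => f y - g y) x = cv k f x - cv k g x := by
  simp only [cv, mul_sub]
  exact integral_sub (pconv_int hk hc hf x) (pconv_int hk hc hg x)

theorem pconv_swap (k f : E n → ℝ) (x : E n) : cv k f x = ∫ y, k y * f (x - y) := by
  rw [cv, ← integral_sub_left_eq_self (fun y => k y * f (x - y)) volume x]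
  simp only [sub_sub_cancel]

/-- joint continuity -/
theorem continuousOn_cv {k : E n → ℝ} (hk : Continuous k) (hc : HasCompactSupport k) {S : Set ℝ}
    {f : ℝ → E n → ℝ} (hf : ContinuousOn (fun p : ℝ × E n => f p.1 p.2) (S ×ˢ univ)) :
    ContinuousOn (fun p : ℝ × E n => cv k (f p.1) p.2) (S ×ˢ univ) := by
  simp only [pconv_swap]
  refine continuousOn_integral_of_compact_support (f := fun (p : ℝ × E n) y => k y * f p.1 (p.2 - y)) hc ?_
    fun p y _ hy => by rw [image_eq_zero_of_notMem_tsupport hy, zero_mul]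
  refine (hk.comp continuous_snd).continuousOn.mul ?_
  have h1 : Continuous fun q : (ℝ × E n) × E n => (q.1.1, q.1.2 - q.2) := by fun_prop
  exact hf.comp h1.continuousOn fun q hq => ⟨hq.1.1, mem_univ _⟩

theorem pconv_integrable {k f : E n → ℝ} (hk : Integrable k) (hf : Integrable f) : Integrable (cv k f) := by
  rw [pconv_eq]
  exact hf.integrable_convolution _ hk

theorem pconv_integral {k f : E n → ℝ} (hk : Integrable k) (hf : Integrable f) :
    ∫ x, cv k f x = (∫ x, k x) * ∫ x, f x := by
  rw [pconv_eq]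
  exact integral_convolution _ hf hk

theorem pconv_rho_int {δ : ℝ} (hδ : 0 < δ) : Integrable (rho δ : E n → ℝ) :=
  (sm_rho δ).continuous.integrable_of_hasCompactSupport (compact_rho hδ)

theorem pconv_rho_one {δ : ℝ} (hδ : 0 < δ) (x : E n) : ∫ y, rho δ (x - y) = 1 := by
  rw [integral_sub_left_eq_self (rho δ) volume x, integral_rho hδ]

theorem pconv_pd_zero {δ : ℝ} (hδ : 0 < δ) (i : Fin n) {y : E n} (h : δ < ‖y‖) : pd i (rho δ) y = 0 := by
  have : y ∉ tsupport (rho δ : E n → ℝ) := fun hy => by
    have := mem_closedBall_zero_iff.1 (pconv_tsupport hδ hy)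
    linarith
  rw [pd, fderiv_of_notMem_tsupport ℝ this]
  rfl

/-- scale invariance -/
theorem pconv_pd_scale {δ : ℝ} (hδ : 0 < δ) (i : Fin n) :
    δ * ∫ y : E n, |pd i (rho δ) y| = ∫ y : E n, |pd i ((bump n).normed volume) y| := by
  have hb : Sm ((bump n).normed volume) := (bump n).contDiff_normed
  have h1 : Sm fun y : E n => (bump n).normed volume (δ⁻¹ • y) := hb.comp (contDiff_id.const_smul δ⁻¹)
  have h2 : pd i (rho δ) = fun y : E n => (δ ^ n)⁻¹ * (δ⁻¹ * pd i ((bump n).normed volume) (δ⁻¹ • y)) := by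
    have h3 := pds_comp_smul hb δ⁻¹ [i]
    simp only [pds, List.length_singleton, pow_one] at h3
    rw [show (rho δ : E n → ℝ) = fun y => (δ ^ n)⁻¹ * (bump n).normed volume (δ⁻¹ • y) from rfl,
      pd_const_mul h1, h3]
  rw [h2, ← pconv_int_scale hδ fun y => |pd i ((bump n).normed volume) y|, ← integral_const_mul]
  refine integral_congr_ae (ae_of_all _ fun y => ?_)
  simp only [abs_mul, abs_of_pos (inv_pos.2 hδ), abs_of_pos (inv_pos.2 (pow_pos hδ n))]
  field_simp

end Crest.Agent.R238.P
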