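import Crest.Agent.R238.PCb

/-!
# R238 / PDP

Symbols and differential polynomials. Everything is an induction on `DP` (or on the list `l`).
`DP.bound`: for `mul` use `C ↦ K C`. The corollaries choose `β`, `γ`: `bound1`: `β = B`, `γ = 1`; `bound2`: `β q = B` if `q + 2 ≤ m`, else `Y`,
`γ j' = 1` if `j' + 2 ≤ m`, else `1 + Y`; `bound3`: `γ j' = 1` if `j' + 2 < k`, `1 + Y` if `j' + 2 = k`, else `(1 + Y)² + Z`.
-/

set_option autoImplicit false

open MeasureTheory Set Filter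
open scoped ContDiff Topology

noncomputable section

namespace Crest.Agent.R238.P

variable {n : ℕ}

theorem dp_sm {Φ : X n → ℝ} (h : ContDiff ℝ ∞ Φ) (v : X n) : ContDiff ℝ ∞ fun p => fderiv ℝ Φ p v :=
  (h.fderiv_right (m := ∞) (by simp)).clm_apply contDiff_const

theorem dp_fd_add {Φ Ψ : X n → ℝ} (h : ContDiff ℝ ∞ Φ) (h' : ContDiff ℝ ∞ Ψ) (v : X n) :
    (fun p => fderiv ℝ (fun p => Φ p + Ψ p) p v) = fun p => fderiv ℝ Φ p v + fderiv ℝ Ψ p v := by
  funext p
  rw [fderiv_fun_add (h.differentiable (by simp) p) (h'.differentiable (by simp) p)]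
  rfl

theorem dp_fd_mul {Φ Ψ : X n → ℝ} (h : ContDiff ℝ ∞ Φ) (h' : ContDiff ℝ ∞ Ψ) (v : X n) :
    (fun p => fderiv ℝ (fun p => Φ p * Ψ p) p v) =
      fun p => fderiv ℝ Φ p v * Ψ p + Φ p * fderiv ℝ Ψ p v := by
  funext p
  rw [fderiv_fun_mul (h.differentiable (by simp) p) (h'.differentiable (by simp) p)]
  simp only [add_apply, smul_apply, smul_eq_mul]
  ring

theorem dp_fd_mat (Φ : X n → ℝ) (p : X n) (D : Mat n) :
    fderiv ℝ Φ p (0, 0, D) = ∑ i, ∑ j, dm i j Φ p * D i j := by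
  have : ((0, 0, D) : X n) = ∑ i, ∑ j, D i j • ((0, 0, Pi.single i (Pi.single j 1)) : X n) := by
    refine Prod.ext ?_ (Prod.ext ?_ ?_)
    · simp [Prod.fst_sum]
    · simp [Prod.fst_sum, Prod.snd_sum]
    · funext a b
      simp [Prod.snd_sum, Finset.sum_apply, Pi.single_apply, ite_apply]
  rw [this]
  simp only [map_sum, map_smul, smul_eq_mul, dm, mul_comm]

theorem dp_bk0 {T : Set ℝ} {k : ℕ} {Φ : X n → ℝ} (h : Bk T k Φ) : ∃ C, ∀ p : X n, p.1 ∈ T → |Φ p| ≤ C := by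
  cases k with
  | zero => exact h
  | succ k => exact h.1

theorem dp_bk_add {T : Set ℝ} (k : ℕ) : ∀ {Φ Ψ : X n → ℝ}, ContDiff ℝ ∞ Φ → ContDiff ℝ ∞ Ψ → Bk T k Φ →
    Bk T k Ψ → Bk T k fun p => Φ p + Ψ p := by
  have b : ∀ {k : ℕ} {Φ Ψ : X n → ℝ}, Bk T k Φ → Bk T k Ψ →
      ∃ C, ∀ p : X n, p.1 ∈ T → |Φ p + Ψ p| ≤ C := fun h h' => by
    obtain ⟨C, hC⟩ := dp_bk0 h
    obtain ⟨C', hC'⟩ := dp_bk0 h'
    exact ⟨C + C', fun p hp => (abs_add_le _ _).trans (add_le_add (hC p hp) (hC' p hp))⟩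
  induction k with
  | zero => exact fun _ _ h h' => b h h'
  | succ k ih =>
    intro Φ Ψ s s' h h'
    refine ⟨b h h', fun i => ?_, fun i j => ?_⟩
    · unfold dz
      rw [dp_fd_add s s']
      exact ih (dp_sm s _) (dp_sm s' _) (h.2.1 i) (h'.2.1 i)
    · unfold dm
      rw [dp_fd_add s s']
      exact ih (dp_sm s _) (dp_sm s' _) (h.2.2 i j) (h'.2.2 i j)

theorem Sym.dz {T : Set ℝ} {Φ : X n → ℝ} (h : Sym T Φ) (i : Fin n) : Sym T (dz i Φ) := by
  exact ⟨dp_sm h.sm _, fun k => (h.bd (k + 1)).2.1 i⟩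
theorem Sym.dm {T : Set ℝ} {Φ : X n → ℝ} (h : Sym T Φ) (i j : Fin n) : Sym T (dm i j Φ) := by
  exact ⟨dp_sm h.sm _, fun k => (h.bd (k + 1)).2.2 i j⟩
theorem Sym.mono {T T' : Set ℝ} {Φ : X n → ℝ} (h : Sym T Φ) (hT : T' ⊆ T) : Sym T' Φ := by
  refine ⟨h.sm, fun k => ?_⟩
  induction k generalizing Φ with
  | zero => exact (h.bd 0).imp fun C hC p hp => hC p (hT hp)
  | succ k ih =>
    exact ⟨(h.bd 0).imp fun C hC p hp => hC p (hT hp), fun i => ih (h.dz i), fun i j => ih (h.dm i j)⟩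
theorem Sym.bdd {T : Set ℝ} {Φ : X n → ℝ} (h : Sym T Φ) : ∃ C, 0 ≤ C ∧ ∀ t ∈ T, ∀ x M, |Φ (t, x, M)| ≤ C := by
  obtain ⟨C, hC⟩ := h.bd 0
  exact ⟨|C|, abs_nonneg _, fun t ht x M => (hC _ ht).trans (le_abs_self _)⟩
theorem Sym.lip {T : Set ℝ} {Φ : X n → ℝ} (h : Sym T Φ) :
    ∃ L, 0 ≤ L ∧ ∀ t ∈ T, ∀ x M M', |Φ (t, x, M) - Φ (t, x, M')| ≤ L * ‖M - M'‖ := by
  choose C hC0 hC using fun i j => (h.dm i j).bdd
  refine ⟨∑ i, ∑ j, C i j, Finset.sum_nonneg fun i _ => Finset.sum_nonneg fun j _ => hC0 i j,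
    fun t ht x M M' => ?_⟩
  have h1 : ∀ s : ℝ, HasDerivAt (fun s : ℝ => Φ (t, x, M' + s • (M - M')))
      (∑ i, ∑ j, P.dm i j Φ (t, x, M' + s • (M - M')) * (M - M') i j) s := by
    intro s
    rw [← dp_fd_mat]
    refine (h.sm.differentiable (by simp) _).hasFDerivAt.comp_hasDerivAt s
      ((hasDerivAt_const s t).prodMk ((hasDerivAt_const s x).prodMk ?_))
    simpa using ((hasDerivAt_id s).smul_const (M - M')).const_add M'
  have h2 := norm_image_sub_le_of_norm_deriv_le_segment_01' (C := (∑ i, ∑ j, C i j) * ‖M - M'‖)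
    (fun s _ => (h1 s).hasDerivWithinAt) fun s _ => by
      rw [Finset.sum_mul]
      refine (norm_sum_le _ _).trans (Finset.sum_le_sum fun i _ => ?_)
      rw [Finset.sum_mul]
      refine (norm_sum_le _ _).trans (Finset.sum_le_sum fun j _ => ?_)
      rw [norm_mul]
      exact mul_le_mul (hC i j t ht _ _) ((norm_le_pi_norm _ j).trans (norm_le_pi_norm _ i))
        (norm_nonneg _) (hC0 i j)
  simpa using h2
theorem sym_const (T : Set ℝ) (c : ℝ) : Sym T fun _ : X n => c := by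
  refine ⟨contDiff_const, fun k => ?_⟩
  induction k generalizing c with
  | zero => exact ⟨|c|, fun _ _ => le_rfl⟩
  | succ k ih =>
    refine ⟨⟨|c|, fun _ _ => le_rfl⟩, fun i => ?_, fun i j => ?_⟩
    · have : dz i (fun _ : X n => c) = fun _ => 0 := by funext p; simp [dz]
      rw [this]; exact ih 0
    · have : dm i j (fun _ : X n => c) = fun _ => 0 := by funext p; simp [dm]
      rw [this]; exact ih 0
theorem Sym.add {T : Set ℝ} {Φ Ψ : X n → ℝ} (h : Sym T Φ) (h' : Sym T Ψ) : Sym T fun p => Φ p + Ψ p := by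
  exact ⟨h.sm.add h'.sm, fun k => dp_bk_add k h.sm h'.sm (h.bd k) (h'.bd k)⟩
theorem Sym.mul {T : Set ℝ} {Φ Ψ : X n → ℝ} (h : Sym T Φ) (h' : Sym T Ψ) : Sym T fun p => Φ p * Ψ p := by
  refine ⟨h.sm.mul h'.sm, fun k => ?_⟩
  have b : ∀ {Φ Ψ : X n → ℝ}, Sym T Φ → Sym T Ψ → ∃ C, ∀ p : X n, p.1 ∈ T → |Φ p * Ψ p| ≤ C := fun h h' => by
    obtain ⟨C, h0, hC⟩ := h.bdd
    obtain ⟨C', -, hC'⟩ := h'.bdd
    refine ⟨C * C', fun p hp => ?_⟩
    rw [abs_mul]
    exact mul_le_mul (hC _ hp _ _) (hC' _ hp _ _) (abs_nonneg _) h0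
  induction k generalizing Φ Ψ with
  | zero => exact b h h'
  | succ k ih =>
    refine ⟨b h h', fun i => ?_, fun i j => ?_⟩
    · unfold P.dz
      rw [dp_fd_mul h.sm h'.sm]
      exact dp_bk_add k ((dp_sm h.sm _).mul h'.sm) (h.sm.mul (dp_sm h'.sm _)) (ih (h.dz i) h') (ih h (h'.dz i))
    · unfold P.dm
      rw [dp_fd_mul h.sm h'.sm]
      exact dp_bk_add k ((dp_sm h.sm _).mul h'.sm) (h.sm.mul (dp_sm h'.sm _)) (ih (h.dm i j) h')
        (ih h (h'.dm i j))
theorem Sym.sum {ι : Type*} (s : Finset ι) {T : Set ℝ} {Φ : ι → X n → ℝ} (h : ∀ k ∈ s, Sym T (Φ k)) :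
    Sym T fun p => ∑ k ∈ s, Φ k p := by
  classical
  induction s using Finset.induction_on with
  | empty => simpa using sym_const T 0
  | insert a s ha ih =>
    simp only [Finset.sum_insert ha]
    exact (h a (Finset.mem_insert_self a s)).add (ih fun k hk => h k (Finset.mem_insert_of_mem hk))

theorem sm_op {Φ : X n → ℝ} (h : ContDiff ℝ ∞ Φ) (t : ℝ) {w : E n → ℝ} (hw : Sm w) : Sm (op Φ t w) := by
  exact h.comp (contDiff_const.prodMk (contDiff_id.prodMk
    (contDiff_pi.2 fun i => contDiff_pi.2 fun j => (hw.pd j).pd i)))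
theorem pd_op {Φ : X n → ℝ} (h : ContDiff ℝ ∞ Φ) (t : ℝ) {w : E n → ℝ} (hw : Sm w) (k : Fin n) :
    pd k (op Φ t w) = fun x => op (dz k Φ) t w x + ∑ i, ∑ j, op (dm i j Φ) t w x * pds [k, i, j] w x := by
  funext x
  have h1 : HasFDerivAt (fun y => hs w y) (ContinuousLinearMap.pi fun i => ContinuousLinearMap.pi fun j =>
      fderiv ℝ (pd i (pd j w)) x) x :=
    hasFDerivAt_pi.2 fun i => hasFDerivAt_pi.2 fun j =>
      (((hw.pd j).pd i).differentiable (by simp) x).hasFDerivAt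
  have h2 : HasFDerivAt (op Φ t w) _ x := (h.differentiable (by simp) _).hasFDerivAt.comp x
    ((hasFDerivAt_const t x).prodMk ((hasFDerivAt_id x).prodMk h1))
  rw [pd, h2.fderiv]
  change fderiv ℝ Φ (t, x, hs w x) (0, EuclideanSpace.single k 1, fun i j => pds [k, i, j] w x) = _
  rw [show ((0, EuclideanSpace.single k 1, fun i j => pds [k, i, j] w x) : X n) =
    (0, EuclideanSpace.single k 1, 0) + (0, 0, fun i j => pds [k, i, j] w x) by simp, map_add, dp_fd_mat]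
  rfl

theorem DP.sm {T : Set ℝ} {r j : ℕ} {F : Op n} (h : DP T r j F) (t : ℝ) {w : E n → ℝ} (hw : Sm w) :
    Sm (F t w) := by
  induction h with
  | base h => exact sm_op h.sm t hw
  | mul q l _ _ _ _ ih => exact ih.mul (hw.pds l)
  | add _ _ ih ih' => exact ih.add ih'
  | mono _ _ ih => exact ih
  | congr e _ ih => exact e t w hw ▸ ih
theorem DP.monor {T : Set ℝ} {r r' j : ℕ} {F : Op n} (h : DP T r j F) (hr : r ≤ r') : DP T r' j F := by
  induction h with
  | base h => exact .base h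
  | mul q l h1 h2 h3 _ ih => exact .mul q l h1 (h2.trans hr) h3 ih
  | add _ _ ih ih' => exact .add ih ih'
  | mono h _ ih => exact .mono h ih
  | congr e _ ih => exact .congr e ih
theorem DP.sum {ι : Type*} (s : Finset ι) {T : Set ℝ} {r j : ℕ} {F : ι → Op n} (h : ∀ k ∈ s, DP T r j (F k)) :
    DP T r j fun t w x => ∑ k ∈ s, F k t w x := by
  classical
  induction s using Finset.induction_on with
  | empty => exact .mono (Nat.zero_le j) (.base (sym_const T 0))
  | insert a s ha ih =>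
    simp only [Finset.sum_insert ha]
    exact (h a (Finset.mem_insert_self a s)).add (ih fun k hk => h k (Finset.mem_insert_of_mem hk))
theorem DP.pd {T : Set ℝ} {r j : ℕ} {F : Op n} (h : DP T r j F) (k : Fin n) :
    DP T (r + 1) (j + 1) fun t w => pd k (F t w) := by
  induction h with
  | base h =>
    refine .congr (fun t w hw => (pd_op h.sm t hw k).symm) (.add (.mono (Nat.zero_le _) (.base (h.dz k))) ?_)
    exact DP.sum _ fun i _ => DP.sum _ fun j _ =>
      .mul 1 [k, i, j] le_rfl (Nat.le_add_left 1 r) rfl (.base (h.dm i j))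
  | mul q l h1 h2 h3 hF ih =>
    refine .congr (fun t w hw => (pd_mul (hF.sm t hw) (hw.pds l) k).symm) (.add ?_ ?_)
    · exact .mono (by omega) (.mul q l h1 (by omega) h3 ih)
    · exact .mul (q + 1) (k :: l) (by omega) (by omega) (by simp [h3]) (hF.monor (Nat.le_succ r))
  | add hF hG ih ih' => exact .congr (fun t w hw => (pd_add (hF.sm t hw) (hG.sm t hw) k).symm) (.add ih ih')
  | mono h _ ih => exact .mono (Nat.succ_le_succ h) ih
  | congr e _ ih => exact .congr (fun t w hw => by rw [e t w hw]) ih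
theorem dp_pds {T : Set ℝ} {Φ : X n → ℝ} (h : Sym T Φ) (l : List (Fin n)) :
    DP T l.length l.length fun t w => pds l (op Φ t w) := by
  induction l with
  | nil => exact .base h
  | cons k l ih => exact ih.pd k
/-- the principal part -/
theorem dp_main {T : Set ℝ} {Φ : X n → ℝ} (h : Sym T Φ) (k : Fin n) (l : List (Fin n)) :
    ∃ R : Op n, DP T l.length (l.length + 1) R ∧ ∀ t w, Sm w → ∀ x, pds (k :: l) (op Φ t w) x =
      (∑ i, ∑ j, op (dm i j Φ) t w x * pd i (pd j (pds (k :: l) w)) x) + R t w x := by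
  induction l generalizing k with
  | nil =>
    refine ⟨op (dz k Φ), .mono (Nat.zero_le _) (.base (h.dz k)), fun t w hw x => ?_⟩
    change pd k (op Φ t w) x = _
    rw [pd_op h.sm t hw]
    refine (add_comm _ _).trans (congrArg (· + op (dz k Φ) t w x) ?_)
    refine Finset.sum_congr rfl fun i _ => Finset.sum_congr rfl fun j _ => ?_
    have := pds_perm hw (List.perm_append_comm (l₁ := [k]) (l₂ := [i, j]))
    exact congrArg _ (congrFun this x)
  | cons k' l ih =>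
    obtain ⟨R, hR, e⟩ := ih k'
    refine ⟨fun t w x => (∑ i, ∑ j, pd k (op (dm i j Φ) t w) x * pds (i :: j :: k' :: l) w x) + pd k (R t w) x,
      .add (DP.sum _ fun i _ => DP.sum _ fun j _ => .mono (by simp; omega)
        (.mul (l.length + 1) (i :: j :: k' :: l) (by omega) le_rfl (by simp)
          (((DP.base (r := 0) (h.dm i j)).pd k).monor (by simp)))) (hR.pd k), fun t w hw x => ?_⟩
    change pd k (pds (k' :: l) (op Φ t w)) x = _
    have s1 : ∀ i j, Sm (op (dm i j Φ) t w) := fun i j => sm_op (h.dm i j).sm t hw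
    have s2 : ∀ i j, Sm (pd i (pd j (pds (k' :: l) w))) := fun i j => ((hw.pds _).pd j).pd i
    have s3 : ∀ i j, Sm fun x => op (dm i j Φ) t w x * pd i (pd j (pds (k' :: l) w)) x :=
      fun i j => (s1 i j).mul (s2 i j)
    have s4 : ∀ i, Sm fun x => ∑ j, op (dm i j Φ) t w x * pd i (pd j (pds (k' :: l) w)) x :=
      fun i => ContDiff.sum fun j _ => s3 i j
    rw [funext (e t w hw), pd_add (ContDiff.sum fun i _ => s4 i) (hR.sm t hw), pd_sum _ fun i _ => s4 i]
    have e1 : ∀ i, pd k (fun x => ∑ j, op (dm i j Φ) t w x * pd i (pd j (pds (k' :: l) w)) x) x =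
        ∑ j, (pd k (op (dm i j Φ) t w) x * pd i (pd j (pds (k' :: l) w)) x +
          op (dm i j Φ) t w x * pd k (pd i (pd j (pds (k' :: l) w))) x) := fun i => by
      rw [pd_sum _ fun j _ => s3 i j]
      exact Finset.sum_congr rfl fun j _ => congrFun (pd_mul (s1 i j) (s2 i j) k) x
    simp only [e1, Finset.sum_add_distrib]
    have e2 : ∀ i j, pd k (pd i (pd j (pds (k' :: l) w))) = pd i (pd j (pds (k :: k' :: l) w)) := by
      intro i j
      rw [pd_comm ((hw.pds _).pd j), pd_comm (hw.pds _) k j]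
      rfl
    simp only [e2]
    change _ = _ + ((∑ i, ∑ j, pd k (op (dm i j Φ) t w) x * pd i (pd j (pds (k' :: l) w)) x) + _)
    ring

theorem DP.bound {T : Set ℝ} {r j : ℕ} {F : Op n} (h : DP T r j F) {K : ℝ} (hK : 1 ≤ K) :
    ∃ C, 0 ≤ C ∧ ∀ β γ : ℕ → ℝ, 1 ≤ γ 0 → Monotone γ →
      (∀ j' q, 1 ≤ q → q ≤ r → j' + q ≤ j → γ j' * β q ≤ K * γ (j' + q)) →
      ∀ t ∈ T, ∀ w, Sm w → ∀ x, (∀ q (l : List (Fin n)), 1 ≤ q → q ≤ r → l.length = q + 2 → |pds l w x| ≤ β q) →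
        |F t w x| ≤ C * γ j := by
  induction h with
  | base h =>
    obtain ⟨C, h0, hC⟩ := h.bdd
    exact ⟨C, h0, fun β γ h1 _ _ t ht w _ x _ => (hC t ht _ _).trans (le_mul_of_one_le_right h0 h1)⟩
  | @mul j F q l h1 h2 h3 _ ih =>
    obtain ⟨C, h0, hC⟩ := ih
    refine ⟨C * K, by positivity, fun β γ g0 gm hb t ht w hw x hl => ?_⟩
    have a1 := hC β γ g0 gm (fun j' q' a b c => hb j' q' a b (by omega)) t ht w hw x hl
    rw [abs_mul, mul_assoc]
    refine (mul_le_mul a1 (hl q l h1 h2 h3) (abs_nonneg _) ((abs_nonneg _).trans a1)).trans ?_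
    rw [mul_assoc]
    exact mul_le_mul_of_nonneg_left (hb j q h1 h2 le_rfl) h0
  | add _ _ ih ih' =>
    obtain ⟨C, h0, hC⟩ := ih
    obtain ⟨C', h0', hC'⟩ := ih'
    refine ⟨C + C', by positivity, fun β γ g0 gm hb t ht w hw x hl => ?_⟩
    rw [add_mul]
    exact (abs_add_le _ _).trans (add_le_add (hC β γ g0 gm hb t ht w hw x hl) (hC' β γ g0 gm hb t ht w hw x hl))
  | mono h _ ih =>
    obtain ⟨C, h0, hC⟩ := ih
    exact ⟨C, h0, fun β γ g0 gm hb t ht w hw x hl =>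
      (hC β γ g0 gm (fun j' q' a b c => hb j' q' a b (c.trans h)) t ht w hw x hl).trans
        (mul_le_mul_of_nonneg_left (gm h) h0)⟩
  | congr e _ ih =>
    obtain ⟨C, h0, hC⟩ := ih
    exact ⟨C, h0, fun β γ g0 gm hb t ht w hw x hl => e t w hw ▸ hC β γ g0 gm hb t ht w hw x hl⟩
theorem DP.bound1 {T : Set ℝ} {r j : ℕ} {F : Op n} (h : DP T r j F) (B : ℝ) :
    ∃ C, 0 ≤ C ∧ ∀ t ∈ T, ∀ w, Sm w → Ord 3 (r + 2) B w → ∀ x, |F t w x| ≤ C := by
  obtain ⟨C, h0, hC⟩ := h.bound (le_max_left 1 B)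
  refine ⟨C, h0, fun t ht w hw ho x => ?_⟩
  simpa using hC (fun _ => B) (fun _ => 1) le_rfl monotone_const (fun _ _ _ _ _ => by simp) t ht w hw x
    fun q l a b c => ho l (by omega) (by omega) x
/-- at most one factor has order `> m` -/
theorem DP.bound2 {T : Set ℝ} {r j : ℕ} {F : Op n} (h : DP T r j F) {m : ℕ} (hm : j + 2 < 2 * m) (B : ℝ) :
    ∃ C, 0 ≤ C ∧ ∀ t ∈ T, ∀ w, Sm w → Ord 3 m B w → ∀ x (Y : ℝ), 0 ≤ Y →
      (∀ l : List (Fin n), m < l.length → l.length ≤ r + 2 → |pds l w x| ≤ Y) → |F t w x| ≤ C * (1 + Y) := by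
  obtain ⟨C, h0, hC⟩ := h.bound (le_max_left 1 B)
  refine ⟨C, h0, fun t ht w hw ho x Y hY hl => ?_⟩
  have gm : Monotone fun j' : ℕ => if j' + 2 ≤ m then 1 else 1 + Y := by
    intro a b hab
    dsimp only
    split_ifs <;> first | omega | linarith
  have g1 : ∀ j' : ℕ, 1 ≤ if j' + 2 ≤ m then 1 else 1 + Y := fun j' => by split_ifs <;> linarith
  refine (hC (fun q => if q + 2 ≤ m then B else Y) _ (g1 0) gm (fun j' q a b c => ?_) t ht w hw x
    fun q l a b c => ?_).trans (mul_le_mul_of_nonneg_left (by split_ifs <;> linarith) h0)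
  · by_cases hq : q + 2 ≤ m
    · rw [if_pos hq, mul_comm]
      exact (mul_le_mul_of_nonneg_right (le_max_right 1 B) (zero_le_one.trans (g1 _))).trans
        (mul_le_mul_of_nonneg_left (gm (Nat.le_add_right j' q)) (by positivity))
    · rw [if_neg hq, if_pos (by omega), if_neg (by omega)]
      nlinarith [le_max_left 1 B]
  · split_ifs with hq
    · exact ho l (by omega) (by omega) x
    · exact hl l (by omega) (by omega)
/-- the bound for the estimate of order `k ≥ 4` -/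
theorem DP.bound3 {T : Set ℝ} {k : ℕ} {F : Op n} (hk : 4 ≤ k) (h : DP T (k - 1) k F) (B : ℝ) :
    ∃ C, 0 ≤ C ∧ ∀ t ∈ T, ∀ w, Sm w → Ord 3 (k - 1) B w → ∀ x (Y Z : ℝ), 0 ≤ Y → 0 ≤ Z →
      (∀ l : List (Fin n), l.length = k → |pds l w x| ≤ Y) →
      (∀ l : List (Fin n), l.length = k + 1 → |pds l w x| ≤ Z) → |F t w x| ≤ C * (1 + Y ^ 2 + Z) := by
  obtain ⟨C, h0, hC⟩ := h.bound (le_max_left 1 B)
  refine ⟨C * 2, by positivity, fun t ht w hw ho x Y Z hY hZ hl hl' => ?_⟩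
  have hY2 : 1 + Y ≤ (1 + Y) ^ 2 := by nlinarith
  have gm : Monotone fun j' : ℕ => if j' + 2 < k then 1 else if j' + 2 = k then 1 + Y else (1 + Y) ^ 2 + Z := by
    intro a b hab
    dsimp only
    split_ifs <;> first | omega | linarith
  have g1 : ∀ j' : ℕ, 1 ≤ if j' + 2 < k then 1 else if j' + 2 = k then 1 + Y else (1 + Y) ^ 2 + Z :=
    fun j' => by split_ifs <;> linarith
  refine (hC (fun q => if q + 2 < k then B else if q + 2 = k then Y else Z) _ (g1 0) gm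
    (fun j' q a b c => ?_) t ht w hw x fun q l a b c => ?_).trans ?_
  · by_cases hq : q + 2 < k
    · rw [if_pos hq, mul_comm]
      exact (mul_le_mul_of_nonneg_right (le_max_right 1 B) (zero_le_one.trans (g1 _))).trans
        (mul_le_mul_of_nonneg_left (gm (Nat.le_add_right j' q)) (by positivity))
    · refine le_trans ?_ (le_mul_of_one_le_left (zero_le_one.trans (g1 _)) (le_max_left 1 B))
      split_ifs <;> first | omega | nlinarith
  · split_ifs with hq hq'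
    · exact ho l (by omega) (by omega) x
    · exact hl l (by omega)
    · exact hl' l (by omega)
  · rw [if_neg (by omega), if_neg (by omega), mul_assoc]
    exact mul_le_mul_of_nonneg_left (by nlinarith [sq_nonneg (1 - Y)]) h0

/-- continuity with respect to the jets -/
theorem DP.tendsto {T : Set ℝ} {r j : ℕ} {F : Op n} (h : DP T r j F) {ι : Type*} {𝓕 : Filter ι}
    {t : ι → ℝ} {x : ι → E n} {w : ι → E n → ℝ} {t₀ : ℝ} {x₀ : E n} {w₀ : E n → ℝ}
    (hw : ∀ᶠ k in 𝓕, Sm (w k)) (hw₀ : Sm w₀) (ht : Tendsto t 𝓕 (𝓝 t₀)) (hx : Tendsto x 𝓕 (𝓝 x₀))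
    (hj : ∀ l : List (Fin n), 2 ≤ l.length → Tendsto (fun k => pds l (w k) (x k)) 𝓕 (𝓝 (pds l w₀ x₀))) :
    Tendsto (fun k => F (t k) (w k) (x k)) 𝓕 (𝓝 (F t₀ w₀ x₀)) := by
  induction h with
  | base h =>
    exact (h.sm.continuous.tendsto _).comp (ht.prodMk_nhds (hx.prodMk_nhds
      (tendsto_pi_nhds.2 fun i => tendsto_pi_nhds.2 fun j => hj [i, j] le_rfl)))
  | mul q l _ _ h3 _ ih => exact ih.mul (hj l (by omega))
  | add _ _ ih ih' => exact ih.add ih'
  | mono _ _ ih => exact ih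
  | congr e _ ih =>
    rw [← e t₀ w₀ hw₀]
    exact ih.congr' (hw.mono fun k hk => by rw [e _ _ hk])
theorem DP.continuousOn {T : Set ℝ} {r j : ℕ} {F : Op n} (h : DP T r j F) {S : Set ℝ} {w : ℝ → E n → ℝ}
    (hw : ∀ t ∈ S, Sm (w t))
    (hc : ∀ l : List (Fin n), 2 ≤ l.length → ContinuousOn (fun p : ℝ × E n => pds l (w p.1) p.2) (S ×ˢ univ)) :
    ContinuousOn (fun p : ℝ × E n => F p.1 (w p.1) p.2) (S ×ˢ univ) := by
  intro p hp
  exact h.tendsto (w := fun p : ℝ × E n => w p.1) (eventually_nhdsWithin_of_forall fun q hq => hw _ hq.1)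
    (hw _ hp.1) continuous_fst.continuousWithinAt continuous_snd.continuousWithinAt fun l hl => hc l hl p hp


end Crest.Agent.R238.P
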