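import Mathlib

/-!
# R238 / PDefs : the parabolic route to the moment-measure Monge–Ampère equation. Definitions.

ROUTE (files `R238/P*.lean`). `φ = |x|²/2 + b`. The flow `u_t = log det D²u - x·Du + u + φ` is solved for all
times (short time existence `PST` by a mollified equation and uniformly local energies, a priori bounds by the
maximum principle `PC2`, `PCal`, `PShi`), the Ding functional gives a stationary limit (`PDing`). The linear flow
`h_t = L h` comes from the same existence theorem (`PLin`) and gives approximate solutions of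
`L (L + 1) s = f` (`PDecay`). Final statement: `PMain.analytic`.
-/

set_option autoImplicit false

open MeasureTheory Set Filter
open scoped ContDiff Topology

noncomputable section

namespace Crest.Agent.R238.P

abbrev E (n : ℕ) := EuclideanSpace ℝ (Fin n)
abbrev Mat (n : ℕ) := Fin n → Fin n → ℝ

variable {n : ℕ}

/-- partial derivative -/
def pd (i : Fin n) (f : E n → ℝ) : E n → ℝ := fun x => fderiv ℝ f x (EuclideanSpace.single i 1)

/-- iterated partial derivative (head = outermost) -/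
def pds : List (Fin n) → (E n → ℝ) → E n → ℝ
  | [], f => f
  | i :: l, f => pd i (pds l f)

/-- Hessian -/
def hs (f : E n → ℝ) (x : E n) : Mat n := fun i j => pd i (pd j f) x

abbrev Sm (f : E n → ℝ) : Prop := ContDiff ℝ ∞ f

/-- smooth, all derivatives of order `≥ k` are bounded -/
structure CbF (k : ℕ) (f : E n → ℝ) : Prop where
  sm : Sm f
  bd : ∀ l : List (Fin n), k ≤ l.length → ∃ C, ∀ x, |pds l f x| ≤ C

/-- the derivatives of orders `p, …, q` are bounded by `B` -/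
def Ord (p q : ℕ) (B : ℝ) (f : E n → ℝ) : Prop :=
  ∀ l : List (Fin n), p ≤ l.length → l.length ≤ q → ∀ x, |pds l f x| ≤ B

/-- the quadratic form of a matrix -/
def qf (M : Mat n) (ξ : Fin n → ℝ) : ℝ := ∑ i, ∑ j, M i j * ξ i * ξ j
def n2 (ξ : Fin n → ℝ) : ℝ := ∑ i, ξ i ^ 2
/-- `c ≤ M` as quadratic forms -/
def Lo (c : ℝ) (M : Mat n) : Prop := ∀ ξ, c * n2 ξ ≤ qf M ξ
/-- `M ≤ C` as quadratic forms -/
def Hi (C : ℝ) (M : Mat n) : Prop := ∀ ξ, qf M ξ ≤ C * n2 ξ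

def ldet (M : Mat n) : ℝ := Real.log (Matrix.of M).det
def inv (M : Mat n) : Mat n := fun i j => (Matrix.of M)⁻¹ i j
def one (n : ℕ) : Mat n := fun i j => if i = j then 1 else 0

/-- `x · D f` -/
def eul (f : E n → ℝ) : E n → ℝ := fun x => ∑ i, x i * pd i f x
/-- `a^{ij} ∂_i ∂_j f` -/
def lap (a : E n → Mat n) (f : E n → ℝ) : E n → ℝ := fun x => ∑ i, ∑ j, a x i j * pd i (pd j f) x
/-- `L f = a^{ij} ∂_i ∂_j f - x · D f` -/
def Lop (a : E n → Mat n) (f : E n → ℝ) : E n → ℝ := fun x => lap a f x - eul f x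
/-- `τ = (D²u)⁻¹` -/
def tau (u : E n → ℝ) : E n → Mat n := fun x => inv (hs u x)

/-! ## Symbols and differential polynomials -/

abbrev X (n : ℕ) := ℝ × E n × Mat n

def dz (i : Fin n) (Φ : X n → ℝ) : X n → ℝ := fun p => fderiv ℝ Φ p (0, EuclideanSpace.single i 1, 0)
def dm (i j : Fin n) (Φ : X n → ℝ) : X n → ℝ := fun p => fderiv ℝ Φ p (0, 0, Pi.single i (Pi.single j 1))

/-- the `(z, M)`-derivatives up to order `k` are bounded for times in `T` -/
def Bk (T : Set ℝ) : ℕ → (X n → ℝ) → Prop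
  | 0, Φ => ∃ C, ∀ p : X n, p.1 ∈ T → |Φ p| ≤ C
  | k + 1, Φ => (∃ C, ∀ p : X n, p.1 ∈ T → |Φ p| ≤ C) ∧ (∀ i, Bk T k (dz i Φ)) ∧ ∀ i j, Bk T k (dm i j Φ)

structure Sym (T : Set ℝ) (Φ : X n → ℝ) : Prop where
  sm : ContDiff ℝ ∞ Φ
  bd : ∀ k, Bk T k Φ

/-- time dependent operators -/
abbrev Op (n : ℕ) := ℝ → (E n → ℝ) → E n → ℝ

def op (Φ : X n → ℝ) : Op n := fun t w x => Φ (t, x, hs w x)

/-- sums of products `Φ(t, x, D²w) ∏ ∂^l w`, each factor has order `q + 2` with `1 ≤ q ≤ r`, `∑ q ≤ j`.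
Operators that agree on smooth functions are identified. -/
inductive DP (T : Set ℝ) (r : ℕ) : ℕ → Op n → Prop
  | base {Φ : X n → ℝ} : Sym T Φ → DP T r 0 (op Φ)
  | mul {j : ℕ} {F : Op n} (q : ℕ) (l : List (Fin n)) : 1 ≤ q → q ≤ r → l.length = q + 2 → DP T r j F →
      DP T r (j + q) (fun t w x => F t w x * pds l w x)
  | add {j : ℕ} {F G : Op n} : DP T r j F → DP T r j G → DP T r j (fun t w x => F t w x + G t w x)
  | mono {j j' : ℕ} {F : Op n} : j ≤ j' → DP T r j F → DP T r j' F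
  | congr {j : ℕ} {F G : Op n} : (∀ t w, Sm w → F t w = G t w) → DP T r j F → DP T r j G

/-- classical solutions of `w_t = N t w` on `[a, b]` with bounded derivatives of order `≥ 2` -/
structure Sol (N : Op n) (a b : ℝ) (w : ℝ → E n → ℝ) : Prop where
  sm : ∀ t ∈ Icc a b, Sm (w t)
  smN : ∀ t ∈ Icc a b, Sm (N t (w t))
  bd : ∀ l : List (Fin n), 2 ≤ l.length → ∃ C, ∀ t ∈ Icc a b, ∀ x, |pds l (w t) x| ≤ C
  ct : ∀ l : List (Fin n), ContinuousOn (fun p : ℝ × E n => pds l (w p.1) p.2) (Icc a b ×ˢ univ)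
  ctN : ∀ l : List (Fin n), ContinuousOn (fun p : ℝ × E n => pds l (N p.1 (w p.1)) p.2) (Icc a b ×ˢ univ)
  dt : ∀ (l : List (Fin n)) (x : E n), ∀ t ∈ Icc a b,
    HasDerivWithinAt (fun s => pds l (w s) x) (pds l (N t (w t)) x) (Icc a b) t

/-- ellipticity of the symbol near the Hessians of `w₀` -/
def Ell (T : Set ℝ) (Φ : X n → ℝ) (lam r : ℝ) (w₀ : E n → ℝ) : Prop :=
  ∀ t ∈ T, ∀ (x : E n) (M : Mat n), ‖M - hs w₀ x‖ ≤ r → Lo lam fun i j => dm i j Φ (t, x, M)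

/-! ## Mollifier and weight -/

/-- a fixed bump of radius `1` -/
def bump (n : ℕ) : ContDiffBump (0 : E n) := ⟨1 / 2, 1, by norm_num, by norm_num⟩
/-- `ρ_δ y = δ⁻ⁿ ρ (y / δ)` -/
def rho (δ : ℝ) (y : E n) : ℝ := (δ ^ n)⁻¹ * (bump n).normed volume (δ⁻¹ • y)
/-- convolution with a kernel -/
def cv (k f : E n → ℝ) : E n → ℝ := fun x => ∫ y, k (x - y) * f y
def J (δ : ℝ) (f : E n → ℝ) : E n → ℝ := cv (rho δ) f
/-- the weight centred at `a` -/
def eta (a : E n) (x : E n) : ℝ := ((1 + ‖x - a‖ ^ 2) ^ (n + 1))⁻¹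
/-- the mollified operator -/
def mop (δ : ℝ) (Φ : X n → ℝ) (w₀ : E n → ℝ) : Op n :=
  fun t h => J δ (op Φ t fun x => w₀ x + J δ h x)
/-- the energy of the derivatives of order `k` -/
def En (k : ℕ) (a : E n) (f : E n → ℝ) : ℝ :=
  ∑ α : Fin k → Fin n, ∫ x, eta a x * pds (List.ofFn α) f x ^ 2

/-- solutions of the mollified problem -/
structure MSol (δ : ℝ) (Φ : X n → ℝ) (w₀ : E n → ℝ) (a b : ℝ) (h : ℝ → E n → ℝ) : Prop where
  sol : Sol (mop δ Φ w₀) a b h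
  init : h a = fun _ => 0
  bd : ∀ l : List (Fin n), ∃ C, ∀ t ∈ Icc a b, ∀ x, |pds l (h t) x| ≤ C

/-! ## The flows -/

def ph (b : E n → ℝ) : E n → ℝ := fun x => ‖x‖ ^ 2 / 2 + b x

/-- the data: `φ = |x|²/2 + b` is even and `c`-convex -/
structure Dat (c : ℝ) (b : E n → ℝ) : Prop where
  c0 : 0 < c
  c1 : c ≤ 1
  cb : CbF 0 b
  ev : ∀ x, b (-x) = b x
  lo : ∀ x, Lo c (hs (ph b) x)

/-- the Monge–Ampère operator -/
def MA (b u : E n → ℝ) : E n → ℝ := fun x => ldet (hs u x) - eul u x + u x + ph b x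

/-- the flow `u_t = MA b u`, `u(0) = |x|²/2`, on `[0, T]` -/
structure Flow (b : E n → ℝ) (T : ℝ) (u : ℝ → E n → ℝ) : Prop where
  sol : Sol (fun _ => MA b) 0 T u
  init : u 0 = fun x => ‖x‖ ^ 2 / 2
  pos : ∃ c > 0, ∀ t ∈ Icc 0 T, ∀ x, Lo c (hs (u t) x)
  bd : ∀ l : List (Fin n), ∃ C, ∀ t ∈ Icc 0 T, ∀ x, |pds l (fun y => u t y - ‖y‖ ^ 2 / 2) x| ≤ C

/-- the flow in the variables `z = e^{-t} x`: `u(t, x) = |x|²/2 + e^t V(t, e^{-t} x)` -/
def zop (b : E n → ℝ) : Op n := fun t V z =>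
  Real.exp (-t) * (ldet (one n + Real.exp (-t) • hs V z) + b (Real.exp t • z))

/-- rescaling `(t, x) ↦ e^{κ t} V(t, e^{-t} x)` -/
def resc (κ : ℝ) (V : ℝ → E n → ℝ) : ℝ → E n → ℝ := fun t x => Real.exp (κ * t) * V t (Real.exp (-t) • x)

/-- a solution of the Monge–Ampère equation -/
structure IsMA (b u : E n → ℝ) : Prop where
  cb : CbF 2 u
  ev : ∀ x, u (-x) = u x
  pos : ∃ c > 0, ∀ x, Lo c (hs u x)
  eq : ∀ x, MA b u x = 0

/-- the linear flow `h_t = L h` on `[0, T]` -/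
structure LFlow (a : E n → Mat n) (T : ℝ) (h : ℝ → E n → ℝ) : Prop where
  sol : Sol (fun _ => Lop a) 0 T h
  bd : ∀ l : List (Fin n), ∃ C, ∀ t ∈ Icc 0 T, ∀ x, |pds l (h t) x| ≤ C

/-- smooth, all derivatives have polynomial growth -/
structure PGr (f : E n → ℝ) : Prop where
  sm : Sm f
  bd : ∀ l : List (Fin n), ∃ (C : ℝ) (k : ℕ), ∀ x, |pds l f x| ≤ C * (1 + ‖x‖) ^ k

/-- `∫ f e^{-φ}` -/
def Ex (b f : E n → ℝ) : ℝ := ∫ x, f x * Real.exp (-ph b x)

end Crest.Agent.R238.P
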