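import Crest.Agent.R238.PCb

/-!
# R238 / PEmb

The weight, integration by parts, the embedding.
`integrable_one_add_norm` / `integrable_rpow_neg_one_add_norm_sq`; `integral_mul_fderiv_eq_neg_fderiv_mul_of_integrable` or
`integral_fderiv_eq_zero`-type lemmas. Peetre: `1 + ‖y - a‖² ≤ 3 (1 + ‖x - a‖²)`-like for `‖x - y‖ ≤ 1`.
`embed`: one dimension: `g(0)² ≤ 3 ∫_{0}^{1} (g² + g'²)` (FTC for `(1 - s) g(s)²`). Induct over a `Finset` of coordinates, e.g. with
`lmarginal` on `Fin n → ℝ` (`lmarginal_insert`, `lmarginal_univ`, `PiLp.volume_preserving_toLp`), or over `n` with `Fin.cons`; on the unit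
cube at `a` the weight is `≥ (1 + n)^{-(n+1)}`. A subset of coordinates is a list of length `≤ n`.
-/

set_option autoImplicit false

open MeasureTheory Set Filter
open scoped ContDiff Topology

noncomputable section

namespace Crest.Agent.R238.P

variable {n : ℕ}

theorem eta_pos (a x : E n) : 0 < eta a x := sorry
theorem eta_le_one (a x : E n) : eta a x ≤ 1 := sorry
theorem cbF_eta (a : E n) : CbF 0 (eta a) := sorry
theorem integrable_eta (a : E n) : Integrable (eta a) := sorry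
theorem integral_eta (a : E n) : ∫ x, eta a x = ∫ x, eta (0 : E n) x := sorry
theorem abs_pd_eta (a x : E n) (i : Fin n) : |pd i (eta a) x| ≤ (n + 1) * eta a x := sorry
theorem eta_shift (a : E n) {x y : E n} (h : ‖x - y‖ ≤ 1) : eta a y ≤ 3 ^ (n + 1) * eta a x := sorry
theorem eta_lip (a : E n) {x y : E n} (h : ‖x - y‖ ≤ 1) :
    |eta a y - eta a x| ≤ n * (n + 1) * 3 ^ (n + 1) * eta a x * ‖x - y‖ := sorry
theorem integrable_eta_mul (a : E n) {f : E n → ℝ} (hf : Continuous f) {C : ℝ} (h : ∀ x, |f x| ≤ C) :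
    Integrable fun x => eta a x * f x := sorry
theorem CbF.integrable_eta {f : E n → ℝ} (hf : CbF 0 f) (a : E n) : Integrable fun x => eta a x * f x := sorry
/-- integration by parts: `f`, `pd i f` integrable, `g` bounded with bounded derivatives -/
theorem ibp {f g : E n → ℝ} (hf : Sm f) (hg : CbF 0 g) (i : Fin n) (h0 : Integrable f) (h1 : Integrable (pd i f)) :
    ∫ x, f x * pd i g x = -∫ x, pd i f x * g x := sorry
theorem ibp_eta {f g : E n → ℝ} (hf : CbF 0 f) (hg : CbF 0 g) (a : E n) (i : Fin n) :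
    ∫ x, eta a x * f x * pd i g x = -∫ x, (pd i (eta a) x * f x + eta a x * pd i f x) * g x := sorry
theorem En_nonneg (k : ℕ) (a : E n) (f : E n → ℝ) : 0 ≤ En k a f := sorry
theorem le_En (a : E n) (f : E n → ℝ) (l : List (Fin n)) :
    ∫ x, eta a x * pds l f x ^ 2 ≤ En l.length a f := sorry
theorem En_succ (k : ℕ) (a : E n) (f : E n → ℝ) :
    En (k + 1) a f = ∑ α : Fin k → Fin n, ∑ i, ∫ x, eta a x * pd i (pds (List.ofFn α) f) x ^ 2 := sorry
theorem En_pds_le {f : E n → ℝ} (k : ℕ) (a : E n) (l : List (Fin n)) :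
    En k a (pds l f) ≤ En (k + l.length) a f := sorry
theorem embed (n : ℕ) : ∃ C, 0 ≤ C ∧ ∀ f : E n → ℝ, CbF 0 f → ∀ a,
    f a ^ 2 ≤ C * ∑ k ∈ Finset.range (n + 1), En k a f := sorry
/-- the form that is used -/
theorem embed' (n : ℕ) : ∃ C, 0 ≤ C ∧ ∀ (f : E n → ℝ) (K : ℕ) (l : List (Fin n)), CbF 0 f → l.length + n ≤ K → ∀ a,
    pds l f a ^ 2 ≤ C * ∑ k ∈ Finset.range (K + 1), En k a f := sorry


end Crest.Agent.R238.P
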