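import Crest.Agent.R238.PCb

/-!
# R238 / PMat

Matrices. `Lo c M` with `c > 0` and `M` symmetric means `Matrix.of M - c • 1` is `PosSemidef`; use the spectral theorem
(`Matrix.IsHermitian.spectral_theorem`, `det_eq_prod_eigenvalues`) or `PosDef` API. `tr_ge`: write the semidefinite matrix `B` as
`∑ₖ vₖ vₖᵀ` (square root). `ldet_concave`: `log det A - log det B = log det (S A S)` with `S = B^{-1/2}`, `log λ ≤ λ - 1`;
or: `t ↦ ldet (B + t (A - B))` has derivative `tr` at `0` and second derivative `-tr((τ D)²) ≤ 0`.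
Derivative of `det`: `Matrix.det` is a polynomial; `d det = tr (adjugate · dM)` (expand by rows: `Matrix.det_apply'`,
`HasDerivWithinAt.fun_finset_prod`, `Matrix.cramer`/`det_updateRow`), the inverse from `M M⁻¹ = 1`.
-/

set_option autoImplicit false

open MeasureTheory Set Filter
open scoped ContDiff Topology

noncomputable section

namespace Crest.Agent.R238.P

variable {n : ℕ}

def symm (M : Mat n) : Mat n := fun i j => (M i j + M j i) / 2
def IsS (M : Mat n) : Prop := ∀ i j, M i j = M j i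

theorem isS_hs {f : E n → ℝ} (hf : Sm f) (x : E n) : IsS (hs f x) := sorry
theorem isS_symm (M : Mat n) : IsS (symm M) := sorry
theorem IsS.symm_eq {M : Mat n} (h : IsS M) : symm M = M := sorry
theorem qf_symm (M : Mat n) (ξ : Fin n → ℝ) : qf (symm M) ξ = qf M ξ := sorry
theorem norm_symm_le (M : Mat n) : ‖symm M‖ ≤ ‖M‖ := sorry
theorem IsS.inv {M : Mat n} (h : IsS M) : IsS (inv M) := sorry
theorem n2_nonneg (ξ : Fin n → ℝ) : 0 ≤ n2 ξ := sorry
theorem lo_one : Lo 1 (one n) := sorry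
theorem hi_one : Hi 1 (one n) := sorry
theorem Lo.mono {c c' : ℝ} {M : Mat n} (h : Lo c M) (hc : c' ≤ c) : Lo c' M := sorry
theorem Hi.mono {c c' : ℝ} {M : Mat n} (h : Hi c M) (hc : c ≤ c') : Hi c' M := sorry
theorem Lo.pert {c r : ℝ} {M M' : Mat n} (h : Lo c M) (hr : ‖M' - M‖ ≤ r) : Lo (c - n * r) M' := sorry
theorem hi_of_norm {C : ℝ} {M : Mat n} (h : ‖M‖ ≤ C) : Hi (n * C) M := sorry
theorem abs_le_of_lo_hi {C : ℝ} {M : Mat n} (hs : IsS M) (h0 : Lo 0 M) (h1 : Hi C M) (i j : Fin n) :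
    |M i j| ≤ C := sorry
theorem det_bounds {c C : ℝ} {M : Mat n} (hs : IsS M) (hc : 0 < c) (h0 : Lo c M) (h1 : Hi C M) :
    c ^ n ≤ (Matrix.of M).det ∧ (Matrix.of M).det ≤ C ^ n := sorry
theorem det_pos {c : ℝ} {M : Mat n} (hs : IsS M) (hc : 0 < c) (h0 : Lo c M) : 0 < (Matrix.of M).det := sorry
theorem inv_mul {M : Mat n} (h : (Matrix.of M).det ≠ 0) (i k : Fin n) :
    ∑ j, inv M i j * M j k = if i = k then 1 else 0 := sorry
theorem mul_inv {M : Mat n} (h : (Matrix.of M).det ≠ 0) (i k : Fin n) :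
    ∑ j, M i j * inv M j k = if i = k then 1 else 0 := sorry
theorem hi_inv {c : ℝ} {M : Mat n} (hs : IsS M) (hc : 0 < c) (h0 : Lo c M) : Hi c⁻¹ (inv M) := sorry
theorem lo_inv {c C : ℝ} {M : Mat n} (hs : IsS M) (hc : 0 < c) (h0 : Lo c M) (hC : 0 < C) (h1 : Hi C M) :
    Lo C⁻¹ (inv M) := sorry
theorem lo_zero_inv {c : ℝ} {M : Mat n} (hs : IsS M) (hc : 0 < c) (h0 : Lo c M) : Lo 0 (inv M) := sorry
theorem lo_of_hi_inv {c C : ℝ} {M : Mat n} (hs : IsS M) (hc : 0 < c) (h0 : Lo c M) (hC : 0 < C)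
    (h1 : Hi C (inv M)) : Lo C⁻¹ M := sorry
/-- `c tr B ≤ tr (A B)` -/
theorem tr_ge {c : ℝ} {A B : Mat n} (hA : Lo c A) (hs : IsS B) (hB : Lo 0 B) :
    c * ∑ i, B i i ≤ ∑ i, ∑ j, A i j * B i j := sorry
theorem tr_nonpos {A B : Mat n} (hA : Lo 0 A) (hs : IsS B) (hB : Hi 0 B) : ∑ i, ∑ j, A i j * B i j ≤ 0 := sorry
/-- `c² |K|² ≤ tr (A K A K)` -/
theorem tr_sq_ge {c : ℝ} {A K : Mat n} (hc : 0 ≤ c) (hA : Lo c A) (hAs : IsS A) (hK : IsS K) :
    c ^ 2 * ∑ i, ∑ j, K i j ^ 2 ≤ ∑ i, ∑ j, ∑ k, ∑ l, A i j * K j k * A k l * K l i := sorry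
theorem ldet_concave {c : ℝ} {A B : Mat n} (hc : 0 < c) (hA : IsS A) (hB : IsS B) (h0 : Lo c A) (h1 : Lo c B) :
    ldet A - ldet B ≤ ∑ i, ∑ j, inv B i j * (A i j - B i j) := sorry
/-- a frame: `P Pᵀ = A` -/
theorem exists_frame {A : Mat n} (hs : IsS A) (h0 : Lo 0 A) :
    ∃ P : Mat n, ∀ i j, A i j = ∑ k, P i k * P j k := sorry

theorem hasDerivWithinAt_ldet {M : ℝ → Mat n} {M' : Mat n} {S : Set ℝ} {t : ℝ}
    (h : ∀ i j, HasDerivWithinAt (fun s => M s i j) (M' i j) S t) (hd : (Matrix.of (M t)).det ≠ 0) :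
    HasDerivWithinAt (fun s => ldet (M s)) (∑ i, ∑ j, inv (M t) j i * M' i j) S t := sorry
theorem hasDerivWithinAt_inv {M : ℝ → Mat n} {M' : Mat n} {S : Set ℝ} {t : ℝ}
    (h : ∀ i j, HasDerivWithinAt (fun s => M s i j) (M' i j) S t) (hd : (Matrix.of (M t)).det ≠ 0) (i j : Fin n) :
    HasDerivWithinAt (fun s => inv (M s) i j) (-∑ a, ∑ b, inv (M t) i a * M' a b * inv (M t) b j) S t := sorry
theorem contDiffAt_ldet {M : Mat n} (hd : (Matrix.of M).det ≠ 0) : ContDiffAt ℝ ∞ (ldet (n := n)) M := sorry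
theorem contDiffAt_inv {M : Mat n} (hd : (Matrix.of M).det ≠ 0) (i j : Fin n) :
    ContDiffAt ℝ ∞ (fun N : Mat n => inv N i j) M := sorry
theorem sm_ldet {g : E n → Mat n} (hg : ∀ i j, Sm fun x => g x i j) (hd : ∀ x, (Matrix.of (g x)).det ≠ 0) :
    Sm fun x => ldet (g x) := sorry
theorem sm_inv {g : E n → Mat n} (hg : ∀ i j, Sm fun x => g x i j) (hd : ∀ x, (Matrix.of (g x)).det ≠ 0)
    (i j : Fin n) : Sm fun x => inv (g x) i j := sorry
theorem pd_ldet {g : E n → Mat n} (hg : ∀ i j, Sm fun x => g x i j) (hd : ∀ x, (Matrix.of (g x)).det ≠ 0)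
    (k : Fin n) : pd k (fun x => ldet (g x)) =
      fun x => ∑ i, ∑ j, inv (g x) j i * pd k (fun y => g y i j) x := sorry
theorem pd_inv {g : E n → Mat n} (hg : ∀ i j, Sm fun x => g x i j) (hd : ∀ x, (Matrix.of (g x)).det ≠ 0)
    (k i j : Fin n) : pd k (fun x => inv (g x) i j) =
      fun x => -∑ a, ∑ b, inv (g x) i a * pd k (fun y => g y a b) x * inv (g x) b j := sorry
/-- all derivatives of `τ` are bounded (induction with `pd_inv`) -/
theorem cbF_tau {u : E n → ℝ} (hu : CbF 2 u) {c : ℝ} (hc : 0 < c) (h : ∀ x, Lo c (hs u x)) (i j : Fin n) :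
    CbF 0 fun x => tau u x i j := sorry
theorem cbF_ldet {u : E n → ℝ} (hu : CbF 2 u) {c : ℝ} (hc : 0 < c) (h : ∀ x, Lo c (hs u x)) :
    CbF 0 fun x => ldet (hs u x) := sorry


end Crest.Agent.R238.P
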