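import Crest.Agent.R238.PConv
import Crest.Agent.R238.PDP
import Crest.Agent.R238.PMat

/-!
# R238 / PEnA

The static energy inequality. Put `g = J δ h`, `w = w₀ + g`, `P = op Φ t w`, `α = i :: α'` of length `k + 1`, `f = pds α h`.
`pds α (mop ..) = J δ (pd i (pds α' P))` (`pds_J`). `friedrichs` replaces `f` by `G = J δ f = pds α g`, the error is
`ε ∫ η (pds α' P)² + K/ε ∫ η f²`, and `|pds α' P| ≤ C (1 + Y)` (`dp_pds`, `DP.bound2`), where `Y x` bounds the derivatives of `w` of order `≤ k + 2` at `x`, e.g.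
`Y x = B' + √(∑_{j ≤ k+2} ∑_β (pds β g x)²)`. `dp_main`: `pds α P = ∑ Φᵢⱼ ∂ᵢ∂ⱼ (pds α w₀ + G) + R`, `|R| ≤ C (1 + Y)`.
`ibp_eta`: `∫ η G Φᵢⱼ ∂ᵢ∂ⱼ G = -∫ η Φᵢⱼ ∂ᵢG ∂ⱼG - ∫ (∂ᵢη Φᵢⱼ + η ∂ᵢΦᵢⱼ) G ∂ⱼG`; `∂ᵢΦᵢⱼ` is bounded (`DP.pd`, `DP.bound1`), ellipticity gives
`-lam ∫ η |DG|²`. Summing over `α` the good term is `-lam En (k+2) a g` (`En_succ`); absorb, and use `En_J` for the orders `≤ k + 1`.
`cbF_op`: all derivatives of `P` are bounded (`dp_pds`, `DP.bound1`, `CbF.ord`).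
-/

set_option autoImplicit false

open MeasureTheory Set Filter
open scoped ContDiff Topology

noncomputable section

namespace Crest.Agent.R238.P

variable {n : ℕ}

theorem cbF_op {T : Set ℝ} {Φ : X n → ℝ} (h : Sym T Φ) {t : ℝ} (ht : t ∈ T) {w : E n → ℝ} (hw : CbF 2 w) :
    CbF 0 (op Φ t w) := by
  refine ⟨sm_op h.sm t hw.sm, fun l _ => ?_⟩
  obtain ⟨B, -, hB⟩ := hw.ord (l.length + 2)
  obtain ⟨C, -, hC⟩ := (dp_pds h l).bound1 B
  exact ⟨C, hC t ht w hw.sm (hB.mono (by norm_num) le_rfl le_rfl)⟩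

theorem pena_pd {f : E n → ℝ} (hf : CbF 0 f) (i : Fin n) : CbF 0 (pd i f) := hf.pds0 [i]

theorem pena_sq {f : E n → ℝ} (hf : CbF 0 f) : CbF 0 fun x => f x ^ 2 := by
  simpa only [sq] using hf.mul hf

theorem pena_int {f : E n → ℝ} (hf : CbF 0 f) (a : E n) (i : Fin n) :
    Integrable fun x => pd i (eta a) x * f x := by
  refine ((hf.integrable_eta a).norm.const_mul ((n : ℝ) + 1)).mono'
    ((((cbF_eta a).sm.pd i).continuous.mul hf.sm.continuous).aestronglyMeasurable) (Eventually.of_forall fun x => ?_)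
  rw [Real.norm_eq_abs, Real.norm_eq_abs, abs_mul, abs_mul, abs_of_pos (eta_pos a x), ← mul_assoc]
  exact mul_le_mul_of_nonneg_right (abs_pd_eta a x i) (abs_nonneg _)

theorem pena_young {c : ℝ} (hc : 0 < c) (u v : ℝ) : u * v ≤ c * u ^ 2 + 1 / (4 * c) * v ^ 2 := by
  have h : c * u ^ 2 + 1 / (4 * c) * v ^ 2 - u * v = (2 * c * u - v) ^ 2 / (4 * c) := by
    field_simp
    ring
  have : 0 ≤ (2 * c * u - v) ^ 2 / (4 * c) := by positivity
  linarith

theorem pena_alg {lam e CA G U ε : ℝ} (hl : 0 < lam) (hε : 0 < ε) (he : 0 < e) {d ξ : Fin n → ℝ} {A D : Mat n}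
    (hd : ∀ i, |d i| ≤ (n + 1) * e) (hA : ∀ i j, |A i j| ≤ CA) (hD : ∀ i j, |D i j| ≤ CA) (hlo : Lo lam A) :
    -(∑ i, ∑ j, (d i * (G * A i j) + e * (ξ i * A i j + G * D i j)) * ξ j) + e * (G * U) ≤
      -(lam / 2) * (∑ j, e * ξ j ^ 2) + (n ^ 2 * ((n + 1) / (2 * lam) * ((n + 2) * CA) ^ 2) + 1 / (4 * ε)) * (e * G ^ 2) +
        ε * (e * U ^ 2) := by
  have c0 : 0 < lam / (2 * ((n : ℝ) + 1)) := by positivity
  have e1 : ∑ i, ∑ j, (d i * (G * A i j) + e * (ξ i * A i j + G * D i j)) * ξ j =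
      e * qf A ξ + ∑ i, ∑ j, (d i * A i j + e * D i j) * G * ξ j := by
    simp only [qf, Finset.mul_sum, ← Finset.sum_add_distrib]
    exact Finset.sum_congr rfl fun i _ => Finset.sum_congr rfl fun j _ => by ring
  have e2 : ∀ i j, -((d i * A i j + e * D i j) * G * ξ j) ≤
      lam / (2 * ((n : ℝ) + 1)) * (e * ξ j ^ 2) + (n + 1) / (2 * lam) * ((n + 2) * CA) ^ 2 * (e * G ^ 2) := by
    intro i j
    have h1 : |d i * A i j + e * D i j| ≤ e * ((n + 2) * CA) := by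
      refine (abs_add_le _ _).trans ?_
      rw [abs_mul, abs_mul, abs_of_pos he]
      have a1 := mul_le_mul (hd i) (hA i j) (abs_nonneg _) (by positivity)
      have a2 := mul_le_mul_of_nonneg_left (hD i j) he.le
      linarith
    have h2 : -((d i * A i j + e * D i j) * G * ξ j) ≤ e * (|ξ j| * ((n + 2) * CA * |G|)) := by
      refine (neg_le_abs _).trans ?_
      rw [abs_mul, abs_mul]
      have := mul_le_mul_of_nonneg_right h1 (mul_nonneg (abs_nonneg G) (abs_nonneg (ξ j)))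
      linarith
    have h3 := mul_le_mul_of_nonneg_left (pena_young c0 |ξ j| ((n + 2) * CA * |G|)) he.le
    rw [mul_pow, sq_abs, sq_abs] at h3
    have e3 : 1 / (4 * (lam / (2 * ((n : ℝ) + 1)))) = (n + 1) / (2 * lam) := by
      field_simp
      ring
    rw [e3] at h3
    linarith
  have e4 : -(∑ i, ∑ j, (d i * A i j + e * D i j) * G * ξ j) ≤
      n * (lam / (2 * ((n : ℝ) + 1)) * ∑ j, e * ξ j ^ 2) +
        n ^ 2 * ((n + 1) / (2 * lam) * ((n + 2) * CA) ^ 2) * (e * G ^ 2) := by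
    rw [← Finset.sum_neg_distrib]
    refine (Finset.sum_le_sum fun i _ => (Finset.sum_neg_distrib _).symm.le.trans
      (Finset.sum_le_sum fun j _ => e2 i j)).trans (le_of_eq ?_)
    simp only [Finset.sum_add_distrib, Finset.sum_const, Finset.card_univ, Fintype.card_fin, nsmul_eq_mul,
      ← Finset.mul_sum]
    ring
  have N0 : 0 ≤ ∑ j, e * ξ j ^ 2 := Finset.sum_nonneg fun j _ => by positivity
  have e5 : n * (lam / (2 * ((n : ℝ) + 1)) * ∑ j, e * ξ j ^ 2) ≤ lam / 2 * ∑ j, e * ξ j ^ 2 := by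
    rw [← mul_assoc]
    refine mul_le_mul_of_nonneg_right ?_ N0
    rw [← mul_div_assoc, div_le_div_iff₀ (by positivity) (by positivity)]
    nlinarith
  have e6 : lam * ∑ j, e * ξ j ^ 2 ≤ e * qf A ξ := by
    have := mul_le_mul_of_nonneg_left (hlo ξ) he.le
    rw [← Finset.mul_sum]
    unfold n2 at this
    linarith
  have e7 := mul_le_mul_of_nonneg_left (pena_young hε U G) he.le
  rw [e1]
  nlinarith

/-- the elliptic estimate for one derivative -/
theorem pena_one {lam CA ε : ℝ} (hl : 0 < lam) (hε : 0 < ε) {G U : E n → ℝ} {A : Fin n → Fin n → E n → ℝ}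
    (hG : CbF 0 G) (hU : CbF 0 U) (hA : ∀ i j, CbF 0 (A i j)) (b1 : ∀ i j x, |A i j x| ≤ CA)
    (b2 : ∀ i j x, |pd i (A i j) x| ≤ CA) (hlo : ∀ x, Lo lam fun i j => A i j x) (a : E n) :
    ∫ x, eta a x * (G x * ((∑ i, ∑ j, A i j x * pd i (pd j G) x) + U x)) ≤
      -(lam / 2) * (∑ j, ∫ x, eta a x * pd j G x ^ 2) +
        (n ^ 2 * ((n + 1) / (2 * lam) * ((n + 2) * CA) ^ 2) + 1 / (4 * ε)) * (∫ x, eta a x * G x ^ 2) +
        ε * ∫ x, eta a x * U x ^ 2 := by
  have i1 : ∀ i j, Integrable fun x => eta a x * (G x * A i j x) * pd i (pd j G) x := fun i j => by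
    simpa only [mul_assoc] using ((hG.mul (hA i j)).mul (pena_pd (pena_pd hG j) i)).integrable_eta a
  have i2 : ∀ i j, Integrable fun x => (pd i (eta a) x * (G x * A i j x) +
      eta a x * pd i (fun y => G y * A i j y) x) * pd j G x := fun i j => by
    have h1 := pena_int ((hG.mul (hA i j)).mul (pena_pd hG j)) a i
    have h2 := ((pena_pd (hG.mul (hA i j)) i).mul (pena_pd hG j)).integrable_eta a
    refine (h1.add h2).congr (Eventually.of_forall fun x => ?_)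
    simp only [Pi.add_apply]
    ring
  have i3 : Integrable fun x => eta a x * (G x * U x) := (hG.mul hU).integrable_eta a
  have i4 : ∀ j, Integrable fun x => eta a x * pd j G x ^ 2 := fun j => (pena_sq (pena_pd hG j)).integrable_eta a
  have i5 : Integrable fun x => eta a x * G x ^ 2 := (pena_sq hG).integrable_eta a
  have i6 : Integrable fun x => eta a x * U x ^ 2 := (pena_sq hU).integrable_eta a
  have s1 := integrable_finsetSum Finset.univ fun i _ => integrable_finsetSum Finset.univ fun j _ => i1 i j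
  have s2 := integrable_finsetSum Finset.univ fun i _ => integrable_finsetSum Finset.univ fun j _ => i2 i j
  have s4 := integrable_finsetSum Finset.univ fun j _ => i4 j
  have e1 : ∫ x, eta a x * (G x * ((∑ i, ∑ j, A i j x * pd i (pd j G) x) + U x)) =
      ∫ x, (-(∑ i, ∑ j, (pd i (eta a) x * (G x * A i j x) +
        eta a x * pd i (fun y => G y * A i j y) x) * pd j G x) + eta a x * (G x * U x)) := by
    rw [integral_add s2.fun_neg i3, integral_neg,
      integral_finsetSum _ fun i _ => integrable_finsetSum Finset.univ fun j _ => i2 i j]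
    simp only [integral_finsetSum _ fun j _ => i2 _ j]
    simp only [← Finset.sum_neg_distrib, ← ibp_eta (hG.mul (hA _ _)) (pena_pd hG _)]
    simp only [← integral_finsetSum _ fun j _ => i1 _ j]
    rw [← integral_finsetSum _ fun i _ => integrable_finsetSum Finset.univ fun j _ => i1 i j, ← integral_add s1 i3]
    refine integral_congr_ae (Eventually.of_forall fun x => ?_)
    simp only [mul_add, Finset.mul_sum, mul_assoc]
  rw [e1, ← integral_finsetSum _ fun j _ => i4 j, ← integral_const_mul, ← integral_const_mul, ← integral_const_mul,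
    ← integral_add (s4.const_mul _) (i5.const_mul _),
    ← integral_add ((s4.const_mul _).fun_add (i5.const_mul _)) (i6.const_mul _)]
  refine integral_mono (s2.fun_neg.fun_add i3)
    (((s4.const_mul _).fun_add (i5.const_mul _)).fun_add (i6.const_mul _)) fun x => ?_
  simp only [pd_mul hG.sm (hA _ _).sm]
  exact pena_alg hl hε (eta_pos a x) (abs_pd_eta a x) (fun i j => b1 i j x) (fun i j => b2 i j x) (hlo x)

/-- the sum of the squares of the derivatives -/
def penaS (K : ℕ) (g : E n → ℝ) (x : E n) : ℝ :=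
  ∑ j ∈ Finset.range K, ∑ β : Fin j → Fin n, pds (List.ofFn β) g x ^ 2

theorem penaS_nonneg (K : ℕ) (g : E n → ℝ) (x : E n) : 0 ≤ penaS K g x :=
  Finset.sum_nonneg fun _ _ => Finset.sum_nonneg fun _ _ => sq_nonneg _

theorem penaS_cb (K : ℕ) {g : E n → ℝ} (hg : CbF 0 g) : CbF 0 (penaS K g) :=
  CbF.sum _ fun _ _ => CbF.sum _ fun _ _ => pena_sq (hg.pds0 _)

theorem penaS_le {K : ℕ} (g : E n → ℝ) (x : E n) {l : List (Fin n)} (hl : l.length < K) :
    |pds l g x| ≤ √(penaS K g x) := by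
  refine Real.abs_le_sqrt ?_
  refine le_trans ?_ (Finset.single_le_sum (f := fun j => ∑ β : Fin j → Fin n, pds (List.ofFn β) g x ^ 2)
    (fun _ _ => Finset.sum_nonneg fun _ _ => sq_nonneg _) (Finset.mem_range.2 hl))
  refine le_trans ?_ (Finset.single_le_sum (f := fun β : Fin l.length → Fin n => pds (List.ofFn β) g x ^ 2)
    (fun _ _ => sq_nonneg _) (Finset.mem_univ l.get))
  rw [List.ofFn_get]

theorem penaS_int (K : ℕ) {g : E n → ℝ} (hg : CbF 0 g) (a : E n) :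
    ∫ x, eta a x * (1 + penaS K g x) = (∫ x, eta (0 : E n) x) + ∑ j ∈ Finset.range K, En j a g := by
  have i1 : ∀ (j : ℕ) (β : Fin j → Fin n), Integrable fun x => eta a x * pds (List.ofFn β) g x ^ 2 := fun j β =>
    (pena_sq (hg.pds0 _)).integrable_eta a
  simp only [mul_add, mul_one]
  rw [integral_add (integrable_eta a) ((penaS_cb K hg).integrable_eta a), integral_eta]
  congr 1
  simp only [penaS, Finset.mul_sum, En]
  rw [integral_finsetSum _ fun j _ => integrable_finsetSum _ fun β _ => i1 j β]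
  exact Finset.sum_congr rfl fun j _ => integral_finsetSum _ fun β _ => i1 j β

theorem pena_sq_le {u C b S : ℝ} (hS : 0 ≤ S) (h : |u| ≤ C * (1 + (b + √S))) :
    u ^ 2 ≤ C ^ 2 * (2 * (1 + b) ^ 2 + 2) * (1 + S) := by
  have h1 : u ^ 2 ≤ (C * (1 + (b + √S))) ^ 2 := by
    rw [← sq_abs u]
    exact pow_le_pow_left₀ (abs_nonneg _) h 2
  have h2 : (1 + (b + √S)) ^ 2 ≤ (2 * (1 + b) ^ 2 + 2) * (1 + S) := by
    have h3 := Real.sq_sqrt hS
    have h4 := mul_nonneg (sq_nonneg (1 + b)) hS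
    nlinarith [sq_nonneg (1 + b - √S)]
  rw [mul_pow] at h1
  have := mul_le_mul_of_nonneg_left h2 (sq_nonneg C)
  linarith

theorem pena_int_le {u g : E n → ℝ} {K : ℕ} {C : ℝ} (hu : CbF 0 u) (hg : CbF 0 g) (a : E n)
    (h : ∀ x, u x ^ 2 ≤ C * (1 + penaS K g x)) :
    ∫ x, eta a x * u x ^ 2 ≤ C * ((∫ x, eta (0 : E n) x) + ∑ j ∈ Finset.range K, En j a g) := by
  rw [← penaS_int K hg a, ← integral_const_mul]
  refine integral_mono ((pena_sq hu).integrable_eta a)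
    ((((cbF_const 0 1).add (penaS_cb K hg)).integrable_eta a).const_mul C) fun x => ?_
  have := mul_le_mul_of_nonneg_left (h x) (eta_pos a x).le
  simp only
  linarith

/-- finitely many constants -/
theorem pena_unif {ι : Type*} [Fintype ι] {p : ι → ℝ → Prop} (h : ∀ i, ∃ C, 0 ≤ C ∧ p i C) :
    ∃ C, 0 ≤ C ∧ ∀ i, ∃ C', 0 ≤ C' ∧ C' ≤ C ∧ p i C' := by
  choose C h0 h1 using h
  exact ⟨∑ i, C i, Finset.sum_nonneg fun i _ => h0 i, fun i =>
    ⟨C i, h0 i, Finset.single_le_sum (fun i _ => h0 i) (Finset.mem_univ i), h1 i⟩⟩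

theorem energy_static {T : Set ℝ} {Φ : X n → ℝ} (hΦ : Sym T Φ) {lam : ℝ} (hl : 0 < lam) (r : ℝ) (k m : ℕ)
    (hm : k + 3 < 2 * m) (hm3 : 3 ≤ m) (B : ℝ) :
    ∃ C, 0 ≤ C ∧ ∀ δ : ℝ, 0 < δ → δ ≤ 1 → ∀ w₀ h : E n → ℝ, CbF 2 w₀ → CbF 0 h →
      Ord 2 (max m (k + 3)) B w₀ → Ord 2 m B (J δ h) → (∀ x, ‖hs (J δ h) x‖ ≤ r) → ∀ t ∈ T,
      Ell {t} Φ lam r w₀ → ∀ a : E n,
      ∑ α : Fin (k + 1) → Fin n, ∫ x, eta a x * (pds (List.ofFn α) h x * pds (List.ofFn α) (mop δ Φ w₀ t h) x) ≤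
        C * (1 + ∑ j ∈ Finset.range (k + 2), En j a h) := by
  obtain ⟨K, K0, hK⟩ := friedrichs n
  -- constants
  obtain ⟨CA1, CA10, hA1⟩ := pena_unif fun p : Fin n × Fin n => (hΦ.dm p.1 p.2).bdd
  obtain ⟨CA2, CA20, hA2⟩ := pena_unif fun p : Fin n × Fin n =>
    ((DP.base (r := 0) (hΦ.dm p.1 p.2)).pd p.1).bound1 (B + B)
  obtain ⟨CQ, CQ0, hQ⟩ := pena_unif fun α : Fin k → Fin n =>
    (dp_pds hΦ (List.ofFn α)).bound2 (m := m) (by rw [List.length_ofFn]; omega) (B + B)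
  choose R hR hRe using fun p : Fin n × (Fin k → Fin n) => dp_main hΦ p.1 (List.ofFn p.2)
  obtain ⟨CR, CR0, hRb⟩ := pena_unif fun p : Fin n × (Fin k → Fin n) =>
    (hR p).bound2 (m := m) (by rw [List.length_ofFn]; omega) (B + B)
  obtain ⟨CA, hCA⟩ : ∃ CA, CA = CA1 + CA2 := ⟨_, rfl⟩
  have CA0 : 0 ≤ CA := by rw [hCA]; positivity
  obtain ⟨DB, hDB⟩ : ∃ DB, DB = 2 * (1 + |B|) ^ 2 + 2 := ⟨_, rfl⟩
  have DB0 : 0 < DB := by rw [hDB]; positivity
  obtain ⟨CU, hCU⟩ : ∃ CU, CU = (n : ℝ) ^ 2 * (CA * |B|) + CR := ⟨_, rfl⟩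
  have CU0 : 0 ≤ CU := by rw [hCU]; positivity
  obtain ⟨N, hN⟩ : ∃ N : ℝ, N = (n : ℝ) ^ (k + 1) * ((CU ^ 2 + CQ ^ 2) * DB) := ⟨_, rfl⟩
  have N0 : 0 ≤ N := by rw [hN]; positivity
  obtain ⟨ε, hε⟩ : ∃ ε, ε = lam / (2 * (N + 1)) := ⟨_, rfl⟩
  have ε0 : 0 < ε := by rw [hε]; positivity
  have εN : ε * N ≤ lam / 2 := by
    rw [hε, div_mul_eq_mul_div, div_le_div_iff₀ (by positivity) (by positivity)]
    nlinarith
  obtain ⟨C3, hC3⟩ : ∃ C3 : ℝ, C3 = n ^ 2 * ((n + 1) / (2 * lam) * ((n + 2) * CA) ^ 2) + 1 / (4 * ε) := ⟨_, rfl⟩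
  have C30 : 0 ≤ C3 := by rw [hC3]; positivity
  obtain ⟨I0, hI0⟩ : ∃ I0, I0 = ∫ x, eta (0 : E n) x := ⟨_, rfl⟩
  have I00 : 0 ≤ I0 := by rw [hI0]; exact integral_nonneg fun x => (eta_pos _ x).le
  refine ⟨ε * N * I0 + (ε * N * 3 ^ (n + 1) + C3 * 3 ^ (n + 1) + K / ε), by positivity,
    fun δ hδ hδ1 w₀ h hw₀ hh o₀ og hr t ht hell a => ?_⟩
  have hg : CbF 0 (J δ h) := hh.J hδ
  obtain ⟨g, hgd⟩ : ∃ g, g = J δ h := ⟨_, rfl⟩
  have hJ : ∀ l, J δ (pds l h) = pds l g := fun l => by rw [hgd, pds_J hδ hh.sm]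
  have hEJ : ∀ j, En j a g ≤ 3 ^ (n + 1) * En j a h := fun j => by rw [hgd]; exact En_J hδ hδ1 hh j a
  have hmop : mop δ Φ w₀ t h = J δ (op Φ t fun x => w₀ x + g x) := by rw [hgd]; rfl
  rw [← hgd] at hg og hr
  obtain ⟨w, hwd⟩ : ∃ w : E n → ℝ, w = fun x => w₀ x + g x := ⟨_, rfl⟩
  rw [← hwd] at hmop
  have hw : CbF 2 w := by rw [hwd]; exact hw₀.add (hg.mono (by norm_num))
  have hpw : ∀ l x, pds l w x = pds l w₀ x + pds l g x := fun l x => by rw [hwd, pds_add hw₀.sm hg.sm]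
  have ow : Ord 3 m (B + B) w := fun l h1 h2 x => by
    rw [hpw]
    exact (abs_add_le _ _).trans (add_le_add (o₀ l (by omega) (h2.trans (le_max_left _ _)) x) (og l (by omega) h2 x))
  have oY : ∀ x (l : List (Fin n)), m < l.length → l.length ≤ k + 2 → |pds l w x| ≤ |B| + √(penaS (k + 3) g x) :=
    fun x l h1 h2 => by
      rw [hpw]
      exact (abs_add_le _ _).trans (add_le_add ((o₀ l (by omega) (by omega) x).trans (le_abs_self B))
        (penaS_le g x (by omega)))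
  have hP : CbF 0 (op Φ t w) := cbF_op hΦ ht hw
  have hA : ∀ i j, CbF 0 (op (dm i j Φ) t w) := fun i j => cbF_op (hΦ.dm i j) ht hw
  have b1 : ∀ i j x, |op (dm i j Φ) t w x| ≤ CA := fun i j x => by
    obtain ⟨C', -, h1, h2⟩ := hA1 (i, j)
    exact (h2 t ht x _).trans (by linarith)
  have b2 : ∀ i j x, |pd i (op (dm i j Φ) t w) x| ≤ CA := fun i j x => by
    obtain ⟨C', -, h1, h2⟩ := hA2 (i, j)
    exact (h2 t ht w hw.sm (ow.mono le_rfl (by omega) le_rfl) x).trans (by linarith)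
  have hlo : ∀ x, Lo lam fun i j => op (dm i j Φ) t w x := fun x => by
    refine hell t rfl x (hs w x) ?_
    have : hs w x - hs w₀ x = hs g x := by
      funext i j
      have := hpw [i, j] x
      simp only [pds] at this
      simp only [Pi.sub_apply, hs, this]
      ring
    rw [this]
    exact hr x
  obtain ⟨Z, hZ⟩ : ∃ Z, Z = I0 + ∑ j ∈ Finset.range (k + 3), En j a g := ⟨_, rfl⟩
  have key : ∀ α : Fin (k + 1) → Fin n,
      ∫ x, eta a x * (pds (List.ofFn α) h x * pds (List.ofFn α) (mop δ Φ w₀ t h) x) ≤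
        -(lam / 2) * (∑ j, ∫ x, eta a x * pd j (pds (List.ofFn α) g) x ^ 2) +
          C3 * (∫ x, eta a x * pds (List.ofFn α) g x ^ 2) + K / ε * (∫ x, eta a x * pds (List.ofFn α) h x ^ 2) +
          ε * ((CU ^ 2 + CQ ^ 2) * DB * Z) := by
    intro α
    obtain ⟨i, hi⟩ : ∃ i, i = α 0 := ⟨_, rfl⟩
    obtain ⟨α', hα'⟩ : ∃ α' : Fin k → Fin n, α' = fun j => α j.succ := ⟨_, rfl⟩
    have hα : List.ofFn α = i :: List.ofFn α' := by rw [hi, hα', List.ofFn_succ]
    have hG : CbF 0 (pds (List.ofFn α) g) := hg.pds0 _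
    have hQc : CbF 0 (pds (List.ofFn α') (op Φ t w)) := hP.pds0 _
    have f1 := hK δ hδ hδ1 _ _ (hh.pds0 (List.ofFn α)) hQc a i ε ε0
    rw [hJ] at f1
    obtain ⟨U, hU⟩ : ∃ U : E n → ℝ, U = fun x => pd i (pds (List.ofFn α') (op Φ t w)) x -
      ∑ p, ∑ q, op (dm p q Φ) t w x * pd p (pd q (pds (List.ofFn α) g)) x := ⟨_, rfl⟩
    have hUc : CbF 0 U := by
      rw [hU]
      exact (pena_pd hQc i).sub (CbF.sum _ fun p _ => CbF.sum _ fun q _ => (hA p q).mul (pena_pd (pena_pd hG q) p))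
    have f2 := pena_one hl ε0 hG hUc hA b1 b2 hlo a
    rw [← hC3] at f2
    have f3 : ∫ x, eta a x * pds (List.ofFn α') (op Φ t w) x ^ 2 ≤ CQ ^ 2 * DB * Z := by
      rw [hZ, hI0]
      refine pena_int_le hQc hg a fun x => ?_
      obtain ⟨C', h0, h1, h2⟩ := hQ α'
      rw [hDB]
      refine pena_sq_le (penaS_nonneg _ _ _) ((h2 t ht w hw.sm ow x _ (by positivity) fun l h3 h4 =>
        oY x l h3 (by rwa [List.length_ofFn] at h4)).trans ?_)
      exact mul_le_mul_of_nonneg_right h1 (by positivity)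
    have f4 : ∫ x, eta a x * U x ^ 2 ≤ CU ^ 2 * DB * Z := by
      rw [hZ, hI0]
      refine pena_int_le hUc hg a fun x => ?_
      obtain ⟨C', h0, h1, h2⟩ := hRb (i, α')
      rw [hDB]
      refine pena_sq_le (penaS_nonneg _ _ _) ?_
      have e1 : U x = (∑ p, ∑ q, op (dm p q Φ) t w x * pds (p :: q :: List.ofFn α) w₀ x) + R (i, α') t w x := by
        have e2 := hRe (i, α') t w hw.sm x
        simp only at e2
        rw [← hα] at e2
        have e3 : ∀ p q, pd p (pd q (pds (List.ofFn α) w)) x =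
            pds (p :: q :: List.ofFn α) w₀ x + pd p (pd q (pds (List.ofFn α) g)) x := fun p q =>
          hpw (p :: q :: List.ofFn α) x
        simp only [e3, mul_add, Finset.sum_add_distrib] at e2
        rw [hU]
        have e4 : pd i (pds (List.ofFn α') (op Φ t w)) = pds (List.ofFn α) (op Φ t w) := by rw [hα]; rfl
        simp only [e4]
        linarith
      have h3 := h2 t ht w hw.sm ow x _ (by positivity) fun l h3 h4 => oY x l h3 (by rwa [List.length_ofFn] at h4)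
      have h4 : |∑ p, ∑ q, op (dm p q Φ) t w x * pds (p :: q :: List.ofFn α) w₀ x| ≤ (n : ℝ) ^ 2 * (CA * |B|) := by
        refine (Finset.abs_sum_le_sum_abs _ _).trans ((Finset.sum_le_sum fun p _ =>
          (Finset.abs_sum_le_sum_abs _ _).trans (Finset.sum_le_sum (g := fun _ => CA * |B|) fun q _ => ?_)).trans
            (le_of_eq ?_))
        · rw [abs_mul]
          refine mul_le_mul (b1 p q x) ((o₀ _ ?_ ?_ x).trans (le_abs_self B)) (abs_nonneg _) CA0
          · simp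
          · simp
        · simp only [Finset.sum_const, Finset.card_univ, Fintype.card_fin, nsmul_eq_mul]
          ring
      have h5 : 0 ≤ |B| + √(penaS (k + 3) g x) := by positivity
      have h6 : 0 ≤ (n : ℝ) ^ 2 * (CA * |B|) := by positivity
      rw [e1, hCU]
      refine (abs_add_le _ _).trans ?_
      have h7 := mul_le_mul_of_nonneg_right h1 (show 0 ≤ 1 + (|B| + √(penaS (k + 3) g x)) by linarith)
      have h8 := mul_nonneg h6 h5
      linarith
    have e5 : ∫ x, eta a x * (pds (List.ofFn α) h x * pds (List.ofFn α) (mop δ Φ w₀ t h) x) =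
        ∫ x, eta a x * pds (List.ofFn α) h x * J δ (pd i (pds (List.ofFn α') (op Φ t w))) x := by
      rw [hmop, pds_J hδ hP.sm]
      simp only [mul_assoc]
      rw [hα]
      rfl
    have e6 : ∫ x, eta a x * pds (List.ofFn α) g x * pd i (pds (List.ofFn α') (op Φ t w)) x =
        ∫ x, eta a x * (pds (List.ofFn α) g x * ((∑ p, ∑ q, op (dm p q Φ) t w x *
          pd p (pd q (pds (List.ofFn α) g)) x) + U x)) := by
      refine integral_congr_ae (Eventually.of_forall fun x => ?_)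
      simp only [hU]
      ring
    rw [e5]
    rw [e6] at f1
    have f5 := mul_le_mul_of_nonneg_left f3 ε0.le
    have f6 := mul_le_mul_of_nonneg_left f4 ε0.le
    linarith
  refine (Finset.sum_le_sum fun α _ => key α).trans ?_
  simp only [Finset.sum_add_distrib, ← Finset.mul_sum, Finset.sum_const, Finset.card_univ, Fintype.card_fun,
    Fintype.card_fin, nsmul_eq_mul]
  rw [← En_succ]
  change -(lam / 2) * En (k + 1 + 1) a g + C3 * En (k + 1) a g + K / ε * En (k + 1) a h + _ ≤ _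
  obtain ⟨S, hS⟩ : ∃ S, S = ∑ j ∈ Finset.range (k + 2), En j a h := ⟨_, rfl⟩
  have S0 : 0 ≤ S := by rw [hS]; exact Finset.sum_nonneg fun j _ => En_nonneg j a h
  have S1 : En (k + 1) a h ≤ S := by
    rw [hS]
    exact Finset.single_le_sum (f := fun j => En j a h) (fun j _ => En_nonneg j a h) (Finset.mem_range.2 (by omega))
  have S2 : Z ≤ I0 + (3 ^ (n + 1) * S + En (k + 1 + 1) a g) := by
    rw [hZ, Finset.sum_range_succ, hS, Finset.mul_sum]
    exact add_le_add le_rfl (add_le_add (Finset.sum_le_sum fun j _ => hEJ j) le_rfl)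
  have S3 : En (k + 1) a g ≤ 3 ^ (n + 1) * S := (hEJ _).trans (mul_le_mul_of_nonneg_left S1 (by positivity))
  have e7 : ε * (((n ^ (k + 1) : ℕ) : ℝ) * ((CU ^ 2 + CQ ^ 2) * DB * Z)) = ε * N * Z := by
    rw [hN]
    push_cast
    ring
  have m0 : 0 ≤ ε * N := by positivity
  have m1 := mul_le_mul_of_nonneg_left S2 m0
  have m2 := mul_le_mul_of_nonneg_right εN (En_nonneg (k + 1 + 1) a g)
  have m3 := mul_le_mul_of_nonneg_left S3 C30
  have m4 := mul_le_mul_of_nonneg_left S1 (show 0 ≤ K / ε by positivity)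
  have m5 : 0 ≤ ε * N * I0 * S := by positivity
  have m6 : 0 ≤ ε * N * 3 ^ (n + 1) + C3 * 3 ^ (n + 1) + K / ε := by positivity
  rw [← hS]
  nlinarith [e7]

/-- order zero: `mop` is bounded -/
theorem energy_static0 {T : Set ℝ} {Φ : X n → ℝ} (hΦ : Sym T Φ) :
    ∃ C, 0 ≤ C ∧ ∀ δ : ℝ, 0 < δ → ∀ w₀ h : E n → ℝ, CbF 2 w₀ → CbF 0 h → ∀ t ∈ T, ∀ a : E n,
      ∑ α : Fin 0 → Fin n, ∫ x, eta a x * (pds (List.ofFn α) h x * pds (List.ofFn α) (mop δ Φ w₀ t h) x) ≤
        C * (1 + En 0 a h) := by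
  obtain ⟨C, C0, hC⟩ := hΦ.bdd
  have I0 : 0 ≤ ∫ x, eta (0 : E n) x := integral_nonneg fun x => (eta_pos _ x).le
  refine ⟨1 + C ^ 2 * ∫ x, eta (0 : E n) x, by positivity, fun δ hδ w₀ h hw₀ hh t ht a => ?_⟩
  have hM : CbF 0 (mop δ Φ w₀ t h) := (cbF_op hΦ ht (hw₀.add ((hh.J hδ).mono (by norm_num)))).J hδ
  have hb : ∀ x, |mop δ Φ w₀ t h x| ≤ C := fun x => abs_J_le hδ (fun y => hC t ht y _) x
  have E0 := En_nonneg 0 a h
  have e1 : En 0 a h = ∫ x, eta a x * h x ^ 2 := by simp [En, pds]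
  have e2 : ∫ x, eta a x * (h x * mop δ Φ w₀ t h x) ≤ ∫ x, (eta a x * h x ^ 2 + C ^ 2 * eta a x) := by
    refine integral_mono ((hh.mul hM).integrable_eta a)
      (((pena_sq hh).integrable_eta a).add ((integrable_eta a).const_mul _)) fun x => ?_
    have h1 : mop δ Φ w₀ t h x ^ 2 ≤ C ^ 2 := by
      rw [← sq_abs]
      exact pow_le_pow_left₀ (abs_nonneg _) (hb x) 2
    have h2 : h x * mop δ Φ w₀ t h x ≤ h x ^ 2 + C ^ 2 := by
      nlinarith [sq_nonneg (h x - mop δ Φ w₀ t h x), sq_nonneg (h x), sq_nonneg C]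
    have := mul_le_mul_of_nonneg_left h2 (eta_pos a x).le
    simp only
    linarith
  rw [integral_add ((pena_sq hh).integrable_eta a) ((integrable_eta a).const_mul _), integral_const_mul,
    integral_eta, ← e1] at e2
  have e3 : ∑ α : Fin 0 → Fin n, ∫ x, eta a x * (pds (List.ofFn α) h x * pds (List.ofFn α) (mop δ Φ w₀ t h) x) =
      ∫ x, eta a x * (h x * mop δ Φ w₀ t h x) := by simp [pds]
  rw [e3]
  have := mul_nonneg (mul_nonneg (sq_nonneg C) I0) E0
  nlinarith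

end Crest.Agent.R238.P
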