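import Crest.Agent.R238.PConv
import Crest.Agent.R238.PDP

/-!
# R238 / PMoll

The mollified problem. Banach fixed point (`ContractingWith.exists_fixedPoint`/`fixedPoint`) in
`BoundedContinuousFunction (Icc a b × E n) ℝ` (or `ℝ × E n` after clamping the time with `projIcc`) for
`k ↦ e^{-Λ(t-a)} ∫_a^t J δ (P s) x ds`, `P s y = Φ (s, y, hs w₀ y + fun i j => e^{Λ(s-a)} cv (pds [i,j] ρ_δ) (k s) y)`; `Sym.bdd`, `Sym.lip`, `abs_cv_le`,
`continuousOn_cv`; contraction for large `Λ`. For the fixed point `h`: `h t = cv ρ_δ (fun y => ∫_a^t P s y)` (Fubini), hence smooth,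
`pds l (h t) x = ∫_a^t cv (pds l ρ_δ) (P s) x ds` (`pds_cv_left`, Fubini again), and the fundamental theorem of calculus
(`intervalIntegral.integral_hasDerivWithinAt_right`, or `integral_hasDerivAt_right` after clamping).
-/

set_option autoImplicit false

open MeasureTheory Set Filter
open scoped ContDiff Topology

noncomputable section

namespace Crest.Agent.R238.P

variable {n : ℕ}

theorem exists_msol {Φ : X n → ℝ} {a b : ℝ} (hab : a ≤ b) (hΦ : Sym (Icc a b) Φ) {w₀ : E n → ℝ} (hw : CbF 2 w₀)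
    {δ : ℝ} (hδ : 0 < δ) : ∃ h, MSol δ Φ w₀ a b h := sorry


end Crest.Agent.R238.P
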