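import Crest.Agent.R238.PEnA
import Crest.Agent.R238.PMoll

/-!
# R238 / PEnB

Grönwall and bootstrap.
`hasDerivWithinAt_En`: differentiate under the integral on `Icc a b` (the difference quotients are bounded by the mean value inequality, since
`pds l (mop ..)` is bounded uniformly in `t`: `pds_cv_left`, `abs_cv_le`, `Sym.bdd`; dominated convergence along `𝓝[Icc a b \\ {t}] t`,
`hasDerivWithinAt_iff_tendsto_slope`, `tendsto_integral_filter_of_dominated_convergence`).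
`energy_gronwall`: `y = 1 + ∑_{j ≤ K} En j`, `y' ≤ C y`, `y a = 1`, so `e^{-C(t-a)} y` is antitone.
`boot`: `K₀ = 2n + 4`, `m₀ = n + 4`, `ρ = min r 1`. The set of `t ∈ [a, b]` with `Ord 2 m₀ ρ (h s)` for all `s ∈ [a, t]`: by `energy_gronwall` on `[a, t]`
(restriction of an `MSol`) and `embed'` one gets `Ord 0 m₀ (ρ/2) (h t)` if `C (e^{C τ} - 1) ≤ ρ²/4`; `pds l (h s) x` is Lipschitz in `s` uniformly in `x`; real induction
(`IsClosed.Icc_subset_of_forall_mem_nhdsWithin`, or a supremum argument).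
`unif`: induction on the order: if `Ord 2 m B (h t)` for all `δ, t` with `m ≥ n + 4`, take `K = m + 1 + n` (`K + 2 < 2 m`... use `energy_gronwall` with this `K`:
it needs `K + 2 < 2 m`, i.e. `m > n + 3`), `embed'` gives order `m + 1`. The constants may depend on `w₀`, `a`, `b` but not on `δ`.
-/

set_option autoImplicit false

open MeasureTheory Set Filter
open scoped ContDiff Topology

noncomputable section

namespace Crest.Agent.R238.P

variable {n : ℕ}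

theorem MSol.mono {δ : ℝ} {Φ : X n → ℝ} {w₀ : E n → ℝ} {a b b' : ℝ} {h : ℝ → E n → ℝ} (H : MSol δ Φ w₀ a b h)
    (hb : b' ≤ b) : MSol δ Φ w₀ a b' h := by
  have hs : Icc a b' ⊆ Icc a b := Icc_subset_Icc_right hb
  have hs' : Icc a b' ×ˢ (univ : Set (E n)) ⊆ Icc a b ×ˢ univ := prod_mono hs le_rfl
  exact ⟨⟨fun t ht => H.sol.sm t (hs ht), fun t ht => H.sol.smN t (hs ht),
    fun l hl => (H.sol.bd l hl).imp fun C hC t ht => hC t (hs ht),
    fun l => (H.sol.ct l).mono hs', fun l => (H.sol.ctN l).mono hs',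
    fun l x t ht => (H.sol.dt l x t (hs ht)).mono hs⟩, H.init, fun l => (H.bd l).imp fun C hC t ht => hC t (hs ht)⟩

theorem MSol.cbF {δ : ℝ} {Φ : X n → ℝ} {w₀ : E n → ℝ} {a b : ℝ} {h : ℝ → E n → ℝ} (H : MSol δ Φ w₀ a b h)
    {t : ℝ} (ht : t ∈ Icc a b) : CbF 0 (h t) :=
  ⟨H.sol.sm t ht, fun l _ => (H.bd l).imp fun _ hC => hC t ht⟩

theorem MSol.bdN {δ : ℝ} (hδ : 0 < δ) {Φ : X n → ℝ} {w₀ : E n → ℝ} {a b : ℝ} (hΦ : Sym (Icc a b) Φ) (hw : CbF 2 w₀)
    {h : ℝ → E n → ℝ} (H : MSol δ Φ w₀ a b h) (l : List (Fin n)) :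
    ∃ C, ∀ t ∈ Icc a b, ∀ x, |pds l (mop δ Φ w₀ t (h t)) x| ≤ C := by
  obtain ⟨C, -, hC⟩ := hΦ.bdd
  refine ⟨(∫ y, |pds l (rho δ) y|) * C, fun t ht x => ?_⟩
  have h1 : Sm fun x => w₀ x + J δ (h t) x := hw.sm.add (sm_J hδ (H.sol.sm t ht).continuous)
  have h2 : Sm (op Φ t fun x => w₀ x + J δ (h t) x) := sm_op hΦ.sm t h1
  have h3 : pds l (mop δ Φ w₀ t (h t)) = cv (pds l (rho δ)) (op Φ t fun x => w₀ x + J δ (h t) x) :=
    pds_cv_left (sm_rho δ) (compact_rho hδ) h2.continuous l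
  rw [h3]
  exact abs_cv_le ((sm_rho δ).pds l).continuous (compact_pds (compact_rho hδ) l) (fun y => hC t ht _ _) x

/-- mean value inequality on an interval -/
theorem penb_lip {f f' : ℝ → ℝ} {a b C : ℝ} (hd : ∀ s ∈ Icc a b, HasDerivWithinAt f (f' s) (Icc a b) s)
    (hC : ∀ s ∈ Icc a b, |f' s| ≤ C) {s t : ℝ} (hs : s ∈ Icc a b) (ht : t ∈ Icc a b) :
    |f s - f t| ≤ C * |s - t| :=
  (convex_Icc a b).norm_image_sub_le_of_norm_hasDerivWithin_le hd hC ht hs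

/-- differentiation under the weighted integral -/
theorem penb_deriv {F F' : ℝ → E n → ℝ} {a b C D : ℝ} (x₀ : E n)
    (hd : ∀ x, ∀ s ∈ Icc a b, HasDerivWithinAt (fun s => F s x) (F' s x) (Icc a b) s)
    (hC : ∀ s ∈ Icc a b, ∀ x, |F' s x| ≤ C) (hc : ∀ s ∈ Icc a b, Continuous (F s))
    (hD : ∀ s ∈ Icc a b, ∀ x, |F s x| ≤ D) {t : ℝ} (ht : t ∈ Icc a b) :
    HasDerivWithinAt (fun s => ∫ x, eta x₀ x * F s x) (∫ x, eta x₀ x * F' t x) (Icc a b) t := by
  rw [hasDerivWithinAt_iff_tendsto_slope]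
  have hev : ∀ᶠ s in 𝓝[Icc a b \ {t}] t, s ∈ Icc a b ∧ s ≠ t :=
    Filter.mem_of_superset self_mem_nhdsWithin fun s hs => ⟨hs.1, hs.2⟩
  have hη : Continuous (eta x₀) := (cbF_eta x₀).sm.continuous
  have h1 : Tendsto (fun s => ∫ x, eta x₀ x * slope (fun s => F s x) t s) (𝓝[Icc a b \ {t}] t)
      (𝓝 (∫ x, eta x₀ x * F' t x)) := by
    refine tendsto_integral_filter_of_dominated_convergence (fun x => eta x₀ x * C) ?_ ?_
      ((integrable_eta x₀).mul_const C) ?_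
    · filter_upwards [hev] with s hs
      refine Continuous.aestronglyMeasurable ?_
      simp only [slope_def_field]
      exact hη.mul (((hc s hs.1).sub (hc t ht)).div_const _)
    · filter_upwards [hev] with s hs
      refine Eventually.of_forall fun x => ?_
      rw [Real.norm_eq_abs, abs_mul, abs_of_pos (eta_pos x₀ x)]
      refine mul_le_mul_of_nonneg_left ?_ (eta_pos x₀ x).le
      rw [slope_def_field, abs_div, div_le_iff₀ (abs_pos.2 (sub_ne_zero.2 hs.2))]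
      exact penb_lip (hd x) (fun s hs => hC s hs x) hs.1 ht
    · refine Eventually.of_forall fun x => ?_
      exact (hasDerivWithinAt_iff_tendsto_slope.1 (hd x t ht)).const_mul _
  refine h1.congr' ?_
  filter_upwards [hev] with s hs
  rw [slope_def_field, ← integral_sub (integrable_eta_mul x₀ (hc s hs.1) (hD s hs.1))
    (integrable_eta_mul x₀ (hc t ht) (hD t ht)), ← integral_div]
  refine integral_congr_ae (Eventually.of_forall fun x => ?_)
  simp only [slope_def_field]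
  ring

theorem hasDerivWithinAt_En {δ : ℝ} (hδ : 0 < δ) {Φ : X n → ℝ} {w₀ : E n → ℝ} {a b : ℝ} (hΦ : Sym (Icc a b) Φ)
    (hw : CbF 2 w₀) {h : ℝ → E n → ℝ} (H : MSol δ Φ w₀ a b h) (k : ℕ) (x₀ : E n) {t : ℝ} (ht : t ∈ Icc a b) :
    HasDerivWithinAt (fun s => En k x₀ (h s)) (2 * ∑ α : Fin k → Fin n, ∫ x, eta x₀ x *
      (pds (List.ofFn α) (h t) x * pds (List.ofFn α) (mop δ Φ w₀ t (h t)) x)) (Icc a b) t := by
  have key : ∀ l : List (Fin n), HasDerivWithinAt (fun s => ∫ x, eta x₀ x * pds l (h s) x ^ 2)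
      (2 * ∫ x, eta x₀ x * (pds l (h t) x * pds l (mop δ Φ w₀ t (h t)) x)) (Icc a b) t := by
    intro l
    obtain ⟨C, hC⟩ := H.bdN hδ hΦ hw l
    obtain ⟨D, hD⟩ := H.bd l
    have h1 := penb_deriv (F := fun s x => pds l (h s) x ^ 2)
      (F' := fun s x => 2 * (pds l (h s) x * pds l (mop δ Φ w₀ s (h s)) x)) (C := 2 * (D * C)) (D := D ^ 2) x₀
      (fun x s hs => ((H.sol.dt l x s hs).fun_pow 2).congr_deriv (by push_cast; ring))
      (fun s hs x => by
        rw [abs_mul, abs_mul, abs_two]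
        exact mul_le_mul_of_nonneg_left (mul_le_mul (hD s hs x) (hC s hs x) (abs_nonneg _)
          ((abs_nonneg _).trans (hD s hs x))) zero_le_two)
      (fun s hs => ((H.sol.sm s hs).pds l).continuous.pow 2)
      (fun s hs x => by
        rw [abs_pow]
        exact pow_le_pow_left₀ (abs_nonneg _) (hD s hs x) 2) ht
    refine h1.congr_deriv ?_
    rw [← integral_const_mul]
    refine integral_congr_ae (Eventually.of_forall fun x => ?_)
    simp only
    ring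
  rw [Finset.mul_sum]
  exact HasDerivWithinAt.fun_sum fun α _ => key (List.ofFn α)

/-- Grönwall -/
theorem penb_gronwall {y y' : ℝ → ℝ} {a b C : ℝ} (hd : ∀ s ∈ Icc a b, HasDerivWithinAt y (y' s) (Icc a b) s)
    (hC : ∀ s ∈ Icc a b, y' s ≤ C * y s) {t : ℝ} (ht : t ∈ Icc a b) : y t ≤ Real.exp (C * (t - a)) * y a := by
  have h1 : ∀ s ∈ Icc a b, HasDerivWithinAt (fun s => Real.exp (-(C * (s - a))) * y s)
      (Real.exp (-(C * (s - a))) * (y' s - C * y s)) (Icc a b) s := by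
    intro s hs
    have h2 : HasDerivAt (fun s => Real.exp (-(C * (s - a)))) (Real.exp (-(C * (s - a))) * -(C * 1)) s :=
      (((hasDerivAt_id s).sub_const a).const_mul C).fun_neg.exp
    exact (h2.hasDerivWithinAt.fun_mul (hd s hs)).congr_deriv (by ring)
  have h2 : AntitoneOn (fun s => Real.exp (-(C * (s - a))) * y s) (Icc a b) :=
    antitoneOn_of_hasDerivWithinAt_nonpos (convex_Icc a b) (fun s hs => (h1 s hs).continuousWithinAt)
      (fun s hs => (h1 s (interior_subset hs)).mono interior_subset)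
      (fun s hs => mul_nonpos_of_nonneg_of_nonpos (Real.exp_pos _).le (sub_nonpos.2 (hC s (interior_subset hs))))
  have h3 := h2 (left_mem_Icc.2 (ht.1.trans ht.2)) ht ht.1
  simp only [sub_self, mul_zero, neg_zero, Real.exp_zero, one_mul] at h3
  have h4 := mul_le_mul_of_nonneg_left h3 (Real.exp_pos (C * (t - a))).le
  rwa [← mul_assoc, ← Real.exp_add, add_neg_cancel, Real.exp_zero, one_mul] at h4

theorem penb_En_zero (k : ℕ) (a : E n) : En k a (fun _ => 0) = 0 := by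
  simp [En, pds_zero]

theorem energy_gronwall {T : Set ℝ} {Φ : X n → ℝ} (hΦ : Sym T Φ) {lam : ℝ} (hl : 0 < lam) (r : ℝ) (K m : ℕ)
    (hm : K + 2 < 2 * m) (hm3 : 3 ≤ m) (B : ℝ) :
    ∃ C, 0 ≤ C ∧ ∀ δ : ℝ, 0 < δ → δ ≤ 1 → ∀ (w₀ : E n → ℝ) (a b : ℝ) (h : ℝ → E n → ℝ), Icc a b ⊆ T → CbF 2 w₀ →
      Ell (Icc a b) Φ lam r w₀ → Ord 2 (max m (K + 2)) B w₀ → MSol δ Φ w₀ a b h →
      (∀ t ∈ Icc a b, Ord 2 m B (h t) ∧ Ord 2 2 r (h t)) → 0 ≤ r → ∀ t ∈ Icc a b, ∀ x₀ : E n,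
        ∑ j ∈ Finset.range (K + 1), En j x₀ (h t) ≤ Real.exp (C * (t - a)) - 1 := by
  have key : ∀ j : ℕ, ∃ c, 0 ≤ c ∧ (j ∈ Finset.range (K + 1) → ∀ δ : ℝ, 0 < δ → δ ≤ 1 → ∀ w₀ h : E n → ℝ,
      CbF 2 w₀ → CbF 0 h → Ord 2 (max m (K + 2)) B w₀ → Ord 2 m B h → Ord 2 2 r h → 0 ≤ r →
      ∀ t ∈ T, Ell {t} Φ lam r w₀ → ∀ a : E n,
      ∑ α : Fin j → Fin n, ∫ x, eta a x * (pds (List.ofFn α) h x * pds (List.ofFn α) (mop δ Φ w₀ t h) x) ≤
        c * (1 + ∑ i ∈ Finset.range (K + 1), En i a h)) := by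
    intro j
    by_cases hj : j ∈ Finset.range (K + 1)
    swap
    · exact ⟨0, le_rfl, fun h => absurd h hj⟩
    have hj' := Finset.mem_range.1 hj
    cases j with
    | zero =>
      obtain ⟨c, hc0, hc⟩ := energy_static0 hΦ
      refine ⟨c, hc0, fun _ δ hδ _ w₀ h hw hh _ _ _ _ t ht _ a => (hc δ hδ w₀ h hw hh t ht a).trans ?_⟩
      refine mul_le_mul_of_nonneg_left ?_ hc0
      have := Finset.single_le_sum (f := fun i => En i a h) (fun i _ => En_nonneg i a h) hj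
      linarith
    | succ k =>
      obtain ⟨c, hc0, hc⟩ := energy_static hΦ hl r k m (by omega) hm3 B
      refine ⟨c, hc0, fun _ δ hδ hδ1 w₀ h hw hh h1 h2 h3 hr t ht hE a =>
        (hc δ hδ hδ1 w₀ h hw hh (h1.mono le_rfl (max_le_max le_rfl (by omega)) le_rfl) (h2.J hδ hh.sm)
          (fun x => (h3.J hδ hh.sm).norm_hs le_rfl hr x) t ht hE a).trans ?_⟩
      refine mul_le_mul_of_nonneg_left ?_ hc0
      have := Finset.sum_le_sum_of_subset_of_nonneg (f := fun i => En i a h)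
        (Finset.range_mono (show k + 2 ≤ K + 1 by omega)) (fun i _ _ => En_nonneg i a h)
      linarith
  choose c hc0 hc using key
  refine ⟨2 * ∑ j ∈ Finset.range (K + 1), c j, mul_nonneg zero_le_two (Finset.sum_nonneg fun j _ => hc0 j), ?_⟩
  intro δ hδ hδ1 w₀ a b h hT hw hE hO H hh hr t ht x₀
  have h1 := penb_gronwall (y := fun s => 1 + ∑ j ∈ Finset.range (K + 1), En j x₀ (h s))
    (y' := fun s => ∑ j ∈ Finset.range (K + 1), 2 * ∑ α : Fin j → Fin n, ∫ x, eta x₀ x *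
      (pds (List.ofFn α) (h s) x * pds (List.ofFn α) (mop δ Φ w₀ s (h s)) x))
    (C := 2 * ∑ j ∈ Finset.range (K + 1), c j)
    (fun s hs => (HasDerivWithinAt.fun_sum fun j _ =>
      hasDerivWithinAt_En hδ (hΦ.mono hT) hw H j x₀ hs).const_add 1)
    (fun s hs => by
      rw [mul_assoc, Finset.sum_mul, Finset.mul_sum]
      exact Finset.sum_le_sum fun j hj => mul_le_mul_of_nonneg_left
        (hc j hj δ hδ hδ1 w₀ (h s) hw (H.cbF hs) hO (hh s hs).1 (hh s hs).2 hr s (hT hs)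
          (fun t' ht' => hE t' (by rw [mem_singleton_iff.1 ht']; exact hs)) x₀) zero_le_two) ht
  simp only [H.init, penb_En_zero, Finset.sum_const_zero, add_zero, mul_one] at h1
  linarith

theorem boot {T : Set ℝ} {Φ : X n → ℝ} (hΦ : Sym T Φ) {lam r : ℝ} (hl : 0 < lam) (hr : 0 < r) (B : ℝ) :
    ∃ τ > 0, ∀ δ : ℝ, 0 < δ → δ ≤ 1 → ∀ (w₀ : E n → ℝ) (a b : ℝ) (h : ℝ → E n → ℝ), Icc a b ⊆ T → b - a ≤ τ →
      CbF 2 w₀ → Ell (Icc a b) Φ lam r w₀ → Ord 2 (2 * n + 6) B w₀ → MSol δ Φ w₀ a b h →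
      ∀ t ∈ Icc a b, Ord 0 (n + 4) (min r 1) (h t) := by
  obtain ⟨C, hC0, hC⟩ := energy_gronwall hΦ hl r (2 * n + 4) (n + 4) (by omega) (by omega) (max B 1)
  obtain ⟨D, hD0, hD⟩ := embed' n
  set ρ := min r 1 with hρ
  have hρ0 : 0 < ρ := lt_min hr one_pos
  obtain ⟨τ, hτ0, hτ⟩ : ∃ τ > 0, D * (Real.exp (C * τ) - 1) ≤ (ρ / 2) ^ 2 := by
    have h1 : ContinuousAt (fun τ : ℝ => D * (Real.exp (C * τ) - 1)) 0 := by fun_prop
    have h2 : ∀ᶠ τ in 𝓝 (0 : ℝ), D * (Real.exp (C * τ) - 1) < (ρ / 2) ^ 2 :=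
      h1.eventually_lt continuousAt_const (by simp; positivity)
    obtain ⟨τ, h3, h4⟩ := ((h2.filter_mono nhdsWithin_le_nhds).and (self_mem_nhdsWithin (s := Ioi (0 : ℝ)))).exists
    exact ⟨τ, h4, h3.le⟩
  refine ⟨τ, hτ0, fun δ hδ hδ1 w₀ a b h hT hab hw hE hO H => ?_⟩
  -- improvement
  have impr : ∀ t ∈ Icc a b, (∀ s ∈ Icc a t, Ord 0 (n + 4) ρ (h s)) → Ord 0 (n + 4) (ρ / 2) (h t) := by
    intro t ht hs l _ hl x
    have h1 := hC δ hδ hδ1 w₀ a t h ((Icc_subset_Icc_right ht.2).trans hT) hw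
      (fun t' ht' => hE t' (Icc_subset_Icc_right ht.2 ht'))
      (hO.mono le_rfl (by omega) (le_max_left _ _)) (H.mono ht.2)
      (fun s hs' => ⟨(hs s hs').mono (by omega) le_rfl ((min_le_right _ _).trans (le_max_right _ _)),
        (hs s hs').mono (by omega) (by omega) (min_le_left _ _)⟩) hr.le t (right_mem_Icc.2 ht.1) x
    have h2 := hD (h t) (2 * n + 4) l (H.cbF ht) (by omega) x
    have h3 : Real.exp (C * (t - a)) ≤ Real.exp (C * τ) :=
      Real.exp_le_exp.2 (mul_le_mul_of_nonneg_left (by linarith [ht.2]) hC0)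
    refine abs_le_of_sq_le_sq' ?_ (by positivity) |> abs_le.2
    refine h2.trans (le_trans ?_ hτ)
    exact mul_le_mul_of_nonneg_left (by linarith) hD0
  -- Lipschitz bound in time
  obtain ⟨L, hL0, hL⟩ := ord_unif (F := fun t : Icc a b => mop δ Φ w₀ t (h t)) (p := 0) (n + 4) (fun l _ _ => by
    obtain ⟨C, hC⟩ := H.bdN hδ (hΦ.mono hT) hw l
    exact ⟨C, fun t x => hC t t.2 x⟩)
  have lip : ∀ l : List (Fin n), l.length ≤ n + 4 → ∀ x, ∀ s ∈ Icc a b, ∀ t ∈ Icc a b,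
      |pds l (h s) x - pds l (h t) x| ≤ L * |s - t| := fun l hl x s hs t ht =>
    penb_lip (f := fun s => pds l (h s) x) (fun s hs => H.sol.dt l x s hs)
      (fun s hs => hL ⟨s, hs⟩ l (Nat.zero_le _) hl x) hs ht
  set ε := ρ / (2 * (L + 1)) with hε
  have hε0 : 0 < ε := by positivity
  have hLε : L * ε ≤ ρ / 2 := by
    have h1 : (L + 1) * ε = ρ / 2 := by rw [hε]; field_simp
    nlinarith
  have ind : ∀ k : ℕ, ∀ s ∈ Icc a b, s ≤ a + k * ε → Ord 0 (n + 4) ρ (h s) := by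
    intro k
    induction k with
    | zero =>
      intro s hs hk l _ _ x
      have : s = a := le_antisymm (by simpa using hk) hs.1
      rw [this, H.init, pds_zero, abs_zero]
      exact hρ0.le
    | succ k ih =>
      intro s hs hk
      by_cases h1 : s ≤ a + k * ε
      · exact ih s hs h1
      push Not at h1
      have ht : a + k * ε ∈ Icc a b := ⟨le_add_of_nonneg_right (by positivity), h1.le.trans hs.2⟩
      have h2 := impr _ ht fun s' hs' => ih s' ⟨hs'.1, hs'.2.trans ht.2⟩ hs'.2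
      intro l hl0 hl x
      have h3 := h2 l hl0 hl x
      have h4 := lip l hl x s hs _ ht
      have h5 : |s - (a + k * ε)| ≤ ε := by
        push_cast at hk
        rw [abs_of_pos (by linarith)]
        linarith
      have h6 := mul_le_mul_of_nonneg_left h5 hL0
      have h7 := abs_sub_abs_le_abs_sub (pds l (h s) x) (pds l (h (a + k * ε)) x)
      linarith
  intro t ht
  obtain ⟨k, hk⟩ := exists_nat_ge ((t - a) / ε)
  rw [div_le_iff₀ hε0] at hk
  exact ind k t ht (by linarith)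

theorem unif {T : Set ℝ} {Φ : X n → ℝ} (hΦ : Sym T Φ) {lam r : ℝ} (hl : 0 < lam) (hr : 0 < r) {w₀ : E n → ℝ}
    (hw : CbF 2 w₀) {a b : ℝ} (hE : Ell (Icc a b) Φ lam r w₀) (hT : Icc a b ⊆ T) (q : ℕ) :
    ∃ B, ∀ δ : ℝ, 0 < δ → δ ≤ 1 → ∀ h, MSol δ Φ w₀ a b h → (∀ t ∈ Icc a b, Ord 0 (n + 4) (min r 1) (h t)) →
      ∀ t ∈ Icc a b, Ord 0 q B (h t) := by
  have key : ∀ j : ℕ, ∃ B, ∀ δ : ℝ, 0 < δ → δ ≤ 1 → ∀ h, MSol δ Φ w₀ a b h →
      (∀ t ∈ Icc a b, Ord 0 (n + 4) (min r 1) (h t)) → ∀ t ∈ Icc a b, Ord 0 (n + 4 + j) B (h t) := by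
    intro j
    induction j with
    | zero => exact ⟨min r 1, fun _ _ _ _ _ hh => hh⟩
    | succ j ih =>
      obtain ⟨B, hB⟩ := ih
      obtain ⟨B₀, -, hB₀⟩ := hw.ord (max (n + 4 + j) (n + 4 + j + 1 + n + 2))
      obtain ⟨C, hC0, hC⟩ := energy_gronwall hΦ hl r (n + 4 + j + 1 + n) (n + 4 + j) (by omega) (by omega) (max B B₀)
      obtain ⟨D, hD0, hD⟩ := embed' n
      refine ⟨√(D * Real.exp (C * (b - a))), fun δ hδ hδ1 h H hh t ht l _ hl x => ?_⟩
      have h1 := hC δ hδ hδ1 w₀ a b h hT hw hE (hB₀.mono le_rfl le_rfl (le_max_right _ _)) H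
        (fun s hs => ⟨(hB δ hδ hδ1 h H hh s hs).mono (by omega) le_rfl (le_max_left _ _),
          (hh s hs).mono (by omega) (by omega) (min_le_left _ _)⟩) hr.le t ht x
      have h2 := hD (h t) (n + 4 + j + 1 + n) l (H.cbF ht) (by omega) x
      have h3 : Real.exp (C * (t - a)) ≤ Real.exp (C * (b - a)) :=
        Real.exp_le_exp.2 (mul_le_mul_of_nonneg_left (by linarith [ht.2]) hC0)
      refine Real.abs_le_sqrt (h2.trans ?_)
      exact mul_le_mul_of_nonneg_left (by linarith) hD0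
  obtain ⟨B, hB⟩ := key q
  exact ⟨B, fun δ hδ hδ1 h H hh t ht => (hB δ hδ hδ1 h H hh t ht).mono le_rfl (by omega) le_rfl⟩


end Crest.Agent.R238.P
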