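import Crest.Agent.R238.PCb

/-!
# R238 / PGlue

Restriction, gluing, rescaling.
`glue`: `fun t => if t ≤ b then w t else w' t`; `HasDerivWithinAt.union`, `ContinuousOn.union_of_isClosed`/`ContinuousOn.if`.
`long_time`: induction on `k`: a solution on `[a, min b (a + k τ)]`.
`chain`: `G s (γ s) - G t (γ t) = [G s (γ s) - G s (γ t)] + [G s (γ t) - G t (γ t)]`; mean value theorem for the first bracket along the segment
(`hasDerivAt_line`) and joint continuity of `pd i (G s)`.
`Sol.resc`: `pds l (resc κ V t) x = e^{κ t} e^{-t |l|} pds l (V t) (e^{-t} x)` (`pds_comp_smul`), `chain`, `pds_eul`.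
-/

set_option autoImplicit false

open MeasureTheory Set Filter
open scoped ContDiff Topology

noncomputable section

namespace Crest.Agent.R238.P

variable {n : ℕ}

theorem Sol.mono {N : Op n} {a b a' b' : ℝ} {w : ℝ → E n → ℝ} (h : Sol N a b w) (ha : a ≤ a') (hb : b' ≤ b) :
    Sol N a' b' w := by
  have hs : Icc a' b' ⊆ Icc a b := Icc_subset_Icc ha hb
  refine ⟨fun t ht => h.sm t (hs ht), fun t ht => h.smN t (hs ht), fun l hl => ?_,
    fun l => (h.ct l).mono (prod_mono hs Subset.rfl), fun l => (h.ctN l).mono (prod_mono hs Subset.rfl),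
    fun l x t ht => (h.dt l x t (hs ht)).mono hs⟩
  obtain ⟨C, hC⟩ := h.bd l hl
  exact ⟨C, fun t ht => hC t (hs ht)⟩

theorem Sol.congr {N N' : Op n} {a b : ℝ} {w : ℝ → E n → ℝ} (h : Sol N a b w)
    (e : ∀ t ∈ Icc a b, N' t (w t) = N t (w t)) : Sol N' a b w := by
  refine ⟨h.sm, fun t ht => ?_, h.bd, h.ct, fun l => (h.ctN l).congr fun p hp => ?_, fun l x t ht => ?_⟩
  · rw [e t ht]
    exact h.smN t ht
  · simp only [e p.1 hp.1]
  · rw [e t ht]
    exact h.dt l x t ht

theorem Sol.cbF {N : Op n} {a b : ℝ} {w : ℝ → E n → ℝ} (h : Sol N a b w) {t : ℝ} (ht : t ∈ Icc a b) :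
    CbF 2 (w t) :=
  ⟨h.sm t ht, fun l hl => (h.bd l hl).imp fun _ hC => hC t ht⟩

theorem Sol.glue {N : Op n} {a b c : ℝ} {w w' : ℝ → E n → ℝ} (hab : a ≤ b) (hbc : b ≤ c) (h : Sol N a b w)
    (h' : Sol N b c w') (e : w b = w' b) : Sol N a c fun t => if t ≤ b then w t else w' t := by
  set u : ℝ → E n → ℝ := fun t => if t ≤ b then w t else w' t with hu
  have h1 : ∀ t ∈ Icc a b, u t = w t := fun t ht => if_pos ht.2
  have h2 : ∀ t ∈ Icc b c, u t = w' t := fun t ht => by
    rcases ht.1.eq_or_lt with r | r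
    · rw [← r, ← e]
      exact if_pos le_rfl
    · exact if_neg (not_le.2 r)
  have hU : Icc a c = Icc a b ∪ Icc b c := (Icc_union_Icc_eq_Icc hab hbc).symm
  have hcl : ∀ p q : ℝ, IsClosed (Icc p q ×ˢ (univ : Set (E n))) := fun p q => isClosed_Icc.prod isClosed_univ
  refine ⟨fun t ht => ?_, fun t ht => ?_, fun l hl => ?_, fun l => ?_, fun l => ?_, fun l x t ht => ?_⟩
  · rcases (hU ▸ ht : t ∈ Icc a b ∪ Icc b c) with r | r
    · rw [h1 t r]
      exact h.sm t r
    · rw [h2 t r]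
      exact h'.sm t r
  · rcases (hU ▸ ht : t ∈ Icc a b ∪ Icc b c) with r | r
    · rw [h1 t r]
      exact h.smN t r
    · rw [h2 t r]
      exact h'.smN t r
  · obtain ⟨C, hC⟩ := h.bd l hl
    obtain ⟨C', hC'⟩ := h'.bd l hl
    refine ⟨max C C', fun t ht x => ?_⟩
    rcases (hU ▸ ht : t ∈ Icc a b ∪ Icc b c) with r | r
    · rw [h1 t r]
      exact le_max_of_le_left (hC t r x)
    · rw [h2 t r]
      exact le_max_of_le_right (hC' t r x)
  · rw [hU, union_prod]
    exact ((h.ct l).congr fun p hp => by simp only [h1 p.1 hp.1]).union_of_isClosed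
      ((h'.ct l).congr fun p hp => by simp only [h2 p.1 hp.1]) (hcl _ _) (hcl _ _)
  · rw [hU, union_prod]
    exact ((h.ctN l).congr fun p hp => by simp only [h1 p.1 hp.1]).union_of_isClosed
      ((h'.ctN l).congr fun p hp => by simp only [h2 p.1 hp.1]) (hcl _ _) (hcl _ _)
  · rw [hU]
    refine HasDerivWithinAt.union ?_ ?_
    · by_cases r : t ∈ Icc a b
      · rw [h1 t r]
        exact (h.dt l x t r).congr (fun s hs => by rw [h1 s hs]) (by rw [h1 t r])
      · exact HasFDerivWithinAt.of_notMem_closure (by rwa [closure_Icc])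
    · by_cases r : t ∈ Icc b c
      · rw [h2 t r]
        exact (h'.dt l x t r).congr (fun s hs => by rw [h2 s hs]) (by rw [h2 t r])
      · exact HasFDerivWithinAt.of_notMem_closure (by rwa [closure_Icc])

/-- `Q a' b' w` is a property of the family on `[a', b']` that can be glued -/
theorem long_time {N : Op n} {a b τ : ℝ} (hab : a ≤ b) (hτ : 0 < τ) (w₀ : E n → ℝ)
    (Q : ℝ → ℝ → (ℝ → E n → ℝ) → Prop)
    (hQ : ∀ s t (w w' : ℝ → E n → ℝ), a ≤ s → s ≤ t → w s = w' s → Q a s w → Q s t w' →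
      Q a t fun r => if r ≤ s then w r else w' r)
    (h0 : ∀ t ∈ Icc a b, t - a ≤ τ → ∃ w, Sol N a t w ∧ w a = w₀ ∧ Q a t w)
    (step : ∀ s ∈ Icc a b, ∀ w, Sol N a s w → w a = w₀ → Q a s w → ∀ t ∈ Icc s b, t - s ≤ τ →
      ∃ w', Sol N s t w' ∧ w' s = w s ∧ Q s t w') :
    ∃ w, Sol N a b w ∧ w a = w₀ ∧ Q a b w := by
  have key : ∀ k : ℕ, ∀ t ∈ Icc a b, t - a ≤ (k + 1) * τ → ∃ w, Sol N a t w ∧ w a = w₀ ∧ Q a t w := by
    intro k
    induction k with
    | zero => exact fun t ht h => h0 t ht (by simpa using h)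
    | succ k ih =>
      intro t ht h
      by_cases r : t - a ≤ (k + 1) * τ
      · exact ih t ht r
      · have hk : 0 ≤ ((k : ℝ) + 1) * τ := by positivity
        have hs1 : a ≤ a + (k + 1) * τ := by linarith
        have hs2 : a + (k + 1) * τ ≤ t := by linarith [not_le.1 r]
        have hs : a + (k + 1) * τ ∈ Icc a b := ⟨hs1, hs2.trans ht.2⟩
        obtain ⟨w, w1, w2, w3⟩ := ih _ hs (by linarith)
        obtain ⟨w', v1, v2, v3⟩ := step _ hs w w1 w2 w3 t ⟨hs2, ht.2⟩ (by push_cast at h; linarith)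
        exact ⟨_, w1.glue hs1 hs2 v1 v2.symm, by simp only [if_pos hs1, w2], hQ _ _ w w' hs1 hs2 v2.symm w3 v3⟩
  obtain ⟨k, hk⟩ := exists_nat_ge ((b - a) / τ)
  refine key k b ⟨hab, le_rfl⟩ ?_
  rw [div_le_iff₀ hτ] at hk
  nlinarith

theorem chain {S : Set ℝ} {G : ℝ → E n → ℝ} {G' : ℝ} {γ : ℝ → E n} {γ' : E n} {t : ℝ} (ht : t ∈ S)
    (hs : ∀ s ∈ S, Sm (G s))
    (hc : ∀ i, ContinuousOn (fun p : ℝ × E n => pd i (G p.1) p.2) (S ×ˢ univ))
    (hG : HasDerivWithinAt (fun s => G s (γ t)) G' S t) (hγ : HasDerivWithinAt γ γ' S t) :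
    HasDerivWithinAt (fun s => G s (γ s)) (G' + ∑ i, γ' i * pd i (G t) (γ t)) S t := by
  have hD : ∀ (s : ℝ) (y : E n), fderiv ℝ (G s) y =
      ∑ i, pd i (G s) y • (EuclideanSpace.proj i : E n →L[ℝ] ℝ) := by
    intro s y
    ext v
    rw [fderiv_eq_sum]
    simp [mul_comm]
  have hcD : ContinuousOn (fun p : ℝ × E n => fderiv ℝ (G p.1) p.2) (S ×ˢ univ) := by
    simp only [hD]
    exact continuousOn_finsetSum _ fun i _ => (hc i).smul continuousOn_const
  set L : E n →L[ℝ] ℝ := fderiv ℝ (G t) (γ t) with hL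
  have hLγ : HasDerivWithinAt (fun s => L (γ s)) (L γ') S t := L.hasFDerivAt.comp_hasDerivWithinAt t hγ
  have hsm : (fun s => G s (γ s) - G s (γ t) - L (γ s - γ t)) =o[𝓝[S] t] fun s => γ s - γ t := by
    refine Asymptotics.isLittleO_iff.2 fun ε hε => ?_
    have h1 : ∀ᶠ p in 𝓝[S ×ˢ univ] ((t, γ t) : ℝ × E n), ‖fderiv ℝ (G p.1) p.2 - L‖ ≤ ε := by
      have := (hcD (t, γ t) ⟨ht, mem_univ _⟩).tendsto.eventually (Metric.closedBall_mem_nhds L hε)
      simpa only [Metric.mem_closedBall, dist_eq_norm] using this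
    rw [nhdsWithin_prod_eq, nhdsWithin_univ] at h1
    obtain ⟨pa, hpa, pb, hpb, hp⟩ := eventually_prod_iff.1 h1
    obtain ⟨δ, hδ, hb⟩ := Metric.eventually_nhds_iff_ball.1 hpb
    have h2 : ∀ᶠ s in 𝓝[S] t, γ s ∈ Metric.ball (γ t) δ :=
      hγ.continuousWithinAt.tendsto.eventually (Metric.ball_mem_nhds _ hδ)
    filter_upwards [hpa, h2, self_mem_nhdsWithin] with s s1 s2 s3
    exact (convex_ball (γ t) δ).norm_image_sub_le_of_norm_fderiv_le'
      (fun y _ => (hs s s3).differentiable (by simp) y) (fun y hy => hp s1 (hb y hy)) (Metric.mem_ball_self hδ) s2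
  have h0 : HasDerivWithinAt (fun s => G s (γ s) - G s (γ t) - L (γ s - γ t)) 0 S t := by
    rw [hasDerivWithinAt_iff_isLittleO]
    simpa using hsm.trans_isBigO hγ.hasFDerivWithinAt.isBigO_sub
  have h3 := (h0.add hG).add (hLγ.sub_const (L (γ t)))
  have e3 : L γ' = ∑ i, γ' i * pd i (G t) (γ t) := fderiv_eq_sum _ _ _
  rw [zero_add, e3] at h3
  refine h3.congr (fun s _ => ?_) ?_
  · simp only [Pi.add_apply, map_sub]
    ring
  · simp only [Pi.add_apply, map_sub]
    ring

theorem pds_resc {V : ℝ → E n → ℝ} {t : ℝ} (h : Sm (V t)) (κ : ℝ) (l : List (Fin n)) (x : E n) :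
    pds l (resc κ V t) x = Real.exp (κ * t) * Real.exp (-t) ^ l.length * pds l (V t) (Real.exp (-t) • x) := by
  have h1 : Sm fun y : E n => V t (Real.exp (-t) • y) := h.comp (contDiff_id.const_smul _)
  have h2 := pds_const_mul h1 (Real.exp (κ * t)) l
  have h3 : pds l (resc κ V t) x = Real.exp (κ * t) * pds l (fun y : E n => V t (Real.exp (-t) • y)) x :=
    congrFun h2 x
  rw [h3, pds_comp_smul h]
  ring

theorem Sol.resc {N : Op n} {a b : ℝ} {V : ℝ → E n → ℝ} (h : Sol N a b V) (κ : ℝ) :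
    Sol (fun t W x => Real.exp (κ * t) * N t (V t) (Real.exp (-t) • x) - eul W x + κ * W x) a b (resc κ V) := by
  have hsm : ∀ {U : ℝ → E n → ℝ} {t : ℝ}, Sm (U t) → Sm (P.resc κ U t) := fun {U t} hU =>
    contDiff_const.mul (hU.comp (contDiff_id.const_smul _))
  have hW : ∀ t ∈ Icc a b, Sm (P.resc κ V t) := fun t ht => hsm (h.sm t ht)
  have hN : ∀ t ∈ Icc a b, Sm (P.resc κ (fun s => N s (V s)) t) := fun t ht =>
    hsm (U := fun s => N s (V s)) (h.smN t ht)
  have hct : ∀ {U : ℝ → E n → ℝ}, (∀ t ∈ Icc a b, Sm (U t)) → ∀ l : List (Fin n),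
      ContinuousOn (fun p : ℝ × E n => pds l (U p.1) p.2) (Icc a b ×ˢ univ) →
      ContinuousOn (fun p : ℝ × E n => pds l (P.resc κ U p.1) p.2) (Icc a b ×ˢ univ) := by
    intro U hU l hc
    have h1 : ContinuousOn (fun p : ℝ × E n => pds l (U p.1) (Real.exp (-p.1) • p.2)) (Icc a b ×ˢ univ) :=
      hc.comp (f := fun p : ℝ × E n => (p.1, Real.exp (-p.1) • p.2)) (by fun_prop)
        fun p hp => ⟨hp.1, mem_univ _⟩
    have h2 : ContinuousOn (fun p : ℝ × E n => Real.exp (κ * p.1) * Real.exp (-p.1) ^ l.length)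
        (Icc a b ×ˢ univ) := by fun_prop
    exact (h2.mul h1).congr fun p hp => pds_resc (hU p.1 hp.1) κ l p.2
  have hW' : ∀ l, ContinuousOn (fun p : ℝ × E n => pds l (P.resc κ V p.1) p.2) (Icc a b ×ˢ univ) :=
    fun l => hct h.sm l (h.ct l)
  have hform : ∀ t ∈ Icc a b, ∀ (l : List (Fin n)) (x : E n),
      pds l (fun x => Real.exp (κ * t) * N t (V t) (Real.exp (-t) • x) - eul (P.resc κ V t) x +
        κ * P.resc κ V t x) x = pds l (P.resc κ (fun s => N s (V s)) t) x -
        (∑ i, x i * pds (i :: l) (P.resc κ V t) x + l.length * pds l (P.resc κ V t) x) +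
        κ * pds l (P.resc κ V t) x := by
    intro t ht l x
    have e1 := pds_add ((hN t ht).sub (hW t ht).eul) ((contDiff_const (c := κ)).mul (hW t ht)) l
    rw [pds_sub (hN t ht) (hW t ht).eul, pds_const_mul (hW t ht), pds_eul (hW t ht)] at e1
    exact congrFun e1 x
  refine ⟨hW, fun t ht => ((hN t ht).sub (hW t ht).eul).add (contDiff_const.mul (hW t ht)), fun l hl => ?_,
    hW', fun l => ?_, fun l x t ht => ?_⟩
  · obtain ⟨C, hC⟩ := h.bd l hl
    obtain ⟨B, hB⟩ := (isCompact_Icc (a := a) (b := b)).exists_bound_of_continuousOn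
      (f := fun t => Real.exp (κ * t) * Real.exp (-t) ^ l.length) (by fun_prop)
    refine ⟨B * C, fun t ht x => ?_⟩
    rw [pds_resc (h.sm t ht), abs_mul]
    exact mul_le_mul (hB t ht) (hC t ht _) (abs_nonneg _) ((norm_nonneg _).trans (hB t ht))
  · have h1 := hct (U := fun s => N s (V s)) h.smN l (h.ctN l)
    have h2 : ContinuousOn (fun p : ℝ × E n => ∑ i, p.2 i * pds (i :: l) (P.resc κ V p.1) p.2)
        (Icc a b ×ˢ univ) :=
      continuousOn_finsetSum _ fun i _ => ContinuousOn.mul (by fun_prop) (hW' (i :: l))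
    exact ((h1.sub (h2.add (continuousOn_const.mul (hW' l)))).add (continuousOn_const.mul (hW' l))).congr
      fun p hp => hform p.1 hp.1 l p.2
  · have hγ : HasDerivWithinAt (fun s : ℝ => Real.exp (-s) • x) ((-Real.exp (-t)) • x) (Icc a b) t := by
      have := ((hasDerivAt_neg t).exp.smul_const x).hasDerivWithinAt (s := Icc a b)
      simpa using this
    have h1 := chain (G := fun s => pds l (V s)) ht (fun s hs => (h.sm s hs).pds l) (fun i => h.ct (i :: l))
      (h.dt l (Real.exp (-t) • x) t ht) hγ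
    have h2 : HasDerivAt (fun s : ℝ => Real.exp (κ * s) * Real.exp (-s) ^ l.length)
        ((κ - l.length) * (Real.exp (κ * t) * Real.exp (-t) ^ l.length)) t := by
      have e : ∀ s : ℝ, Real.exp (κ * s) * Real.exp (-s) ^ l.length = Real.exp ((κ - l.length) * s) := fun s => by
        rw [← Real.exp_nat_mul, ← Real.exp_add]
        congr 1
        ring
      simp only [e]
      have := ((hasDerivAt_id t).const_mul (κ - l.length)).exp
      simpa [mul_comm] using this
    have h3 := h2.hasDerivWithinAt.mul h1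
    refine (h3.congr (fun s hs => pds_resc (h.sm s hs) κ l x) (pds_resc (h.sm t ht) κ l x)).congr_deriv ?_
    rw [hform t ht, pds_resc (V := fun s => N s (V s)) (h.smN t ht), pds_resc (h.sm t ht)]
    simp only [pds_resc (h.sm t ht), List.length_cons, PiLp.smul_apply, smul_eq_mul, mul_add, Finset.mul_sum]
    have e : ∑ i, Real.exp (κ * t) * Real.exp (-t) ^ l.length *
        (-Real.exp (-t) * x i * pd i (pds l (V t)) (Real.exp (-t) • x)) =
        -∑ i, x i * (Real.exp (κ * t) * Real.exp (-t) ^ (l.length + 1) *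
          pds (i :: l) (V t) (Real.exp (-t) • x)) := by
      rw [← Finset.sum_neg_distrib]
      refine Finset.sum_congr rfl fun i _ => ?_
      simp only [pds]
      ring
    rw [e]
    ring

theorem Sol.add_fixed {N : Op n} {a b : ℝ} {W : ℝ → E n → ℝ} (h : Sol N a b W) {q : E n → ℝ} (hq : CbF 2 q) :
    Sol (fun t _ => N t (W t)) a b fun t x => q x + W t x := by
  have e : ∀ t ∈ Icc a b, ∀ (l : List (Fin n)) (x : E n),
      pds l (fun x => q x + W t x) x = pds l q x + pds l (W t) x := fun t ht l x =>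
    congrFun (pds_add hq.sm (h.sm t ht) l) x
  refine ⟨fun t ht => hq.sm.add (h.sm t ht), h.smN, fun l hl => ?_, fun l => ?_, h.ctN, fun l x t ht => ?_⟩
  · obtain ⟨C, hC⟩ := h.bd l hl
    obtain ⟨B, hB⟩ := hq.bd l hl
    refine ⟨B + C, fun t ht x => ?_⟩
    rw [e t ht]
    exact (abs_add_le _ _).trans (add_le_add (hB x) (hC t ht x))
  · have h1 : Continuous fun p : ℝ × E n => pds l q p.2 := (hq.sm.pds l).continuous.comp continuous_snd
    exact (h1.continuousOn.add (h.ct l)).congr fun p hp => e p.1 hp.1 l p.2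
  · exact ((h.dt l x t ht).const_add (pds l q x)).congr (fun s hs => e s hs l x) (e t ht l x)

theorem Sol.const_mul {N : Op n} {a b : ℝ} {W : ℝ → E n → ℝ} (h : Sol N a b W) (c : ℝ) :
    Sol (fun t _ x => c * N t (W t) x) a b fun t x => c * W t x := by
  have e : ∀ t ∈ Icc a b, ∀ (l : List (Fin n)) (x : E n),
      pds l (fun x => c * W t x) x = c * pds l (W t) x := fun t ht l x =>
    congrFun (pds_const_mul (h.sm t ht) c l) x
  have e' : ∀ t ∈ Icc a b, ∀ (l : List (Fin n)) (x : E n),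
      pds l (fun x => c * N t (W t) x) x = c * pds l (N t (W t)) x := fun t ht l x =>
    congrFun (pds_const_mul (h.smN t ht) c l) x
  refine ⟨fun t ht => contDiff_const.mul (h.sm t ht), fun t ht => contDiff_const.mul (h.smN t ht),
    fun l hl => ?_, fun l => ?_, fun l => ?_, fun l x t ht => ?_⟩
  · obtain ⟨C, hC⟩ := h.bd l hl
    refine ⟨|c| * C, fun t ht x => ?_⟩
    rw [e t ht, abs_mul]
    exact mul_le_mul_of_nonneg_left (hC t ht x) (abs_nonneg c)
  · exact (continuousOn_const.mul (h.ct l)).congr fun p hp => e p.1 hp.1 l p.2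
  · exact (continuousOn_const.mul (h.ctN l)).congr fun p hp => e' p.1 hp.1 l p.2
  · rw [e' t ht]
    exact ((h.dt l x t ht).const_mul c).congr (fun s hs => e s hs l x) (e t ht l x)

theorem Sol.add {N N' : Op n} {a b : ℝ} {W W' : ℝ → E n → ℝ} (h : Sol N a b W) (h' : Sol N' a b W') :
    Sol (fun t _ x => N t (W t) x + N' t (W' t) x) a b fun t x => W t x + W' t x := by
  have e : ∀ t ∈ Icc a b, ∀ (l : List (Fin n)) (x : E n),
      pds l (fun x => W t x + W' t x) x = pds l (W t) x + pds l (W' t) x := fun t ht l x =>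
    congrFun (pds_add (h.sm t ht) (h'.sm t ht) l) x
  have e' : ∀ t ∈ Icc a b, ∀ (l : List (Fin n)) (x : E n),
      pds l (fun x => N t (W t) x + N' t (W' t) x) x = pds l (N t (W t)) x + pds l (N' t (W' t)) x :=
    fun t ht l x => congrFun (pds_add (h.smN t ht) (h'.smN t ht) l) x
  refine ⟨fun t ht => (h.sm t ht).add (h'.sm t ht), fun t ht => (h.smN t ht).add (h'.smN t ht),
    fun l hl => ?_, fun l => ?_, fun l => ?_, fun l x t ht => ?_⟩
  · obtain ⟨C, hC⟩ := h.bd l hl
    obtain ⟨B, hB⟩ := h'.bd l hl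
    refine ⟨C + B, fun t ht x => ?_⟩
    rw [e t ht]
    exact (abs_add_le _ _).trans (add_le_add (hC t ht x) (hB t ht x))
  · exact ((h.ct l).add (h'.ct l)).congr fun p hp => e p.1 hp.1 l p.2
  · exact ((h.ctN l).add (h'.ctN l)).congr fun p hp => e' p.1 hp.1 l p.2
  · rw [e' t ht]
    exact ((h.dt l x t ht).add (h'.dt l x t ht)).congr (fun s hs => e s hs l x) (e t ht l x)

theorem Sol.comp_neg {N : Op n} {a b : ℝ} {W : ℝ → E n → ℝ} (h : Sol N a b W) :
    Sol (fun t _ x => N t (W t) (-x)) a b fun t x => W t (-x) := by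
  have e : ∀ t ∈ Icc a b, ∀ (l : List (Fin n)) (x : E n),
      pds l (fun x => W t (-x)) x = (-1) ^ l.length * pds l (W t) (-x) := fun t ht l x =>
    congrFun (pds_comp_neg (h.sm t ht) l) x
  have e' : ∀ t ∈ Icc a b, ∀ (l : List (Fin n)) (x : E n),
      pds l (fun x => N t (W t) (-x)) x = (-1) ^ l.length * pds l (N t (W t)) (-x) :=
    fun t ht l x => congrFun (pds_comp_neg (h.smN t ht) l) x
  have hm : MapsTo (fun p : ℝ × E n => (p.1, -p.2)) (Icc a b ×ˢ univ) (Icc a b ×ˢ univ) :=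
    fun p hp => ⟨hp.1, mem_univ _⟩
  have hc : ContinuousOn (fun p : ℝ × E n => (p.1, -p.2)) (Icc a b ×ˢ univ) := by fun_prop
  refine ⟨fun t ht => (h.sm t ht).comp contDiff_neg, fun t ht => (h.smN t ht).comp contDiff_neg,
    fun l hl => ?_, fun l => ?_, fun l => ?_, fun l x t ht => ?_⟩
  · obtain ⟨C, hC⟩ := h.bd l hl
    refine ⟨C, fun t ht x => ?_⟩
    rw [e t ht, abs_mul, abs_pow, abs_neg, abs_one, one_pow, one_mul]
    exact hC t ht _
  · exact (continuousOn_const.mul ((h.ct l).comp hc hm)).congr fun p hp => e p.1 hp.1 l p.2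
  · exact (continuousOn_const.mul ((h.ctN l).comp hc hm)).congr fun p hp => e' p.1 hp.1 l p.2
  · rw [e' t ht]
    exact ((h.dt l (-x) t ht).const_mul _).congr (fun s hs => e s hs l x) (e t ht l x)



end Crest.Agent.R238.P
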