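import Crest.Agent.R238.PCalc

/-!
# R238 / PLim

Compactness. Take a countable dense subset `D` of `S × E n` (`TopologicalSpace.exists_countable_dense`; `S` may be empty), the countable product of compact intervals
over `List (Fin n) × D` is sequentially compact (`isCompact_univ_pi`, `IsCompact.tendsto_subseq`); local equi-Lipschitz bounds (`lip_on` on balls and `ht`)
give Cauchy sequences at every point; `taylor_on` passes to the limit; `sm_of_family`.
-/

set_option autoImplicit false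

open MeasureTheory Set Filter
open scoped ContDiff Topology

noncomputable section

namespace Crest.Agent.R238.P

variable {n : ℕ}

theorem exists_limit (S : Set ℝ) (F : ℕ → ℝ → E n → ℝ) (hs : ∀ k, ∀ t ∈ S, Sm (F k t))
    (hb : ∀ (l : List (Fin n)) (R : ℝ), ∃ C, ∀ k, ∀ t ∈ S, ∀ x, ‖x‖ ≤ R → |pds l (F k t) x| ≤ C)
    (ht : ∀ (l : List (Fin n)) (R : ℝ), ∃ C, ∀ k, ∀ s ∈ S, ∀ t ∈ S, ∀ x, ‖x‖ ≤ R →
      |pds l (F k s) x - pds l (F k t) x| ≤ C * |s - t|) :
    ∃ (φ : ℕ → ℕ) (G : ℝ → E n → ℝ), StrictMono φ ∧ (∀ t ∈ S, Sm (G t)) ∧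
      (∀ l : List (Fin n), ContinuousOn (fun p : ℝ × E n => pds l (G p.1) p.2) (S ×ˢ univ)) ∧
      ∀ (l : List (Fin n)), ∀ t ∈ S, ∀ x, Tendsto (fun k => pds l (F (φ k) t) x) atTop (𝓝 (pds l (G t) x)) := sorry
/-- without time -/
theorem exists_limit0 (F : ℕ → E n → ℝ) (hs : ∀ k, Sm (F k))
    (hb : ∀ (l : List (Fin n)) (R : ℝ), ∃ C, ∀ k x, ‖x‖ ≤ R → |pds l (F k) x| ≤ C) :
    ∃ (φ : ℕ → ℕ) (G : E n → ℝ), StrictMono φ ∧ Sm G ∧
      ∀ (l : List (Fin n)) x, Tendsto (fun k => pds l (F (φ k)) x) atTop (𝓝 (pds l G x)) := sorry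


end Crest.Agent.R238.P
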