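import Crest.Agent.R238.PMat

/-!
# R238 / PMax

Maximum principle. `Wε t x = W t x - ε (‖x‖² + C t + 1)`, `C = 2 n A + 1`... attains its maximum over `Icc 0 T × E n` (bounded above, tends to `-∞`; compactness of
`Icc 0 T ×ˢ closedBall 0 R`). If the maximum is `> M` then `t₀ > 0`, `W t₀ x₀ > M`, the left derivative gives `Wt ≥ ε C`, `pd_of_isLocalMax`, `hi_of_isLocalMax`,
`tr_nonpos` give `Lop (a t₀) (W t₀) x₀ ≤ ε (2 tr a - 2 ‖x₀‖²) ≤ 2 ε n A`, a contradiction. The version with a compact parameter `e` is the same proof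
(`maxp_aux` only locates the point).
-/

set_option autoImplicit false

open MeasureTheory Set Filter
open scoped ContDiff Topology

noncomputable section

namespace Crest.Agent.R238.P

variable {n : ℕ}

/-- a point where the penalised function is maximal -/
theorem maxp_aux {K : Type*} [TopologicalSpace K] [CompactSpace K] [Nonempty K] {T : ℝ} (hT : 0 ≤ T)
    (W : ℝ → E n → K → ℝ)
    (hc : ContinuousOn (fun p : (ℝ × E n) × K => W p.1.1 p.1.2 p.2) ((Icc 0 T ×ˢ univ) ×ˢ univ))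
    (hb : ∃ C, ∀ t ∈ Icc 0 T, ∀ x e, W t x e ≤ C) {ε : ℝ} (hε : 0 < ε) (C : ℝ) :
    ∃ t₀ ∈ Icc 0 T, ∃ x₀ e₀, ∀ t ∈ Icc 0 T, ∀ x e,
      W t x e - ε * (‖x‖ ^ 2 + C * t) ≤ W t₀ x₀ e₀ - ε * (‖x₀‖ ^ 2 + C * t₀) := by
  obtain ⟨B, hB⟩ := hb
  obtain ⟨e₁⟩ := ‹Nonempty K›
  set R := |(B - W 0 0 e₁) / ε + |C| * T| + 1 with hR
  have hR1 : 1 ≤ R := le_add_of_nonneg_left (abs_nonneg _)
  have hS : IsCompact ((Icc 0 T ×ˢ Metric.closedBall (0 : E n) R) ×ˢ (univ : Set K)) :=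
    (isCompact_Icc.prod (isCompact_closedBall _ _)).prod isCompact_univ
  have hm : (((0 : ℝ), (0 : E n)), e₁) ∈ (Icc 0 T ×ˢ Metric.closedBall (0 : E n) R) ×ˢ (univ : Set K) :=
    ⟨⟨⟨le_rfl, hT⟩, Metric.mem_closedBall_self (by linarith)⟩, trivial⟩
  have hF : ContinuousOn (fun p : (ℝ × E n) × K => W p.1.1 p.1.2 p.2 - ε * (‖p.1.2‖ ^ 2 + C * p.1.1))
      ((Icc 0 T ×ˢ Metric.closedBall (0 : E n) R) ×ˢ (univ : Set K)) :=
    (hc.mono (prod_mono (prod_mono le_rfl (subset_univ _)) le_rfl)).sub (by fun_prop)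
  obtain ⟨p, hp, hmax⟩ := hS.exists_isMaxOn ⟨_, hm⟩ hF
  refine ⟨p.1.1, hp.1.1, p.1.2, p.2, fun t ht x e => ?_⟩
  rcases le_or_gt ‖x‖ R with hx | hx
  · exact hmax (a := ((t, x), e)) ⟨⟨ht, mem_closedBall_zero_iff.2 hx⟩, trivial⟩
  · have h1 : W 0 0 e₁ - ε * (‖(0 : E n)‖ ^ 2 + C * 0) ≤ _ := hmax hm
    refine le_trans ?_ h1
    have h2 : (B - W 0 0 e₁) / ε + |C| * T ≤ ‖x‖ ^ 2 := by
      nlinarith [le_abs_self ((B - W 0 0 e₁) / ε + |C| * T)]
    have h3 : -(|C| * T) ≤ C * t := by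
      nlinarith [neg_abs_le C, abs_nonneg C, ht.1, ht.2]
    have h4 : B - W 0 0 e₁ ≤ ε * (‖x‖ ^ 2 + C * t) := by
      rw [← div_le_iff₀' hε]
      linarith
    have h5 := hB t ht x e
    simp only [norm_zero, mul_zero, ne_eq, OfNat.ofNat_ne_zero, not_false_eq_true, zero_pow, add_zero, sub_zero]
    linarith

theorem deriv_nonneg_of_max {T t₀ d : ℝ} {f : ℝ → ℝ} (h0 : 0 < t₀) (h1 : t₀ ≤ T)
    (hd : HasDerivWithinAt f d (Icc 0 T) t₀) (hm : ∀ t ∈ Icc 0 T, f t ≤ f t₀) : 0 ≤ d := by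
  have h2 : HasDerivWithinAt f d (Ioo 0 t₀) t₀ := hd.mono fun t ht => ⟨ht.1.le, ht.2.le.trans h1⟩
  rw [hasDerivWithinAt_iff_tendsto_slope' right_notMem_Ioo] at h2
  have : (𝓝[Ioo 0 t₀] t₀).NeBot := by
    rw [nhdsWithin_Ioo_eq_nhdsLT h0]
    infer_instance
  refine ge_of_tendsto h2 ?_
  filter_upwards [self_mem_nhdsWithin] with t ht
  rw [slope_def_field]
  exact div_nonneg_of_nonpos (sub_nonpos.2 (hm t ⟨ht.1.le, ht.2.le.trans h1⟩)) (sub_nonpos.2 ht.2.le)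

theorem Lop_add {a : E n → Mat n} {f g : E n → ℝ} (hf : Sm f) (hg : Sm g) (x : E n) :
    Lop a (fun y => f y + g y) x = Lop a f x + Lop a g x := by
  simp only [Lop, lap, eul, pd_add hf hg, pd_add (hf.pd _) (hg.pd _), mul_add, Finset.sum_add_distrib]
  ring

theorem Lop_const_mul {a : E n → Mat n} {f : E n → ℝ} (hf : Sm f) (c : ℝ) (x : E n) :
    Lop a (fun y => c * f y) x = c * Lop a f x := by
  simp only [Lop, lap, eul, pd_const_mul hf, pd_const_mul (hf.pd _), mul_sub, Finset.mul_sum, mul_left_comm c]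

theorem Lop_const (a : E n → Mat n) (c : ℝ) (x : E n) : Lop a (fun _ => c) x = 0 := by
  simp [Lop, lap, eul, pd_const]

theorem Lop_sum {ι : Type*} (s : Finset ι) {a : E n → Mat n} {f : ι → E n → ℝ} (hf : ∀ k ∈ s, Sm (f k)) (x : E n) :
    Lop a (fun y => ∑ k ∈ s, f k y) x = ∑ k ∈ s, Lop a (f k) x := by
  classical
  induction s using Finset.induction_on with
  | empty => simpa using Lop_const a 0 x
  | insert k s hk ih =>
    have h1 : ∀ k ∈ s, Sm (f k) := fun k hk => hf k (Finset.mem_insert_of_mem hk)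
    simp only [Finset.sum_insert hk]
    rw [Lop_add (hf k (Finset.mem_insert_self _ _)) (ContDiff.sum h1), ih h1]

theorem Lop_mul {a : E n → Mat n} {f g : E n → ℝ} (hf : Sm f) (hg : Sm g) (x : E n) :
    Lop a (fun y => f y * g y) x = Lop a f x * g x + f x * Lop a g x +
      ∑ i, ∑ j, a x i j * (pd i f x * pd j g x + pd j f x * pd i g x) := by
  have e : ∀ i j, pd i (pd j fun y => f y * g y) x = pd i (pd j f) x * g x + f x * pd i (pd j g) x +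
      (pd i f x * pd j g x + pd j f x * pd i g x) := fun i j => by
    rw [pd_mul hf hg, pd_add ((hf.pd j).mul hg) (hf.mul (hg.pd j)), pd_mul (hf.pd j) hg, pd_mul hf (hg.pd j)]
    ring
  simp only [Lop, lap, eul, e]
  simp only [pd_mul hf hg, mul_add, Finset.sum_add_distrib, sub_mul, mul_sub, Finset.sum_mul, Finset.mul_sum,
    mul_assoc, mul_left_comm (f x)]
  ring

theorem pmax_Lop_sq {A : ℝ} {a : E n → Mat n} {x : E n} (h : Hi A (a x)) :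
    Lop a (fun x : E n => ‖x‖ ^ 2 / 2) x ≤ n * |A| := by
  have h1 : ∀ i, a x i i ≤ |A| := fun i => by
    have := h (Pi.single i 1)
    simp [qf, n2, Pi.single_apply] at this
    exact this.trans (le_abs_self A)
  have h2 : lap a (fun x : E n => ‖x‖ ^ 2 / 2) x = ∑ i, a x i i := by
    refine Finset.sum_congr rfl fun i _ => ?_
    have e : ∀ j, pd i (pd j fun x : E n => ‖x‖ ^ 2 / 2) x = if i = j then 1 else 0 := fun j =>
      congrFun (congrFun (hs_sq x) i) j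
    simp [e]
  have h3 := Finset.sum_le_card_nsmul Finset.univ _ _ fun i _ => h1 i
  rw [Finset.card_univ, Fintype.card_fin, nsmul_eq_mul] at h3
  rw [Lop, h2, eul_sq]
  linarith [sq_nonneg ‖x‖]

theorem maxp {T A M : ℝ} (a : ℝ → E n → Mat n) (W Wt : ℝ → E n → ℝ)
    (ha : ∀ t ∈ Icc 0 T, ∀ x, Lo 0 (a t x) ∧ Hi A (a t x)) (hs : ∀ t ∈ Icc 0 T, Sm (W t))
    (hc : ContinuousOn (fun p : ℝ × E n => W p.1 p.2) (Icc 0 T ×ˢ univ))
    (hd : ∀ t ∈ Icc 0 T, ∀ x, HasDerivWithinAt (fun s => W s x) (Wt t x) (Icc 0 T) t)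
    (hb : ∃ C, ∀ t ∈ Icc 0 T, ∀ x, W t x ≤ C) (h0 : ∀ x, W 0 x ≤ M)
    (H : ∀ t ∈ Icc 0 T, ∀ x, M < W t x → Wt t x ≤ Lop (a t) (W t) x) : ∀ t ∈ Icc 0 T, ∀ x, W t x ≤ M := by
  intro t₁ ht₁ x₁
  by_contra hlt
  rw [not_le] at hlt
  set C := 2 * (n * |A|) + 1 with hC
  have hC0 : 0 < C := by positivity
  have hq : 0 ≤ ‖x₁‖ ^ 2 + C * t₁ := add_nonneg (sq_nonneg _) (mul_nonneg hC0.le ht₁.1)
  obtain ⟨ε, hε, hε1⟩ : ∃ ε : ℝ, 0 < ε ∧ ε * (‖x₁‖ ^ 2 + C * t₁) < W t₁ x₁ - M := by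
    refine ⟨(W t₁ x₁ - M) / (‖x₁‖ ^ 2 + C * t₁ + 1), div_pos (by linarith) (by linarith), ?_⟩
    rw [div_mul_eq_mul_div, div_lt_iff₀ (by linarith)]
    exact mul_lt_mul_of_pos_left (lt_add_one _) (by linarith)
  obtain ⟨t₀, ht₀, x₀, -, hmax⟩ := maxp_aux (K := Unit) (ht₁.1.trans ht₁.2) (fun t x _ => W t x)
    (hc.comp continuous_fst.continuousOn fun p hp => hp.1) (hb.imp fun B h t ht x _ => h t ht x) hε C
  have h1 := hmax t₁ ht₁ x₁ ()
  have h2 : 0 ≤ ε * (‖x₀‖ ^ 2 + C * t₀) :=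
    mul_nonneg hε.le (add_nonneg (sq_nonneg _) (mul_nonneg hC0.le ht₀.1))
  have h3 : M < W t₀ x₀ := by linarith
  have h4 : 0 < t₀ := ht₀.1.lt_of_ne fun e => absurd (h0 x₀) (not_le.2 (e ▸ h3))
  have h5 := deriv_nonneg_of_max h4 ht₀.2 ((hd t₀ ht₀ x₀).sub
    (((((hasDerivAt_id t₀).const_mul C).const_add (‖x₀‖ ^ 2)).const_mul ε).hasDerivWithinAt))
    fun t ht => hmax t ht x₀ ()
  have hg : Sm fun x : E n => W t₀ x + -(2 * ε) * (‖x‖ ^ 2 / 2) := (hs t₀ ht₀).add (contDiff_const.mul sm_sq)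
  have hl : IsLocalMax (fun x : E n => W t₀ x + -(2 * ε) * (‖x‖ ^ 2 / 2)) x₀ :=
    Eventually.of_forall fun x => by
      have := hmax t₀ ht₀ x ()
      simp only
      linarith
  have h6 : Lop (a t₀) (fun x : E n => W t₀ x + -(2 * ε) * (‖x‖ ^ 2 / 2)) x₀ ≤ 0 := by
    have e1 := tr_nonpos (ha t₀ ht₀ x₀).1 (isS_hs hg x₀) (hi_of_isLocalMax hg hl)
    simp only [Lop, eul, pd_of_isLocalMax hl, mul_zero, Finset.sum_const_zero, sub_zero]
    exact e1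
  rw [Lop_add (hs t₀ ht₀) (contDiff_const.mul sm_sq), Lop_const_mul sm_sq] at h6
  have h7 := mul_le_mul_of_nonneg_left (pmax_Lop_sq (ha t₀ ht₀ x₀).2) hε.le
  have h8 := H t₀ ht₀ x₀ h3
  rw [hC] at h5
  linarith

end Crest.Agent.R238.P
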