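import Crest.Agent.R238.PEnB
import Crest.Agent.R238.PLim

/-!
# R238 / PST

Short time existence. `δₖ = 1/(k+1)`, `hₖ` from `exists_msol`, `boot`, `unif`; `pds l (mop ..) = J (pds l P)` is bounded uniformly in `k` (`dp_pds`, `DP.bound1`,
`Ord.J`, `abs_J_le`), so `pds l (hₖ t) x` is equi-Lipschitz in `t`; `exists_limit` gives `G`, `w = w₀ + G`.
`pds l (hₖ t) x = ∫_a^t J δₖ (pds l Pₖ s) x ds` (FTC), `J_sub_le`, `DP.tendsto` (jets of `w₀ + J δₖ hₖ s` converge, again `J_sub_le`), dominated convergence; the limit integrand is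
continuous (`DP.continuousOn`), FTC.
-/

set_option autoImplicit false

open MeasureTheory Set Filter
open scoped ContDiff Topology

noncomputable section

namespace Crest.Agent.R238.P

variable {n : ℕ}

theorem short_time {T : Set ℝ} {Φ : X n → ℝ} (hΦ : Sym T Φ) {lam r : ℝ} (hl : 0 < lam) (hr : 0 < r) (B : ℝ) :
    ∃ τ > 0, ∀ (w₀ : E n → ℝ) (a b : ℝ), a ≤ b → Icc a b ⊆ T → b - a ≤ τ → CbF 2 w₀ → Ell (Icc a b) Φ lam r w₀ →
      Ord 2 (2 * n + 6) B w₀ → ∃ w, Sol (op Φ) a b w ∧ w a = w₀ ∧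
        (∀ t ∈ Icc a b, ∀ x, ‖hs (w t) x - hs w₀ x‖ ≤ r) ∧
        ∀ l : List (Fin n), ∃ C, ∀ t ∈ Icc a b, ∀ x, |pds l (fun y => w t y - w₀ y) x| ≤ C := sorry


end Crest.Agent.R238.P
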