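import Crest.Agent.R238.PMat
import Crest.Agent.R238.PDP

/-!
# R238 / PSymb

The concrete symbols.
`exists_cut`: `K = {M | Lo c M ∧ ‖M‖ ≤ C}` is compact and lies in the open set `U = {M | ∃ c' > 0, Lo c' M}` (`Lo.pert`), on which
`ldet ∘ symm` is smooth (`det_pos`, `qf_symm`); multiply by a smooth compactly supported `χ` with `χ = 1` near `K`, `tsupport χ ⊆ U`
(`exists_contDiff_tsupport_subset`-type lemmas, e.g. `exists_contMDiff_one_nhds_of_subset_interior`, `IsCompact.exists_...`).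
`sym_mat`, `sym_spat`: prove `Bk T k` by induction on `k` for ALL `a`, `Ψ` (resp. `b`) at once:
`dz = 0`, `dm i j` gives `a s` and `fun M => fderiv ℝ Ψ M (E i j)`; resp. `dz i` gives `a s` and `pd i b`, `dm = 0`.
`exists_clamp`: `σ s = s * χ s` with a `ContDiffBump`.
-/

set_option autoImplicit false

open MeasureTheory Set Filter
open scoped ContDiff Topology

noncomputable section

namespace Crest.Agent.R238.P

variable {n : ℕ}

theorem symb_fam {T : Set ℝ} (𝓕 : (X n → ℝ) → Prop)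
    (hb : ∀ Φ, 𝓕 Φ → ∃ C, ∀ p : X n, p.1 ∈ T → |Φ p| ≤ C)
    (hz : ∀ Φ, 𝓕 Φ → ∀ i, 𝓕 (dz i Φ)) (hm : ∀ Φ, 𝓕 Φ → ∀ i j, 𝓕 (dm i j Φ)) (k : ℕ) :
    ∀ Φ, 𝓕 Φ → Bk T k Φ := by
  induction k with
  | zero => exact hb
  | succ k ih => exact fun Φ h => ⟨hb Φ h, fun i => ih _ (hz Φ h i), fun i j => ih _ (hm Φ h i j)⟩

theorem symb_slice {Φ : X n → ℝ} {p : X n} (h : DifferentiableAt ℝ Φ p) (v : E n × Mat n) :
    fderiv ℝ Φ p (0, v) = fderiv ℝ (fun q => Φ (p.1, q)) p.2 v := by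
  have h1 : HasFDerivAt (fun q : E n × Mat n => (p.1, q)) (ContinuousLinearMap.inr ℝ ℝ _) p.2 :=
    hasFDerivAt_prodMk_right p.1 p.2
  have h2 := HasFDerivAt.comp p.2 (g := Φ) (f := fun q : E n × Mat n => (p.1, q)) h.hasFDerivAt h1
  rw [show fderiv ℝ (fun q => Φ (p.1, q)) p.2 = _ from h2.fderiv]
  rfl

theorem symb_dm {Φ : X n → ℝ} (h : ContDiff ℝ ∞ Φ) (t : ℝ) (x : E n) (M : Mat n) (i j : Fin n) :
    dm i j Φ (t, x, M) = fderiv ℝ (fun N => Φ (t, x, N)) M (Pi.single i (Pi.single j 1)) := by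
  have h1 : HasFDerivAt (fun N : Mat n => ((t, x, N) : X n))
      ((ContinuousLinearMap.inr ℝ ℝ _).comp (ContinuousLinearMap.inr ℝ (E n) (Mat n))) M :=
    (hasFDerivAt_prodMk_right t (x, M)).comp M (hasFDerivAt_prodMk_right x M)
  have h2 := HasFDerivAt.comp M (g := Φ) (f := fun N : Mat n => ((t, x, N) : X n))
    ((h.differentiable (by simp)) _).hasFDerivAt h1
  rw [show fderiv ℝ (fun N => Φ (t, x, N)) M = _ from h2.fderiv]
  rfl

theorem symb_gen {V : Type} [NormedAddCommGroup V] [NormedSpace ℝ V] (L : E n × Mat n →L[ℝ] V)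
    (A : V) {T : Set ℝ} {s : ℝ → ℝ} (hs : ContDiff ℝ ∞ s) (hsb : ∃ C, ∀ t ∈ T, |s t| ≤ C)
    (𝓒 : (V → ℝ) → Prop) (h1 : ∀ Ψ, 𝓒 Ψ → ContDiff ℝ ∞ Ψ) (h2 : ∀ Ψ, 𝓒 Ψ → ∃ C, ∀ y, |Ψ y| ≤ C)
    (h3 : ∀ Ψ, 𝓒 Ψ → ∀ i, 𝓒 fun y => fderiv ℝ Ψ y (L (EuclideanSpace.single i 1, 0)))
    (h4 : ∀ Ψ, 𝓒 Ψ → ∀ i j, 𝓒 fun y => fderiv ℝ Ψ y (L (0, Pi.single i (Pi.single j 1))))
    {a : ℝ → ℝ} (ha : ContDiff ℝ ∞ a) (hab : ∃ C, ∀ t ∈ T, |a t| ≤ C) {Ψ : V → ℝ} (hΨ : 𝓒 Ψ) :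
    Sym T fun p : X n => a p.1 * Ψ (A + s p.1 • L p.2) := by
  have hsm : ∀ (a : ℝ → ℝ) (Ψ : V → ℝ), ContDiff ℝ ∞ a → 𝓒 Ψ →
      ContDiff ℝ ∞ fun p : X n => a p.1 * Ψ (A + s p.1 • L p.2) := fun a Ψ ha hΨ =>
    (ha.comp contDiff_fst).mul ((h1 Ψ hΨ).comp (contDiff_const.add
      ((hs.comp contDiff_fst).smul (L.contDiff.comp contDiff_snd))))
  have hd : ∀ (a : ℝ → ℝ) (Ψ : V → ℝ), ContDiff ℝ ∞ a → 𝓒 Ψ → ∀ (v : E n × Mat n) (p : X n),
      fderiv ℝ (fun p : X n => a p.1 * Ψ (A + s p.1 • L p.2)) p (0, v)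
        = (a p.1 * s p.1) * fderiv ℝ Ψ (A + s p.1 • L p.2) (L v) := by
    intro a Ψ ha hΨ v p
    rw [symb_slice (((hsm a Ψ ha hΨ).differentiable (by simp)) p)]
    have e1 : HasFDerivAt (fun q => A + s p.1 • L q) (s p.1 • L) p.2 :=
      (L.hasFDerivAt.const_smul (s p.1)).const_add A
    have e2 := (HasFDerivAt.comp p.2 (g := Ψ) (f := fun q => A + s p.1 • L q)
      (((h1 Ψ hΨ).differentiable (by simp)) _).hasFDerivAt e1).const_mul (a p.1)
    rw [show fderiv ℝ (fun q => a p.1 * Ψ (A + s p.1 • L q)) p.2 = _ from e2.fderiv]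
    simp only [smul_apply, ContinuousLinearMap.comp_apply, map_smul,
      smul_eq_mul, mul_assoc]
  have hmul : ∀ a : ℝ → ℝ, (∃ C, ∀ t ∈ T, |a t| ≤ C) → ∃ C, ∀ t ∈ T, |a t * s t| ≤ C := by
    rintro a ⟨C, hC⟩
    obtain ⟨D, hD⟩ := hsb
    refine ⟨C * D, fun t ht => ?_⟩
    rw [abs_mul]
    exact mul_le_mul (hC t ht) (hD t ht) (abs_nonneg _) ((abs_nonneg _).trans (hC t ht))
  refine ⟨hsm a Ψ ha hΨ, fun k => symb_fam (fun Φ => ∃ (a : ℝ → ℝ) (Ψ : V → ℝ), ContDiff ℝ ∞ a ∧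
    (∃ C, ∀ t ∈ T, |a t| ≤ C) ∧ 𝓒 Ψ ∧ Φ = fun p : X n => a p.1 * Ψ (A + s p.1 • L p.2))
    ?_ ?_ ?_ k _ ⟨a, Ψ, ha, hab, hΨ, rfl⟩⟩
  · rintro _ ⟨a, Ψ, -, ⟨C, hC⟩, hΨ, rfl⟩
    obtain ⟨D, hD⟩ := h2 Ψ hΨ
    refine ⟨C * D, fun p hp => ?_⟩
    rw [abs_mul]
    exact mul_le_mul (hC _ hp) (hD _) (abs_nonneg _) ((abs_nonneg _).trans (hC _ hp))
  · rintro _ ⟨a, Ψ, ha, hab, hΨ, rfl⟩ i
    exact ⟨fun t => a t * s t, _, ha.mul hs, hmul a hab, h3 Ψ hΨ i,
      funext fun p => hd a Ψ ha hΨ _ p⟩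
  · rintro _ ⟨a, Ψ, ha, hab, hΨ, rfl⟩ i j
    exact ⟨fun t => a t * s t, _, ha.mul hs, hmul a hab, h4 Ψ hΨ i j,
      funext fun p => hd a Ψ ha hΨ _ p⟩

theorem symb_cpt {V : Type} [NormedAddCommGroup V] [NormedSpace ℝ V] (L : E n × Mat n →L[ℝ] V)
    (A : V) {T : Set ℝ} {s : ℝ → ℝ} (hs : ContDiff ℝ ∞ s) (hsb : ∃ C, ∀ t ∈ T, |s t| ≤ C)
    {a : ℝ → ℝ} (ha : ContDiff ℝ ∞ a) (hab : ∃ C, ∀ t ∈ T, |a t| ≤ C) {Ψ : V → ℝ}
    (h : ContDiff ℝ ∞ Ψ) (hc : HasCompactSupport Ψ) :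
    Sym T fun p : X n => a p.1 * Ψ (A + s p.1 • L p.2) := by
  have key : ∀ (Ψ : V → ℝ) (w : V), ContDiff ℝ ∞ Ψ ∧ HasCompactSupport Ψ →
      (ContDiff ℝ ∞ fun y => fderiv ℝ Ψ y w) ∧ HasCompactSupport fun y => fderiv ℝ Ψ y w :=
    fun Ψ w h => ⟨(h.1.fderiv_right (m := ∞) (by simp)).clm_apply contDiff_const,
      h.2.fderiv_apply ℝ w⟩
  exact symb_gen L A hs hsb (fun Ψ => ContDiff ℝ ∞ Ψ ∧ HasCompactSupport Ψ) (fun _ h => h.1)
    (fun Ψ h => h.2.exists_bound_of_continuous h.1.continuous) (fun Ψ h _ => key Ψ _ h)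
    (fun Ψ h _ _ => key Ψ _ h) ha hab ⟨h, hc⟩

theorem symb_icc {a : ℝ → ℝ} (ha : ContDiff ℝ ∞ a) (t₀ t₁ : ℝ) : ∃ C, ∀ t ∈ Icc t₀ t₁, |a t| ≤ C :=
  isCompact_Icc.exists_bound_of_continuousOn ha.continuous.continuousOn

theorem symb_one (T : Set ℝ) : ∃ C : ℝ, ∀ t ∈ T, |(fun _ : ℝ => (1 : ℝ)) t| ≤ C :=
  ⟨1, fun _ _ => by simp⟩

theorem symb_sum (B : Mat n) (i j : Fin n) :
    ∑ a, ∑ b, B a b * (Pi.single i (Pi.single j 1) : Mat n) a b = B i j := by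
  rw [Finset.sum_eq_single i]
  · simp [Pi.single_apply]
  · intro a _ ha
    simp [Pi.single_eq_of_ne ha]
  · simp

theorem symb_symm : ContDiff ℝ ∞ (symm (n := n)) := by
  refine contDiff_pi.2 fun i => contDiff_pi.2 fun j => ?_
  unfold symm
  fun_prop

theorem symb_fderiv {M : Mat n} (hd : (Matrix.of (symm M)).det ≠ 0) (i j : Fin n) :
    fderiv ℝ (fun N => ldet (symm N)) M (Pi.single i (Pi.single j 1)) = inv (symm M) i j := by
  set D : Mat n := Pi.single i (Pi.single j 1) with hD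
  have h0 : DifferentiableAt ℝ (fun N => ldet (symm N)) M :=
    ((contDiffAt_ldet hd).comp M symb_symm.contDiffAt).differentiableAt (by simp)
  have h1 : HasDerivAt (fun s : ℝ => M + s • D) D 0 := by
    simpa using ((hasDerivAt_id (0 : ℝ)).smul_const D).const_add M
  have h2 : HasDerivAt (fun s : ℝ => ldet (symm (M + s • D)))
      (fderiv ℝ (fun N => ldet (symm N)) M D) 0 := by
    refine HasFDerivAt.comp_hasDerivAt_of_eq (0 : ℝ) h0.hasFDerivAt h1 ?_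
    simp
  have h3 : ∀ a b, HasDerivWithinAt (fun s : ℝ => symm (M + s • D) a b) (symm D a b) univ 0 := by
    intro a b
    have e : (fun s : ℝ => symm (M + s • D) a b) = fun s => symm M a b + s * symm D a b := by
      funext s
      simp only [symm, Pi.add_apply, Pi.smul_apply, smul_eq_mul]
      ring
    rw [e]
    simpa using (((hasDerivAt_id (0 : ℝ)).mul_const (symm D a b)).const_add
      (symm M a b)).hasDerivWithinAt (s := univ)
  have h4 := hasDerivWithinAt_ldet (M := fun s : ℝ => symm (M + s • D)) h3 (by simpa using hd)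
  rw [hasDerivWithinAt_univ] at h4
  rw [h2.unique h4]
  simp only [zero_smul, add_zero]
  have hS := (isS_symm M).inv
  have e1 : ∀ a b, inv (symm M) b a * symm D a b
      = inv (symm M) a b * D a b / 2 + inv (symm M) b a * D b a / 2 := fun a b => by
    rw [hS a b]
    simp only [symm]
    ring
  simp only [e1, Finset.sum_add_distrib, ← Finset.sum_div]
  rw [Finset.sum_comm (f := fun a b => inv (symm M) b a * D b a), hD, symb_sum]
  ring

theorem exists_cut {c : ℝ} (hc : 0 < c) (C : ℝ) : ∃ Ψ : Mat n → ℝ, ContDiff ℝ ∞ Ψ ∧ HasCompactSupport Ψ ∧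
    ∀ M, Lo c M → ‖M‖ ≤ C → Ψ M = ldet (symm M) ∧
      ∀ i j, fderiv ℝ Ψ M (Pi.single i (Pi.single j 1)) = inv (symm M) i j := by
  have hK : IsCompact {M : Mat n | Lo c M ∧ ‖M‖ ≤ C} := by
    refine (isCompact_closedBall (0 : Mat n) C).of_isClosed_subset ?_
      fun M hM => mem_closedBall_zero_iff.2 hM.2
    refine IsClosed.inter ?_ (isClosed_le continuous_norm continuous_const)
    have e : {M : Mat n | Lo c M} = ⋂ ξ, {M : Mat n | c * n2 ξ ≤ qf M ξ} := by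
      ext M
      simp [Lo]
    show IsClosed {M : Mat n | Lo c M}
    rw [e]
    refine isClosed_iInter fun ξ => isClosed_le continuous_const ?_
    unfold qf
    fun_prop
  have hU : IsOpen {M : Mat n | (Matrix.of (symm M)).det ≠ 0} := by
    refine isOpen_ne_fun ?_ continuous_const
    exact Continuous.matrix_det symb_symm.continuous
  have hKU : {M : Mat n | Lo c M ∧ ‖M‖ ≤ C} ⊆ {M : Mat n | (Matrix.of (symm M)).det ≠ 0} :=
    fun M hM => (det_pos (isS_symm M) hc fun ξ => by rw [qf_symm]; exact hM.1 ξ).ne'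
  obtain ⟨K, hK', hCK, hKΩ⟩ := exists_compact_between hK hU hKU
  obtain ⟨f, h1, h0, -⟩ := exists_contMDiffMap_one_nhds_of_subset_interior
    (modelWithCornersSelf ℝ (Mat n)) (n := (⊤ : ℕ∞)) hK.isClosed hCK
  have hs : tsupport f ⊆ K :=
    closure_minimal (fun x hx => by by_contra hx'; exact hx (h0 x hx')) hK'.isClosed
  have hf : ContDiff ℝ ∞ f := f.contMDiff.contDiff
  have hfc : HasCompactSupport f := hK'.of_isClosed_subset (isClosed_tsupport _) hs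
  refine ⟨fun M => f M * ldet (symm M), contDiff_iff_contDiffAt.2 fun M => ?_, hfc.mul_right,
    fun M hM hM' => ?_⟩
  · by_cases hM : M ∈ tsupport f
    · exact hf.contDiffAt.mul ((contDiffAt_ldet (hKΩ (hs hM))).comp M symb_symm.contDiffAt)
    · refine (contDiffAt_const (c := (0 : ℝ))).congr_of_eventuallyEq ?_
      filter_upwards [notMem_tsupport_iff_eventuallyEq.1 hM] with N hN
      simp [hN]
  · have hm : M ∈ {M : Mat n | Lo c M ∧ ‖M‖ ≤ C} := ⟨hM, hM'⟩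
    have e : (fun M => f M * ldet (symm M)) =ᶠ[𝓝 M] fun M => ldet (symm M) := by
      filter_upwards [h1.filter_mono (nhds_le_nhdsSet hm)] with N hN
      rw [hN, one_mul]
    refine ⟨e.eq_of_nhds, fun i j => ?_⟩
    rw [e.fderiv_eq, symb_fderiv (hKU hm)]
theorem sym_mat {a s : ℝ → ℝ} (ha : ContDiff ℝ ∞ a) (hs : ContDiff ℝ ∞ s) (A : Mat n) {Ψ : Mat n → ℝ}
    (h : ContDiff ℝ ∞ Ψ) (hc : HasCompactSupport Ψ) (t₀ t₁ : ℝ) :
    Sym (Icc t₀ t₁) fun p : X n => a p.1 * Ψ (A + s p.1 • p.2.2) :=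
  symb_cpt (ContinuousLinearMap.snd ℝ (E n) (Mat n)) A hs (symb_icc hs t₀ t₁) ha (symb_icc ha t₀ t₁) h hc
/-- time independent version, valid for all times -/
theorem sym_mat' {Ψ : Mat n → ℝ} (h : ContDiff ℝ ∞ Ψ) (hc : HasCompactSupport Ψ) :
    Sym univ fun p : X n => Ψ p.2.2 := by
  have := symb_cpt (ContinuousLinearMap.snd ℝ (E n) (Mat n)) 0 contDiff_const (symb_one univ)
    contDiff_const (symb_one univ) h hc
  simpa using this
theorem sym_spat {a s : ℝ → ℝ} (ha : ContDiff ℝ ∞ a) (hs : ContDiff ℝ ∞ s) {b : E n → ℝ} (hb : CbF 0 b)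
    (t₀ t₁ : ℝ) : Sym (Icc t₀ t₁) fun p : X n => a p.1 * b (s p.1 • p.2.1) := by
  have := symb_gen (ContinuousLinearMap.fst ℝ (E n) (Mat n)) 0 hs (symb_icc hs t₀ t₁) (CbF 0)
    (fun _ h => h.sm) (fun _ h => h.bd [] le_rfl) (fun _ h i => h.pds0 [i])
    (fun _ _ i j => by simpa using cbF_const 0 0) ha (symb_icc ha t₀ t₁) hb
  simpa using this
theorem exists_clamp : ∃ σ : ℝ → ℝ, ContDiff ℝ ∞ σ ∧ HasCompactSupport σ ∧
    ∀ s, |s| ≤ 3 → σ s = s ∧ deriv σ s = 1 := by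
  let χ : ContDiffBump (0 : ℝ) := ⟨4, 5, by norm_num, by norm_num⟩
  refine ⟨fun s => s * χ s, contDiff_id.mul χ.contDiff, χ.hasCompactSupport.mul_left, fun s hs => ?_⟩
  have e : (fun s => s * χ s) =ᶠ[𝓝 s] fun s => s := by
    have hm : s ∈ Metric.ball (0 : ℝ) 4 := by
      rw [mem_ball_zero_iff, Real.norm_eq_abs]
      linarith
    filter_upwards [Metric.isOpen_ball.mem_nhds hm] with y hy
    rw [χ.one_of_mem_closedBall (Metric.ball_subset_closedBall hy), mul_one]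
  exact ⟨e.eq_of_nhds, by rw [e.deriv_eq]; simp⟩
theorem sym_entry {σ : ℝ → ℝ} (h : ContDiff ℝ ∞ σ) (hc : HasCompactSupport σ) (T : Set ℝ) (i j : Fin n) :
    Sym T fun p : X n => σ (p.2.2 i j) := by
  have := symb_cpt ((ContinuousLinearMap.proj (R := ℝ) (φ := fun _ : Fin n => ℝ) j).comp
    ((ContinuousLinearMap.proj (R := ℝ) (φ := fun _ : Fin n => Fin n → ℝ) i).comp
      (ContinuousLinearMap.snd ℝ (E n) (Mat n)))) 0 contDiff_const (symb_one T)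
    contDiff_const (symb_one T) h hc
  simpa using this

/-- the symbol of `ldet` (variables `x`) -/
theorem exists_sym_x {c : ℝ} (hc : 0 < c) (C : ℝ) : ∃ Φ : X n → ℝ, Sym univ Φ ∧
    ∀ t x M, IsS M → Lo c M → ‖M‖ ≤ C → Φ (t, x, M) = ldet M ∧ ∀ i j, dm i j Φ (t, x, M) = inv M i j := by
  obtain ⟨Ψ, h1, h2, h3⟩ := exists_cut (n := n) hc C
  have hs := sym_mat' h1 h2
  refine ⟨_, hs, fun t x M hM h0 hC => ⟨?_, fun i j => ?_⟩⟩
  · show Ψ M = _
    rw [(h3 M h0 hC).1, hM.symm_eq]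
  · rw [symb_dm hs.sm]
    show fderiv ℝ Ψ M _ = _
    rw [(h3 M h0 hC).2, hM.symm_eq]
/-- the symbol of `zop` -/
theorem exists_sym_z {b : E n → ℝ} (hb : CbF 0 b) {c : ℝ} (hc : 0 < c) (C T : ℝ) :
    ∃ Φ : X n → ℝ, Sym (Icc 0 T) Φ ∧ ∀ t x M, Lo c (one n + Real.exp (-t) • M) →
      ‖one n + Real.exp (-t) • M‖ ≤ C →
      Φ (t, x, M) = Real.exp (-t) * (ldet (symm (one n + Real.exp (-t) • M)) + b (Real.exp t • x)) ∧
      ∀ i j, dm i j Φ (t, x, M) = Real.exp (-t) ^ 2 * inv (symm (one n + Real.exp (-t) • M)) i j := by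
  obtain ⟨Ψ, h1, h2, h3⟩ := exists_cut (n := n) hc C
  have e1 : ContDiff ℝ ∞ fun t : ℝ => Real.exp (-t) := by fun_prop
  have hs := (sym_mat e1 e1 (one n) h1 h2 0 T).add (sym_spat e1 Real.contDiff_exp hb 0 T)
  refine ⟨_, hs, fun t x M h0 hC => ⟨?_, fun i j => ?_⟩⟩
  · simp only [(h3 _ h0 hC).1, mul_add]
  · rw [symb_dm hs.sm]
    have d1 : HasFDerivAt (fun N : Mat n => one n + Real.exp (-t) • N)
        (Real.exp (-t) • ContinuousLinearMap.id ℝ (Mat n)) M :=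
      ((hasFDerivAt_id M).const_smul (Real.exp (-t))).const_add (one n)
    have d2 := ((HasFDerivAt.comp M (g := Ψ) (f := fun N : Mat n => one n + Real.exp (-t) • N)
      ((h1.differentiable (by simp)) _).hasFDerivAt d1).const_mul (Real.exp (-t))).add_const
      (Real.exp (-t) * b (Real.exp t • x))
    rw [show fderiv ℝ (fun N : Mat n => Real.exp (-t) * Ψ (one n + Real.exp (-t) • N)
      + Real.exp (-t) * b (Real.exp t • x)) M = _ from d2.fderiv]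
    simp only [smul_apply, ContinuousLinearMap.comp_apply, map_smul,
      smul_eq_mul, ContinuousLinearMap.id_apply, (h3 _ h0 hC).2]
    ring
/-- the symbol of the linear flow in the variables `z` -/
theorem exists_sym_lin {a : E n → Mat n} (ha : ∀ i j, CbF 0 fun x => a x i j) (T : ℝ) :
    ∃ Φ : X n → ℝ, Sym (Icc 0 T) Φ ∧ ∀ t x M, ‖M‖ ≤ 3 →
      Φ (t, x, M) = Real.exp (-t) ^ 2 * ∑ i, ∑ j, a (Real.exp t • x) i j * M i j ∧
      ∀ i j, dm i j Φ (t, x, M) = Real.exp (-t) ^ 2 * a (Real.exp t • x) i j := by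
  obtain ⟨σ, h1, h2, h3⟩ := exists_clamp
  have e1 : ContDiff ℝ ∞ fun t : ℝ => Real.exp (-t) ^ 2 := by fun_prop
  have hs : Sym (Icc 0 T) fun p : X n => ∑ i, ∑ j,
      Real.exp (-p.1) ^ 2 * a (Real.exp p.1 • p.2.1) i j * σ (p.2.2 i j) :=
    Sym.sum _ fun i _ => Sym.sum _ fun j _ =>
      (sym_spat e1 Real.contDiff_exp (ha i j) 0 T).mul (sym_entry h1 h2 _ i j)
  refine ⟨_, hs, fun t x M hM => ?_⟩
  have hM' : ∀ i j, |M i j| ≤ 3 := fun i j =>
    ((norm_le_pi_norm (M i) j).trans (norm_le_pi_norm M i)).trans hM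
  refine ⟨?_, fun i j => ?_⟩
  · simp only [(h3 _ (hM' _ _)).1, Finset.mul_sum, mul_assoc]
  · rw [symb_dm hs.sm]
    have d1 : ∀ k l, HasFDerivAt (fun N : Mat n => σ (N k l))
        ((ContinuousLinearMap.proj (R := ℝ) (φ := fun _ : Fin n => ℝ) l).comp
          (ContinuousLinearMap.proj (R := ℝ) (φ := fun _ : Fin n => Fin n → ℝ) k)) M := by
      intro k l
      have d0 := ((h1.differentiable (by simp)) (M k l)).hasDerivAt
      rw [(h3 _ (hM' k l)).2] at d0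
      have := d0.comp_hasFDerivAt M
        ((ContinuousLinearMap.proj (R := ℝ) (φ := fun _ : Fin n => ℝ) l).comp
          (ContinuousLinearMap.proj (R := ℝ) (φ := fun _ : Fin n => Fin n → ℝ) k)).hasFDerivAt
      rw [one_smul] at this
      exact this
    have d2 := HasFDerivAt.fun_sum (u := Finset.univ) fun k _ => HasFDerivAt.fun_sum
      (u := Finset.univ) fun l _ =>
        (d1 k l).const_mul (Real.exp (-t) ^ 2 * a (Real.exp t • x) k l)
    rw [d2.fderiv]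
    simp only [sum_apply, smul_apply,
      ContinuousLinearMap.comp_apply, ContinuousLinearMap.proj_apply, smul_eq_mul]
    exact symb_sum (fun k l => Real.exp (-t) ^ 2 * a (Real.exp t • x) k l) i j


end Crest.Agent.R238.P
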