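import Crest.Agent.R238.Red5

/-!
# R238/Red: from polyhedra to convex bodies
-/

set_option autoImplicit false
open MeasureTheory Set Filter Topology
open scoped RealInnerProductSpace

namespace Crest.Agent.R238

variable {n N : ℕ}

theorem red_supp {K : Set (E n)} (hKc : IsCompact K) (hKi : (interior K).Nonempty) (hKs : ∀ x ∈ K, -x ∈ K)
    {u : E n} (hu : u ∈ Metric.sphere (0 : E n) 1) :
    0 < sSup ((fun y => ⟪y, u⟫) '' K) ∧ ∀ x ∈ K, |⟪u, x⟫| ≤ sSup ((fun y => ⟪y, u⟫) '' K) := by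
  have hb : BddAbove ((fun y => ⟪y, u⟫) '' K) := (hKc.image (by fun_prop)).bddAbove
  have h1 : ∀ x ∈ K, |⟪u, x⟫| ≤ sSup ((fun y => ⟪y, u⟫) '' K) := fun x hx => by
    have a := le_csSup hb (mem_image_of_mem _ hx)
    have b := le_csSup hb (mem_image_of_mem _ (hKs x hx))
    simp only [inner_neg_left] at a b
    rw [real_inner_comm]
    exact abs_le.2 ⟨by linarith, a⟩
  refine ⟨?_, h1⟩
  obtain ⟨x, hx⟩ := hKi
  obtain ⟨r, hr, hB⟩ := Metric.mem_nhds_iff.1 (mem_interior_iff_mem_nhds.1 hx)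
  have hu1 : ‖u‖ = 1 := by simpa using hu
  have hm : ∀ s : ℝ, |s| < r → x + s • u ∈ K := fun s hs => hB (by simpa [dist_eq_norm, norm_smul, hu1] using hs)
  have a := abs_le.1 (h1 _ (hm (r / 2) (by rw [abs_of_pos] <;> linarith)))
  have b := abs_le.1 (h1 _ (hm (-(r / 2)) (by rw [abs_neg, abs_of_pos] <;> linarith)))
  simp only [inner_add_right, inner_smul_right, real_inner_self_eq_norm_sq, hu1] at a b
  linarith [a.2, b.1]

theorem red_gint {δ : ℝ} (hδ : 0 < δ) : Integrable fun x : E n => Real.exp (-(δ * (‖x‖ ^ 2 / 2))) := by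
  simpa using red_int (n := n) hδ 0

theorem red_GM_mono {δ : ℝ} (hδ : 0 < δ) {A B : Set (E n)} (h : A ⊆ B) : GM δ A ≤ GM δ B :=
  setIntegral_mono_set (red_gint hδ).integrableOn (ae_of_all _ fun _ => (Real.exp_pos _).le) h.eventuallyLE

theorem red_GM_le {δ : ℝ} (hδ : 0 < δ) {A : Set (E n)} (h : volume A ≠ ⊤) : GM δ A ≤ volume.real A := by
  have := setIntegral_mono (μ := volume) (s := A) (red_gint hδ).integrableOn (integrableOn_const (C := (1 : ℝ)) h)
    fun x => Real.exp_le_one_iff.2 (neg_nonpos.2 (by positivity))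
  simpa [GM] using this

theorem red_le_GM {δ R : ℝ} (hδ : 0 < δ) {A : Set (E n)} (h : IsCompact A) (hR : ∀ x ∈ A, ‖x‖ ≤ R) :
    Real.exp (-(δ * (R ^ 2 / 2))) * volume.real A ≤ GM δ A :=
  setIntegral_ge_of_const_le_real h.measurableSet h.measure_lt_top.ne
    (fun x hx => Real.exp_le_exp.2 (neg_le_neg (by gcongr; exact hR x hx))) (red_gint hδ).integrableOn

theorem red_mem_pol {u : Fin N → E n} {p q : Fin N → ℝ} (hp : ∀ j, 0 < p j) (hq : ∀ j, 0 < q j) (s : ℝ) (x : E n) :
    x ∈ Pol (dil (fun j => (p j)⁻¹ • u j) (fun j => Real.log (q j / p j)) s) ↔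
      ∀ j, |⟪u j, x⟫| ≤ p j ^ (1 - s) * q j ^ s := by
  refine forall_congr' fun j => ?_
  have e : Real.exp (-(s * Real.log (q j / p j))) * (p j)⁻¹ = (p j ^ (1 - s) * q j ^ s)⁻¹ := by
    rw [mul_comm s, Real.exp_neg, ← Real.rpow_def_of_pos (div_pos (hq j) (hp j)), Real.div_rpow (hq j).le (hp j).le,
      Real.rpow_sub (hp j), Real.rpow_one]
    field_simp
  have h0 : 0 < p j ^ (1 - s) * q j ^ s := mul_pos (Real.rpow_pos_of_pos (hp j) _) (Real.rpow_pos_of_pos (hq j) _)
  simp only [dil, smul_smul, e, inner_smul_left, conj_trivial, abs_mul, abs_of_pos (inv_pos.2 h0)]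
  rw [inv_mul_le_iff₀ h0, mul_one]

theorem red (hn : 1 ≤ n) (hV : Var4 n) (K L : Set (EuclideanSpace ℝ (Fin n)))
    (hKc : IsCompact K) (_hKv : Convex ℝ K) (hKi : (interior K).Nonempty) (hKs : ∀ x ∈ K, -x ∈ K)
    (hLc : IsCompact L) (_hLv : Convex ℝ L) (hLi : (interior L).Nonempty) (hLs : ∀ x ∈ L, -x ∈ L)
    (t : ℝ) (ht0 : 0 ≤ t) (ht1 : t ≤ 1) :
    volume K ^ (1 - t) * volume L ^ t ≤
      volume (⋂ u ∈ Metric.sphere (0 : EuclideanSpace ℝ (Fin n)) 1,
        {x : EuclideanSpace ℝ (Fin n) | inner ℝ x u ≤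
          sSup ((fun y => inner ℝ y u) '' K) ^ (1 - t) * sSup ((fun y => inner ℝ y u) '' L) ^ t}) := by
  set p : E n → ℝ := fun u => sSup ((fun y => ⟪y, u⟫) '' K) with hp
  set q : E n → ℝ := fun u => sSup ((fun y => ⟪y, u⟫) '' L) with hq
  set H : E n → Set (E n) := fun u => {x | ⟪x, u⟫ ≤ p u ^ (1 - t) * q u ^ t} with hH
  change _ ≤ volume (⋂ u ∈ Metric.sphere (0 : E n) 1, H u)
  set W := ⋂ u ∈ Metric.sphere (0 : E n) 1, H u with hW
  rcases eq_or_ne (volume W) ⊤ with hWt | hWt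
  · rw [hWt]
    exact le_top
  obtain ⟨T, hT, hTc, hTe⟩ := TopologicalSpace.isOpen_biUnion_countable (Metric.sphere (0 : E n) 1)
    (fun u => (H u)ᶜ) fun u _ => (isClosed_le (by fun_prop) continuous_const).isOpen_compl
  have he : (EuclideanSpace.single ⟨0, hn⟩ 1 : E n) ∈ Metric.sphere (0 : E n) 1 := by simp
  obtain ⟨u, hu⟩ := (hTc.insert (EuclideanSpace.single ⟨0, hn⟩ 1)).exists_eq_range (insert_nonempty _ _)
  have hus : ∀ k, u k ∈ Metric.sphere (0 : E n) 1 := fun k =>
    insert_subset he hT (hu ▸ mem_range_self k)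
  have hK := fun k => red_supp hKc hKi hKs (hus k)
  have hL := fun k => red_supp hLc hLi hLs (hus k)
  let P : ℕ → Set (E n) := fun N => {x | ∀ j : Fin N, |⟪u j, x⟫| ≤ p (u j) ^ (1 - t) * q (u j) ^ t}
  have hPW : ⋂ N, P N ⊆ W := fun x hx => by
    by_contra h
    have : x ∈ ⋃ u ∈ Metric.sphere (0 : E n) 1, (H u)ᶜ := by
      simpa only [hW, compl_iInter] using mem_compl h
    rw [← hTe] at this
    obtain ⟨v, hv, hx'⟩ := mem_iUnion₂.1 this
    obtain ⟨k, rfl⟩ : v ∈ range u := hu ▸ mem_insert_of_mem _ hv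
    refine hx' ?_
    have := (le_abs_self _).trans (mem_iInter.1 hx (k + 1) (Fin.last k))
    rwa [real_inner_comm] at this
  obtain ⟨R, hR⟩ := (hKc.union hLc).isBounded.exists_norm_le
  have key : ∀ δ : ℝ, 0 < δ → Real.exp (-(δ * (R ^ 2 / 2))) * (volume.real K ^ (1 - t) * volume.real L ^ t) ≤
      volume.real W := fun δ hδ => by
    have hlim : Tendsto (fun N => GM δ (P N)) atTop (𝓝 (GM δ (⋂ N, P N))) :=
      tendsto_setIntegral_of_antitone (fun N => by
          simp only [P, ofPred_forall]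
          exact MeasurableSet.iInter fun j => measurableSet_le (by fun_prop) measurable_const)
        (fun N M h x hx j => hx (Fin.castLE h j)) ⟨0, (red_gint hδ).integrableOn⟩
    refine (ge_of_tendsto' hlim fun N => ?_).trans ((red_GM_mono hδ hPW).trans (red_GM_le hδ hWt))
    have hm := red_mem_pol (u := fun j : Fin N => u j) (p := fun j => p (u j)) (q := fun j => q (u j))
      (fun j => (hK j).1) fun j => (hL j).1
    have h := GM_logconc hV hδ (fun j : Fin N => (p (u j))⁻¹ • u j) (fun j => Real.log (q (u j) / p (u j))) ht0 ht1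
    rw [show Pol _ = P N from Set.ext (hm t)] at h
    refine le_trans ?_ h
    have a := (red_le_GM hδ hKc fun x hx => hR x (Or.inl hx)).trans
      (red_GM_mono hδ fun x hx => (hm 0 x).2 fun j => by simpa using (hK j).2 x hx)
    have b := (red_le_GM hδ hLc fun x hx => hR x (Or.inr hx)).trans
      (red_GM_mono hδ fun x hx => (hm 1 x).2 fun j => by simpa using (hL j).2 x hx)
    have c := Real.exp_pos (-(δ * (R ^ 2 / 2)))
    calc _ = (Real.exp (-(δ * (R ^ 2 / 2))) * volume.real K) ^ (1 - t) *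
          (Real.exp (-(δ * (R ^ 2 / 2))) * volume.real L) ^ t := by
          rw [Real.mul_rpow c.le measureReal_nonneg, Real.mul_rpow c.le measureReal_nonneg, mul_mul_mul_comm,
            ← Real.rpow_add c, sub_add_cancel, Real.rpow_one]
      _ ≤ _ := by
          have := sub_nonneg.2 ht1
          gcongr
          exact Real.rpow_nonneg (le_trans (by positivity) a) _
  have fin : volume.real K ^ (1 - t) * volume.real L ^ t ≤ volume.real W := by
    have hc : Continuous fun δ : ℝ =>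
        Real.exp (-(δ * (R ^ 2 / 2))) * (volume.real K ^ (1 - t) * volume.real L ^ t) := by fun_prop
    have := le_of_tendsto ((hc.tendsto 0).mono_left (nhdsWithin_le_nhds (s := Ioi 0)))
      (eventually_nhdsWithin_of_forall key)
    simpa using this
  have := ENNReal.ofReal_le_ofReal fin
  rwa [ENNReal.ofReal_mul (by positivity), ← ENNReal.ofReal_rpow_of_nonneg measureReal_nonneg (sub_nonneg.2 ht1),
    ← ENNReal.ofReal_rpow_of_nonneg measureReal_nonneg ht0, ofReal_measureReal hKc.measure_lt_top.ne,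
    ofReal_measureReal hLc.measure_lt_top.ne, ofReal_measureReal hWt] at this

end Crest.Agent.R238
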