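import Crest.Agent.R238.RedDef

/-!
# R238/Red1: the one dimensional functions
-/

set_option autoImplicit false
open MeasureTheory Set Filter Topology
open scoped RealInnerProductSpace

namespace Crest.Agent.R238

variable {n N : ℕ}

/-- `m r = ∫ s in 0..r, Real.smoothTransition s`, `c = 1 - m 1`; `deriv m = smoothTransition`
(`Continuous.deriv_integral`, `contDiff_infty_iff_deriv`), `Real.smoothTransition.monotone`, `Monotone.deriv_nonneg`. -/
theorem exists_mx : ∃ (m : ℝ → ℝ) (c : ℝ), Mx m c := by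
  have hc := Real.smoothTransition.continuous
  have hd : ∀ r, HasDerivAt (fun r => ∫ s in (0 : ℝ)..r, Real.smoothTransition s)
      (Real.smoothTransition r) r := fun r => (hc.integral_hasStrictDerivAt 0 r).hasDerivAt
  have hder : deriv (fun r => ∫ s in (0 : ℝ)..r, Real.smoothTransition s) = Real.smoothTransition :=
    funext fun r => (hd r).deriv
  refine ⟨fun r => ∫ s in (0 : ℝ)..r, Real.smoothTransition s,
    1 - ∫ s in (0 : ℝ)..1, Real.smoothTransition s, ?_, ?_, ?_, ?_, ?_, ?_⟩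
  · refine contDiff_infty_iff_deriv.2 ⟨fun r => (hd r).differentiableAt, ?_⟩
    rw [hder]
    exact Real.smoothTransition.contDiff
  · intro r hr
    have : ∫ s in (0 : ℝ)..r, Real.smoothTransition s = ∫ _ in (0 : ℝ)..r, (0 : ℝ) := by
      refine intervalIntegral.integral_congr fun s hs => ?_
      rw [uIcc_of_ge hr] at hs
      exact Real.smoothTransition.zero_of_nonpos hs.2
    simpa using this
  · intro r hr
    exact intervalIntegral.intervalIntegral_pos_of_pos_on (hc.intervalIntegrable _ _)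
      (fun s hs => Real.smoothTransition.pos_of_pos hs.1) hr
  · intro r hr
    have h1 : ∫ s in (1 : ℝ)..r, Real.smoothTransition s = ∫ _ in (1 : ℝ)..r, (1 : ℝ) := by
      refine intervalIntegral.integral_congr fun s hs => ?_
      rw [uIcc_of_le hr] at hs
      exact Real.smoothTransition.one_of_one_le hs.1
    have h2 := intervalIntegral.integral_add_adjacent_intervals (μ := volume)
      (hc.intervalIntegrable 0 1) (hc.intervalIntegrable 1 r)
    simp only [intervalIntegral.integral_const, smul_eq_mul, mul_one] at h1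
    linarith
  · intro r
    rw [hder]
    exact Real.smoothTransition.nonneg r
  · intro r
    rw [hder]
    exact Real.smoothTransition.monotone.deriv_nonneg

theorem Mx.nn {m : ℝ → ℝ} {c : ℝ} (h : Mx m c) (r : ℝ) : 0 ≤ m r := by
  rcases le_or_gt r 0 with hr | hr
  · exact (h.zero r hr).ge
  · exact (h.pos r hr).le

theorem red1_aff (a b : ℝ) {k : ℕ} (hk : 2 ≤ k) (y : ℝ) :
    iteratedDeriv k (fun y : ℝ => a * y + b) y = 0 := by
  obtain ⟨j, rfl⟩ := Nat.exists_eq_add_of_le' hk
  have h1 : deriv (fun y : ℝ => a * y + b) = fun _ => a := by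
    funext y
    have : HasDerivAt (fun y : ℝ => a * y + b) a y := by
      simpa using ((hasDerivAt_id y).const_mul a).add_const b
    exact this.deriv
  have h2 : deriv (fun _ : ℝ => a) = fun _ => (0 : ℝ) := by
    funext y
    simp
  rw [show j + 2 = (j + 1) + 1 from rfl, iteratedDeriv_succ', iteratedDeriv_succ', h1, h2]
  exact iteratedDeriv_fun_const_zero

theorem red1_two (w : ℝ → ℝ) : iteratedDeriv 2 w = deriv (deriv w) := by
  rw [show (2 : ℕ) = (0 + 1) + 1 from rfl, iteratedDeriv_succ', iteratedDeriv_succ', iteratedDeriv_zero]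

theorem red1_diff {w : ℝ → ℝ} (h : ContDiff ℝ (⊤ : ℕ∞) w) :
    Differentiable ℝ w ∧ Differentiable ℝ (deriv w) :=
  ⟨(contDiff_infty_iff_deriv.1 h).1, (contDiff_infty_iff_deriv.1 (contDiff_infty_iff_deriv.1 h).2).1⟩

/-- `w y = m (y - 1) + m (-y - 1)`.  For `k ≥ 2` the continuous function `iteratedDeriv k m` vanishes outside `[0, 1]`
(`m` is locally affine there: `Filter.EventuallyEq.iteratedDeriv_eq`), hence is bounded. -/
theorem exists_w1 : ∃ (w : ℝ → ℝ) (M : ℝ), W1 w M ∧ (∀ y, |y| ≤ 1 → w y = 0) ∧ ∀ y, 1 < |y| → 0 < w y := by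
  obtain ⟨m, c, h⟩ := exists_mx
  obtain ⟨hd1, hd2⟩ := red1_diff h.sm
  have hsm : ContDiff ℝ (⊤ : ℕ∞) fun y : ℝ => m (y - 1) + m (-y - 1) :=
    (h.sm.comp (contDiff_id.sub contDiff_const)).add
      (h.sm.comp (contDiff_id.neg.sub contDiff_const))
  have hbd : ∀ k, 2 ≤ k → ∃ C : ℝ, ∀ y,
      |iteratedDeriv k (fun y : ℝ => m (y - 1) + m (-y - 1)) y| ≤ C := by
    intro k hk
    have hcont : Continuous (iteratedDeriv k fun y : ℝ => m (y - 1) + m (-y - 1)) :=
      hsm.continuous_iteratedDeriv k (by exact_mod_cast le_top)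
    obtain ⟨C, hC⟩ := (isCompact_Icc (a := (-2 : ℝ)) (b := 2)).exists_bound_of_continuousOn
      hcont.continuousOn
    refine ⟨max C 0, fun y => ?_⟩
    rcases lt_or_ge 2 y with hy | hy
    · have he : (fun y : ℝ => m (y - 1) + m (-y - 1)) =ᶠ[𝓝 y] fun y => 1 * y + (-1 - c) := by
        filter_upwards [lt_mem_nhds hy] with z hz
        rw [h.lin _ (by linarith), h.zero _ (by linarith)]
        ring
      rw [(he.iteratedDeriv k).eq_of_nhds, red1_aff _ _ hk, abs_zero]
      exact le_max_right _ _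
    rcases lt_or_ge y (-2) with hy' | hy'
    · have he : (fun y : ℝ => m (y - 1) + m (-y - 1)) =ᶠ[𝓝 y] fun y => (-1) * y + (-1 - c) := by
        filter_upwards [gt_mem_nhds hy'] with z hz
        rw [h.zero _ (by linarith), h.lin _ (by linarith)]
        ring
      rw [(he.iteratedDeriv k).eq_of_nhds, red1_aff _ _ hk, abs_zero]
      exact le_max_right _ _
    · exact (hC y ⟨hy', hy⟩).trans (le_max_left _ _)
  have e1 : deriv (fun y : ℝ => m (y - 1) + m (-y - 1)) =
      fun y => deriv m (y - 1) - deriv m (-y - 1) := by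
    funext y
    have a1 : HasDerivAt (fun y : ℝ => m (y - 1)) (deriv m (y - 1) * 1) y :=
      (hd1 (y - 1)).hasDerivAt.comp y ((hasDerivAt_id y).sub_const 1)
    have a2 : HasDerivAt (fun y : ℝ => m (-y - 1)) (deriv m (-y - 1) * -1) y :=
      (hd1 (-y - 1)).hasDerivAt.comp y ((hasDerivAt_id y).neg.sub_const 1)
    rw [(a1.fun_add a2).deriv]
    ring
  have e2 : ∀ y, deriv (deriv fun y : ℝ => m (y - 1) + m (-y - 1)) y =
      deriv (deriv m) (y - 1) + deriv (deriv m) (-y - 1) := by
    intro y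
    have a1 : HasDerivAt (fun y : ℝ => deriv m (y - 1)) (deriv (deriv m) (y - 1) * 1) y :=
      HasDerivAt.comp (h₂ := deriv m) (h := fun y : ℝ => y - 1) y (hd2 (y - 1)).hasDerivAt
        ((hasDerivAt_id y).sub_const 1)
    have a2 : HasDerivAt (fun y : ℝ => deriv m (-y - 1)) (deriv (deriv m) (-y - 1) * -1) y :=
      HasDerivAt.comp (h₂ := deriv m) (h := fun y : ℝ => -y - 1) y (hd2 (-y - 1)).hasDerivAt
        ((hasDerivAt_id y).neg.sub_const 1)
    rw [e1, (a1.fun_sub a2).deriv]
    ring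
  obtain ⟨M, hM⟩ := hbd 2 le_rfl
  refine ⟨fun y : ℝ => m (y - 1) + m (-y - 1), M, ⟨hsm, fun y => ?_, fun y => ?_, fun y => ⟨?_, ?_⟩, hbd⟩,
    fun y hy => ?_, fun y hy => ?_⟩
  · simp only [neg_neg]
    ring
  · exact add_nonneg (h.nn _) (h.nn _)
  · rw [e2]
    exact add_nonneg (h.d2 _) (h.d2 _)
  · have := hM y
    rw [red1_two] at this
    exact (le_abs_self _).trans this
  · have := abs_le.1 hy
    show m (y - 1) + m (-y - 1) = 0
    rw [h.zero _ (by linarith), h.zero _ (by linarith), add_zero]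
  · show 0 < m (y - 1) + m (-y - 1)
    rcases lt_abs.1 hy with h1 | h1
    · exact add_pos_of_pos_of_nonneg (h.pos _ (by linarith)) (h.nn _)
    · exact add_pos_of_nonneg_of_pos (h.nn _) (h.pos _ (by linarith))

theorem W1.const_mul {w : ℝ → ℝ} {M k : ℝ} (h : W1 w M) (hk : 0 ≤ k) : W1 (fun y => k * w y) (k * M) := by
  have e1 : deriv (fun y => k * w y) = fun y => k * deriv w y := by
    funext y
    exact deriv_const_mul_field k
  have e2 : deriv (deriv fun y => k * w y) = fun y => k * deriv (deriv w) y := by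
    rw [e1]
    funext y
    exact deriv_const_mul_field k
  refine ⟨contDiff_const.mul h.sm, fun y => by rw [h.even], fun y => mul_nonneg hk (h.nn y),
    fun y => ?_, fun j hj => ?_⟩
  · rw [e2]
    exact ⟨mul_nonneg hk (h.d2 y).1, mul_le_mul_of_nonneg_left (h.d2 y).2 hk⟩
  · obtain ⟨C, hC⟩ := h.bd j hj
    refine ⟨k * C, fun y => ?_⟩
    rw [iteratedDeriv_const_mul_field, abs_mul, abs_of_nonneg hk]
    exact mul_le_mul_of_nonneg_left (hC y) hk

theorem W1.M_nonneg {w : ℝ → ℝ} {M : ℝ} (h : W1 w M) : 0 ≤ M := by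
  exact (h.d2 0).1.trans (h.d2 0).2

/-- `w'` is odd, so `w' 0 = 0`; mean value inequality -/
theorem W1.abs_deriv_le {w : ℝ → ℝ} {M : ℝ} (h : W1 w M) (y : ℝ) : |deriv w y| ≤ M * |y| := by
  obtain ⟨hd1, hd2⟩ := red1_diff h.sm
  have h0 : deriv w 0 = 0 := by
    have a1 : HasDerivAt (fun y : ℝ => w (-y)) (deriv w (-0) * -1) 0 :=
      (hd1 (-0)).hasDerivAt.comp 0 (hasDerivAt_id (0 : ℝ)).neg
    have e : (fun y : ℝ => w (-y)) = w := funext h.even
    rw [e, neg_zero] at a1
    have := a1.deriv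
    linarith
  have := convex_univ.norm_image_sub_le_of_norm_deriv_le (f := deriv w) (C := M) (x := 0) (y := y)
    (fun x _ => hd2 x) (fun x _ => by
      rw [Real.norm_eq_abs, abs_of_nonneg (h.d2 x).1]
      exact (h.d2 x).2) (mem_univ _) (mem_univ _)
  simpa [h0] using this

theorem W1.le_sq {w : ℝ → ℝ} {M : ℝ} (h : W1 w M) (y : ℝ) : w y ≤ w 0 + M * y ^ 2 := by
  obtain ⟨hd1, -⟩ := red1_diff h.sm
  have := (convex_closedBall (0 : ℝ) |y|).norm_image_sub_le_of_norm_deriv_le (f := w) (C := M * |y|)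
    (x := 0) (y := y) (fun x _ => hd1 x) (fun x hx => by
      rw [Real.norm_eq_abs]
      refine (h.abs_deriv_le x).trans (mul_le_mul_of_nonneg_left ?_ h.M_nonneg)
      simpa using hx) (Metric.mem_closedBall_self (abs_nonneg y)) (by simp)
  rw [sub_zero, Real.norm_eq_abs, Real.norm_eq_abs, mul_assoc, abs_mul_abs_self] at this
  have h2 := le_abs_self (w y - w 0)
  nlinarith

end Crest.Agent.R238
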