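import Crest.Agent.R238.Red1
import Crest.Agent.R238.AnCalc

/-!
# R238/Red2: calculus of ridge functions.  `pd i f = An.pd i f` holds by `rfl`, so the lemmas of `AnCalc` apply
(`An.pd_add`, `An.pd_sum`, `An.pd_comp`, `An.pd_normSq`, `An.pd_const_mul`, ...).
-/

set_option autoImplicit false
open MeasureTheory Set Filter Topology
open scoped RealInnerProductSpace

namespace Crest.Agent.R238

variable {n N : ℕ}

theorem red2_inner (a x : E n) : ⟪a, x⟫ = ∑ i, a i * x i := by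
  simp [PiLp.inner_apply, mul_comm]

theorem red2_diff {f : E n → ℝ} (hf : ContDiff ℝ (⊤ : ℕ∞) f) : Differentiable ℝ f :=
  hf.differentiable (by simp)

theorem red2_pd_sm {f : E n → ℝ} (hf : ContDiff ℝ (⊤ : ℕ∞) f) (i : Fin n) :
    ContDiff ℝ (⊤ : ℕ∞) (pd i f) := An.smooth_pd i hf

theorem red2_deriv_sm {w : ℝ → ℝ} (hw : ContDiff ℝ (⊤ : ℕ∞) w) : ContDiff ℝ (⊤ : ℕ∞) (deriv w) :=
  (contDiff_infty_iff_deriv.1 hw).2

theorem red2_pd_add {f g : E n → ℝ} (i : Fin n) (hf : Differentiable ℝ f) (hg : Differentiable ℝ g) :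
    pd i (fun y => f y + g y) = fun x => pd i f x + pd i g x := An.pd_add i hf hg

theorem red2_pd_sub {f g : E n → ℝ} (i : Fin n) (hf : Differentiable ℝ f) (hg : Differentiable ℝ g) :
    pd i (fun y => f y - g y) = fun x => pd i f x - pd i g x := An.pd_sub i hf hg

theorem red2_pd_mul {f g : E n → ℝ} (i : Fin n) (hf : Differentiable ℝ f) (hg : Differentiable ℝ g) :
    pd i (fun y => f y * g y) = fun x => pd i f x * g x + f x * pd i g x := An.pd_mul i hf hg

theorem red2_pd_const_mul (i : Fin n) (c : ℝ) (f : E n → ℝ) :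
    pd i (fun y => c * f y) = fun x => c * pd i f x := An.pd_const_mul i c f

theorem red2_pd_sum {ι : Type*} (s : Finset ι) {f : ι → E n → ℝ} (i : Fin n)
    (hf : ∀ k ∈ s, Differentiable ℝ (f k)) :
    pd i (fun y => ∑ k ∈ s, f k y) = fun x => ∑ k ∈ s, pd i (f k) x := An.pd_sum s i hf

theorem red2_pd_add_const (i : Fin n) (f : E n → ℝ) (c : ℝ) : pd i (fun y => f y + c) = pd i f :=
  An.pd_add_const i f c

theorem red2_pd_comp {f : E n → ℝ} {σ : ℝ → ℝ} (i : Fin n) (hf : Differentiable ℝ f)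
    (hσ : Differentiable ℝ σ) : pd i (fun y => σ (f y)) = fun x => deriv σ (f x) * pd i f x :=
  funext fun x => An.pd_comp i (hf x) (hσ (f x)).hasDerivAt

theorem red2_pd_inner (a : E n) (i : Fin n) : pd i (fun x : E n => ⟪a, x⟫) = fun _ => a i := by
  funext x
  have : fderiv ℝ (fun x : E n => ⟪a, x⟫) x = innerSL ℝ a := (innerSL ℝ a).fderiv
  simp only [pd, this]
  simp [EuclideanSpace.inner_single_right]

theorem red2_inner_sm (a : E n) : ContDiff ℝ (⊤ : ℕ∞) (fun x : E n => ⟪a, x⟫) :=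
  (innerSL ℝ a).contDiff

theorem red2_sq_sm : ContDiff ℝ (⊤ : ℕ∞) (fun x : E n => ‖x‖ ^ 2 / 2) :=
  (contDiff_norm_sq ℝ).div_const 2

theorem red2_pd_pd_sq (δ : ℝ) (i j : Fin n) (x : E n) :
    pd i (pd j fun x : E n => δ * (‖x‖ ^ 2 / 2)) x = if i = j then δ else 0 := by
  have e : (fun x : E n => δ * (‖x‖ ^ 2 / 2)) = fun x : E n => (δ / 2) * ‖x‖ ^ 2 := by
    funext x; ring
  have h1 : pd j (fun x : E n => ‖x‖ ^ 2) = fun x => 2 * x j := An.pd_normSq j
  have h2 : pd i (fun x : E n => x j) = fun _ => (1 : An.Mat n) i j := An.pd_coord i j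
  rw [e, red2_pd_const_mul, h1, red2_pd_const_mul, red2_pd_const_mul, h2]
  simp only [Matrix.one_apply]
  split_ifs <;> ring

theorem red2_quad_diag (δ : ℝ) (v : Fin n → ℝ) :
    ∑ i, ∑ j, v i * (if i = j then δ else 0) * v j = δ * ∑ i, v i ^ 2 := by
  rw [Finset.mul_sum]
  refine Finset.sum_congr rfl fun i _ => ?_
  rw [Finset.sum_eq_single i (fun j _ hj => by rw [if_neg (Ne.symm hj)]; ring) (by simp)]
  simp only [if_true]; ring

theorem red2_quad_rk (a v : Fin n → ℝ) (t : ℝ) :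
    ∑ i, ∑ j, v i * (a i * a j * t) * v j = t * (∑ i, v i * a i) ^ 2 := by
  rw [sq, Finset.sum_mul_sum, Finset.mul_sum]
  refine Finset.sum_congr rfl fun i _ => ?_
  rw [Finset.mul_sum]
  exact Finset.sum_congr rfl fun j _ => by ring

theorem rdg_smooth {w : ℝ → ℝ} (hw : ContDiff ℝ (⊤ : ℕ∞) w) (a : E n) : ContDiff ℝ (⊤ : ℕ∞) (rdg w a) := by
  exact hw.comp (red2_inner_sm a)

theorem pd_rdg {w : ℝ → ℝ} (hw : Differentiable ℝ w) (a : E n) (i : Fin n) :
    pd i (rdg w a) = fun x => a i * rdg (deriv w) a x := by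
  have h := red2_pd_comp (f := fun x : E n => ⟪a, x⟫) i (red2_diff (red2_inner_sm a)) hw
  rw [red2_pd_inner] at h
  funext x
  have := congrFun h x
  simp only [rdg] at this ⊢
  rw [mul_comm]
  exact this

theorem pd_pd_rdg {w : ℝ → ℝ} (hw : ContDiff ℝ (⊤ : ℕ∞) w) (a x : E n) (i j : Fin n) :
    pd i (pd j (rdg w a)) x = a i * a j * deriv (deriv w) ⟪a, x⟫ := by
  rw [pd_rdg (hw.differentiable (by simp)), red2_pd_const_mul,
    pd_rdg ((red2_deriv_sm hw).differentiable (by simp))]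
  simp only [rdg]; ring

theorem red2_pdL_rdg {w : ℝ → ℝ} (hw : ContDiff ℝ (⊤ : ℕ∞) w) (a : E n) (l : List (Fin n)) :
    pdL l (rdg w a) = fun x => (l.map fun i => a i).prod * rdg (iteratedDeriv l.length w) a x := by
  induction l with
  | nil => funext x; simp [pdL]
  | cons i l ih =>
    have hd : Differentiable ℝ (iteratedDeriv l.length w) :=
      hw.differentiable_iteratedDeriv _ (by exact_mod_cast WithTop.coe_lt_top _)
    have e : pdL (i :: l) (rdg w a) = pd i (pdL l (rdg w a)) := rfl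
    rw [e, ih, red2_pd_const_mul, pd_rdg hd]
    funext x
    simp only [List.map_cons, List.prod_cons, List.length_cons, iteratedDeriv_succ]
    ring

/-- `pdL l (rdg w a) = fun x => (l.map a).prod * rdg (iteratedDeriv l.length w) a x` by induction -/
theorem W1.cb {w : ℝ → ℝ} {M : ℝ} (h : W1 w M) (a : E n) : Cb 2 (rdg w a) := by
  refine ⟨rdg_smooth h.sm a, fun l hl => ?_⟩
  obtain ⟨C, hC⟩ := h.bd l.length hl
  refine ⟨|(l.map fun i => a i).prod| * C, fun x => ?_⟩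
  rw [red2_pdL_rdg h.sm, abs_mul]
  exact mul_le_mul_of_nonneg_left (hC _) (abs_nonneg _)

theorem W1.rdg_even {w : ℝ → ℝ} {M : ℝ} (h : W1 w M) (a x : E n) : rdg w a (-x) = rdg w a x := by
  simp only [rdg, inner_neg_right, h.even]

theorem W1.hessGe {w : ℝ → ℝ} {M : ℝ} (h : W1 w M) (a : E n) : HessGe 0 (rdg w a) := by
  intro x v
  simp only [pd_pd_rdg h.sm]
  rw [red2_quad_rk (fun i => a i) v, zero_mul]
  exact mul_nonneg (h.d2 _).1 (sq_nonneg _)

theorem eul_rdg {w : ℝ → ℝ} (hw : Differentiable ℝ w) (a : E n) :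
    eul (rdg w a) = rdg (fun y => y * deriv w y) a := by
  funext x
  simp only [eul, pd_rdg hw, rdg]
  rw [red2_inner a x, Finset.sum_mul]
  exact Finset.sum_congr rfl fun i _ => by ring

theorem eul_eul_rdg {w : ℝ → ℝ} (hw : ContDiff ℝ (⊤ : ℕ∞) w) (a : E n) :
    eul (eul (rdg w a)) = rdg (fun y => y * deriv w y + y ^ 2 * deriv (deriv w) y) a := by
  have hd : Differentiable ℝ (deriv w) := (red2_deriv_sm hw).differentiable (by simp)
  rw [eul_rdg (hw.differentiable (by simp)),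
    eul_rdg (w := fun y => y * deriv w y) (differentiable_id.mul hd)]
  congr 1
  funext y
  have : HasDerivAt (fun y => y * deriv w y) (1 * deriv w y + y * deriv (deriv w) y) y :=
    (hasDerivAt_id y).mul (hd y).hasDerivAt
  rw [this.deriv]; ring

theorem pot_smooth {w : ℝ → ℝ} (hw : ContDiff ℝ (⊤ : ℕ∞) w) (δ : ℝ) (a : Fin N → E n) :
    ContDiff ℝ (⊤ : ℕ∞) (pot δ w a) := by
  exact (contDiff_const.mul red2_sq_sm).add (ContDiff.sum fun j _ => rdg_smooth hw (a j))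

theorem hessGe_sq (δ : ℝ) : HessGe δ fun x : E n => δ * (‖x‖ ^ 2 / 2) := by
  intro x v
  simp only [red2_pd_pd_sq]
  rw [red2_quad_diag]

theorem red2_pd_pd_add {f g : E n → ℝ} (hf : ContDiff ℝ (⊤ : ℕ∞) f) (hg : ContDiff ℝ (⊤ : ℕ∞) g)
    (i j : Fin n) (x : E n) :
    pd i (pd j fun x => f x + g x) x = pd i (pd j f) x + pd i (pd j g) x := by
  rw [red2_pd_add j (red2_diff hf) (red2_diff hg),
    red2_pd_add i (red2_diff (red2_pd_sm hf j)) (red2_diff (red2_pd_sm hg j))]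

theorem red2_pd_pd_sub {f g : E n → ℝ} (hf : ContDiff ℝ (⊤ : ℕ∞) f) (hg : ContDiff ℝ (⊤ : ℕ∞) g)
    (i j : Fin n) (x : E n) :
    pd i (pd j fun x => f x - g x) x = pd i (pd j f) x - pd i (pd j g) x := by
  rw [red2_pd_sub j (red2_diff hf) (red2_diff hg),
    red2_pd_sub i (red2_diff (red2_pd_sm hf j)) (red2_diff (red2_pd_sm hg j))]

theorem red2_pd_pd_sum {ψ : Fin N → E n → ℝ} (hf : ∀ j, ContDiff ℝ (⊤ : ℕ∞) (ψ j))
    (i j : Fin n) (x : E n) :
    pd i (pd j fun x => ∑ k, ψ k x) x = ∑ k, pd i (pd j (ψ k)) x := by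
  rw [red2_pd_sum _ j fun k _ => red2_diff (hf k),
    red2_pd_sum _ i fun k _ => red2_diff (red2_pd_sm (hf k) j)]

theorem red2_quad_sum (A : Fin N → Fin n → Fin n → ℝ) (v : Fin n → ℝ) :
    ∑ i, ∑ j, v i * (∑ k, A k i j) * v j = ∑ k, ∑ i, ∑ j, v i * A k i j * v j := by
  rw [Finset.sum_comm (s := (Finset.univ : Finset (Fin N)))]
  refine Finset.sum_congr rfl fun i _ => ?_
  rw [Finset.sum_comm (s := (Finset.univ : Finset (Fin N)))]
  refine Finset.sum_congr rfl fun j _ => ?_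
  rw [Finset.mul_sum, Finset.sum_mul]

theorem HessGe.add {c c' : ℝ} {f g : E n → ℝ} (hf : ContDiff ℝ (⊤ : ℕ∞) f) (hg : ContDiff ℝ (⊤ : ℕ∞) g)
    (h : HessGe c f) (h' : HessGe c' g) : HessGe (c + c') fun x => f x + g x := by
  intro x v
  simp only [red2_pd_pd_add hf hg, mul_add, add_mul, Finset.sum_add_distrib]
  exact add_le_add (h x v) (h' x v)

theorem HessGe.sum {ψ : Fin N → E n → ℝ} (hf : ∀ j, ContDiff ℝ (⊤ : ℕ∞) (ψ j)) (h : ∀ j, HessGe 0 (ψ j)) :
    HessGe 0 fun x => ∑ j, ψ j x := by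
  intro x v
  simp only [red2_pd_pd_sum hf]
  rw [red2_quad_sum (fun k i j => pd i (pd j (ψ k)) x), zero_mul]
  refine Finset.sum_nonneg fun k _ => ?_
  have := h k x v
  rwa [zero_mul] at this

theorem HessGe.add_const {c : ℝ} {f : E n → ℝ} (h : HessGe c f) (B : ℝ) : HessGe c fun x => f x + B := by
  intro x v
  simp only [red2_pd_add_const]
  exact h x v

/-- `∂i ∂j (m ∘ θ) = m'' ∂i θ ∂j θ + m' ∂i ∂j θ` -/
theorem HessGe.comp {θ : E n → ℝ} {m : ℝ → ℝ} {c : ℝ} (hθ : ContDiff ℝ (⊤ : ℕ∞) θ) (h : HessGe 0 θ) (hm : Mx m c) :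
    HessGe 0 fun x => m (θ x) := by
  intro x v
  have hm1 : Differentiable ℝ m := hm.sm.differentiable (by simp)
  have hm2 : Differentiable ℝ (deriv m) := (red2_deriv_sm hm.sm).differentiable (by simp)
  have e : ∀ i j, pd i (pd j fun x => m (θ x)) x =
      pd i θ x * pd j θ x * deriv (deriv m) (θ x) + deriv m (θ x) * pd i (pd j θ) x := by
    intro i j
    rw [red2_pd_comp j (red2_diff hθ) hm1,
      red2_pd_mul (f := fun x => deriv m (θ x)) i (hm2.comp (red2_diff hθ))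
        (red2_diff (red2_pd_sm hθ j)), red2_pd_comp i (red2_diff hθ) hm2]
    ring
  have e2 : ∑ i, ∑ j, v i * (deriv m (θ x) * pd i (pd j θ) x) * v j =
      deriv m (θ x) * ∑ i, ∑ j, v i * pd i (pd j θ) x * v j := by
    rw [Finset.mul_sum]
    refine Finset.sum_congr rfl fun i _ => ?_
    rw [Finset.mul_sum]
    exact Finset.sum_congr rfl fun j _ => by ring
  simp only [e, mul_add, add_mul, Finset.sum_add_distrib]
  rw [red2_quad_rk (fun i => pd i θ x) v, e2, zero_mul]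
  have h0 := h x v
  rw [zero_mul] at h0
  exact add_nonneg (mul_nonneg (hm.d2 _) (sq_nonneg _)) (mul_nonneg (hm.d1 _) h0)

/-- Hessian `(1 - δ) - ∑ w'' a aᵀ`; Cauchy-Schwarz `(∑ v i * a i)² ≤ ‖a‖² ∑ v i ²` -/
theorem hessGe_rest {w : ℝ → ℝ} {M δ : ℝ} (h : W1 w M) (a : Fin N → E n) (hs : δ + M * ∑ j, ‖a j‖ ^ 2 ≤ 1) :
    HessGe 0 fun x => ‖x‖ ^ 2 / 2 - pot δ w a x := by
  intro x v
  have e0 : (fun x : E n => ‖x‖ ^ 2 / 2 - pot δ w a x) =
      fun x => (1 - δ) * (‖x‖ ^ 2 / 2) - ∑ j, rdg w (a j) x := by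
    funext x; simp only [pot]; ring
  have e : ∀ i j, pd i (pd j fun x : E n => ‖x‖ ^ 2 / 2 - pot δ w a x) x =
      (if i = j then 1 - δ else 0) - ∑ k, a k i * a k j * deriv (deriv w) ⟪a k, x⟫ := by
    intro i j
    rw [e0, red2_pd_pd_sub (contDiff_const.mul red2_sq_sm)
      (ContDiff.sum fun k _ => rdg_smooth h.sm (a k)), red2_pd_pd_sq,
      red2_pd_pd_sum fun k => rdg_smooth h.sm (a k)]
    simp only [pd_pd_rdg h.sm]
  simp only [e, mul_sub, sub_mul, Finset.sum_sub_distrib]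
  rw [red2_quad_diag, red2_quad_sum (fun k i j => a k i * a k j * deriv (deriv w) ⟪a k, x⟫), zero_mul]
  have hv : 0 ≤ ∑ i, v i ^ 2 := Finset.sum_nonneg fun i _ => sq_nonneg _
  have hk : ∀ k, ∑ i, ∑ j, v i * (a k i * a k j * deriv (deriv w) ⟪a k, x⟫) * v j ≤
      M * ‖a k‖ ^ 2 * ∑ i, v i ^ 2 := by
    intro k
    rw [red2_quad_rk (fun i => a k i) v]
    have cs : (∑ i, v i * a k i) ^ 2 ≤ (∑ i, v i ^ 2) * ∑ i, a k i ^ 2 :=
      Finset.sum_mul_sq_le_sq_mul_sq _ _ _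
    rw [← EuclideanSpace.real_norm_sq_eq (a k)] at cs
    calc _ ≤ M * (∑ i, v i * a k i) ^ 2 := mul_le_mul_of_nonneg_right (h.d2 _).2 (sq_nonneg _)
      _ ≤ M * ((∑ i, v i ^ 2) * ‖a k‖ ^ 2) :=
          mul_le_mul_of_nonneg_left cs ((h.d2 0).1.trans (h.d2 0).2)
      _ = _ := by ring
  have hsum := Finset.sum_le_sum fun k (_ : k ∈ (Finset.univ : Finset (Fin N))) => hk k
  rw [← Finset.sum_mul, ← Finset.mul_sum] at hsum
  nlinarith [mul_le_mul_of_nonneg_right hs hv]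

end Crest.Agent.R238
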