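import Crest.Agent.R238.Red2
import Crest.Agent.R238.AnG1

/-!
# R238/Red3: the variance inequality for ridge potentials with small Hessian
-/

set_option autoImplicit false
open MeasureTheory Set Filter Topology
open scoped RealInnerProductSpace

namespace Crest.Agent.R238

variable {n N : ℕ}

/-- Gaussian moments -/
theorem red_int {δ : ℝ} (hδ : 0 < δ) (k : ℕ) :
    Integrable fun x : E n => (1 + ‖x‖) ^ k * Real.exp (-(δ * (‖x‖ ^ 2 / 2))) := by
  refine (An.integrable_poly_gauss (n := n) k (half_pos hδ)).congr (ae_of_all _ fun x => ?_)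
  simp only
  congr 2
  ring

/-- `θ = |x|²/2 - pot`, `φ_B = pot + m (θ - B) + (B + c)` equals `|x|²/2` where `θ ≥ B + 1`, which holds outside a
ball because `pot ≤ |x|²/4 + N w 0` (`W1.le_sq`, Cauchy-Schwarz; `HasCompactSupport.intro`). -/
theorem adm_pot {w m : ℝ → ℝ} {M δ c : ℝ} (hδ : 0 < δ) (h : W1 w M) (hm : Mx m c) (a : Fin N → E n)
    (hs : δ / 2 + M * ∑ j, ‖a j‖ ^ 2 ≤ 1 / 4) (B : ℝ) :
    Adm (fun x => pot δ w a x + m (‖x‖ ^ 2 / 2 - pot δ w a x - B) + (B + c)) ∧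
    HessGe 0 fun x => (pot δ w a x + m (‖x‖ ^ 2 / 2 - pot δ w a x - B) + (B + c)) - ∑ j, rdg w (a j) x := by
  have hM := h.M_nonneg
  have hS : 0 ≤ M * ∑ j, ‖a j‖ ^ 2 := by positivity
  have sp := pot_smooth h.sm δ a
  have sq : ∀ δ : ℝ, ContDiff ℝ (⊤ : ℕ∞) fun x : E n => δ * (‖x‖ ^ 2 / 2) := fun δ =>
    contDiff_const.mul ((contDiff_norm_sq ℝ).div_const 2)
  have sθ : ContDiff ℝ (⊤ : ℕ∞) fun x : E n => ‖x‖ ^ 2 / 2 - pot δ w a x + -B :=
    (((contDiff_norm_sq ℝ).div_const 2).sub sp).add contDiff_const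
  have sm : ContDiff ℝ (⊤ : ℕ∞) fun x : E n => m (‖x‖ ^ 2 / 2 - pot δ w a x + -B) := hm.sm.comp sθ
  have h1 := HessGe.comp sθ ((hessGe_rest h a (δ := δ) (by linarith)).add_const (-B)) hm
  have sr : ∀ j, ContDiff ℝ (⊤ : ℕ∞) (rdg w (a j)) := fun j => rdg_smooth h.sm _
  have h2 := (HessGe.add (sq δ) sm (hessGe_sq δ) h1).add_const (B + c)
  have h3 := HessGe.add ((sq δ).add sm |>.add contDiff_const) (ContDiff.sum fun j _ => sr j) h2
    (HessGe.sum sr fun j => h.hessGe (a j))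
  refine ⟨⟨(sp.add (by simpa only [sub_eq_add_neg _ B] using sm)).add contDiff_const, fun x => ?_, ?_, δ, hδ, ?_⟩,
    fun x v => ?_⟩
  · simp only [pot, norm_neg, h.rdg_even]
  · refine HasCompactSupport.intro (isCompact_closedBall 0 (4 * |B + 1 + N * w 0| + 1)) fun x hx => ?_
    have hx' : 4 * |B + 1 + N * w 0| + 1 < ‖x‖ := by simpa using hx
    have e1 : ∑ j, rdg w (a j) x ≤ N * w 0 + (M * ∑ j, ‖a j‖ ^ 2) * ‖x‖ ^ 2 := by
      rw [mul_assoc, Finset.sum_mul, Finset.mul_sum]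
      refine (Finset.sum_le_sum fun j _ => (h.le_sq _).trans (add_le_add_right
        (mul_le_mul_of_nonneg_left (c := ‖a j‖ ^ 2 * ‖x‖ ^ 2) ?_ hM) _)).trans (by simp [Finset.sum_add_distrib])
      rw [← mul_pow, ← sq_abs]
      exact pow_le_pow_left₀ (abs_nonneg _) (abs_real_inner_le_norm _ _) 2
    simp only
    rw [hm.lin]
    · ring
    have e2 := mul_le_mul_of_nonneg_right hs (sq_nonneg ‖x‖)
    have e3 := le_abs_self (B + 1 + N * w 0)
    have e4 := abs_nonneg (B + 1 + N * w 0)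
    simp only [pot]
    nlinarith
  · convert h3 using 2 with x
    · simp
    · simp only [pot, sub_eq_add_neg _ B]
      ring
  · have := h2 x v
    refine le_trans ?_ (this.trans (le_of_eq ?_))
    · gcongr
      linarith
    · congr! 7 with i _ j _ y
      simp only [pot, sub_eq_add_neg _ B]
      ring

theorem VI.of_add_const {φ : E n → ℝ} {ψ : Fin N → E n → ℝ} {z : Fin N → ℝ} {B : ℝ}
    (h : VI (fun x => φ x + B) ψ z) : VI φ ψ z := by
  have e : ∀ g : E n → ℝ, ∫ x, g x * Real.exp (-(φ x + B)) = Real.exp (-B) * ∫ x, g x * Real.exp (-φ x) := fun g => by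
    rw [← integral_const_mul]
    refine integral_congr_ae (ae_of_all _ fun x => ?_)
    simp only [neg_add, Real.exp_add]
    ring
  have e1 := e fun _ => 1
  simp only [one_mul] at e1
  simp only [VI] at h ⊢
  rw [e, e, e, e1] at h
  have c : 0 < Real.exp (-B) ^ 2 := by positivity
  refine le_of_mul_le_mul_left ?_ c
  linarith

/-- `B = k → ∞`, dominated convergence: `m (θ x - k)` is eventually `0`, `exp (-φ_k) ≤ exp (-δ|x|²/2)` -/
theorem vi_pot (hV : Var4 n) {w : ℝ → ℝ} {M δ : ℝ} (hδ : 0 < δ) (h : W1 w M) (a : Fin N → E n)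
    (hs : δ / 2 + M * ∑ j, ‖a j‖ ^ 2 ≤ 1 / 4) (z : Fin N → ℝ) : VI (pot δ w a) (fun j => rdg w (a j)) z := by
  obtain ⟨m, c, hm⟩ := exists_mx
  have hM := h.M_nonneg
  have sp := (pot_smooth h.sm δ a).continuous
  have lim : ∀ g : E n → ℝ, Continuous g → ∀ (C : ℝ) (k : ℕ), (∀ x, |g x| ≤ C * (1 + ‖x‖) ^ k) →
      Tendsto (fun B : ℕ => ∫ x, g x * Real.exp (-(pot δ w a x + m (‖x‖ ^ 2 / 2 - pot δ w a x - B)))) atTop
        (𝓝 (∫ x, g x * Real.exp (-pot δ w a x))) := fun g hg C k hb => by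
    have := hm.sm.continuous
    refine tendsto_integral_of_dominated_convergence _ (fun B => Continuous.aestronglyMeasurable (by fun_prop))
      ((red_int hδ k).const_mul C) (fun B => ae_of_all _ fun x => ?_) (ae_of_all _ fun x => ?_)
    · rw [norm_mul, Real.norm_of_nonneg (Real.exp_pos _).le, ← mul_assoc]
      refine mul_le_mul (hb x) (Real.exp_le_exp.2 (neg_le_neg ?_)) (Real.exp_pos _).le ((abs_nonneg _).trans (hb x))
      exact le_add_of_le_of_nonneg (le_add_of_nonneg_right (Finset.sum_nonneg fun j _ => h.nn _)) (hm.nn _)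
    · refine tendsto_const_nhds.congr' ?_
      filter_upwards [tendsto_natCast_atTop_atTop.eventually_ge_atTop (‖x‖ ^ 2 / 2 - pot δ w a x)] with B hB
      rw [hm.zero _ (sub_nonpos.2 hB), add_zero]
  have c1 : Continuous (deriv w) := h.sm.continuous_deriv (by simp)
  have c2 : Continuous (deriv (deriv w)) := (contDiff_infty_iff_deriv.1 h.sm).2.continuous_deriv (by simp)
  have hy : ∀ j (x : E n), ⟪a j, x⟫ ^ 2 ≤ ‖a j‖ ^ 2 * (1 + ‖x‖) ^ 2 := fun j x => by
    rw [← mul_pow, ← sq_abs]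
    refine pow_le_pow_left₀ (abs_nonneg _) ((abs_real_inner_le_norm _ _).trans ?_) 2
    gcongr
    linarith
  have b1 : ∀ y, |y * deriv w y| ≤ M * y ^ 2 := fun y => by
    rw [abs_mul, ← sq_abs]
    nlinarith [h.abs_deriv_le y, abs_nonneg y]
  have b2 : ∀ y, |y * deriv w y + y ^ 2 * deriv (deriv w) y| ≤ 2 * M * y ^ 2 := fun y => by
    refine (abs_add_le _ _).trans ?_
    rw [abs_of_nonneg (mul_nonneg (sq_nonneg y) (h.d2 y).1)]
    nlinarith [b1 y, (h.d2 y).2, sq_nonneg y]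
  have g1 : ∀ x, |∑ j, z j * eul (rdg w (a j)) x| ≤ (∑ j, |z j| * (M * ‖a j‖ ^ 2)) * (1 + ‖x‖) ^ 2 := fun x => by
    rw [Finset.sum_mul]
    refine (Finset.abs_sum_le_sum_abs _ _).trans (Finset.sum_le_sum fun j _ => ?_)
    rw [abs_mul, mul_assoc, mul_assoc, eul_rdg (h.sm.differentiable (by simp))]
    gcongr
    exact (b1 _).trans (mul_le_mul_of_nonneg_left (hy j x) hM)
  have g2 : ∀ x, |∑ j, z j ^ 2 * eul (eul (rdg w (a j))) x| ≤
      (∑ j, |z j ^ 2| * (2 * M * ‖a j‖ ^ 2)) * (1 + ‖x‖) ^ 2 := fun x => by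
    rw [Finset.sum_mul]
    refine (Finset.abs_sum_le_sum_abs _ _).trans (Finset.sum_le_sum fun j _ => ?_)
    rw [abs_mul, mul_assoc, mul_assoc, eul_eul_rdg h.sm]
    gcongr
    exact (b2 _).trans (mul_le_mul_of_nonneg_left (hy j x) (by positivity))
  have k1 : Continuous fun x => ∑ j, z j * eul (rdg w (a j)) x := by
    simp only [eul_rdg (h.sm.differentiable (by simp)), rdg]
    fun_prop
  have k2 : Continuous fun x => ∑ j, z j ^ 2 * eul (eul (rdg w (a j))) x := by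
    simp only [eul_eul_rdg h.sm, rdg]
    fun_prop
  have l0 := lim (fun _ => 1) continuous_const 1 0 (by simp)
  simp only [one_mul] at l0
  have l1 := lim _ k1 _ _ g1
  have l2 := lim _ k2 _ _ g2
  have l3 := lim (fun x => (∑ j, z j * eul (rdg w (a j)) x) ^ 2) (k1.pow 2) ((∑ j, |z j| * (M * ‖a j‖ ^ 2)) ^ 2) (2 * 2)
    fun x => by
    rw [abs_pow, pow_mul, ← mul_pow]
    exact pow_le_pow_left₀ (abs_nonneg _) (g1 x) 2
  refine le_of_tendsto_of_tendsto' ((l3.mul l0).sub (l1.pow 2)) (l2.mul l0) fun B => ?_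
  have := adm_pot hδ h hm a hs B
  exact (hV N _ _ z this.1 (fun j => ⟨h.cb _, h.rdg_even _, h.hessGe _⟩) this.2).of_add_const

end Crest.Agent.R238
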