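import Crest.Agent.R238.Red3

/-!
# R238/Red4: log-concavity of the partition function along a line of log-dilations
-/

set_option autoImplicit false
open MeasureTheory Set Filter Topology
open scoped RealInnerProductSpace

namespace Crest.Agent.R238

variable {n N : ℕ}

/-- a positive function with `F F'' ≤ F'²` on `[0, 1]` is log-concave there -/
theorem red_logconc {F F1 F2 : ℝ → ℝ} (h0 : ∀ s, 0 < F s) (h1 : ∀ s, HasDerivAt F (F1 s) s)
    (h2 : ∀ s, HasDerivAt F1 (F2 s) s) (h : ∀ s ∈ Icc (0 : ℝ) 1, F2 s * F s ≤ F1 s ^ 2) {t : ℝ} (ht0 : 0 ≤ t)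
    (ht1 : t ≤ 1) : F 0 ^ (1 - t) * F 1 ^ t ≤ F t := by
  have d1 : ∀ s, HasDerivAt (fun s => Real.log (F s)) (F1 s / F s) s := fun s => (h1 s).log (h0 s).ne'
  have d2 : ∀ s, HasDerivAt (fun s => F1 s / F s) ((F2 s * F s - F1 s * F1 s) / F s ^ 2) s :=
    fun s => (h2 s).div (h1 s) (h0 s).ne'
  have hc : ConcaveOn ℝ (Icc (0 : ℝ) 1) (fun s => Real.log (F s)) :=
    concaveOn_of_hasDerivWithinAt2_nonpos (convex_Icc 0 1)
      (fun s _ => (d1 s).continuousAt.continuousWithinAt) (fun s _ => (d1 s).hasDerivWithinAt)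
      (fun s _ => (d2 s).hasDerivWithinAt) fun s hs => by
        have := h s (interior_subset hs)
        exact div_nonpos_of_nonpos_of_nonneg (by nlinarith) (sq_nonneg _)
  have k := hc.2 (left_mem_Icc.2 zero_le_one) (right_mem_Icc.2 zero_le_one) (sub_nonneg.2 ht1) ht0
    (by ring)
  simp only [smul_eq_mul, mul_zero, mul_one, zero_add] at k
  rw [Real.rpow_def_of_pos (h0 0), Real.rpow_def_of_pos (h0 1), ← Real.exp_add, ← Real.exp_log (h0 t)]
  exact Real.exp_le_exp.2 (by linarith)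

theorem red4_exp_le {w : ℝ → ℝ} {M : ℝ} (δ : ℝ) (h : W1 w M) (a : Fin N → E n) (x : E n) :
    Real.exp (-pot δ w a x) ≤ Real.exp (-(δ * (‖x‖ ^ 2 / 2))) := by
  refine Real.exp_le_exp.2 (neg_le_neg ?_)
  unfold pot
  exact le_add_of_nonneg_right (Finset.sum_nonneg fun j _ => h.nn _)

theorem red4_cont {w : ℝ → ℝ} {M : ℝ} (δ : ℝ) (h : W1 w M) (a : Fin N → E n) :
    Continuous fun x => Real.exp (-pot δ w a x) :=
  (pot_smooth h.sm δ a).continuous.neg.rexp

theorem red4_int {w : ℝ → ℝ} {M δ C : ℝ} (hδ : 0 < δ) (h : W1 w M) (a : Fin N → E n) {g : E n → ℝ}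
    (hg : Continuous g) {k : ℕ} (hC : ∀ x, |g x| ≤ C * (1 + ‖x‖) ^ k) :
    Integrable fun x => g x * Real.exp (-pot δ w a x) := by
  refine ((red_int (n := n) hδ k).const_mul C).mono' (hg.mul (red4_cont δ h a)).aestronglyMeasurable
    (Eventually.of_forall fun x => ?_)
  rw [Real.norm_eq_abs, abs_mul, abs_of_pos (Real.exp_pos _), ← mul_assoc]
  exact mul_le_mul (hC x) (red4_exp_le δ h a x) (Real.exp_pos _).le ((abs_nonneg _).trans (hC x))

theorem FF_pos {w : ℝ → ℝ} {M δ : ℝ} (hδ : 0 < δ) (h : W1 w M) (a : Fin N → E n) : 0 < FF δ w a := by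
  have hi := red4_int hδ h a (g := fun _ => 1) (C := 1) continuous_const (k := 0) (by simp)
  simp only [one_mul] at hi
  exact integral_exp_pos hi

/-- the scalar arguments -/
noncomputable def red4y (a : Fin N → E n) (z : Fin N → ℝ) (s : ℝ) (j : Fin N) (x : E n) : ℝ := ⟪dil a z s j, x⟫

theorem red4y_eq (a : Fin N → E n) (z : Fin N → ℝ) (s : ℝ) (j : Fin N) (x : E n) :
    red4y a z s j x = Real.exp (-(s * z j)) * ⟪a j, x⟫ := by
  simp [red4y, dil, inner_smul_left]

theorem red4y_deriv (a : Fin N → E n) (z : Fin N → ℝ) (s : ℝ) (j : Fin N) (x : E n) :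
    HasDerivAt (fun s => red4y a z s j x) (-(z j * red4y a z s j x)) s := by
  simp only [red4y_eq]
  have := (((hasDerivAt_id s).mul_const (z j)).neg.exp).mul_const ⟪a j, x⟫
  refine this.congr_deriv ?_
  simp only [id, Pi.neg_apply]
  ring

theorem red4y_cont (a : Fin N → E n) (z : Fin N → ℝ) (s : ℝ) (j : Fin N) : Continuous (red4y a z s j) := by
  unfold red4y
  fun_prop

theorem red4y_le (a : Fin N → E n) (z : Fin N → ℝ) (s : ℝ) :
    ∃ c : ℝ, ∀ s' ∈ Metric.ball s 1, ∀ j x, red4y a z s' j x ^ 2 ≤ c * (1 + ‖x‖) ^ 2 := by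
  refine ⟨∑ j, (Real.exp ((|s| + 1) * |z j|) * ‖a j‖) ^ 2, fun s' hs j x => ?_⟩
  have h1 : |s'| ≤ |s| + 1 := by
    have := mem_ball_iff_norm.1 hs
    rw [Real.norm_eq_abs] at this
    have := abs_sub_abs_le_abs_sub s' s
    linarith
  have h2 : Real.exp (-(s' * z j)) ≤ Real.exp ((|s| + 1) * |z j|) := by
    refine Real.exp_le_exp.2 ((neg_le_abs _).trans ?_)
    rw [abs_mul]
    exact mul_le_mul_of_nonneg_right h1 (abs_nonneg _)
  have h3 : |red4y a z s' j x| ≤ Real.exp ((|s| + 1) * |z j|) * ‖a j‖ * (1 + ‖x‖) := by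
    rw [red4y_eq, abs_mul, abs_of_pos (Real.exp_pos _), mul_assoc]
    refine mul_le_mul h2 ((abs_real_inner_le_norm _ _).trans ?_) (abs_nonneg _) (Real.exp_pos _).le
    exact mul_le_mul_of_nonneg_left (by linarith) (norm_nonneg _)
  have h4 : red4y a z s' j x ^ 2 ≤ (Real.exp ((|s| + 1) * |z j|) * ‖a j‖) ^ 2 * (1 + ‖x‖) ^ 2 := by
    rw [← mul_pow, ← sq_abs]
    exact pow_le_pow_left₀ (abs_nonneg _) h3 2
  refine h4.trans (mul_le_mul_of_nonneg_right ?_ (by positivity))
  exact Finset.single_le_sum (f := fun j => (Real.exp ((|s| + 1) * |z j|) * ‖a j‖) ^ 2)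
    (fun j _ => sq_nonneg _) (Finset.mem_univ j)

/-- `∑ z_j x·Dψ_j` -/
noncomputable def red4G (w : ℝ → ℝ) (a : Fin N → E n) (z : Fin N → ℝ) (s : ℝ) (x : E n) : ℝ :=
  ∑ j, z j * (red4y a z s j x * deriv w (red4y a z s j x))

/-- `∑ z_j² (x·D)²ψ_j` -/
noncomputable def red4H (w : ℝ → ℝ) (a : Fin N → E n) (z : Fin N → ℝ) (s : ℝ) (x : E n) : ℝ :=
  ∑ j, z j ^ 2 * (red4y a z s j x * deriv w (red4y a z s j x) +
    red4y a z s j x ^ 2 * deriv (deriv w) (red4y a z s j x))

section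
variable {w : ℝ → ℝ} {M : ℝ} (h : W1 w M) (a : Fin N → E n) (z : Fin N → ℝ)
include h

theorem red4_d0 : Differentiable ℝ w := h.sm.differentiable (by simp)

theorem red4_sm1 : ContDiff ℝ (⊤ : ℕ∞) (deriv w) := (contDiff_infty_iff_deriv.1 h.sm).2

theorem red4_d1 : Differentiable ℝ (deriv w) := (red4_sm1 h).differentiable (by simp)

theorem red4_c2 : Continuous (deriv (deriv w)) := (contDiff_infty_iff_deriv.1 (red4_sm1 h)).2.continuous

theorem red4G_eq (s : ℝ) (x : E n) : ∑ j, z j * eul (rdg w (dil a z s j)) x = red4G w a z s x := by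
  simp only [eul_rdg (red4_d0 h)]
  rfl

theorem red4H_eq (s : ℝ) (x : E n) :
    ∑ j, z j ^ 2 * eul (eul (rdg w (dil a z s j))) x = red4H w a z s x := by
  simp only [eul_eul_rdg h.sm]
  rfl

theorem red4G_cont (s : ℝ) : Continuous (red4G w a z s) := by
  unfold red4G
  have := red4y_cont a z s
  have := (red4_d1 h).continuous
  fun_prop

theorem red4H_cont (s : ℝ) : Continuous (red4H w a z s) := by
  unfold red4H
  have := red4y_cont a z s
  have := (red4_d1 h).continuous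
  have := red4_c2 h
  fun_prop

theorem red4P_deriv (δ s : ℝ) (x : E n) :
    HasDerivAt (fun s => Real.exp (-pot δ w (dil a z s) x))
      (red4G w a z s x * Real.exp (-pot δ w (dil a z s) x)) s := by
  have k : HasDerivAt (fun s => pot δ w (dil a z s) x)
      (∑ j, deriv w (red4y a z s j x) * -(z j * red4y a z s j x)) s := by
    unfold pot
    refine HasDerivAt.const_add _ ?_
    exact HasDerivAt.fun_sum fun j _ => (red4_d0 h _).hasDerivAt.comp s (red4y_deriv a z s j x)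
  refine k.neg.exp.congr_deriv ?_
  rw [mul_comm]
  congr 1
  unfold red4G
  rw [← Finset.sum_neg_distrib]
  exact Finset.sum_congr rfl fun j _ => by ring

theorem red4G_deriv (s : ℝ) (x : E n) : HasDerivAt (fun s => red4G w a z s x) (-red4H w a z s x) s := by
  unfold red4G red4H
  rw [← Finset.sum_neg_distrib]
  refine HasDerivAt.fun_sum fun j _ => ?_
  have k := ((red4y_deriv a z s j x).mul
    ((red4_d1 h _).hasDerivAt.comp s (red4y_deriv a z s j x))).const_mul (z j)
  refine k.congr_deriv ?_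
  simp only [Function.comp]
  ring

theorem red4_yw (y : ℝ) : |y * deriv w y| ≤ M * y ^ 2 := by
  rw [abs_mul, ← sq_abs]
  have := mul_le_mul_of_nonneg_left (h.abs_deriv_le y) (abs_nonneg y)
  linarith

theorem red4_bd (s : ℝ) : ∃ A : ℝ, ∀ s' ∈ Metric.ball s 1, ∀ x,
    |red4G w a z s' x| ≤ A * (1 + ‖x‖) ^ 2 ∧ |red4H w a z s' x| ≤ A * (1 + ‖x‖) ^ 2 := by
  obtain ⟨c, hc⟩ := red4y_le a z s
  have hM := h.M_nonneg
  refine ⟨max (∑ j, |z j| * (M * c)) (∑ j, z j ^ 2 * (2 * M * c)), fun s' hs x => ⟨?_, ?_⟩⟩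
  · refine le_trans ?_ (mul_le_mul_of_nonneg_right (le_max_left _ _) (by positivity))
    rw [Finset.sum_mul]
    refine (Finset.abs_sum_le_sum_abs _ _).trans (Finset.sum_le_sum fun j _ => ?_)
    rw [abs_mul, mul_assoc, mul_assoc]
    exact mul_le_mul_of_nonneg_left
      ((red4_yw h _).trans (mul_le_mul_of_nonneg_left (hc s' hs j x) hM)) (abs_nonneg _)
  · refine le_trans ?_ (mul_le_mul_of_nonneg_right (le_max_right _ _) (by positivity))
    rw [Finset.sum_mul]
    refine (Finset.abs_sum_le_sum_abs _ _).trans (Finset.sum_le_sum fun j _ => ?_)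
    rw [abs_mul, abs_of_nonneg (sq_nonneg _), mul_assoc]
    refine mul_le_mul_of_nonneg_left ((abs_add_le _ _).trans ?_) (sq_nonneg _)
    have k1 := red4_yw h (red4y a z s' j x)
    have k2 := h.d2 (red4y a z s' j x)
    have k3 := mul_le_mul_of_nonneg_left k2.2 (sq_nonneg (red4y a z s' j x))
    have k4 := mul_le_mul_of_nonneg_left (hc s' hs j x) hM
    rw [abs_of_nonneg (mul_nonneg (sq_nonneg _) k2.1)]
    linarith

end

theorem red4_dom {w : ℝ → ℝ} {M δ C : ℝ} (hδ : 0 < δ) (h : W1 w M) (a : Fin N → E n) (z : Fin N → ℝ) (s : ℝ)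
    {g g' : ℝ → E n → ℝ} (hg : ∀ s, Continuous (g s)) (hg' : Continuous (g' s)) {k : ℕ}
    (hi : Integrable fun x => g s x * Real.exp (-pot δ w (dil a z s) x))
    (hC : ∀ s' ∈ Metric.ball s 1, ∀ x, |g' s' x| ≤ C * (1 + ‖x‖) ^ k)
    (hd : ∀ s x, HasDerivAt (fun s => g s x * Real.exp (-pot δ w (dil a z s) x))
      (g' s x * Real.exp (-pot δ w (dil a z s) x)) s) :
    HasDerivAt (fun s => ∫ x, g s x * Real.exp (-pot δ w (dil a z s) x))
      (∫ x, g' s x * Real.exp (-pot δ w (dil a z s) x)) s := by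
  refine (hasDerivAt_integral_of_dominated_loc_of_deriv_le (μ := volume)
    (F := fun s x => g s x * Real.exp (-pot δ w (dil a z s) x))
    (F' := fun s x => g' s x * Real.exp (-pot δ w (dil a z s) x)) (Metric.ball_mem_nhds s one_pos)
    (Eventually.of_forall fun s' => ((hg s').mul (red4_cont δ h _)).aestronglyMeasurable) hi
    (hg'.mul (red4_cont δ h _)).aestronglyMeasurable (Eventually.of_forall fun x s' hs => ?_)
    ((red_int (n := n) hδ k).const_mul C) (Eventually.of_forall fun x s' _ => hd s' x)).2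
  rw [Real.norm_eq_abs, abs_mul, abs_of_pos (Real.exp_pos _), ← mul_assoc]
  exact mul_le_mul (hC s' hs x) (red4_exp_le δ h _ x) (Real.exp_pos _).le ((abs_nonneg _).trans (hC s' hs x))

/-- `hasDerivAt_integral_of_dominated_loc_of_deriv_le`; with `y j = ⟪dil a z s j, x⟫` one has `d/ds y j = - z j y j` -/
theorem FF_deriv {w : ℝ → ℝ} {M δ : ℝ} (hδ : 0 < δ) (h : W1 w M) (a : Fin N → E n) (z : Fin N → ℝ) (s : ℝ) :
    HasDerivAt (fun s => FF δ w (dil a z s))
      (∫ x, (∑ j, z j * eul (rdg w (dil a z s j)) x) * Real.exp (-pot δ w (dil a z s) x)) s := by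
  obtain ⟨A, hA⟩ := red4_bd h a z s
  have k := red4_dom hδ h a z s (g := fun _ _ => 1) (g' := red4G w a z) (fun _ => continuous_const)
    (red4G_cont h a z s) (red4_int hδ h _ (C := 1) continuous_const (k := 0) (by simp))
    (fun s' hs x => (hA s' hs x).1) (fun s x => by simpa only [one_mul] using red4P_deriv h a z δ s x)
  simp only [one_mul] at k
  simpa only [red4G_eq h, FF] using k

theorem FF_deriv2 {w : ℝ → ℝ} {M δ : ℝ} (hδ : 0 < δ) (h : W1 w M) (a : Fin N → E n) (z : Fin N → ℝ) (s : ℝ) :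
    HasDerivAt (fun s => ∫ x, (∑ j, z j * eul (rdg w (dil a z s j)) x) * Real.exp (-pot δ w (dil a z s) x))
      ((∫ x, (∑ j, z j * eul (rdg w (dil a z s j)) x) ^ 2 * Real.exp (-pot δ w (dil a z s) x)) -
        ∫ x, (∑ j, z j ^ 2 * eul (eul (rdg w (dil a z s j))) x) * Real.exp (-pot δ w (dil a z s) x)) s := by
  obtain ⟨A, hA⟩ := red4_bd h a z s
  have hs0 := Metric.mem_ball_self (x := s) one_pos
  have hA0 : 0 ≤ A := by
    have := (abs_nonneg _).trans (hA s hs0 0).1
    simpa using this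
  have hsq : ∀ s' ∈ Metric.ball s 1, ∀ x, |red4G w a z s' x ^ 2| ≤ A ^ 2 * (1 + ‖x‖) ^ 4 := by
    intro s' hs x
    rw [abs_pow, show A ^ 2 * (1 + ‖x‖) ^ 4 = (A * (1 + ‖x‖) ^ 2) ^ 2 by ring]
    exact pow_le_pow_left₀ (abs_nonneg _) (hA s' hs x).1 2
  have k := red4_dom hδ h a z s (g := red4G w a z) (g' := fun s x => red4G w a z s x ^ 2 - red4H w a z s x)
    (C := A ^ 2 + A) (k := 4) (red4G_cont h a z) (((red4G_cont h a z s).pow 2).sub (red4H_cont h a z s))
    (red4_int hδ h _ (red4G_cont h a z s) fun x => (hA s hs0 x).1)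
    (fun s' hs x => by
      refine (abs_sub _ _).trans ?_
      have k1 : (1 + ‖x‖) ^ 2 ≤ (1 + ‖x‖) ^ 4 :=
        pow_le_pow_right₀ (by linarith [norm_nonneg x]) (by norm_num)
      have k2 := mul_le_mul_of_nonneg_left k1 hA0
      linarith [hsq s' hs x, (hA s' hs x).2])
    (fun s x => by
      refine ((red4G_deriv h a z s x).mul (red4P_deriv h a z δ s x)).congr_deriv ?_
      ring)
  simp only [sub_mul] at k
  rw [integral_sub (red4_int hδ h _ (g := fun x => red4G w a z s x ^ 2) ((red4G_cont h a z s).pow 2) (hsq s hs0))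
    (red4_int hδ h _ (red4H_cont h a z s) fun x => (hA s hs0 x).2)] at k
  simpa only [red4G_eq h, red4H_eq h] using k

end Crest.Agent.R238
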