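import Crest.Agent.R238.Red4

/-!
# R238/Red5: removal of the smallness condition; passage to polyhedra
-/

set_option autoImplicit false
open MeasureTheory Set Filter Topology
open scoped RealInnerProductSpace

namespace Crest.Agent.R238

variable {n N : ℕ}

/-- `pot (r² δ) w (r • a) x = pot δ w a (r • x)`, `Measure.integral_comp_smul` -/
theorem FF_smul (δ : ℝ) (w : ℝ → ℝ) (a : Fin N → E n) {r : ℝ} (hr : 0 < r) :
    FF (r ^ 2 * δ) w (fun j => r • a j) = (r ^ n)⁻¹ * FF δ w a := by
  have e : ∀ x : E n, pot (r ^ 2 * δ) w (fun j => r • a j) x = pot δ w a (r • x) := fun x => by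
    simp only [pot, rdg, inner_smul_left, inner_smul_right, conj_trivial, norm_smul, mul_pow, Real.norm_eq_abs, sq_abs]
    ring
  simp only [FF, e]
  rw [Measure.integral_comp_smul volume (fun x => Real.exp (-pot δ w a x)) r, finrank_euclideanSpace_fin,
    abs_of_pos (by positivity), smul_eq_mul]

/-- choose `r > 0` with `r² (δ / 2 + M ∑ e^{2|z j|} ‖a j‖²) ≤ 1/4`; `vi_pot`, `red_logconc`, `FF_smul` -/
theorem FF_logconc (hV : Var4 n) {w : ℝ → ℝ} {M δ : ℝ} (hδ : 0 < δ) (h : W1 w M) (a : Fin N → E n) (z : Fin N → ℝ)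
    {t : ℝ} (ht0 : 0 ≤ t) (ht1 : t ≤ 1) :
    FF δ w (dil a z 0) ^ (1 - t) * FF δ w (dil a z 1) ^ t ≤ FF δ w (dil a z t) := by
  set S := δ / 2 + M * ∑ j, (Real.exp |z j| * ‖a j‖) ^ 2 with hS
  have hM := h.M_nonneg
  have hS0 : 0 < S := by positivity
  set r := (√(4 * S))⁻¹ with hr
  have hr0 : 0 < r := by positivity
  have hr2 : r ^ 2 * S = 1 / 4 := by
    rw [hr, inv_pow, Real.sq_sqrt (by positivity)]
    field_simp
  have hδ' : 0 < r ^ 2 * δ := by positivity
  have hd : ∀ s, dil (fun j => r • a j) z s = fun j => r • dil a z s j := fun s => by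
    funext j
    simp only [dil, smul_comm r]
  have key := red_logconc (fun s => FF_pos hδ' h _) (FF_deriv hδ' h (fun j => r • a j) z)
    (FF_deriv2 hδ' h (fun j => r • a j) z) (fun s hs => by
      have := vi_pot hV hδ' h (dil (fun j => r • a j) z s) (by
        rw [← hr2, hS, mul_add, mul_div_assoc, mul_left_comm, Finset.mul_sum _ _ (r ^ 2)]
        gcongr with j
        rw [hd, ← mul_pow, norm_smul, Real.norm_of_nonneg hr0.le, dil, norm_smul, Real.norm_of_nonneg (Real.exp_pos _).le]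
        gcongr
        calc _ ≤ |s * z j| := neg_le_abs _
          _ ≤ _ := by
            rw [abs_mul, abs_of_nonneg hs.1]
            exact mul_le_of_le_one_left (abs_nonneg _) hs.2) z
      simp only [VI, FF] at this ⊢
      linarith) ht0 ht1
  simp only [hd, FF_smul δ w _ hr0] at key
  have c : 0 < (r ^ n)⁻¹ := by positivity
  rw [Real.mul_rpow c.le (FF_pos hδ h _).le, Real.mul_rpow c.le (FF_pos hδ h _).le, mul_mul_mul_comm,
    ← Real.rpow_add c, sub_add_cancel, Real.rpow_one] at key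
  exact le_of_mul_le_mul_left key c

/-- dominated convergence; the integrands converge pointwise to `(Pol a).indicator` of the Gaussian -/
theorem FF_tendsto {w : ℝ → ℝ} {M δ : ℝ} (hδ : 0 < δ) (h : W1 w M) (h0 : ∀ y, |y| ≤ 1 → w y = 0)
    (h1 : ∀ y, 1 < |y| → 0 < w y) (a : Fin N → E n) :
    Tendsto (fun k : ℕ => FF δ (fun y => k * w y) a) atTop (𝓝 (GM δ (Pol a))) := by
  have hm : MeasurableSet (Pol a) := by
    simp only [Pol, ofPred_forall]
    exact MeasurableSet.iInter fun j => measurableSet_le (by fun_prop) measurable_const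
  rw [GM, ← integral_indicator hm]
  refine tendsto_integral_of_dominated_convergence (fun x => Real.exp (-(δ * (‖x‖ ^ 2 / 2))))
    (fun k => (pot_smooth (h.const_mul (Nat.cast_nonneg k)).sm δ a).continuous.neg.rexp.aestronglyMeasurable)
    (by simpa using red_int (n := n) hδ 0) (fun k => ae_of_all _ fun x => ?_) (ae_of_all _ fun x => ?_)
  · rw [Real.norm_of_nonneg (Real.exp_pos _).le]
    refine Real.exp_le_exp.2 (neg_le_neg (le_add_of_nonneg_right (Finset.sum_nonneg fun j _ => ?_)))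
    exact (h.const_mul (Nat.cast_nonneg k)).nn _
  by_cases hx : x ∈ Pol a
  · simp only [pot, rdg, indicator_of_mem hx, h0 _ (hx _), mul_zero, Finset.sum_const_zero, add_zero]
    exact tendsto_const_nhds
  · rw [indicator_of_notMem hx]
    simp only [Pol, mem_ofPred_eq, not_forall, not_le] at hx
    obtain ⟨j, hj⟩ := hx
    simp only [pot, rdg, ← Finset.mul_sum]
    refine Real.tendsto_exp_neg_atTop_nhds_zero.comp (tendsto_atTop_add_const_left _ _
      (tendsto_natCast_atTop_atTop.atTop_mul_const ?_))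
    exact Finset.sum_pos' (fun i _ => h.nn _) ⟨j, Finset.mem_univ _, h1 _ hj⟩

theorem GM_logconc (hV : Var4 n) {δ : ℝ} (hδ : 0 < δ) (a : Fin N → E n) (z : Fin N → ℝ)
    {t : ℝ} (ht0 : 0 ≤ t) (ht1 : t ≤ 1) :
    GM δ (Pol (dil a z 0)) ^ (1 - t) * GM δ (Pol (dil a z 1)) ^ t ≤ GM δ (Pol (dil a z t)) := by
  obtain ⟨w, M, h, h0, h1⟩ := exists_w1
  exact le_of_tendsto_of_tendsto'
    (((FF_tendsto hδ h h0 h1 _).rpow_const (Or.inr (sub_nonneg.2 ht1))).mul
      ((FF_tendsto hδ h h0 h1 _).rpow_const (Or.inr ht0))) (FF_tendsto hδ h h0 h1 _)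
    fun k => FF_logconc hV hδ (h.const_mul (Nat.cast_nonneg k)) a z ht0 ht1

end Crest.Agent.R238
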