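import Mathlib

set_option autoImplicit false

/-! Elementary tools for the maximum-principle proof of the Schauder estimate. -/

open Finset Filter Topology

namespace Crest.Agent.R238.Sch

/-- one-dimensional second derivative test -/
lemma sdt {g g' : ℝ → ℝ} {c : ℝ} (hmax : IsLocalMax g 0)
    (hg : ∀ᶠ t in 𝓝 (0:ℝ), HasDerivAt g (g' t) t) (hg' : HasDerivAt g' c 0) :
    g' 0 = 0 ∧ c ≤ 0 := by
  have h0 : g' 0 = 0 := hmax.hasDerivAt_eq_zero hg.self_of_nhds
  refine ⟨h0, ?_⟩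
  by_contra hc
  push Not at hc
  have hs := hasDerivAt_iff_tendsto_slope_zero.mp hg'
  have hpos : ∀ᶠ t in 𝓝[≠] (0:ℝ), 0 < t⁻¹ • (g' (0 + t) - g' 0) :=
    hs.eventually (lt_mem_nhds hc)
  rw [eventually_nhdsWithin_iff] at hpos
  obtain ⟨δ, hδ, hall⟩ := Metric.eventually_nhds_iff.mp ((hpos.and hg).and hmax)
  have hin : ∀ t : ℝ, 0 ≤ t → t ≤ δ / 2 → dist t 0 < δ := by
    intro t h1 h2
    rw [Real.dist_eq, sub_zero, abs_of_nonneg h1]; linarith
  obtain ⟨s, hs1, hs2⟩ := exists_hasDerivAt_eq_slope g g' (a := 0) (b := δ / 2) (by linarith)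
    (fun t ht => (hall (hin t ht.1 ht.2)).1.2.continuousAt.continuousWithinAt)
    (fun t ht => (hall (hin t ht.1.le ht.2.le)).1.2)
  have h1 := (hall (hin s hs1.1.le hs1.2.le)).1.1 (by simpa using hs1.1.ne')
  have h2 := (hall (hin (δ / 2) (by linarith) le_rfl)).2
  simp only [zero_add, h0, sub_zero, smul_eq_mul] at h1 hs2
  have h3 : 0 < g' s := by
    have := mul_pos hs1.1 h1
    rwa [← mul_assoc, mul_inv_cancel₀ hs1.1.ne', one_mul] at this
  rw [hs2] at h3
  have h4 : 0 < g (δ / 2) - g 0 := by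
    have := mul_pos h3 (by linarith : (0:ℝ) < δ / 2)
    rwa [div_mul_cancel₀ _ (by linarith : δ / 2 ≠ 0)] at this
  linarith

open scoped MatrixOrder in
/-- trace of (nonneg form) times (symmetric nonpos form) is nonpositive -/
lemma psd_trace {n : ℕ} (P Q : Fin n → Fin n → ℝ) (hQs : ∀ i j, Q i j = Q j i)
    (hP : ∀ ξ : Fin n → ℝ, 0 ≤ ∑ i, ∑ j, P i j * ξ i * ξ j)
    (hQ : ∀ ξ : Fin n → ℝ, ∑ i, ∑ j, Q i j * ξ i * ξ j ≤ 0) :
    ∑ i, ∑ j, P i j * Q i j ≤ 0 := by
  classical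
  let R : Matrix (Fin n) (Fin n) ℝ := fun i j => - Q i j
  have hR : R.PosSemidef := by
    apply Matrix.PosSemidef.of_dotProduct_mulVec_nonneg
    · ext i j; simp [R, Matrix.conjTranspose_apply, hQs i j]
    · intro x
      have := hQ x
      simp only [star_trivial, dotProduct, Matrix.mulVec, R, Finset.mul_sum]
      have e : ∑ i, ∑ j, x i * (-Q i j * x j) = - ∑ i, ∑ j, Q i j * x i * x j := by
        rw [← Finset.sum_neg_distrib]
        refine Finset.sum_congr rfl fun i _ => ?_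
        rw [← Finset.sum_neg_distrib]
        refine Finset.sum_congr rfl fun j _ => by ring
      rw [e]; linarith
  obtain ⟨B, hB⟩ := CStarAlgebra.nonneg_iff_eq_star_mul_self.mp hR.nonneg
  have hq : ∀ i j, Q i j = - ∑ k, B k i * B k j := by
    intro i j
    have := congrFun (congrFun hB i) j
    simp only [R, Matrix.mul_apply, Matrix.star_apply, star_trivial] at this
    linarith
  have e : ∑ i, ∑ j, P i j * Q i j = - ∑ k, ∑ i, ∑ j, P i j * B k i * B k j := by
    simp only [hq, mul_neg, Finset.sum_neg_distrib, Finset.mul_sum]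
    congr 1
    rw [Finset.sum_comm (f := fun k i => ∑ j, P i j * B k i * B k j)]
    refine Finset.sum_congr rfl fun i _ => ?_
    rw [Finset.sum_comm]
    refine Finset.sum_congr rfl fun j _ => Finset.sum_congr rfl fun k _ => by ring
  rw [e, neg_nonpos]
  exact Finset.sum_nonneg fun k _ => hP (B k)

section calc1
variable {V : Type*} [NormedAddCommGroup V] [NormedSpace ℝ V]

/-- second Fréchet derivative -/
noncomputable def D2 (v : V → ℝ) (x : V) : V →L[ℝ] V →L[ℝ] ℝ := fderiv ℝ (fderiv ℝ v) x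

lemma line1 {v : V → ℝ} (hv : ContDiff ℝ 2 v) (p d : V) (t : ℝ) :
    HasDerivAt (fun t : ℝ => v (p + t • d)) (fderiv ℝ v (p + t • d) d) t := by
  have h1 : HasDerivAt (fun t : ℝ => p + t • d) d t := by
    simpa using ((hasDerivAt_id t).smul_const d).const_add p
  exact ((hv.differentiable (by norm_num) _).hasFDerivAt).comp_hasDerivAt t h1

lemma line2 {v : V → ℝ} (hv : ContDiff ℝ 2 v) (p d d' : V) (t : ℝ) :
    HasDerivAt (fun t : ℝ => fderiv ℝ v (p + t • d) d') (D2 v (p + t • d) d d') t := by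
  have h1 : HasDerivAt (fun t : ℝ => p + t • d) d t := by
    simpa using ((hasDerivAt_id t).smul_const d).const_add p
  have h2 : Differentiable ℝ (fderiv ℝ v) :=
    (hv.fderiv_right (m := 1) (by norm_num)).differentiable (by norm_num)
  have h3 : HasDerivAt (fun t : ℝ => fderiv ℝ v (p + t • d)) (D2 v (p + t • d) d) t :=
    ((h2 _).hasFDerivAt).comp_hasDerivAt t h1
  simpa using h3.clm_apply (hasDerivAt_const t d')

lemma D2_symm {v : V → ℝ} (hv : ContDiff ℝ 2 v) (x a b : V) : D2 v x a b = D2 v x b a :=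
  (hv.contDiffAt.isSymmSndFDerivAt (by simp)) a b

lemma mvt2 {v : V → ℝ} (hv : ContDiff ℝ 2 v) (p a b : V) :
    ∃ s ∈ Set.Icc (0:ℝ) 1, ∃ t ∈ Set.Icc (0:ℝ) 1,
      v (p + a + b) - v (p + a) - v (p + b) + v p = D2 v (p + s • a + t • b) b a := by
  have h1 : ∀ s : ℝ, HasDerivAt (fun s : ℝ => v (p + b + s • a) - v (p + s • a))
      (fderiv ℝ v (p + b + s • a) a - fderiv ℝ v (p + s • a) a) s :=
    fun s => (line1 hv (p + b) a s).sub (line1 hv p a s)
  obtain ⟨s, hs, hs2⟩ := exists_hasDerivAt_eq_slope _ _ (a := (0:ℝ)) (b := 1) zero_lt_one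
    (fun t _ => (h1 t).continuousAt.continuousWithinAt) (fun t _ => h1 t)
  have h2 := fun t => line2 hv (p + s • a) b a t
  obtain ⟨t, ht, ht2⟩ := exists_hasDerivAt_eq_slope _ _ (a := (0:ℝ)) (b := 1) zero_lt_one
    (fun t _ => (h2 t).continuousAt.continuousWithinAt) (fun t _ => h2 t)
  refine ⟨s, ⟨hs.1.le, hs.2.le⟩, t, ⟨ht.1.le, ht.2.le⟩, ?_⟩
  rw [ht2]
  simp only [one_smul, zero_smul, add_zero, sub_zero, div_one] at hs2 ⊢
  rw [show p + s • a + b = p + b + s • a by abel, hs2, show p + a + b = p + b + a by abel]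
  ring

end calc1

/-! sign sums over the cube -/

def sg (b : Bool) : ℝ := if b then 1 else -1

@[simp] lemma sg_not (b : Bool) : sg (!b) = - sg b := by cases b <;> simp [sg]
lemma sg_sq (b : Bool) : sg b * sg b = 1 := by cases b <;> simp [sg]
lemma abs_sg (b : Bool) : |sg b| = 1 := by cases b <;> simp [sg]

abbrev Cube := Fin 3 → Bool

def flip (k : Fin 3) (σ : Cube) : Cube := Function.update σ k (!σ k)

lemma flip_flip (k : Fin 3) (σ : Cube) : flip k (flip k σ) = σ := by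
  funext l
  by_cases h : l = k
  · subst h; simp [flip]
  · simp [flip, Function.update_of_ne h]

def flipE (k : Fin 3) : Cube ≃ Cube := ⟨flip k, flip k, flip_flip k, flip_flip k⟩

lemma flip_same (k : Fin 3) (σ : Cube) : flip k σ k = !σ k := by simp [flip]
lemma flip_ne {k l : Fin 3} (h : l ≠ k) (σ : Cube) : flip k σ l = σ l := by
  simp [flip, Function.update_of_ne h]

noncomputable def sgn (σ : Cube) : ℝ := sg (σ 0) * sg (σ 1) * sg (σ 2)

lemma sgn_flip (k : Fin 3) (σ : Cube) : sgn (flip k σ) = - sgn σ := by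
  fin_cases k <;> simp [sgn, flip]

lemma abs_sgn (σ : Cube) : |sgn σ| = 1 := by simp [sgn, abs_mul, abs_sg]

noncomputable def T (g : Cube → ℝ) : ℝ := ∑ σ, sgn σ * g σ

lemma T_flip_eq (k : Fin 3) (g : Cube → ℝ) : T (fun σ => g (flip k σ)) = - T g := by
  unfold T
  rw [← Finset.sum_neg_distrib]
  refine Fintype.sum_equiv (flipE k) _ _ fun σ => ?_
  simp [flipE, sgn_flip]

lemma T_add (g h : Cube → ℝ) : T (fun σ => g σ + h σ) = T g + T h := by
  simp [T, mul_add, Finset.sum_add_distrib]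
lemma T_sub (g h : Cube → ℝ) : T (fun σ => g σ - h σ) = T g - T h := by
  simp [T, mul_sub, Finset.sum_sub_distrib]
lemma T_mul (c : ℝ) (g : Cube → ℝ) : T (fun σ => c * g σ) = c * T g := by
  simp only [T, Finset.mul_sum]; exact Finset.sum_congr rfl fun _ _ => by ring

lemma T_le (g : Cube → ℝ) {C : ℝ} (h : ∀ σ, |g σ| ≤ C) : |T g| ≤ 8 * C := by
  unfold T
  calc |∑ σ, sgn σ * g σ| ≤ ∑ σ, |sgn σ * g σ| := Finset.abs_sum_le_sum_abs _ _
    _ ≤ ∑ _σ : Cube, C := Finset.sum_le_sum fun σ _ => by rw [abs_mul, abs_sgn, one_mul]; exact h σ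
    _ = 8 * C := by simp

lemma T_flip (k : Fin 3) (g : Cube → ℝ) {C : ℝ} (h : ∀ σ, |g σ - g (flip k σ)| ≤ C) :
    |T g| ≤ 4 * C := by
  have := T_le _ h
  rw [T_sub, T_flip_eq, sub_neg_eq_add, ← two_mul, abs_mul, abs_two] at this
  linarith

lemma T_flip2 (k l : Fin 3) (g : Cube → ℝ) {C : ℝ}
    (h : ∀ σ, |g (flip k (flip l σ)) - g (flip k σ) - g (flip l σ) + g σ| ≤ C) :
    |T g| ≤ 2 * C := by
  have h1 : ∀ σ, |(g σ - g (flip k σ)) - (g (flip l σ) - g (flip k (flip l σ)))| ≤ C := by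
    intro σ
    have := h σ
    rwa [show g (flip k (flip l σ)) - g (flip k σ) - g (flip l σ) + g σ =
      (g σ - g (flip k σ)) - (g (flip l σ) - g (flip k (flip l σ))) by ring] at this
  have := T_flip l (fun σ => g σ - g (flip k σ)) h1
  rw [T_sub, T_flip_eq, sub_neg_eq_add, ← two_mul, abs_mul, abs_two] at this
  linarith

end Crest.Agent.R238.Sch
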