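import Crest.Agent.R238.SchA

set_option autoImplicit false

/-! The barrier lemma (Brandt's maximum principle in the doubled variables). -/

open Finset Filter Topology

namespace Crest.Agent.R238.Sch

abbrev E (n : ℕ) := EuclideanSpace ℝ (Fin n)

noncomputable def bv {n : ℕ} (i : Fin n) : E n := EuclideanSpace.single i 1

lemma norm_bv {n : ℕ} (i : Fin n) : ‖(bv i : E n)‖ = 1 := by simp [bv]

lemma expand {n : ℕ} (Q : E n →L[ℝ] E n →L[ℝ] ℝ) (a b : E n) :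
    Q a b = ∑ i, ∑ j, Q (bv i) (bv j) * a i * b j := by
  have ha : a = ∑ i, a i • bv i := by
    ext k; simp [bv, Finset.sum_apply, Pi.single_apply]
  have hb : b = ∑ j, b j • bv j := by
    ext k; simp [bv, Finset.sum_apply, Pi.single_apply]
  conv_lhs => rw [ha, hb]
  simp only [map_sum, map_smul, _root_.sum_apply, _root_.smul_apply,
    smul_eq_mul, Finset.mul_sum]
  rw [Finset.sum_comm]
  refine Finset.sum_congr rfl fun i _ => Finset.sum_congr rfl fun j _ => by ring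

section
variable {V : Type*} [NormedAddCommGroup V] [NormedSpace ℝ V]

noncomputable def pt (e : Fin 3 → V) (σ : Cube) (z : Fin 3 → ℝ) : V := ∑ k, (sg (σ k) * z k) • e k

lemma pt_add (e : Fin 3 → V) (σ : Cube) (z ζ : Fin 3 → ℝ) (t : ℝ) :
    pt e σ (z + t • ζ) = pt e σ z + t • pt e σ ζ := by
  simp only [pt, Finset.smul_sum, ← Finset.sum_add_distrib, Pi.add_apply, Pi.smul_apply,
    smul_eq_mul, smul_smul, ← add_smul]
  refine Finset.sum_congr rfl fun k _ => by congr 1; ring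

lemma pt_zero (e : Fin 3 → V) (σ : Cube) : pt e σ 0 = 0 := by simp [pt]

lemma pt_single (e : Fin 3 → V) (σ : Cube) (k : Fin 3) :
    pt e σ (Pi.single k 1) = sg (σ k) • e k := by
  fin_cases k <;> simp [pt, Fin.sum_univ_three]

lemma pt_flip (e : Fin 3 → V) (σ : Cube) (z : Fin 3 → ℝ) (k : Fin 3) :
    pt e (flip k σ) z = pt e σ z + (-2 * sg (σ k) * z k) • e k := by
  fin_cases k <;> simp [pt, Fin.sum_univ_three, flip] <;> module

lemma norm_step {e : Fin 3 → V} (he : ∀ k, ‖e k‖ = 1) (σ : Cube) {z : Fin 3 → ℝ} (k : Fin 3)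
    (hz : 0 ≤ z k) : ‖(-2 * sg (σ k) * z k) • e k‖ = 2 * z k := by
  rw [norm_smul, he, mul_one, Real.norm_eq_abs, abs_mul, abs_mul, abs_sg, abs_of_nonneg hz]
  norm_num

lemma norm_pt {e : Fin 3 → V} (he : ∀ k, ‖e k‖ = 1) (σ : Cube) {z : Fin 3 → ℝ} {r : ℝ}
    (hz : ∀ k, 0 ≤ z k ∧ z k ≤ r) : ‖pt e σ z‖ ≤ 3 * r := by
  unfold pt
  calc ‖∑ k, (sg (σ k) * z k) • e k‖ ≤ ∑ k, ‖(sg (σ k) * z k) • e k‖ := norm_sum_le _ _
    _ ≤ ∑ _k : Fin 3, r := Finset.sum_le_sum fun k _ => by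
        rw [norm_smul, he, mul_one, Real.norm_eq_abs, abs_mul, abs_sg, one_mul,
          abs_of_nonneg (hz k).1]; exact (hz k).2
    _ = 3 * r := by simp

/-- triple odd difference -/
noncomputable def W (e : Fin 3 → V) (G : V → ℝ) (x : V) (z : Fin 3 → ℝ) : ℝ :=
  T fun σ => G (x + pt e σ z)

lemma W_holder {e : Fin 3 → V} (he : ∀ k, ‖e k‖ = 1) {G : V → ℝ} {F : ℝ}
    (hG : ∀ x y, ‖x - y‖ ≤ 1 → |G x - G y| ≤ F * √‖x - y‖) (x : V) {z : Fin 3 → ℝ} (k : Fin 3)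
    (hz : 0 ≤ z k) (hz1 : 2 * z k ≤ 1) : |W e G x z| ≤ 4 * (F * √(2 * z k)) := by
  refine T_flip k _ fun σ => ?_
  have h : ‖x + pt e σ z - (x + pt e (flip k σ) z)‖ = 2 * z k := by
    rw [pt_flip, ← norm_step he σ k hz, ← norm_neg]
    congr 1
    abel
  have := hG (x + pt e σ z) (x + pt e (flip k σ) z) (by rw [h]; exact hz1)
  rwa [h] at this

lemma W_two {e : Fin 3 → V} (he : ∀ k, ‖e k‖ = 1) {v : V → ℝ} (hv : ContDiff ℝ 2 v) {M : ℝ}
    (hM : ∀ x a b, |D2 v x a b| ≤ M * ‖a‖ * ‖b‖) (x : V) {z : Fin 3 → ℝ} {k l : Fin 3}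
    (hkl : k ≠ l) (hk : 0 ≤ z k) (hl : 0 ≤ z l) : |W e v x z| ≤ 8 * M * z k * z l := by
  have := T_flip2 k l (fun σ => v (x + pt e σ z)) (C := M * (2 * z l) * (2 * z k)) fun σ => by
    obtain ⟨s, -, t, -, h⟩ := mvt2 hv (x + pt e σ z) ((-2 * sg (σ k) * z k) • e k)
      ((-2 * sg (σ l) * z l) • e l)
    rw [pt_flip, pt_flip, pt_flip, flip_ne hkl]
    have h2 := hM (x + pt e σ z + s • (-2 * sg (σ k) * z k) • e k + t • (-2 * sg (σ l) * z l) • e l)
      ((-2 * sg (σ l) * z l) • e l) ((-2 * sg (σ k) * z k) • e k)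
    rw [← h, norm_step he σ k hk, norm_step he σ l hl] at h2
    convert h2 using 5 <;> abel_nf
  unfold W
  linarith

lemma W_line1 (e : Fin 3 → V) {v : V → ℝ} (hv : ContDiff ℝ 2 v) (x w : V) (z ζ : Fin 3 → ℝ)
    (t : ℝ) : HasDerivAt (fun t : ℝ => W e v (x + t • w) (z + t • ζ))
      (T fun σ => fderiv ℝ v (x + pt e σ z + t • (w + pt e σ ζ)) (w + pt e σ ζ)) t := by
  have : (fun t : ℝ => W e v (x + t • w) (z + t • ζ)) =
      fun t : ℝ => ∑ σ, sgn σ * v (x + pt e σ z + t • (w + pt e σ ζ)) := by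
    funext t
    simp only [W, T, pt_add, smul_add]
    refine Finset.sum_congr rfl fun σ _ => by congr 2; abel
  rw [this]
  exact HasDerivAt.fun_sum fun σ _ => (line1 hv _ _ t).const_mul _

lemma W_line2 (e : Fin 3 → V) {v : V → ℝ} (hv : ContDiff ℝ 2 v) (x w : V) (z ζ : Fin 3 → ℝ) :
    HasDerivAt (fun t : ℝ =>
      T fun σ => fderiv ℝ v (x + pt e σ z + t • (w + pt e σ ζ)) (w + pt e σ ζ))
      (T fun σ => D2 v (x + pt e σ z) (w + pt e σ ζ) (w + pt e σ ζ)) 0 := by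
  have := HasDerivAt.fun_sum (u := Finset.univ) fun σ _ =>
    (line2 hv (x + pt e σ z) (w + pt e σ ζ) (w + pt e σ ζ) 0).const_mul (sgn σ)
  simpa [T] using this

lemma W_cont (e : Fin 3 → V) {v : V → ℝ} (hv : Continuous v) :
    Continuous fun q : V × (Fin 3 → ℝ) => W e v q.1 q.2 := by
  unfold W T pt
  fun_prop

end

/-- the barrier -/
noncomputable def Bf (z : Fin 3 → ℝ) : ℝ := ∏ k, z k ^ (5 / 6 : ℝ)

lemma Bf_nonneg {z : Fin 3 → ℝ} (hz : ∀ k, 0 ≤ z k) : 0 ≤ Bf z :=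
  Finset.prod_nonneg fun k _ => Real.rpow_nonneg (hz k) _

lemma Bf_cont : Continuous Bf := by
  unfold Bf
  exact continuous_finsetProd _ fun k _ =>
    (continuous_apply k).rpow_const fun _ => Or.inr (by norm_num)

lemma Bf_single (z : Fin 3 → ℝ) (k : Fin 3) (t : ℝ) :
    Bf (z + t • Pi.single k 1) = (z k + t) ^ (5 / 6 : ℝ) * ∏ l ∈ Finset.univ.erase k, z l ^ (5 / 6 : ℝ) := by
  unfold Bf
  rw [← Finset.mul_prod_erase _ _ (Finset.mem_univ k)]
  congr 1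
  · simp
  · refine Finset.prod_congr rfl fun l hl => ?_
    simp [Pi.single_apply, Finset.ne_of_mem_erase hl]

lemma Bf_scale {z : Fin 3 → ℝ} (hz : ∀ k, 0 ≤ z k) {t : ℝ} (ht : -1 < t) :
    Bf (z + t • z) = (1 + t) ^ (5 / 2 : ℝ) * Bf z := by
  unfold Bf
  have h1 : 0 < 1 + t := by linarith
  have : ∀ k, (z + t • z) k ^ (5 / 6 : ℝ) = (1 + t) ^ (5 / 6 : ℝ) * z k ^ (5 / 6 : ℝ) := by
    intro k
    rw [← Real.mul_rpow h1.le (hz k)]
    congr 1
    simp; ring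
  simp only [this, Finset.prod_mul_distrib, Finset.prod_const, Finset.card_univ, Fintype.card_fin]
  congr 1
  rw [← Real.rpow_natCast, ← Real.rpow_mul h1.le]
  norm_num

lemma Bf_lower {z : Fin 3 → ℝ} {m : ℝ} (hm : 0 < m) (hz : ∀ k, m ≤ z k) :
    √m ≤ Bf z / m ^ 2 := by
  rw [le_div_iff₀ (by positivity)]
  have : √m * m ^ 2 = ∏ _k : Fin 3, m ^ (5 / 6 : ℝ) := by
    simp only [Finset.prod_const, Finset.card_univ, Fintype.card_fin]
    rw [Real.sqrt_eq_rpow, ← Real.rpow_natCast, ← Real.rpow_natCast, ← Real.rpow_mul hm.le,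
      ← Real.rpow_add hm]
    norm_num
  rw [this]
  exact Finset.prod_le_prod (fun k _ => Real.rpow_nonneg hm.le _)
    fun k _ => Real.rpow_le_rpow hm.le (hz k) (by norm_num)

lemma face_aux {a b r : ℝ} (ha : 0 ≤ a) (hb : 0 ≤ b) (har : a ≤ r) (hbr : b ≤ r) (hr : 0 < r) :
    a * b * √r ≤ r ^ (5 / 6 : ℝ) * a ^ (5 / 6 : ℝ) * b ^ (5 / 6 : ℝ) := by
  have h1 : ∀ c : ℝ, 0 ≤ c → c ≤ r → c ≤ c ^ (5 / 6 : ℝ) * r ^ (1 / 6 : ℝ) := by
    intro c hc hcr
    calc c = c ^ (5 / 6 : ℝ) * c ^ (1 / 6 : ℝ) := by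
          rw [← Real.rpow_add' hc (by norm_num)]; norm_num
      _ ≤ _ := mul_le_mul_of_nonneg_left (Real.rpow_le_rpow hc hcr (by norm_num))
          (Real.rpow_nonneg hc _)
  have h2 : r ^ (5 / 6 : ℝ) = r ^ (1 / 6 : ℝ) * r ^ (1 / 6 : ℝ) * √r := by
    rw [Real.sqrt_eq_rpow, ← Real.rpow_add hr, ← Real.rpow_add hr]; norm_num
  rw [h2]
  have h3 : a * b ≤ (a ^ (5 / 6 : ℝ) * r ^ (1 / 6 : ℝ)) * (b ^ (5 / 6 : ℝ) * r ^ (1 / 6 : ℝ)) :=
    mul_le_mul (h1 a ha har) (h1 b hb hbr) hb (by positivity)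
  have := mul_le_mul_of_nonneg_right h3 (Real.sqrt_nonneg r)
  linarith

/-- on the faces of the box the barrier dominates -/
lemma face {V : Type*} [NormedAddCommGroup V] [NormedSpace ℝ V] {e : Fin 3 → V}
    (he : ∀ k, ‖e k‖ = 1) {v : V → ℝ} (hv : ContDiff ℝ 2 v) {M K r : ℝ} (hM0 : 0 ≤ M)
    (hM : ∀ x a b, |D2 v x a b| ≤ M * ‖a‖ * ‖b‖) (hr : 0 < r) (hK : 8 * M ≤ K * √r)
    (x : V) {z : Fin 3 → ℝ} (hz : ∀ k, 0 ≤ z k ∧ z k ≤ r) (k : Fin 3) (hk : z k = 0 ∨ z k = r) :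
    W e v x z ≤ K * Bf z := by
  have hK0 : 0 ≤ K := by
    by_contra h
    have := mul_neg_of_neg_of_pos (not_le.mp h) (Real.sqrt_pos.mpr hr)
    linarith
  rcases hk with hk | hk
  · obtain ⟨l, hl⟩ : ∃ l, k ≠ l := ⟨k + 1, by fin_cases k <;> decide⟩
    have := W_two he hv hM x hl (hz k).1 (hz l).1
    rw [hk] at this
    have h2 := mul_nonneg hK0 (Bf_nonneg fun k => (hz k).1)
    have := le_abs_self (W e v x z)
    linarith
  · have key : ∀ l m : Fin 3, l ≠ m →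
        Bf z = r ^ (5 / 6 : ℝ) * z l ^ (5 / 6 : ℝ) * z m ^ (5 / 6 : ℝ) → W e v x z ≤ K * Bf z := by
      intro l m hlm hB
      have h1 := W_two he hv hM x hlm (hz l).1 (hz m).1
      have h2 := face_aux (hz l).1 (hz m).1 (hz l).2 (hz m).2 hr
      have h3 := le_abs_self (W e v x z)
      have h4 := mul_le_mul_of_nonneg_right hK (mul_nonneg (hz l).1 (hz m).1)
      have h5 := mul_le_mul_of_nonneg_left h2 hK0
      rw [hB]
      nlinarith
    fin_cases k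
    · refine key 1 2 (by decide) ?_
      simp only [Bf, Fin.prod_univ_three]; simp only [Fin.zero_eta] at hk; rw [hk]
    · refine key 0 2 (by decide) ?_
      simp only [Bf, Fin.prod_univ_three]; simp only [Fin.mk_one] at hk; rw [hk]; ring
    · refine key 0 1 (by decide) ?_
      simp only [Bf, Fin.prod_univ_three]; simp only [Fin.reduceFinMk] at hk; rw [hk]; ring

end Crest.Agent.R238.Sch
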