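import Crest.Agent.R238.SchB

set_option autoImplicit false

/-! The barrier lemma (Brandt's maximum principle in the doubled variables). -/

open Finset Filter Topology

namespace Crest.Agent.R238.Sch

variable {n : ℕ}

lemma nsq1 (x w : E n) (t : ℝ) :
    HasDerivAt (fun t : ℝ => ‖x + t • w‖ ^ 2) (2 * inner ℝ x w + 2 * t * ‖w‖ ^ 2) t := by
  have : (fun t : ℝ => ‖x + t • w‖ ^ 2) =
      fun t : ℝ => ‖x‖ ^ 2 + 2 * (t * inner ℝ x w) + t ^ 2 * ‖w‖ ^ 2 := by
    funext t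
    rw [norm_add_sq_real, inner_smul_right, norm_smul, mul_pow, Real.norm_eq_abs, sq_abs]
  rw [this]
  have h := (((hasDerivAt_id t).mul_const (inner ℝ x w)).const_mul 2).const_add (‖x‖ ^ 2)
  have h2 := (hasDerivAt_pow 2 t).mul_const (‖w‖ ^ 2)
  refine (h.add h2).congr_deriv ?_
  simp

/-- the three conditions at an interior maximum -/
lemma interior_conds {e : Fin 3 → E n} {v : E n → ℝ} (hv : ContDiff ℝ 2 v) {K ε r : ℝ}
    {x : E n} {z : Fin 3 → ℝ} (hz : ∀ k, 0 < z k ∧ z k < r)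
    (hmax : ∀ y ζ, (∀ k, 0 ≤ ζ k ∧ ζ k ≤ r) →
      W e v y ζ - K * Bf ζ - ε * ‖y‖ ^ 2 ≤ W e v x z - K * Bf z - ε * ‖x‖ ^ 2) :
    (∀ w, T (fun σ => D2 v (x + pt e σ z) w w) ≤ 2 * ε * ‖w‖ ^ 2) ∧
    (∀ k, T (fun σ => D2 v (x + pt e σ z) (e k) (e k)) ≤ - (5 / 36) * K * (Bf z / z k ^ 2)) ∧
    T (fun σ => fderiv ℝ v (x + pt e σ z) (x + pt e σ z)) = 5 / 2 * K * Bf z + 2 * ε * ‖x‖ ^ 2 := by
  have hz' : ∀ k, 0 ≤ z k ∧ z k ≤ r := fun k => ⟨(hz k).1.le, (hz k).2.le⟩
  -- the box is a neighbourhood along any line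
  have hbox : ∀ ζ : Fin 3 → ℝ, ∀ᶠ t in 𝓝 (0:ℝ), ∀ k, 0 ≤ (z + t • ζ) k ∧ (z + t • ζ) k ≤ r := by
    intro ζ
    rw [eventually_all]
    intro k
    have hc : Continuous fun t : ℝ => (z + t • ζ) k := by fun_prop
    have h0 : Tendsto (fun t : ℝ => (z + t • ζ) k) (𝓝 0) (𝓝 (z k)) := by
      simpa using hc.tendsto 0
    have h1 := h0.eventually (lt_mem_nhds (hz k).1)
    have h2 := h0.eventually (gt_mem_nhds (hz k).2)
    filter_upwards [h1, h2] with t a b using ⟨a.le, b.le⟩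
  have hloc : ∀ (w : E n) (ζ : Fin 3 → ℝ), IsLocalMax (fun t : ℝ =>
      W e v (x + t • w) (z + t • ζ) - K * Bf (z + t • ζ) - ε * ‖x + t • w‖ ^ 2) 0 := by
    intro w ζ
    filter_upwards [hbox ζ] with t ht
    simpa using hmax (x + t • w) (z + t • ζ) ht
  refine ⟨fun w => ?_, fun k => ?_, ?_⟩
  · have h := sdt (hloc w 0) (g' := fun t => (T fun σ => fderiv ℝ v (x + pt e σ z +
        t • (w + pt e σ 0)) (w + pt e σ 0)) - 0 - ε * (2 * inner ℝ x w + 2 * t * ‖w‖ ^ 2))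
      (c := (T fun σ => D2 v (x + pt e σ z) (w + pt e σ 0) (w + pt e σ 0)) - ε * (2 * ‖w‖ ^ 2))
      (Eventually.of_forall fun t => ((W_line1 e hv x w z 0 t).sub (by
        simpa using hasDerivAt_const t (K * Bf z))).sub ((nsq1 x w t).const_mul ε))
      (by
        have h1 := (((hasDerivAt_id (0:ℝ)).const_mul 2).mul_const (‖w‖ ^ 2)).const_add
          (2 * inner ℝ x w)
        refine (((W_line2 e hv x w z 0).sub_const 0).sub (h1.const_mul ε)).congr_deriv ?_
        simp)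
    have h2 := h.2
    simp only [pt_zero, add_zero] at h2
    linarith
  · set C : ℝ := ∏ l ∈ Finset.univ.erase k, z l ^ (5 / 6 : ℝ) with hC
    have hzk := (hz k).1
    have hB : Bf z = z k ^ (5 / 6 : ℝ) * C := by simpa using Bf_single z k 0
    have h := sdt (hloc 0 (Pi.single k 1)) (g' := fun t => (T fun σ => fderiv ℝ v (x + pt e σ z +
        t • (0 + pt e σ (Pi.single k 1))) (0 + pt e σ (Pi.single k 1))) -
        K * (5 / 6 * (z k + t) ^ (5 / 6 - 1 : ℝ) * C) - 0)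
      (c := (T fun σ => D2 v (x + pt e σ z) (0 + pt e σ (Pi.single k 1))
        (0 + pt e σ (Pi.single k 1))) - K * (5 / 6 * ((5 / 6 - 1) * z k ^ (5 / 6 - 1 - 1 : ℝ)) * C))
      (by
        have hpos : ∀ᶠ t in 𝓝 (0:ℝ), 0 < z k + t :=
          (by fun_prop : Continuous fun t : ℝ => z k + t).continuousAt.eventually
            (lt_mem_nhds (by simpa using hzk))
        filter_upwards [hpos] with t ht
        refine ((W_line1 e hv x 0 z _ t).sub ?_).sub (by simpa using hasDerivAt_const t (ε * ‖x‖ ^ 2))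
        simp only [Bf_single]
        have h1 := (((hasDerivAt_id t).const_add (z k)).rpow_const (p := (5 / 6 : ℝ))
          (Or.inl ht.ne')).mul_const C
        have := h1.const_mul K
        simpa using this)
      (by
        have h1 := ((((hasDerivAt_id (0:ℝ)).const_add (z k)).rpow_const (p := (5 / 6 - 1 : ℝ))
          (Or.inl (by simpa using hzk.ne'))).const_mul (5 / 6)).mul_const C
        have := ((W_line2 e hv x 0 z (Pi.single k 1)).sub (h1.const_mul K)).sub_const 0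
        simpa using this)
    have h2 := h.2
    have h3 : ∀ σ, D2 v (x + pt e σ z) (0 + pt e σ (Pi.single k 1)) (0 + pt e σ (Pi.single k 1)) =
        D2 v (x + pt e σ z) (e k) (e k) := by
      intro σ
      simp only [zero_add, pt_single, map_smul, _root_.smul_apply, smul_eq_mul]
      rw [← mul_assoc, sg_sq, one_mul]
    simp only [h3] at h2
    have h4 : z k ^ (5 / 6 - 1 - 1 : ℝ) = z k ^ (5 / 6 : ℝ) / z k ^ 2 := by
      rw [Real.rpow_sub_one hzk.ne', Real.rpow_sub_one hzk.ne']; field_simp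
    rw [h4] at h2
    rw [hB]
    have h5 : K * (5 / 6 * ((5 / 6 - 1) * (z k ^ (5 / 6 : ℝ) / z k ^ 2)) * C) =
        - (5 / 36) * K * (z k ^ (5 / 6 : ℝ) * C / z k ^ 2) := by ring
    linarith
  · have hd : HasDerivAt (fun t : ℝ =>
        W e v (x + t • x) (z + t • z) - K * Bf (z + t • z) - ε * ‖x + t • x‖ ^ 2)
        ((T fun σ => fderiv ℝ v (x + pt e σ z + (0:ℝ) • (x + pt e σ z)) (x + pt e σ z)) -
          K * (5 / 2 * Bf z) - ε * (2 * inner ℝ x x + 2 * 0 * ‖x‖ ^ 2)) 0 := by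
      refine ((W_line1 e hv x x z z 0).sub ?_).sub ((nsq1 x x 0).const_mul ε)
      have h1 := ((((hasDerivAt_id (0:ℝ)).const_add 1).rpow_const (p := (5 / 2 : ℝ))
        (Or.inl (by simp))).mul_const (Bf z)).const_mul K
      have h2 : (fun t : ℝ => K * Bf (z + t • z)) =ᶠ[𝓝 0]
          fun t : ℝ => K * ((1 + id t) ^ (5 / 2 : ℝ) * Bf z) := by
        filter_upwards [lt_mem_nhds (by norm_num : (-1:ℝ) < 0)] with t ht
        rw [Bf_scale (fun k => (hz' k).1) ht]; rfl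
      have := h1.congr_of_eventuallyEq h2
      simpa using this
    have := (hloc x z).hasDerivAt_eq_zero hd
    simp only [zero_smul, add_zero, mul_zero, zero_mul, real_inner_self_eq_norm_sq] at this
    linarith

lemma T_bil (Q : Cube → E n →L[ℝ] E n →L[ℝ] ℝ) (a b : E n) :
    T (fun σ => Q σ a b) = ∑ i, ∑ j, T (fun σ => Q σ (bv i) (bv j)) * a i * b j := by
  have : T (fun σ => Q σ a b) = (∑ σ, sgn σ • Q σ) a b := by
    simp [T]
  rw [this, expand]
  simp [T]

lemma sum_sq_eq (w : E n) : ∑ i, w i ^ 2 = ‖w‖ ^ 2 := by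
  rw [EuclideanSpace.real_norm_sq_eq]

/-- the elliptic inequality at an interior maximum -/
lemma interior_ineq {e : Fin 3 → E n} (he : ∀ k, ‖e k‖ = 1) {v : E n → ℝ} (hv : ContDiff ℝ 2 v)
    {K ε r lam Λ : ℝ} (hlam : 0 < lam) (hK : 0 ≤ K) (hε : 0 ≤ ε)
    {x : E n} {z : Fin 3 → ℝ} (hz : ∀ k, 0 < z k ∧ z k < r)
    (hmax : ∀ y ζ, (∀ k, 0 ≤ ζ k ∧ ζ k ≤ r) →
      W e v y ζ - K * Bf ζ - ε * ‖y‖ ^ 2 ≤ W e v x z - K * Bf z - ε * ‖x‖ ^ 2)
    (a : Fin n → Fin n → ℝ) (hell : ∀ ξ : Fin n → ℝ, lam * ∑ i, ξ i ^ 2 ≤ ∑ i, ∑ j, a i j * ξ i * ξ j)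
    (hΛ : ∀ i, a i i ≤ Λ) (k₀ : Fin 3) :
    T (fun σ => (∑ i, ∑ j, a i j * D2 v (x + pt e σ z) (bv i) (bv j)) -
      fderiv ℝ v (x + pt e σ z) (x + pt e σ z)) ≤
      2 * ε * (n * Λ) - 5 / 108 * lam * K * (Bf z / z k₀ ^ 2) := by
  obtain ⟨h1, h2, h3⟩ := interior_conds hv hz hmax
  set Q : Fin n → Fin n → ℝ := fun i j => T (fun σ => D2 v (x + pt e σ z) (bv i) (bv j)) with hQ
  have hB : 0 ≤ Bf z := Bf_nonneg fun k => (hz k).1.le
  have hQe : ∀ w : E n, T (fun σ => D2 v (x + pt e σ z) w w) = ∑ i, ∑ j, Q i j * w i * w j :=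
    fun w => T_bil (fun σ => D2 v (x + pt e σ z)) w w
  have hp := psd_trace (fun i j => a i j - lam / 3 * ∑ k, e k i * e k j)
    (fun i j => Q i j - 2 * ε * (if i = j then 1 else 0))
    (fun i j => by
      simp only [hQ, D2_symm hv _ (bv i) (bv j), eq_comm (a := i)])
    (fun ξ => by
      have h4 := hell ξ
      have h5 : ∀ k, (∑ i, e k i * ξ i) ^ 2 ≤ ∑ i, ξ i ^ 2 := by
        intro k
        have := Finset.sum_mul_sq_le_sq_mul_sq Finset.univ (fun i => e k i) ξ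
        rwa [sum_sq_eq (e k), he, one_pow, one_mul] at this
      have h6 : ∑ i, ∑ j, (a i j - lam / 3 * ∑ k, e k i * e k j) * ξ i * ξ j =
          ∑ i, ∑ j, a i j * ξ i * ξ j - lam / 3 * ∑ k, (∑ i, e k i * ξ i) ^ 2 := by
        simp only [Fin.sum_univ_three, sq, Finset.sum_mul_sum]
        simp only [Finset.mul_sum, mul_add,
          ← Finset.sum_add_distrib, ← Finset.sum_sub_distrib]
        refine Finset.sum_congr rfl fun i _ => Finset.sum_congr rfl fun j _ => by ring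
      rw [h6, Fin.sum_univ_three]
      have := h5 0; have := h5 1; have := h5 2
      nlinarith)
    (fun ξ => by
      have h4 := h1 (WithLp.toLp 2 ξ)
      rw [hQe, ← sum_sq_eq] at h4
      have h6 : ∑ i, ∑ j, (Q i j - 2 * ε * (if i = j then 1 else 0)) * ξ i * ξ j =
          ∑ i, ∑ j, Q i j * ξ i * ξ j - 2 * ε * ∑ i, ξ i ^ 2 := by
        simp only [sub_mul, Finset.sum_sub_distrib, Finset.mul_sum]
        congr 1
        refine Finset.sum_congr rfl fun i _ => ?_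
        simp [sq, mul_assoc]
      rw [h6]
      simp only at h4
      linarith)
  have h7 : ∑ i, ∑ j, (a i j - lam / 3 * ∑ k, e k i * e k j) *
      (Q i j - 2 * ε * (if i = j then 1 else 0)) = ∑ i, ∑ j, a i j * Q i j -
      lam / 3 * ∑ k, ∑ i, ∑ j, Q i j * e k i * e k j - 2 * ε * ∑ i, a i i +
      2 * ε * (lam / 3) * ∑ k, ∑ i, e k i ^ 2 := by
    have e1 : ∀ i, ∑ j, (a i j - lam / 3 * ∑ k, e k i * e k j) *
        (Q i j - 2 * ε * (if i = j then 1 else 0)) = ∑ j, (a i j - lam / 3 * ∑ k, e k i * e k j) *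
        Q i j - 2 * ε * (a i i - lam / 3 * ∑ k, e k i * e k i) := by
      intro i
      simp only [mul_sub _ (Q _ _), Finset.sum_sub_distrib]
      congr 1
      simp [mul_comm]
    simp only [e1]
    simp only [Fin.sum_univ_three, Finset.mul_sum, mul_add, ← Finset.sum_add_distrib,
      ← Finset.sum_sub_distrib]
    refine Finset.sum_congr rfl fun i _ => ?_
    simp only [sub_mul, add_mul, Finset.sum_sub_distrib, Finset.sum_add_distrib]
    have : ∀ k : Fin 3, ∑ j, lam / 3 * (e k i * e k j) * Q i j =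
        ∑ j, lam / 3 * (Q i j * e k i * e k j) :=
      fun k => Finset.sum_congr rfl fun j _ => by ring
    rw [this 0, this 1, this 2]
    ring
  rw [h7] at hp
  have h8 : T (fun σ => (∑ i, ∑ j, a i j * D2 v (x + pt e σ z) (bv i) (bv j)) -
      fderiv ℝ v (x + pt e σ z) (x + pt e σ z)) = ∑ i, ∑ j, a i j * Q i j -
      (5 / 2 * K * Bf z + 2 * ε * ‖x‖ ^ 2) := by
    rw [T_sub, h3]
    congr 1
    simp only [hQ, T, Finset.mul_sum]
    rw [Finset.sum_comm]
    refine Finset.sum_congr rfl fun i _ => ?_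
    rw [Finset.sum_comm]
    refine Finset.sum_congr rfl fun j _ => Finset.sum_congr rfl fun σ _ => by ring
  rw [h8]
  have h9 : ∑ k, ∑ i, ∑ j, Q i j * e k i * e k j ≤ - (5 / 36) * K * (Bf z / z k₀ ^ 2) := by
    have : ∀ k, ∑ i, ∑ j, Q i j * e k i * e k j ≤
        if k = k₀ then - (5 / 36) * K * (Bf z / z k₀ ^ 2) else 0 := by
      intro k
      rw [← hQe]
      split_ifs with h
      · rw [← h]; exact h2 k
      · refine (h2 k).trans ?_
        have : 0 ≤ K * (Bf z / z k ^ 2) := by positivity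
        linarith
    refine (Finset.sum_le_sum fun k _ => this k).trans (le_of_eq ?_)
    simp
  have h10 : ∑ i, a i i ≤ n * Λ := by
    simpa using Finset.sum_le_sum fun i (_ : i ∈ Finset.univ) => hΛ i
  have h11 : 0 ≤ 2 * ε * (lam / 3) * ∑ k, ∑ i, e k i ^ 2 := by positivity
  have h12 := mul_le_mul_of_nonneg_left h9 (by positivity : 0 ≤ lam / 3)
  have h13 := mul_le_mul_of_nonneg_left h10 (by positivity : 0 ≤ 2 * ε)
  have h14 : 0 ≤ K * Bf z := by positivity
  have h15 : 0 ≤ ε * ‖x‖ ^ 2 := by positivity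
  nlinarith

end Crest.Agent.R238.Sch
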