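import Crest.Agent.R238.SchC

set_option autoImplicit false

/-! The barrier estimate and the Schauder estimate in operator form. -/

open Finset Filter Topology

namespace Crest.Agent.R238.Sch

variable {n : ℕ}

lemma exists_max {e : Fin 3 → E n} {v : E n → ℝ} (hv : Continuous v) {K ε r Wm : ℝ} (hK : 0 ≤ K)
    (hε : 0 < ε) (hW : ∀ y ζ, (∀ k, 0 ≤ ζ k ∧ ζ k ≤ r) → W e v y ζ ≤ Wm)
    {x₀ : E n} {z₀ : Fin 3 → ℝ} (hz₀ : ∀ k, 0 ≤ z₀ k ∧ z₀ k ≤ r)
    (hpos : 0 ≤ W e v x₀ z₀ - K * Bf z₀ - ε * ‖x₀‖ ^ 2) :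
    ∃ x z, (∀ k, 0 ≤ z k ∧ z k ≤ r) ∧ ∀ y ζ, (∀ k, 0 ≤ ζ k ∧ ζ k ≤ r) →
      W e v y ζ - K * Bf ζ - ε * ‖y‖ ^ 2 ≤ W e v x z - K * Bf z - ε * ‖x‖ ^ 2 := by
  set ρ : ℝ := ‖x₀‖ + 1 + |Wm| / ε with hρ
  have hc : IsCompact (Metric.closedBall (0 : E n) ρ ×ˢ Set.Icc (0 : Fin 3 → ℝ) fun _ => r) :=
    (isCompact_closedBall _ _).prod isCompact_Icc
  have hΦ : Continuous fun q : E n × (Fin 3 → ℝ) => W e v q.1 q.2 - K * Bf q.2 - ε * ‖q.1‖ ^ 2 :=
    ((W_cont e hv).sub (continuous_const.mul (Bf_cont.comp continuous_snd))).sub (by fun_prop)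
  have h1 : 0 ≤ |Wm| / ε := by positivity
  have hm0 : (x₀, z₀) ∈ Metric.closedBall (0 : E n) ρ ×ˢ Set.Icc (0 : Fin 3 → ℝ) fun _ => r :=
    ⟨by simp only [mem_closedBall_zero_iff]; linarith, fun k => (hz₀ k).1, fun k => (hz₀ k).2⟩
  obtain ⟨q, hq, hmax⟩ := hc.exists_isMaxOn ⟨_, hm0⟩ hΦ.continuousOn
  refine ⟨q.1, q.2, fun k => ⟨hq.2.1 k, hq.2.2 k⟩, fun y ζ hζ => ?_⟩
  by_cases hy : ‖y‖ ≤ ρ
  · exact hmax (a := (y, ζ)) ⟨by simpa using hy, fun k => (hζ k).1, fun k => (hζ k).2⟩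
  · have h2 : W e v x₀ z₀ - K * Bf z₀ - ε * ‖x₀‖ ^ 2 ≤ _ := hmax hm0
    have h3 := hW y ζ hζ
    have h4 := mul_nonneg hK (Bf_nonneg fun k => (hζ k).1)
    have h5 : 1 + |Wm| / ε ≤ ‖y‖ := by have := norm_nonneg x₀; linarith [not_le.mp hy]
    have h6 : |Wm| / ε ≤ ‖y‖ ^ 2 := by nlinarith
    have h7 : |Wm| ≤ ε * ‖y‖ ^ 2 := by rwa [div_le_iff₀ hε, mul_comm] at h6
    have := le_abs_self Wm
    linarith

lemma sqrt_two_mul_le {m : ℝ} (hm : 0 ≤ m) : √(2 * m) ≤ 2 * √m := by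
  rw [Real.sqrt_le_left (by positivity), mul_pow, Real.sq_sqrt hm]; linarith

/-- hypotheses of the Schauder estimate in operator form -/
structure Hyp (v f : E n → ℝ) (a : E n → Fin n → Fin n → ℝ) (c lam Λ A M F : ℝ) : Prop where
  hv : ContDiff ℝ 2 v
  lam0 : 0 < lam
  A0 : 0 ≤ A
  M0 : 0 ≤ M
  F0 : 0 ≤ F
  c1 : |c| ≤ 1
  hM : ∀ x a b, |D2 v x a b| ≤ M * ‖a‖ * ‖b‖
  ell : ∀ x (ξ : Fin n → ℝ), lam * ∑ i, ξ i ^ 2 ≤ ∑ i, ∑ j, a x i j * ξ i * ξ j
  hΛ : ∀ x i, a x i i ≤ Λ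
  hA : ∀ i j x y, ‖x - y‖ ≤ 1 → |a x i j - a y i j| ≤ A * √‖x - y‖
  hF : ∀ x y, ‖x - y‖ ≤ 1 → |f x - f y| ≤ F * √‖x - y‖
  eqn : ∀ x, f x = (∑ i, ∑ j, a x i j * D2 v x (bv i) (bv j)) - fderiv ℝ v x x + c * v x

lemma rhs_lower {v f : E n → ℝ} {a : E n → Fin n → Fin n → ℝ} {c lam Λ A M F H r : ℝ}
    (h : Hyp v f a c lam Λ A M F) (H0 : 0 ≤ H)
    (hH : ∀ x y a b, |D2 v x a b - D2 v y a b| ≤ H * √‖x - y‖ * ‖a‖ * ‖b‖)
    (hr : r ≤ 1 / 4) {e : Fin 3 → E n} (he : ∀ k, ‖e k‖ = 1) (x : E n) {z : Fin 3 → ℝ}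
    (hz : ∀ k, 0 ≤ z k ∧ z k ≤ r) (k : Fin 3) :
    -((8 * F + 8 * M + 8 * n ^ 2 * A * (2 * √r * H + M)) * √(z k)) ≤
      T (fun σ => (∑ i, ∑ j, a x i j * D2 v (x + pt e σ z) (bv i) (bv j)) -
        fderiv ℝ v (x + pt e σ z) (x + pt e σ z)) := by
  have hr0 : 0 ≤ r := (hz k).1.trans (hz k).2
  have hm := (hz k).1
  have hm1 : z k ≤ 1 / 4 := (hz k).2.trans hr
  have hs := sqrt_two_mul_le hm
  have hs0 := Real.sqrt_nonneg (z k)
  set G : E n → ℝ := fun y => ∑ i, ∑ j, (a x i j - a y i j) * D2 v y (bv i) (bv j) with hG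
  have e1 : T (fun σ => (∑ i, ∑ j, a x i j * D2 v (x + pt e σ z) (bv i) (bv j)) -
        fderiv ℝ v (x + pt e σ z) (x + pt e σ z)) = W e f x z - c * W e v x z + W e G x z := by
    unfold W
    rw [← T_mul, ← T_sub, ← T_add]
    congr 1
    funext σ
    simp only [h.eqn, hG, sub_mul, Finset.sum_sub_distrib]
    ring
  have b1 : |W e f x z| ≤ 8 * F * √(z k) := by
    have := W_holder he h.hF x k hm (by linarith)
    have h2 := mul_le_mul_of_nonneg_left hs h.F0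
    linarith
  have b2 : |c * W e v x z| ≤ 8 * M * √(z k) := by
    obtain ⟨l, hl⟩ : ∃ l, k ≠ l := ⟨k + 1, by fin_cases k <;> decide⟩
    have h1 := W_two he h.hv h.hM x hl hm (hz l).1
    have h2 : z k * z l ≤ √(z k) := by
      have h3 : z k ≤ √(z k) := by
        rw [Real.le_sqrt hm hm]; nlinarith
      have := (hz l).2
      have := (hz l).1
      nlinarith
    have h4 := mul_le_mul_of_nonneg_left h2 h.M0
    rw [abs_mul]
    have h5 := mul_le_mul_of_nonneg_right h.c1 (abs_nonneg (W e v x z))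
    nlinarith
  have b3 : |W e G x z| ≤ 4 * (n ^ 2 * (A * (2 * √r * H + M) * (2 * √(z k)))) := by
    refine T_flip k _ fun σ => ?_
    set p := x + pt e σ z with hp
    set q := x + pt e (flip k σ) z with hq
    have hpq : ‖p - q‖ = 2 * z k := by
      rw [hp, hq, pt_flip, ← norm_step he σ k hm, ← norm_neg]
      congr 1
      abel
    have hxp : ‖x - p‖ ≤ 3 * r := by
      rw [hp, sub_add_cancel_left, norm_neg]; exact norm_pt he σ hz
    have hxp2 : √‖x - p‖ ≤ 2 * √r := by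
      rw [Real.sqrt_le_left (by positivity), mul_pow, Real.sq_sqrt hr0]; linarith
    have hij : ∀ i j, |(a x i j - a p i j) * D2 v p (bv i) (bv j) -
        (a x i j - a q i j) * D2 v q (bv i) (bv j)| ≤ A * (2 * √r * H + M) * (2 * √(z k)) := by
      intro i j
      have t1 := h.hA i j x p (by linarith)
      have t2 := h.hA i j p q (by rw [hpq]; linarith)
      have t3 := hH p q (bv i) (bv j)
      have t4 := h.hM q (bv i) (bv j)
      rw [norm_bv, norm_bv, mul_one, mul_one] at t3 t4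
      rw [hpq] at t2 t3
      have t1' : |a x i j - a p i j| ≤ A * (2 * √r) :=
        t1.trans (mul_le_mul_of_nonneg_left hxp2 h.A0)
      have t2' : |a p i j - a q i j| ≤ A * (2 * √(z k)) :=
        t2.trans (mul_le_mul_of_nonneg_left hs h.A0)
      have t3' : |D2 v p (bv i) (bv j) - D2 v q (bv i) (bv j)| ≤ H * (2 * √(z k)) :=
        t3.trans (mul_le_mul_of_nonneg_left hs H0)
      have e2 : (a x i j - a p i j) * D2 v p (bv i) (bv j) -
          (a x i j - a q i j) * D2 v q (bv i) (bv j) =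
          (a x i j - a p i j) * (D2 v p (bv i) (bv j) - D2 v q (bv i) (bv j)) -
          (a p i j - a q i j) * D2 v q (bv i) (bv j) := by ring
      rw [e2]
      refine (abs_sub _ _).trans ?_
      rw [abs_mul, abs_mul]
      have u1 := mul_le_mul t1' t3' (abs_nonneg _) (by have := h.A0; positivity)
      have u2 := mul_le_mul t2' t4 (abs_nonneg _) (by have := h.A0; positivity)
      linarith
    simp only [hG, ← Finset.sum_sub_distrib]
    refine (Finset.abs_sum_le_sum_abs _ _).trans ?_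
    refine (Finset.sum_le_sum fun i _ => (Finset.abs_sum_le_sum_abs _ _).trans
      (Finset.sum_le_sum fun j _ => hij i j)).trans (le_of_eq ?_)
    simp only [Finset.sum_const, Finset.card_univ, Fintype.card_fin, nsmul_eq_mul]
    ring
  rw [e1]
  have := neg_abs_le (W e f x z)
  have := le_abs_self (c * W e v x z)
  have := neg_abs_le (W e G x z)
  nlinarith

theorem barrier {v f : E n → ℝ} {a : E n → Fin n → Fin n → ℝ} {c lam Λ A M F H r K : ℝ}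
    (h : Hyp v f a c lam Λ A M F) (H0 : 0 ≤ H)
    (hH : ∀ x y a b, |D2 v x a b - D2 v y a b| ≤ H * √‖x - y‖ * ‖a‖ * ‖b‖)
    (hr0 : 0 < r) (hr : r ≤ 1 / 4) (hK1 : 8 * M ≤ K * √r)
    (hK2 : 8 * F + 8 * M + 8 * n ^ 2 * A * (2 * √r * H + M) < 5 / 108 * lam * K)
    {e : Fin 3 → E n} (he : ∀ k, ‖e k‖ = 1) (x₀ : E n) {z₀ : Fin 3 → ℝ}
    (hz₀ : ∀ k, 0 ≤ z₀ k ∧ z₀ k ≤ r) : W e v x₀ z₀ ≤ K * Bf z₀ := by
  by_contra hcon
  push Not at hcon
  set N := 8 * F + 8 * M + 8 * n ^ 2 * A * (2 * √r * H + M) with hN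
  set γ := 5 / 108 * lam * K - N with hγ
  have hγ0 : 0 < γ := by linarith
  have hK0 : 0 ≤ K := by
    by_contra hh
    have := mul_neg_of_neg_of_pos (not_le.mp hh) (Real.sqrt_pos.mpr hr0)
    linarith [h.M0]
  set m := W e v x₀ z₀ - K * Bf z₀ with hm
  have hm0 : 0 < m := by linarith
  have hM0 := h.M0
  set m₀ := m / (2 * (8 * M * r + 1)) with hm₀
  have hm₀0 : 0 < m₀ := by positivity
  have hsq := Real.sqrt_pos.mpr hm₀0
  -- choice of ε
  obtain ⟨ε, hε, hε1, hε2⟩ : ∃ ε : ℝ, 0 < ε ∧ ε * ‖x₀‖ ^ 2 ≤ m / 2 ∧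
      2 * ε * (n * Λ) < γ * √m₀ := by
    have t1 : Tendsto (fun ε : ℝ => ε * ‖x₀‖ ^ 2) (𝓝[>] 0) (𝓝 0) := by
      have : Continuous fun ε : ℝ => ε * ‖x₀‖ ^ 2 := by fun_prop
      simpa using (this.tendsto 0).mono_left nhdsWithin_le_nhds
    have t2 : Tendsto (fun ε : ℝ => 2 * ε * (n * Λ)) (𝓝[>] 0) (𝓝 0) := by
      have : Continuous fun ε : ℝ => 2 * ε * (n * Λ) := by fun_prop
      simpa using (this.tendsto 0).mono_left nhdsWithin_le_nhds
    obtain ⟨ε, h1, h2, h3⟩ := ((t1.eventually (gt_mem_nhds (by linarith : (0:ℝ) < m / 2))).and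
      ((t2.eventually (gt_mem_nhds (mul_pos hγ0 hsq))).and self_mem_nhdsWithin)).exists
    exact ⟨ε, h3, h1.le, h2⟩
  have hW : ∀ y ζ, (∀ k, 0 ≤ ζ k ∧ ζ k ≤ r) → ∀ k, W e v y ζ ≤ 8 * M * r * ζ k := by
    intro y ζ hζ k
    obtain ⟨l, hl⟩ : ∃ l, k ≠ l := ⟨k + 1, by fin_cases k <;> decide⟩
    have h1 := W_two he h.hv h.hM y hl (hζ k).1 (hζ l).1
    have h2 := mul_le_mul_of_nonneg_left (hζ l).2 (mul_nonneg hM0 (hζ k).1)
    have := le_abs_self (W e v y ζ)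
    nlinarith
  obtain ⟨x, z, hz, hmax⟩ := exists_max (e := e) h.hv.continuous (Wm := 8 * M * r * r) hK0 hε
    (fun y ζ hζ => (hW y ζ hζ 0).trans (mul_le_mul_of_nonneg_left (hζ 0).2 (by positivity)))
    hz₀ (x₀ := x₀) (by linarith)
  have hΦ := hmax x₀ z₀ hz₀
  have hBz := mul_nonneg hK0 (Bf_nonneg fun k => (hz k).1)
  have hεx : 0 ≤ ε * ‖x‖ ^ 2 := by positivity
  have hint : ∀ k, 0 < z k ∧ z k < r := by
    intro k
    by_contra hk
    have : z k = 0 ∨ z k = r := by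
      rcases (hz k).1.eq_or_lt with h1 | h1
      · exact Or.inl h1.symm
      · rcases (hz k).2.eq_or_lt with h2 | h2
        · exact Or.inr h2
        · exact absurd ⟨h1, h2⟩ hk
    have := face he h.hv hM0 h.hM hr0 hK1 x hz k this
    linarith
  obtain ⟨k, -, hk⟩ := Finset.exists_min_image Finset.univ z Finset.univ_nonempty
  have i1 := interior_ineq he h.hv h.lam0 hK0 hε.le hint hmax (a x) (h.ell x) (h.hΛ x) k
  have i2 := rhs_lower h H0 hH hr he x hz k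
  have i3 := Bf_lower (hint k).1 fun l => hk l (Finset.mem_univ l)
  have i4 : m₀ ≤ z k := by
    have h1 := hW x z hz k
    rw [hm₀, div_le_iff₀ (by positivity)]
    have := (hz k).1
    nlinarith
  have i5 := Real.sqrt_le_sqrt i4
  have i6 := mul_le_mul_of_nonneg_left i3 (by have := h.lam0; positivity : 0 ≤ 5 / 108 * lam * K)
  have i7 := mul_le_mul_of_nonneg_left i5 hγ0.le
  rw [← hN] at i2
  have : γ * √(z k) = 5 / 108 * lam * K * √(z k) - N * √(z k) := by rw [hγ]; ring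
  linarith

end Crest.Agent.R238.Sch
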