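import Crest.Agent.R238.StGau

/-! # R238/St: the absorption step (skeleton helper76)
Put `mb L = pdL L v x + dl h * (2 * EE h u x (qq h (pdL L v) x))`, `S = ∑ |mb L|`,
`Θ = EE ((1 + ell)² YY)`.  Apply `EE` to `pw` with `m = mb`, `γ = A S (1 + ell z)²`:
`∑ mb² + 2 δ A S Θ ≤ N + (3/2) δ A² S² Γ`; `pw` with `γ = 0` gives `∑ mb² ≤ N`, so `S² ≤ n^k N`
(`sq_sum_le_card_mul_sum_sq`, `card_Ls`).  Expand `∑ (mb + δ r)²`, use
`2 δ A S (1 + a + √N) ≤ δ (A² S² + (1 + a + √N)²)`, `YY_le`: `δ² Θ² ≤ δ² (9/h²) Γ² N = (3/4) δ Γ² N`,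
`δ ≤ 1`. -/

set_option autoImplicit false
open MeasureTheory Filter Topology

namespace Crest.Agent.R238.St

variable {n : ℕ}

theorem stabs_cb_pdL {v : E n → ℝ} (hv : Cb 2 v) (L : List (Fin n)) : Cb 2 (pdL L v) := by
  refine ⟨sm_pdL hv.1 L, fun l hl => ?_⟩
  rw [← pdL_append]
  exact hv.2 _ (by rw [List.length_append]; omega)

theorem stabs_avg {c C : ℝ} (hc : 0 < c) (hC : 0 < C) {h : ℝ} {u v : E n → ℝ} {N Γ : ℝ} {k : ℕ}
    (x : E n) (hh : 0 < h) (hu : Good c C u) (hk : 2 ≤ k) (hv : Cb 2 v) (hN : ∀ y, NN k v y ≤ N)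
    (hΓ : EE h u x (fun z => (1 + ell z) ^ 6) ≤ Γ) {B : ℝ} (hB : 0 ≤ B) :
    ∑ L ∈ Ls n k, (pdL L v x + dl h * (2 * EE h u x (qq h (pdL L v) x))) ^ 2 +
      2 * dl h * B * EE h u x (fun z => (1 + ell z) ^ 2 * YY h k v x z) ≤
      N + 3 / 2 * dl h * B ^ 2 * Γ := by
  set mb : List (Fin n) → ℝ := fun L => pdL L v x + dl h * (2 * EE h u x (qq h (pdL L v) x)) with hmb
  have hδ : 0 ≤ dl h := by unfold dl; positivity
  have hvk : Cb k v := ⟨hv.1, fun l hl => hv.2 l (hk.trans hl)⟩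
  have hq : ∀ L, PG (qq h (pdL L v) x) := fun L => PG_qq (stabs_cb_pdL hv L) hh x
  have hY : PG fun z => (1 + ell z) ^ 2 * YY h k v x z := (PG_pow 2).mul (PG_YY hvk hh x)
  have hT : ∀ L, PG fun z => (2 * mb L * pdL L v x - mb L ^ 2) + (4 * mb L * dl h) * qq h (pdL L v) x z :=
    fun L => (PG.const _).add ((PG.const _).mul (hq L))
  have h1 := EE_mono hc hC hu hh x
    (Φ := fun z => (∑ L ∈ Ls n k, ((2 * mb L * pdL L v x - mb L ^ 2) + (4 * mb L * dl h) * qq h (pdL L v) x z))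
      + (2 * dl h * B) * ((1 + ell z) ^ 2 * YY h k v x z))
    (Ψ := fun z => N + (3 / 2 * dl h * B ^ 2) * (1 + ell z) ^ 6)
    ((PG.sum _ fun L _ => hT L).add ((PG.const _).mul hY)) ((PG.const _).add ((PG.const _).mul (PG_pow 6)))
    fun z => by
      have he := ell_nonneg z
      have h2 := pw hv.1 hh hN x z mb (γ := B * (1 + ell z) ^ 2) (by positivity)
      have h3 : ∑ L ∈ Ls n k, ((2 * mb L * pdL L v x - mb L ^ 2) + (4 * mb L * dl h) * qq h (pdL L v) x z) =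
          ∑ L ∈ Ls n k, (2 * mb L * (pdL L v x + dl h * (2 * qq h (pdL L v) x z)) - mb L ^ 2) :=
        Finset.sum_congr rfl fun L _ => by ring
      have h4 : 3 / 2 * dl h * (B * (1 + ell z) ^ 2) ^ 2 * ell z ^ 2 ≤
          3 / 2 * dl h * (B * (1 + ell z) ^ 2) ^ 2 * (1 + ell z) ^ 2 := by
        gcongr; linarith
      rw [h3]
      calc _ = ∑ L ∈ Ls n k, (2 * mb L * (pdL L v x + dl h * (2 * qq h (pdL L v) x z)) - mb L ^ 2) +
            2 * dl h * (B * (1 + ell z) ^ 2) * YY h k v x z := by ring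
        _ ≤ _ := h2
        _ ≤ _ := add_le_add le_rfl h4
        _ = _ := by ring
  rw [EE_add hc hu hh x (PG.sum _ fun L _ => hT L) ((PG.const _).mul hY), EE_sum hc hu hh x _ fun L _ => hT L,
    EE_const_mul, EE_add hc hu hh x (PG.const _) ((PG.const _).mul (PG_pow 6)), EE_const hc hC hu hh,
    EE_const_mul] at h1
  have h5 : ∑ L ∈ Ls n k, EE h u x (fun z =>
      (2 * mb L * pdL L v x - mb L ^ 2) + (4 * mb L * dl h) * qq h (pdL L v) x z) = ∑ L ∈ Ls n k, mb L ^ 2 := by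
    refine Finset.sum_congr rfl fun L _ => ?_
    rw [EE_add hc hu hh x (PG.const _) ((PG.const _).mul (hq L)), EE_const hc hC hu hh, EE_const_mul]
    have : EE h u x (fun z => qq h (pdL L v) x z) = EE h u x (qq h (pdL L v) x) := rfl
    rw [this]
    simp only [hmb]
    ring
  rw [h5] at h1
  refine h1.trans (add_le_add le_rfl ?_)
  gcongr

theorem absorb (n k : ℕ) {c C : ℝ} (hc : 0 < c) (hC : 0 < C) (A : ℝ) (hA : 0 ≤ A) :
    ∃ A' : ℝ, 0 ≤ A' ∧ ∀ (h : ℝ) (u v : E n → ℝ) (N : ℝ) (x : E n) (r : List (Fin n) → ℝ),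
      0 < h → h ≤ 1 → Good c C u → 2 ≤ k → Cb 2 v → (∀ y, NN k v y ≤ N) →
      (∀ L : List (Fin n), L.length = k →
        |r L| ≤ A * (1 + √N + EE h u x (fun z => (1 + ell z) ^ 2 * YY h k v x z))) →
      ∑ L ∈ Ls n k, (pdL L v x + dl h * (2 * EE h u x (qq h (pdL L v) x)) + dl h * r L) ^ 2
        ≤ N + dl h * A' * (1 + N) := by
  obtain ⟨Γ, hΓ1, hΓ⟩ := EE_mom n 6 hc hC
  have hΓ0 : 0 ≤ Γ := zero_le_one.trans hΓ1
  set κ : ℝ := (n : ℝ) ^ k with hκ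
  have hκ0 : 0 ≤ κ := by positivity
  refine ⟨3 / 2 * A ^ 2 * κ * Γ + A ^ 2 * κ + 2 + κ * A ^ 2 * (4 + 3 / 2 * Γ ^ 2), by positivity,
    fun h u v N x r hh hh1 hu hk hv hN hr => ?_⟩
  have hN0 : 0 ≤ N := (NN_nonneg k v x).trans (hN x)
  have hδ : 0 < dl h := by unfold dl; positivity
  have hδ1 : dl h ≤ 1 := by unfold dl; nlinarith
  have hvk : Cb k v := ⟨hv.1, fun l hl => hv.2 l (hk.trans hl)⟩
  set mb : List (Fin n) → ℝ := fun L => pdL L v x + dl h * (2 * EE h u x (qq h (pdL L v) x)) with hmb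
  set Θ := EE h u x (fun z => (1 + ell z) ^ 2 * YY h k v x z) with hΘ
  set S := ∑ L ∈ Ls n k, |mb L| with hS
  have hS0 : 0 ≤ S := Finset.sum_nonneg fun L _ => abs_nonneg _
  have hΘ0 : 0 ≤ Θ := EE_nonneg x fun z => mul_nonneg (sq_nonneg _) (YY_nonneg hh k v x z)
  have a0 : ∑ L ∈ Ls n k, mb L ^ 2 ≤ N := by
    simpa using stabs_avg hc hC x hh hu hk hv hN (hΓ h u x hh hu 6 le_rfl) (B := 0) le_rfl
  have a1 : ∑ L ∈ Ls n k, mb L ^ 2 + 2 * dl h * (A * S) * Θ ≤ N + 3 / 2 * dl h * (A * S) ^ 2 * Γ :=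
    stabs_avg hc hC x hh hu hk hv hN (hΓ h u x hh hu 6 le_rfl) (mul_nonneg hA hS0)
  have hS2 : S ^ 2 ≤ κ * N := by
    have h1 := sq_sum_le_card_mul_sum_sq (s := Ls n k) (f := fun L => |mb L|)
    simp only [sq_abs, card_Ls] at h1
    push_cast at h1
    exact h1.trans (mul_le_mul_of_nonneg_left a0 hκ0)
  have hsq : √N ^ 2 = N := Real.sq_sqrt hN0
  have hs0 : 0 ≤ √N := Real.sqrt_nonneg N
  have hΘ1 : Θ ≤ 3 / h * √N * Γ := by
    have h1 := EE_mono hc hC hu hh x (Φ := fun z => (1 + ell z) ^ 2 * YY h k v x z)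
      (Ψ := fun z => (3 / h * √N) * (1 + ell z) ^ 3) ((PG_pow 2).mul (PG_YY hvk hh x))
      ((PG.const _).mul (PG_pow 3)) fun z => by
        have he := ell_nonneg z
        calc (1 + ell z) ^ 2 * YY h k v x z ≤ (1 + ell z) ^ 2 * (3 / h * ell z * √N) := by
              gcongr; exact YY_le hv.1 hh hN x z
          _ ≤ (1 + ell z) ^ 2 * (3 / h * (1 + ell z) * √N) := by gcongr; linarith
          _ = _ := by ring
    rw [EE_const_mul] at h1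
    refine h1.trans ?_
    gcongr
    exact hΓ h u x hh hu 3 (by norm_num)
  have hΘ2 : dl h * Θ ^ 2 ≤ 3 / 4 * Γ ^ 2 * N := by
    calc dl h * Θ ^ 2 ≤ dl h * (3 / h * √N * Γ) ^ 2 := by gcongr
      _ = 3 / 4 * Γ ^ 2 * √N ^ 2 := by unfold dl; field_simp; ring
      _ = _ := by rw [hsq]
  set ρ := A * (1 + √N + Θ) with hρ
  have hρ0 : 0 ≤ ρ := by positivity
  have b1 : ∑ L ∈ Ls n k, (mb L + dl h * r L) ^ 2 ≤
      ∑ L ∈ Ls n k, mb L ^ 2 + 2 * dl h * ρ * S + κ * (dl h ^ 2 * ρ ^ 2) := by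
    have h1 : ∀ L ∈ Ls n k, (mb L + dl h * r L) ^ 2 ≤ mb L ^ 2 + 2 * dl h * ρ * |mb L| + dl h ^ 2 * ρ ^ 2 := by
      intro L hL
      have h2 : |r L| ≤ ρ := hr L (mem_Ls.1 hL)
      have h3 : mb L * r L ≤ |mb L| * ρ :=
        (le_abs_self _).trans (by rw [abs_mul]; exact mul_le_mul_of_nonneg_left h2 (abs_nonneg _))
      have h4 : r L ^ 2 ≤ ρ ^ 2 := by rw [← sq_abs]; gcongr
      have h5 := mul_le_mul_of_nonneg_left h3 hδ.le
      have h6 := mul_le_mul_of_nonneg_left h4 (sq_nonneg (dl h))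
      nlinarith
    refine (Finset.sum_le_sum h1).trans (le_of_eq ?_)
    rw [Finset.sum_add_distrib, Finset.sum_add_distrib, ← Finset.mul_sum, Finset.sum_const, card_Ls,
      nsmul_eq_mul]
    push_cast
    rfl
  have c1 : (1 + √N) ^ 2 ≤ 2 * (1 + N) := by nlinarith [sq_nonneg (1 - √N)]
  have c2 : (A * S) ^ 2 ≤ A ^ 2 * κ * (1 + N) := by
    calc (A * S) ^ 2 = A ^ 2 * S ^ 2 := by ring
      _ ≤ A ^ 2 * (κ * (1 + N)) := by
          refine mul_le_mul_of_nonneg_left (hS2.trans ?_) (sq_nonneg A)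
          gcongr; linarith
      _ = _ := by ring
  have c3 : 2 * (A * S) * (1 + √N) ≤ (A ^ 2 * κ + 2) * (1 + N) := by
    nlinarith [sq_nonneg (A * S - (1 + √N))]
  have c4 : dl h * ρ ^ 2 ≤ A ^ 2 * (4 + 3 / 2 * Γ ^ 2) * (1 + N) := by
    have h1 : (1 + √N + Θ) ^ 2 ≤ 2 * (1 + √N) ^ 2 + 2 * Θ ^ 2 := by nlinarith [sq_nonneg (1 + √N - Θ)]
    have h2 : dl h * (1 + √N + Θ) ^ 2 ≤ (4 + 3 / 2 * Γ ^ 2) * (1 + N) := by
      have h3 : dl h * (1 + √N) ^ 2 ≤ 1 * (2 * (1 + N)) := by gcongr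
      have h4 := mul_le_mul_of_nonneg_left h1 hδ.le
      nlinarith [sq_nonneg Γ]
    calc dl h * ρ ^ 2 = A ^ 2 * (dl h * (1 + √N + Θ) ^ 2) := by rw [hρ]; ring
      _ ≤ A ^ 2 * ((4 + 3 / 2 * Γ ^ 2) * (1 + N)) := by gcongr
      _ = _ := by ring
  have d1 : 3 / 2 * dl h * (A * S) ^ 2 * Γ ≤ 3 / 2 * dl h * (A ^ 2 * κ * (1 + N)) * Γ := by gcongr
  have d2 := mul_le_mul_of_nonneg_left c3 hδ.le
  have d3 := mul_le_mul_of_nonneg_left c4 (mul_nonneg hκ0 hδ.le)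
  refine b1.trans ?_
  have e1 : 2 * dl h * ρ * S = 2 * dl h * (A * S) * Θ + dl h * (2 * (A * S) * (1 + √N)) := by
    rw [hρ]; ring
  have e2 : κ * (dl h ^ 2 * ρ ^ 2) = κ * dl h * (dl h * ρ ^ 2) := by ring
  rw [e1, e2]
  have e3 : dl h * (3 / 2 * A ^ 2 * κ * Γ + A ^ 2 * κ + 2 + κ * A ^ 2 * (4 + 3 / 2 * Γ ^ 2)) * (1 + N) =
      3 / 2 * dl h * (A ^ 2 * κ * (1 + N)) * Γ + dl h * ((A ^ 2 * κ + 2) * (1 + N)) +
        κ * dl h * (A ^ 2 * (4 + 3 / 2 * Γ ^ 2) * (1 + N)) := by ring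
  rw [e3]
  linarith

end Crest.Agent.R238.St
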