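import Crest.Agent.R238.StBas2

/-! # R238/St: basic calculus of `pd`, `pdL` (helper76) -/

set_option autoImplicit false
open MeasureTheory Filter Topology

namespace Crest.Agent.R238.St

variable {n : ℕ}

theorem stbas_fderiv (f : E n → ℝ) (x y : E n) : fderiv ℝ f x y = ∑ i, y i * pd i f x := by
  conv_lhs => rw [← (EuclideanSpace.basisFun (Fin n) ℝ).sum_repr y, map_sum]
  simp [pd]

theorem stbas_sm_pd {f : E n → ℝ} (hf : Sm f) (i : Fin n) : Sm (pd i f) :=
  (hf.fderiv_right (m := (⊤ : ℕ∞)) (by norm_cast)).clm_apply contDiff_const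

theorem stbas_line {f : E n → ℝ} (hf : Sm f) (x y : E n) (s : ℝ) :
    HasDerivAt (fun s : ℝ => f (x + s • y)) (∑ i, y i * pd i f (x + s • y)) s := by
  have h1 : HasDerivAt (fun s : ℝ => x + s • y) y s := by
    simpa using ((hasDerivAt_id s).smul_const y).const_add x
  rw [← stbas_fderiv]
  exact (hf.differentiable (by simp) _).hasFDerivAt.comp_hasDerivAt s h1

theorem stbas_sum {y : E n} {a : Fin n → ℝ} {B : ℝ} (h : ∀ i, |a i| ≤ B) : |∑ i, y i * a i| ≤ B * ell y := by
  refine (Finset.abs_sum_le_sum_abs _ _).trans ?_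
  rw [ell, Finset.mul_sum]
  refine Finset.sum_le_sum fun i _ => ?_
  rw [abs_mul, mul_comm]
  exact mul_le_mul_of_nonneg_right (h i) (abs_nonneg _)

theorem pd_zero_of_ev {f : E n → ℝ} (hf : Sm f) (he : Ev f) (i : Fin n) : pd i f 0 = 0 := by
  have h1 : HasDerivAt (fun s : ℝ => f (0 + s • EuclideanSpace.single i (1 : ℝ))) (pd i f 0) 0 := by
    have h := stbas_line hf 0 (EuclideanSpace.single i (1 : ℝ)) 0
    rw [← stbas_fderiv, zero_smul, add_zero] at h
    exact h
  have h2 := HasDerivAt.scomp (x := (0 : ℝ)) (by rw [neg_zero]; exact h1) (hasDerivAt_neg (0 : ℝ))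
  have h3 : ((fun s : ℝ => f (0 + s • EuclideanSpace.single i (1 : ℝ))) ∘ Neg.neg) =
      fun s : ℝ => f (0 + s • EuclideanSpace.single i (1 : ℝ)) := by
    funext s
    simp only [Function.comp_apply, zero_add, neg_smul, he _]
  rw [h3] at h2
  have := h1.unique h2
  rw [smul_eq_mul] at this
  linarith

/-- mean value inequality along a segment -/
theorem seg_bound {f : E n → ℝ} (hf : Sm f) (x y : E n) {B : ℝ}
    (h : ∀ s ∈ Set.Icc (0 : ℝ) 1, ∀ i, |pd i f (x + s • y)| ≤ B) :
    |f (x + y) - f x| ≤ B * ell y := by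
  have h1 := norm_image_sub_le_of_norm_deriv_le_segment_01' (f := fun s : ℝ => f (x + s • y))
    (fun s _ => (stbas_line hf x y s).hasDerivWithinAt) (C := B * ell y)
    fun s hs => stbas_sum (h s (Set.Ico_subset_Icc_self hs))
  simpa using h1

/-- first-order Taylor bound along a segment -/
theorem taylor2 {f : E n → ℝ} (hf : Sm f) (x y : E n) {B : ℝ}
    (h : ∀ s ∈ Set.Icc (0 : ℝ) 1, ∀ i j, |pd i (pd j f) (x + s • y)| ≤ B) :
    |f (x + y) - f x - ∑ i, y i * pd i f x| ≤ B * ell y ^ 2 := by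
  have h1 := norm_image_sub_le_of_norm_deriv_le_segment_01'
    (f := fun s : ℝ => f (x + s • y) - s * ∑ i, y i * pd i f x)
    (fun s _ => ((stbas_line hf x y s).sub (hasDerivAt_mul_const _)).hasDerivWithinAt) (C := B * ell y ^ 2)
    fun s hs => by
      rw [← Finset.sum_sub_distrib, sq, ← mul_assoc]
      simp only [← mul_sub]
      refine stbas_sum fun j => ?_
      have h2 := seg_bound (stbas_sm_pd hf j) x (s • y) (B := B) fun t ht i => by
        rw [smul_smul]
        exact h _ ⟨mul_nonneg ht.1 hs.1, mul_le_one₀ ht.2 hs.1 hs.2.le⟩ i j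
      refine h2.trans (mul_le_mul_of_nonneg_left (Finset.sum_le_sum fun i _ => ?_)
        ((abs_nonneg _).trans (h 0 ⟨le_rfl, zero_le_one⟩ j j)))
      rw [PiLp.smul_apply, smul_eq_mul, abs_mul, abs_of_nonneg hs.1]
      exact mul_le_of_le_one_left (abs_nonneg _) hs.2.le
  simp only [one_smul, one_mul, zero_smul, add_zero, zero_mul, sub_zero, Real.norm_eq_abs] at h1
  rwa [sub_right_comm] at h1

end Crest.Agent.R238.St
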