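import Crest.Agent.R238.StDefs

/-! # R238/St: basic calculus of `pd`, `pdL` (helper76) -/

set_option autoImplicit false
open MeasureTheory Filter Topology

namespace Crest.Agent.R238.St

variable {n : ℕ}

theorem stb_diff {f : E n → ℝ} (hf : Sm f) : Differentiable ℝ f := hf.differentiable (by simp)

theorem stb_pd_const_mul (a : ℝ) (f : E n → ℝ) (i : Fin n) :
    pd i (fun x => a * f x) = fun x => a * pd i f x := by
  funext x
  have : fderiv ℝ (fun y => a * f y) x = a • fderiv ℝ f x :=
    congrFun (fderiv_const_smul_field (𝕜 := ℝ) (f := f) a) x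
  simp only [pd, this]; rfl

theorem sm_pd {f : E n → ℝ} (hf : Sm f) (i : Fin n) : Sm (pd i f) := by
  exact (hf.fderiv_right (m := ((⊤ : ℕ∞) : WithTop ℕ∞)) (by simp)).clm_apply contDiff_const

theorem pdL_nil (f : E n → ℝ) : pdL [] f = f := rfl

theorem pdL_cons (i : Fin n) (L : List (Fin n)) (f : E n → ℝ) : pdL (i :: L) f = pd i (pdL L f) := rfl

theorem sm_pdL {f : E n → ℝ} (hf : Sm f) (L : List (Fin n)) : Sm (pdL L f) := by
  induction L with
  | nil => exact hf
  | cons i L ih => exact sm_pd ih i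

theorem pdL_append (L₁ L₂ : List (Fin n)) (f : E n → ℝ) :
    pdL (L₁ ++ L₂) f = pdL L₁ (pdL L₂ f) := by
  simp only [pdL, List.foldr_append]

theorem pd_add {f g : E n → ℝ} (hf : Sm f) (hg : Sm g) (i : Fin n) :
    pd i (fun x => f x + g x) = fun x => pd i f x + pd i g x := by
  funext x
  simp only [pd, fderiv_fun_add (stb_diff hf x) (stb_diff hg x)]; rfl

theorem pd_mul {f g : E n → ℝ} (hf : Sm f) (hg : Sm g) (i : Fin n) :
    pd i (fun x => f x * g x) = fun x => f x * pd i g x + pd i f x * g x := by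
  funext x
  simp only [pd, fderiv_fun_mul (stb_diff hf x) (stb_diff hg x)]
  simp [mul_comm]

theorem pd_exp {f : E n → ℝ} (hf : Sm f) (i : Fin n) :
    pd i (fun x => Real.exp (f x)) = fun x => Real.exp (f x) * pd i f x := by
  funext x
  simp only [pd, (stb_diff hf x).hasFDerivAt.exp.fderiv]
  simp

theorem pdL_add {f g : E n → ℝ} (hf : Sm f) (hg : Sm g) (L : List (Fin n)) :
    pdL L (fun x => f x + g x) = fun x => pdL L f x + pdL L g x := by
  induction L with
  | nil => rfl
  | cons i L ih => rw [pdL_cons, ih, pd_add (sm_pdL hf L) (sm_pdL hg L)]; rfl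

theorem pdL_const_mul {f : E n → ℝ} (hf : Sm f) (a : ℝ) (L : List (Fin n)) :
    pdL L (fun x => a * f x) = fun x => a * pdL L f x := by
  induction L with
  | nil => rfl
  | cons i L ih => rw [pdL_cons, ih, stb_pd_const_mul]; rfl

theorem pdL_sub {f g : E n → ℝ} (hf : Sm f) (hg : Sm g) (L : List (Fin n)) :
    pdL L (fun x => f x - g x) = fun x => pdL L f x - pdL L g x := by
  induction L with
  | nil => rfl
  | cons i L ih =>
    rw [pdL_cons, ih]
    funext x
    simp only [pd, fderiv_fun_sub (stb_diff (sm_pdL hf L) x) (stb_diff (sm_pdL hg L) x)]; rfl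

theorem pdL_const (a : ℝ) {L : List (Fin n)} (hL : L ≠ []) :
    pdL L (fun _ : E n => a) = fun _ => 0 := by
  have key : ∀ (L : List (Fin n)), ∃ b : ℝ, pdL L (fun _ : E n => a) = fun _ => b := by
    intro L
    induction L with
    | nil => exact ⟨a, rfl⟩
    | cons i L ih =>
      obtain ⟨b, hb⟩ := ih
      refine ⟨0, ?_⟩
      rw [pdL_cons, hb]
      funext x; simp [pd]
  obtain ⟨i, L, rfl⟩ := List.exists_cons_of_ne_nil hL
  obtain ⟨b, hb⟩ := key L
  rw [pdL_cons, hb]
  funext x; simp [pd]

theorem pdL_comp_add {f : E n → ℝ} (hf : Sm f) (a : E n) (L : List (Fin n)) :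
    pdL L (fun x => f (x + a)) = fun x => pdL L f (x + a) := by
  induction L with
  | nil => rfl
  | cons i L ih =>
    rw [pdL_cons, ih]
    funext x
    simp only [pdL_cons, pd, fderiv_comp_add_right]

theorem pdL_comp_smul {f : E n → ℝ} (hf : Sm f) (r : ℝ) (L : List (Fin n)) :
    pdL L (fun x => f (r • x)) = fun x => r ^ L.length * pdL L f (r • x) := by
  induction L with
  | nil => funext x; simp [pdL_nil]
  | cons i L ih =>
    rw [pdL_cons, ih, stb_pd_const_mul]
    funext x
    have h1 : HasFDerivAt (fun x : E n => r • x) (r • ContinuousLinearMap.id ℝ (E n)) x :=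
      (hasFDerivAt_id x).const_smul r
    have := ((stb_diff (sm_pdL hf L) (r • x)).hasFDerivAt.comp x h1).fderiv
    simp only [pdL_cons, pd]
    erw [this]
    simp [pow_succ, mul_assoc]

theorem stb_pd_pd {f : E n → ℝ} (hf : Sm f) (i j : Fin n) (x : E n) :
    pd i (pd j f) x =
      fderiv ℝ (fderiv ℝ f) x (EuclideanSpace.single i 1) (EuclideanSpace.single j 1) := by
  have d : DifferentiableAt ℝ (fderiv ℝ f) x :=
    (hf.fderiv_right (m := ((⊤ : ℕ∞) : WithTop ℕ∞)) (by simp)).differentiable (by simp) x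
  have : pd j f = fun y => fderiv ℝ f y (EuclideanSpace.single j 1) := rfl
  rw [pd, this, fderiv_clm_apply d (differentiableAt_const _)]
  simp

theorem pd_comm {f : E n → ℝ} (hf : Sm f) (i j : Fin n) : pd i (pd j f) = pd j (pd i f) := by
  funext x
  rw [stb_pd_pd hf, stb_pd_pd hf]
  exact (hf.contDiffAt.isSymmSndFDerivAt (by simp; norm_cast)).eq _ _

theorem cl_apply (a : Fin n → ℝ) (y : E n) : cl a y = ∑ i, a i * y i := by
  simp [cl]

theorem cl_single (a : Fin n → ℝ) (i : Fin n) : cl a (EuclideanSpace.single i 1) = a i := by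
  simp [cl_apply]

theorem fderiv_eq_cl (f : E n → ℝ) (x : E n) : fderiv ℝ f x = cl (fun i => pd i f x) := by
  ext v
  have hv : v = ∑ i, v i • (EuclideanSpace.single i (1 : ℝ) : E n) := by
    ext j
    simp [Pi.single_apply]
  rw [cl_apply]
  conv_lhs => rw [hv]
  simp [pd, mul_comm]

theorem norm_cl_le (a : Fin n → ℝ) : ‖cl a‖ ≤ ∑ i, |a i| := by
  refine ContinuousLinearMap.opNorm_le_bound _ (Finset.sum_nonneg fun i _ => abs_nonneg _) fun y => ?_
  rw [cl_apply, Real.norm_eq_abs, Finset.sum_mul]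
  refine (Finset.abs_sum_le_sum_abs _ _).trans (Finset.sum_le_sum fun i _ => ?_)
  rw [abs_mul]
  exact mul_le_mul_of_nonneg_left (PiLp.norm_apply_le y i) (abs_nonneg _)

theorem hasDerivAt_line {f : E n → ℝ} (hf : Sm f) (x z : E n) (s : ℝ) :
    HasDerivAt (fun r : ℝ => f (x + r • z)) (∑ i, z i * pd i f (x + s • z)) s := by
  have h1 : HasDerivAt (fun t : ℝ => x + t • z) z s := by
    simpa using ((hasDerivAt_id s).smul_const z).const_add x
  have h2 := (stb_diff hf _).hasFDerivAt.comp_hasDerivAt s h1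
  rw [fderiv_eq_cl, cl_apply, Finset.sum_congr rfl fun i _ => mul_comm _ _] at h2
  exact h2

/-- a class of differentiable functions closed under `pd` consists of smooth functions -/
theorem sm_of_closed (P : (E n → ℝ) → Prop) (h1 : ∀ f, P f → Differentiable ℝ f)
    (h2 : ∀ f i, P f → P (pd i f)) (f : E n → ℝ) (hf : P f) : Sm f := by
  have key : ∀ m : ℕ, ∀ f, P f → ContDiff ℝ m f := by
    intro m
    induction m with
    | zero => intro f hf; exact contDiff_zero.2 (h1 f hf).continuous
    | succ m ih =>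
      intro f hf
      have e : fderiv ℝ f = fun x => ∑ i, pd i f x • (EuclideanSpace.proj i : E n →L[ℝ] ℝ) :=
        funext fun x => fderiv_eq_cl f x
      rw [Nat.cast_succ, contDiff_succ_iff_fderiv]
      refine ⟨h1 f hf, by simp, ?_⟩
      rw [e]
      exact ContDiff.sum fun i _ => (ih _ (h2 f i hf)).smul contDiff_const
  exact contDiff_infty.2 fun m => key m f hf

end Crest.Agent.R238.St
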