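import Crest.Agent.R238.StBas1

/-! # R238/St: basic calculus of `pd`, `pdL` (helper76) -/

set_option autoImplicit false
open MeasureTheory Filter Topology

namespace Crest.Agent.R238.St

variable {n : ℕ}

theorem mem_Ls {k : ℕ} {L : List (Fin n)} : L ∈ Ls n k ↔ L.length = k := by
  unfold Ls
  rw [Finset.mem_map]
  constructor
  · rintro ⟨v, -, rfl⟩
    exact v.2
  · intro h
    exact ⟨⟨L, h⟩, Finset.mem_univ (α := List.Vector (Fin n) k) _, rfl⟩

theorem card_Ls (n k : ℕ) : (Ls n k).card = n ^ k := by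
  have h : (Finset.univ : Finset (List.Vector (Fin n) k)).card = n ^ k := by
    rw [Finset.card_univ, card_vector, Fintype.card_fin]
  exact (Finset.card_map _).trans h

theorem le_mx {k : ℕ} {L : List (Fin n)} (hL : L.length = k) (f : E n → ℝ) (x : E n) :
    |pdL L f x| ≤ mx k f x := by
  exact le_ciSup (f := fun L : List.Vector (Fin n) k => |pdL L.1 f x|) (Set.finite_range _).bddAbove ⟨L, hL⟩

theorem mx_le {k : ℕ} {f : E n → ℝ} {x : E n} {M : ℝ} (hM : 0 ≤ M)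
    (h : ∀ L : List (Fin n), L.length = k → |pdL L f x| ≤ M) : mx k f x ≤ M := by
  exact Real.iSup_le (fun L => h L.1 L.2) hM

theorem mx_nonneg (k : ℕ) (f : E n → ℝ) (x : E n) : 0 ≤ mx k f x := by
  exact Real.iSup_nonneg fun L => abs_nonneg _

theorem mx_pd_le (k : ℕ) (i : Fin n) (f : E n → ℝ) (x : E n) :
    mx k (pd i f) x ≤ mx (k + 1) f x := by
  refine mx_le (mx_nonneg _ _ _) fun L hL => ?_
  have h := le_mx (k := k + 1) (L := L ++ [i]) (by simp [hL]) f x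
  simpa only [pdL, List.foldr_append, List.foldr_cons, List.foldr_nil] using h

theorem sq_le_NN {k : ℕ} {L : List (Fin n)} (hL : L.length = k) (f : E n → ℝ) (x : E n) :
    pdL L f x ^ 2 ≤ NN k f x := by
  exact Finset.single_le_sum (f := fun L => pdL L f x ^ 2) (fun _ _ => sq_nonneg _) (mem_Ls.2 hL)

theorem NN_nonneg (k : ℕ) (f : E n → ℝ) (x : E n) : 0 ≤ NN k f x := by
  exact Finset.sum_nonneg fun _ _ => sq_nonneg _

theorem bd_of_NN {k : ℕ} {f : E n → ℝ} {N : ℝ} (h : ∀ x, NN k f x ≤ N) : Bd k (√N) f := by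
  intro L hL x
  exact Real.abs_le_sqrt ((sq_le_NN hL f x).trans (h x))

theorem NN_le_of_bd {k : ℕ} {f : E n → ℝ} {M : ℝ} (h : Bd k M f) (x : E n) :
    NN k f x ≤ (n : ℝ) ^ k * M ^ 2 := by
  have h1 := Finset.sum_le_card_nsmul (Ls n k) (fun L => pdL L f x ^ 2) (M ^ 2) fun L hL => by
    have h2 := h L (mem_Ls.1 hL) x
    rw [← sq_abs]
    exact pow_le_pow_left₀ (abs_nonneg _) h2 2
  rw [card_Ls, nsmul_eq_mul] at h1
  push_cast at h1
  exact h1

theorem Bd.mono {k : ℕ} {f : E n → ℝ} {M M' : ℝ} (h : Bd k M f) (hM : M ≤ M') : Bd k M' f := by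
  exact fun L hL x => (h L hL x).trans hM

theorem cb_bd {j k : ℕ} {f : E n → ℝ} (h : Cb j f) (hk : j ≤ k) : ∃ M, 0 ≤ M ∧ Bd k M f := by
  have h1 : ∀ L : List.Vector (Fin n) k, ∃ C : ℝ, ∀ x, |pdL L.1 f x| ≤ C := fun L =>
    h.2 L.1 (by rw [L.2]; exact hk)
  choose C hC using h1
  refine ⟨∑ L, |C L|, Finset.sum_nonneg fun _ _ => abs_nonneg _, fun L hL x => ?_⟩
  exact ((hC ⟨L, hL⟩ x).trans (le_abs_self _)).trans
    (Finset.single_le_sum (f := fun L => |C L|) (fun _ _ => abs_nonneg _) (Finset.mem_univ _))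

theorem cb_of_bd {j : ℕ} {f : E n → ℝ} (hf : Sm f) (h : ∀ k, j ≤ k → ∃ M, Bd k M f) : Cb j f := by
  refine ⟨hf, fun l hl => ?_⟩
  obtain ⟨M, hM⟩ := h _ hl
  exact ⟨M, hM l rfl⟩

theorem bd_pdL {k : ℕ} {f : E n → ℝ} {M : ℝ} (L : List (Fin n)) (h : Bd (k + L.length) M f) :
    Bd k M (pdL L f) := by
  intro L' hL' x
  have h1 := h (L' ++ L) (by simp [hL']) x
  simpa only [pdL, List.foldr_append] using h1

theorem ell_nonneg (z : E n) : 0 ≤ ell z := by
  exact Finset.sum_nonneg fun _ _ => abs_nonneg _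

theorem continuous_ell : Continuous (ell : E n → ℝ) := by
  unfold ell
  fun_prop

theorem ell_smul (s : ℝ) (z : E n) : ell (s • z) = |s| * ell z := by
  simp only [ell, PiLp.smul_apply, smul_eq_mul, abs_mul, Finset.mul_sum]

theorem ell_le (z : E n) : ell z ≤ n * ‖z‖ := by
  have h := Finset.sum_le_card_nsmul Finset.univ (fun i => |z i|) ‖z‖ fun i _ => PiLp.norm_apply_le z i
  rwa [Finset.card_univ, Fintype.card_fin, nsmul_eq_mul] at h

theorem norm_le_ell (z : E n) : ‖z‖ ≤ ell z := by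
  refine abs_le_of_sq_le_sq' ?_ (ell_nonneg z) |>.2
  rw [EuclideanSpace.real_norm_sq_eq]
  simpa only [sq_abs, ell] using Finset.sum_sq_le_sq_sum_of_nonneg (s := Finset.univ) (f := fun i => |z i|)
    fun i _ => abs_nonneg _

theorem norm_sq_eq (z : E n) : ‖z‖ ^ 2 = ∑ i, z i ^ 2 := by
  exact EuclideanSpace.real_norm_sq_eq z

theorem abs_form_le {M : ℝ} {a : Fin n → Fin n → ℝ} (h : ∀ i j, |a i j| ≤ M) (v : Fin n → ℝ) :
    |∑ i, ∑ j, v i * a i j * v j| ≤ M * (∑ i, |v i|) ^ 2 := by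
  rw [sq, Finset.sum_mul_sum, Finset.mul_sum]
  refine (Finset.abs_sum_le_sum_abs _ _).trans (Finset.sum_le_sum fun i _ => ?_)
  rw [Finset.mul_sum]
  refine (Finset.abs_sum_le_sum_abs _ _).trans (Finset.sum_le_sum fun j _ => ?_)
  rw [abs_mul, abs_mul]
  calc |v i| * |a i j| * |v j| = |a i j| * (|v i| * |v j|) := by ring
    _ ≤ M * (|v i| * |v j|) := mul_le_mul_of_nonneg_right (h i j) (by positivity)

theorem sq_sum_abs_le (v : Fin n → ℝ) : (∑ i, |v i|) ^ 2 ≤ n * ∑ i, v i ^ 2 := by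
  simpa only [sq_abs, Finset.card_univ, Fintype.card_fin] using
    sq_sum_le_card_mul_sum_sq (s := Finset.univ) (f := fun i => |v i|)

end Crest.Agent.R238.St
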