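import Crest.Agent.R238.StGau

/-! # R238/St: Gaussian covariance and consistency of the linear scheme (skeleton helper76)
`gauss_cov`: integration by parts `∫ ∂_i (z_j e^{-Q/2}) = 0`
(`integral_mul_fderiv_eq_neg_fderiv_mul_of_integrable` or the `lineDeriv` version) gives `M * Cov = I₀ • 1`.
(`M.PosDef` gives `c‖z‖² ≤ Q z` for some `c > 0`; here this is a hypothesis.)
`EEq_cons`: compare numerator and denominator with the Gaussian ones (`qq_cons` for `u` and `s`,
`abs_qq_le`, `|e^{-a} - e^{-b}| ≤ e^{-c‖z‖²/2}|a - b|`, `ZZ_bounds`). -/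

set_option autoImplicit false
open MeasureTheory Filter Topology

namespace Crest.Agent.R238.St

variable {n : ℕ}

/-- the dominating weight -/
noncomputable def stcov_w (c : ℝ) (z : E n) : ℝ := (1 + ell z) ^ 5 * Real.exp (-(c * ‖z‖ ^ 2 / 2))

theorem stcov_pow (z : E n) {k : ℕ} (hk : k ≤ 5) : ell z ^ k ≤ (1 + ell z) ^ 5 :=
  (pow_le_pow_left₀ (ell_nonneg z) (le_add_of_nonneg_left zero_le_one) k).trans
    (pow_le_pow_right₀ (le_add_of_nonneg_right (ell_nonneg z)) hk)

theorem stcov_int {c : ℝ} (hc : 0 < c) {F : E n → ℝ} (hF : Continuous F) {K : ℝ}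
    (h : ∀ z, |F z| ≤ K * stcov_w c z) : Integrable F ∧ |∫ z, F z| ≤ K * ∫ z : E n, stcov_w c z := by
  have i0 : Integrable fun z : E n => K * stcov_w c z := (integrable_mom 5 hc).const_mul K
  refine ⟨i0.mono' hF.aestronglyMeasurable (Eventually.of_forall h), ?_⟩
  rw [← integral_const_mul]
  exact norm_integral_le_of_norm_le (f := F) i0 (Eventually.of_forall h)

theorem stcov_bd {c a p K : ℝ} {k : ℕ} {z : E n} (ha : c * ‖z‖ ^ 2 / 2 ≤ a) (hK : 0 ≤ K) (hk : k ≤ 5)
    (hp : |p| ≤ K * ell z ^ k) : |Real.exp (-a) * p| ≤ K * stcov_w c z := by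
  rw [abs_mul, abs_of_pos (Real.exp_pos _), stcov_w, ← mul_assoc, mul_comm]
  exact mul_le_mul (hp.trans (mul_le_mul_of_nonneg_left (stcov_pow z hk) hK))
    (Real.exp_le_exp.2 (neg_le_neg ha)) (Real.exp_pos _).le
    (mul_nonneg hK (pow_nonneg (add_nonneg zero_le_one (ell_nonneg z)) _))

theorem stcov_co (z : E n) (i : Fin n) : |z i| ≤ ell z :=
  Finset.single_le_sum (f := fun i => |z i|) (fun _ _ => abs_nonneg _) (Finset.mem_univ i)

theorem stcov_cont (M : Fin n → Fin n → ℝ) : Continuous fun z : E n => ∑ i, ∑ j, z i * M i j * z j := by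
  fun_prop

theorem stcov_i2 {M : Fin n → Fin n → ℝ} {c : ℝ} (hc : 0 < c)
    (hQ : ∀ z : E n, c * ‖z‖ ^ 2 ≤ ∑ i, ∑ j, z i * M i j * z j) (a b : Fin n) :
    Integrable fun z : E n => Real.exp (-((∑ i, ∑ j, z i * M i j * z j) / 2)) * (z a * z b) := by
  have h1 := stcov_cont M
  refine (stcov_int hc (K := 1) (by fun_prop) fun z => stcov_bd (k := 2) (by linarith [hQ z]) zero_le_one
    (by norm_num) ?_).1
  rw [abs_mul, one_mul, sq]
  exact mul_le_mul (stcov_co z a) (stcov_co z b) (abs_nonneg _) (ell_nonneg z)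

theorem stcov_line {M : Matrix (Fin n) (Fin n) ℝ} (hM : ∀ i j, M i j = M j i) (i : Fin n) (z : E n) :
    HasLineDerivAt ℝ (fun z : E n => Real.exp (-((∑ i, ∑ j, z i * M i j * z j) / 2)))
      (-(Real.exp (-((∑ i, ∑ j, z i * M i j * z j) / 2)) * ∑ k, M i k * z k)) z (EuclideanSpace.single i 1) := by
  have h1 : ∀ j, HasDerivAt (fun t : ℝ => (z + t • EuclideanSpace.single i (1 : ℝ) : E n) j)
      ((EuclideanSpace.single i (1 : ℝ) : E n) j) 0 := by
    intro j
    simpa using ((hasDerivAt_id (0 : ℝ)).mul_const ((EuclideanSpace.single i (1 : ℝ) : E n) j)).const_add (z j)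
  have h2 := HasDerivAt.fun_sum (u := Finset.univ) fun j _ => HasDerivAt.fun_sum (u := Finset.univ) fun k _ =>
    ((h1 j).mul_const (M j k)).fun_mul (h1 k)
  have h3 := (h2.div_const 2).neg.exp
  refine HasDerivAt.congr_deriv h3 ?_
  have e : ∑ j, ∑ k, ((EuclideanSpace.single i (1 : ℝ) : E n) j * M j k * z k +
      z j * M j k * (EuclideanSpace.single i (1 : ℝ) : E n) k) = 2 * ∑ k, M i k * z k := by
    simp only [Finset.sum_add_distrib, two_mul]
    congr 1
    · rw [Finset.sum_comm]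
      simp
    · simp [hM i, mul_comm]
  simp only [zero_smul, add_zero, Pi.neg_apply, e]
  ring

theorem stcov_exp {a b t : ℝ} (ha : t ≤ a) (hb : t ≤ b) :
    |Real.exp (-a) - Real.exp (-b)| ≤ Real.exp (-t) * |a - b| := by
  wlog h : a ≤ b generalizing a b
  · rw [abs_sub_comm, abs_sub_comm a]
    exact this hb ha (not_le.1 h).le
  have h1 : Real.exp (-b) = Real.exp (-a) * Real.exp (a - b) := by
    rw [← Real.exp_add]; congr 1; ring
  have h2 := Real.add_one_le_exp (a - b)
  have h3 : Real.exp (-a) ≤ Real.exp (-t) := Real.exp_le_exp.2 (neg_le_neg ha)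
  have h4 := Real.exp_pos (-a)
  rw [abs_of_nonneg (sub_nonneg.2 (Real.exp_le_exp.2 (neg_le_neg h))), abs_of_nonpos (sub_nonpos.2 h), h1]
  nlinarith

theorem gauss_cov {M : Matrix (Fin n) (Fin n) ℝ} (hM : M.PosDef) {c : ℝ} (hc : 0 < c)
    (hQ : ∀ z : E n, c * ‖z‖ ^ 2 ≤ ∑ i, ∑ j, z i * M i j * z j) (a b : Fin n) :
    ∫ z : E n, Real.exp (-((∑ i, ∑ j, z i * M i j * z j) / 2)) * (z a * z b) =
      M⁻¹ a b * ∫ z : E n, Real.exp (-((∑ i, ∑ j, z i * M i j * z j) / 2)) := by
  have hs : ∀ i j, M i j = M j i := fun i j => by simpa using hM.isHermitian.apply j i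
  have h1 := stcov_cont (n := n) M
  have i0 : Integrable fun z : E n => Real.exp (-((∑ i, ∑ j, z i * M i j * z j) / 2)) := by
    simpa using (stcov_int hc (K := 1) (F := fun z : E n => Real.exp (-((∑ i, ∑ j, z i * M i j * z j) / 2)) * 1)
      (by fun_prop) fun z => stcov_bd (k := 0) (by linarith [hQ z]) zero_le_one (by norm_num) (by simp)).1
  have i1 : Integrable fun z : E n => Real.exp (-((∑ i, ∑ j, z i * M i j * z j) / 2)) * z b :=
    (stcov_int hc (K := 1) (by fun_prop) fun z => stcov_bd (k := 1) (by linarith [hQ z]) zero_le_one (by norm_num)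
      (by simpa using stcov_co z b)).1
  have key : ∀ i, ∑ k, M i k * ∫ z : E n, Real.exp (-((∑ i, ∑ j, z i * M i j * z j) / 2)) * (z k * z b) =
      (1 : Matrix (Fin n) (Fin n) ℝ) i b * ∫ z : E n, Real.exp (-((∑ i, ∑ j, z i * M i j * z j) / 2)) := by
    intro i
    have e1 : ∀ z : E n, z b * -(Real.exp (-((∑ i, ∑ j, z i * M i j * z j) / 2)) * ∑ k, M i k * z k) =
        -∑ k, M i k * (Real.exp (-((∑ i, ∑ j, z i * M i j * z j) / 2)) * (z k * z b)) := by
      intro z
      rw [mul_neg, Finset.mul_sum, Finset.mul_sum]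
      congr 1
      exact Finset.sum_congr rfl fun k _ => by ring
    have i2 := fun k => (stcov_i2 hc hQ k b).const_mul (M i k)
    have h := integral_bilinear_hasLineDerivAt_right_eq_neg_left_of_integrable (μ := volume)
      (B := ContinuousLinearMap.mul ℝ ℝ) (f := fun z : E n => z b)
      (f' := fun _ => (1 : Matrix (Fin n) (Fin n) ℝ) i b) (v := EuclideanSpace.single i 1)
      (i0.const_mul _) (by
        simp only [ContinuousLinearMap.mul_apply', e1]
        exact (integrable_finsetSum _ fun k _ => i2 k).neg)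
      (by simpa only [ContinuousLinearMap.mul_apply', mul_comm] using i1)
      (fun z _ => by
        have := ((EuclideanSpace.proj b : E n →L[ℝ] ℝ).hasFDerivAt (x := z)).hasLineDerivAt
          (EuclideanSpace.single i 1)
        have e : (1 : Matrix (Fin n) (Fin n) ℝ) i b =
            (EuclideanSpace.proj b : E n →L[ℝ] ℝ) (EuclideanSpace.single i 1) := by
          simp [Matrix.one_apply, eq_comm]
        rw [e]
        exact this)
      fun z _ => stcov_line hs i z
    simp only [ContinuousLinearMap.mul_apply', e1] at h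
    rw [integral_neg, integral_finsetSum _ fun k _ => i2 k, neg_inj] at h
    simpa only [integral_const_mul] using h
  have hu : IsUnit M.det := (Matrix.isUnit_iff_isUnit_det M).1 hM.isUnit
  obtain ⟨I, hI⟩ : ∃ I, I = ∫ z : E n, Real.exp (-((∑ i, ∑ j, z i * M i j * z j) / 2)) := ⟨_, rfl⟩
  obtain ⟨V, hV⟩ : ∃ V : Fin n → ℝ, V = fun k =>
    ∫ z : E n, Real.exp (-((∑ i, ∑ j, z i * M i j * z j) / 2)) * (z k * z b) := ⟨_, rfl⟩
  have k1 : M.mulVec V = fun i => (1 : Matrix (Fin n) (Fin n) ℝ) i b * I := by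
    funext i
    rw [hI, ← key i, hV]
    rfl
  have k2 := congrFun (congrArg M⁻¹.mulVec k1) a
  rw [Matrix.mulVec_mulVec, Matrix.nonsing_inv_mul _ hu, Matrix.one_mulVec] at k2
  rw [← hI, show ∫ z : E n, Real.exp (-((∑ i, ∑ j, z i * M i j * z j) / 2)) * (z a * z b) = V a by rw [hV], k2]
  simp [Matrix.mulVec, dotProduct, Matrix.one_apply]

theorem stcov_alg {N1 N0 Z1 Z0 G a b d h : ℝ} (hG : 0 < G) (h1 : G ≤ Z1) (h0 : G ≤ Z0) 
    (e1 : |N1 - N0| ≤ a * h) (e2 : |Z1 - Z0| ≤ b * h) (e3 : |N0| ≤ d) :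
    |N1 / Z1 - N0 / Z0| ≤ (a / G + d * b / G ^ 2) * h := by
  have p1 : 0 < Z1 := hG.trans_le h1
  have p0 : 0 < Z0 := hG.trans_le h0
  have e : N1 / Z1 - N0 / Z0 = (N1 - N0) / Z1 - N0 * (Z1 - Z0) / (Z1 * Z0) := by
    field_simp
    ring
  rw [e]
  refine (abs_sub _ _).trans ?_
  rw [abs_div, abs_div, abs_of_pos p1, abs_of_pos (mul_pos p1 p0), abs_mul, add_mul]
  have d0 : 0 ≤ d := (abs_nonneg _).trans e3
  refine add_le_add ?_ ?_
  · rw [div_mul_eq_mul_div]
    exact div_le_div₀ ((abs_nonneg _).trans e1) e1 hG h1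
  · rw [div_mul_eq_mul_div, mul_assoc, sq]
    exact div_le_div₀ (mul_nonneg d0 ((abs_nonneg _).trans e2)) (mul_le_mul e3 e2 (abs_nonneg _) d0)
      (mul_pos hG hG) (mul_le_mul h1 h0 hG.le p1.le)

theorem EEq_cons (n : ℕ) {c C : ℝ} (hc : 0 < c) (hC : 0 < C) (M : ℝ) : ∃ A : ℝ, 0 ≤ A ∧
    ∀ (h : ℝ) (u s : E n → ℝ) (x : E n), 0 < h → Good c C u → Bd 3 M u → Sm s → Bd 2 M s →
      Bd 3 M s → |2 * EE h u x (qq h s x) - ∑ i, ∑ j, (hess u x)⁻¹ i j * pd i (pd j s) x| ≤ A * h := by
  obtain ⟨J, hJ⟩ : ∃ J, J = ∫ z : E n, stcov_w c z := ⟨_, rfl⟩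
  have J0 : 0 ≤ J := hJ ▸ integral_nonneg fun z =>
    mul_nonneg (pow_nonneg (add_nonneg zero_le_one (ell_nonneg z)) _) (Real.exp_pos _).le
  have hG := GG_pos n hC
  obtain ⟨m, hm⟩ : ∃ m, m = |M| := ⟨_, rfl⟩
  have m0 : 0 ≤ m := hm ▸ abs_nonneg M
  have m1 : M ≤ m := hm ▸ le_abs_self M
  refine ⟨2 * ((m ^ 2 / 4 + m / 2) * J / GG n C + m / 2 * J * (m / 2 * J) / GG n C ^ 2), by positivity,
    fun h u s x hh hu hu3 hs hs2 hs3 => ?_⟩
  replace hu3 := hu3.mono m1
  replace hs2 := hs2.mono m1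
  replace hs3 := hs3.mono m1
  have hQ : ∀ z : E n, c * ‖z‖ ^ 2 ≤ ∑ i, ∑ j, z i * hess u x i j * z j := fun z => by
    rw [norm_sq_eq]; exact hu.2.1 x _
  have hQ' : ∀ z : E n, ∑ i, ∑ j, z i * hess u x i j * z j ≤ C * ‖z‖ ^ 2 := fun z => by
    rw [norm_sq_eq]; exact hu.2.2 x _
  obtain ⟨b, hb⟩ : ∃ b : E n → ℝ, b = fun z => (∑ i, ∑ j, z i * hess u x i j * z j) / 2 := ⟨_, rfl⟩
  obtain ⟨r, hr⟩ : ∃ r : E n → ℝ, r = fun z => (∑ i, ∑ j, z i * pd i (pd j s) x * z j) / 2 := ⟨_, rfl⟩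
  have cb : Continuous b := hb ▸ (stcov_cont _).div_const 2
  have cr : Continuous r := hr ▸ (stcov_cont _).div_const 2
  have ca : Continuous (qq h u x) := (continuous_qq hu.1.1.continuous h).comp (Continuous.prodMk_right x)
  have cp : Continuous (qq h s x) := (continuous_qq hs.continuous h).comp (Continuous.prodMk_right x)
  have la : ∀ z, c * ‖z‖ ^ 2 / 2 ≤ qq h u x z := fun z => (qq_ge hu hh x z).1
  have lb : ∀ z, c * ‖z‖ ^ 2 / 2 ≤ b z := fun z => by rw [hb]; linarith [hQ z]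
  have dab : ∀ z, |qq h u x z - b z| ≤ m / 2 * h * ell z ^ 3 := fun z => by
    have := qq_cons hu.1.1 hh hu3 x z
    rw [hb]
    exact this.trans (le_of_eq (by ring))
  have dpr : ∀ z, |qq h s x z - r z| ≤ m / 2 * h * ell z ^ 3 := fun z => by
    have := qq_cons hs hh hs3 x z
    rw [hr]
    exact this.trans (le_of_eq (by ring))
  have bp : ∀ z, |qq h s x z| ≤ m / 2 * ell z ^ 2 := fun z => (abs_qq_le hs hh hs2 x z).trans (le_of_eq (by ring))
  have br : ∀ z, |r z| ≤ m / 2 * ell z ^ 2 := fun z => by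
    have := abs_form_le (a := fun i j => pd i (pd j s) x) (fun i j => hs2 [i, j] rfl x) fun i => z i
    rw [hr]
    simp only [abs_div, abs_two]
    rw [ell]
    linarith
  have n1 := stcov_int hc (F := fun z => Real.exp (-qq h u x z) * qq h s x z) (by fun_prop) fun z =>
    stcov_bd (la z) (by positivity) (by norm_num) (bp z)
  have n0 := stcov_int hc (F := fun z => Real.exp (-b z) * r z) (by fun_prop) fun z =>
    stcov_bd (lb z) (by positivity) (by norm_num) (br z)
  have z1 := stcov_int hc (K := 1) (F := fun z => Real.exp (-qq h u x z) * 1) (by fun_prop) fun z =>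
    stcov_bd (k := 0) (la z) zero_le_one (by norm_num) (by simp)
  have z0 := stcov_int hc (K := 1) (F := fun z => Real.exp (-b z) * 1) (by fun_prop) fun z =>
    stcov_bd (k := 0) (lb z) zero_le_one (by norm_num) (by simp)
  simp only [mul_one] at z1 z0
  have de : ∀ z, |Real.exp (-qq h u x z) - Real.exp (-b z)| ≤
      Real.exp (-(c * ‖z‖ ^ 2 / 2)) * (m / 2 * h * ell z ^ 3) := fun z =>
    (stcov_exp (la z) (lb z)).trans (mul_le_mul_of_nonneg_left (dab z) (Real.exp_pos _).le)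
  have dz := (stcov_int hc (K := m / 2 * h) (F := fun z => Real.exp (-qq h u x z) - Real.exp (-b z)) (by fun_prop)
    fun z => (de z).trans ((le_abs_self _).trans (stcov_bd (k := 3) le_rfl (by positivity) (by norm_num)
      (abs_of_nonneg (mul_nonneg (by positivity) (pow_nonneg (ell_nonneg z) _))).le))).2
  have dn := (stcov_int hc (K := (m ^ 2 / 4 + m / 2) * h)
    (F := fun z => Real.exp (-qq h u x z) * qq h s x z - Real.exp (-b z) * r z) (by fun_prop) fun z => by
      have l0 := ell_nonneg z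
      have e : Real.exp (-qq h u x z) * qq h s x z - Real.exp (-b z) * r z =
          (Real.exp (-qq h u x z) - Real.exp (-b z)) * qq h s x z + Real.exp (-b z) * (qq h s x z - r z) := by ring
      have t1 := stcov_bd (lb z) (by positivity) (by norm_num) (dpr z)
      have t2 : |(Real.exp (-qq h u x z) - Real.exp (-b z)) * qq h s x z| ≤
          Real.exp (-(c * ‖z‖ ^ 2 / 2)) * (m ^ 2 / 4 * h * ell z ^ 5) := by
        rw [abs_mul]
        exact (mul_le_mul (de z) (bp z) (abs_nonneg _) (by positivity)).trans (le_of_eq (by ring))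
      have t3 := (le_abs_self _).trans (stcov_bd (c := c) (z := z) (K := m ^ 2 / 4 * h) (k := 5) le_rfl
        (by positivity) le_rfl (abs_of_nonneg (by positivity)).le)
      rw [e]
      refine (abs_add_le _ _).trans ?_
      linarith).2
  rw [integral_sub z1.1 z0.1, ← hJ] at dz
  rw [integral_sub n1.1 n0.1, ← hJ] at dn
  have g0 : GG n C ≤ ∫ z, Real.exp (-b z) := by
    refine integral_mono (by simpa using integrable_mom (n := n) 0 hC) z0.1 fun z => ?_
    rw [hb]
    exact Real.exp_le_exp.2 (by linarith [hQ' z])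
  have key := stcov_alg (a := (m ^ 2 / 4 + m / 2) * J) (b := m / 2 * J) (h := h) hG (ZZ_bounds hc hC hu hh x).1 g0
    (dn.trans (le_of_eq (by ring))) (dz.trans (le_of_eq (by ring))) (hJ ▸ n0.2)
  have e0 : ∑ i, ∑ j, (hess u x)⁻¹ i j * pd i (pd j s) x =
      2 * ((∫ z, Real.exp (-b z) * r z) / ∫ z, Real.exp (-b z)) := by
    have e1 : ∀ z : E n, Real.exp (-b z) * r z = ∑ i, ∑ j, pd i (pd j s) x / 2 *
        (Real.exp (-((∑ i, ∑ j, z i * hess u x i j * z j) / 2)) * (z i * z j)) := by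
      intro z
      simp only [hb, hr, Finset.sum_div, Finset.mul_sum]
      exact Finset.sum_congr rfl fun i _ => Finset.sum_congr rfl fun j _ => by ring
    have i2 := fun i j => (stcov_i2 hc hQ i j).const_mul (pd i (pd j s) x / 2)
    simp only [e1]
    rw [integral_finsetSum _ fun i _ => integrable_finsetSum _ fun j _ => i2 i j]
    simp only [integral_finsetSum _ fun j _ => i2 _ j, integral_const_mul,
      gauss_cov (hess_posDef hu.1.1 hc hu.2.1 x) hc hQ]
    have p0 := (hG.trans_le g0).ne'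
    simp only [hb] at p0 ⊢
    simp only [Finset.sum_div, Finset.mul_sum]
    refine Finset.sum_congr rfl fun i _ => Finset.sum_congr rfl fun j _ => ?_
    simp only [← Finset.sum_div]
    field_simp
  rw [e0, ← mul_sub, abs_mul, abs_two, mul_assoc]
  exact mul_le_mul_of_nonneg_left key zero_le_two

end Crest.Agent.R238.St
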