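import Crest.Agent.R238.IF

/-!
# R238/St: short-time existence for `u_t = log det D²u - x·Du + u + φ` (definitions; helper76)

Explicit monotone Euler scheme.  `qq h v x z ≈ z·D²v(x)z/2` is an averaged second difference,
`FF h u ≈ log det D²u` (Gaussian integral), `step` is one time step of length `dl h = h²/12`.
-/

set_option autoImplicit false
open MeasureTheory

namespace Crest.Agent.R238.St

variable {n : ℕ}

/-- smooth functions -/
abbrev Sm (f : E n → ℝ) : Prop := ContDiff ℝ (⊤ : ℕ∞) f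

/-- even functions -/
def Ev (f : E n → ℝ) : Prop := ∀ x, f (-x) = f x

/-- all index lists of length `k` -/
def Ls (n k : ℕ) : Finset (List (Fin n)) :=
  (Finset.univ : Finset (List.Vector (Fin n) k)).map ⟨Subtype.val, Subtype.val_injective⟩

/-- the largest partial derivative of order `k` at `x` -/
noncomputable def mx (k : ℕ) (f : E n → ℝ) (x : E n) : ℝ :=
  ⨆ L : List.Vector (Fin n) k, |pdL L.1 f x|

/-- sum of the squares of the partial derivatives of order `k` -/
noncomputable def NN (k : ℕ) (f : E n → ℝ) (x : E n) : ℝ := ∑ L ∈ Ls n k, pdL L f x ^ 2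

/-- `ℓ¹` norm -/
noncomputable def ell (z : E n) : ℝ := ∑ i, |z i|

/-- Hessian quadratic form -/
noncomputable def Hq (f : E n → ℝ) (x : E n) (v : Fin n → ℝ) : ℝ :=
  ∑ i, ∑ j, v i * pd i (pd j f) x * v j

/-- `D²f ≤ C` everywhere -/
def HessLe (C : ℝ) (f : E n → ℝ) : Prop :=
  ∀ (x : E n) (v : Fin n → ℝ), ∑ i, ∑ j, v i * pd i (pd j f) x * v j ≤ C * ∑ i, v i ^ 2

/-- all partial derivatives of order `k` are bounded by `M` -/
def Bd (k : ℕ) (M : ℝ) (f : E n → ℝ) : Prop :=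
  ∀ L : List (Fin n), L.length = k → ∀ x, |pdL L f x| ≤ M

/-- the class on which the scheme acts -/
def Good (c C : ℝ) (u : E n → ℝ) : Prop := Cb 2 u ∧ HessGe c u ∧ HessLe C u

/-- the linear functional `y ↦ ∑ a i * y i` -/
noncomputable def cl (a : Fin n → ℝ) : E n →L[ℝ] ℝ := ∑ i, a i • EuclideanSpace.proj i

/-- second difference -/
noncomputable def sd (v : E n → ℝ) (x z : E n) (s : ℝ) : ℝ :=
  v (x + s • z) + v (x - s • z) - 2 * v x

/-- averaged second difference quotient, `≈ z·D²v(x)z/2` -/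
noncomputable def qq (h : ℝ) (v : E n → ℝ) (x z : E n) : ℝ :=
  3 / (2 * h ^ 3) * ∫ s in (0 : ℝ)..h, sd v x z s

/-- partition function -/
noncomputable def ZZ (h : ℝ) (u : E n → ℝ) (x : E n) : ℝ := ∫ z, Real.exp (-qq h u x z)

/-- Gaussian integral with precision `a` -/
noncomputable def GG (n : ℕ) (a : ℝ) : ℝ := ∫ z : E n, Real.exp (-(a * ‖z‖ ^ 2 / 2))

/-- discrete `log det D²u` -/
noncomputable def FF (h : ℝ) (u : E n → ℝ) (x : E n) : ℝ := -2 * Real.log (ZZ h u x / GG n 1)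

/-- expectation for the Gibbs measure `e^{-qq} dz / ZZ` -/
noncomputable def EE (h : ℝ) (u : E n → ℝ) (x : E n) (Φ : E n → ℝ) : ℝ :=
  (∫ z, Real.exp (-qq h u x z) * Φ z) / ZZ h u x

/-- continuous functions of polynomial growth -/
def PG (Φ : E n → ℝ) : Prop := Continuous Φ ∧ ∃ (A : ℝ) (p : ℕ), ∀ z, |Φ z| ≤ A * (1 + ell z) ^ p

/-- time step -/
noncomputable def dl (h : ℝ) : ℝ := h ^ 2 / 12

/-- diffusion part of one step -/
noncomputable def WW (h : ℝ) (φ u : E n → ℝ) (x : E n) : ℝ := u x + dl h * (FF h u x + φ x)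

/-- one step of the scheme -/
noncomputable def step (h : ℝ) (φ u : E n → ℝ) (x : E n) : ℝ :=
  (1 + dl h) * WW h φ u ((1 + dl h)⁻¹ • x)

/-- right-hand side of the flow -/
noncomputable def rhs (φ u : E n → ℝ) (x : E n) : ℝ :=
  Real.log (hess u x).det - eul u x + u x + φ x

/-- squared first differences of the order-`k` partial derivatives -/
noncomputable def dd (k : ℕ) (u : E n → ℝ) (x z : E n) (s : ℝ) : ℝ :=
  ∑ L ∈ Ls n k, (pdL L u (x + s • z) - pdL L u (x - s • z)) ^ 2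

/-- the top-order quantity (bounds `qq` of the order `k-1` derivatives) -/
noncomputable def YY (h : ℝ) (k : ℕ) (u : E n → ℝ) (x z : E n) : ℝ :=
  3 / (2 * h ^ 2) * ell z * ∫ s in (0 : ℝ)..h, √(dd k u x z s)

/-- diffusion part of one step of the linear scheme -/
noncomputable def LW (h : ℝ) (u s : E n → ℝ) (x : E n) : ℝ :=
  s x + dl h * (2 * EE h u x (qq h s x))

/-- one step of the linear scheme for `s_t = L s` -/
noncomputable def lstep (h : ℝ) (u s : E n → ℝ) (x : E n) : ℝ := LW h u s ((1 + dl h)⁻¹ • x)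

/-- `w` solves `w_t = R w` on `[0,T]`, for all partial derivatives -/
def Flow (R : (E n → ℝ) → E n → ℝ) (T : ℝ) (w : ℝ → E n → ℝ) : Prop :=
  (∀ t ∈ Set.Icc (0 : ℝ) T, Sm (w t) ∧ Sm (R (w t))) ∧
  (∀ L : List (Fin n), ContinuousOn (fun p : ℝ × E n => pdL L (w p.1) p.2)
    (Set.Icc (0 : ℝ) T ×ˢ Set.univ)) ∧
  (∀ L : List (Fin n), ContinuousOn (fun p : ℝ × E n => pdL L (R (w p.1)) p.2)
    (Set.Icc (0 : ℝ) T ×ˢ Set.univ)) ∧
  ∀ (L : List (Fin n)), ∀ t ∈ Set.Icc (0 : ℝ) T, ∀ x,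
    HasDerivWithinAt (fun r => pdL L (w r) x) (pdL L (R (w t)) x) (Set.Icc (0 : ℝ) T) t

end Crest.Agent.R238.St
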