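import Crest.Agent.R238.StGau2

/-! # R238/St: Gaussian integrals, the Gibbs expectation `EE` (skeleton helper76)
`integrable_mom`: `(1 + ell z)^p ≤ (1 + n ‖z‖)^p ≤ C exp(c‖z‖²/4)` and integrability of
`exp(-b‖z‖²)` (`GaussianFourier.integrable_cexp_neg_mul_sq_norm_add` / `integral_rexp_neg_mul_sq_norm`,
or reuse `R285`).  `gauss_det`: `M = Bᵀ B` (e.g. `B = CFC.sqrt M` or LDL), the linear map
`Matrix.toEuclideanLin B` has determinant `det B`, `det B ^ 2 = det M`,
`MeasureTheory.Measure.map_linearMap_addHaar_eq_smul_addHaar` (or `integral_comp_linearMap`-type lemma).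
`FF_cons`: `|e^{-a} - e^{-b}| ≤ e^{-c‖z‖²/2} |a - b|` for `a, b ≥ c‖z‖²/2`, `qq_cons`,
`|log a - log b| ≤ |a - b| / I` for `a, b ≥ I = GG n C > 0`. -/

set_option autoImplicit false
open MeasureTheory Filter Topology

namespace Crest.Agent.R238.St

variable {n : ℕ}

theorem stgau_exp {m a b : ℝ} (ha : m ≤ a) (hb : m ≤ b) :
    |Real.exp (-a) - Real.exp (-b)| ≤ Real.exp (-m) * |a - b| := by
  have key : ∀ {a b : ℝ}, m ≤ a → a ≤ b → |Real.exp (-a) - Real.exp (-b)| ≤ Real.exp (-m) * |a - b| := by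
    intro a b ha hab
    have h1 : Real.exp (-b) ≤ Real.exp (-a) := Real.exp_le_exp.2 (neg_le_neg hab)
    have h2 : Real.exp (-a) ≤ Real.exp (-m) := Real.exp_le_exp.2 (neg_le_neg ha)
    have h3 : Real.exp (-b) = Real.exp (-a) * Real.exp (a - b) := by
      rw [← Real.exp_add]; congr 1; ring
    have h4 := Real.add_one_le_exp (a - b)
    have h5 := Real.exp_pos (-a)
    rw [abs_of_nonneg (sub_nonneg.2 h1), abs_of_nonpos (sub_nonpos.2 hab), h3]
    nlinarith [mul_le_mul_of_nonneg_left h4 h5.le, mul_le_mul_of_nonneg_right h2 (sub_nonneg.2 hab)]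
  rcases le_total a b with h | h
  · exact key ha h
  · rw [abs_sub_comm, abs_sub_comm a]
    exact key hb h

theorem stgau_log {I a b : ℝ} (hI : 0 < I) (ha : I ≤ a) (hb : I ≤ b) :
    |Real.log a - Real.log b| ≤ |a - b| / I := by
  have key : ∀ {a b : ℝ}, I ≤ a → a ≤ b → |Real.log a - Real.log b| ≤ |a - b| / I := by
    intro a b ha hab
    have ha0 : 0 < a := lt_of_lt_of_le hI ha
    have hb0 : 0 < b := lt_of_lt_of_le ha0 hab
    have h1 : Real.log a ≤ Real.log b := Real.log_le_log ha0 hab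
    have h2 := Real.log_le_sub_one_of_pos (div_pos hb0 ha0)
    rw [Real.log_div hb0.ne' ha0.ne'] at h2
    rw [abs_of_nonpos (sub_nonpos.2 h1), abs_of_nonpos (sub_nonpos.2 hab)]
    have h3 : b / a - 1 = (b - a) / a := by field_simp
    have h4 : (b - a) / a ≤ (b - a) / I := div_le_div_of_nonneg_left (sub_nonneg.2 hab) hI ha
    have h5 : -(a - b) / I = (b - a) / I := by ring
    linarith
  rcases le_total a b with h | h
  · exact key ha h
  · rw [abs_sub_comm, abs_sub_comm a]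
    exact key hb h

/-- uniform moments -/
theorem EE_mom (n p : ℕ) {c C : ℝ} (hc : 0 < c) (hC : 0 < C) : ∃ Γ : ℝ, 1 ≤ Γ ∧
    ∀ (h : ℝ) (u : E n → ℝ) (x : E n), 0 < h → Good c C u → ∀ j, j ≤ p →
      EE h u x (fun z => (1 + ell z) ^ j) ≤ Γ := by
  refine ⟨max 1 ((∫ z : E n, (1 + ell z) ^ p * Real.exp (-(c * ‖z‖ ^ 2 / 2))) / GG n C), le_max_left _ _,
    fun h u x hh hu j hj => le_trans ?_ (le_max_right _ _)⟩
  have hZ := ZZ_bounds hc hC hu hh x
  have hG := GG_pos n hC
  unfold EE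
  refine div_le_div₀ (integral_nonneg fun z => ?_) ?_ hG hZ.1
  · have := ell_nonneg z
    positivity
  · refine integral_mono (integrable_EE hc hu hh x (PG_pow j)) (integrable_mom p hc) fun z => ?_
    have h0 := ell_nonneg z
    have h1 : (1 + ell z) ^ j ≤ (1 + ell z) ^ p := pow_le_pow_right₀ (by linarith) hj
    have h2 : Real.exp (-qq h u x z) ≤ Real.exp (-(c * ‖z‖ ^ 2 / 2)) :=
      Real.exp_le_exp.2 (neg_le_neg (qq_ge hu hh x z).1)
    show Real.exp (-qq h u x z) * (1 + ell z) ^ j ≤ _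
    rw [mul_comm]
    exact mul_le_mul h1 h2 (Real.exp_pos _).le (by positivity)

theorem FF_bdd (n : ℕ) {c C : ℝ} (hc : 0 < c) (hC : 0 < C) : ∃ A : ℝ, 0 ≤ A ∧
    ∀ (h : ℝ) (u : E n → ℝ) (x : E n), 0 < h → Good c C u → |FF h u x| ≤ A := by
  refine ⟨2 * (|Real.log (GG n C / GG n 1)| + |Real.log (GG n c / GG n 1)|), by positivity,
    fun h u x hh hu => ?_⟩
  have hZ := ZZ_bounds hc hC hu hh x
  have hG := GG_pos n hC
  have h1 := GG_pos n one_pos
  have hZp := ZZ_pos hc hC hu hh x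
  have a1 : Real.log (GG n C / GG n 1) ≤ Real.log (ZZ h u x / GG n 1) :=
    Real.log_le_log (div_pos hG h1) (div_le_div_of_nonneg_right hZ.1 h1.le)
  have a2 : Real.log (ZZ h u x / GG n 1) ≤ Real.log (GG n c / GG n 1) :=
    Real.log_le_log (div_pos hZp h1) (div_le_div_of_nonneg_right hZ.2 h1.le)
  have b1 := neg_abs_le (Real.log (GG n C / GG n 1))
  have b2 := le_abs_self (Real.log (GG n c / GG n 1))
  have b3 := abs_nonneg (Real.log (GG n C / GG n 1))
  have b4 := abs_nonneg (Real.log (GG n c / GG n 1))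
  unfold FF
  rw [abs_le]
  constructor <;> linarith

theorem FF_cons (n : ℕ) {c C : ℝ} (hc : 0 < c) (hC : 0 < C) (M : ℝ) : ∃ A : ℝ, 0 ≤ A ∧
    ∀ (h : ℝ) (u : E n → ℝ) (x : E n), 0 < h → Good c C u → Bd 3 M u →
      |FF h u x - Real.log (hess u x).det| ≤ A * h := by
  have hG := GG_pos n hC
  have h1 := GG_pos n one_pos
  set I3 := ∫ z : E n, (1 + ell z) ^ 3 * Real.exp (-(c * ‖z‖ ^ 2 / 2)) with hI3
  have hI3n : 0 ≤ I3 := integral_nonneg fun z => by
    have := ell_nonneg z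
    positivity
  refine ⟨|M| * I3 / GG n C, by positivity, fun h u x hh hu hM => ?_⟩
  have hZ := ZZ_bounds hc hC hu hh x
  have hpd := hess_posDef hu.1.1 hc hu.2.1 x
  have hdet : 0 < (hess u x).det := hpd.det_pos
  have hlo : ∀ z : E n, c * ‖z‖ ^ 2 / 2 ≤ Hq u x (fun i => z i) / 2 := fun z => by
    have := hu.2.1 x (fun i => z i)
    rw [norm_sq_eq]
    unfold Hq
    linarith
  have hhi : ∀ z : E n, Hq u x (fun i => z i) / 2 ≤ C * ‖z‖ ^ 2 / 2 := fun z => by
    have := hu.2.2 x (fun i => z i)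
    rw [norm_sq_eq]
    unfold Hq
    linarith
  have hint : ∀ {a : ℝ}, 0 < a → Integrable (fun z : E n => Real.exp (-(a * ‖z‖ ^ 2 / 2))) := fun ha => by
    simpa using integrable_mom (n := n) 0 ha
  have hcont : Continuous fun z : E n => Real.exp (-(Hq u x (fun i => z i) / 2)) := by
    unfold Hq
    fun_prop
  have hi0 : Integrable fun z : E n => Real.exp (-(Hq u x (fun i => z i) / 2)) :=
    (hint hc).mono' hcont.aestronglyMeasurable (Eventually.of_forall fun z => by
      rw [Real.norm_eq_abs, abs_of_pos (Real.exp_pos _)]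
      exact Real.exp_le_exp.2 (neg_le_neg (hlo z)))
  have hi1 : Integrable fun z : E n => Real.exp (-qq h u x z) := by
    simpa using integrable_EE hc hu hh x (PG.const 1)
  set Z0 := ∫ z : E n, Real.exp (-(Hq u x (fun i => z i) / 2)) with hZ0
  have e0 : Z0 = GG n 1 / √((hess u x).det) := gauss_det hpd
  have hZ0C : GG n C ≤ Z0 :=
    integral_mono (hint hC) hi0 fun z => Real.exp_le_exp.2 (neg_le_neg (hhi z))
  have elog : Real.log (hess u x).det = -2 * Real.log (Z0 / GG n 1) := by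
    have : Z0 / GG n 1 = (√((hess u x).det))⁻¹ := by
      rw [e0]
      field_simp
    rw [this, Real.log_inv, Real.log_sqrt hdet.le]
    ring
  have hdiff : |ZZ h u x - Z0| ≤ |M| * h / 2 * I3 := by
    unfold ZZ
    rw [hZ0, ← integral_sub hi1 hi0, hI3, ← integral_const_mul, ← Real.norm_eq_abs]
    refine norm_integral_le_of_norm_le ((integrable_mom 3 hc).const_mul _) (Eventually.of_forall fun z => ?_)
    rw [Real.norm_eq_abs]
    refine (stgau_exp (qq_ge hu hh x z).1 (hlo z)).trans ?_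
    have h0 := ell_nonneg z
    have a1 := qq_cons hu.1.1 hh hM x z
    have a2 : ell z ^ 3 ≤ (1 + ell z) ^ 3 := pow_le_pow_left₀ h0 (by linarith) 3
    have a3 : M * h * ell z ^ 3 / 2 ≤ |M| * h / 2 * (1 + ell z) ^ 3 := by
      have b1 : M * h * ell z ^ 3 ≤ |M| * h * ell z ^ 3 :=
        mul_le_mul_of_nonneg_right (mul_le_mul_of_nonneg_right (le_abs_self M) hh.le) (by positivity)
      have b2 : |M| * h * ell z ^ 3 ≤ |M| * h * (1 + ell z) ^ 3 :=
        mul_le_mul_of_nonneg_left a2 (by positivity)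
      linarith
    calc _ ≤ Real.exp (-(c * ‖z‖ ^ 2 / 2)) * (|M| * h / 2 * (1 + ell z) ^ 3) :=
          mul_le_mul_of_nonneg_left (a1.trans a3) (Real.exp_pos _).le
      _ = _ := by ring
  have hlog := stgau_log hG hZ.1 hZ0C
  have hZp : 0 < ZZ h u x := lt_of_lt_of_le hG hZ.1
  have hZ0p : 0 < Z0 := lt_of_lt_of_le hG hZ0C
  have e : FF h u x - Real.log (hess u x).det = -2 * (Real.log (ZZ h u x) - Real.log Z0) := by
    rw [elog, FF, Real.log_div hZp.ne' h1.ne', Real.log_div hZ0p.ne' h1.ne']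
    ring
  rw [e, abs_mul, abs_neg, abs_two]
  calc _ ≤ 2 * (|M| * h / 2 * I3 / GG n C) :=
        mul_le_mul_of_nonneg_left (hlog.trans (div_le_div_of_nonneg_right hdiff hG.le)) two_pos.le
    _ = _ := by ring

theorem FF_neg {u : E n → ℝ} (hu : Ev u) (h : ℝ) : Ev (FF h u) := by
  intro x
  unfold FF ZZ
  simp only [qq_neg hu]

end Crest.Agent.R238.St
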