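import Crest.Agent.R238.StBas

/-! # R238/St: Gaussian integrals, the Gibbs expectation `EE` (skeleton helper76)
`integrable_mom`: `(1 + ell z)^p ≤ (1 + n ‖z‖)^p ≤ C exp(c‖z‖²/4)` and integrability of
`exp(-b‖z‖²)` (`GaussianFourier.integrable_cexp_neg_mul_sq_norm_add` / `integral_rexp_neg_mul_sq_norm`,
or reuse `R285`).  `gauss_det`: `M = Bᵀ B` (e.g. `B = CFC.sqrt M` or LDL), the linear map
`Matrix.toEuclideanLin B` has determinant `det B`, `det B ^ 2 = det M`,
`MeasureTheory.Measure.map_linearMap_addHaar_eq_smul_addHaar` (or `integral_comp_linearMap`-type lemma).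
`FF_cons`: `|e^{-a} - e^{-b}| ≤ e^{-c‖z‖²/2} |a - b|` for `a, b ≥ c‖z‖²/2`, `qq_cons`,
`|log a - log b| ≤ |a - b| / I` for `a, b ≥ I = GG n C > 0`. -/

set_option autoImplicit false
open MeasureTheory Filter Topology

namespace Crest.Agent.R238.St

variable {n : ℕ}

theorem stgau1_int {b : ℝ} (hb : 0 < b) : Integrable fun z : E n => Real.exp (-(b * ‖z‖ ^ 2)) := by
  have h := (GaussianFourier.integrable_cexp_neg_mul_sq_norm_add (V := E n) (b := (b : ℂ))
    (by simpa using hb) 0 0).norm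
  refine h.congr (Eventually.of_forall fun z => ?_)
  simp only [zero_mul, add_zero, Complex.norm_exp]
  congr 1
  rw [← Complex.ofReal_pow, ← Complex.ofReal_neg, ← Complex.ofReal_mul, Complex.ofReal_re, neg_mul]

open scoped MatrixOrder in
theorem stgau1_sqrt {M : Matrix (Fin n) (Fin n) ℝ} (hM : M.PosDef) :
    ∃ B : Matrix (Fin n) (Fin n) ℝ, M = B.transpose * B := by
  obtain ⟨B, hB⟩ := CStarAlgebra.nonneg_iff_eq_star_mul_self.1 hM.posSemidef.nonneg
  exact ⟨B, by rw [hB, Matrix.star_eq_conjTranspose, Matrix.conjTranspose_eq_transpose_of_trivial]⟩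

theorem integrable_mom (p : ℕ) {c : ℝ} (hc : 0 < c) :
    Integrable (fun z : E n => (1 + ell z) ^ p * Real.exp (-(c * ‖z‖ ^ 2 / 2))) := by
  have hi := (stgau1_int (n := n) (b := c / 4) (by positivity)).const_mul
    (p.factorial * Real.exp (1 + n ^ 2 / c))
  have hcont : Continuous fun z : E n => (1 + ell z) ^ p * Real.exp (-(c * ‖z‖ ^ 2 / 2)) :=
    ((continuous_const.add continuous_ell).pow p).mul (by fun_prop)
  refine hi.mono' hcont.aestronglyMeasurable (Eventually.of_forall fun z => ?_)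
  have h0 : 0 ≤ 1 + ell z := by linarith [ell_nonneg z]
  rw [Real.norm_of_nonneg (by positivity)]
  have h1 := Real.pow_div_factorial_le_exp _ h0 p
  rw [div_le_iff₀' (by positivity)] at h1
  have h2 : (n : ℝ) * ‖z‖ ≤ n ^ 2 / c + c / 4 * ‖z‖ ^ 2 := by
    have e : (n : ℝ) ^ 2 / c + c / 4 * ‖z‖ ^ 2 - n * ‖z‖ = (n - c / 2 * ‖z‖) ^ 2 / c := by
      field_simp
      ring
    have : 0 ≤ ((n : ℝ) - c / 2 * ‖z‖) ^ 2 / c := by positivity
    linarith
  calc (1 + ell z) ^ p * Real.exp (-(c * ‖z‖ ^ 2 / 2))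
      ≤ (p.factorial * Real.exp (1 + ell z)) * Real.exp (-(c * ‖z‖ ^ 2 / 2)) := by gcongr
    _ = p.factorial * Real.exp (1 + ell z + -(c * ‖z‖ ^ 2 / 2)) := by
        rw [Real.exp_add (1 + ell z), mul_assoc]
    _ ≤ p.factorial * Real.exp (1 + n ^ 2 / c + -(c / 4 * ‖z‖ ^ 2)) := by
        gcongr p.factorial * Real.exp ?_
        linarith [ell_le z]
    _ = _ := by rw [Real.exp_add (1 + n ^ 2 / c), mul_assoc]

theorem GG_pos (n : ℕ) {a : ℝ} (ha : 0 < a) : 0 < GG n a := by
  have hi := integrable_mom (n := n) 0 ha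
  simp only [pow_zero, one_mul] at hi
  exact integral_exp_pos hi

theorem gauss_det {M : Matrix (Fin n) (Fin n) ℝ} (hM : M.PosDef) :
    ∫ z : E n, Real.exp (-((∑ i, ∑ j, z i * M i j * z j) / 2)) = GG n 1 / √(M.det) := by
  obtain ⟨B, hB⟩ := stgau1_sqrt hM
  have hd : M.det = B.det ^ 2 := by rw [hB, Matrix.det_mul, Matrix.det_transpose, sq]
  have hB0 : B.det ≠ 0 := fun h => by
    have := hM.det_pos
    rw [hd, h] at this
    simp at this
  set T : E n →ₗ[ℝ] E n := Matrix.toLpLin 2 2 B with hT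
  have hTd : LinearMap.det T = B.det := LinearMap.det_toLpLin 2 B
  have hmap := Measure.map_linearMap_addHaar_eq_smul_addHaar (volume : Measure (E n))
    (f := T) (by rwa [hTd])
  have e : ∀ z : E n, ∑ i, ∑ j, z i * M i j * z j = 1 * ‖T z‖ ^ 2 := fun z => by
    rw [one_mul, norm_sq_eq, hB]
    simp only [hT, Matrix.toLpLin_apply, Matrix.mulVec, dotProduct, Matrix.mul_apply,
      Matrix.transpose_apply, sq, Finset.sum_mul, Finset.mul_sum]
    symm
    rw [Finset.sum_comm]
    refine Finset.sum_congr rfl fun i _ => ?_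
    rw [Finset.sum_comm]
    refine Finset.sum_congr rfl fun j _ => Finset.sum_congr rfl fun k _ => ?_
    ring
  simp only [e]
  have hc : Continuous fun w : E n => Real.exp (-(1 * ‖w‖ ^ 2 / 2)) := by fun_prop
  rw [← integral_map (φ := T) T.continuous_of_finiteDimensional.aemeasurable
    hc.aestronglyMeasurable, hmap, integral_smul_measure, hTd, hd, Real.sqrt_sq_eq_abs,
    ENNReal.toReal_ofReal (abs_nonneg _), abs_inv, smul_eq_mul, div_eq_inv_mul]
  rfl

theorem hess_posDef {u : E n → ℝ} (hu : Sm u) {c : ℝ} (hc : 0 < c) (h : HessGe c u) (x : E n) :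
    (hess u x).PosDef := by
  refine Matrix.PosDef.of_dotProduct_mulVec_pos ?_ fun v hv => ?_
  · ext i j
    simp only [hess, Matrix.conjTranspose_apply, Matrix.of_apply, star_trivial]
    rw [pd_comm hu]
  · have h1 : 0 < ∑ i, v i ^ 2 := by
      obtain ⟨i, hi⟩ := Function.ne_iff.1 hv
      exact Finset.sum_pos' (fun _ _ => sq_nonneg _) ⟨i, Finset.mem_univ i, sq_pos_iff.2 hi⟩
    refine ((mul_pos hc h1).trans_le (h x v)).trans_eq ?_
    simp only [hess, star_trivial, dotProduct, Matrix.mulVec, Matrix.of_apply, Finset.mul_sum,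
      mul_assoc]

end Crest.Agent.R238.St
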