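import Crest.Agent.R238.StPar

/-! # R238/St: the averaged second difference `qq` (skeleton helper76)
With `ζ r = v (x + r • z)`, `ψ s = sd v x z s = ζ s + ζ (-s) - 2 ζ 0`: `ψ 0 = 0`,
`ψ' s = ζ' s - ζ' (-s)`, `ψ' 0 = 0`, `ψ'' s = ζ'' s + ζ'' (-s)`, `ζ'' s = Hq v (x + s • z) z`
(`hasDerivAt_line` twice).  So `lo s² ≤ ψ s ≤ hi s²` on `[0,h]` (monotonicity twice) and
`∫ s in 0..h, s² = h³/3`.
`qq_le_YY`: `|ψ s| = |∫ r in 0..s, ψ' r| ≤ ∫ r in 0..h, |ψ' r|`, `|ψ' r| ≤ ell z * √(dd ..)` since each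
`(pdL (i :: L) u (x + r z) - pdL (i :: L) u (x - r z))² ≤ dd`.
`pw`: pointwise in `s`, with `v₀, v₊, v₋` the three values and `d = dd k u x z s`:
`∑ (2 m (v₀ + (v₊ + v₋ - 2 v₀)/4) - m²) ≤ ∑ (v₀²/2 + v₊²/4 + v₋²/4 - (v₊ - v₋)²/8) ≤ N - d/8` and
`2 b √d ≤ d/8 + 8 b²` with `b = dl h * γ * 3 * ell z / (2 h)`; integrate over `[0,h]`, divide by `h`
(`2 * dl h * (3 / (2 h³)) = 1 / (4 h)`). -/

set_option autoImplicit false
open MeasureTheory Filter Topology

namespace Crest.Agent.R238.St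

variable {n : ℕ}

theorem stq2_add {v : E n → ℝ} (hv : Sm v) (a : E n) : Sm fun x => v (x + a) :=
  ContDiff.comp hv (contDiff_id.add contDiff_const)

theorem stq2_sm_sd {v : E n → ℝ} (hv : Sm v) (z : E n) (s : ℝ) : Sm fun x => sd v x z s := by
  simp only [sd, sub_eq_add_neg _ (s • z)]
  exact ((stq2_add hv _).add (stq2_add hv _)).sub (contDiff_const.mul hv)

theorem stq2_pdL_sd {v : E n → ℝ} (hv : Sm v) (z : E n) (s : ℝ) (L : List (Fin n)) :
    pdL L (fun x => sd v x z s) = fun x => sd (pdL L v) x z s := by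
  simp only [sd, sub_eq_add_neg _ (s • z)]
  rw [pdL_sub ((stq2_add hv _).add (stq2_add hv _)) (contDiff_const.mul hv),
    pdL_add (stq2_add hv _) (stq2_add hv _), pdL_comp_add hv, pdL_comp_add hv, pdL_const_mul hv]

theorem stq2_par {v : E n → ℝ} (hv : Sm v) {h : ℝ} (hh : 0 < h) (z : E n) :
    Sm (fun x => ∫ s in (0 : ℝ)..h, sd v x z s) ∧ ∀ (L : List (Fin n)) (x : E n),
      pdL L (fun y => ∫ s in (0 : ℝ)..h, sd v y z s) x = ∫ s in (0 : ℝ)..h, pdL L (fun y => sd v y z s) x := by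
  refine par_interval hh.le (fun s x => sd v x z s) (fun s _ => stq2_sm_sd hv z s) fun L => ?_
  simp only [stq2_pdL_sd hv]
  have hc := (sm_pdL hv L).continuous
  refine Continuous.continuousOn ?_
  unfold sd
  fun_prop

theorem sm_qq {v : E n → ℝ} (hv : Sm v) {h : ℝ} (hh : 0 < h) (z : E n) :
    Sm (fun x => qq h v x z) := by
  exact contDiff_const.mul (stq2_par hv hh z).1

theorem pdL_qq {v : E n → ℝ} (hv : Sm v) {h : ℝ} (hh : 0 < h) (z : E n) (L : List (Fin n)) :
    pdL L (fun x => qq h v x z) = fun x => qq h (pdL L v) x z := by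
  unfold qq
  rw [pdL_const_mul (stq2_par hv hh z).1]
  funext x
  rw [(stq2_par hv hh z).2 L x]
  simp only [stq2_pdL_sd hv]

theorem continuous_qq {v : E n → ℝ} (hv : Continuous v) (h : ℝ) :
    Continuous (fun p : E n × E n => qq h v p.1 p.2) := by
  refine continuous_const.mul ?_
  refine intervalIntegral.continuous_parametric_intervalIntegral_of_continuous'
    (f := fun (p : E n × E n) (s : ℝ) => sd v p.1 p.2 s) ?_ 0 h
  unfold sd
  fun_prop

theorem continuous_YY {u : E n → ℝ} (hu : Sm u) (h : ℝ) (k : ℕ) (x : E n) :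
    Continuous (fun z => YY h k u x z) := by
  refine (continuous_const.mul continuous_ell).mul ?_
  refine intervalIntegral.continuous_parametric_intervalIntegral_of_continuous'
    (f := fun (z : E n) (s : ℝ) => √(dd k u x z s)) ?_ 0 h
  refine Real.continuous_sqrt.comp (f := fun p : E n × ℝ => dd k u x p.1 p.2) ?_
  refine continuous_finsetSum _ fun L _ => ?_
  have hc := (sm_pdL hu L).continuous
  fun_prop

theorem YY_nonneg {h : ℝ} (hh : 0 < h) (k : ℕ) (u : E n → ℝ) (x z : E n) : 0 ≤ YY h k u x z := by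
  exact mul_nonneg (mul_nonneg (by positivity) (ell_nonneg z))
    (intervalIntegral.integral_nonneg hh.le fun s _ => Real.sqrt_nonneg _)

/-- `dd ≤ 2 N + 2 N` -/
theorem YY_le {u : E n → ℝ} (hu : Sm u) {h : ℝ} (hh : 0 < h) {k : ℕ} {N : ℝ}
    (hN : ∀ y, NN k u y ≤ N) (x z : E n) : YY h k u x z ≤ 3 / h * ell z * √N := by
  have h1 : ∀ s, √(dd k u x z s) ≤ 2 * √N := by
    intro s
    have h2 : dd k u x z s ≤ 2 * NN k u (x + s • z) + 2 * NN k u (x - s • z) := by
      unfold dd NN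
      rw [Finset.mul_sum, Finset.mul_sum, ← Finset.sum_add_distrib]
      refine Finset.sum_le_sum fun L _ => ?_
      nlinarith [sq_nonneg (pdL L u (x + s • z) + pdL L u (x - s • z))]
    have h3 : dd k u x z s ≤ 2 ^ 2 * N := by linarith [hN (x + s • z), hN (x - s • z)]
    calc √(dd k u x z s) ≤ √(2 ^ 2 * N) := Real.sqrt_le_sqrt h3
      _ = 2 * √N := by rw [Real.sqrt_mul (by positivity), Real.sqrt_sq (by norm_num)]
  have h2 : ‖∫ s in (0 : ℝ)..h, √(dd k u x z s)‖ ≤ 2 * √N * |h - 0| :=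
    intervalIntegral.norm_integral_le_of_norm_le_const fun s _ => by
      rw [Real.norm_of_nonneg (Real.sqrt_nonneg _)]
      exact h1 s
  rw [sub_zero, abs_of_pos hh] at h2
  have h3 := (le_abs_self _).trans h2
  have h4 := ell_nonneg z
  calc YY h k u x z ≤ 3 / (2 * h ^ 2) * ell z * (2 * √N * h) :=
        mul_le_mul_of_nonneg_left h3 (by positivity)
    _ = 3 / h * ell z * √N := by field_simp

end Crest.Agent.R238.St
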