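import Crest.Agent.R238.StQ1
import Crest.Agent.R238.StQ2

/-! # R238/St: the averaged second difference `qq` (skeleton helper76)
With `ζ r = v (x + r • z)`, `ψ s = sd v x z s = ζ s + ζ (-s) - 2 ζ 0`: `ψ 0 = 0`,
`ψ' s = ζ' s - ζ' (-s)`, `ψ' 0 = 0`, `ψ'' s = ζ'' s + ζ'' (-s)`, `ζ'' s = Hq v (x + s • z) z`
(`hasDerivAt_line` twice).  So `lo s² ≤ ψ s ≤ hi s²` on `[0,h]` (monotonicity twice) and
`∫ s in 0..h, s² = h³/3`.
`qq_le_YY`: `|ψ s| = |∫ r in 0..s, ψ' r| ≤ ∫ r in 0..h, |ψ' r|`, `|ψ' r| ≤ ell z * √(dd ..)` since each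
`(pdL (i :: L) u (x + r z) - pdL (i :: L) u (x - r z))² ≤ dd`.
`pw`: pointwise in `s`, with `v₀, v₊, v₋` the three values and `d = dd k u x z s`:
`∑ (2 m (v₀ + (v₊ + v₋ - 2 v₀)/4) - m²) ≤ ∑ (v₀²/2 + v₊²/4 + v₋²/4 - (v₊ - v₋)²/8) ≤ N - d/8` and
`2 b √d ≤ d/8 + 8 b²` with `b = dl h * γ * 3 * ell z / (2 h)`; integrate over `[0,h]`, divide by `h`
(`2 * dl h * (3 / (2 h³)) = 1 / (4 h)`). -/

set_option autoImplicit false
open MeasureTheory Filter Topology

namespace Crest.Agent.R238.St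

variable {n : ℕ}

theorem stq_cont {v : E n → ℝ} (hv : Sm v) (x z : E n) :
    Continuous (fun s : ℝ => v (x + s • z)) ∧ Continuous fun s : ℝ => v (x - s • z) :=
  ⟨hv.continuous.comp (by fun_prop), hv.continuous.comp (by fun_prop)⟩

theorem stq_sd {v : E n → ℝ} (hv : Sm v) (x z : E n) : Continuous (sd v x z) :=
  ((stq_cont hv x z).1.add (stq_cont hv x z).2).sub continuous_const

theorem stq_dd {u : E n → ℝ} (hu : Sm u) (k : ℕ) (x z : E n) : Continuous fun s => √(dd k u x z s) :=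
  (continuous_finsetSum _ fun L _ =>
    ((stq_cont (sm_pdL hu L) x z).1.sub (stq_cont (sm_pdL hu L) x z).2).pow 2).sqrt

theorem stq_pt {u : E n → ℝ} {k : ℕ} {N : ℝ} (hN : ∀ y, NN k u y ≤ N) (x z : E n) (m : List (Fin n) → ℝ)
    (b s : ℝ) : ∑ L ∈ Ls n k, (2 * m L * pdL L u x - m L ^ 2 + m L / 2 * sd (pdL L u) x z s)
      + 2 * b * √(dd k u x z s) ≤ N + 8 * b ^ 2 := by
  have h0 : 0 ≤ dd k u x z s := Finset.sum_nonneg fun _ _ => sq_nonneg _
  have h1 : ∑ L ∈ Ls n k, (2 * m L * pdL L u x - m L ^ 2 + m L / 2 * sd (pdL L u) x z s) ≤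
      NN k u x / 2 + NN k u (x + s • z) / 4 + NN k u (x - s • z) / 4 - dd k u x z s / 8 := by
    simp only [NN, dd, Finset.sum_div, ← Finset.sum_add_distrib, ← Finset.sum_sub_distrib]
    refine Finset.sum_le_sum fun L _ => ?_
    rw [sd]
    nlinarith [sq_nonneg (m L - (pdL L u x / 2 + (pdL L u (x + s • z) + pdL L u (x - s • z)) / 4)),
      sq_nonneg (pdL L u x / 2 - (pdL L u (x + s • z) + pdL L u (x - s • z)) / 4)]
  have h2 := Real.sq_sqrt h0
  nlinarith [hN x, hN (x + s • z), hN (x - s • z), sq_nonneg (√(dd k u x z s) - 8 * b)]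

theorem qq_le_YY {u : E n → ℝ} (hu : Sm u) {h : ℝ} (hh : 0 < h) {k : ℕ} (L : List (Fin n))
    (hL : L.length + 1 = k) (x z : E n) : |qq h (pdL L u) x z| ≤ YY h k u x z := by
  have hv := sm_pdL hu L
  have hD := stq_dd hu k x z
  have hl := ell_nonneg z
  have hder : ∀ s, HasDerivAt (sd (pdL L u) x z)
      (∑ i, z i * (pdL (i :: L) u (x + s • z) - pdL (i :: L) u (x - s • z))) s := by
    intro s
    have h1 := hasDerivAt_line hv x z s
    have h2 := hasDerivAt_line hv x (-z) s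
    simp only [smul_neg, ← sub_eq_add_neg] at h2
    refine ((h1.add h2).sub_const (2 * pdL L u x)).congr_deriv ?_
    rw [← Finset.sum_add_distrib]
    refine Finset.sum_congr rfl fun i _ => ?_
    rw [pdL_cons, PiLp.neg_apply]
    ring
  have hb : ∀ s, ‖∑ i, z i * (pdL (i :: L) u (x + s • z) - pdL (i :: L) u (x - s • z))‖ ≤
      ell z * √(dd k u x z s) := by
    intro s
    rw [ell, Finset.sum_mul]
    refine (norm_sum_le _ _).trans (Finset.sum_le_sum fun i _ => ?_)
    rw [norm_mul, Real.norm_eq_abs, Real.norm_eq_abs]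
    refine mul_le_mul_of_nonneg_left (Real.abs_le_sqrt ?_) (abs_nonneg _)
    exact Finset.single_le_sum (f := fun L => (pdL L u (x + s • z) - pdL L u (x - s • z)) ^ 2)
      (fun _ _ => sq_nonneg _) (mem_Ls.2 (by rw [List.length_cons, hL]))
  have h1 := image_norm_le_of_norm_deriv_right_le_deriv_boundary (f := sd (pdL L u) x z) (a := 0) (b := h)
    (stq_sd hv x z).continuousOn (fun s _ => (hder s).hasDerivWithinAt)
    (B := fun s => ell z * ∫ r in (0 : ℝ)..s, √(dd k u x z r))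
    (by simp [sd, two_mul]) (fun s => ((hD.integral_hasStrictDerivAt 0 s).hasDerivAt).const_mul (ell z))
    (fun s _ => hb s)
  have h2 : ‖∫ s in (0 : ℝ)..h, sd (pdL L u) x z s‖ ≤ (ell z * ∫ r in (0 : ℝ)..h, √(dd k u x z r)) * |h - 0| := by
    refine intervalIntegral.norm_integral_le_of_norm_le_const fun s hs => ?_
    rw [Set.uIoc_of_le hh.le] at hs
    refine (h1 ⟨hs.1.le, hs.2⟩).trans (mul_le_mul_of_nonneg_left ?_ hl)
    exact intervalIntegral.integral_mono_interval le_rfl hs.1.le hs.2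
      (.of_forall fun _ => Real.sqrt_nonneg _) (hD.intervalIntegrable _ _)
  rw [sub_zero, abs_of_pos hh, Real.norm_eq_abs] at h2
  rw [qq, YY, abs_mul, abs_of_pos (by positivity : 0 < 3 / (2 * h ^ 3))]
  refine (mul_le_mul_of_nonneg_left h2 (by positivity)).trans (le_of_eq ?_)
  field_simp

theorem pw {u : E n → ℝ} (hu : Sm u) {h : ℝ} (hh : 0 < h) {k : ℕ} {N : ℝ}
    (hN : ∀ y, NN k u y ≤ N) (x z : E n) (m : List (Fin n) → ℝ) {γ : ℝ} (hγ : 0 ≤ γ) :
    ∑ L ∈ Ls n k, (2 * m L * (pdL L u x + dl h * (2 * qq h (pdL L u) x z)) - m L ^ 2)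
      + 2 * dl h * γ * YY h k u x z ≤ N + 3 / 2 * dl h * γ ^ 2 * ell z ^ 2 := by
  have hD := stq_dd hu k x z
  have hs : ∀ L, Continuous fun s => 2 * m L * pdL L u x - m L ^ 2 + m L / 2 * sd (pdL L u) x z s := fun L =>
    continuous_const.add (continuous_const.mul (stq_sd (sm_pdL hu L) x z))
  have h1 := intervalIntegral.integral_mono_on hh.le
    (((continuous_finsetSum (Ls n k) fun L _ => hs L).add
      (continuous_const.mul hD (f := fun _ => 2 * (h * γ * ell z / 8)))).intervalIntegrable (μ := volume) 0 h)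
    (continuous_const.intervalIntegrable 0 h) fun s _ => stq_pt hN x z m (h * γ * ell z / 8) s
  have h2 : ∀ L, ∫ s in (0 : ℝ)..h, (2 * m L * pdL L u x - m L ^ 2 + m L / 2 * sd (pdL L u) x z s) =
      h * (2 * m L * (pdL L u x + dl h * (2 * qq h (pdL L u) x z)) - m L ^ 2) := by
    intro L
    rw [intervalIntegral.integral_add (continuous_const.intervalIntegrable _ _)
      (((stq_sd (sm_pdL hu L) x z).intervalIntegrable _ _).const_mul _),
      intervalIntegral.integral_const, intervalIntegral.integral_const_mul, qq, dl, sub_zero, smul_eq_mul]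
    field_simp
    ring
  simp only [Pi.add_apply, Pi.mul_apply] at h1
  rw [intervalIntegral.integral_add ((continuous_finsetSum (Ls n k) fun L _ => hs L).intervalIntegrable _ _)
    ((hD.intervalIntegrable _ _).const_mul _), intervalIntegral.integral_finsetSum
      fun L _ => (hs L).intervalIntegrable _ _, intervalIntegral.integral_const_mul,
    intervalIntegral.integral_const, sub_zero, smul_eq_mul] at h1
  simp only [h2, ← Finset.mul_sum] at h1
  refine le_of_mul_le_mul_left ?_ hh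
  have e1 : h * (2 * dl h * γ * YY h k u x z) = 2 * (h * γ * ell z / 8) * ∫ s in (0 : ℝ)..h, √(dd k u x z s) := by
    rw [dl, YY]
    field_simp
    ring
  have e2 : 3 / 2 * dl h * γ ^ 2 * ell z ^ 2 = 8 * (h * γ * ell z / 8) ^ 2 := by
    rw [dl]
    ring
  rw [mul_add, e1, e2]
  exact h1

end Crest.Agent.R238.St
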