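import Crest.Agent.R238.StGau1
import Crest.Agent.R238.StQ

/-! # R238/St: Gaussian integrals, the Gibbs expectation `EE` (skeleton helper76)
`integrable_mom`: `(1 + ell z)^p ≤ (1 + n ‖z‖)^p ≤ C exp(c‖z‖²/4)` and integrability of
`exp(-b‖z‖²)` (`GaussianFourier.integrable_cexp_neg_mul_sq_norm_add` / `integral_rexp_neg_mul_sq_norm`,
or reuse `R285`).  `gauss_det`: `M = Bᵀ B` (e.g. `B = CFC.sqrt M` or LDL), the linear map
`Matrix.toEuclideanLin B` has determinant `det B`, `det B ^ 2 = det M`,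
`MeasureTheory.Measure.map_linearMap_addHaar_eq_smul_addHaar` (or `integral_comp_linearMap`-type lemma).
`FF_cons`: `|e^{-a} - e^{-b}| ≤ e^{-c‖z‖²/2} |a - b|` for `a, b ≥ c‖z‖²/2`, `qq_cons`,
`|log a - log b| ≤ |a - b| / I` for `a, b ≥ I = GG n C > 0`. -/

set_option autoImplicit false
open MeasureTheory Filter Topology

namespace Crest.Agent.R238.St

variable {n : ℕ}

private theorem one_le_ell (z : E n) : 1 ≤ 1 + ell z := le_add_of_nonneg_right (ell_nonneg z)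

private theorem PG_nn {Φ : E n → ℝ} (h : PG Φ) :
    ∃ (A : ℝ) (p : ℕ), 0 ≤ A ∧ ∀ z, |Φ z| ≤ A * (1 + ell z) ^ p := by
  obtain ⟨A, p, h⟩ := h.2
  refine ⟨max A 0, p, le_max_right _ _, fun z => (h z).trans ?_⟩
  exact mul_le_mul_of_nonneg_right (le_max_left _ _) (pow_nonneg (by linarith [one_le_ell z]) _)

private theorem integrable_gauss {c : ℝ} (hc : 0 < c) :
    Integrable (fun z : E n => Real.exp (-(c * ‖z‖ ^ 2 / 2))) := by
  simpa using integrable_mom (n := n) 0 hc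

theorem PG.add {Φ Ψ : E n → ℝ} (h1 : PG Φ) (h2 : PG Ψ) : PG (fun z => Φ z + Ψ z) := by
  obtain ⟨A, p, hA, a⟩ := PG_nn h1
  obtain ⟨B, q, hB, b⟩ := PG_nn h2
  refine ⟨h1.1.add h2.1, A + B, p + q, fun z => (abs_add_le _ _).trans ?_⟩
  have e1 := mul_le_mul_of_nonneg_left (pow_le_pow_right₀ (one_le_ell z) (Nat.le_add_right p q)) hA
  have e2 := mul_le_mul_of_nonneg_left (pow_le_pow_right₀ (one_le_ell z) (Nat.le_add_left q p)) hB
  linarith [a z, b z]

theorem PG.mul {Φ Ψ : E n → ℝ} (h1 : PG Φ) (h2 : PG Ψ) : PG (fun z => Φ z * Ψ z) := by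
  obtain ⟨A, p, hA, a⟩ := PG_nn h1
  obtain ⟨B, q, hB, b⟩ := PG_nn h2
  refine ⟨h1.1.mul h2.1, A * B, p + q, fun z => ?_⟩
  rw [abs_mul, pow_add, mul_mul_mul_comm]
  exact mul_le_mul (a z) (b z) (abs_nonneg _) ((abs_nonneg _).trans (a z))

theorem PG.const (a : ℝ) : PG (fun _ : E n => a) := by
  exact ⟨continuous_const, |a|, 0, fun z => by simp⟩

theorem PG.abs {Φ : E n → ℝ} (h1 : PG Φ) : PG (fun z => |Φ z|) := by
  obtain ⟨A, p, a⟩ := h1.2
  exact ⟨h1.1.abs, A, p, fun z => by rw [abs_abs]; exact a z⟩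

theorem PG.sum {ι : Type*} (s : Finset ι) {Φ : ι → E n → ℝ} (h : ∀ i ∈ s, PG (Φ i)) :
    PG (fun z => ∑ i ∈ s, Φ i z) := by
  classical
  induction s using Finset.induction_on with
  | empty => simpa using PG.const (n := n) 0
  | insert i s hi ih =>
    simp only [Finset.sum_insert hi]
    exact (h i (Finset.mem_insert_self _ _)).add (ih fun j hj => h j (Finset.mem_insert_of_mem hj))

theorem PG_ell : PG (ell : E n → ℝ) := by
  refine ⟨continuous_ell, 1, 1, fun z => ?_⟩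
  rw [abs_of_nonneg (ell_nonneg z)]
  simp

theorem PG_pow (p : ℕ) : PG (fun z : E n => (1 + ell z) ^ p) := by
  refine ⟨(continuous_const.add continuous_ell).pow p, 1, p, fun z => ?_⟩
  rw [abs_of_nonneg (pow_nonneg (by linarith [one_le_ell z]) _), one_mul]

theorem PG_qq {v : E n → ℝ} (hv : Cb 2 v) {h : ℝ} (hh : 0 < h) (x : E n) : PG (qq h v x) := by
  obtain ⟨M, hM, hb⟩ := cb_bd hv (le_refl 2)
  refine ⟨(continuous_qq hv.1.continuous h).comp (continuous_const.prodMk continuous_id), M / 2, 2,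
    fun z => (abs_qq_le hv.1 hh hb x z).trans ?_⟩
  have h1 := ell_nonneg z
  nlinarith [mul_nonneg hM h1]

theorem PG_YY {u : E n → ℝ} {k : ℕ} (hu : Cb k u) {h : ℝ} (hh : 0 < h) (x : E n) :
    PG (YY h k u x) := by
  obtain ⟨M, -, hb⟩ := cb_bd hu (le_refl k)
  refine ⟨continuous_YY hu.1 h k x, 3 / h * √((n : ℝ) ^ k * M ^ 2), 1, fun z => ?_⟩
  rw [abs_of_nonneg (YY_nonneg hh k u x z)]
  refine (YY_le hu.1 hh (NN_le_of_bd hb) x z).trans ?_
  have h1 : 0 ≤ 3 / h * √((n : ℝ) ^ k * M ^ 2) := by positivity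
  nlinarith

section
variable {c C : ℝ} {u : E n → ℝ} {h : ℝ}

theorem integrable_EE (hc : 0 < c) (hu : Good c C u) (hh : 0 < h) (x : E n) {Φ : E n → ℝ}
    (hΦ : PG Φ) : Integrable (fun z => Real.exp (-qq h u x z) * Φ z) := by
  obtain ⟨A, p, hA, a⟩ := PG_nn hΦ
  refine ((integrable_mom p hc).const_mul A).mono'
    ((PG_qq hu.1 hh x).1.neg.rexp.mul hΦ.1).aestronglyMeasurable (Eventually.of_forall fun z => ?_)
  rw [Real.norm_eq_abs, abs_mul, abs_of_pos (Real.exp_pos _), ← mul_assoc, mul_comm]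
  exact mul_le_mul (a z) (Real.exp_le_exp.2 (neg_le_neg (qq_ge hu hh x z).1)) (Real.exp_pos _).le
    ((abs_nonneg _).trans (a z))

theorem ZZ_bounds (hc : 0 < c) (hC : 0 < C) (hu : Good c C u) (hh : 0 < h) (x : E n) :
    GG n C ≤ ZZ h u x ∧ ZZ h u x ≤ GG n c := by
  have i1 : Integrable (fun z => Real.exp (-qq h u x z)) := by
    simpa using integrable_EE hc hu hh x (PG.const 1)
  exact ⟨integral_mono (integrable_gauss hC) i1 fun z => Real.exp_le_exp.2 (neg_le_neg (qq_ge hu hh x z).2),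
    integral_mono i1 (integrable_gauss hc) fun z => Real.exp_le_exp.2 (neg_le_neg (qq_ge hu hh x z).1)⟩

theorem ZZ_pos (hc : 0 < c) (hC : 0 < C) (hu : Good c C u) (hh : 0 < h) (x : E n) :
    0 < ZZ h u x := by
  exact (GG_pos n hC).trans_le (ZZ_bounds hc hC hu hh x).1

theorem EE_mono (hc : 0 < c) (hC : 0 < C) (hu : Good c C u) (hh : 0 < h) (x : E n)
    {Φ Ψ : E n → ℝ} (hΦ : PG Φ) (hΨ : PG Ψ) (H : ∀ z, Φ z ≤ Ψ z) : EE h u x Φ ≤ EE h u x Ψ := by
  exact div_le_div_of_nonneg_right (integral_mono (integrable_EE hc hu hh x hΦ) (integrable_EE hc hu hh x hΨ)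
    fun z => mul_le_mul_of_nonneg_left (H z) (Real.exp_pos _).le) (ZZ_pos hc hC hu hh x).le

theorem EE_add (hc : 0 < c) (hu : Good c C u) (hh : 0 < h) (x : E n) {Φ Ψ : E n → ℝ}
    (hΦ : PG Φ) (hΨ : PG Ψ) : EE h u x (fun z => Φ z + Ψ z) = EE h u x Φ + EE h u x Ψ := by
  simp only [EE, mul_add]
  rw [integral_add (integrable_EE hc hu hh x hΦ) (integrable_EE hc hu hh x hΨ), add_div]

theorem EE_const_mul (x : E n) (a : ℝ) (Φ : E n → ℝ) :
    EE h u x (fun z => a * Φ z) = a * EE h u x Φ := by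
  simp only [EE, mul_left_comm _ a]
  rw [integral_const_mul, mul_div_assoc]

theorem EE_const (hc : 0 < c) (hC : 0 < C) (hu : Good c C u) (hh : 0 < h) (x : E n) (a : ℝ) :
    EE h u x (fun _ => a) = a := by
  have h1 := (ZZ_pos hc hC hu hh x).ne'
  rw [EE, integral_mul_const]
  exact mul_div_cancel_left₀ a h1

theorem EE_sum (hc : 0 < c) (hu : Good c C u) (hh : 0 < h) (x : E n) {ι : Type*} (s : Finset ι)
    {Φ : ι → E n → ℝ} (H : ∀ i ∈ s, PG (Φ i)) :
    EE h u x (fun z => ∑ i ∈ s, Φ i z) = ∑ i ∈ s, EE h u x (Φ i) := by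
  simp only [EE, Finset.mul_sum]
  rw [integral_finsetSum _ fun i hi => integrable_EE hc hu hh x (H i hi), Finset.sum_div]

theorem EE_nonneg (x : E n) {Φ : E n → ℝ} (H : ∀ z, 0 ≤ Φ z) : 0 ≤ EE h u x Φ := by
  exact div_nonneg (integral_nonneg fun z => mul_nonneg (Real.exp_pos _).le (H z))
    (integral_nonneg fun z => (Real.exp_pos _).le)

theorem abs_EE_le (hc : 0 < c) (hC : 0 < C) (hu : Good c C u) (hh : 0 < h) (x : E n)
    {Φ Ψ : E n → ℝ} (hΨ : PG Ψ) (H : ∀ z, |Φ z| ≤ Ψ z) : |EE h u x Φ| ≤ EE h u x Ψ := by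
  have h1 := ZZ_pos hc hC hu hh x
  rw [EE, EE, abs_div, abs_of_pos h1]
  refine div_le_div_of_nonneg_right ?_ h1.le
  rw [← Real.norm_eq_abs]
  refine norm_integral_le_of_norm_le (integrable_EE hc hu hh x hΨ) (Eventually.of_forall fun z => ?_)
  rw [Real.norm_eq_abs, abs_mul, abs_of_pos (Real.exp_pos _)]
  exact mul_le_mul_of_nonneg_left (H z) (Real.exp_pos _).le

end

end Crest.Agent.R238.St
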