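import Crest.Agent.R238.StStep

/-! # R238/St: bounds for the iterates (skeleton helper76)
`gron`: `1 + a (m+1) ≤ (1 + δ A)(1 + a m)`, `1 + t ≤ exp t`.
`iter_bd`: `N₀ = max (n^3) (n^4) * M²`-type bound for `NN 3`, `NN 4` at time 0 (`NN_le_of_bd`),
`K = √(N₀ + 1)`; `A₃, A₄` from `step_NN` (class `Good (c/2) (2C)`), `A₂` from `step_hess`;
induction on `m` with `m δ ≤ T`: `NN ≤ N₀ + m δ A (2 + N₀)`, `HessGe (c - m δ (A₂ + c))`,
`HessLe (C + m δ A₂)`, `Cb 2`, `Ev`.  Then strong induction on `k ≥ 5` (`step_NN` + `gron`),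
`k = 2` from `HessGe/HessLe` is not needed: use `|pd i (pd j u)| ≤ 2C·2` by polarisation, or simply
iterate `ff_bd` (`p = 2`) with `pdL_step`; `|U m 0|` from `step_zero` + `gron`. -/

set_option autoImplicit false
open MeasureTheory Filter Topology

namespace Crest.Agent.R238.St

variable {n : ℕ}

theorem gron {a : ℕ → ℝ} {δ A T : ℝ} (hδ : 0 ≤ δ) (hA : 0 ≤ A) (h0 : 0 ≤ a 0) (M : ℕ)
    (hM : (M : ℝ) * δ ≤ T) (H : ∀ m, m < M → a (m + 1) ≤ a m + δ * A * (1 + a m)) :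
    ∀ m, m ≤ M → a m ≤ (1 + a 0) * Real.exp (A * T) := by
  have h1 : ∀ m, m ≤ M → 1 + a m ≤ (1 + a 0) * Real.exp (A * (m * δ)) := by
    intro m
    induction m with
    | zero => simp
    | succ m ih =>
      intro hm
      have h2 := H m hm
      have h3 := mul_le_mul_of_nonneg_left (ih (by omega)) (by positivity : 0 ≤ δ * A + 1)
      have h4 := mul_le_mul_of_nonneg_right (Real.add_one_le_exp (δ * A))
        (by positivity : 0 ≤ (1 + a 0) * Real.exp (A * (m * δ)))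
      rw [show A * (((m + 1 : ℕ) : ℝ) * δ) = δ * A + A * (m * δ) by push_cast; ring, Real.exp_add]
      linarith
  intro m hm
  have h2 : (m : ℝ) * δ ≤ T := (mul_le_mul_of_nonneg_right (by exact_mod_cast hm) hδ).trans hM
  have h3 := mul_le_mul_of_nonneg_left (Real.exp_le_exp.2 (mul_le_mul_of_nonneg_left h2 hA))
    (by positivity : 0 ≤ 1 + a 0)
  linarith [h1 m hm]

theorem bd_two {c C : ℝ} (hc : 0 ≤ c) (hC : 0 ≤ C) {u : E n → ℝ} (hs : Sm u) (h1 : HessGe c u)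
    (h2 : HessLe C u) : Bd 2 C u := by
  intro L hL x
  obtain ⟨i, j, rfl⟩ := List.length_eq_two.1 hL
  have key : ∀ t : ℝ, t ^ 2 = 1 →
      0 ≤ pd i (pd i u) x + 2 * t * pd i (pd j u) x + pd j (pd j u) x ∧
      pd i (pd i u) x + 2 * t * pd i (pd j u) x + pd j (pd j u) x ≤ 4 * C := by
    intro t ht
    have e : ∑ k, ∑ l, (Pi.single i 1 + Pi.single j t : Fin n → ℝ) k * pd k (pd l u) x *
        (Pi.single i 1 + Pi.single j t : Fin n → ℝ) l =
        pd i (pd i u) x + 2 * t * pd i (pd j u) x + pd j (pd j u) x := by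
      simp only [Pi.add_apply, Pi.single_apply, add_mul, mul_add, Finset.sum_add_distrib, ite_mul, mul_ite,
        zero_mul, mul_zero, Finset.sum_ite_eq', Finset.mem_univ, if_true, pd_comm hs j i]
      linear_combination pd j (pd j u) x * ht
    have e2 : ∑ k, (Pi.single i 1 + Pi.single j t : Fin n → ℝ) k ^ 2 ≤ 4 := by
      refine (Finset.sum_le_sum (g := fun k => 2 * (Pi.single i 1 : Fin n → ℝ) k ^ 2 +
        2 * (Pi.single j t : Fin n → ℝ) k ^ 2) fun k _ => ?_).trans ?_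
      · rw [Pi.add_apply]
        nlinarith [sq_nonneg ((Pi.single i 1 : Fin n → ℝ) k - (Pi.single j t : Fin n → ℝ) k)]
      · simp [Finset.sum_add_distrib, Pi.single_apply, ht]
        norm_num
    have a1 := h1 x (Pi.single i 1 + Pi.single j t)
    have a2 := h2 x (Pi.single i 1 + Pi.single j t)
    rw [e] at a1 a2
    exact ⟨le_trans (mul_nonneg hc (Finset.sum_nonneg fun _ _ => sq_nonneg _)) a1,
      a2.trans (by nlinarith)⟩
  have b1 := key 1 (by norm_num)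
  have b2 := key (-1) (by norm_num)
  change |pd i (pd j u) x| ≤ C
  rw [abs_le]
  constructor <;> linarith [b1.1, b1.2, b2.1, b2.2]

theorem stIter_ge {c c' : ℝ} {u : E n → ℝ} (h : HessGe c u) (hc : c' ≤ c) : HessGe c' u := fun x v =>
  (mul_le_mul_of_nonneg_right hc (Finset.sum_nonneg fun _ _ => sq_nonneg _)).trans (h x v)

theorem stIter_le {C C' : ℝ} {u : E n → ℝ} (h : HessLe C u) (hC : C ≤ C') : HessLe C' u := fun x v =>
  (h x v).trans (mul_le_mul_of_nonneg_right hC (Finset.sum_nonneg fun _ _ => sq_nonneg _))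

theorem stIter_pred {m m' : ℕ} {δ T : ℝ} (hδ : 0 ≤ δ) (h : (m : ℝ) * δ ≤ T) (hm : m' ≤ m) : (m' : ℝ) * δ ≤ T :=
  (mul_le_mul_of_nonneg_right (by exact_mod_cast hm) hδ).trans h

/-- short-time control of the orders `2, 3, 4` -/
theorem stIter_low {φ : E n → ℝ} (hφ : Cb 2 φ) (hφe : Ev φ) {c C : ℝ} (hc : 0 < c) (hC : 0 < C)
    (M : ℝ) : ∃ T K : ℝ, 0 < T ∧ ∀ u₀ : E n → ℝ, Good c C u₀ → Ev u₀ → Bd 3 M u₀ → Bd 4 M u₀ →
      ∀ (h : ℝ) (m : ℕ), 0 < h → h ≤ 1 → (m : ℝ) * dl h ≤ T →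
        Good (c / 2) (2 * C) ((step h φ)^[m] u₀) ∧ Ev ((step h φ)^[m] u₀) ∧
        Bd 3 K ((step h φ)^[m] u₀) ∧ Bd 4 K ((step h φ)^[m] u₀) := by
  obtain ⟨N₀, hN₀⟩ : ∃ N₀ : ℝ, N₀ = (n : ℝ) ^ 3 * M ^ 2 + (n : ℝ) ^ 4 * M ^ 2 := ⟨_, rfl⟩
  have hN : 0 ≤ N₀ := by rw [hN₀]; positivity
  have hc2 : 0 < c / 2 := by positivity
  have hC2 : 0 < 2 * C := by positivity
  obtain ⟨A₃, hA₃, H₃⟩ := step_NN 3 le_rfl hc2 hC2 (√(N₀ + 1)) hφ
  obtain ⟨A₄, hA₄, H₄⟩ := step_NN 4 (by norm_num) hc2 hC2 (√(N₀ + 1)) hφ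
  obtain ⟨A₂, hA₂, H₂⟩ := step_hess hc2 hC2 (√(N₀ + 1)) hφ
  obtain ⟨T, hT, hT3, hT4, hT1, hT2⟩ : ∃ T : ℝ, 0 < T ∧ T * (A₃ * (2 + N₀)) ≤ 1 ∧ T * (A₄ * (2 + N₀)) ≤ 1 ∧
      T * (A₂ + c) ≤ c / 2 ∧ T * A₂ ≤ C := by
    have e : ∀ a b : ℝ, 0 < b → ∀ᶠ T : ℝ in 𝓝[>] 0, T * a ≤ b := fun a b hb =>
      (((continuous_id.mul continuous_const).tendsto' 0 0 (by simp)).eventually
        (eventually_le_nhds hb)).filter_mono nhdsWithin_le_nhds
    exact (eventually_mem_nhdsWithin.and ((e _ _ one_pos).and ((e _ _ one_pos).and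
      ((e _ _ hc2).and (e _ _ hC))))).exists
  refine ⟨T, √(N₀ + 1), hT, fun u₀ hu he h3 h4 h m hh hh1 => ?_⟩
  have hδ := (dl_pos hh).le
  have fin : ∀ (m : ℕ) (u : E n → ℝ), (m : ℝ) * dl h ≤ T → Cb 2 u → HessGe (c - m * dl h * (A₂ + c)) u →
      HessLe (C + m * dl h * A₂) u → (∀ y, NN 3 u y ≤ N₀ + m * dl h * (A₃ * (2 + N₀))) →
      (∀ y, NN 4 u y ≤ N₀ + m * dl h * (A₄ * (2 + N₀))) →
      Good (c / 2) (2 * C) u ∧ Bd 3 (√(N₀ + 1)) u ∧ Bd 4 (√(N₀ + 1)) u := by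
    intro m u hm a1 a2 a3 a4 a5
    have b1 := mul_le_mul_of_nonneg_right hm (by positivity : 0 ≤ A₂ + c)
    have b2 := mul_le_mul_of_nonneg_right hm hA₂
    have b3 := mul_le_mul_of_nonneg_right hm (by positivity : 0 ≤ A₃ * (2 + N₀))
    have b4 := mul_le_mul_of_nonneg_right hm (by positivity : 0 ≤ A₄ * (2 + N₀))
    exact ⟨⟨a1, stIter_ge a2 (by linarith), stIter_le a3 (by linarith)⟩,
      bd_of_NN fun y => (a4 y).trans (by linarith), bd_of_NN fun y => (a5 y).trans (by linarith)⟩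
  have main : ∀ m : ℕ, (m : ℝ) * dl h ≤ T → Ev ((step h φ)^[m] u₀) ∧ Cb 2 ((step h φ)^[m] u₀) ∧
      HessGe (c - m * dl h * (A₂ + c)) ((step h φ)^[m] u₀) ∧ HessLe (C + m * dl h * A₂) ((step h φ)^[m] u₀) ∧
      (∀ y, NN 3 ((step h φ)^[m] u₀) y ≤ N₀ + m * dl h * (A₃ * (2 + N₀))) ∧
      (∀ y, NN 4 ((step h φ)^[m] u₀) y ≤ N₀ + m * dl h * (A₄ * (2 + N₀))) := by
    intro m
    induction m with
    | zero =>
      intro _
      simp only [Function.iterate_zero, id, Nat.cast_zero, zero_mul, sub_zero, add_zero]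
      refine ⟨he, hu.1, hu.2.1, hu.2.2, fun y => (NN_le_of_bd h3 y).trans ?_, fun y => (NN_le_of_bd h4 y).trans ?_⟩
      · rw [hN₀]; exact le_add_of_nonneg_right (by positivity)
      · rw [hN₀]; exact le_add_of_nonneg_left (by positivity)
    | succ m ih =>
      intro hm
      have hm' := stIter_pred hδ hm m.le_succ
      obtain ⟨a0, a1, a2, a3, a4, a5⟩ := ih hm'
      obtain ⟨g, g3, g4⟩ := fin m _ hm' a1 a2 a3 a4 a5
      rw [Function.iterate_succ_apply']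
      generalize (step h φ)^[m] u₀ = u at *
      have b0 : 0 ≤ (m : ℝ) * dl h := by positivity
      have b1 := mul_le_mul_of_nonneg_right hm' (by positivity : 0 ≤ A₂ + c)
      have b3 := mul_le_mul_of_nonneg_right hm' (by positivity : 0 ≤ A₃ * (2 + N₀))
      have b4 := mul_le_mul_of_nonneg_right hm' (by positivity : 0 ≤ A₄ * (2 + N₀))
      obtain ⟨c1, c2⟩ := H₂ h u _ _ hh hh1 g g3 g4 (by linarith) (by positivity) a2 a3
      have c3 := H₃ h u _ hh hh1 g (fun j h1 h2 => by omega) a4 (Or.inr (Real.sqrt_le_sqrt (by linarith)))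
      have c4 := H₄ h u _ hh hh1 g (fun j h1 h2 => by obtain rfl : j = 3 := (by omega); exact g3) a5
        (Or.inr (Real.sqrt_le_sqrt (by linarith)))
      have d1 : 0 ≤ dl h * (m * dl h * (A₂ + c)) := by positivity
      have d3 := mul_le_mul_of_nonneg_left (b3.trans hT3) (by positivity : 0 ≤ dl h * A₃)
      have d4 := mul_le_mul_of_nonneg_left (b4.trans hT4) (by positivity : 0 ≤ dl h * A₄)
      push_cast
      exact ⟨step_ev hφe a0 h, step_cb hc2 hC2 hφ g hh, stIter_ge c1 (by linarith), stIter_le c2 (by linarith),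
        fun y => (c3 y).trans (by linarith), fun y => (c4 y).trans (by linarith)⟩
  intro hm
  obtain ⟨a0, a1, a2, a3, a4, a5⟩ := main m hm
  obtain ⟨g, g3, g4⟩ := fin m _ hm a1 a2 a3 a4 a5
  exact ⟨g, a0, g3, g4⟩

theorem iter_bd {φ : E n → ℝ} (hφ : Cb 2 φ) (hφe : Ev φ) {c C : ℝ} (hc : 0 < c) (hC : 0 < C)
    (M : ℝ) : ∃ T : ℝ, 0 < T ∧ ∀ u₀ : E n → ℝ, Good c C u₀ → Ev u₀ → Bd 3 M u₀ → Bd 4 M u₀ →
      ∃ (B : ℕ → ℝ) (B₀ : ℝ), ∀ (h : ℝ) (m : ℕ), 0 < h → h ≤ 1 → (m : ℝ) * dl h ≤ T →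
        Good (c / 2) (2 * C) ((step h φ)^[m] u₀) ∧ Ev ((step h φ)^[m] u₀) ∧
        (∀ j, 2 ≤ j → Bd j (B j) ((step h φ)^[m] u₀)) ∧ |(step h φ)^[m] u₀ 0| ≤ B₀ := by
  obtain ⟨T, K, hT, H⟩ := stIter_low hφ hφe hc hC M
  refine ⟨T, hT, fun u₀ hu he h3 h4 => ?_⟩
  replace H := H u₀ hu he h3 h4
  have hc2 : 0 < c / 2 := by positivity
  have hC2 : 0 < 2 * C := by positivity
  have h1 : ∀ k, 5 ≤ k → ∃ B : ℝ, ∀ (h : ℝ) (m : ℕ), 0 < h → h ≤ 1 → (m : ℝ) * dl h ≤ T →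
      ∀ j, 3 ≤ j → j < k → Bd j B ((step h φ)^[m] u₀) := by
    intro k hk
    induction k, hk using Nat.le_induction with
    | base =>
      refine ⟨K, fun h m hh hh1 hm j j1 j2 => ?_⟩
      obtain rfl | rfl : j = 3 ∨ j = 4 := by omega
      · exact (H h m hh hh1 hm).2.2.1
      · exact (H h m hh hh1 hm).2.2.2
    | succ k hk ih =>
      obtain ⟨B, hB⟩ := ih
      obtain ⟨A, hA, HA⟩ := step_NN k (by omega) hc2 hC2 B hφ
      obtain ⟨M₀, -, hM₀⟩ := cb_bd hu.1 (show 2 ≤ k by omega)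
      refine ⟨max B √((1 + (n : ℝ) ^ k * M₀ ^ 2) * Real.exp (A * T)), fun h m hh hh1 hm j j1 j2 => ?_⟩
      rcases Nat.lt_succ_iff_lt_or_eq.1 j2 with j3 | rfl
      · exact (hB h m hh hh1 hm j j1 j3).mono (le_max_left _ _)
      refine (bd_of_NN fun y => ?_).mono (le_max_right _ _)
      have hδ := (dl_pos hh).le
      have h2 : ∀ m' : ℕ, (m' : ℝ) * dl h ≤ T → ∀ y, NN j ((step h φ)^[m'] u₀) y ≤
          (fun b => b + dl h * A * (1 + b))^[m'] ((n : ℝ) ^ j * M₀ ^ 2) := by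
        intro m'
        induction m' with
        | zero => exact fun _ => NN_le_of_bd hM₀
        | succ m' ih =>
          intro hm'
          have hm'' := stIter_pred hδ hm' m'.le_succ
          rw [Function.iterate_succ_apply', Function.iterate_succ_apply']
          exact HA h _ _ hh hh1 (H h m' hh hh1 hm'').1 (hB h m' hh hh1 hm'') (ih hm'') (Or.inl hk)
      exact (h2 m hm y).trans (gron (a := fun m' => (fun b => b + dl h * A * (1 + b))^[m'] ((n : ℝ) ^ j * M₀ ^ 2))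
        hδ hA (by simp only [Function.iterate_zero, id]; positivity) m hm
        (fun m' _ => (Function.iterate_succ_apply' _ _ _).le) m le_rfl)
  have h2 : ∀ j, ∃ B : ℝ, ∀ (h : ℝ) (m : ℕ), 0 < h → h ≤ 1 → (m : ℝ) * dl h ≤ T →
      2 ≤ j → Bd j B ((step h φ)^[m] u₀) := by
    intro j
    rcases le_or_gt j 2 with hj | hj
    · refine ⟨2 * C, fun h m hh hh1 hm hj' => ?_⟩
      obtain rfl := hj.antisymm hj'
      obtain ⟨a1, a2, a3⟩ := (H h m hh hh1 hm).1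
      exact bd_two hc2.le hC2.le a1.1 a2 a3
    · obtain ⟨B, hB⟩ := h1 (j + 5) (by omega)
      exact ⟨B, fun h m hh hh1 hm _ => hB h m hh hh1 hm j hj (by omega)⟩
  choose B hB using h2
  obtain ⟨A, hA, HA⟩ := step_zero hc2 hC2 φ
  refine ⟨B, (1 + |u₀ 0|) * Real.exp (A * T), fun h m hh hh1 hm => ⟨(H h m hh hh1 hm).1, (H h m hh hh1 hm).2.1,
    fun j => hB j h m hh hh1 hm, ?_⟩⟩
  have hδ := (dl_pos hh).le
  refine gron (a := fun m => |(step h φ)^[m] u₀ 0|) hδ hA (abs_nonneg _) m hm (fun m' hm' => ?_) m le_rfl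
  simp only [Function.iterate_succ_apply']
  exact HA h _ hh hh1 (H h m' hh hh1 (stIter_pred hδ hm hm'.le)).1

end Crest.Agent.R238.St
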