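import Crest.Agent.R238.StQ2

/-! # R238/St: jointly continuous jets (skeleton helper76)
Use a graded version (continuity for lists of length `≤ k`), induction on `k` generalizing the functions,
`L = L' ++ [i]`, `pdL_append`, `pd_mul`, `pd_exp`, `pdL_add`. -/

set_option autoImplicit false
open MeasureTheory Filter Topology

namespace Crest.Agent.R238.St

variable {n : ℕ}

/-- a class of two-variable functions, smooth in `x`, with jets jointly continuous -/
def JC (Φ : E n → E n → ℝ) : Prop := (∀ z, Sm (fun y => Φ y z)) ∧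
  ∀ L : List (Fin n), Continuous (fun p : E n × E n => pdL L (fun y => Φ y p.2) p.1)

theorem stjc_snoc (L : List (Fin n)) (i : Fin n) (f : E n → ℝ) : pdL (L ++ [i]) f = pdL L (pd i f) :=
  pdL_append L [i] f

theorem stjc_pd {Φ : E n → E n → ℝ} (h : JC Φ) (i : Fin n) : JC (fun y z => pd i (fun w => Φ w z) y) :=
  ⟨fun z => sm_pd (h.1 z) i, fun L => by simpa only [stjc_snoc] using h.2 (L ++ [i])⟩

theorem stjc_add {Φ Ψ : E n → E n → ℝ} (h1 : JC Φ) (h2 : JC Ψ) : JC (fun y z => Φ y z + Ψ y z) := by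
  refine ⟨fun z => (h1.1 z).add (h2.1 z), fun L => ?_⟩
  simp only [pdL_add (h1.1 _) (h2.1 _)]
  exact (h1.2 L).add (h2.2 L)

theorem JC.mul {Φ Ψ : E n → E n → ℝ} (h1 : JC Φ) (h2 : JC Ψ) : JC (fun y z => Φ y z * Ψ y z) := by
  refine ⟨fun z => (h1.1 z).mul (h2.1 z), fun L => ?_⟩
  induction L using List.reverseRecOn generalizing Φ Ψ with
  | nil => exact (h1.2 []).mul (h2.2 [])
  | append_singleton L i ih =>
    have e : (fun p : E n × E n => pdL (L ++ [i]) (fun y => Φ y p.2 * Ψ y p.2) p.1) = fun p =>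
        pdL L (fun y => Φ y p.2 * pd i (fun w => Ψ w p.2) y) p.1 +
          pdL L (fun y => pd i (fun w => Φ w p.2) y * Ψ y p.2) p.1 := by
      funext p
      rw [stjc_snoc, pd_mul (h1.1 _) (h2.1 _),
        pdL_add ((h1.1 _).mul (sm_pd (h2.1 _) i)) ((sm_pd (h1.1 _) i).mul (h2.1 _))]
    rw [e]
    exact (ih h1 (stjc_pd h2 i)).add (ih (stjc_pd h1 i) h2)

theorem JC.exp {Φ : E n → E n → ℝ} (h1 : JC Φ) : JC (fun y z => Real.exp (Φ y z)) := by
  have key : ∀ (L : List (Fin n)) (Ψ : E n → E n → ℝ), JC Ψ →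
      Continuous fun p : E n × E n => pdL L (fun y => Real.exp (Φ y p.2) * Ψ y p.2) p.1 := by
    intro L
    induction L using List.reverseRecOn with
    | nil => exact fun Ψ h2 => (h1.2 []).rexp.mul (h2.2 [])
    | append_singleton L i ih =>
      intro Ψ h2
      have e : (fun p : E n × E n => pdL (L ++ [i]) (fun y => Real.exp (Φ y p.2) * Ψ y p.2) p.1) = fun p =>
          pdL L (fun y => Real.exp (Φ y p.2) *
            (pd i (fun w => Ψ w p.2) y + pd i (fun w => Φ w p.2) y * Ψ y p.2)) p.1 := by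
        funext p
        rw [stjc_snoc, pd_mul (h1.1 _).exp (h2.1 _), pd_exp (h1.1 _)]
        congr 1
        funext y
        ring
      rw [e]
      exact ih _ (stjc_add (stjc_pd h2 i) ((stjc_pd h1 i).mul h2))
  have h0 : JC (fun _ _ : E n => (1 : ℝ)) := by
    refine ⟨fun _ => contDiff_const, fun L => ?_⟩
    exact (sm_pdL (f := fun _ : E n => (1 : ℝ)) contDiff_const L).continuous.comp continuous_fst
  exact ⟨fun z => (h1.1 z).exp, fun L => by simpa only [mul_one] using key L _ h0⟩

theorem JC.neg {Φ : E n → E n → ℝ} (h1 : JC Φ) : JC (fun y z => -Φ y z) := by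
  refine ⟨fun z => (h1.1 z).neg, fun L => ?_⟩
  have e : (fun p : E n × E n => pdL L (fun y => -Φ y p.2) p.1) = fun p => -pdL L (fun y => Φ y p.2) p.1 := by
    funext p
    have := congrFun (pdL_const_mul (h1.1 p.2) (-1) L) p.1
    simpa only [neg_mul, one_mul] using this
  rw [e]
  exact (h1.2 L).neg

theorem JC.left {f : E n → ℝ} (hf : Sm f) : JC (fun y _ => f y) := by
  exact ⟨fun _ => hf, fun L => (sm_pdL hf L).continuous.comp continuous_fst⟩

theorem JC_qq {v : E n → ℝ} (hv : Sm v) {h : ℝ} (hh : 0 < h) : JC (qq h v) := by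
  refine ⟨sm_qq hv hh, fun L => ?_⟩
  simp only [pdL_qq hv hh]
  exact continuous_qq (sm_pdL hv L).continuous h

theorem cont_jet {Φ : E n → E n → ℝ} (h : JC Φ) (L : List (Fin n)) (x : E n) :
    Continuous (fun z => pdL L (fun y => Φ y z) x) := by
  exact (h.2 L).comp (Continuous.prodMk_right x)

end Crest.Agent.R238.St
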