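import Crest.Agent.R238.StBas

/-! # R238/St: Leibniz bounds (skeleton helper76)
`lb`: reverse induction on `L` (`List.reverseRecOn`, or induction on the length), generalizing `f g`:
`pdL (L ++ [i]) (f g) = pdL L (f * pd i g) + pdL L (pd i f * g)`, `mx_pd_le`.
`rec_exp`: `pd i (exp ∘ l) = exp ∘ l * pd i l` and `lb`.
`ar`: pure arithmetic, strong induction with `ε j ≤ B ^ j * ω j` (`+ Y` for `j = p`),
`B = A * (1 + 2 ^ p * p)`. -/

set_option autoImplicit false
open MeasureTheory Filter Topology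

namespace Crest.Agent.R238.St

variable {n : ℕ}

theorem lb {f g : E n → ℝ} (hf : Sm f) (hg : Sm g) (L : List (Fin n)) (x : E n) :
    |pdL L (fun y => f y * g y) x - f x * pdL L g x| ≤
      2 ^ L.length * ∑ j ∈ Finset.range L.length, mx (j + 1) f x * mx (L.length - 1 - j) g x := by
  induction L using List.reverseRecOn generalizing f g with
  | nil => simp [pdL_nil]
  | append_singleton L i ih =>
    have hfi := sm_pd hf i
    have hgi := sm_pd hg i
    have e1 : pdL (L ++ [i]) (fun y => f y * g y) x =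
        pdL L (fun y => f y * pd i g y) x + pdL L (fun y => pd i f y * g y) x := by
      rw [pdL_append, pdL_cons, pdL_nil, pd_mul hf hg, pdL_add (hf.mul hgi) (hfi.mul hg)]
    have e2 : pdL (L ++ [i]) g x = pdL L (pd i g) x := by
      rw [pdL_append, pdL_cons, pdL_nil]
    have h1 := ih hf hgi
    have h2 := ih hfi hg
    simp only [List.length_append, List.length_singleton, Nat.add_sub_cancel]
    set m := L.length with hm
    set S := ∑ j ∈ Finset.range (m + 1), mx (j + 1) f x * mx (m - j) g x with hS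
    have b1 : ∑ j ∈ Finset.range m, mx (j + 1) f x * mx (m - 1 - j) (pd i g) x ≤ S := by
      rw [hS, Finset.sum_range_succ]
      refine le_add_of_le_of_nonneg (Finset.sum_le_sum fun j hj => ?_)
        (mul_nonneg (mx_nonneg _ _ _) (mx_nonneg _ _ _))
      have hj' := Finset.mem_range.1 hj
      have := mx_pd_le (m - 1 - j) i g x
      rw [show m - 1 - j + 1 = m - j by omega] at this
      exact mul_le_mul_of_nonneg_left this (mx_nonneg _ _ _)
    have b2 : ∑ j ∈ Finset.range m, mx (j + 1) (pd i f) x * mx (m - 1 - j) g x +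
        mx 1 f x * mx m g x ≤ S := by
      rw [hS, Finset.sum_range_succ']
      refine add_le_add (Finset.sum_le_sum fun j _ => ?_) (by simp)
      rw [show m - (j + 1) = m - 1 - j by omega]
      exact mul_le_mul_of_nonneg_right (mx_pd_le _ _ _ _) (mx_nonneg _ _ _)
    have b3 : |pd i f x * pdL L g x| ≤ mx 1 f x * mx m g x := by
      rw [abs_mul]
      exact mul_le_mul (le_mx (L := [i]) rfl f x) (le_mx rfl g x) (abs_nonneg _) (mx_nonneg _ _ _)
    have b4 : mx 1 f x * mx m g x ≤ 2 ^ m * (mx 1 f x * mx m g x) :=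
      le_mul_of_one_le_left (mul_nonneg (mx_nonneg _ _ _) (mx_nonneg _ _ _)) (one_le_pow₀ (by norm_num))
    have hp : (0 : ℝ) ≤ 2 ^ m := by positivity
    have c1 := mul_le_mul_of_nonneg_left b1 hp
    have c2 := mul_le_mul_of_nonneg_left b2 hp
    rw [e1, e2, pow_succ]
    have t : pdL L (fun y => f y * pd i g y) x + pdL L (fun y => pd i f y * g y) x - f x * pdL L (pd i g) x =
        (pdL L (fun y => f y * pd i g y) x - f x * pdL L (pd i g) x) +
          (pdL L (fun y => pd i f y * g y) x - pd i f x * pdL L g x) + pd i f x * pdL L g x := by ring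
    rw [t]
    refine ((abs_add_le _ _).trans (add_le_add (abs_add_le _ _) le_rfl)).trans ?_
    rw [mul_add] at c2
    linarith

theorem rec_exp {l : E n → ℝ} (hl : Sm l) {j : ℕ} (L : List (Fin n)) (hL : L.length = j + 1)
    (x : E n) :
    |pdL L (fun y => Real.exp (l y)) x - Real.exp (l x) * pdL L l x| ≤
      2 ^ j * ∑ i ∈ Finset.range j, mx (i + 1) (fun y => Real.exp (l y)) x * mx (j - i) l x := by
  obtain ⟨L', i, rfl⟩ : ∃ L' i, L = L' ++ [i] := by
    rcases List.eq_nil_or_concat L with h | ⟨L', i, h⟩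
    · simp [h] at hL
    · exact ⟨L', i, by simpa using h⟩
  have hj : L'.length = j := by simpa using hL
  have he : Sm fun y => Real.exp (l y) := hl.exp
  rw [pdL_append, pdL_append, pdL_cons, pdL_nil, pdL_cons, pdL_nil, pd_exp hl]
  refine (lb he (sm_pd hl i) L' x).trans ?_
  rw [hj]
  refine mul_le_mul_of_nonneg_left (Finset.sum_le_sum fun k hk => ?_) (by positivity)
  have hk' := Finset.mem_range.1 hk
  have := mx_pd_le (j - 1 - k) i l x
  rw [show j - 1 - k + 1 = j - k by omega] at this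
  exact mul_le_mul_of_nonneg_left this (mx_nonneg _ _ _)

theorem ar (p : ℕ) (hp : 2 ≤ p) (A : ℝ) (hA : 1 ≤ A) : ∃ A' : ℝ, A ≤ A' ∧
    ∀ (ω α ε : ℕ → ℝ) (Y : ℝ), 0 ≤ Y → (∀ j, 0 ≤ ω j) → (∀ j, 0 ≤ α j) → (∀ j, 0 ≤ ε j) →
      (∀ i j, 1 ≤ i → 1 ≤ j → i + j ≤ p + 1 → ω i * ω j ≤ ω (i + j)) →
      (∀ j, 1 ≤ j → j < p → α j ≤ A * ω j) → α p ≤ A * ω p + Y →
      (∀ j, j < p → ε (j + 1) ≤ α (j + 1) + 2 ^ j * ∑ i ∈ Finset.range j, ε (i + 1) * α (j - i)) →
      (∀ j, 1 ≤ j → j < p → ε j ≤ A' * ω j) ∧ ε p ≤ A' * ω p + Y ∧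
        2 ^ p * ∑ i ∈ Finset.range p, ε (i + 1) * α (p - i) ≤ A' * (ω (p + 1) + ω 1 * Y) := by
  set B : ℝ := A * (1 + 2 ^ p * p) with hB
  have hp1 : (1 : ℝ) ≤ p := by exact_mod_cast (by omega : 1 ≤ p)
  have h2p : (1 : ℝ) ≤ 2 ^ p := one_le_pow₀ (by norm_num)
  have hK : (1 : ℝ) ≤ 2 ^ p * p := one_le_mul_of_one_le_of_one_le h2p hp1
  have hA0 : 0 ≤ A := by linarith
  have hB1 : 1 ≤ B := one_le_mul_of_one_le_of_one_le hA (by linarith)
  have hBp : 1 ≤ B ^ p := one_le_pow₀ hB1
  have hAB : 1 ≤ A * B ^ p := one_le_mul_of_one_le_of_one_le hA hBp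
  have hA' : B ^ p ≤ 2 ^ p * p * (A * B ^ p) :=
    (le_mul_of_one_le_left (by linarith) hA).trans (le_mul_of_one_le_left (by linarith) hK)
  refine ⟨2 ^ p * p * (A * B ^ p),
    (le_mul_of_one_le_right hA0 hBp).trans (le_mul_of_one_le_left (by linarith) hK), ?_⟩
  intro ω α ε Y hY hω hα hε hωω hαj hαp hrec
  have step : ∀ j, j < p → (∀ i, 1 ≤ i → i ≤ j → ε i ≤ B ^ i * ω i) →
      ε (j + 1) + A * ω (j + 1) ≤ α (j + 1) + B ^ (j + 1) * ω (j + 1) := by
    intro j hj ih
    have hBj : 1 ≤ B ^ j := one_le_pow₀ hB1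
    have s1 : ∑ i ∈ Finset.range j, ε (i + 1) * α (j - i) ≤ p * (A * B ^ j * ω (j + 1)) := by
      have : ∑ i ∈ Finset.range j, ε (i + 1) * α (j - i) ≤
          (Finset.range j).card • (A * B ^ j * ω (j + 1)) := by
        refine Finset.sum_le_card_nsmul _ _ _ fun i hi => ?_
        have hi' := Finset.mem_range.1 hi
        have a1 : ε (i + 1) ≤ B ^ j * ω (i + 1) := (ih (i + 1) (by omega) (by omega)).trans
          (mul_le_mul_of_nonneg_right (pow_le_pow_right₀ hB1 (by omega)) (hω _))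
        have a2 := hαj (j - i) (by omega) (by omega)
        have a3 := hωω (i + 1) (j - i) (by omega) (by omega) (by omega)
        rw [show i + 1 + (j - i) = j + 1 by omega] at a3
        calc ε (i + 1) * α (j - i) ≤ (B ^ j * ω (i + 1)) * (A * ω (j - i)) :=
              mul_le_mul a1 a2 (hα _) (mul_nonneg (by linarith) (hω _))
          _ = A * B ^ j * (ω (i + 1) * ω (j - i)) := by ring
          _ ≤ _ := mul_le_mul_of_nonneg_left a3 (by positivity)
      rw [Finset.card_range, nsmul_eq_mul] at this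
      refine this.trans (mul_le_mul_of_nonneg_right (by exact_mod_cast hj.le) ?_)
      exact mul_nonneg (by positivity) (hω _)
    have s2 : 2 ^ j * ∑ i ∈ Finset.range j, ε (i + 1) * α (j - i) ≤
        2 ^ p * (p * (A * B ^ j * ω (j + 1))) :=
      mul_le_mul (pow_le_pow_right₀ (by norm_num) hj.le) s1
        (Finset.sum_nonneg fun i _ => mul_nonneg (hε _) (hα _)) (by positivity)
    have s3 : A * ω (j + 1) ≤ A * B ^ j * ω (j + 1) :=
      mul_le_mul_of_nonneg_right (le_mul_of_one_le_right hA0 hBj) (hω _)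
    have s4 : B ^ (j + 1) * ω (j + 1) =
        A * B ^ j * ω (j + 1) + 2 ^ p * (p * (A * B ^ j * ω (j + 1))) := by
      rw [pow_succ, hB]; ring
    have := hrec j hj
    linarith
  have main : ∀ j, j < p → ∀ i, 1 ≤ i → i ≤ j → ε i ≤ B ^ i * ω i := by
    intro j
    induction j with
    | zero => intro _ i h1 h2; omega
    | succ j ih =>
      intro hj i h1 h2
      rcases Nat.lt_or_ge i (j + 1) with h | h
      · exact ih (by omega) i h1 (by omega)
      · obtain rfl : i = j + 1 := by omega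
        have := step j (by omega) (ih (by omega))
        have := hαj (j + 1) h1 hj
        linarith
  have m1 : ∀ j, 1 ≤ j → j < p → ε j ≤ B ^ p * ω j := fun j h1 h2 =>
    (main j h2 j h1 le_rfl).trans (mul_le_mul_of_nonneg_right (pow_le_pow_right₀ hB1 h2.le) (hω _))
  have m2 : ε p ≤ B ^ p * ω p + Y := by
    obtain ⟨q, rfl⟩ : ∃ q, p = q + 1 := ⟨p - 1, by omega⟩
    have := step q (by omega) (main q (by omega))
    linarith
  refine ⟨fun j h1 h2 => (m1 j h1 h2).trans (mul_le_mul_of_nonneg_right hA' (hω _)),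
    m2.trans (add_le_add (mul_le_mul_of_nonneg_right hA' (hω _)) le_rfl), ?_⟩
  have hωY : 0 ≤ ω 1 * Y := mul_nonneg (hω _) hY
  have : ∑ i ∈ Finset.range p, ε (i + 1) * α (p - i) ≤
      (Finset.range p).card • (A * B ^ p * (ω (p + 1) + ω 1 * Y)) := by
    refine Finset.sum_le_card_nsmul _ _ _ fun i hi => ?_
    have hi' := Finset.mem_range.1 hi
    have a3 := hωω (i + 1) (p - i) (by omega) (by omega) (by omega)
    rw [show i + 1 + (p - i) = p + 1 by omega] at a3
    have a4 : A * B ^ p * (ω (i + 1) * ω (p - i)) ≤ A * B ^ p * ω (p + 1) :=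
      mul_le_mul_of_nonneg_left a3 (by linarith)
    rcases Nat.eq_zero_or_pos i with rfl | h0
    · have a1 := m1 1 le_rfl (by omega)
      have a5 : B ^ p * (ω 1 * Y) ≤ A * B ^ p * (ω 1 * Y) :=
        mul_le_mul_of_nonneg_right (le_mul_of_one_le_left (by linarith) hA) hωY
      simp only [zero_add, Nat.sub_zero] at a4 ⊢
      calc ε 1 * α p ≤ (B ^ p * ω 1) * (A * ω p + Y) :=
            mul_le_mul a1 hαp (hα _) (mul_nonneg (by linarith) (hω _))
        _ = A * B ^ p * (ω 1 * ω p) + B ^ p * (ω 1 * Y) := by ring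
        _ ≤ _ := by rw [mul_add]; linarith
    · have a2 := hαj (p - i) (by omega) (by omega)
      rcases Nat.lt_or_ge (i + 1) p with h | h
      · have a1 := m1 (i + 1) (by omega) h
        calc ε (i + 1) * α (p - i) ≤ (B ^ p * ω (i + 1)) * (A * ω (p - i)) :=
              mul_le_mul a1 a2 (hα _) (mul_nonneg (by linarith) (hω _))
          _ = A * B ^ p * (ω (i + 1) * ω (p - i)) := by ring
          _ ≤ _ := a4.trans (mul_le_mul_of_nonneg_left (by linarith) (by linarith))
      · have e1 : i + 1 = p := by omega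
        have e2 : p - i = 1 := by omega
        rw [e1, e2] at a4 ⊢
        rw [e2] at a2
        have a5 : A * (ω 1 * Y) ≤ A * B ^ p * (ω 1 * Y) :=
          mul_le_mul_of_nonneg_right (le_mul_of_one_le_right hA0 hBp) hωY
        calc ε p * α 1 ≤ (B ^ p * ω p + Y) * (A * ω 1) :=
              mul_le_mul m2 a2 (hα _) (add_nonneg (mul_nonneg (by linarith) (hω _)) hY)
          _ = A * B ^ p * (ω p * ω 1) + A * (ω 1 * Y) := by ring
          _ ≤ _ := by rw [mul_add]; linarith
  rw [Finset.card_range, nsmul_eq_mul] at this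
  calc _ ≤ 2 ^ p * (p * (A * B ^ p * (ω (p + 1) + ω 1 * Y))) :=
        mul_le_mul_of_nonneg_left this (by positivity)
    _ = _ := by ring

end Crest.Agent.R238.St
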