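import Crest.Agent.R238.StGau
import Crest.Agent.R238.StLeib
import Crest.Agent.R238.StJC

/-! # R238/St: the jets of `FF` (helper76) -/

set_option autoImplicit false
open MeasureTheory Filter Topology

namespace Crest.Agent.R238.St

variable {n : ℕ}

theorem cb_unif {j : ℕ} {f : E n → ℝ} (h : Cb j f) (k : ℕ) :
    ∃ K, 0 ≤ K ∧ ∀ i, j ≤ i → i ≤ k → Bd i K f := by
  induction k with
  | zero =>
    by_cases hj : j ≤ 0
    · obtain ⟨M, hM, hb⟩ := cb_bd h hj
      exact ⟨M, hM, fun i _ hi => by rwa [Nat.le_zero.1 hi]⟩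
    · exact ⟨0, le_rfl, fun i h1 h2 => absurd (h1.trans h2) hj⟩
  | succ k ih =>
    obtain ⟨K, hK, hb⟩ := ih
    by_cases hj : j ≤ k + 1
    · obtain ⟨M, hM, hb'⟩ := cb_bd h hj
      refine ⟨max K M, le_max_of_le_left hK, fun i h1 h2 => ?_⟩
      rcases Nat.lt_or_ge i (k + 1) with h3 | h3
      · exact (hb i h1 (by omega)).mono (le_max_left _ _)
      · have : i = k + 1 := by omega
        subst this
        exact hb'.mono (le_max_right _ _)
    · exact ⟨0, le_rfl, fun i h1 h2 => absurd (h1.trans h2) hj⟩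

theorem rec_eps {l : E n → ℝ} (hl : Sm l) (x : E n) (j : ℕ) :
    (∀ L : List (Fin n), L.length = j + 1 →
      |pdL L (fun y => Real.exp (l y)) x / Real.exp (l x) - pdL L l x| ≤
        2 ^ j * ∑ i ∈ Finset.range j,
          mx (i + 1) (fun y => Real.exp (l y)) x / Real.exp (l x) * mx (j - i) l x) ∧
    mx (j + 1) (fun y => Real.exp (l y)) x / Real.exp (l x) ≤ mx (j + 1) l x +
        2 ^ j * ∑ i ∈ Finset.range j,
          mx (i + 1) (fun y => Real.exp (l y)) x / Real.exp (l x) * mx (j - i) l x ∧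
    mx (j + 1) l x ≤ mx (j + 1) (fun y => Real.exp (l y)) x / Real.exp (l x) +
        2 ^ j * ∑ i ∈ Finset.range j,
          mx (i + 1) (fun y => Real.exp (l y)) x / Real.exp (l x) * mx (j - i) l x := by
  have he : 0 < Real.exp (l x) := Real.exp_pos _
  set R := 2 ^ j * ∑ i ∈ Finset.range j,
    mx (i + 1) (fun y => Real.exp (l y)) x / Real.exp (l x) * mx (j - i) l x with hR
  have hR0 : 0 ≤ R := mul_nonneg (by positivity) (Finset.sum_nonneg fun i _ =>
    mul_nonneg (div_nonneg (mx_nonneg _ _ _) he.le) (mx_nonneg _ _ _))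
  have h1 : ∀ L : List (Fin n), L.length = j + 1 →
      |pdL L (fun y => Real.exp (l y)) x / Real.exp (l x) - pdL L l x| ≤ R := by
    intro L hL
    have h := rec_exp hl L hL x
    have e1 : pdL L (fun y => Real.exp (l y)) x / Real.exp (l x) - pdL L l x =
        (pdL L (fun y => Real.exp (l y)) x - Real.exp (l x) * pdL L l x) / Real.exp (l x) := by
      field_simp
    have e2 : R = (2 ^ j * ∑ i ∈ Finset.range j,
        mx (i + 1) (fun y => Real.exp (l y)) x * mx (j - i) l x) / Real.exp (l x) := by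
      rw [hR, mul_div_assoc, Finset.sum_div]
      congr 1
      exact Finset.sum_congr rfl fun i _ => by ring
    rw [e1, e2, abs_div, abs_of_pos he]
    exact div_le_div_of_nonneg_right h he.le
  refine ⟨h1, ?_, ?_⟩
  · rw [div_le_iff₀ he]
    refine mx_le (mul_nonneg (add_nonneg (mx_nonneg _ _ _) hR0) he.le) fun L hL => ?_
    have h2 := h1 L hL
    have h3 := le_mx hL l x
    rw [← div_le_iff₀ he, ← abs_of_pos he, ← abs_div]
    have := abs_sub_abs_le_abs_sub (pdL L (fun y => Real.exp (l y)) x / Real.exp (l x)) (pdL L l x)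
    linarith
  · refine mx_le (add_nonneg (div_nonneg (mx_nonneg _ _ _) he.le) hR0) fun L hL => ?_
    have h2 := h1 L hL
    have h3 : |pdL L (fun y => Real.exp (l y)) x / Real.exp (l x)| ≤
        mx (j + 1) (fun y => Real.exp (l y)) x / Real.exp (l x) := by
      rw [abs_div, abs_of_pos he]
      exact div_le_div_of_nonneg_right (le_mx hL _ x) he.le
    have := abs_sub_abs_le_abs_sub (pdL L l x) (pdL L (fun y => Real.exp (l y)) x / Real.exp (l x))
    rw [abs_sub_comm] at h2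
    linarith

/-- level weights -/
noncomputable def lev (k : ℕ) (m : ℝ) (j : ℕ) : ℝ :=
  if j + 3 ≤ k then 1 else if 5 ≤ k then 1 + m else 1

theorem one_le_lev (k : ℕ) {m : ℝ} (hm : 0 ≤ m) (j : ℕ) : 1 ≤ lev k m j := by
  unfold lev; split_ifs <;> linarith

theorem lev_le (k : ℕ) {m : ℝ} (hm : 0 ≤ m) (j : ℕ) : lev k m j ≤ 1 + m := by
  unfold lev; split_ifs <;> linarith

theorem lev_one (k : ℕ) (m : ℝ) : lev k m 1 = 1 := by
  unfold lev; split_ifs <;> first | rfl | omega

theorem lev_low {k j : ℕ} (m : ℝ) (h : j + 3 ≤ k) : lev k m j = 1 := by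
  unfold lev; rw [if_pos h]

theorem lev_mul (k : ℕ) {m : ℝ} (hm : 0 ≤ m) (i j : ℕ) (hi : 1 ≤ i) (hj : 1 ≤ j)
    (hij : i + j ≤ k) : lev k m i * lev k m j ≤ lev k m (i + j) := by
  unfold lev
  split_ifs <;> first | omega | nlinarith

theorem one_le_W (z : E n) : 1 ≤ (1 + ell z) ^ 2 := by
  have := ell_nonneg z; nlinarith

theorem pdL_neg_qq {u : E n → ℝ} (hu : Sm u) {h : ℝ} (hh : 0 < h) (z : E n) (L : List (Fin n))
    (x : E n) : pdL L (fun y => -qq h u y z) x = -qq h (pdL L u) x z := by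
  have e : (fun y => -qq h u y z) = fun y => (-1 : ℝ) * qq h u y z := by funext y; ring
  rw [e, pdL_const_mul (sm_qq hu hh z), pdL_qq hu hh]; ring

theorem expq_jets (n k : ℕ) (hk : 3 ≤ k) (K : ℝ) : ∃ A : ℝ, 1 ≤ A ∧
    ∀ (h : ℝ) (u : E n → ℝ) (m : ℝ), 0 < h → Sm u → 0 ≤ m →
      (∀ j, 3 ≤ j → j < k → Bd j K u) → Bd k m u → (5 ≤ k ∨ m ≤ K) → ∀ x z : E n,
      (∀ L : List (Fin n), 1 ≤ L.length → L.length + 1 < k →
        |pdL L (fun y => Real.exp (-qq h u y z)) x| ≤ Real.exp (-qq h u x z) *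
          (A * (((1 + ell z) ^ 2) ^ L.length * lev k m L.length))) ∧
      (∀ L : List (Fin n), L.length + 1 = k →
        |pdL L (fun y => Real.exp (-qq h u y z)) x| ≤ Real.exp (-qq h u x z) *
          (A * (((1 + ell z) ^ 2) ^ L.length * lev k m L.length) + YY h k u x z)) ∧
      (∀ L : List (Fin n), L.length = k →
        |pdL L (fun y => Real.exp (-qq h u y z)) x +
          Real.exp (-qq h u x z) * qq h (pdL L u) x z| ≤ Real.exp (-qq h u x z) *
          (A * (((1 + ell z) ^ 2) ^ k * lev k m k + (1 + ell z) ^ 2 * YY h k u x z))) := by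
  obtain ⟨p, rfl⟩ : ∃ p, k = p + 1 := ⟨k - 1, by omega⟩
  have hK1 : 1 ≤ max K 0 + 1 := by have := le_max_right K 0; linarith
  obtain ⟨A, hA, H⟩ := ar p (by omega) (max K 0 + 1) hK1
  refine ⟨A, hK1.trans hA, fun h u m hh hu hm hb hbk hor x z => ?_⟩
  have hl : Sm (fun y => -qq h u y z) := (sm_qq hu hh z).neg
  have he : 0 < Real.exp (-qq h u x z) := Real.exp_pos _
  have hW := one_le_W z
  have hY := YY_nonneg hh (p + 1) u x z
  have hα : ∀ j, 1 ≤ j → j < p → mx j (fun y => -qq h u y z) x ≤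
      (max K 0 + 1) * (((1 + ell z) ^ 2) ^ j * lev (p + 1) m j) := by
    intro j hj1 hjp
    have hl1 := one_le_lev (p + 1) hm j
    have hWj : (1 + ell z) ^ 2 ≤ ((1 + ell z) ^ 2) ^ j := le_self_pow₀ hW (by omega)
    have hb2 : Bd (j + 2) ((max K 0 + 1) * lev (p + 1) m j) u := by
      rcases Nat.lt_or_ge (j + 2) (p + 1) with h1 | h1
      · refine (hb _ (by omega) h1).mono ?_
        have := le_max_left K 0
        nlinarith
      · have e : j + 2 = p + 1 := by omega
        rw [e]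
        refine hbk.mono ?_
        unfold lev
        rw [if_neg (by omega)]
        have h2 := le_max_left K 0
        have h3 := le_max_right K 0
        split_ifs with h5
        · nlinarith
        · rcases hor with h6 | h6
          · exact absurd h6 h5
          · linarith
    refine mx_le (by positivity) fun L hL => ?_
    rw [pdL_neg_qq hu hh, abs_neg]
    have h2 : Bd 2 ((max K 0 + 1) * lev (p + 1) m j) (pdL L u) :=
      bd_pdL L (by rw [hL, add_comm]; exact hb2)
    refine (abs_qq_le (sm_pdL hu L) hh h2 x z).trans ?_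
    have h3 := ell_nonneg z
    have h4 : ell z ^ 2 / 2 ≤ ((1 + ell z) ^ 2) ^ j := by nlinarith
    have h5 : 0 ≤ (max K 0 + 1) * lev (p + 1) m j := by positivity
    calc (max K 0 + 1) * lev (p + 1) m j * ell z ^ 2 / 2
        = (max K 0 + 1) * lev (p + 1) m j * (ell z ^ 2 / 2) := by ring
      _ ≤ (max K 0 + 1) * lev (p + 1) m j * ((1 + ell z) ^ 2) ^ j :=
        mul_le_mul_of_nonneg_left h4 h5
      _ = _ := by ring
  have hω0 : ∀ j, 0 ≤ ((1 + ell z) ^ 2) ^ j * lev (p + 1) m j := fun j =>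
    mul_nonneg (by positivity) (zero_le_one.trans (one_le_lev _ hm j))
  have hαp : mx p (fun y => -qq h u y z) x ≤
      (max K 0 + 1) * (((1 + ell z) ^ 2) ^ p * lev (p + 1) m p) + YY h (p + 1) u x z := by
    have : mx p (fun y => -qq h u y z) x ≤ YY h (p + 1) u x z := by
      refine mx_le hY fun L hL => ?_
      rw [pdL_neg_qq hu hh, abs_neg]
      exact qq_le_YY hu hh L (by rw [hL]) x z
    have h2 := mul_nonneg (zero_le_one.trans hK1) (hω0 p)
    linarith
  obtain ⟨h1, h2, h3⟩ := H (fun j => ((1 + ell z) ^ 2) ^ j * lev (p + 1) m j)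
    (fun j => mx j (fun y => -qq h u y z) x)
    (fun j => mx j (fun y => Real.exp (-qq h u y z)) x / Real.exp (-qq h u x z))
    (YY h (p + 1) u x z) hY hω0 (fun j => mx_nonneg _ _ _)
    (fun j => div_nonneg (mx_nonneg _ _ _) he.le)
    (fun i j hi hj hij => by
      have := lev_mul (p + 1) hm i j hi hj hij
      calc _ = ((1 + ell z) ^ 2) ^ (i + j) * (lev (p + 1) m i * lev (p + 1) m j) := by
            rw [pow_add]; ring
        _ ≤ _ := mul_le_mul_of_nonneg_left this (by positivity))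
    hα hαp (fun j _ => (rec_eps hl x j).2.1)
  refine ⟨fun L hL1 hL2 => ?_, fun L hL => ?_, fun L hL => ?_⟩
  · have h4 := h1 L.length hL1 (by omega)
    rw [div_le_iff₀ he] at h4
    exact (le_mx rfl _ x).trans (h4.trans_eq (mul_comm _ _))
  · have e : L.length = p := by omega
    rw [div_le_iff₀ he] at h2
    rw [e]
    exact (le_mx e _ x).trans (h2.trans_eq (mul_comm _ _))
  · have h4 := ((rec_eps hl x p).1 L hL).trans h3
    rw [pdL_neg_qq hu hh, lev_one, pow_one, mul_one] at h4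
    have e : pdL L (fun y => Real.exp (-qq h u y z)) x +
        Real.exp (-qq h u x z) * qq h (pdL L u) x z = Real.exp (-qq h u x z) *
        (pdL L (fun y => Real.exp (-qq h u y z)) x / Real.exp (-qq h u x z) -
          -qq h (pdL L u) x z) := by field_simp; ring
    rw [e, abs_mul, abs_of_pos he]
    exact mul_le_mul_of_nonneg_left h4 he.le

theorem JC_expq {u : E n → ℝ} (hu : Sm u) {h : ℝ} (hh : 0 < h) :
    JC (fun y z => Real.exp (-qq h u y z)) := (JC_qq hu hh).neg.exp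

theorem expq_dom {c C : ℝ} {u : E n → ℝ} {h : ℝ} (hu : Good c C u) (hh : 0 < h)
    (L : List (Fin n)) : ∃ A : ℝ, 0 ≤ A ∧ ∀ x z : E n,
      |pdL L (fun y => Real.exp (-qq h u y z)) x| ≤
        A * ((1 + ell z) ^ (2 * L.length) * Real.exp (-(c * ‖z‖ ^ 2 / 2))) := by
  have hq : ∀ x z : E n, Real.exp (-qq h u x z) ≤ Real.exp (-(c * ‖z‖ ^ 2 / 2)) := fun x z =>
    Real.exp_le_exp.2 (neg_le_neg (qq_ge hu hh x z).1)
  rcases Nat.eq_zero_or_pos L.length with h0 | h0
  · rw [List.length_eq_zero_iff] at h0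
    subst h0
    refine ⟨1, zero_le_one, fun x z => ?_⟩
    simp only [pdL_nil, List.length_nil, mul_zero, pow_zero, one_mul]
    rw [abs_of_pos (Real.exp_pos _)]
    exact hq x z
  · obtain ⟨K, hK, hb⟩ := cb_unif hu.1 (L.length + 5)
    obtain ⟨A, hA, H⟩ := expq_jets n (L.length + 5) (by omega) K
    refine ⟨A, by linarith, fun x z => ?_⟩
    have h1 := (H h u K hh hu.1.1 hK (fun j h1 h2 => hb j (by omega) h2.le)
      (hb _ (by omega) le_rfl) (Or.inl (by omega)) x z).1 L h0 (by omega)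
    rw [lev_low K (by omega), mul_one, ← pow_mul] at h1
    refine h1.trans ?_
    have h2 : 0 ≤ A * (1 + ell z) ^ (2 * L.length) := by
      have := ell_nonneg z
      have : 0 ≤ A := by linarith
      positivity
    calc _ ≤ Real.exp (-(c * ‖z‖ ^ 2 / 2)) * (A * (1 + ell z) ^ (2 * L.length)) :=
          mul_le_mul_of_nonneg_right (hq x z) h2
      _ = _ := by ring

theorem integrable_expq_jet {c C : ℝ} {u : E n → ℝ} {h : ℝ} (hc : 0 < c) (hu : Good c C u)
    (hh : 0 < h) (L : List (Fin n)) (x : E n) :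
    Integrable (fun z => pdL L (fun y => Real.exp (-qq h u y z)) x) := by
  obtain ⟨A, _, H⟩ := expq_dom hu hh L
  exact Integrable.mono' ((integrable_mom (2 * L.length) hc).const_mul A)
    (cont_jet (JC_expq hu.1.1 hh) L x).aestronglyMeasurable
    (Eventually.of_forall fun z => by rw [Real.norm_eq_abs]; exact H x z)

theorem sm_ZZ {c C : ℝ} {u : E n → ℝ} {h : ℝ} (hc : 0 < c) (hu : Good c C u) (hh : 0 < h) :
    Sm (ZZ h u) ∧ ∀ (L : List (Fin n)) (x : E n), pdL L (ZZ h u) x =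
      ∫ z, pdL L (fun y => Real.exp (-qq h u y z)) x := by
  have hJ := JC_expq hu.1.1 hh
  exact par volume (fun y z => Real.exp (-qq h u y z)) (Eventually.of_forall hJ.1)
    (fun L x => (cont_jet hJ L x).aestronglyMeasurable) (fun L R => by
      obtain ⟨A, _, H⟩ := expq_dom hu hh L
      exact ⟨_, (integrable_mom (2 * L.length) hc).const_mul A,
        Eventually.of_forall fun z x _ => H x z⟩)

theorem sm_logZ {c C : ℝ} {u : E n → ℝ} {h : ℝ} (hc : 0 < c) (hC : 0 < C) (hu : Good c C u)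
    (hh : 0 < h) : Sm (fun y => Real.log (ZZ h u y)) :=
  (sm_ZZ hc hu hh).1.log fun y => (ZZ_pos hc hC hu hh y).ne'

theorem FF_eq {c C : ℝ} {u : E n → ℝ} {h : ℝ} (hc : 0 < c) (hC : 0 < C) (hu : Good c C u)
    (hh : 0 < h) : FF h u = fun y => -2 * Real.log (ZZ h u y) + 2 * Real.log (GG n 1) := by
  funext y
  unfold FF
  rw [Real.log_div (ZZ_pos hc hC hu hh y).ne' (GG_pos n one_pos).ne']
  ring

theorem sm_FF {c C : ℝ} {u : E n → ℝ} {h : ℝ} (hc : 0 < c) (hC : 0 < C) (hu : Good c C u)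
    (hh : 0 < h) : Sm (FF h u) := by
  rw [FF_eq hc hC hu hh]
  exact (contDiff_const.mul (sm_logZ hc hC hu hh)).add contDiff_const

theorem pdL_FF {c C : ℝ} {u : E n → ℝ} {h : ℝ} (hc : 0 < c) (hC : 0 < C) (hu : Good c C u)
    (hh : 0 < h) {L : List (Fin n)} (hL : L ≠ []) (x : E n) :
    pdL L (FF h u) x = -2 * pdL L (fun y => Real.log (ZZ h u y)) x := by
  rw [FF_eq hc hC hu hh, pdL_add (contDiff_const.mul (sm_logZ hc hC hu hh)) contDiff_const,
    pdL_const _ hL, pdL_const_mul (sm_logZ hc hC hu hh)]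
  simp

theorem jz (n k : ℕ) (hk : 3 ≤ k) {c C : ℝ} (hc : 0 < c) (hC : 0 < C) (K : ℝ) : ∃ A : ℝ, 0 ≤ A ∧
    ∀ (h : ℝ) (u : E n → ℝ) (m : ℝ), 0 < h → Good c C u → 0 ≤ m →
      (∀ j, 3 ≤ j → j < k → Bd j K u) → Bd k m u → (5 ≤ k ∨ m ≤ K) → ∀ x : E n,
      (∀ L : List (Fin n), 1 ≤ L.length → L.length + 3 ≤ k → |pdL L (FF h u) x| ≤ A) ∧
      (∀ L : List (Fin n), L.length = k →
        |pdL L (FF h u) x - 2 * EE h u x (qq h (pdL L u) x)| ≤
          A * (1 + m + EE h u x (fun z => (1 + ell z) ^ 2 * YY h k u x z))) := by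
  obtain ⟨A1, hA1, H1⟩ := expq_jets n k hk K
  obtain ⟨Γ, hΓ, HΓ⟩ := EE_mom n (2 * k) hc hC
  obtain ⟨p, rfl⟩ : ∃ p, k = p + 1 := ⟨k - 1, by omega⟩
  have hA1Γ : 1 ≤ A1 * Γ := by nlinarith
  obtain ⟨A2, hA2, H2⟩ := ar p (by omega) (A1 * Γ) hA1Γ
  have hA10 : 0 ≤ A1 := by linarith
  have hA1le : A1 ≤ A2 := by nlinarith
  refine ⟨4 * A2, by linarith, fun h u m hh hu hm hb hbk hor x => ?_⟩
  have hZ := ZZ_pos hc hC hu hh x
  have hl := sm_logZ hc hC hu hh
  have hexp : (fun y => Real.exp (Real.log (ZZ h u y))) = ZZ h u :=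
    funext fun y => Real.exp_log (ZZ_pos hc hC hu hh y)
  have hcb : Cb (p + 1) u := ⟨hu.1.1, fun l hl => hu.1.2 l (by omega)⟩
  have hPY : PG (YY h (p + 1) u x) := PG_YY hcb hh x
  have hPW : ∀ j : ℕ, PG (fun z : E n => ((1 + ell z) ^ 2) ^ j) := fun j => by
    simpa only [← pow_mul] using PG_pow (n := n) (2 * j)
  have hEW : ∀ j : ℕ, j ≤ p + 1 → EE h u x (fun z => ((1 + ell z) ^ 2) ^ j) ≤ Γ := fun j hj => by
    simpa only [← pow_mul] using HΓ h u x hh hu (2 * j) (by omega)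
  have hY0 : 0 ≤ EE h u x (YY h (p + 1) u x) := EE_nonneg x fun z => YY_nonneg hh _ u x z
  have hPWY : PG (fun z => (1 + ell z) ^ 2 * YY h (p + 1) u x z) := (PG_pow 2).mul hPY
  have hYW : EE h u x (YY h (p + 1) u x) ≤
      EE h u x (fun z => (1 + ell z) ^ 2 * YY h (p + 1) u x z) :=
    EE_mono hc hC hu hh x hPY hPWY fun z => by
      have h1 := one_le_W z
      have h2 := YY_nonneg hh (p + 1) u x z
      nlinarith
  -- jets of `Z`
  have key : ∀ (L : List (Fin n)) (Ψ : E n → ℝ), PG Ψ →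
      (∀ z, |pdL L (fun y => Real.exp (-qq h u y z)) x| ≤ Real.exp (-qq h u x z) * Ψ z) →
      |pdL L (ZZ h u) x| ≤ EE h u x Ψ * ZZ h u x := by
    intro L Ψ hΨ H
    rw [(sm_ZZ hc hu hh).2 L x]
    unfold EE
    rw [div_mul_cancel₀ _ hZ.ne', ← Real.norm_eq_abs]
    exact norm_integral_le_of_norm_le (integrable_EE hc hu hh x hΨ)
      (Eventually.of_forall fun z => by rw [Real.norm_eq_abs]; exact H z)
  have hlev0 : ∀ j, 0 ≤ lev (p + 1) m j := fun j => zero_le_one.trans (one_le_lev _ hm j)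
  have hEω : ∀ j, j ≤ p + 1 → EE h u x
      (fun z => A1 * (((1 + ell z) ^ 2) ^ j * lev (p + 1) m j)) ≤ A1 * Γ * lev (p + 1) m j := by
    intro j hj
    have e : (fun z : E n => A1 * (((1 + ell z) ^ 2) ^ j * lev (p + 1) m j)) =
        fun z => (A1 * lev (p + 1) m j) * ((1 + ell z) ^ 2) ^ j := by funext z; ring
    rw [e, EE_const_mul]
    have := mul_le_mul_of_nonneg_left (hEW j hj) (mul_nonneg hA10 (hlev0 j))
    linarith
  have hPω : ∀ j : ℕ, PG (fun z : E n => A1 * (((1 + ell z) ^ 2) ^ j * lev (p + 1) m j)) :=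
    fun j => (PG.const A1).mul ((hPW j).mul (PG.const _))
  have hε : ∀ j, 1 ≤ j → j < p → mx j (ZZ h u) x / ZZ h u x ≤ A1 * Γ * lev (p + 1) m j := by
    intro j h1 h2
    rw [div_le_iff₀ hZ]
    refine mx_le (mul_nonneg (mul_nonneg (by linarith) (hlev0 j)) hZ.le) fun L hL => ?_
    refine (key L _ (hPω j) fun z => ?_).trans
      (mul_le_mul_of_nonneg_right (hEω j (by omega)) hZ.le)
    have := (H1 h u m hh hu.1.1 hm hb hbk hor x z).1 L (by omega) (by omega)
    rwa [hL] at this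
  have hεp : mx p (ZZ h u) x / ZZ h u x ≤
      A1 * Γ * lev (p + 1) m p + EE h u x (YY h (p + 1) u x) := by
    rw [div_le_iff₀ hZ]
    refine mx_le (mul_nonneg (add_nonneg (mul_nonneg (by linarith) (hlev0 p)) hY0) hZ.le)
      fun L hL => ?_
    refine (key L _ ((hPω p).add hPY) fun z => ?_).trans
      (mul_le_mul_of_nonneg_right ?_ hZ.le)
    · have := (H1 h u m hh hu.1.1 hm hb hbk hor x z).2.1 L (by omega)
      rwa [hL] at this
    · rw [EE_add hc hu hh x (hPω p) hPY]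
      have := hEω p (by omega)
      linarith
  have hrefl : ∀ j, ∑ i ∈ Finset.range j, mx (i + 1) (ZZ h u) x / ZZ h u x *
      mx (j - i) (fun y => Real.log (ZZ h u y)) x = ∑ i ∈ Finset.range j,
      mx (i + 1) (fun y => Real.log (ZZ h u y)) x * (mx (j - i) (ZZ h u) x / ZZ h u x) := by
    intro j
    rw [← Finset.sum_range_reflect]
    refine Finset.sum_congr rfl fun i hi => ?_
    have hi' := Finset.mem_range.1 hi
    have e1 : j - 1 - i + 1 = j - i := by omega
    have e2 : j - (j - 1 - i) = i + 1 := by omega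
    rw [e1, e2, mul_comm]
  have hrec := fun j => rec_eps hl x j
  simp only [hexp, Real.exp_log hZ, hrefl] at hrec
  obtain ⟨h1, -, h3⟩ := H2 (lev (p + 1) m) (fun j => mx j (ZZ h u) x / ZZ h u x)
    (fun j => mx j (fun y => Real.log (ZZ h u y)) x) (EE h u x (YY h (p + 1) u x)) hY0 hlev0
    (fun j => div_nonneg (mx_nonneg _ _ _) hZ.le) (fun j => mx_nonneg _ _ _)
    (lev_mul (p + 1) hm) hε hεp (fun j _ => (hrec j).2.2)
  have hA20 : 0 ≤ A2 := by linarith
  refine ⟨fun L hL1 hL2 => ?_, fun L hL => ?_⟩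
  · have hne : L ≠ [] := by rintro rfl; simp at hL1
    rw [pdL_FF hc hC hu hh hne, abs_mul]
    have h4 := (le_mx rfl _ x).trans (h1 L.length hL1 (by omega))
    rw [lev_low m hL2] at h4
    norm_num
    linarith
  · have hne : L ≠ [] := by rintro rfl; simp at hL
    have h4 := ((hrec p).1 L hL).trans h3
    rw [lev_one, one_mul] at h4
    have hcbL : Cb 2 (pdL L u) := cb_of_bd (sm_pdL hu.1.1 L) fun i hi => by
      obtain ⟨M, _, hM⟩ := cb_bd hu.1 (k := i + L.length) (by omega)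
      exact ⟨M, bd_pdL L hM⟩
    have hPq := PG_qq hcbL hh x
    have h5 : |pdL L (ZZ h u) x / ZZ h u x + EE h u x (qq h (pdL L u) x)| ≤
        A1 * Γ * lev (p + 1) m (p + 1) +
          A1 * EE h u x (fun z => (1 + ell z) ^ 2 * YY h (p + 1) u x z) := by
      have hP2 : PG (fun z => A1 * (((1 + ell z) ^ 2) ^ (p + 1) * lev (p + 1) m (p + 1)) +
          A1 * ((1 + ell z) ^ 2 * YY h (p + 1) u x z)) :=
        (hPω (p + 1)).add ((PG.const A1).mul hPWY)
      have e : pdL L (ZZ h u) x / ZZ h u x + EE h u x (qq h (pdL L u) x) =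
          (∫ z, (pdL L (fun y => Real.exp (-qq h u y z)) x +
            Real.exp (-qq h u x z) * qq h (pdL L u) x z)) / ZZ h u x := by
        rw [integral_add (integrable_expq_jet hc hu hh L x) (integrable_EE hc hu hh x hPq),
          (sm_ZZ hc hu hh).2 L x, add_div]
        rfl
      have h6 : |(∫ z, (pdL L (fun y => Real.exp (-qq h u y z)) x +
            Real.exp (-qq h u x z) * qq h (pdL L u) x z)) / ZZ h u x| ≤ EE h u x
          (fun z => A1 * (((1 + ell z) ^ 2) ^ (p + 1) * lev (p + 1) m (p + 1)) +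
          A1 * ((1 + ell z) ^ 2 * YY h (p + 1) u x z)) := by
        rw [abs_div, abs_of_pos hZ]
        refine div_le_div_of_nonneg_right ?_ hZ.le
        rw [← Real.norm_eq_abs]
        refine norm_integral_le_of_norm_le (integrable_EE hc hu hh x hP2)
          (Eventually.of_forall fun z => ?_)
        rw [Real.norm_eq_abs]
        exact ((H1 h u m hh hu.1.1 hm hb hbk hor x z).2.2 L hL).trans_eq (by rw [mul_add A1])
      rw [e]
      refine h6.trans ?_
      rw [EE_add hc hu hh x (hPω (p + 1)) ((PG.const A1).mul hPWY), EE_const_mul x A1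
        (fun z => (1 + ell z) ^ 2 * YY h (p + 1) u x z)]
      have := hEω (p + 1) le_rfl
      linarith
    rw [pdL_FF hc hC hu hh hne]
    set Θ := EE h u x (fun z => (1 + ell z) ^ 2 * YY h (p + 1) u x z)
    have hΘ : 0 ≤ Θ := hY0.trans hYW
    have hl1 := lev_le (p + 1) hm (p + 1)
    have hl0 := hlev0 (p + 1)
    have e : -2 * pdL L (fun y => Real.log (ZZ h u y)) x - 2 * EE h u x (qq h (pdL L u) x) =
        2 * ((pdL L (ZZ h u) x / ZZ h u x - pdL L (fun y => Real.log (ZZ h u y)) x) -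
          (pdL L (ZZ h u) x / ZZ h u x + EE h u x (qq h (pdL L u) x))) := by ring
    rw [e, abs_mul, abs_two]
    have h7 := abs_sub (pdL L (ZZ h u) x / ZZ h u x - pdL L (fun y => Real.log (ZZ h u y)) x)
      (pdL L (ZZ h u) x / ZZ h u x + EE h u x (qq h (pdL L u) x))
    have h8 : A2 * (lev (p + 1) m (p + 1) + EE h u x (YY h (p + 1) u x)) ≤ A2 * (1 + m + Θ) :=
      mul_le_mul_of_nonneg_left (by linarith) hA20
    have h9 : A1 * Γ * lev (p + 1) m (p + 1) ≤ A2 * (1 + m) :=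
      mul_le_mul hA2 hl1 hl0 hA20
    have h10 : A1 * Θ ≤ A2 * Θ := mul_le_mul_of_nonneg_right hA1le hΘ
    nlinarith

theorem ff_bd (n p : ℕ) (hp : 1 ≤ p) {c C : ℝ} (hc : 0 < c) (hC : 0 < C) (K : ℝ) :
    ∃ A : ℝ, 0 ≤ A ∧ ∀ (h : ℝ) (u : E n → ℝ), 0 < h → Good c C u →
      (∀ j, 3 ≤ j → (j ≤ 4 ∨ j ≤ p + 2) → Bd j K u) → Bd p A (FF h u) := by
  obtain ⟨A, hA, H⟩ := jz n (max 5 (p + 3)) (by omega) hc hC K
  refine ⟨A, hA, fun h u hh hu hb L hL x => ?_⟩
  obtain ⟨m, hm, hbm⟩ := cb_bd hu.1 (k := max 5 (p + 3)) (by omega)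
  exact (H h u m hh hu hm (fun j h1 h2 => hb j h1 (by omega)) hbm (Or.inl (by omega)) x).1 L
    (by omega) (by omega)

end Crest.Agent.R238.St
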