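import Crest.Agent.R238.StBas

/-! # R238/St: ultrafilter limits of smooth functions (skeleton helper76)
`ulim`: choose `G L x` = limit of `pdL L (f a) x` (`IsCompact.ultrafilter_le_nhds` on `Icc (-B) B`);
`taylor2` for `pdL L (f a)` passes to the limit and gives
`HasFDerivAt (G L) (cl fun i => G (i :: L) x) x`; so `pd i (G L) = G (i :: L)`; `sm_of_closed`.
`jc`: induction on `L`: `t ↦ pd i (pdL L (f t)) x` is the uniform limit (`taylor2` with
`y = r • single i 1`) of difference quotients, hence continuous on `I`; joint continuity from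
`seg_bound` (Lipschitz in `x` uniformly in `t`). -/

set_option autoImplicit false
open MeasureTheory Filter Topology

namespace Crest.Agent.R238.St

variable {n : ℕ}

theorem stulim_le {α : Type*} [Fintype α] (B : α → ℝ) (i : α) : B i ≤ ∑ j, |B j| :=
  (le_abs_self _).trans (Finset.single_le_sum (f := fun j => |B j|) (fun _ _ => abs_nonneg _) (Finset.mem_univ i))

theorem stulim_seg (x : E n) {y : E n} (hy : ‖y‖ ≤ 1) {s : ℝ} (hs : s ∈ Set.Icc (0 : ℝ) 1) :
    ‖x + s • y‖ ≤ ‖x‖ + 1 := by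
  refine (norm_add_le _ _).trans (add_le_add le_rfl ?_)
  rw [norm_smul, Real.norm_eq_abs, abs_of_nonneg hs.1]
  exact mul_le_one₀ hs.2 (norm_nonneg _) hy

theorem stulim_deriv {g : E n → ℝ} {a : Fin n → ℝ} {x : E n} {B : ℝ}
    (h : ∀ y : E n, ‖y‖ ≤ 1 → |g (x + y) - g x - ∑ i, y i * a i| ≤ B * ell y ^ 2) : HasFDerivAt g (cl a) x := by
  rw [hasFDerivAt_iff_isLittleO_nhds_zero]
  refine Asymptotics.IsBigO.trans_isLittleO (g := fun y : E n => ‖y‖ ^ 2) ?_
    (Asymptotics.isLittleO_norm_pow_id one_lt_two)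
  refine Asymptotics.IsBigO.of_bound (|B| * n ^ 2) ?_
  filter_upwards [Metric.closedBall_mem_nhds (0 : E n) one_pos] with y hy
  have h1 := h y (mem_closedBall_zero_iff.1 hy)
  have h2 : ell y ^ 2 ≤ (n * ‖y‖) ^ 2 := pow_le_pow_left₀ (ell_nonneg y) (ell_le y) 2
  rw [cl_apply, Real.norm_eq_abs, Real.norm_eq_abs, abs_of_nonneg (sq_nonneg ‖y‖)]
  simp only [mul_comm (a _)]
  refine h1.trans ((mul_le_mul (le_abs_self B) h2 (sq_nonneg _) (abs_nonneg _)).trans_eq ?_)
  ring

theorem ulim {ι : Type*} (𝒰 : Ultrafilter ι) (f : ι → E n → ℝ) (hs : ∀ a, Sm (f a))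
    (hb : ∀ (L : List (Fin n)) (R : ℝ), ∃ B : ℝ, ∀ᶠ a in (𝒰 : Filter ι),
      ∀ x : E n, ‖x‖ ≤ R → |pdL L (f a) x| ≤ B) :
    ∃ g : E n → ℝ, Sm g ∧ ∀ (L : List (Fin n)) (x : E n),
      Tendsto (fun a => pdL L (f a) x) (𝒰 : Filter ι) (𝓝 (pdL L g x)) := by
  have hG : ∀ (L : List (Fin n)) (x : E n), ∃ c, Tendsto (fun a => pdL L (f a) x) (𝒰 : Filter ι) (𝓝 c) := by
    intro L x
    obtain ⟨B, hB⟩ := hb L ‖x‖
    obtain ⟨c, -, hc⟩ := (isCompact_Icc (a := -B) (b := B)).ultrafilter_le_nhds (𝒰.map fun a => pdL L (f a) x) (by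
      rw [Ultrafilter.coe_map, le_principal_iff, mem_map]
      filter_upwards [hB] with a ha using abs_le.1 (ha x le_rfl))
    exact ⟨c, hc⟩
  choose G hG using hG
  have hD : ∀ (L : List (Fin n)) (x : E n), HasFDerivAt (G L) (cl fun i => G (i :: L) x) x := by
    intro L x
    choose B hB using fun p : Fin n × Fin n => hb (p.1 :: p.2 :: L) (‖x‖ + 1)
    refine stulim_deriv (B := ∑ p, |B p|) fun y hy => ?_
    refine le_of_tendsto ((((hG L (x + y)).sub (hG L x)).sub
      (tendsto_finset_sum _ fun i _ => (hG (i :: L) x).const_mul (y i))).abs) ?_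
    filter_upwards [eventually_all.2 hB] with a ha
    exact taylor2 (sm_pdL (hs a) L) x y fun s hs i j => (ha (i, j) _ (stulim_seg x hy hs)).trans (stulim_le B (i, j))
  have hpd : ∀ (L : List (Fin n)) (i : Fin n), pd i (G L) = G (i :: L) := fun L i => by
    funext x
    rw [pd, (hD L x).fderiv, cl_single]
  have hL : ∀ L : List (Fin n), pdL L (G []) = G L := fun L => by
    induction L with
    | nil => rfl
    | cons i L ih => rw [pdL_cons, ih, hpd]
  refine ⟨G [], sm_of_closed (fun g => ∃ L, g = G L) ?_ ?_ _ ⟨[], rfl⟩, fun L x => by rw [hL]; exact hG L x⟩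
  · rintro _ ⟨L, rfl⟩ x
    exact (hD L x).differentiableAt
  · rintro _ i ⟨L, rfl⟩
    exact ⟨_, hpd L i⟩

theorem jc (I : Set ℝ) (f : ℝ → E n → ℝ) (hs : ∀ t ∈ I, Sm (f t))
    (hb : ∀ (L : List (Fin n)) (R : ℝ), ∃ B : ℝ, ∀ t ∈ I, ∀ x : E n, ‖x‖ ≤ R →
      |pdL L (f t) x| ≤ B)
    (hc : ∀ x, ContinuousOn (fun t => f t x) I) (L : List (Fin n)) :
    ContinuousOn (fun p : ℝ × E n => pdL L (f p.1) p.2) (I ×ˢ Set.univ) := by
  have h1 : ∀ (L : List (Fin n)) (x : E n), ContinuousOn (fun t => pdL L (f t) x) I := by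
    intro L
    induction L with
    | nil => exact hc
    | cons i L ih =>
      intro x
      choose B hB using fun p : Fin n × Fin n => hb (p.1 :: p.2 :: L) (‖x‖ + 1)
      refine continuousOn_of_uniform_approx_of_continuousOn fun u hu => ?_
      obtain ⟨ε, hε, hu⟩ := Metric.mem_uniformity_dist.1 hu
      obtain ⟨K, hK⟩ : ∃ K, K = ∑ p, |B p| := ⟨_, rfl⟩
      have hK0 : 0 ≤ K := by rw [hK]; positivity
      obtain ⟨r, hr0, hr1, hr2⟩ : ∃ r : ℝ, 0 < r ∧ r ≤ 1 ∧ K * r < ε := by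
        refine ⟨min 1 (ε / (K + 1)), by positivity, min_le_left _ _, ?_⟩
        refine (mul_le_mul_of_nonneg_left (min_le_right _ _) hK0).trans_lt ?_
        rw [← mul_div_assoc, div_lt_iff₀ (by positivity)]
        nlinarith
      refine ⟨fun t => (pdL L (f t) (x + EuclideanSpace.single i r) - pdL L (f t) x) / r,
        ((ih _).sub (ih _)).div_const r, fun t ht => hu ?_⟩
      have hy : ‖(EuclideanSpace.single i r : E n)‖ ≤ 1 := by
        rw [EuclideanSpace.norm_single, Real.norm_eq_abs, abs_of_pos hr0]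
        exact hr1
      have h2 := taylor2 (sm_pdL (hs t ht) L) x (EuclideanSpace.single i r) (B := K) fun s hs' j k =>
        (hB (j, k) t ht _ (stulim_seg x hy hs')).trans (hK ▸ stulim_le B (j, k))
      have e1 : ∑ j, (EuclideanSpace.single i r : E n) j * pd j (pdL L (f t)) x = r * pd i (pdL L (f t)) x := by
        rw [Finset.sum_eq_single i (fun j _ hj => by simp [hj]) (by simp)]
        simp
      have e2 : ell (EuclideanSpace.single i r : E n) = r := by
        rw [ell, Finset.sum_eq_single i (fun j _ hj => by simp [hj]) (by simp)]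
        simp [abs_of_pos hr0]
      rw [e1, e2] at h2
      rw [Real.dist_eq, abs_sub_comm, pdL_cons, div_sub' hr0.ne', abs_div, abs_of_pos hr0, div_lt_iff₀ hr0]
      refine h2.trans_lt ?_
      nlinarith
  rintro ⟨t₀, x₀⟩ ⟨ht₀, -⟩
  choose B hB using fun i : Fin n => hb (i :: L) (‖x₀‖ + 1)
  have h2 : ContinuousWithinAt (fun p : ℝ × E n => pdL L (f p.1) x₀) (I ×ˢ Set.univ) (t₀, x₀) :=
    ContinuousWithinAt.comp (f := Prod.fst) (g := fun t => pdL L (f t) x₀) (x := (t₀, x₀)) (h1 L x₀ t₀ ht₀)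
      continuous_fst.continuousWithinAt fun p (hp : p ∈ I ×ˢ Set.univ) => hp.1
  have h3 : Tendsto (fun p : ℝ × E n => pdL L (f p.1) p.2 - pdL L (f p.1) x₀) (𝓝[I ×ˢ Set.univ] (t₀, x₀)) (𝓝 0) := by
    have h4 : Continuous fun p : ℝ × E n => (∑ i, |B i|) * ell (p.2 - x₀) :=
      continuous_const.mul (continuous_ell.comp (continuous_snd.sub continuous_const))
    have h5 := (h4.tendsto (t₀, x₀)).mono_left (nhdsWithin_le_nhds (s := I ×ˢ Set.univ))
    have h6 : ell (0 : E n) = 0 := by simp [ell]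
    simp only [sub_self, h6, mul_zero] at h5
    refine squeeze_zero_norm' ?_ h5
    have h7 : ∀ᶠ p : ℝ × E n in 𝓝 (t₀, x₀), ‖p.2 - x₀‖ ≤ 1 :=
      (continuous_snd.tendsto (t₀, x₀)).eventually (p := fun y => ‖y - x₀‖ ≤ 1)
        (by filter_upwards [Metric.closedBall_mem_nhds x₀ one_pos] with y hy using mem_closedBall_iff_norm.1 hy)
    filter_upwards [self_mem_nhdsWithin, nhdsWithin_le_nhds h7] with p hp hp1
    have h8 := seg_bound (sm_pdL (hs p.1 hp.1) L) x₀ (p.2 - x₀) (B := ∑ i, |B i|) fun s hs' i =>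
      (hB i p.1 hp.1 _ (stulim_seg x₀ hp1 hs')).trans (stulim_le B i)
    rwa [add_sub_cancel] at h8
  have h9 := h3.add h2
  simp only [sub_add_cancel, zero_add] at h9
  exact h9

end Crest.Agent.R238.St
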