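import Crest.Agent.R238.StPar
import Crest.Agent.R238.StUlim

/-! # R238/St: from a time-discrete scheme to a flow (skeleton helper76)
`𝒰 = Filter.hyperfilter ℕ` (`≤ cofinite = atTop`), `m a t = ⌊t / δ a⌋₊`.  `ulim` for each `t` gives
`w t`; telescoping `b2` gives `|pdL L (w t) x - pdL L (w s) x| ≤ B |t - s|`; `jc`.
`ulim` for `G a = (U a (m+1) - U a m) / δ a` (bounded jets by `b2`), whose pointwise limit is
`R (w t)` by `b3`, `b4`: so `R (w t)` is smooth with locally bounded jets uniformly in `t`, and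
`t ↦ R (w t) x` is continuous by `b4` and the Lipschitz bound; `jc`.  Time derivative for `L = []`:
for `|t - s|` small all steps between `m a s` and `m a t` have jets at `x` close to those of `w s`, so
telescoping `b3` gives `|w t x - w s x - (t - s) R (w s) x| ≤ 2 η |t - s|`.  Finally `td`. -/

set_option autoImplicit false
open MeasureTheory Filter Topology

namespace Crest.Agent.R238.St

variable {n : ℕ}

theorem lim_tele (u : ℕ → ℝ) {c e δ α β : ℝ} (hδ : 0 ≤ δ)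
    (h : ∀ m : ℕ, α ≤ m * δ → m * δ ≤ β → |u (m + 1) - u m - δ * c| ≤ δ * e) {p q : ℕ}
    (hp : α ≤ p * δ) (hp' : p * δ ≤ β) (hq : α ≤ q * δ) (hq' : q * δ ≤ β) :
    |u q - u p - (q * δ - p * δ) * c| ≤ |q * δ - p * δ| * e := by
  wlog hpq : p ≤ q generalizing p q
  · have := this hq hq' hp hp' (le_of_not_ge hpq)
    rw [abs_sub_comm ((q : ℝ) * δ), ← abs_neg]
    convert this using 2
    ring
  have : ∀ q : ℕ, p ≤ q → q * δ ≤ β →
      |u q - u p - (q * δ - p * δ) * c| ≤ (q * δ - p * δ) * e := by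
    intro q hpq
    induction q, hpq using Nat.le_induction with
    | base => intro _; simp
    | succ q hpq ih =>
      intro hq
      have h1 : (p : ℝ) * δ ≤ q * δ := by gcongr
      push_cast at hq ⊢
      have h2 : (q : ℝ) * δ ≤ β := by linarith
      have a1 := abs_le.1 (h q (hp.trans h1) h2)
      have a2 := abs_le.1 (ih h2)
      rw [abs_le]
      constructor <;> linarith [a1.1, a1.2, a2.1, a2.2]
  rw [abs_of_nonneg (a := (q : ℝ) * δ - p * δ) (sub_nonneg.2 (by gcongr))]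
  exact this q hpq hq'

theorem lim_idx {T : ℝ} (δ : ℕ → ℝ) (hδ : ∀ a, 0 < δ a) (hδ0 : Tendsto δ atTop (𝓝 0)) :
    ∃ m : ℕ → ℝ → ℕ, (∀ a, m a 0 = 0) ∧ (∀ a, ∀ t ∈ Set.Icc 0 T, (m a t : ℝ) * δ a ≤ T) ∧
      ∀ t ∈ Set.Icc 0 T, Tendsto (fun a => (m a t : ℝ) * δ a) atTop (𝓝 t) := by
  have h1 : ∀ a, ∀ t ∈ Set.Icc 0 T, (⌊t / δ a⌋₊ : ℝ) * δ a ≤ t := fun a t ht =>
    (le_div_iff₀ (hδ a)).1 (Nat.floor_le (div_nonneg ht.1 (hδ a).le))
  refine ⟨fun a t => ⌊t / δ a⌋₊, fun a => by simp, fun a t ht => (h1 a t ht).trans ht.2, fun t ht => ?_⟩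
  refine tendsto_of_tendsto_of_tendsto_of_le_of_le (g := fun a => t - δ a)
    (by simpa using hδ0.const_sub t) tendsto_const_nhds (fun a => ?_) fun a => h1 a t ht
  have := (div_lt_iff₀ (hδ a)).1 (Nat.lt_floor_add_one (t / δ a))
  simp only
  linarith

theorem lim_flow (R : (E n → ℝ) → E n → ℝ) (P : (E n → ℝ) → Prop) {T : ℝ} (hT : 0 ≤ T)
    (δ : ℕ → ℝ) (hδ : ∀ a, 0 < δ a) (hδ0 : Tendsto δ atTop (𝓝 0))
    (U : ℕ → ℕ → E n → ℝ) (u₀ : E n → ℝ) (h0 : ∀ a, U a 0 = u₀)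
    (hs : ∀ (a m : ℕ), (m : ℝ) * δ a ≤ T → Sm (U a m) ∧ Sm (U a (m + 1)))
    (hP : ∀ (a m : ℕ), (m : ℝ) * δ a ≤ T → P (U a m))
    (hPc : ∀ (𝒰 : Ultrafilter ℕ) (f : ℕ → E n → ℝ) (g : E n → ℝ), (∀ a, P (f a)) → Sm g →
      (∀ (L : List (Fin n)) (x : E n),
        Tendsto (fun a => pdL L (f a) x) (𝒰 : Filter ℕ) (𝓝 (pdL L g x))) → P g)
    (b1 : ∀ (L : List (Fin n)) (r : ℝ), ∃ B : ℝ, ∀ (a m : ℕ), (m : ℝ) * δ a ≤ T →
      ∀ x : E n, ‖x‖ ≤ r → |pdL L (U a m) x| ≤ B)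
    (b2 : ∀ (L : List (Fin n)) (r : ℝ), ∃ B : ℝ, ∀ (a m : ℕ), (m : ℝ) * δ a ≤ T →
      ∀ x : E n, ‖x‖ ≤ r → |pdL L (U a (m + 1)) x - pdL L (U a m) x| ≤ δ a * B)
    (b3 : ∀ (x : E n) (η : ℝ), 0 < η → ∀ᶠ a in atTop, ∀ m : ℕ, (m : ℝ) * δ a ≤ T →
      |U a (m + 1) x - U a m x - δ a * R (U a m) x| ≤ δ a * η)
    (b4 : ∀ (w : E n → ℝ) (x : E n) (η : ℝ), P w → 0 < η → ∃ ρ : ℝ, 0 < ρ ∧ ∀ v : E n → ℝ,
      (∀ L : List (Fin n), L.length ≤ 2 → |pdL L v x - pdL L w x| ≤ ρ) → |R v x - R w x| ≤ η) :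
    ∃ w : ℝ → E n → ℝ, w 0 = u₀ ∧ (∀ t ∈ Set.Icc (0 : ℝ) T, P (w t)) ∧ Flow R T w := by
  obtain ⟨𝒰, hU⟩ : ∃ 𝒰 : Ultrafilter ℕ, (𝒰 : Filter ℕ) ≤ atTop := ⟨_, Nat.hyperfilter_le_atTop⟩
  obtain ⟨m, hm0, hm, hτ'⟩ := lim_idx (T := T) δ hδ hδ0
  have hτ := fun t ht => (hτ' t ht).mono_left hU
  choose! w hw hl using fun t (ht : t ∈ Set.Icc 0 T) => ulim 𝒰 (fun a => U a (m a t))
    (fun a => (hs a _ (hm a t ht)).1) fun L r =>
      (b1 L r).imp fun B hB => Eventually.of_forall fun a => hB a _ (hm a t ht)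
  have hPw : ∀ t ∈ Set.Icc 0 T, P (w t) := fun t ht =>
    hPc 𝒰 _ _ (fun a => hP a _ (hm a t ht)) (hw t ht) (hl t ht)
  have key : ∀ s ∈ Set.Icc 0 T, ∀ x η, 0 < η → ∃ κ, 0 < κ ∧ ∀ᶠ a in (𝒰 : Filter ℕ), ∀ k : ℕ,
      s - κ ≤ k * δ a → k * δ a ≤ min (s + κ) T →
      |U a (k + 1) x - U a k x - δ a * R (w s) x| ≤ δ a * η := by
    intro s hs' x η hη
    obtain ⟨ρ, hρ, h4⟩ := b4 (w s) x (η / 2) (hPw s hs') (half_pos hη)
    have h1 : ∀ L : List (Fin n), ∀ᶠ p in (𝒰 : Filter ℕ) ×ˢ 𝓝 s, ∀ k : ℕ, k * δ p.1 = p.2 → p.2 ≤ T →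
        |pdL L (U p.1 k) x - pdL L (w s) x| ≤ ρ := by
      intro L
      obtain ⟨B, hB⟩ := b2 L ‖x‖
      have h2 : Tendsto (fun p : ℕ × ℝ => |p.2 - m p.1 s * δ p.1| * B +
          |pdL L (U p.1 (m p.1 s)) x - pdL L (w s) x|) ((𝒰 : Filter ℕ) ×ˢ 𝓝 s) (𝓝 0) := by
        simpa using ((tendsto_snd.sub ((hτ s hs').comp tendsto_fst)).abs.mul_const B).add
          (((hl s hs' L x).comp (tendsto_fst (g := 𝓝 s))).sub_const (pdL L (w s) x)).abs
      filter_upwards [h2.eventually_le_const hρ] with p hp k hk hT'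
      refine le_trans ((abs_sub_le _ _ _).trans (add_le_add ?_ le_rfl)) hp
      have := lim_tele (fun k => pdL L (U p.1 k) x) (c := 0) (e := B) (α := 0) (β := T) (hδ p.1).le
        (fun j _ hj => by simpa using hB p.1 j hj x le_rfl) (p := m p.1 s) (q := k)
        (mul_nonneg (Nat.cast_nonneg _) (hδ _).le) (hm _ s hs')
        (mul_nonneg (Nat.cast_nonneg _) (hδ _).le) (hk.trans_le hT')
      simpa [hk] using this
    obtain ⟨pa, ha, pb, hb, hab⟩ := eventually_prod_iff.1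
      ((eventually_all_finite (List.finite_length_le (Fin n) 2)).2 fun L _ => h1 L)
    obtain ⟨κ, hκ, hb'⟩ := Metric.eventually_nhds_iff.1 hb
    refine ⟨κ / 2, half_pos hκ, ?_⟩
    filter_upwards [ha, hU (b3 x (η / 2) (half_pos hη))] with a ha h3 k k1 k2
    have k3 := le_min_iff.1 k2
    have a1 := abs_le.1 (h3 k k3.2)
    have a2 := abs_le.1 (h4 (U a k) fun L hL => hab ha (hb' (y := k * δ a) (by
      rw [Real.dist_eq, abs_lt]; constructor <;> linarith [k3.1])) L hL k rfl k3.2)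
    have := hδ a
    rw [abs_le]
    constructor <;> nlinarith [a1.1, a1.2, a2.1, a2.2]
  have near : ∀ t ∈ Set.Icc 0 T, ∀ s κ : ℝ, |t - s| < κ → ∀ᶠ a in (𝒰 : Filter ℕ),
      s - κ ≤ m a t * δ a ∧ m a t * δ a ≤ min (s + κ) T := by
    intro t ht s κ h
    rw [abs_lt] at h
    filter_upwards [(hτ t ht).eventually (Icc_mem_nhds (a := s - κ) (b := s + κ) (by linarith [h.1])
      (by linarith [h.2]))] with a ha
    exact ⟨ha.1, le_min ha.2 (hm a t ht)⟩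
  have ev : ∀ s κ : ℝ, 0 < κ → ∀ᶠ t in 𝓝[Set.Icc 0 T] s, t ∈ Set.Icc 0 T ∧ |t - s| < κ :=
    fun s κ hκ => eventually_mem_nhdsWithin.and (mem_nhdsWithin_of_mem_nhds (Metric.ball_mem_nhds s hκ))
  have hd : ∀ s ∈ Set.Icc 0 T, ∀ x,
      HasDerivWithinAt (fun r => w r x) (R (w s) x) (Set.Icc 0 T) s := by
    intro s hs' x
    rw [hasDerivWithinAt_iff_isLittleO, Asymptotics.isLittleO_iff]
    intro η hη
    obtain ⟨κ, hκ, hk⟩ := key s hs' x η hη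
    filter_upwards [ev s κ hκ] with t ⟨ht, htκ⟩
    rw [mul_comm]
    refine le_of_tendsto_of_tendsto (((hl t ht [] x).sub (hl s hs' [] x)).sub
      (((hτ t ht).sub (hτ s hs')).mul_const (R (w s) x))).abs
      (((hτ t ht).sub (hτ s hs')).abs.mul_const η) ?_
    filter_upwards [hk, near t ht s κ htκ, near s hs' s κ (by simpa using hκ)] with a h1 h2 h3
    exact lim_tele (fun k => U a k x) (hδ a).le h1 h3.1 h3.2 h2.1 h2.2
  let G : ℝ → ℕ → E n → ℝ := fun t a x => (δ a)⁻¹ * (U a (m a t + 1) x - U a (m a t) x)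
  have hG : ∀ s ∈ Set.Icc 0 T, ∀ x η, 0 < η → ∃ κ, 0 < κ ∧ ∀ t ∈ Set.Icc 0 T, |t - s| < κ →
      ∀ᶠ a in (𝒰 : Filter ℕ), |G t a x - R (w s) x| ≤ η := by
    intro s hs' x η hη
    obtain ⟨κ, hκ, hk⟩ := key s hs' x η hη
    refine ⟨κ, hκ, fun t ht htκ => ?_⟩
    filter_upwards [hk, near t ht s κ htκ] with a h1 h2
    have h0 := hδ a
    refine le_of_mul_le_mul_left (le_trans (le_of_eq ?_) (h1 _ h2.1 h2.2)) h0
    rw [← abs_of_pos h0, ← abs_mul, abs_of_pos h0, mul_sub, mul_inv_cancel_left₀ h0.ne']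
  have hG1 : ∀ t ∈ Set.Icc 0 T, ∀ x, Tendsto (fun a => G t a x) (𝒰 : Filter ℕ) (𝓝 (R (w t) x)) := by
    intro t ht x
    refine Metric.tendsto_nhds.2 fun η hη => ?_
    obtain ⟨κ, hκ, hk⟩ := hG t ht x _ (half_pos hη)
    exact (hk t ht (by simpa using hκ)).mono fun a ha => ha.trans_lt (half_lt_self hη)
  have hG2 : ∀ x, ContinuousOn (fun t => R (w t) x) (Set.Icc 0 T) := by
    intro x s hs'
    refine Metric.tendsto_nhds.2 fun η hη => ?_
    obtain ⟨κ, hκ, hk⟩ := hG s hs' x _ (half_pos hη)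
    filter_upwards [ev s κ hκ] with t ⟨ht, htκ⟩
    exact (le_of_tendsto ((hG1 t ht x).sub_const _).abs (hk t ht htκ)).trans_lt (half_lt_self hη)
  have hG3 : ∀ (L : List (Fin n)) (r : ℝ), ∃ B : ℝ, ∀ t ∈ Set.Icc 0 T, ∀ a, ∀ x : E n, ‖x‖ ≤ r →
      |pdL L (G t a) x| ≤ B := by
    intro L r
    refine (b2 L r).imp fun B hB t ht a x hx => ?_
    obtain ⟨s1, s2⟩ := hs a _ (hm a t ht)
    have h0 := hδ a
    rw [pdL_const_mul (s2.sub s1), pdL_sub s2 s1, abs_mul, abs_of_pos (inv_pos.2 h0), inv_mul_le_iff₀ h0]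
    exact hB a _ (hm a t ht) x hx
  have hR : ∀ t ∈ Set.Icc 0 T, Sm (R (w t)) ∧ ∀ (L : List (Fin n)) (x : E n),
      Tendsto (fun a => pdL L (G t a) x) (𝒰 : Filter ℕ) (𝓝 (pdL L (R (w t)) x)) := by
    intro t ht
    obtain ⟨g, hg, hgl⟩ := ulim 𝒰 (G t) (fun a => contDiff_const.mul
      ((hs a _ (hm a t ht)).2.sub (hs a _ (hm a t ht)).1)) fun L r =>
      (hG3 L r).imp fun B hB => Eventually.of_forall fun a => hB t ht a
    obtain rfl : g = R (w t) := funext fun x => tendsto_nhds_unique (hgl [] x) (hG1 t ht x)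
    exact ⟨hg, hgl⟩
  have hc := jc _ (fun t => R (w t)) (fun t ht => (hR t ht).1) (fun L r => (hG3 L r).imp
    fun B hB t ht x hx => le_of_tendsto' ((hR t ht).2 L x).abs fun a => hB t ht a x hx) hG2
  refine ⟨w, funext fun x => tendsto_nhds_unique (hl 0 ⟨le_rfl, hT⟩ [] x) ?_, hPw,
    fun t ht => ⟨hw t ht, (hR t ht).1⟩, jc _ w hw (fun L r => (b1 L r).imp fun B hB t ht x hx =>
      le_of_tendsto' (hl t ht L x).abs fun a => hB a _ (hm a t ht) x hx)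
      fun x t ht => (hd t ht x).continuousWithinAt, hc,
    td w (fun t => R (w t)) hw (fun t ht => (hR t ht).1) hc hd⟩
  simp only [hm0, h0]
  exact tendsto_const_nhds

end Crest.Agent.R238.St
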