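import Crest.Agent.R238.StJZ

/-! # R238/St: linear scheme, jets of `y ↦ EE h u y (qq h s y)` (skeleton helper76)
`EE h u y (qq h s y) = ∫ ρ y z * qq h s y z`, `ρ y z = exp (η y z)`, `η y z = -qq h u y z - log (ZZ h u y)`
`= -qq h u y z + FF h u y / 2 - log (GG n 1)`.
`rho_jets`: `mx j (η · z) x ≤ A (1 + ell z)²` (`pdL_qq`, `abs_qq_le`, `ff_bd`; `u` is fixed in `Cb 2`), then
`rec_exp` + `ar` with `ω j = ((1 + ell z)²)^j`, `Y = 0`, `ε j = mx j ρ x / ρ x z`.
`sm_EEq`: `par` (domination from `lb`, `rho_jets`, `qq_ge`, `ZZ_bounds`, `integrable_mom`;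
measurability in `z`: `pdL L (Φ · z) x` is continuous in `z`, see `cont_jet`).
`ljz`: `lb` with `f = ρ · z`, `g = qq h s · z`; the term `j = 0` is `mx 1 ρ * mx (k-1) g ≤ A ρ (1+ell)² YY`
(`qq_le_YY`), the others are bounded with `abs_qq_le` (`K` or `√N`), `EE_mom`. -/

set_option autoImplicit false
open MeasureTheory Filter Topology

namespace Crest.Agent.R238.St

variable {n : ℕ}

/-- the Gibbs density -/
noncomputable def rho (h : ℝ) (u : E n → ℝ) (x z : E n) : ℝ :=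
  Real.exp (-qq h u x z) / ZZ h u x

theorem StLin1_unif (P : ℕ → ℝ → Prop) (hm : ∀ j a b, a ≤ b → P j a → P j b)
    (h : ∀ j, ∃ A, 0 ≤ A ∧ P j A) (p : ℕ) : ∃ A, 0 ≤ A ∧ ∀ j, j ≤ p → P j A := by
  choose A hA0 hA using h
  refine ⟨∑ j ∈ Finset.range (p + 1), A j, Finset.sum_nonneg fun j _ => hA0 j, fun j hj => ?_⟩
  exact hm j _ _ (Finset.single_le_sum (f := A) (fun j _ => hA0 j)
    (Finset.mem_range.2 (Nat.lt_succ_of_le hj))) (hA j)

theorem StLin1_cb {s : E n → ℝ} (hs : Cb 2 s) (p : ℕ) :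
    ∃ K, 0 ≤ K ∧ ∀ j, 2 ≤ j → j ≤ p → Bd j K s := by
  obtain ⟨K, hK, H⟩ := StLin1_unif (fun j K => 2 ≤ j → Bd j K s)
    (fun j a b hab H hj => (H hj).mono hab)
    (fun j => by
      by_cases hj : 2 ≤ j
      · obtain ⟨M, hM, H⟩ := cb_bd hs hj
        exact ⟨M, hM, fun _ => H⟩
      · exact ⟨0, le_rfl, fun h => absurd h hj⟩) p
  exact ⟨K, hK, fun j h2 hj => H j hj h2⟩

theorem StLin1_JC {c C : ℝ} {u : E n → ℝ} {h : ℝ} (hc : 0 < c) (hC : 0 < C) (hu : Good c C u)
    (hh : 0 < h) : JC (fun y z => rho h u y z) := by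
  have h1 : Sm (fun y => (ZZ h u y)⁻¹) :=
    (sm_ZZ hc hu hh).1.inv (fun y => (ZZ_pos hc hC hu hh y).ne')
  have h2 := JC.mul (JC.exp (JC.neg (JC_qq hu.1.1 hh))) (JC.left h1)
  simpa only [rho, div_eq_mul_inv] using h2

theorem StLin1_pos {c C : ℝ} {u : E n → ℝ} {h : ℝ} (hc : 0 < c) (hC : 0 < C) (hu : Good c C u)
    (hh : 0 < h) (x z : E n) : 0 < rho h u x z :=
  div_pos (Real.exp_pos _) (ZZ_pos hc hC hu hh x)

theorem StLin1_le {c C : ℝ} {u : E n → ℝ} {h : ℝ} (hc : 0 < c) (hC : 0 < C) (hu : Good c C u)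
    (hh : 0 < h) (x z : E n) :
    rho h u x z ≤ Real.exp (-(c * ‖z‖ ^ 2 / 2)) / GG n C := by
  unfold rho
  have h1 := (qq_ge hu hh x z).1
  have h2 := (ZZ_bounds hc hC hu hh x).1
  have h3 := GG_pos n hC
  gcongr

theorem StLin1_exp {c C : ℝ} {u : E n → ℝ} {h : ℝ} (hc : 0 < c) (hC : 0 < C) (hu : Good c C u)
    (hh : 0 < h) (x z : E n) :
    rho h u x z = Real.exp ((-1) * qq h u x z + (1 / 2 * FF h u x + -Real.log (GG n 1))) := by
  have h1 := ZZ_pos hc hC hu hh x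
  have h2 : 0 < GG n 1 := GG_pos n one_pos
  have h3 : 1 / 2 * FF h u x + -Real.log (GG n 1) = -Real.log (ZZ h u x) := by
    unfold FF
    rw [Real.log_div h1.ne' h2.ne']
    ring
  rw [h3, Real.exp_add, Real.exp_neg (Real.log _), Real.exp_log h1]
  simp only [rho, div_eq_mul_inv, neg_mul, one_mul]

theorem StLin1_EE (h : ℝ) (u : E n → ℝ) (x : E n) (Φ : E n → ℝ) :
    EE h u x Φ = ∫ z, rho h u x z * Φ z := by
  unfold EE rho
  rw [← integral_div]
  congr 1
  ext z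
  ring

theorem StLin1_int {c C : ℝ} {u : E n → ℝ} {h : ℝ} (hc : 0 < c) (hu : Good c C u)
    (hh : 0 < h) (x : E n) {Ψ : E n → ℝ} (hΨ : PG Ψ) :
    Integrable (fun z => rho h u x z * Ψ z) := by
  have := (integrable_EE hc hu hh x hΨ).div_const (ZZ h u x)
  refine this.congr (Eventually.of_forall fun z => ?_)
  simp only [rho]
  ring

theorem StLin1_abs {c C : ℝ} {u : E n → ℝ} {h : ℝ} (hc : 0 < c) (hu : Good c C u)
    (hh : 0 < h) (x : E n) {F Ψ : E n → ℝ} (hΨ : PG Ψ) (H : ∀ z, |F z| ≤ rho h u x z * Ψ z) :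
    |∫ z, F z| ≤ EE h u x Ψ := by
  rw [StLin1_EE]
  have := norm_integral_le_of_norm_le (μ := volume) (f := F) (StLin1_int hc hu hh x hΨ)
    (Eventually.of_forall fun z => by simpa [Real.norm_eq_abs] using H z)
  simpa [Real.norm_eq_abs] using this

theorem StLin1_one_le (z : E n) : 1 ≤ (1 + ell z) ^ 2 := by
  have := ell_nonneg z
  nlinarith

theorem StLin1_qq {s : E n → ℝ} (hs : Sm s) {h : ℝ} (hh : 0 < h) {K : ℝ} (hK : 0 ≤ K)
    (L : List (Fin n)) (H : Bd (2 + L.length) K s) (x z : E n) :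
    |qq h (pdL L s) x z| ≤ K * (1 + ell z) ^ 2 := by
  have h1 := abs_qq_le (sm_pdL hs L) hh (bd_pdL L H) x z
  have h2 := ell_nonneg z
  have h3 : ell z ^ 2 / 2 ≤ (1 + ell z) ^ 2 := by nlinarith
  calc _ ≤ K * ell z ^ 2 / 2 := h1
    _ = K * (ell z ^ 2 / 2) := by ring
    _ ≤ _ := mul_le_mul_of_nonneg_left h3 hK

theorem StLin1_mxq {s : E n → ℝ} (hs : Sm s) {h : ℝ} (hh : 0 < h) {K : ℝ} (hK : 0 ≤ K)
    (j : ℕ) (H : Bd (2 + j) K s) (x z : E n) :
    mx j (fun y => qq h s y z) x ≤ K * (1 + ell z) ^ 2 := by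
  refine mx_le (mul_nonneg hK (sq_nonneg _)) fun L hL => ?_
  rw [pdL_qq hs hh z L]
  exact StLin1_qq hs hh hK L (hL ▸ H) x z

theorem sm_rho {c C : ℝ} {u : E n → ℝ} {h : ℝ} (hc : 0 < c) (hC : 0 < C) (hu : Good c C u)
    (hh : 0 < h) (z : E n) : Sm (fun y => rho h u y z) :=
  (StLin1_JC hc hC hu hh).1 z

theorem rho_jets {c C : ℝ} (hc : 0 < c) (hC : 0 < C) {u : E n → ℝ} (hu : Good c C u) (p : ℕ) :
    ∃ A : ℝ, 0 ≤ A ∧ ∀ (h : ℝ) (x z : E n) (j : ℕ), 0 < h → j ≤ p →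
      mx j (fun y => rho h u y z) x ≤ rho h u x z * (A * ((1 + ell z) ^ 2) ^ j) := by
  obtain ⟨K, hK, HK⟩ := StLin1_cb hu.1 (p + 6)
  obtain ⟨B, hB, HB⟩ := StLin1_unif
    (fun j B => 1 ≤ j → j ≤ p + 2 → ∀ h : ℝ, 0 < h → Bd j B (FF h u))
    (fun j a b hab H h1 h2 h hh => (H h1 h2 h hh).mono hab)
    (fun j => by
      by_cases hj : 1 ≤ j
      · obtain ⟨A, hA, H⟩ := ff_bd n j hj hc hC K
        refine ⟨A, hA, fun _ h2 h hh => H h u hh hu fun i h3 h4 => HK i (by omega) (by omega)⟩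
      · exact ⟨0, le_rfl, fun h => absurd h hj⟩) (p + 2)
  obtain ⟨A', hA', HA⟩ := ar (p + 2) (by omega) (1 + K + B) (by linarith)
  refine ⟨A', by linarith, fun h x z j hh hj => ?_⟩
  have hρ := StLin1_pos hc hC hu hh x z
  have hw := StLin1_one_le z
  have hA0 : 0 ≤ A' := by linarith
  rcases Nat.eq_zero_or_pos j with rfl | hj1
  · refine mx_le (by positivity) fun L hL => ?_
    rw [List.length_eq_zero_iff.1 hL, pdL_nil, abs_of_pos hρ]
    have : 1 ≤ A' := by linarith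
    simp only [pow_zero, mul_one]
    nlinarith
  set η : E n → ℝ := fun y => (-1) * qq h u y z + (1 / 2 * FF h u y + -Real.log (GG n 1)) with hη
  have hq : Sm (fun y => qq h u y z) := sm_qq hu.1.1 hh z
  have hF : Sm (FF h u) := sm_FF hc hC hu hh
  have hq' : Sm (fun y => (-1) * qq h u y z) := contDiff_const.mul hq
  have hF' : Sm (fun y => 1 / 2 * FF h u y) := contDiff_const.mul hF
  have hF'' : Sm (fun y => 1 / 2 * FF h u y + -Real.log (GG n 1)) := hF'.add contDiff_const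
  have hηs : Sm η := hq'.add hF''
  have hρe : (fun y => rho h u y z) = fun y => Real.exp (η y) :=
    funext fun y => StLin1_exp hc hC hu hh y z
  have hρx : rho h u x z = Real.exp (η x) := StLin1_exp hc hC hu hh x z
  have hα : ∀ i, 1 ≤ i → i ≤ p + 2 → mx i η x ≤ (1 + K + B) * ((1 + ell z) ^ 2) ^ i := by
    intro i h1 h2
    refine mx_le (by positivity) fun L hL => ?_
    have hne : L ≠ [] := by
      rintro rfl
      simp at hL
      omega
    have e : pdL L η x = (-1) * qq h (pdL L u) x z + 1 / 2 * pdL L (FF h u) x := by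
      rw [hη, pdL_add hq' hF'', pdL_add hF' contDiff_const, pdL_const_mul hq, pdL_const_mul hF,
        pdL_const _ hne, pdL_qq hu.1.1 hh z L]
      simp
    have b1 := StLin1_qq hu.1.1 hh hK L (HK _ (by omega) (by omega)) x z
    have b2 := HB i h2 h1 h2 h hh L hL x
    have b3 : (1 + ell z) ^ 2 ≤ ((1 + ell z) ^ 2) ^ i := le_self_pow₀ hw (by omega)
    rw [e]
    have b4 : |(-1) * qq h (pdL L u) x z + 1 / 2 * pdL L (FF h u) x| ≤
        |qq h (pdL L u) x z| + |pdL L (FF h u) x| := by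
      refine (abs_add_le _ _).trans ?_
      rw [abs_mul, abs_mul]
      have := abs_nonneg (pdL L (FF h u) x)
      norm_num
      linarith
    have b5 : K * (1 + ell z) ^ 2 ≤ K * ((1 + ell z) ^ 2) ^ i := mul_le_mul_of_nonneg_left b3 hK
    have b6 : B * 1 ≤ B * ((1 + ell z) ^ 2) ^ i := mul_le_mul_of_nonneg_left (hw.trans b3) hB
    have b7 : (0 : ℝ) ≤ ((1 + ell z) ^ 2) ^ i := by positivity
    nlinarith
  have key := (HA (fun i => ((1 + ell z) ^ 2) ^ i) (fun i => mx i η x)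
    (fun i => mx i (fun y => rho h u y z) x / rho h u x z) 0 le_rfl (fun i => by positivity)
    (fun i => mx_nonneg _ _ _) (fun i => div_nonneg (mx_nonneg _ _ _) hρ.le)
    (fun i j _ _ _ => by rw [pow_add]) (fun i h1 h2 => hα i h1 h2.le)
    (by simpa using hα (p + 2) (by omega) le_rfl) (fun i _ => ?_)).1 j hj1 (by omega)
  · rwa [div_le_iff₀ hρ, mul_comm] at key
  · rw [div_le_iff₀ hρ]
    have hS : 0 ≤ ∑ l ∈ Finset.range i,
        mx (l + 1) (fun y => rho h u y z) x / rho h u x z * mx (i - l) η x :=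
      Finset.sum_nonneg fun l _ => mul_nonneg (div_nonneg (mx_nonneg _ _ _) hρ.le) (mx_nonneg _ _ _)
    refine mx_le (mul_nonneg (add_nonneg (mx_nonneg _ _ _) (by positivity)) hρ.le) fun L hL => ?_
    have r := rec_exp hηs L hL x
    rw [← hρe, ← hρx] at r
    have r2 := le_mx hL η x
    have e : (∑ l ∈ Finset.range i,
        mx (l + 1) (fun y => rho h u y z) x / rho h u x z * mx (i - l) η x) * rho h u x z =
        ∑ l ∈ Finset.range i, mx (l + 1) (fun y => rho h u y z) x * mx (i - l) η x := by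
      rw [Finset.sum_mul]
      refine Finset.sum_congr rfl fun l _ => ?_
      field_simp
    have r3 : |pdL L (fun y => rho h u y z) x| ≤
        |pdL L (fun y => rho h u y z) x - rho h u x z * pdL L η x| + rho h u x z * |pdL L η x| := by
      have := abs_add_le (pdL L (fun y => rho h u y z) x - rho h u x z * pdL L η x)
        (rho h u x z * pdL L η x)
      rw [abs_mul, abs_of_pos hρ] at this
      simpa using this
    have r4 : rho h u x z * |pdL L η x| ≤ rho h u x z * mx (i + 1) η x :=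
      mul_le_mul_of_nonneg_left r2 hρ.le
    calc _ ≤ _ := r3
      _ ≤ 2 ^ i * (∑ l ∈ Finset.range i, mx (l + 1) (fun y => rho h u y z) x * mx (i - l) η x) +
          rho h u x z * mx (i + 1) η x := add_le_add r r4
      _ = _ := by rw [← e]; ring

/-- Leibniz remainder, every term bounded by the same quantity -/
theorem StLin1_rem {c C : ℝ} (hc : 0 < c) (hC : 0 < C) {u : E n → ℝ} (hu : Good c C u) (k : ℕ) :
    ∃ A : ℝ, 0 ≤ A ∧ ∀ (h : ℝ) (s : E n → ℝ) (x z : E n) (L : List (Fin n)) (Y M : ℝ), 0 < h →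
      Sm s → L.length = k → 0 ≤ Y → 0 ≤ M →
      (1 ≤ k → mx (k - 1) (fun y => qq h s y z) x ≤ Y + M * (1 + ell z) ^ 2) →
      (∀ j, j + 2 ≤ k → mx j (fun y => qq h s y z) x ≤ M * (1 + ell z) ^ 2) →
      |pdL L (fun y => rho h u y z * qq h s y z) x - rho h u x z * qq h (pdL L s) x z| ≤
        rho h u x z * (A * ((1 + ell z) ^ 2 * Y + M * (1 + ell z) ^ (2 * k + 2))) := by
  obtain ⟨A, hA, HA⟩ := rho_jets hc hC hu k
  refine ⟨2 ^ k * k * A, by positivity, fun h s x z L Y M hh hs hL hY hM H1 H2 => ?_⟩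
  have hρ := StLin1_pos hc hC hu hh x z
  have hw := StLin1_one_le z
  have r := lb (sm_rho hc hC hu hh z) (sm_qq hs hh z) L x
  rw [pdL_qq hs hh z L, hL] at r
  refine r.trans ?_
  set w : ℝ := (1 + ell z) ^ 2 with hwd
  have hw0 : 0 ≤ w := by linarith
  have e1 : (1 + ell z) ^ (2 * k + 2) = w ^ (k + 1) := by
    rw [hwd, ← pow_mul]
    congr 1
  rw [e1]
  have hT : ∀ j ∈ Finset.range k, mx (j + 1) (fun y => rho h u y z) x *
      mx (k - 1 - j) (fun y => qq h s y z) x ≤ rho h u x z * (A * (w * Y + M * w ^ (k + 1))) := by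
    intro j hj
    have hj' := Finset.mem_range.1 hj
    have a1 := HA h x z (j + 1) hh (by omega)
    rw [← hwd] at a1
    have a2 : w ^ (j + 1) * w ≤ w ^ (k + 1) := by
      rw [← pow_succ]
      exact pow_le_pow_right₀ hw (by omega)
    have a3 : rho h u x z * A * (M * (w ^ (j + 1) * w)) ≤ rho h u x z * A * (M * w ^ (k + 1)) :=
      mul_le_mul_of_nonneg_left (mul_le_mul_of_nonneg_left a2 hM) (by positivity)
    rcases Nat.eq_zero_or_pos j with rfl | hj1
    · have a4 := H1 (by omega)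
      calc _ ≤ rho h u x z * (A * w ^ (0 + 1)) * (Y + M * w) :=
            mul_le_mul a1 a4 (mx_nonneg _ _ _) (by positivity)
        _ = rho h u x z * A * (w * Y) + rho h u x z * A * (M * (w ^ (0 + 1) * w)) := by ring
        _ ≤ rho h u x z * A * (w * Y) + rho h u x z * A * (M * w ^ (k + 1)) := by linarith
        _ = _ := by ring
    · have a4 := H2 (k - 1 - j) (by omega)
      have a5 : 0 ≤ rho h u x z * A * (w * Y) := by positivity
      calc _ ≤ rho h u x z * (A * w ^ (j + 1)) * (M * w) :=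
            mul_le_mul a1 a4 (mx_nonneg _ _ _) (by positivity)
        _ = rho h u x z * A * (M * (w ^ (j + 1) * w)) := by ring
        _ ≤ rho h u x z * A * (w * Y) + rho h u x z * A * (M * w ^ (k + 1)) := by linarith
        _ = _ := by ring
  have hS := Finset.sum_le_card_nsmul _ _ _ hT
  rw [Finset.card_range, nsmul_eq_mul] at hS
  calc _ ≤ 2 ^ k * (k * (rho h u x z * (A * (w * Y + M * w ^ (k + 1))))) :=
        mul_le_mul_of_nonneg_left hS (by positivity)
    _ = _ := by ring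

theorem StLin1_prod {c C : ℝ} (hc : 0 < c) (hC : 0 < C) {u : E n → ℝ} (hu : Good c C u) (k : ℕ) :
    ∃ A : ℝ, 0 ≤ A ∧ ∀ (h : ℝ) (s : E n → ℝ) (x z : E n) (L : List (Fin n)) (M : ℝ), 0 < h →
      Sm s → L.length = k → 0 ≤ M → (∀ j, 2 ≤ j → j ≤ k + 2 → Bd j M s) →
      |pdL L (fun y => rho h u y z * qq h s y z) x| ≤
        rho h u x z * (A * M * (1 + ell z) ^ (2 * k + 2)) := by
  obtain ⟨A, hA, HA⟩ := StLin1_rem hc hC hu k
  refine ⟨A + 1, by positivity, fun h s x z L M hh hs hL hM H => ?_⟩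
  have hρ := StLin1_pos hc hC hu hh x z
  have r := HA h s x z L 0 M hh hs hL le_rfl hM
    (fun _ => by
      rw [zero_add]
      exact StLin1_mxq hs hh hM _ (H _ (by omega) (by omega)) x z)
    (fun j hj => StLin1_mxq hs hh hM _ (H _ (by omega) (by omega)) x z)
  have r2 := StLin1_qq hs hh hM L (H _ (by omega) (by omega)) x z
  have r3 : (1 + ell z) ^ 2 ≤ (1 + ell z) ^ (2 * k + 2) :=
    pow_le_pow_right₀ (by linarith [ell_nonneg z]) (by omega)
  have r4 : rho h u x z * |qq h (pdL L s) x z| ≤ rho h u x z * (M * (1 + ell z) ^ (2 * k + 2)) :=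
    mul_le_mul_of_nonneg_left (r2.trans (mul_le_mul_of_nonneg_left r3 hM)) hρ.le
  have r5 := abs_add_le
    (pdL L (fun y => rho h u y z * qq h s y z) x - rho h u x z * qq h (pdL L s) x z)
    (rho h u x z * qq h (pdL L s) x z)
  rw [abs_mul, abs_of_pos hρ, sub_add_cancel] at r5
  calc _ ≤ _ := r5
    _ ≤ _ := add_le_add r r4
    _ = _ := by ring

theorem sm_EEq {c C : ℝ} {u s : E n → ℝ} {h : ℝ} (hc : 0 < c) (hC : 0 < C) (hu : Good c C u)
    (hs : Cb 2 s) (hh : 0 < h) : Sm (fun y => EE h u y (qq h s y)) ∧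
      ∀ (L : List (Fin n)) (x : E n), Integrable (fun z => pdL L (fun y => rho h u y z * qq h s y z) x) ∧
        pdL L (fun y => EE h u y (qq h s y)) x = ∫ z, pdL L (fun y => rho h u y z * qq h s y z) x := by
  have hJ : JC (fun y z => rho h u y z * qq h s y z) :=
    JC.mul (StLin1_JC hc hC hu hh) (JC_qq hs.1 hh)
  have hG := GG_pos n hC
  have hb : ∀ L : List (Fin n), ∃ b : E n → ℝ, Integrable b ∧
      ∀ z x : E n, |pdL L (fun y => rho h u y z * qq h s y z) x| ≤ b z := by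
    intro L
    obtain ⟨A, hA, HA⟩ := StLin1_prod hc hC hu L.length
    obtain ⟨M, hM, HM⟩ := StLin1_cb hs (L.length + 2)
    refine ⟨fun z => A * M / GG n C * ((1 + ell z) ^ (2 * L.length + 2) *
      Real.exp (-(c * ‖z‖ ^ 2 / 2))), (integrable_mom _ hc).const_mul _, fun z x => ?_⟩
    refine (HA h s x z L M hh hs.1 rfl hM HM).trans ?_
    have h1 := StLin1_le hc hC hu hh x z
    have h2 : 0 ≤ A * M * (1 + ell z) ^ (2 * L.length + 2) := by
      have := ell_nonneg z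
      positivity
    refine (mul_le_mul_of_nonneg_right h1 h2).trans (le_of_eq ?_)
    ring
  have hm : ∀ (L : List (Fin n)) (x : E n),
      AEStronglyMeasurable (fun z => pdL L (fun y => rho h u y z * qq h s y z) x) volume :=
    fun L x => (cont_jet hJ L x).aestronglyMeasurable
  have P := par volume (fun y z => rho h u y z * qq h s y z) (Eventually.of_forall hJ.1) hm
    (fun L _ => by
      obtain ⟨b, hb1, hb2⟩ := hb L
      exact ⟨b, hb1, Eventually.of_forall fun z x _ => hb2 z x⟩)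
  have e : (fun y => EE h u y (qq h s y)) = fun y => ∫ z, rho h u y z * qq h s y z :=
    funext fun y => StLin1_EE h u y _
  rw [e]
  refine ⟨P.1, fun L x => ⟨?_, P.2 L x⟩⟩
  obtain ⟨b, hb1, hb2⟩ := hb L
  exact hb1.mono' (hm L x) (Eventually.of_forall fun z => by
    rw [Real.norm_eq_abs]; exact hb2 z x)

theorem ljz (k : ℕ) (hk : 2 ≤ k) {c C : ℝ} (hc : 0 < c) (hC : 0 < C) {u : E n → ℝ}
    (hu : Good c C u) (K : ℝ) : ∃ A : ℝ, 0 ≤ A ∧ ∀ (h : ℝ) (s : E n → ℝ) (N : ℝ), 0 < h → Cb 2 s →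
      (∀ j, 2 ≤ j → j < k → Bd j K s) → (∀ y, NN k s y ≤ N) →
      ∀ (x : E n) (L : List (Fin n)), L.length = k →
        |pdL L (fun y => EE h u y (qq h s y)) x - EE h u x (qq h (pdL L s) x)| ≤
          A * (1 + √N + EE h u x (fun z => (1 + ell z) ^ 2 * YY h k s x z)) := by
  obtain ⟨A, hA, HA⟩ := StLin1_rem hc hC hu k
  obtain ⟨Γ, hΓ, HΓ⟩ := EE_mom n (2 * k + 2) hc hC
  refine ⟨A * (1 + |K|) * Γ, by positivity, fun h s N hh hs HK HN x L hL => ?_⟩
  have hsk : Cb k s := ⟨hs.1, fun l hl => hs.2 l (hk.trans hl)⟩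
  have hsL : Cb 2 (pdL L s) := cb_of_bd (sm_pdL hs.1 L) fun j hj => by
    obtain ⟨M, _, HM⟩ := cb_bd hs (k := j + L.length) (by omega)
    exact ⟨M, bd_pdL L HM⟩
  have hN := Real.sqrt_nonneg N
  have hK := abs_nonneg K
  have hM : 0 ≤ |K| + √N := by positivity
  have hbd : ∀ j, 2 ≤ j → j ≤ k → Bd j (|K| + √N) s := by
    intro j h1 h2
    rcases h2.lt_or_eq with h3 | rfl
    · exact (HK j h1 h3).mono (by linarith [le_abs_self K])
    · exact (bd_of_NN HN).mono (by linarith)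
  obtain ⟨hI, hE⟩ := (sm_EEq hc hC hu hs hh).2 L x
  have p1 : PG (fun z => (1 + ell z) ^ 2 * YY h k s x z) := (PG_pow 2).mul (PG_YY hsk hh x)
  have p2 : PG (fun z : E n => (|K| + √N) * (1 + ell z) ^ (2 * k + 2)) :=
    (PG.const _).mul (PG_pow _)
  rw [hE, StLin1_EE h u x (qq h (pdL L s) x),
    ← integral_sub hI (StLin1_int hc hu hh x (PG_qq hsL hh x))]
  have b := StLin1_abs hc hu hh x
    (F := fun z => pdL L (fun y => rho h u y z * qq h s y z) x - rho h u x z * qq h (pdL L s) x z)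
    ((PG.const A).mul (p1.add p2)) (fun z => HA h s x z L (YY h k s x z) (|K| + √N) hh hs.1 hL
      (YY_nonneg hh _ _ _ _) hM
      (fun _ => by
        have h0 : 0 ≤ (|K| + √N) * (1 + ell z) ^ 2 := by positivity
        refine le_trans (mx_le (YY_nonneg hh k s x z) fun L' hL' => ?_) (by linarith)
        rw [pdL_qq hs.1 hh z L']
        exact qq_le_YY hs.1 hh L' (by omega) x z)
      (fun j hj => StLin1_mxq hs.1 hh hM _ (hbd _ (by omega) (by omega)) x z))
  refine b.trans ?_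
  rw [EE_const_mul, EE_add hc hu hh x p1 p2, EE_const_mul]
  have g1 := HΓ h u x hh hu (2 * k + 2) le_rfl
  have g2 : 0 ≤ EE h u x (fun z => (1 + ell z) ^ 2 * YY h k s x z) :=
    EE_nonneg x fun z => mul_nonneg (sq_nonneg _) (YY_nonneg hh _ _ _ _)
  set e := EE h u x (fun z => (1 + ell z) ^ 2 * YY h k s x z)
  have g3 : (|K| + √N) * EE h u x (fun z => (1 + ell z) ^ (2 * k + 2)) ≤ (|K| + √N) * Γ :=
    mul_le_mul_of_nonneg_left g1 hM
  have g4 : e + (|K| + √N) * Γ ≤ (1 + |K|) * Γ * (1 + √N + e) := by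
    have t1 : 0 ≤ (Γ - 1) * e := mul_nonneg (by linarith) g2
    have t2 : 0 ≤ |K| * Γ * (√N + e) := by positivity
    nlinarith
  calc _ ≤ A * ((1 + |K|) * Γ * (1 + √N + e)) :=
        mul_le_mul_of_nonneg_left (by linarith) hA
    _ = _ := by ring

theorem eeq_bd (p : ℕ) {c C : ℝ} (hc : 0 < c) (hC : 0 < C) {u : E n → ℝ} (hu : Good c C u)
    (K : ℝ) : ∃ A : ℝ, 0 ≤ A ∧ ∀ (h : ℝ) (s : E n → ℝ), 0 < h → Cb 2 s →
      (∀ j, 2 ≤ j → j ≤ p + 2 → Bd j K s) → Bd p A (fun y => EE h u y (qq h s y)) := by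
  obtain ⟨A, hA, HA⟩ := StLin1_prod hc hC hu p
  obtain ⟨Γ, hΓ, HΓ⟩ := EE_mom n (2 * p + 2) hc hC
  refine ⟨A * |K| * Γ, by positivity, fun h s hh hs HK L hL x => ?_⟩
  rw [((sm_EEq hc hC hu hs hh).2 L x).2]
  have b := StLin1_abs hc hu hh x (F := fun z => pdL L (fun y => rho h u y z * qq h s y z) x)
    ((PG.const (A * |K|)).mul (PG_pow (2 * p + 2))) (fun z => HA h s x z L |K| hh hs.1 hL
      (abs_nonneg K) fun j h1 h2 => (HK j h1 h2).mono (le_abs_self K))
  refine b.trans ?_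
  rw [EE_const_mul]
  exact mul_le_mul_of_nonneg_left (HΓ h u x hh hu _ le_rfl) (by positivity)

end Crest.Agent.R238.St
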