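import Crest.Agent.R238.StStep2

/-! # R238/St: one step of the scheme (skeleton helper76)
`pdL L (step h φ u) x = (1 + δ) λ^|L| pdL L (WW h φ u) (λ x)`, `λ = (1 + δ)⁻¹`, and
`pdL L (WW h φ u) = pdL L u + δ (pdL L (FF h u) + pdL L φ)`.
`step_NN`: `jz` + `absorb` with `r L = pdL L FF - 2 EE .. + pdL L φ`, `m = √N` (`bd_of_NN`).
`step_hess`: `ff_bd` with `p = 2`, `abs_form_le`, `sq_sum_abs_le`; `λ ≥ 1 - δ`.
`loc_bd`: orders `≥ 2` bounded, order 1 from `pd_zero_of_ev` + `seg_bound`, order 0 from `seg_bound`.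
`step_diff`: `|(1+δ) λ^k - 1| ≤ (k + 1) δ`, `seg_bound` from `x` to `λ x = x + (λ - 1) x`, `ff_bd`, `FF_bdd`.
`step_cons`: `taylor2` for `u` with `y = (λ - 1) • x`, `FF_cons` at `λ x` or `seg_bound` for `FF`
(`ff_bd` with `p = 1`) and `φ`. -/

set_option autoImplicit false
open MeasureTheory Filter Topology

namespace Crest.Agent.R238.St

variable {n : ℕ}

theorem step_cons (x : E n) {c C : ℝ} (hc : 0 < c) (hC : 0 < C) {φ : E n → ℝ}
    (hφ : Sm φ) (B : ℕ → ℝ) (B₀ : ℝ) : ∃ A : ℝ, ∀ (h : ℝ) (u : E n → ℝ), 0 < h → h ≤ 1 →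
      Good c C u → Ev u → (∀ j, 2 ≤ j → Bd j (B j) u) → |u 0| ≤ B₀ →
      |step h φ u x - u x - dl h * rhs φ u x| ≤ dl h * (A * h) := by
  obtain ⟨A1, hA1, H1⟩ := ff_bd n 1 le_rfl hc hC (max (B 3) (B 4))
  obtain ⟨A2, hA2, H2⟩ := FF_cons n hc hC (B 3)
  obtain ⟨A4, hA4, H4⟩ := FF_bdd n hc hC
  obtain ⟨A3, H3⟩ := (isCompact_closedBall (0 : E n) ‖x‖).exists_bound_of_continuousOn
    (f := fun z => ∑ i, |pd i φ z|)
    (continuous_finsetSum _ fun i _ => (sm_pd hφ i).continuous.abs).continuousOn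
  obtain ⟨A5, H5⟩ := (isCompact_closedBall (0 : E n) ‖x‖).exists_bound_of_continuousOn
    hφ.continuous.continuousOn
  refine ⟨2 * (|B 2| * ell x ^ 2) + A1 * ell x + A2 + |A3| * ell x + (A4 + |A5|),
    fun h u hh h1 hu _ hB _ => ?_⟩
  have hd := dl_pos hh
  have hd1 := dl_le_one hh h1
  have hdh : dl h ≤ h := by unfold dl; nlinarith
  have he := ell_nonneg x
  set δ := dl h with hδ
  obtain ⟨t, ht⟩ : ∃ t : ℝ, t = (1 + δ)⁻¹ - 1 := ⟨_, rfl⟩
  have ht1 : (1 + δ) * t = -δ := by rw [ht]; field_simp; ring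
  have ht0 : t ≤ 0 := by nlinarith
  have ht2 : -δ ≤ t := by nlinarith
  have hxy : (1 + δ)⁻¹ • x = x + t • x := by rw [ht, sub_smul, one_smul]; abel
  have hell : ell (t • x) ≤ δ * ell x := by
    rw [ell_smul, abs_of_nonpos ht0]
    exact mul_le_mul_of_nonneg_right (by linarith) he
  have hball : ∀ s ∈ Set.Icc (0 : ℝ) 1, x + s • t • x ∈ Metric.closedBall (0 : E n) ‖x‖ := fun s hs => by
    rw [mem_closedBall_zero_iff, smul_smul, show x + (s * t) • x = (1 + s * t) • x by rw [add_smul, one_smul],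
      norm_smul, Real.norm_eq_abs, abs_of_nonneg (by nlinarith [hs.1, hs.2])]
    exact mul_le_of_le_one_left (norm_nonneg _) (by nlinarith [hs.1])
  have e1 := taylor2 hu.1.1 x (t • x) (B := |B 2|) fun s _ i j =>
    (hB 2 le_rfl [i, j] rfl _).trans (le_abs_self _)
  have e1' : ∑ i, (t • x) i * pd i u x = t * eul u x := by
    simp only [eul, Finset.mul_sum, PiLp.smul_apply, smul_eq_mul, mul_assoc]
  rw [e1'] at e1
  have e2 := seg_bound (sm_FF hc hC hu hh) x (t • x) (B := A1) fun s _ i =>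
    H1 h u hh hu (fun j hj hj' => by
      have : j = 3 ∨ j = 4 := by omega
      rcases this with rfl | rfl
      · exact (hB 3 (by norm_num)).mono (le_max_left _ _)
      · exact (hB 4 (by norm_num)).mono (le_max_right _ _)) [i] rfl _
  have e3 := seg_bound hφ x (t • x) (B := |A3|) fun s hs i =>
    ((Finset.single_le_sum (f := fun i => |pd i φ (x + s • t • x)|) (fun _ _ => abs_nonneg _)
      (Finset.mem_univ i)).trans ((le_abs_self _).trans (H3 _ (hball s hs)))).trans (le_abs_self _)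
  have e4 := H2 h u x hh hu (hB 3 (by norm_num))
  have e5 := H4 h u (x + t • x) hh hu
  have e6 : |φ (x + t • x)| ≤ |A5| := by
    have := H5 _ (hball 1 ⟨zero_le_one, le_rfl⟩)
    rw [one_smul] at this
    exact this.trans (le_abs_self _)
  have key : step h φ u x - u x - δ * rhs φ u x =
      (1 + δ) * (u (x + t • x) - u x - t * eul u x) + δ * ((FF h u (x + t • x) - FF h u x) +
        (FF h u x - Real.log (hess u x).det) + (φ (x + t • x) - φ x) +
        δ * (FF h u (x + t • x) + φ (x + t • x))) := by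
    simp only [step, WW, rhs, ← hδ, hxy]
    linear_combination (eul u x) * ht1
  have b1 : |(1 + δ) * (u (x + t • x) - u x - t * eul u x)| ≤ δ * (2 * (|B 2| * ell x ^ 2) * h) := by
    rw [abs_mul, abs_of_pos (by linarith)]
    have := ell_nonneg (t • x)
    calc _ ≤ 2 * (|B 2| * (δ * ell x) ^ 2) := by
          refine mul_le_mul (by linarith) (e1.trans ?_) (abs_nonneg _) (by norm_num)
          gcongr
      _ = δ * (2 * (|B 2| * ell x ^ 2) * δ) := by ring
      _ ≤ _ := by gcongr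
  have b2 : |FF h u (x + t • x) - FF h u x| ≤ A1 * ell x * h :=
    e2.trans ((mul_le_mul_of_nonneg_left (hell.trans (mul_le_mul_of_nonneg_right hdh he)) hA1).trans_eq (by ring))
  have b3 : |φ (x + t • x) - φ x| ≤ |A3| * ell x * h :=
    e3.trans ((mul_le_mul_of_nonneg_left (hell.trans (mul_le_mul_of_nonneg_right hdh he)) (abs_nonneg _)).trans_eq
      (by ring))
  have b4 : |δ * (FF h u (x + t • x) + φ (x + t • x))| ≤ (A4 + |A5|) * h := by
    rw [abs_mul, abs_of_pos hd, mul_comm]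
    exact mul_le_mul ((abs_add_le _ _).trans (add_le_add e5 e6)) hdh hd.le (by positivity)
  rw [key]
  refine (abs_add_le _ _).trans ?_
  rw [abs_mul δ, abs_of_pos hd]
  have b5 := ((abs_add_le _ _).trans (add_le_add ((abs_add_le _ _).trans (add_le_add ((abs_add_le _ _).trans
    (add_le_add b2 e4)) b3)) b4))
  nlinarith [mul_le_mul_of_nonneg_left b5 hd.le]

end Crest.Agent.R238.St
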