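import Crest.Agent.R238.StLin1
import Crest.Agent.R238.StCov
import Crest.Agent.R238.StStep

/-! # R238/St: one step of the linear scheme (skeleton helper76); same proofs as in `StStep`
(`pdL L (lstep h u s) x = λ^|L| (pdL L s (λ x) + δ * (2 * pdL L (EE ..) (λ x)))`). -/

set_option autoImplicit false
open MeasureTheory Filter Topology

namespace Crest.Agent.R238.St

variable {n : ℕ}

theorem lin2_lam {h : ℝ} (hh : 0 < h) :
    0 < (1 + dl h)⁻¹ ∧ (1 + dl h)⁻¹ ≤ 1 ∧ 1 - (1 + dl h)⁻¹ ≤ dl h ∧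
      0 ≤ (1 + dl h)⁻¹ - 1 + dl h ∧ (1 + dl h)⁻¹ - 1 + dl h ≤ dl h ^ 2 := by
  have hd := dl_pos hh
  have h0 : 0 < (1 + dl h)⁻¹ := by positivity
  have h1 : (1 + dl h)⁻¹ ≤ 1 := inv_le_one_of_one_le₀ (by linarith)
  have h2 : (1 + dl h)⁻¹ - 1 + dl h = dl h ^ 2 * (1 + dl h)⁻¹ := by
    field_simp
    ring
  have h3 : 0 ≤ dl h ^ 2 * (1 + dl h)⁻¹ := by positivity
  have h4 : dl h ^ 2 * (1 + dl h)⁻¹ ≤ dl h ^ 2 := mul_le_of_le_one_right (sq_nonneg _) h1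
  exact ⟨h0, h1, by linarith, by linarith, by linarith⟩

theorem lin2_unif (B : ℕ → ℝ) (p : ℕ) : ∃ K : ℝ, 0 ≤ K ∧ ∀ j, j ≤ p → B j ≤ K := by
  refine ⟨∑ j ∈ Finset.range (p + 1), |B j|, Finset.sum_nonneg fun j _ => abs_nonneg _, fun j hj => ?_⟩
  exact (le_abs_self _).trans (Finset.single_le_sum (f := fun j => |B j|) (fun j _ => abs_nonneg _)
    (Finset.mem_range.2 (Nat.lt_succ_of_le hj)))

theorem lin2_cb {s : E n → ℝ} (hs : Cb 2 s) : ∃ B : ℕ → ℝ, ∀ j, 2 ≤ j → Bd j (B j) s := by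
  have : ∀ j : ℕ, ∃ M : ℝ, 2 ≤ j → Bd j M s := fun j => by
    by_cases hj : 2 ≤ j
    · obtain ⟨M, -, hM⟩ := cb_bd hs hj
      exact ⟨M, fun _ => hM⟩
    · exact ⟨0, fun h => absurd h hj⟩
  choose B hB using this
  exact ⟨B, hB⟩

/-- `eeq_bd` for a family of bounds -/
theorem lin2_eeq (p : ℕ) {c C : ℝ} (hc : 0 < c) (hC : 0 < C) {u : E n → ℝ} (hu : Good c C u)
    (B : ℕ → ℝ) : ∃ A : ℝ, 0 ≤ A ∧ ∀ (h : ℝ) (s : E n → ℝ), 0 < h → Sm s →
      (∀ j, 2 ≤ j → Bd j (B j) s) → Bd p A (fun y => EE h u y (qq h s y)) := by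
  obtain ⟨K, -, hK⟩ := lin2_unif B (p + 2)
  obtain ⟨A, hA, H⟩ := eeq_bd p hc hC hu K
  exact ⟨A, hA, fun h s hh hs hB => H h s hh (cb_of_bd hs fun k hk => ⟨_, hB k hk⟩)
    fun j h2 hj => (hB j h2).mono (hK j hj)⟩

/-- `loc_bd` for all first derivatives of `pdL L` -/
theorem lin2_loc (L : List (Fin n)) (R : ℝ) (B : ℕ → ℝ) (B₀ : ℝ) : ∃ A : ℝ, 0 ≤ A ∧
    ∀ u : E n → ℝ, Sm u → Ev u → (∀ j, 2 ≤ j → Bd j (B j) u) → |u 0| ≤ B₀ →
      ∀ (i : Fin n) (x : E n), ‖x‖ ≤ R → |pd i (pdL L u) x| ≤ A := by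
  choose A hA H using fun i : Fin n => loc_bd (i :: L) R B B₀
  refine ⟨∑ i, A i, Finset.sum_nonneg fun i _ => hA i, fun u h1 h2 h3 h4 i x hx => ?_⟩
  exact (H i u h1 h2 h3 h4 x hx).trans
    (Finset.single_le_sum (f := A) (fun i _ => hA i) (Finset.mem_univ i))

theorem lin2_smul (a : ℝ) (x : E n) : x + (a - 1) • x = a • x := by
  rw [sub_smul, one_smul, add_sub_cancel]

theorem lin2_seg {a t : ℝ} (h0 : 0 ≤ a) (h1 : a ≤ 1) (ht : t ∈ Set.Icc (0 : ℝ) 1) (x : E n) :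
    ‖x + t • (a - 1) • x‖ ≤ ‖x‖ := by
  have e : x + t • (a - 1) • x = (1 + t * (a - 1)) • x := by
    rw [add_smul, one_smul, smul_smul]
  have h2 : 0 ≤ 1 + t * (a - 1) := by nlinarith [ht.1, ht.2]
  have h3 : 1 + t * (a - 1) ≤ 1 := by nlinarith [ht.1, ht.2]
  rw [e, norm_smul, Real.norm_of_nonneg h2]
  exact mul_le_of_le_one_left (norm_nonneg _) h3

theorem lin2_ell {h : ℝ} (hh : 0 < h) (x : E n) : ell (((1 + dl h)⁻¹ - 1) • x) ≤ dl h * ell x := by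
  obtain ⟨-, l1, l2, -, -⟩ := lin2_lam hh
  rw [ell_smul, abs_sub_comm, abs_of_nonneg (by linarith)]
  exact mul_le_mul_of_nonneg_right l2 (ell_nonneg x)

theorem lin2_sm {c C : ℝ} {u s : E n → ℝ} {h : ℝ} (hc : 0 < c) (hC : 0 < C) (hu : Good c C u)
    (hs : Cb 2 s) (hh : 0 < h) : Sm (LW h u s) :=
  hs.1.add (contDiff_const.mul (contDiff_const.mul (sm_EEq hc hC hu hs hh).1))

theorem sm_lstep {c C : ℝ} {u s : E n → ℝ} {h : ℝ} (hc : 0 < c) (hC : 0 < C) (hu : Good c C u)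
    (hs : Cb 2 s) (hh : 0 < h) : Sm (lstep h u s) := by
  exact (lin2_sm hc hC hu hs hh).comp (contDiff_id.const_smul _)

theorem pdL_lstep {c C : ℝ} {u s : E n → ℝ} {h : ℝ} (hc : 0 < c) (hC : 0 < C) (hu : Good c C u)
    (hs : Cb 2 s) (hh : 0 < h) (L : List (Fin n)) (x : E n) :
    pdL L (lstep h u s) x = (1 + dl h)⁻¹ ^ L.length * (pdL L s ((1 + dl h)⁻¹ • x) +
      dl h * (2 * pdL L (fun y => EE h u y (qq h s y)) ((1 + dl h)⁻¹ • x))) := by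
  have hq := (sm_EEq hc hC hu hs hh).1
  have h1 := congrFun (pdL_comp_smul (lin2_sm hc hC hu hs hh) (1 + dl h)⁻¹ L) x
  have h2 : pdL L (LW h u s) =
      fun y => pdL L s y + dl h * (2 * pdL L (fun y => EE h u y (qq h s y)) y) := by
    have e1 := pdL_add hs.1 (g := fun y => dl h * (2 * EE h u y (qq h s y)))
      (contDiff_const.mul (contDiff_const.mul hq)) L
    have e2 := pdL_const_mul (f := fun y => 2 * EE h u y (qq h s y)) (contDiff_const.mul hq) (dl h) L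
    have e3 := pdL_const_mul hq 2 L
    rw [e2, e3] at e1
    exact e1
  rw [h2] at h1
  exact h1

theorem lstep_ev {u s : E n → ℝ} (hu : Ev u) (hs : Ev s) (h : ℝ) : Ev (lstep h u s) := by
  intro x
  simp only [lstep, LW, EE, ZZ, smul_neg, hs _, qq_neg hu, qq_neg hs]

theorem lstep_cb {c C : ℝ} {u s : E n → ℝ} {h : ℝ} (hc : 0 < c) (hC : 0 < C) (hu : Good c C u)
    (hs : Cb 2 s) (hh : 0 < h) : Cb 2 (lstep h u s) := by
  obtain ⟨B, hB⟩ := lin2_cb hs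
  obtain ⟨l0, l1, -, -, -⟩ := lin2_lam hh
  have hd := dl_pos hh
  refine cb_of_bd (sm_lstep hc hC hu hs hh) fun k hk => ?_
  obtain ⟨A, hA, H⟩ := lin2_eeq k hc hC hu B
  refine ⟨B k + dl h * (2 * A), fun L hL x => ?_⟩
  rw [pdL_lstep hc hC hu hs hh, abs_mul, abs_of_pos (pow_pos l0 _)]
  refine (mul_le_of_le_one_left (abs_nonneg _) (pow_le_one₀ l0.le l1)).trans ((abs_add_le _ _).trans ?_)
  rw [abs_mul, abs_mul, abs_of_pos hd, abs_two]
  have h1 := hB k hk L hL ((1 + dl h)⁻¹ • x)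
  have h2 := H h s hh hs.1 hB L hL ((1 + dl h)⁻¹ • x)
  gcongr

theorem lstep_NN (k : ℕ) (hk : 2 ≤ k) {c C : ℝ} (hc : 0 < c) (hC : 0 < C) {u : E n → ℝ}
    (hu : Good c C u) (K : ℝ) : ∃ A : ℝ, 0 ≤ A ∧ ∀ (h : ℝ) (s : E n → ℝ) (N : ℝ), 0 < h → h ≤ 1 →
      Cb 2 s → (∀ j, 2 ≤ j → j < k → Bd j K s) → (∀ y, NN k s y ≤ N) →
      ∀ y, NN k (lstep h u s) y ≤ N + dl h * A * (1 + N) := by
  obtain ⟨A, hA, H⟩ := ljz k hk hc hC hu K
  obtain ⟨A', hA', H'⟩ := absorb n k hc hC (2 * A) (by positivity)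
  refine ⟨A', hA', fun h s N hh h1 hs hK hN y => ?_⟩
  obtain ⟨l0, l1, -, -, -⟩ := lin2_lam hh
  set x := (1 + dl h)⁻¹ • y with hx
  refine le_trans ?_ (H' h u s N x (fun L => 2 * (pdL L (fun y => EE h u y (qq h s y)) x -
    EE h u x (qq h (pdL L s) x))) hh h1 hu hk hs hN fun L hL => ?_)
  · refine Finset.sum_le_sum fun L _ => ?_
    rw [pdL_lstep hc hC hu hs hh, mul_pow, ← hx]
    refine (mul_le_of_le_one_left (sq_nonneg _) (pow_le_one₀ (pow_pos l0 _).le (pow_le_one₀ l0.le l1))).trans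
      (le_of_eq ?_)
    ring
  · rw [abs_mul, abs_two, mul_assoc]
    exact mul_le_mul_of_nonneg_left (H h s N hh hs hK hN x L hL) zero_le_two

theorem lstep_diff (L : List (Fin n)) (R : ℝ) {c C : ℝ} (hc : 0 < c) (hC : 0 < C) {u : E n → ℝ}
    (hu : Good c C u) (B : ℕ → ℝ) (B₀ : ℝ) : ∃ A : ℝ, ∀ (h : ℝ) (s : E n → ℝ), 0 < h → h ≤ 1 →
      Sm s → Ev s → (∀ j, 2 ≤ j → Bd j (B j) s) → |s 0| ≤ B₀ →
      ∀ x : E n, ‖x‖ ≤ R → |pdL L (lstep h u s) x - pdL L s x| ≤ dl h * A := by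
  obtain ⟨A0, hA0, H0⟩ := loc_bd L R B B₀
  obtain ⟨A1, hA1, H1⟩ := lin2_loc L R B B₀
  obtain ⟨A2, hA2, H2⟩ := lin2_eeq L.length hc hC hu B
  refine ⟨L.length * A0 + A1 * (n * R) + 2 * A2, fun h s hh h1 hs he hB h0 x hx => ?_⟩
  obtain ⟨l0, l1, l2, -, -⟩ := lin2_lam hh
  have hd := dl_pos hh
  rw [pdL_lstep hc hC hu (cb_of_bd hs fun k hk => ⟨_, hB k hk⟩) hh]
  have e1 : |pdL L s ((1 + dl h)⁻¹ • x) - pdL L s x| ≤ dl h * (A1 * (n * R)) := by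
    have := seg_bound (sm_pdL hs L) x (((1 + dl h)⁻¹ - 1) • x) (B := A1) fun t ht i =>
      H1 s hs he hB h0 i _ ((lin2_seg l0.le l1 ht x).trans hx)
    rw [lin2_smul] at this
    have h3 : ell x ≤ n * R := (ell_le x).trans (mul_le_mul_of_nonneg_left hx (Nat.cast_nonneg n))
    calc _ ≤ _ := this
      _ ≤ A1 * (dl h * (n * R)) := mul_le_mul_of_nonneg_left
          ((lin2_ell hh x).trans (mul_le_mul_of_nonneg_left h3 hd.le)) hA1
      _ = _ := by ring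
  have e2 : |pdL L s ((1 + dl h)⁻¹ • x)| ≤ A0 := by
    refine H0 s hs he hB h0 _ (le_trans ?_ hx)
    rw [norm_smul, Real.norm_of_nonneg l0.le]
    exact mul_le_of_le_one_left (norm_nonneg _) l1
  have e3 := H2 h s hh hs hB L rfl ((1 + dl h)⁻¹ • x)
  have p0 : 0 < (1 + dl h)⁻¹ ^ L.length := pow_pos l0 _
  have p1 : (1 + dl h)⁻¹ ^ L.length ≤ 1 := pow_le_one₀ l0.le l1
  have p2 : 1 - (1 + dl h)⁻¹ ^ L.length ≤ L.length * dl h := by
    have := one_add_mul_le_pow (a := (1 + dl h)⁻¹ - 1) (by linarith) L.length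
    rw [add_sub_cancel] at this
    have h4 := mul_le_mul_of_nonneg_left l2 (Nat.cast_nonneg (α := ℝ) L.length)
    linarith
  generalize (1 + dl h)⁻¹ ^ L.length = μ at p0 p1 p2 ⊢
  generalize pdL L s ((1 + dl h)⁻¹ • x) = a at e1 e2 ⊢
  generalize pdL L (fun y => EE h u y (qq h s y)) ((1 + dl h)⁻¹ • x) = q at e3 ⊢
  have e : μ * (a + dl h * (2 * q)) - pdL L s x = -((1 - μ) * a) + (a - pdL L s x) + μ * (dl h * (2 * q)) := by
    ring
  rw [e]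
  refine (abs_add_le _ _).trans ((add_le_add (abs_add_le _ _) le_rfl).trans ?_)
  rw [abs_neg, abs_mul, abs_mul, abs_mul, abs_mul, abs_two, abs_of_pos p0, abs_of_pos hd,
    abs_of_nonneg (sub_nonneg.2 p1)]
  have e4 : (1 - μ) * |a| ≤ L.length * dl h * A0 := mul_le_mul p2 e2 (abs_nonneg _) (by positivity)
  have e5 : μ * (dl h * (2 * |q|)) ≤ 1 * (dl h * (2 * A2)) := by gcongr
  linarith

theorem lstep_zero {c C : ℝ} (hc : 0 < c) (hC : 0 < C) {u : E n → ℝ} (hu : Good c C u) (K : ℝ) :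
    ∃ A : ℝ, 0 ≤ A ∧ ∀ (h : ℝ) (s : E n → ℝ), 0 < h → Cb 2 s → Bd 2 K s →
      |lstep h u s 0| ≤ |s 0| + dl h * A := by
  obtain ⟨A, hA, H⟩ := eeq_bd 0 hc hC hu K
  refine ⟨2 * A, by positivity, fun h s hh hs hK => ?_⟩
  have hd := dl_pos hh
  have h1 := H h s hh hs (fun j h1 h2 => by obtain rfl : j = 2 := by omega
                                            exact hK) [] rfl 0
  rw [pdL_nil] at h1
  simp only [lstep, LW, smul_zero]
  refine (abs_add_le _ _).trans ?_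
  rw [abs_mul, abs_mul, abs_two, abs_of_pos hd]
  gcongr

theorem lstep_cons (x : E n) {c C : ℝ} (hc : 0 < c) (hC : 0 < C) {u : E n → ℝ} (hu : Good c C u)
    (B : ℕ → ℝ) (B₀ : ℝ) : ∃ A : ℝ, ∀ (h : ℝ) (s : E n → ℝ), 0 < h → h ≤ 1 →
      Sm s → Ev s → (∀ j, 2 ≤ j → Bd j (B j) s) → |s 0| ≤ B₀ →
      |lstep h u s x - s x - dl h * Lop u s x| ≤ dl h * (A * h) := by
  obtain ⟨A1, hA1, H1⟩ := lin2_loc [] ‖x‖ B B₀
  obtain ⟨A2, hA2, H2⟩ := lin2_eeq 1 hc hC hu B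
  obtain ⟨M, -, hM⟩ := cb_bd hu.1 (show 2 ≤ 3 by norm_num)
  obtain ⟨A3, hA3, H3⟩ := EEq_cons n hc hC (max M (max (B 2) (B 3)))
  refine ⟨|B 2| * ell x ^ 2 + ell x * A1 + 2 * (A2 * ell x) + A3, fun h s hh h1 hs he hB h0 => ?_⟩
  obtain ⟨l0, l1, l2, l3, l4⟩ := lin2_lam hh
  have hd := dl_pos hh
  have hdh : dl h ≤ h := by
    unfold dl
    nlinarith
  have hx := ell_nonneg x
  have hcb : Cb 2 s := cb_of_bd hs fun k hk => ⟨_, hB k hk⟩
  have hy := lin2_ell hh x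
  have e1 := taylor2 hs x (((1 + dl h)⁻¹ - 1) • x) (B := |B 2|) fun t _ i j =>
    (hB 2 le_rfl [i, j] rfl _).trans (le_abs_self _)
  have e2 := seg_bound (sm_EEq hc hC hu hcb hh).1 x (((1 + dl h)⁻¹ - 1) • x) (B := A2) fun t _ i =>
    H2 h s hh hs hB [i] rfl _
  have e3 := H3 h u s x hh hu (hM.mono (le_max_left _ _)) hs
    ((hB 2 le_rfl).mono ((le_max_left _ _).trans (le_max_right _ _)))
    ((hB 3 (by norm_num)).mono ((le_max_right _ _).trans (le_max_right _ _)))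
  have e4 : |eul s x| ≤ ell x * A1 := by
    refine (Finset.abs_sum_le_sum_abs _ _).trans ?_
    rw [ell, Finset.sum_mul]
    refine Finset.sum_le_sum fun i _ => ?_
    rw [abs_mul]
    exact mul_le_mul_of_nonneg_left (H1 s hs he hB h0 i x le_rfl) (abs_nonneg _)
  have e5 : ∑ i, (((1 + dl h)⁻¹ - 1) • x) i * pd i s x = ((1 + dl h)⁻¹ - 1) * eul s x := by
    rw [eul, Finset.mul_sum]
    exact Finset.sum_congr rfl fun i _ => by rw [PiLp.smul_apply, smul_eq_mul, mul_assoc]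
  rw [lin2_smul, e5] at e1
  rw [lin2_smul] at e2
  have f1 : |B 2| * ell (((1 + dl h)⁻¹ - 1) • x) ^ 2 ≤ dl h * (|B 2| * ell x ^ 2 * h) := by
    have : ell (((1 + dl h)⁻¹ - 1) • x) ^ 2 ≤ (dl h * ell x) ^ 2 := pow_le_pow_left₀ (ell_nonneg _) hy 2
    calc _ ≤ |B 2| * (dl h * ell x) ^ 2 := mul_le_mul_of_nonneg_left this (abs_nonneg _)
      _ = dl h * (|B 2| * ell x ^ 2 * dl h) := by ring
      _ ≤ _ := by gcongr
  have f2 : A2 * ell (((1 + dl h)⁻¹ - 1) • x) ≤ A2 * ell x * h := by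
    calc _ ≤ A2 * (dl h * ell x) := mul_le_mul_of_nonneg_left hy hA2
      _ = A2 * ell x * dl h := by ring
      _ ≤ _ := by gcongr
  have f3 : ((1 + dl h)⁻¹ - 1 + dl h) * |eul s x| ≤ dl h * (ell x * A1 * h) := by
    calc _ ≤ dl h ^ 2 * (ell x * A1) := mul_le_mul l4 e4 (abs_nonneg _) (sq_nonneg _)
      _ = dl h * (ell x * A1 * dl h) := by ring
      _ ≤ _ := by gcongr
  simp only [lstep, LW, Lop]
  generalize (∑ i, ∑ j, (hess u x)⁻¹ i j * pd i (pd j s) x) = T at e3 ⊢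
  generalize EE h u ((1 + dl h)⁻¹ • x) (qq h s ((1 + dl h)⁻¹ • x)) = q' at e2 ⊢
  generalize EE h u x (qq h s x) = q at e2 e3
  have e : s ((1 + dl h)⁻¹ • x) + dl h * (2 * q') - s x - dl h * (T - eul s x) =
      (s ((1 + dl h)⁻¹ • x) - s x - ((1 + dl h)⁻¹ - 1) * eul s x) + ((1 + dl h)⁻¹ - 1 + dl h) * eul s x +
        dl h * (2 * (q' - q) + (2 * q - T)) := by ring
  rw [e]
  refine (abs_add_le _ _).trans ((add_le_add (abs_add_le _ _) le_rfl).trans ?_)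
  rw [abs_mul, abs_mul, abs_of_nonneg l3, abs_of_pos hd]
  have f4 : |2 * (q' - q) + (2 * q - T)| ≤ 2 * (A2 * ell x * h) + A3 * h := by
    refine (abs_add_le _ _).trans (add_le_add ?_ e3)
    rw [abs_mul, abs_two]
    linarith
  have f5 := mul_le_mul_of_nonneg_left f4 hd.le
  linarith

end Crest.Agent.R238.St
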