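import Crest.Agent.R238.StLin2
import Crest.Agent.R238.StIter
import Crest.Agent.R238.StLim

/-! # R238/St: the linear flow `s_t = L s` on any `[0,T]` (skeleton helper76)
`liter_bd`: `Cb 2`, `Ev` by induction on `m`; strong induction on `k ≥ 2` with `lstep_NN` + `gron`.
`linear_flow`: `lim_flow` as in `StMain`. -/

set_option autoImplicit false
open MeasureTheory Filter Topology

namespace Crest.Agent.R238.St

variable {n : ℕ}

theorem stlin3_cont (u w : E n → ℝ) (x : E n) {η : ℝ} (hη : 0 < η) : ∃ ρ : ℝ, 0 < ρ ∧ ∀ v : E n → ℝ,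
    (∀ L : List (Fin n), L.length ≤ 2 → |pdL L v x - pdL L w x| ≤ ρ) → |Lop u v x - Lop u w x| ≤ η := by
  set S := (∑ i, ∑ j, |(hess u x)⁻¹ i j|) + ∑ i, |x i| with hS
  have hS0 : 0 ≤ S := by positivity
  refine ⟨η / (S + 1), by positivity, fun v hv => ?_⟩
  have e : Lop u v x - Lop u w x =
      (∑ i, ∑ j, (hess u x)⁻¹ i j * (pd i (pd j v) x - pd i (pd j w) x)) -
        ∑ i, x i * (pd i v x - pd i w x) := by
    simp only [Lop, eul, mul_sub, Finset.sum_sub_distrib]
    ring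
  have a1 : |∑ i, ∑ j, (hess u x)⁻¹ i j * (pd i (pd j v) x - pd i (pd j w) x)| ≤
      (∑ i, ∑ j, |(hess u x)⁻¹ i j|) * (η / (S + 1)) := by
    rw [Finset.sum_mul]
    refine (Finset.abs_sum_le_sum_abs _ _).trans (Finset.sum_le_sum fun i _ => ?_)
    rw [Finset.sum_mul]
    refine (Finset.abs_sum_le_sum_abs _ _).trans (Finset.sum_le_sum fun j _ => ?_)
    rw [abs_mul]
    exact mul_le_mul_of_nonneg_left (hv [i, j] le_rfl) (abs_nonneg _)
  have a2 : |∑ i, x i * (pd i v x - pd i w x)| ≤ (∑ i, |x i|) * (η / (S + 1)) := by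
    rw [Finset.sum_mul]
    refine (Finset.abs_sum_le_sum_abs _ _).trans (Finset.sum_le_sum fun i _ => ?_)
    rw [abs_mul]
    exact mul_le_mul_of_nonneg_left (hv [i] (by simp)) (abs_nonneg _)
  have a3 : S * (η / (S + 1)) ≤ η := by
    rw [← mul_div_assoc, div_le_iff₀ (by positivity)]
    nlinarith
  rw [e]
  refine (abs_sub _ _).trans (le_trans ?_ a3)
  rw [hS, add_mul, ← hS]
  exact add_le_add a1 a2

theorem liter_bd {c C : ℝ} (hc : 0 < c) (hC : 0 < C) {u : E n → ℝ} (hu : Good c C u) (hue : Ev u)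
    {g : E n → ℝ} (hg : Cb 2 g) (hge : Ev g) (T : ℝ) :
    ∃ (B : ℕ → ℝ) (B₀ : ℝ), ∀ (h : ℝ) (m : ℕ), 0 < h → h ≤ 1 → (m : ℝ) * dl h ≤ T →
      Cb 2 ((lstep h u)^[m] g) ∧ Ev ((lstep h u)^[m] g) ∧
      (∀ j, 2 ≤ j → Bd j (B j) ((lstep h u)^[m] g)) ∧ |(lstep h u)^[m] g 0| ≤ B₀ := by
  have h1 : ∀ (h : ℝ) (m : ℕ), 0 < h → Cb 2 ((lstep h u)^[m] g) ∧ Ev ((lstep h u)^[m] g) := by
    intro h m hh
    induction m with
    | zero => exact ⟨hg, hge⟩
    | succ m ih =>
      rw [Function.iterate_succ_apply']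
      exact ⟨lstep_cb hc hC hu ih.1 hh, lstep_ev hue ih.2 h⟩
  have hmono : ∀ (h : ℝ) (m M : ℕ), 0 < h → m ≤ M → (M : ℝ) * dl h ≤ T → (m : ℝ) * dl h ≤ T :=
    fun h m M hh hm hM => le_trans (mul_le_mul_of_nonneg_right (Nat.cast_le.2 hm) (dl_pos hh).le) hM
  have h2 : ∀ k : ℕ, ∃ K : ℝ, ∀ j, 2 ≤ j → j < k → ∀ (h : ℝ) (m : ℕ), 0 < h → h ≤ 1 →
      (m : ℝ) * dl h ≤ T → Bd j K ((lstep h u)^[m] g) := by
    intro k
    induction k with
    | zero => exact ⟨0, fun j _ hj => absurd hj (Nat.not_lt_zero j)⟩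
    | succ k ih =>
      obtain ⟨K, hK⟩ := ih
      by_cases hk : 2 ≤ k
      · obtain ⟨A, hA0, hA⟩ := lstep_NN k hk hc hC hu K
        obtain ⟨M0, hM0, hM⟩ := cb_bd hg hk
        refine ⟨max K (√((1 + (n : ℝ) ^ k * M0 ^ 2) * Real.exp (A * T))), fun j hj hjk h m hh hh1 hm => ?_⟩
        rcases Nat.lt_succ_iff_lt_or_eq.1 hjk with hlt | rfl
        · exact (hK j hj hlt h m hh hh1 hm).mono (le_max_left _ _)
        · let N : ℕ → ℝ := fun i => Nat.rec ((n : ℝ) ^ j * M0 ^ 2) (fun _ a => a + dl h * A * (1 + a)) i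
          have hN : ∀ i, i ≤ m → ∀ y, NN j ((lstep h u)^[i] g) y ≤ N i := by
            intro i
            induction i with
            | zero => exact fun _ y => NN_le_of_bd hM y
            | succ i ih2 =>
              intro hi y
              rw [Function.iterate_succ_apply']
              exact hA h _ (N i) hh hh1 (h1 h i hh).1
                (fun j' hj' hlt => hK j' hj' hlt h i hh hh1 (hmono h i m hh (Nat.le_of_succ_le hi) hm))
                (ih2 (Nat.le_of_succ_le hi)) y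
          have hg' := gron (a := N) (dl_pos hh).le hA0 (by show 0 ≤ (n : ℝ) ^ j * M0 ^ 2; positivity) m hm
            (fun i _ => le_rfl) m le_rfl
          exact (bd_of_NN fun y => (hN m le_rfl y).trans hg').mono (le_max_right _ _)
      · refine ⟨K, fun j hj hjk => hK j hj (by omega)⟩
  choose K hK using h2
  obtain ⟨A, hA0, hA⟩ := lstep_zero hc hC hu (K 3)
  refine ⟨fun j => K (j + 1), |g 0| + T * A, fun h m hh hh1 hm => ⟨(h1 h m hh).1, (h1 h m hh).2,
    fun j hj => hK (j + 1) j hj (Nat.lt_succ_self j) h m hh hh1 hm, ?_⟩⟩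
  have h3 : ∀ i, i ≤ m → |(lstep h u)^[i] g 0| ≤ |g 0| + (i : ℝ) * dl h * A := by
    intro i
    induction i with
    | zero => intro _; simp
    | succ i ih =>
      intro hi
      rw [Function.iterate_succ_apply']
      have a1 := hA h _ hh (h1 h i hh).1
        (hK 3 2 le_rfl (by norm_num) h i hh hh1 (hmono h i m hh (Nat.le_of_succ_le hi) hm))
      have a2 := ih (Nat.le_of_succ_le hi)
      push_cast
      linarith
  have := h3 m le_rfl
  have a3 := mul_le_mul_of_nonneg_right hm hA0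
  linarith

theorem linear_flow {c : ℝ} (hc : 0 < c) {u : E n → ℝ} (hu : Cb 2 u) (huc : HessGe c u)
    (hue : Ev u) {g : E n → ℝ} (hg : Cb 2 g) (hge : Ev g) {T : ℝ} (hT : 0 ≤ T) :
    ∃ s : ℝ → E n → ℝ, s 0 = g ∧ Flow (Lop u) T s ∧ (∀ t ∈ Set.Icc (0 : ℝ) T, Ev (s t)) ∧
      ∃ B : ℕ → ℝ, ∀ t ∈ Set.Icc (0 : ℝ) T, ∀ j, 2 ≤ j → Bd j (B j) (s t) := by
  obtain ⟨M, hM0, hM⟩ := cb_bd hu le_rfl
  have hC : 0 < M * n + 1 := by positivity
  have hle : HessLe (M * n + 1) u := by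
    intro x v
    have a1 := abs_form_le (a := fun i j => pd i (pd j u) x) (fun i j => hM [i, j] rfl x) v
    have a2 := mul_le_mul_of_nonneg_left (sq_sum_abs_le v) hM0
    have a3 : 0 ≤ ∑ i, v i ^ 2 := Finset.sum_nonneg fun i _ => sq_nonneg _
    have a4 := le_abs_self (∑ i, ∑ j, v i * pd i (pd j u) x * v j)
    nlinarith
  have hG : Good c (M * n + 1) u := ⟨hu, huc, hle⟩
  obtain ⟨B, B₀, hB⟩ := liter_bd hc hC hG hue hg hge T
  let hh : ℕ → ℝ := fun a => 1 / ((a : ℝ) + 1)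
  have hp : ∀ a, 0 < hh a := fun a => by positivity
  have hp1 : ∀ a, hh a ≤ 1 := fun a => by
    have : (0 : ℝ) ≤ a := Nat.cast_nonneg a
    exact (div_le_one (by linarith)).2 (by linarith)
  have ht : Tendsto hh atTop (𝓝 0) := tendsto_one_div_add_atTop_nhds_zero_nat
  obtain ⟨w, hw0, hwP, hwF⟩ := lim_flow (Lop u) (fun w => Ev w ∧ ∀ j, 2 ≤ j → Bd j (B j) w) hT
    (fun a => dl (hh a)) (fun a => dl_pos (hp a))
    (by
      have := (ht.pow 2).div_const 12
      simpa [dl] using this)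
    (fun a m => (lstep (hh a) u)^[m] g) g (fun _ => rfl)
    (fun a m hm => by
      have := hB (hh a) m (hp a) (hp1 a) hm
      refine ⟨this.1.1, ?_⟩
      rw [Function.iterate_succ_apply']
      exact sm_lstep hc hC hG this.1 (hp a))
    (fun a m hm => by
      have := hB (hh a) m (hp a) (hp1 a) hm
      exact ⟨this.2.1, this.2.2.1⟩)
    (fun 𝒰 f g' hf _ hl => by
      refine ⟨fun x => ?_, fun j hj L hL x => ?_⟩
      · have a1 := hl [] (-x)
        have a2 := hl [] x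
        simp only [pdL_nil] at a1 a2
        exact tendsto_nhds_unique (a1.congr fun a => (hf a).1 x) a2
      · exact le_of_tendsto' (hl L x).abs fun a => (hf a).2 j hj L hL x)
    (fun L r => by
      obtain ⟨A, -, hA⟩ := loc_bd L r B B₀
      refine ⟨A, fun a m hm x hx => ?_⟩
      have := hB (hh a) m (hp a) (hp1 a) hm
      exact hA _ this.1.1 this.2.1 this.2.2.1 this.2.2.2 x hx)
    (fun L r => by
      obtain ⟨A, hA⟩ := lstep_diff L r hc hC hG B B₀
      refine ⟨A, fun a m hm x hx => ?_⟩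
      have := hB (hh a) m (hp a) (hp1 a) hm
      rw [Function.iterate_succ_apply']
      exact hA _ _ (hp a) (hp1 a) this.1.1 this.2.1 this.2.2.1 this.2.2.2 x hx)
    (fun x η hη => by
      obtain ⟨A, hA⟩ := lstep_cons x hc hC hG B B₀
      have a1 : Tendsto (fun a => A * hh a) atTop (𝓝 0) := by simpa using ht.const_mul A
      filter_upwards [a1.eventually (gt_mem_nhds hη)] with a ha m hm
      have := hB (hh a) m (hp a) (hp1 a) hm
      rw [Function.iterate_succ_apply']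
      exact (hA _ _ (hp a) (hp1 a) this.1.1 this.2.1 this.2.2.1 this.2.2.2).trans
        (mul_le_mul_of_nonneg_left ha.le (dl_pos (hp a)).le))
    (fun w x η _ hη => stlin3_cont u w x hη)
  exact ⟨w, hw0, hwF, fun t ht => (hwP t ht).1, B, fun t ht => (hwP t ht).2⟩

end Crest.Agent.R238.St
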