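import Crest.Agent.R238.StIter
import Crest.Agent.R238.StLim

/-! # R238/St: short-time existence for the parabolic Monge–Ampère flow (skeleton helper76)
`lim_flow` with `h a = 1 / (a + 1)`, `δ a = dl (h a)`, `U a m = (step (h a) φ)^[m] u₀`,
`P w = HessGe (c/2) w ∧ HessLe (2C) w ∧ Ev w ∧ Sm w ∧ ∀ j ≥ 2, Bd j (B j) w`. -/

set_option autoImplicit false
open MeasureTheory Filter Topology

namespace Crest.Agent.R238.St

variable {n : ℕ}

/-- continuity of `rhs` in the 2-jet (`log ∘ det` is continuous at a matrix with `det ≠ 0`) -/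
theorem rhs_cont (φ w : E n → ℝ) (x : E n) (hd : (hess w x).det ≠ 0) {η : ℝ} (hη : 0 < η) :
    ∃ ρ : ℝ, 0 < ρ ∧ ∀ v : E n → ℝ,
      (∀ L : List (Fin n), L.length ≤ 2 → |pdL L v x - pdL L w x| ≤ ρ) →
      |rhs φ v x - rhs φ w x| ≤ η := by
  have h1 : Continuous fun p : (Fin n → Fin n → ℝ) × (Fin n → ℝ) × ℝ => (Matrix.of p.1).det :=
    Continuous.matrix_det (continuous_matrix fun i j => by simp only [Matrix.of_apply]; fun_prop)
  have h2 : ContinuousAt (fun p : (Fin n → Fin n → ℝ) × (Fin n → ℝ) × ℝ =>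
      Real.log (Matrix.of p.1).det - ∑ i, x i * p.2.1 i + p.2.2 + φ x)
      (fun i j => pd i (pd j w) x, fun i => pd i w x, w x) :=
    (((h1.continuousAt.log (by exact hd)).sub (Continuous.continuousAt (by fun_prop))).add
      (Continuous.continuousAt (by fun_prop))).add continuousAt_const
  obtain ⟨δ, hδ, H⟩ := Metric.continuousAt_iff.1 h2 η hη
  refine ⟨δ / 2, half_pos hδ, fun v hv => ?_⟩
  have h3 := @H (fun i j => pd i (pd j v) x, fun i => pd i v x, v x) (by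
    refine lt_of_le_of_lt ?_ (half_lt_self hδ)
    have h0 := (half_pos hδ).le
    simp only [Prod.dist_eq, max_le_iff, dist_pi_le_iff h0, Real.dist_eq]
    exact ⟨fun i j => hv [i, j] le_rfl, fun i => hv [i] one_le_two, hv [] zero_le_two⟩)
  exact h3.le

theorem short_time {φ : E n → ℝ} (hφ : Cb 2 φ) (hφe : Ev φ) {c C : ℝ} (hc : 0 < c) (hC : 0 < C)
    (M : ℝ) : ∃ T : ℝ, 0 < T ∧ ∀ u₀ : E n → ℝ, Cb 2 u₀ → Ev u₀ → HessGe c u₀ → HessLe C u₀ →
      Bd 3 M u₀ → Bd 4 M u₀ → ∃ u : ℝ → E n → ℝ, u 0 = u₀ ∧ Flow (rhs φ) T u ∧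
        (∀ t ∈ Set.Icc (0 : ℝ) T, Ev (u t) ∧ HessGe (c / 2) (u t) ∧ HessLe (2 * C) (u t)) ∧
        ∃ B : ℕ → ℝ, ∀ t ∈ Set.Icc (0 : ℝ) T, ∀ j, 2 ≤ j → Bd j (B j) (u t) := by
  obtain ⟨T, hT, H⟩ := iter_bd hφ hφe hc hC M
  refine ⟨T, hT, fun u₀ k1 k2 k3 k4 k5 k6 => ?_⟩
  obtain ⟨B, B₀, hB⟩ := H u₀ ⟨k1, k3, k4⟩ k2 k5 k6
  have c2 := half_pos hc
  have C2 : 0 < 2 * C := by positivity
  have p0 : ∀ a : ℕ, (0 : ℝ) < 1 / ((a : ℝ) + 1) := fun a => Nat.one_div_pos_of_nat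
  have p1 : ∀ a : ℕ, 1 / ((a : ℝ) + 1) ≤ 1 := fun a =>
    (div_le_one a.cast_add_one_pos).2 (le_add_of_nonneg_left a.cast_nonneg)
  have l0 : Tendsto (fun a : ℕ => 1 / ((a : ℝ) + 1)) atTop (𝓝 0) := tendsto_one_div_add_atTop_nhds_zero_nat
  have hB' := fun (a m : ℕ) => hB (1 / ((a : ℝ) + 1)) m (p0 a) (p1 a)
  obtain ⟨w, w0, wP, wF⟩ := lim_flow (rhs φ)
    (fun w => HessGe (c / 2) w ∧ HessLe (2 * C) w ∧ Ev w ∧ Sm w ∧ ∀ j, 2 ≤ j → Bd j (B j) w) hT.le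
    (fun a => dl (1 / ((a : ℝ) + 1))) (fun a => dl_pos (p0 a))
    (by simpa [dl] using (l0.pow 2).div_const 12)
    (fun a m => (step (1 / ((a : ℝ) + 1)) φ)^[m] u₀) u₀ (fun _ => rfl)
    (fun a m hm => ⟨(hB' a m hm).1.1.1, by
      rw [Function.iterate_succ_apply']
      exact sm_step c2 C2 hφ.1 (hB' a m hm).1 (p0 a)⟩)
    (fun a m hm => ⟨(hB' a m hm).1.2.1, (hB' a m hm).1.2.2, (hB' a m hm).2.1, (hB' a m hm).1.1.1,
      (hB' a m hm).2.2.1⟩)
    (fun 𝒰 f g hf hg hl => by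
      have t2 : ∀ (x : E n) (v : Fin n → ℝ), Tendsto (fun a => ∑ i, ∑ j, v i * pd i (pd j (f a)) x * v j)
          (𝒰 : Filter ℕ) (𝓝 (∑ i, ∑ j, v i * pd i (pd j g) x * v j)) := fun x v =>
        tendsto_finsetSum _ fun i _ => tendsto_finsetSum _ fun j _ =>
          ((hl [i, j] x).const_mul _).mul_const _
      refine ⟨fun x v => ge_of_tendsto' (t2 x v) fun a => (hf a).1 x v,
        fun x v => le_of_tendsto' (t2 x v) fun a => (hf a).2.1 x v, fun x => ?_, hg,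
        fun j hj L hL x => le_of_tendsto' (hl L x).abs fun a => (hf a).2.2.2.2 j hj L hL x⟩
      exact tendsto_nhds_unique ((hl [] (-x)).congr fun a => (hf a).2.2.1 x) (hl [] x))
    (fun L r => by
      obtain ⟨A, -, hA⟩ := loc_bd L r B B₀
      exact ⟨A, fun a m hm => hA _ (hB' a m hm).1.1.1 (hB' a m hm).2.1 (hB' a m hm).2.2.1
        (hB' a m hm).2.2.2⟩)
    (fun L r => by
      obtain ⟨A, hA⟩ := step_diff L r c2 C2 hφ.1 B B₀
      refine ⟨A, fun a m hm => ?_⟩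
      rw [Function.iterate_succ_apply']
      exact hA _ _ (p0 a) (p1 a) (hB' a m hm).1 (hB' a m hm).2.1 (hB' a m hm).2.2.1 (hB' a m hm).2.2.2)
    (fun x η hη => by
      obtain ⟨A, hA⟩ := step_cons x c2 C2 hφ.1 B B₀
      have l1 : Tendsto (fun a : ℕ => A * (1 / ((a : ℝ) + 1))) atTop (𝓝 0) := by
        simpa using l0.const_mul A
      filter_upwards [l1.eventually (gt_mem_nhds hη)] with a ha m hm
      rw [Function.iterate_succ_apply']
      exact (hA _ _ (p0 a) (p1 a) (hB' a m hm).1 (hB' a m hm).2.1 (hB' a m hm).2.2.1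
        (hB' a m hm).2.2.2).trans (mul_le_mul_of_nonneg_left ha.le (dl_pos (p0 a)).le))
    (fun w x η hw hη => rhs_cont φ w x (hess_posDef hw.2.2.2.1 c2 hw.1 x).det_pos.ne' hη)
  exact ⟨w, w0, wF, fun t ht => ⟨(wP t ht).2.2.1, (wP t ht).1, (wP t ht).2.1⟩, B,
    fun t ht => (wP t ht).2.2.2.2⟩

end Crest.Agent.R238.St
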