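import Crest.Agent.R238.StBas

/-! # R238/St: parametric integrals (skeleton helper76)
`par`: apply `sm_of_closed` to the class of all `x ↦ ∫ Φ x ω` with `Φ` as in the hypotheses;
`hasFDerivAt_integral_of_dominated_of_fderiv_le` with `F' x ω = cl (fun i => pd i (Φ · ω) x)`
(`fderiv_eq_cl`, `norm_cl_le`, `cl_single`) gives differentiability and `pd i ∫ = ∫ pd i`;
use `pdL_append` (`pdL L (pd i f) = pdL (L ++ [i]) f`) to see that the class is closed.
`par_interval`: `intervalIntegral.integral_of_le`, `μ = volume.restrict (Ioc a b)`, constant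
dominating functions from compactness of `Icc a b ×ˢ closedBall 0 R`. -/

set_option autoImplicit false
open MeasureTheory Filter Topology

namespace Crest.Agent.R238.St

variable {n : ℕ}

theorem stpar_aux {Ω : Type*} [MeasurableSpace Ω] (μ : Measure Ω) (F : E n → Ω → ℝ)
    (F' : E n → Ω → E n →L[ℝ] ℝ) (b : Ω → ℝ) (x : E n) (h1 : ∀ y, AEStronglyMeasurable (F y) μ)
    (h2 : Integrable (F x) μ) (h3 : AEStronglyMeasurable (F' x) μ)
    (h4 : ∀ᵐ ω ∂μ, ∀ y ∈ Metric.ball x 1, ‖F' y ω‖ ≤ b ω) (h5 : Integrable b μ)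
    (h6 : ∀ᵐ ω ∂μ, ∀ y ∈ Metric.ball x 1, HasFDerivAt (fun y => F y ω) (F' y ω) y) :
    HasFDerivAt (fun y => ∫ ω, F y ω ∂μ) (∫ ω, F' x ω ∂μ) x :=
  hasFDerivAt_integral_of_dominated_of_fderiv_le (Metric.ball_mem_nhds x one_pos) (Eventually.of_forall h1) h2 h3 h4
    h5 h6

theorem stpar_cl {Ω : Type*} [MeasurableSpace Ω] (μ : Measure Ω) (a : Fin n → Ω → ℝ)
    (h : ∀ i, Integrable (a i) μ) : Integrable (fun ω => cl fun i => a i ω) μ := by
  have hc : Continuous (cl : (Fin n → ℝ) → E n →L[ℝ] ℝ) := by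
    unfold cl
    exact continuous_finsetSum _ fun i _ => (continuous_apply i).smul continuous_const
  have hm : AEStronglyMeasurable (fun ω => cl fun i => a i ω) μ :=
    hc.comp_aestronglyMeasurable (aemeasurable_pi_lambda _ fun i => (h i).1.aemeasurable).aestronglyMeasurable
  exact Integrable.mono' (g := fun ω => ∑ i, |a i ω|) (integrable_finsetSum _ fun i _ => (h i).abs) hm
    (Eventually.of_forall fun ω => norm_cl_le _)

theorem par {Ω : Type*} [MeasurableSpace Ω] (μ : Measure Ω) (Φ : E n → Ω → ℝ)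
    (hs : ∀ᵐ ω ∂μ, Sm (fun x => Φ x ω))
    (hm : ∀ (L : List (Fin n)) (x : E n),
      AEStronglyMeasurable (fun ω => pdL L (fun y => Φ y ω) x) μ)
    (hb : ∀ (L : List (Fin n)) (R : ℝ), ∃ b : Ω → ℝ, Integrable b μ ∧
      ∀ᵐ ω ∂μ, ∀ x : E n, ‖x‖ ≤ R → |pdL L (fun y => Φ y ω) x| ≤ b ω) :
    Sm (fun x => ∫ ω, Φ x ω ∂μ) ∧ ∀ (L : List (Fin n)) (x : E n),
      pdL L (fun y => ∫ ω, Φ y ω ∂μ) x = ∫ ω, pdL L (fun y => Φ y ω) x ∂μ := by
  have hint : ∀ (L : List (Fin n)) (x : E n), Integrable (fun ω => pdL L (fun y => Φ y ω) x) μ := by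
    intro L x
    obtain ⟨b, hb1, hb2⟩ := hb L ‖x‖
    exact hb1.mono' (hm L x) (hb2.mono fun ω h => h x le_rfl)
  have key : ∀ (L : List (Fin n)) (x : E n),
      DifferentiableAt ℝ (fun y => ∫ ω, pdL L (fun y => Φ y ω) y ∂μ) x ∧
      ∀ i, pd i (fun y => ∫ ω, pdL L (fun y => Φ y ω) y ∂μ) x = ∫ ω, pdL (i :: L) (fun y => Φ y ω) x ∂μ := by
    intro L x
    choose b hb1 hb2 using fun i : Fin n => hb (i :: L) (‖x‖ + 1)
    have hF' : Integrable (fun ω => cl fun i => pdL (i :: L) (fun y => Φ y ω) x) μ := by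
      exact stpar_cl μ (fun i ω => pdL (i :: L) (fun y => Φ y ω) x) fun i => hint (i :: L) x
    have hbd : ∀ᵐ ω ∂μ, ∀ y ∈ Metric.ball x 1,
        ‖cl fun i => pdL (i :: L) (fun y => Φ y ω) y‖ ≤ ∑ i, b i ω := by
      filter_upwards [ae_all_iff.2 hb2] with ω hω y hy
      refine (norm_cl_le _).trans (Finset.sum_le_sum fun i _ => hω i y ?_)
      have h1 := norm_sub_norm_le y x
      rw [Metric.mem_ball, dist_eq_norm] at hy
      linarith
    have hdf : ∀ᵐ ω ∂μ, ∀ y ∈ Metric.ball x 1, HasFDerivAt (fun y => pdL L (fun y => Φ y ω) y)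
        (cl fun i => pdL (i :: L) (fun y => Φ y ω) y) y := by
      filter_upwards [hs] with ω hω y _
      have h1 := (((sm_pdL hω L).differentiable (by simp)) y).hasFDerivAt
      rw [fderiv_eq_cl] at h1
      exact h1
    have h := stpar_aux μ (fun y ω => pdL L (fun y => Φ y ω) y)
      (fun y ω => cl fun i => pdL (i :: L) (fun y => Φ y ω) y) (fun ω => ∑ i, b i ω) x (hm L) (hint L x) hF'.1 hbd
      (integrable_finsetSum _ fun i _ => hb1 i) hdf
    refine ⟨h.differentiableAt, fun i => ?_⟩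
    have h2 := congrArg (fun A : E n →L[ℝ] ℝ => A (EuclideanSpace.single i 1)) h.fderiv
    simp only [ContinuousLinearMap.integral_apply hF', cl_single] at h2
    exact h2
  refine ⟨sm_of_closed (fun f => ∃ L : List (Fin n), f = fun y => ∫ ω, pdL L (fun y => Φ y ω) y ∂μ) ?_ ?_ _
    ⟨[], rfl⟩, fun L => ?_⟩
  · rintro f ⟨L, rfl⟩ x
    exact (key L x).1
  · rintro f i ⟨L, rfl⟩
    exact ⟨i :: L, funext fun x => (key L x).2 i⟩
  · induction L with
    | nil => exact fun x => rfl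
    | cons i L ih =>
      intro x
      rw [pdL_cons, funext ih]
      exact (key L x).2 i

theorem par_interval {a b : ℝ} (hab : a ≤ b) (Φ : ℝ → E n → ℝ)
    (hs : ∀ s ∈ Set.Icc a b, Sm (Φ s))
    (hc : ∀ L : List (Fin n), ContinuousOn (fun p : ℝ × E n => pdL L (Φ p.1) p.2)
      (Set.Icc a b ×ˢ Set.univ)) :
    Sm (fun x => ∫ s in a..b, Φ s x) ∧ ∀ (L : List (Fin n)) (x : E n),
      pdL L (fun y => ∫ s in a..b, Φ s y) x = ∫ s in a..b, pdL L (Φ s) x := by
  simp only [intervalIntegral.integral_of_le hab]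
  have hae : ∀ᵐ s ∂(volume.restrict (Set.Ioc a b)), s ∈ Set.Icc a b :=
    (ae_restrict_mem measurableSet_Ioc).mono fun s h => Set.Ioc_subset_Icc_self h
  refine par (volume.restrict (Set.Ioc a b)) (fun x s => Φ s x) (hae.mono fun s h => hs s h) (fun L x => ?_)
    fun L R => ?_
  · have h : ContinuousOn (fun s => pdL L (Φ s) x) (Set.Ioc a b) :=
      (hc L).comp (f := fun s : ℝ => (s, x)) (by fun_prop) fun s h => ⟨Set.Ioc_subset_Icc_self h, trivial⟩
    exact h.aestronglyMeasurable measurableSet_Ioc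
  · obtain ⟨M, hM⟩ := ((isCompact_Icc (a := a) (b := b)).prod
      (isCompact_closedBall (0 : E n) R)).exists_bound_of_continuousOn
        ((hc L).mono (Set.prod_mono le_rfl (Set.subset_univ _)))
    refine ⟨fun _ => M, integrable_const _, hae.mono fun s h x hx => ?_⟩
    exact hM (s, x) ⟨h, by simpa using hx⟩

/-- time derivatives commute with `pdL`.  FTC: `u t x = u 0 x + ∫ s in 0..t, Φ s x`
(`intervalIntegral.integral_eq_sub_of_hasDeriv_right_of_le` or similar), `par_interval`, and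
the derivative of the primitive of a function continuous on `Icc 0 T`
(e.g. extend it continuously with `Set.projIcc`/`max 0 (min T s)`). -/
theorem td {T : ℝ} (u Φ : ℝ → E n → ℝ) (hu : ∀ t ∈ Set.Icc (0 : ℝ) T, Sm (u t))
    (hΦ : ∀ t ∈ Set.Icc (0 : ℝ) T, Sm (Φ t))
    (hc : ∀ L : List (Fin n), ContinuousOn (fun p : ℝ × E n => pdL L (Φ p.1) p.2)
      (Set.Icc (0 : ℝ) T ×ˢ Set.univ))
    (hd : ∀ t ∈ Set.Icc (0 : ℝ) T, ∀ x,
      HasDerivWithinAt (fun r => u r x) (Φ t x) (Set.Icc (0 : ℝ) T) t) :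
    ∀ (L : List (Fin n)), ∀ t ∈ Set.Icc (0 : ℝ) T, ∀ x,
      HasDerivWithinAt (fun r => pdL L (u r) x) (pdL L (Φ t) x) (Set.Icc (0 : ℝ) T) t := by
  intro L t ht x
  have hT : (0 : ℝ) ≤ T := ht.1.trans ht.2
  have hcx : ∀ (L : List (Fin n)) (x : E n), ContinuousOn (fun s => pdL L (Φ s) x) (Set.Icc 0 T) := fun L x =>
    (hc L).comp (f := fun s : ℝ => (s, x)) (by fun_prop) fun s h => ⟨h, trivial⟩
  have h1 : ∀ r ∈ Set.Icc (0 : ℝ) T, u r = fun y => u 0 y + ∫ s in (0 : ℝ)..r, Φ s y := by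
    intro r hr
    funext y
    have hsub : Set.Icc 0 r ⊆ Set.Icc 0 T := Set.Icc_subset_Icc_right hr.2
    rw [intervalIntegral.integral_eq_sub_of_hasDeriv_right_of_le (f := fun r => u r y) hr.1
      (fun s hs => (hd s (hsub hs) y).continuousWithinAt.mono hsub)
      (fun s hs => ((hd s (hsub (Set.Ioo_subset_Icc_self hs)) y).hasDerivAt
        (Icc_mem_nhds hs.1 (hs.2.trans_le hr.2))).hasDerivWithinAt)
      (((hcx [] y).mono hsub).intervalIntegrable_of_Icc hr.1)]
    ring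
  set g : ℝ → ℝ := fun s => pdL L (Φ (Set.projIcc 0 T hT s)) x with hg
  have hgc : Continuous g :=
    (hcx L x).comp_continuous (continuous_subtype_val.comp continuous_projIcc) fun s => (Set.projIcc 0 T hT s).2
  have hge : ∀ s ∈ Set.Icc (0 : ℝ) T, g s = pdL L (Φ s) x := fun s hs => by
    simp only [hg, Set.projIcc_of_mem hT hs]
  have h2 : ∀ r ∈ Set.Icc (0 : ℝ) T, pdL L (u r) x = pdL L (u 0) x + ∫ s in (0 : ℝ)..r, g s := by
    intro r hr
    have hsub : Set.Icc 0 r ⊆ Set.Icc 0 T := Set.Icc_subset_Icc_right hr.2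
    obtain ⟨p1, p2⟩ := par_interval hr.1 Φ (fun s hs => hΦ s (hsub hs))
      fun L => (hc L).mono (Set.prod_mono hsub le_rfl)
    rw [h1 r hr, pdL_add (hu 0 ⟨le_rfl, hT⟩) p1]
    simp only [p2]
    congr 1
    refine intervalIntegral.integral_congr fun s hs => ?_
    rw [Set.uIcc_of_le hr.1] at hs
    exact (hge s (hsub hs)).symm
  have h3 := ((hgc.integral_hasStrictDerivAt 0 t).hasDerivAt.const_add (pdL L (u 0) x)).hasDerivWithinAt
    (s := Set.Icc (0 : ℝ) T)
  rw [hge t ht] at h3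
  exact h3.congr h2 (h2 t ht)

end Crest.Agent.R238.St
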