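import Crest.Agent.R238.StPar

/-! # R238/St: the averaged second difference `qq` (skeleton helper76)
With `ζ r = v (x + r • z)`, `ψ s = sd v x z s = ζ s + ζ (-s) - 2 ζ 0`: `ψ 0 = 0`,
`ψ' s = ζ' s - ζ' (-s)`, `ψ' 0 = 0`, `ψ'' s = ζ'' s + ζ'' (-s)`, `ζ'' s = Hq v (x + s • z) z`
(`hasDerivAt_line` twice).  So `lo s² ≤ ψ s ≤ hi s²` on `[0,h]` (monotonicity twice) and
`∫ s in 0..h, s² = h³/3`.
`qq_le_YY`: `|ψ s| = |∫ r in 0..s, ψ' r| ≤ ∫ r in 0..h, |ψ' r|`, `|ψ' r| ≤ ell z * √(dd ..)` since each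
`(pdL (i :: L) u (x + r z) - pdL (i :: L) u (x - r z))² ≤ dd`.
`pw`: pointwise in `s`, with `v₀, v₊, v₋` the three values and `d = dd k u x z s`:
`∑ (2 m (v₀ + (v₊ + v₋ - 2 v₀)/4) - m²) ≤ ∑ (v₀²/2 + v₊²/4 + v₋²/4 - (v₊ - v₋)²/8) ≤ N - d/8` and
`2 b √d ≤ d/8 + 8 b²` with `b = dl h * γ * 3 * ell z / (2 h)`; integrate over `[0,h]`, divide by `h`
(`2 * dl h * (3 / (2 h³)) = 1 / (4 h)`). -/

set_option autoImplicit false
open MeasureTheory Filter Topology

namespace Crest.Agent.R238.St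

variable {n : ℕ}

private theorem stq1_mono {f f' : ℝ → ℝ} {h : ℝ} (hd : ∀ s, HasDerivAt f (f' s) s) (h0 : f 0 = 0)
    (hp : ∀ s ∈ Set.Icc 0 h, 0 ≤ f' s) : ∀ s ∈ Set.Icc 0 h, 0 ≤ f s := by
  intro s hs
  have hm : MonotoneOn f (Set.Icc 0 h) :=
    monotoneOn_of_deriv_nonneg (convex_Icc 0 h) (fun t _ => (hd t).continuousAt.continuousWithinAt)
      (fun t _ => (hd t).differentiableAt.differentiableWithinAt) fun t ht => by
        rw [(hd t).deriv]
        exact hp t (interior_subset ht)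
  have := hm ⟨le_rfl, hs.1.trans hs.2⟩ hs hs.1
  rwa [h0] at this

private theorem stq1_low {ζ ζ' ζ'' : ℝ → ℝ} {h lo : ℝ} (h1 : ∀ s, HasDerivAt ζ (ζ' s) s)
    (h2 : ∀ s, HasDerivAt ζ' (ζ'' s) s) (H : ∀ s, |s| ≤ h → lo ≤ ζ'' s) :
    ∀ s ∈ Set.Icc 0 h, lo * s ^ 2 ≤ ζ s + ζ (-s) - 2 * ζ 0 := by
  have d2 : ∀ s, HasDerivAt (fun s => ζ' s - ζ' (-s) - 2 * lo * s) (ζ'' s + ζ'' (-s) - 2 * lo) s := fun s => by
    have a := (h2 (-s)).comp s (hasDerivAt_neg s)
    have b := ((h2 s).sub a).sub ((hasDerivAt_id s).const_mul (2 * lo))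
    exact b.congr_deriv (by simp)
  have d1 : ∀ s, HasDerivAt (fun s => ζ s + ζ (-s) - 2 * ζ 0 - lo * s ^ 2) (ζ' s - ζ' (-s) - 2 * lo * s) s :=
    fun s => by
      have a := (h1 (-s)).comp s (hasDerivAt_neg s)
      have b := (((h1 s).add a).sub_const (2 * ζ 0)).sub ((hasDerivAt_pow 2 s).const_mul lo)
      exact b.congr_deriv (by norm_num; ring)
  have p2 := stq1_mono (h := h) d2 (by simp) fun s hs => by
    have e1 := H s (by rw [abs_of_nonneg hs.1]; exact hs.2)
    have e2 := H (-s) (by rw [abs_neg, abs_of_nonneg hs.1]; exact hs.2)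
    linarith
  have p1 := stq1_mono (h := h) d1 (by simp; ring) p2
  intro s hs
  linarith [p1 s hs]

private theorem stq1_d2 {v : E n → ℝ} (hv : Sm v) (x z : E n) (s : ℝ) :
    HasDerivAt (fun r : ℝ => ∑ j, z j * pd j v (x + r • z)) (Hq v (x + s • z) fun i => z i) s := by
  have := HasDerivAt.fun_sum (u := Finset.univ) fun j _ => (hasDerivAt_line (sm_pd hv j) x z s).const_mul (z j)
  refine this.congr_deriv ?_
  symm
  rw [Hq, Finset.sum_comm]
  refine Finset.sum_congr rfl fun j _ => ?_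
  rw [Finset.mul_sum]
  exact Finset.sum_congr rfl fun i _ => by ring

theorem qq_bounds {v : E n → ℝ} (hv : Sm v) {h : ℝ} (hh : 0 < h) (x z : E n) {lo hi : ℝ}
    (H : ∀ s : ℝ, |s| ≤ h → lo ≤ Hq v (x + s • z) (fun i => z i) ∧
      Hq v (x + s • z) (fun i => z i) ≤ hi) :
    lo / 2 ≤ qq h v x z ∧ qq h v x z ≤ hi / 2 := by
  have h1 := hasDerivAt_line hv x z
  have h2 := stq1_d2 hv x z
  have e : ∀ s : ℝ, sd v x z s = v (x + s • z) + v (x + (-s) • z) - 2 * v (x + (0 : ℝ) • z) := fun s => by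
    rw [sd, neg_smul, zero_smul, add_zero, sub_eq_add_neg x]
  have lo' := stq1_low h1 h2 fun s hs => (H s hs).1
  have hi' := stq1_low (lo := -hi) (fun s => (h1 s).neg) (fun s => (h2 s).neg) fun s hs => neg_le_neg (H s hs).2
  have c : Continuous fun r : ℝ => v (x + r • z) := continuous_iff_continuousAt.2 fun s => (h1 s).continuousAt
  have cs : Continuous (sd v x z) := by
    rw [funext e]
    exact (c.add (c.comp continuous_neg)).sub continuous_const
  have i : ∀ a : ℝ, ∫ s in (0 : ℝ)..h, a * s ^ 2 = a * (h ^ 3 / 3) := fun a => by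
    rw [intervalIntegral.integral_const_mul, integral_pow]
    norm_num
  have ci : ∀ a : ℝ, IntervalIntegrable (fun s : ℝ => a * s ^ 2) volume 0 h := fun a =>
    (continuous_const.mul (continuous_pow 2)).intervalIntegrable _ _
  have l := intervalIntegral.integral_mono_on hh.le (ci lo) (cs.intervalIntegrable _ _) fun s hs => by
    rw [e]
    exact lo' s hs
  have u := intervalIntegral.integral_mono_on hh.le (cs.intervalIntegrable _ _) (ci hi) fun s hs => by
    rw [e]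
    have := hi' s hs
    simp only [Pi.neg_apply] at this
    linarith
  rw [i] at l u
  have hp : 0 < 3 / (2 * h ^ 3) := by positivity
  have k : ∀ a : ℝ, a / 2 = 3 / (2 * h ^ 3) * (a * (h ^ 3 / 3)) := fun a => by
    field_simp
  rw [k lo, k hi, qq]
  exact ⟨mul_le_mul_of_nonneg_left l hp.le, mul_le_mul_of_nonneg_left u hp.le⟩

theorem abs_qq_le {v : E n → ℝ} (hv : Sm v) {h : ℝ} (hh : 0 < h) {M : ℝ} (hM : Bd 2 M v)
    (x z : E n) : |qq h v x z| ≤ M * ell z ^ 2 / 2 := by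
  have := qq_bounds hv hh x z (lo := -(M * ell z ^ 2)) (hi := M * ell z ^ 2) fun s _ =>
    abs_le.1 (abs_form_le (fun i j => hM [i, j] rfl (x + s • z)) fun i => z i)
  rw [abs_le]
  constructor <;> linarith [this.1, this.2]

theorem qq_ge {c C : ℝ} {u : E n → ℝ} (hu : Good c C u) {h : ℝ} (hh : 0 < h) (x z : E n) :
    c * ‖z‖ ^ 2 / 2 ≤ qq h u x z ∧ qq h u x z ≤ C * ‖z‖ ^ 2 / 2 := by
  refine qq_bounds hu.1.1 hh x z fun s _ => ?_
  rw [norm_sq_eq]
  exact ⟨hu.2.1 _ _, hu.2.2 _ _⟩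

/-- consistency: `|Hq v (x + s z) z - Hq v x z| ≤ M h ell z ^ 3` for `|s| ≤ h` (`seg_bound`) -/
theorem qq_cons {v : E n → ℝ} (hv : Sm v) {h : ℝ} (hh : 0 < h) {M : ℝ} (hM : Bd 3 M v)
    (x z : E n) : |qq h v x z - Hq v x (fun i => z i) / 2| ≤ M * h * ell z ^ 3 / 2 := by
  have key : ∀ s : ℝ, |s| ≤ h →
      |Hq v (x + s • z) (fun i => z i) - Hq v x fun i => z i| ≤ M * h * ell z ^ 3 := fun s hs => by
    have b : ∀ i j, |pd i (pd j v) (x + s • z) - pd i (pd j v) x| ≤ M * h * ell z := fun i j => by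
      have M0 : 0 ≤ M := (abs_nonneg _).trans (hM [i, i, j] rfl x)
      have := seg_bound (sm_pd (sm_pd hv j) i) x (s • z) (B := M) fun t _ k => hM [k, i, j] rfl _
      rw [ell_smul] at this
      refine this.trans ?_
      rw [mul_assoc]
      exact mul_le_mul_of_nonneg_left (mul_le_mul_of_nonneg_right hs (ell_nonneg z)) M0
    have := abs_form_le b fun i => z i
    have e : Hq v (x + s • z) (fun i => z i) - Hq v x (fun i => z i) =
        ∑ i, ∑ j, z i * (pd i (pd j v) (x + s • z) - pd i (pd j v) x) * z j := by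
      rw [Hq, Hq, ← Finset.sum_sub_distrib]
      refine Finset.sum_congr rfl fun i _ => ?_
      rw [← Finset.sum_sub_distrib]
      exact Finset.sum_congr rfl fun j _ => by ring
    rw [e]
    refine this.trans (le_of_eq ?_)
    rw [ell]
    ring
  have := qq_bounds hv hh x z (lo := Hq v x (fun i => z i) - M * h * ell z ^ 3)
    (hi := Hq v x (fun i => z i) + M * h * ell z ^ 3) fun s hs => by
      have := abs_le.1 (key s hs)
      constructor <;> linarith [this.1, this.2]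
  rw [abs_le]
  constructor <;> linarith [this.1, this.2]

theorem qq_neg {u : E n → ℝ} (hu : Ev u) (h : ℝ) (x z : E n) : qq h u (-x) z = qq h u x z := by
  have e : sd u (-x) z = sd u x z := funext fun s => by
    rw [sd, sd, hu x, ← hu (x + s • z), ← hu (x - s • z), neg_add', neg_sub, sub_eq_neg_add (s • z), add_comm (u _)]
  rw [qq, qq, e]

end Crest.Agent.R238.St
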