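import Crest.Agent.R238.StJZ
import Crest.Agent.R238.StAbs

/-! # R238/St: one step of the scheme (skeleton helper76)
`pdL L (step h φ u) x = (1 + δ) λ^|L| pdL L (WW h φ u) (λ x)`, `λ = (1 + δ)⁻¹`, and
`pdL L (WW h φ u) = pdL L u + δ (pdL L (FF h u) + pdL L φ)`.
`step_NN`: `jz` + `absorb` with `r L = pdL L FF - 2 EE .. + pdL L φ`, `m = √N` (`bd_of_NN`).
`step_hess`: `ff_bd` with `p = 2`, `abs_form_le`, `sq_sum_abs_le`; `λ ≥ 1 - δ`.
`loc_bd`: orders `≥ 2` bounded, order 1 from `pd_zero_of_ev` + `seg_bound`, order 0 from `seg_bound`.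
`step_diff`: `|(1+δ) λ^k - 1| ≤ (k + 1) δ`, `seg_bound` from `x` to `λ x = x + (λ - 1) x`, `ff_bd`, `FF_bdd`.
`step_cons`: `taylor2` for `u` with `y = (λ - 1) • x`, `FF_cons` at `λ x` or `seg_bound` for `FF`
(`ff_bd` with `p = 1`) and `φ`. -/

set_option autoImplicit false
open MeasureTheory Filter Topology

namespace Crest.Agent.R238.St

variable {n : ℕ}

theorem dl_pos {h : ℝ} (hh : 0 < h) : 0 < dl h := by
  unfold dl; positivity
theorem dl_le_one {h : ℝ} (hh : 0 < h) (h1 : h ≤ 1) : dl h ≤ 1 := by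
  unfold dl; nlinarith
theorem stStep1_sm_WW {c C : ℝ} {φ u : E n → ℝ} {h : ℝ} (hc : 0 < c) (hC : 0 < C) (hφ : Sm φ)
    (hu : Good c C u) (hh : 0 < h) : Sm (WW h φ u) :=
  hu.1.1.add (contDiff_const.mul ((sm_FF hc hC hu hh).add hφ))


theorem sm_step {c C : ℝ} {φ u : E n → ℝ} {h : ℝ} (hc : 0 < c) (hC : 0 < C) (hφ : Sm φ)
    (hu : Good c C u) (hh : 0 < h) : Sm (step h φ u) := by
  exact contDiff_const.mul ((stStep1_sm_WW hc hC hφ hu hh).comp (contDiff_id.const_smul _))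
theorem pdL_step {c C : ℝ} {φ u : E n → ℝ} {h : ℝ} (hc : 0 < c) (hC : 0 < C) (hφ : Sm φ)
    (hu : Good c C u) (hh : 0 < h) (L : List (Fin n)) (x : E n) :
    pdL L (step h φ u) x = (1 + dl h) * ((1 + dl h)⁻¹ ^ L.length *
      (pdL L u ((1 + dl h)⁻¹ • x) + dl h * (pdL L (FF h u) ((1 + dl h)⁻¹ • x)
        + pdL L φ ((1 + dl h)⁻¹ • x)))) := by
  have hW := stStep1_sm_WW hc hC hφ hu hh
  have hF := sm_FF hc hC hu hh
  have h1 : pdL L (WW h φ u) = fun y => pdL L u y + dl h * (pdL L (FF h u) y + pdL L φ y) := by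
    have e := pdL_add hu.1.1 (contDiff_const.mul (hF.add hφ) :
      Sm fun y => dl h * (FF h u y + φ y)) L
    rw [pdL_const_mul (hF.add hφ), pdL_add hF hφ] at e
    exact e
  have h2 := pdL_const_mul (f := fun y => WW h φ u ((1 + dl h)⁻¹ • y))
    (hW.comp (contDiff_id.const_smul _)) (1 + dl h) L
  rw [pdL_comp_smul hW, h1] at h2
  exact congrFun h2 x
theorem step_ev {φ u : E n → ℝ} (hφ : Ev φ) (hu : Ev u) (h : ℝ) : Ev (step h φ u) := by
  intro x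
  simp only [step, WW, smul_neg, hu _, hφ _, FF_neg hu h _]
theorem stStep1_unif {u : E n → ℝ} (hu : Cb 2 u) (p : ℕ) :
    ∃ K : ℝ, ∀ j, 2 ≤ j → j ≤ p → Bd j K u := by
  induction p with
  | zero => exact ⟨0, fun j h1 h2 => by omega⟩
  | succ p ih =>
    obtain ⟨K, hK⟩ := ih
    by_cases hp : 2 ≤ p + 1
    · obtain ⟨M, -, hM⟩ := cb_bd hu hp
      refine ⟨max K M, fun j h1 h2 => ?_⟩
      rcases h2.eq_or_lt with rfl | h2
      · exact hM.mono (le_max_right _ _)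
      · exact (hK j h1 (by omega)).mono (le_max_left _ _)
    · exact ⟨0, fun j h1 h2 => by omega⟩

theorem stStep1_fac {δ : ℝ} (hδ : 0 < δ) {k : ℕ} (hk : 1 ≤ k) :
    0 ≤ (1 + δ) * (1 + δ)⁻¹ ^ k ∧ (1 + δ) * (1 + δ)⁻¹ ^ k ≤ 1 := by
  refine ⟨by positivity, ?_⟩
  obtain ⟨j, rfl⟩ := Nat.exists_eq_add_of_le' hk
  rw [pow_succ', ← mul_assoc, mul_inv_cancel₀ (by positivity), one_mul]
  exact pow_le_one₀ (by positivity) (inv_le_one_of_one_le₀ (by linarith))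


theorem step_cb {c C : ℝ} {φ u : E n → ℝ} {h : ℝ} (hc : 0 < c) (hC : 0 < C) (hφ : Cb 2 φ)
    (hu : Good c C u) (hh : 0 < h) : Cb 2 (step h φ u) := by
  refine cb_of_bd (sm_step hc hC hφ.1 hu hh) fun k hk => ?_
  obtain ⟨K, hK⟩ := stStep1_unif hu.1 (k + 4)
  obtain ⟨A, -, hA⟩ := ff_bd n k (by omega) hc hC K
  have hF := hA h u hh hu fun j h3 hj => hK j (by omega) (by omega)
  obtain ⟨M1, -, hM1⟩ := cb_bd hu.1 hk
  obtain ⟨M2, -, hM2⟩ := cb_bd hφ hk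
  have hδ := dl_pos hh
  refine ⟨M1 + dl h * (A + M2), fun L hL x => ?_⟩
  rw [pdL_step hc hC hφ.1 hu hh, ← mul_assoc, abs_mul]
  obtain ⟨f0, f1⟩ := stStep1_fac hδ (k := L.length) (by omega)
  rw [abs_of_nonneg f0]
  refine (mul_le_of_le_one_left (abs_nonneg _) f1).trans ((abs_add_le _ _).trans ?_)
  rw [abs_mul, abs_of_pos hδ]
  gcongr
  · exact hM1 L hL _
  · exact (abs_add_le _ _).trans (add_le_add (hF L hL _) (hM2 L hL _))
theorem step_NN (k : ℕ) (hk : 3 ≤ k) {c C : ℝ} (hc : 0 < c) (hC : 0 < C) (K : ℝ) {φ : E n → ℝ}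
    (hφ : Cb 2 φ) : ∃ A : ℝ, 0 ≤ A ∧ ∀ (h : ℝ) (u : E n → ℝ) (N : ℝ), 0 < h → h ≤ 1 →
      Good c C u → (∀ j, 3 ≤ j → j < k → Bd j K u) → (∀ y, NN k u y ≤ N) →
      (5 ≤ k ∨ √N ≤ K) → ∀ y, NN k (step h φ u) y ≤ N + dl h * A * (1 + N) := by
  obtain ⟨A, hA0, hA⟩ := jz n k hk hc hC K
  obtain ⟨M, hM0, hM⟩ := cb_bd hφ (k := k) (by omega)
  obtain ⟨A', hA'0, hA'⟩ := absorb n k hc hC (A + M) (by positivity)
  refine ⟨A', hA'0, fun h u N hh h1 hu hK hN hor y => ?_⟩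
  have hδ := dl_pos hh
  set x := (1 + dl h)⁻¹ • y with hx
  have hj := (hA h u (√N) hh hu (Real.sqrt_nonneg _) hK (bd_of_NN hN) hor x).2
  have hE : 0 ≤ EE h u x (fun z => (1 + ell z) ^ 2 * YY h k u x z) :=
    EE_nonneg x fun z => mul_nonneg (sq_nonneg _) (YY_nonneg hh k u x z)
  refine le_trans ?_ (hA' h u u N x
    (fun L => pdL L (FF h u) x - 2 * EE h u x (qq h (pdL L u) x) + pdL L φ x) hh h1 hu (by omega)
    hu.1 hN fun L hL => ?_)
  · refine Finset.sum_le_sum fun L hL => ?_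
    have hL' := mem_Ls.1 hL
    obtain ⟨f0, f1⟩ := stStep1_fac hδ (k := L.length) (by omega)
    rw [pdL_step hc hC hφ.1 hu hh, ← mul_assoc, mul_pow, ← hx]
    refine (mul_le_of_le_one_left (sq_nonneg _) (pow_le_one₀ f0 f1)).trans (le_of_eq ?_)
    ring
  · have e1 := hj L hL
    have e2 := hM L hL x
    have e3 := Real.sqrt_nonneg N
    refine (abs_add_le _ _).trans ?_
    nlinarith [mul_nonneg hM0 (add_nonneg e3 hE)]
theorem step_zero {c C : ℝ} (hc : 0 < c) (hC : 0 < C) (φ : E n → ℝ) :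
    ∃ A : ℝ, 0 ≤ A ∧ ∀ (h : ℝ) (u : E n → ℝ), 0 < h → h ≤ 1 → Good c C u →
      |step h φ u 0| ≤ |u 0| + dl h * A * (1 + |u 0|) := by
  obtain ⟨A, hA0, hA⟩ := FF_bdd n hc hC
  refine ⟨1 + 2 * (A + |φ 0|), by positivity, fun h u hh h1 hu => ?_⟩
  have hδ := dl_pos hh
  have hδ1 := dl_le_one hh h1
  have e1 := hA h u 0 hh hu
  have e2 : |u 0 + dl h * (FF h u 0 + φ 0)| ≤ |u 0| + dl h * (A + |φ 0|) := by
    refine (abs_add_le _ _).trans ?_
    rw [abs_mul, abs_of_pos hδ]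
    gcongr
    exact (abs_add_le _ _).trans (add_le_add e1 le_rfl)
  have e3 : 0 ≤ A + |φ 0| := by positivity
  have e4 := abs_nonneg (u 0)
  simp only [step, WW, smul_zero]
  rw [abs_mul, abs_of_pos (by linarith : 0 < 1 + dl h)]
  refine (mul_le_mul_of_nonneg_left e2 (by linarith)).trans ?_
  have e5 : dl h * (dl h * (A + |φ 0|)) ≤ 1 * (dl h * (A + |φ 0|)) :=
    mul_le_mul_of_nonneg_right hδ1 (by positivity)
  have e6 : 0 ≤ dl h * (A + |φ 0|) * |u 0| := by positivity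
  nlinarith
end Crest.Agent.R238.St
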