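import Crest.Agent.R238.StStep1

/-! # R238/St: one step of the scheme (skeleton helper76)
`pdL L (step h φ u) x = (1 + δ) λ^|L| pdL L (WW h φ u) (λ x)`, `λ = (1 + δ)⁻¹`, and
`pdL L (WW h φ u) = pdL L u + δ (pdL L (FF h u) + pdL L φ)`.
`step_NN`: `jz` + `absorb` with `r L = pdL L FF - 2 EE .. + pdL L φ`, `m = √N` (`bd_of_NN`).
`step_hess`: `ff_bd` with `p = 2`, `abs_form_le`, `sq_sum_abs_le`; `λ ≥ 1 - δ`.
`loc_bd`: orders `≥ 2` bounded, order 1 from `pd_zero_of_ev` + `seg_bound`, order 0 from `seg_bound`.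
`step_diff`: `|(1+δ) λ^k - 1| ≤ (k + 1) δ`, `seg_bound` from `x` to `λ x = x + (λ - 1) x`, `ff_bd`, `FF_bdd`.
`step_cons`: `taylor2` for `u` with `y = (λ - 1) • x`, `FF_cons` at `λ x` or `seg_bound` for `FF`
(`ff_bd` with `p = 1`) and `φ`. -/

set_option autoImplicit false
open MeasureTheory Filter Topology

namespace Crest.Agent.R238.St

variable {n : ℕ}

theorem ststep2_lam {δ : ℝ} (h0 : 0 < δ) : 0 < (1 + δ)⁻¹ ∧ (1 + δ)⁻¹ ≤ 1 ∧ 1 - δ ≤ (1 + δ)⁻¹ := by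
  refine ⟨by positivity, inv_le_one_of_one_le₀ (by linarith), ?_⟩
  rw [← one_div, le_div_iff₀ (by positivity)]
  nlinarith

theorem step_hess {c C : ℝ} (hc : 0 < c) (hC : 0 < C) (K : ℝ) {φ : E n → ℝ} (hφ : Cb 2 φ) :
    ∃ A : ℝ, 0 ≤ A ∧ ∀ (h : ℝ) (u : E n → ℝ) (c' C' : ℝ), 0 < h → h ≤ 1 → Good c C u →
      Bd 3 K u → Bd 4 K u → 0 ≤ c' → 0 ≤ C' → HessGe c' u → HessLe C' u →
      HessGe (c' - dl h * (A + c')) (step h φ u) ∧ HessLe (C' + dl h * A) (step h φ u) := by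
  obtain ⟨A₁, hA₁, hF⟩ := ff_bd n 2 (by norm_num) hc hC K
  obtain ⟨M, hM0, hM⟩ := cb_bd hφ le_rfl
  refine ⟨(A₁ + M) * n, by positivity, fun h u c' C' hh h1 hu h3 h4 hc' hC' hlo hhi => ?_⟩
  have hδ := dl_pos hh
  obtain ⟨hl0, hl1, hl2⟩ := ststep2_lam hδ
  have hFF : Bd 2 A₁ (FF h u) := hF h u hh hu fun j hj hj' => by
    obtain rfl | rfl : j = 3 ∨ j = 4 := by omega
    exacts [h3, h4]
  have key : ∀ (x : E n) (v : Fin n → ℝ), ∃ Q : ℝ, |Q| ≤ (A₁ + M) * n * ∑ i, v i ^ 2 ∧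
      ∑ i, ∑ j, v i * pd i (pd j (step h φ u)) x * v j =
        (1 + dl h)⁻¹ * (∑ i, ∑ j, v i * pd i (pd j u) ((1 + dl h)⁻¹ • x) * v j + dl h * Q) := by
    intro x v
    refine ⟨∑ i, ∑ j, v i * (pdL [i, j] (FF h u) ((1 + dl h)⁻¹ • x) + pdL [i, j] φ ((1 + dl h)⁻¹ • x)) * v j,
      ?_, ?_⟩
    · refine (abs_form_le (M := A₁ + M) (fun i j => (abs_add_le _ _).trans
        (add_le_add (hFF [i, j] rfl _) (hM [i, j] rfl _))) v).trans ?_
      rw [mul_assoc]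
      exact mul_le_mul_of_nonneg_left (sq_sum_abs_le v) (by positivity)
    · simp only [Finset.mul_sum, ← Finset.sum_add_distrib]
      refine Finset.sum_congr rfl fun i _ => Finset.sum_congr rfl fun j _ => ?_
      have e1 : pd i (pd j (step h φ u)) x = _ := pdL_step hc hC hφ.1 hu hh [i, j] x
      have e2 : pdL [i, j] u = pd i (pd j u) := rfl
      rw [e1, e2]
      have : (1 + dl h) ≠ 0 := by positivity
      rw [show [i, j].length = 2 from rfl]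
      generalize (1 + dl h)⁻¹ • x = y
      field_simp
  constructor
  · intro x v
    obtain ⟨Q, hQ, e⟩ := key x v
    have h5 := hlo ((1 + dl h)⁻¹ • x) v
    have hS : 0 ≤ ∑ i, v i ^ 2 := Finset.sum_nonneg fun i _ => sq_nonneg _
    rw [e]
    generalize ∑ i, ∑ j, v i * pd i (pd j u) ((1 + dl h)⁻¹ • x) * v j = P at h5 ⊢
    generalize ∑ i, v i ^ 2 = S at h5 hS hQ ⊢
    have hA : 0 ≤ (A₁ + M) * n := by positivity
    generalize (A₁ + M) * n = A at hA hQ ⊢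
    generalize (1 + dl h)⁻¹ = l at hl0 hl1 hl2 ⊢
    have h6 := mul_le_mul_of_nonneg_left h5 hl0.le
    have h7 := mul_le_mul_of_nonneg_right hl2 (mul_nonneg hc' hS)
    have h8 := mul_le_mul_of_nonneg_left (abs_le.1 hQ).1 (mul_nonneg hl0.le hδ.le)
    have h9 := mul_le_mul_of_nonneg_right hl1 (mul_nonneg hδ.le (mul_nonneg hA hS))
    nlinarith
  · intro x v
    obtain ⟨Q, hQ, e⟩ := key x v
    have h5 := hhi ((1 + dl h)⁻¹ • x) v
    have hS : 0 ≤ ∑ i, v i ^ 2 := Finset.sum_nonneg fun i _ => sq_nonneg _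
    rw [e]
    generalize ∑ i, ∑ j, v i * pd i (pd j u) ((1 + dl h)⁻¹ • x) * v j = P at h5 ⊢
    generalize ∑ i, v i ^ 2 = S at h5 hS hQ ⊢
    have hA : 0 ≤ (A₁ + M) * n := by positivity
    generalize (A₁ + M) * n = A at hA hQ ⊢
    generalize (1 + dl h)⁻¹ = l at hl0 hl1 hl2 ⊢
    have h6 := mul_le_mul_of_nonneg_left h5 hl0.le
    have h7 := mul_le_mul_of_nonneg_right hl1 (mul_nonneg hC' hS)
    have h8 := mul_le_mul_of_nonneg_left (abs_le.1 hQ).2 (mul_nonneg hl0.le hδ.le)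
    have h9 := mul_le_mul_of_nonneg_right hl1 (mul_nonneg hδ.le (mul_nonneg hA hS))
    nlinarith

theorem loc_bd (L : List (Fin n)) (R : ℝ) (B : ℕ → ℝ) (B₀ : ℝ) : ∃ A : ℝ, 0 ≤ A ∧
    ∀ u : E n → ℝ, Sm u → Ev u → (∀ j, 2 ≤ j → Bd j (B j) u) → |u 0| ≤ B₀ →
      ∀ x : E n, ‖x‖ ≤ R → |pdL L u x| ≤ A := by
  have hell : ∀ x : E n, ‖x‖ ≤ R → ell x ≤ n * |R| := fun x hx =>
    (ell_le x).trans (mul_le_mul_of_nonneg_left (hx.trans (le_abs_self R)) (Nat.cast_nonneg n))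
  have h1 : ∀ u : E n → ℝ, Sm u → Ev u → (∀ j, 2 ≤ j → Bd j (B j) u) → ∀ (i : Fin n) (x : E n), ‖x‖ ≤ R →
      |pd i u x| ≤ |B 2| * (n * |R|) := by
    intro u hu he hB i x hx
    have h2 := seg_bound (sm_pd hu i) 0 x (B := |B 2|) fun s _ j =>
      (hB 2 le_rfl [j, i] rfl _).trans (le_abs_self _)
    rw [zero_add, pd_zero_of_ev hu he, sub_zero] at h2
    exact h2.trans (mul_le_mul_of_nonneg_left (hell x hx) (abs_nonneg _))
  match L with
  | [] =>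
    refine ⟨|B₀| + |B 2| * (n * |R|) * (n * |R|), by positivity, fun u hu he hB h0 x hx => ?_⟩
    have h2 := seg_bound hu 0 x (B := |B 2| * (n * |R|)) fun s hs i => h1 u hu he hB i _ (by
      rw [zero_add, norm_smul, Real.norm_eq_abs, abs_of_nonneg hs.1]
      exact (mul_le_of_le_one_left (norm_nonneg _) hs.2).trans hx)
    rw [zero_add] at h2
    have h3 := mul_le_mul_of_nonneg_left (hell x hx) (show 0 ≤ |B 2| * (n * |R|) by positivity)
    have h4 := abs_sub_abs_le_abs_sub (u x) (u 0)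
    have h5 := le_abs_self B₀
    change |u x| ≤ _
    linarith
  | [i] => exact ⟨|B 2| * (n * |R|), by positivity, fun u hu he hB _ x hx => h1 u hu he hB i x hx⟩
  | i :: j :: L =>
    exact ⟨|B (i :: j :: L).length|, abs_nonneg _, fun u _ _ hB _ x _ =>
      (hB _ (by simp) _ rfl x).trans (le_abs_self _)⟩

theorem step_diff (L : List (Fin n)) (R : ℝ) {c C : ℝ} (hc : 0 < c) (hC : 0 < C) {φ : E n → ℝ}
    (hφ : Sm φ) (B : ℕ → ℝ) (B₀ : ℝ) : ∃ A : ℝ, ∀ (h : ℝ) (u : E n → ℝ), 0 < h → h ≤ 1 →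
      Good c C u → Ev u → (∀ j, 2 ≤ j → Bd j (B j) u) → |u 0| ≤ B₀ →
      ∀ x : E n, ‖x‖ ≤ R → |pdL L (step h φ u) x - pdL L u x| ≤ dl h * A := by
  obtain ⟨A₀, hA₀, h0⟩ := loc_bd L R B B₀
  choose A₁ hA₁ h1 using fun i : Fin n => loc_bd (i :: L) R B B₀
  obtain ⟨P, hP⟩ := (isCompact_closedBall (0 : E n) R).exists_bound_of_continuousOn
    (sm_pdL hφ L).continuous.continuousOn
  obtain ⟨F, hF⟩ : ∃ F : ℝ, ∀ (h : ℝ) (u : E n → ℝ), 0 < h → Good c C u → (∀ j, 2 ≤ j → Bd j (B j) u) →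
      ∀ x, |pdL L (FF h u) x| ≤ F := by
    rcases Nat.eq_zero_or_pos L.length with hL | hL
    · obtain ⟨F, -, hF⟩ := FF_bdd n hc hC
      rw [List.length_eq_zero_iff.1 hL]
      exact ⟨F, fun h u hh hu _ x => hF h u x hh hu⟩
    · obtain ⟨F, -, hF⟩ := ff_bd n L.length hL hc hC (∑ j ∈ Finset.range (L.length + 5), |B j|)
      refine ⟨F, fun h u hh hu hB x => hF h u hh hu (fun j hj hj' => (hB j (by omega)).mono ?_) L rfl x⟩
      exact (le_abs_self _).trans (Finset.single_le_sum (f := fun j => |B j|) (fun j _ => abs_nonneg _)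
        (Finset.mem_range.2 (by omega)))
  refine ⟨(L.length + 1) * A₀ + (∑ i, A₁ i) * (n * R) + 2 * (F + P), fun h u hh hh1 hu he hB hB₀ x hx => ?_⟩
  have hδ := dl_pos hh
  have hδ1 := dl_le_one hh hh1
  obtain ⟨hl0, hl1, hl2⟩ := ststep2_lam hδ
  rw [pdL_step hc hC hφ hu hh L x]
  generalize (1 + dl h)⁻¹ = l at hl0 hl1 hl2 ⊢
  generalize dl h = δ at hδ hδ1 hl2 ⊢
  have hn : ∀ s : ℝ, 0 ≤ s → s ≤ 1 → ‖s • x‖ ≤ R := fun s hs hs1 => by
    rw [norm_smul, Real.norm_eq_abs, abs_of_nonneg hs]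
    exact (mul_le_of_le_one_left (norm_nonneg _) hs1).trans hx
  have a0 := h0 u hu.1.1 he hB hB₀ _ (hn l hl0.le hl1)
  have a1 := seg_bound (sm_pdL hu.1.1 L) x ((l - 1) • x) (B := ∑ i, A₁ i) fun s hs i => by
    have e : x + s • (l - 1) • x = (1 + s * (l - 1)) • x := by rw [smul_smul, add_smul, one_smul]
    rw [e]
    refine (h1 i u hu.1.1 he hB hB₀ _ (hn _ ?_ ?_)).trans
      (Finset.single_le_sum (fun i _ => hA₁ i) (Finset.mem_univ i))
    · nlinarith [hs.1, hs.2]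
    · nlinarith [hs.1, hs.2]
  have e : x + (l - 1) • x = l • x := by rw [sub_smul, one_smul, add_sub_cancel]
  rw [e, ell_smul, abs_of_nonpos (by linarith : l - 1 ≤ 0)] at a1
  have hS : 0 ≤ ∑ i, A₁ i := Finset.sum_nonneg fun i _ => hA₁ i
  have a2 : -(l - 1) * ell x ≤ δ * (n * R) :=
    mul_le_mul (by linarith) ((ell_le x).trans (mul_le_mul_of_nonneg_left hx (Nat.cast_nonneg n)))
      (ell_nonneg x) hδ.le
  have a3 := a1.trans (mul_le_mul_of_nonneg_left a2 hS)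
  have a4 : |pdL L (FF h u) (l • x) + pdL L φ (l • x)| ≤ F + P :=
    (abs_add_le _ _).trans (add_le_add (hF h u hh hu hB _)
      (hP _ (mem_closedBall_zero_iff.2 (hn l hl0.le hl1))))
  have b1 : l ^ L.length ≤ 1 := pow_le_one₀ hl0.le hl1
  have b0 : 0 ≤ l ^ L.length := by positivity
  have b2 : 1 - L.length * δ ≤ l ^ L.length := by
    have := one_add_mul_le_pow (a := -δ) (by linarith) L.length
    have h' : (1 + -δ) ^ L.length ≤ l ^ L.length := pow_le_pow_left₀ (by linarith) (by linarith) _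
    linarith
  have hk : (0 : ℝ) ≤ L.length := Nat.cast_nonneg _
  have b3 : |(1 + δ) * l ^ L.length - 1| ≤ (L.length + 1) * δ := by
    rw [abs_le]
    constructor <;> nlinarith [mul_nonneg hδ.le b0, mul_nonneg hk hδ.le]
  have b4 : |(1 + δ) * l ^ L.length * δ| ≤ 2 * δ := by
    rw [abs_of_nonneg (by positivity)]
    refine mul_le_mul_of_nonneg_right ?_ hδ.le
    nlinarith
  generalize pdL L (FF h u) (l • x) + pdL L φ (l • x) = w at a4 ⊢
  generalize pdL L u (l • x) = a at a0 a3 ⊢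
  generalize pdL L u x = b at a3 ⊢
  have e2 : (1 + δ) * (l ^ L.length * (a + δ * w)) - b =
      ((1 + δ) * l ^ L.length - 1) * a + (a - b) + (1 + δ) * l ^ L.length * δ * w := by ring
  rw [e2]
  refine (abs_add_three _ _ _).trans ?_
  rw [abs_mul, abs_mul _ w]
  have c1 := mul_le_mul b3 a0 (abs_nonneg _) (by positivity)
  have c2 := mul_le_mul b4 a4 (abs_nonneg _) (by positivity)
  linarith

end Crest.Agent.R238.St
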